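import Crest.Agent.R185.Swindle

/-!
# R185/AscHNN: ascending HNN extensions (helper79)
-/

set_option autoImplicit false

namespace Crest.Agent.R185

open Function

/-- `G` is the ascending HNN extension of `A` along `φ`, with stable letter `t` -/
structure Asc {A G : Type} [Group A] [Group G] (φ : A →* A) (ι : A →* G) (t : G)
    (χ : G →* Multiplicative ℤ) : Prop where
  inj : Injective ι
  conj : ∀ a, t * ι a * t⁻¹ = ι (φ a)
  χt : χ t = Multiplicative.ofAdd 1
  χι : ∀ a, χ (ι a) = 1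
  gen : ∀ g, ∃ (p q : ℕ) (a : A), g = t⁻¹ ^ p * ι a * t ^ q

section General

variable {A G : Type} [Group A] [Group G] {φ : A →* A} {ι : A →* G} {t : G}

theorem asc_pow_conj (h : ∀ a, t * ι a * t⁻¹ = ι (φ a)) (n : ℕ) (a : A) :
    t ^ n * ι a * t⁻¹ ^ n = ι (φ^[n] a) := by
  induction n with
  | zero => simp
  | succ n ih =>
    rw [iterate_succ_apply', ← h, ← ih, pow_succ', pow_succ]
    simp only [mul_assoc]

theorem asc_pow_mul (h : ∀ a, t * ι a * t⁻¹ = ι (φ a)) (n : ℕ) (a : A) :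
    t ^ n * ι a = ι (φ^[n] a) * t ^ n := by
  rw [← asc_pow_conj h, inv_pow, inv_mul_cancel_right]

theorem asc_mul_inv_pow (h : ∀ a, t * ι a * t⁻¹ = ι (φ a)) (n : ℕ) (a : A) :
    ι a * t⁻¹ ^ n = t⁻¹ ^ n * ι (φ^[n] a) := by
  rw [← asc_pow_conj h, inv_pow]; group

/-- product of two elements in the normal form -/
theorem asc_mul (h : ∀ a, t * ι a * t⁻¹ = ι (φ a)) (p q p' q' : ℕ) (a a' : A) :
    (t⁻¹ ^ p * ι a * t ^ q) * (t⁻¹ ^ p' * ι a' * t ^ q') =
      t⁻¹ ^ (p + p') * ι (φ^[p'] a * φ^[q] a') * t ^ (q + q') := by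
  have h1 : t ^ q * t⁻¹ ^ p' = t⁻¹ ^ p' * t ^ q := by
    rw [inv_pow]; exact (((Commute.refl t).pow_pow q p').inv_right).eq
  calc (t⁻¹ ^ p * ι a * t ^ q) * (t⁻¹ ^ p' * ι a' * t ^ q')
      = t⁻¹ ^ p * ι a * (t ^ q * t⁻¹ ^ p') * ι a' * t ^ q' := by simp only [mul_assoc]
    _ = t⁻¹ ^ p * (ι a * t⁻¹ ^ p') * (t ^ q * ι a') * t ^ q' := by rw [h1]; simp only [mul_assoc]
    _ = _ := by
      rw [asc_mul_inv_pow h, asc_pow_mul h, map_mul, pow_add, pow_add]; simp only [mul_assoc]

theorem Asc.swindle {χ : G →* Multiplicative ℤ} (h : Asc φ ι t χ) (hk : Killed φ)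
    (hfg : ∃ K : Subgroup A, K.FG ∧ φ.range ≤ K) : IsFPinf G :=
  R185.swindle φ hk hfg ι h.inj t h.conj χ h.χt h.χι h.gen

/-- the swindle when only the square of `φ` is `Killed` -/
theorem Asc.swindle_sq {χ : G →* Multiplicative ℤ} (h : Asc φ ι t χ) (hk : Killed (φ.comp φ))
    (hfg : ∃ K : Subgroup A, K.FG ∧ φ.range ≤ K) : IsFPinf G := fun n => by
  obtain ⟨K, hK, hφ⟩ := hfg
  have hφ2 : (φ.comp φ).range ≤ K := by
    rintro _ ⟨a, rfl⟩
    exact hφ ⟨φ a, rfl⟩
  obtain ⟨J, hJ, ψ, h1, h2⟩ := Sw.exists_tame hk K hK hφ2 n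
  refine Sw.isFP_of_tame_pow n (2 * J) (by omega) φ ψ ?_ h2 ι h.inj t h.conj χ h.χt h.χι h.gen
  rw [h1, iterate_mul]; rfl

end General

section Exist

variable {A : Type} [Group A] (φ : A →* A) (hφ : Injective φ)

/-- the isomorphism of associated subgroups -/
noncomputable def ascIso : (⊤ : Subgroup A) ≃* φ.range :=
  Subgroup.topEquiv.trans (MonoidHom.ofInjective hφ)

/-- the ascending HNN extension -/
def AscG : Type := HNNExtension A ⊤ φ.range (ascIso φ hφ)

noncomputable instance : Group (AscG φ hφ) := inferInstanceAs (Group (HNNExtension _ _ _ _))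

/-- the embedding of the base -/
noncomputable def ascι : A →* AscG φ hφ := HNNExtension.of

/-- the stable letter -/
noncomputable def asct : AscG φ hφ := HNNExtension.t

theorem asct_mul (a : A) : asct φ hφ * ascι φ hφ a = ascι φ hφ (φ a) * asct φ hφ :=
  HNNExtension.t_mul_of (φ := ascIso φ hφ) ⟨a, trivial⟩

theorem asct_conj (a : A) : asct φ hφ * ascι φ hφ a * (asct φ hφ)⁻¹ = ascι φ hφ (φ a) := by
  rw [asct_mul, mul_inv_cancel_right]

/-- universal property -/
noncomputable def ascLift {H : Type} [Group H] (f : A →* H) (x : H) (hx : ∀ a, x * f a = f (φ a) * x) :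
    AscG φ hφ →* H :=
  HNNExtension.lift (φ := ascIso φ hφ) f x fun a => hx a

theorem ascLift_t {H : Type} [Group H] (f : A →* H) (x : H) (hx : ∀ a, x * f a = f (φ a) * x) :
    ascLift φ hφ f x hx (asct φ hφ) = x := HNNExtension.lift_t _ _ _

theorem ascLift_ι {H : Type} [Group H] (f : A →* H) (x : H) (hx : ∀ a, x * f a = f (φ a) * x) (a : A) :
    ascLift φ hφ f x hx (ascι φ hφ a) = f a := HNNExtension.lift_of _ _ _ _

/-- the exponent sum -/
noncomputable def ascχ : AscG φ hφ →* Multiplicative ℤ :=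
  ascLift φ hφ 1 (Multiplicative.ofAdd 1) fun _ => by simp

theorem asc_AscG : Asc φ (ascι φ hφ) (asct φ hφ) (ascχ φ hφ) where
  inj := HNNExtension.of_injective _
  conj := asct_conj φ hφ
  χt := ascLift_t _ _ _ _ _
  χι a := ascLift_ι _ _ _ _ _ a
  gen g := by
    induction g using HNNExtension.induction_on with
    | of a => exact ⟨0, 0, a, by simp; rfl⟩
    | t => exact ⟨0, 1, 1, by simp; rfl⟩
    | mul x y hx hy =>
      obtain ⟨p, q, a, rfl⟩ := hx
      obtain ⟨p', q', a', rfl⟩ := hy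
      exact ⟨_, _, _, asc_mul (asct_conj φ hφ) p q p' q' a a'⟩
    | inv x hx =>
      obtain ⟨p, q, a, rfl⟩ := hx
      refine ⟨q, p, a⁻¹, ?_⟩
      change ((asct φ hφ)⁻¹ ^ p * ascι φ hφ a * asct φ hφ ^ q)⁻¹ = _
      rw [map_inv]; group

/-- an `L`-presentation of the base gives a finite presentation -/
theorem fp_AscG {Y : Type} [Finite Y] (π : FreeGroup Y →* A) (ψ' : FreeGroup Y →* FreeGroup Y)
    (R : Set (FreeGroup Y)) (hπ : Surjective π) (hψ : ∀ w, π (ψ' w) = φ (π w)) (hR : R.Finite)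
    (hR1 : ∀ r ∈ R, π r = 1)
    (hmin : ∀ N : Subgroup (FreeGroup Y), N.Normal → R ⊆ N → (∀ w ∈ N, ψ' w ∈ N) → π.ker ≤ N) :
    Group.IsFinitelyPresented (AscG φ hφ) := by
  let j : FreeGroup Y →* FreeGroup (Option Y) := FreeGroup.map some
  let R' : Set (FreeGroup (Option Y)) := j '' R ∪
    Set.range fun y : Y => FreeGroup.of none * j (.of y) * (j (ψ' (.of y)) * FreeGroup.of none)⁻¹
  have hR' : R'.Finite := (hR.image _).union (Set.finite_range _)
  let Φ : FreeGroup (Option Y) →* AscG φ hφ :=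
    FreeGroup.lift fun o => o.elim (asct φ hφ) fun y => ascι φ hφ (π (.of y))
  have hΦj : ∀ w, Φ (j w) = ascι φ hφ (π w) := by
    have : Φ.comp j = (ascι φ hφ).comp π := by ext y; simp [Φ, j]
    exact DFunLike.congr_fun this
  have hΦt : Φ (.of none) = asct φ hφ := by simp [Φ]
  have hsurj : Surjective Φ := by
    intro g
    obtain ⟨p, q, a, rfl⟩ := (asc_AscG φ hφ).gen g
    obtain ⟨w, rfl⟩ := hπ a
    exact ⟨(FreeGroup.of none)⁻¹ ^ p * j w * FreeGroup.of none ^ q, by simp [hΦj, hΦt]⟩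
  refine Group.IsFinitelyPresented.of_surjective Φ hsurj ⟨R', hR', le_antisymm ?_ ?_⟩
  · refine Subgroup.normalClosure_le_normal ?_
    rintro _ (⟨r, hr, rfl⟩ | ⟨y, rfl⟩)
    · rw [SetLike.mem_coe, MonoidHom.mem_ker, hΦj, hR1 r hr, map_one]
    · simp only [SetLike.mem_coe, MonoidHom.mem_ker, map_mul, map_inv, hΦj, hΦt, hψ]
      rw [asct_mul, mul_inv_cancel]
  · let M := Subgroup.normalClosure R'
    let q : FreeGroup (Option Y) →* FreeGroup (Option Y) ⧸ M := QuotientGroup.mk' M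
    have hrel : ∀ w, q (.of none) * q (j w) = q (j (ψ' w)) * q (.of none) := by
      have : (MulAut.conj (q (.of none))).toMonoidHom.comp (q.comp j) = (q.comp j).comp ψ' := by
        ext y
        simp only [MonoidHom.comp_apply, MulEquiv.coe_toMonoidHom, MulAut.conj_apply]
        rw [mul_inv_eq_iff_eq_mul, ← map_mul, ← map_mul, ← mul_inv_eq_one, ← map_inv, ← map_mul]
        exact (QuotientGroup.eq_one_iff _).2 (Subgroup.subset_normalClosure (Or.inr ⟨y, rfl⟩))
      intro w
      have := DFunLike.congr_fun this w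
      simp only [MonoidHom.comp_apply, MulEquiv.coe_toMonoidHom, MulAut.conj_apply] at this
      rw [← this, inv_mul_cancel_right]
    have hker : π.ker ≤ (q.comp j).ker := by
      refine hmin _ inferInstance ?_ ?_
      · intro r hr
        exact (QuotientGroup.eq_one_iff _).2 (Subgroup.subset_normalClosure (Or.inl ⟨r, hr, rfl⟩))
      · intro w hw
        have h1 := hrel w
        rw [show q (j w) = 1 from hw, mul_one] at h1
        exact (mul_eq_right.1 h1.symm : q (j (ψ' w)) = 1)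
    let f : A →* FreeGroup (Option Y) ⧸ M := π.liftOfSurjective hπ ⟨q.comp j, hker⟩
    have hf : ∀ w, f (π w) = q (j w) := fun w => MonoidHom.liftOfRightInverse_comp_apply _ _ _ _ _
    let Ψ := ascLift φ hφ f (q (.of none)) (by
      intro a
      obtain ⟨w, rfl⟩ := hπ a
      rw [← hψ, hf, hf, hrel])
    have hcomp : Ψ.comp Φ = q := by
      ext o
      rcases o with _ | y
      · simp only [MonoidHom.comp_apply, hΦt, Ψ, ascLift_t]
      · have : Φ (.of (some y)) = ascι φ hφ (π (.of y)) := by simp [Φ]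
        simp only [MonoidHom.comp_apply, this, Ψ, ascLift_ι, hf]
        simp [j]
    intro w hw
    have := DFunLike.congr_fun hcomp w
    rw [MonoidHom.comp_apply, MonoidHom.mem_ker.1 hw, map_one] at this
    exact (QuotientGroup.eq_one_iff _).1 this.symm

theorem fp_AscG_of_fp [h : Group.IsFinitelyPresented A] : Group.IsFinitelyPresented (AscG φ hφ) := by
  obtain ⟨n, π, hπ, R, hRf, hR⟩ := h.out
  let ψ' : FreeGroup (Fin n) →* FreeGroup (Fin n) :=
    FreeGroup.lift fun i => surjInv hπ (φ (π (.of i)))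
  have hψ : π.comp ψ' = φ.comp π := by
    ext i; simp [ψ', surjInv_eq hπ]
  refine fp_AscG φ hφ π ψ' R hπ (DFunLike.congr_fun hψ) hRf (fun r hr => ?_) fun N hN h1 _ => ?_
  · exact (hR ▸ Subgroup.subset_normalClosure hr : r ∈ π.ker)
  · rw [← hR]; exact Subgroup.normalClosure_le_normal h1

end Exist

end Crest.Agent.R185
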