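import Crest.Agent.R185.BRHep

/-!
# Row 185, bridge: concatenation and reflection of data, the cap in dimension one
-/

set_option autoImplicit false

open unitInterval Topology Set

namespace Crest.Agent.R185

variable {W : Type} [TopologicalSpace W] {w₀ : W} {n : ℕ}

theorem bra_continuous_coord (i : Fin n) : Continuous fun x : Cb n => (x i : ℝ) :=
  continuous_subtype_val.comp (continuous_apply i)

theorem bra_continuous_lo (i : Fin n) : Continuous (lo i) :=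
  continuous_id.update i ((continuous_projIcc (h := zero_le_one)).comp
    (continuous_const.mul (bra_continuous_coord i)))

theorem bra_continuous_hi (i : Fin n) : Continuous (hi i) :=
  continuous_id.update i ((continuous_projIcc (h := zero_le_one)).comp
    ((continuous_const.mul (bra_continuous_coord i)).sub continuous_const))

theorem bra_continuous_rf (i : Fin n) : Continuous (rf i) := by
  refine continuous_pi fun j => ?_
  by_cases h : j = i
  · simp only [rf, if_pos h]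
    exact continuous_symm.comp (continuous_apply i)
  · simp only [rf, if_neg h]
    exact continuous_apply j

theorem bra_lo_mem (i : Fin n) {x : Cb n} (hx : x ∈ Cube.boundary (Fin n)) :
    lo i x ∈ Cube.boundary (Fin n) := by
  obtain ⟨j, hj⟩ := hx
  refine ⟨j, ?_⟩
  by_cases h : j = i
  · subst h
    rw [lo, Function.update_self]
    rcases hj with hj | hj
    · left; rw [hj]; exact projIcc_of_le_left _ (by simp)
    · right; rw [hj]; exact projIcc_of_right_le _ (by simp)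
  · rwa [lo, Function.update_of_ne h]

theorem bra_hi_mem (i : Fin n) {x : Cb n} (hx : x ∈ Cube.boundary (Fin n)) :
    hi i x ∈ Cube.boundary (Fin n) := by
  obtain ⟨j, hj⟩ := hx
  refine ⟨j, ?_⟩
  by_cases h : j = i
  · subst h
    rw [hi, Function.update_self]
    rcases hj with hj | hj
    · left; rw [hj]; exact projIcc_of_le_left _ (by simp)
    · right; rw [hj]; exact projIcc_of_right_le _ (by norm_num)
  · rwa [hi, Function.update_of_ne h]

theorem bra_rf_mem (i : Fin n) {x : Cb n} (hx : x ∈ Cube.boundary (Fin n)) :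
    rf i x ∈ Cube.boundary (Fin n) := by
  obtain ⟨j, hj⟩ := hx
  refine ⟨j, ?_⟩
  by_cases h : j = i
  · subst h
    rw [rf, if_pos rfl]
    rcases hj with hj | hj
    · right; rw [hj, symm_zero]
    · left; rw [hj, symm_one]
  · rwa [rf, if_neg h]

theorem bra_lo_half (i : Fin n) {x : Cb n} (h : (x i : ℝ) = 1 / 2) : lo i x i = 1 := by
  rw [lo, Function.update_self, h]; exact projIcc_of_right_le _ (by norm_num)

theorem bra_hi_half (i : Fin n) {x : Cb n} (h : (x i : ℝ) = 1 / 2) :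
    hi i x = Function.update (lo i x) i 0 := by
  rw [lo, hi, Function.update_idem, h]
  congr 1
  exact projIcc_of_le_left _ (by norm_num)

theorem bra_update_mem (i : Fin n) (x : Cb n) :
    Function.update x i 0 ∈ Cube.boundary (Fin n) := ⟨i, Or.inl (Function.update_self ..)⟩

/-- gluing of two maps on the cube -/
theorem bra_glue {Y : Type} [TopologicalSpace Y] (i : Fin n) (f₁ f₂ : C(Cb n, Y))
    (hm : ∀ y : Cb n, y i = 1 → f₁ y = f₂ (Function.update y i 0)) :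
    ∃ f : C(Cb n, Y), (∀ x : Cb n, (x i : ℝ) ≤ 1 / 2 → f x = f₁ (lo i x)) ∧
      ∀ x : Cb n, 1 / 2 ≤ (x i : ℝ) → f x = f₂ (hi i x) := by
  have key : ∀ x : Cb n, (x i : ℝ) = 1 / 2 → f₁ (lo i x) = f₂ (hi i x) := fun x hx => by
    rw [hm _ (bra_lo_half i hx), bra_hi_half i hx]
  refine ⟨⟨fun x => if (x i : ℝ) ≤ 1 / 2 then f₁ (lo i x) else f₂ (hi i x),
    Continuous.if_le (f₁.continuous.comp (bra_continuous_lo i))
      (f₂.continuous.comp (bra_continuous_hi i)) (bra_continuous_coord i) continuous_const key⟩,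
    fun x hx => if_pos hx, fun x hx => ?_⟩
  by_cases h : (x i : ℝ) ≤ 1 / 2
  · exact (if_pos h).trans (key x (le_antisymm h hx))
  · exact if_neg h

/-- gluing of two maps on the boundary of the cube -/
theorem bra_glue_bd {Y : Type} [TopologicalSpace Y] (i : Fin n) (β₁ β₂ : C(Bd n, Y))
    (hm : ∀ y y' : Bd n, y.1 i = 1 → y'.1 = Function.update y.1 i 0 → β₁ y = β₂ y') :
    ∃ β : C(Bd n, Y), (∀ x y : Bd n, (x.1 i : ℝ) ≤ 1 / 2 → y.1 = lo i x.1 → β x = β₁ y) ∧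
      ∀ x y : Bd n, 1 / 2 ≤ (x.1 i : ℝ) → y.1 = hi i x.1 → β x = β₂ y := by
  have key : ∀ x : Bd n, (x.1 i : ℝ) = 1 / 2 →
      β₁ ⟨lo i x.1, bra_lo_mem i x.2⟩ = β₂ ⟨hi i x.1, bra_hi_mem i x.2⟩ := fun x hx =>
    hm _ _ (bra_lo_half i hx) (bra_hi_half i hx)
  refine ⟨⟨fun x => if (x.1 i : ℝ) ≤ 1 / 2 then β₁ ⟨lo i x.1, bra_lo_mem i x.2⟩
      else β₂ ⟨hi i x.1, bra_hi_mem i x.2⟩,
    Continuous.if_le
      (β₁.continuous.comp (((bra_continuous_lo i).comp continuous_subtype_val).subtype_mk _))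
      (β₂.continuous.comp (((bra_continuous_hi i).comp continuous_subtype_val).subtype_mk _))
      ((bra_continuous_coord i).comp continuous_subtype_val) continuous_const key⟩,
    fun x y hx hy => ?_, fun x y hx hy => ?_⟩
  · exact (if_pos hx).trans (congrArg β₁ (Subtype.ext hy.symm))
  · by_cases h : (x.1 i : ℝ) ≤ 1 / 2
    · exact (if_pos h).trans ((key x (le_antisymm h hx)).trans (congrArg β₂ (Subtype.ext hy.symm)))
    · exact (if_neg h).trans (congrArg β₂ (Subtype.ext hy.symm))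

theorem Dat.cap_trans' (i : Fin (n + 1)) (D D₁ D₂ : Dat (n + 1) w₀)
    (hf₁ : ∀ x : Cb (n + 1), (x i : ℝ) ≤ 1 / 2 → D.f x = D₁.f (lo i x))
    (hf₂ : ∀ x : Cb (n + 1), 1 / 2 ≤ (x i : ℝ) → D.f x = D₂.f (hi i x))
    (hl₁ : ∀ x y : Bd (n + 1), (x.1 i : ℝ) ≤ 1 / 2 → y.1 = lo i x.1 → D.l x = D₁.l y)
    (hl₂ : ∀ x y : Bd (n + 1), 1 / 2 ≤ (x.1 i : ℝ) → y.1 = hi i x.1 → D.l x = D₂.l y)
    (hm : ∀ y y' : Bd (n + 1), y.1 i = 1 → y'.1 = Function.update y.1 i 0 → D₁.l y = D₂.l y') :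
    D.cap = D₂.cap * D₁.cap := by
  obtain ⟨g₁, ⟨H₁, a₁, b₁, c₁⟩, e₁⟩ := D₁.exists_caps_cap
  obtain ⟨g₂, ⟨H₂, a₂, b₂, c₂⟩, e₂⟩ := D₂.exists_caps_cap
  obtain ⟨H, h₁, h₂⟩ := bra_glue i H₁.curry H₂.curry (fun y hy => by
    ext τ
    have e := hm ⟨y, i, Or.inr hy⟩ ⟨_, bra_update_mem i y⟩ hy rfl
    exact (c₁ ⟨y, i, Or.inr hy⟩ τ).trans
      ((congrArg (fun γ : PS w₀ => γ.1 τ) e).trans (c₂ ⟨_, bra_update_mem i y⟩ τ).symm))
  have hc : D.Caps (GenLoop.transAt i g₁ g₂) := by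
    refine ⟨H.uncurry, fun x => ?_, fun x => ?_, fun x τ => ?_⟩
    · change H x 0 = if (x i : ℝ) ≤ 1 / 2 then g₁ (lo i x) else g₂ (hi i x)
      split_ifs with h
      · rw [h₁ x h]; exact a₁ _
      · rw [h₂ x (not_le.1 h).le]; exact a₂ _
    · change H x 1 = _
      rcases le_total (x i : ℝ) (1 / 2) with h | h
      · rw [h₁ x h, hf₁ x h]; exact b₁ _
      · rw [h₂ x h, hf₂ x h]; exact b₂ _
    · change H x τ = _
      rcases le_total (x.1 i : ℝ) (1 / 2) with h | h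
      · rw [h₁ x h, hl₁ x ⟨_, bra_lo_mem i x.2⟩ h rfl]; exact c₁ ⟨_, bra_lo_mem i x.2⟩ τ
      · rw [h₂ x h, hl₂ x ⟨_, bra_hi_mem i x.2⟩ h rfl]; exact c₂ ⟨_, bra_hi_mem i x.2⟩ τ
  rw [D.cap_eq hc, e₁, e₂]
  exact (HomotopyGroup.mul_spec (i := i)).symm

theorem Dat.exists_trans' (i : Fin (n + 1)) (D₁ D₂ : Dat (n + 1) w₀)
    (hm : ∀ y y' : Bd (n + 1), y.1 i = 1 → y'.1 = Function.update y.1 i 0 → D₁.l y = D₂.l y') :
    ∃ D : Dat (n + 1) w₀,
      (∀ x : Cb (n + 1), (x i : ℝ) ≤ 1 / 2 → D.f x = D₁.f (lo i x)) ∧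
      (∀ x : Cb (n + 1), 1 / 2 ≤ (x i : ℝ) → D.f x = D₂.f (hi i x)) ∧
      (∀ x y : Bd (n + 1), (x.1 i : ℝ) ≤ 1 / 2 → y.1 = lo i x.1 → D.l x = D₁.l y) ∧
      (∀ x y : Bd (n + 1), 1 / 2 ≤ (x.1 i : ℝ) → y.1 = hi i x.1 → D.l x = D₂.l y) := by
  obtain ⟨f, h₁, h₂⟩ := bra_glue i D₁.f D₂.f (fun y hy => by
    rw [← D₁.e ⟨y, i, Or.inr hy⟩, hm ⟨y, i, Or.inr hy⟩ ⟨_, bra_update_mem i y⟩ hy rfl, D₂.e])
  obtain ⟨l, k₁, k₂⟩ := bra_glue_bd i D₁.l D₂.l hm
  refine ⟨⟨f, l, fun x => ?_⟩, h₁, h₂, k₁, k₂⟩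
  rcases le_total (x.1 i : ℝ) (1 / 2) with h | h
  · rw [h₁ x h, k₁ x ⟨_, bra_lo_mem i x.2⟩ h rfl, D₁.e]
  · rw [h₂ x h, k₂ x ⟨_, bra_hi_mem i x.2⟩ h rfl, D₂.e]

theorem Dat.cap_symm' (i : Fin (n + 1)) (D D' : Dat (n + 1) w₀) (hf : ∀ x, D'.f x = D.f (rf i x))
    (hl : ∀ x y : Bd (n + 1), y.1 = rf i x.1 → D'.l x = D.l y) : D'.cap = D.cap⁻¹ := by
  obtain ⟨g, ⟨H, a, b, c⟩, e⟩ := D.exists_caps_cap
  have hc : D'.Caps (GenLoop.symmAt i g) := by
    refine ⟨H.comp ⟨fun p => (rf i p.1, p.2),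
      ((bra_continuous_rf i).comp continuous_fst).prodMk continuous_snd⟩,
      fun x => a _, fun x => (b _).trans (hf x).symm, fun x τ => ?_⟩
    rw [hl x ⟨_, bra_rf_mem i x.2⟩ rfl]
    exact c ⟨_, bra_rf_mem i x.2⟩ τ
  rw [D'.cap_eq hc, e]
  exact (HomotopyGroup.inv_spec (i := i)).symm

section PM

variable {A : Type} [TopologicalSpace A] {E : C(A, W)}

theorem PM.exists_trans' (i : Fin (n + 1)) (P₁ P₂ : PM (n + 1) E)
    (hm : ∀ y y' : Bd (n + 1), y.1 i = 1 → y'.1 = Function.update y.1 i 0 → P₁.β y = P₂.β y') :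
    ∃ P : PM (n + 1) E,
      (∀ x y : Bd (n + 1), (x.1 i : ℝ) ≤ 1 / 2 → y.1 = lo i x.1 → P.β x = P₁.β y) ∧
      (∀ x y : Bd (n + 1), 1 / 2 ≤ (x.1 i : ℝ) → y.1 = hi i x.1 → P.β x = P₂.β y) ∧
      ∀ (w₀ : W) (L : Lift E w₀), (P.dat L).cap = (P₂.dat L).cap * (P₁.dat L).cap := by
  obtain ⟨f, h₁, h₂⟩ := bra_glue i P₁.f P₂.f (fun y hy => by
    rw [← P₁.e ⟨y, i, Or.inr hy⟩, hm ⟨y, i, Or.inr hy⟩ ⟨_, bra_update_mem i y⟩ hy rfl, P₂.e])
  obtain ⟨β, k₁, k₂⟩ := bra_glue_bd i P₁.β P₂.β hm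
  refine ⟨⟨f, β, fun x => ?_⟩, k₁, k₂, fun w₀ L => Dat.cap_trans' i _ _ _ h₁ h₂
    (fun x y hx hy => congrArg L.1 (k₁ x y hx hy)) (fun x y hx hy => congrArg L.1 (k₂ x y hx hy))
    (fun y y' hy hy' => congrArg L.1 (hm y y' hy hy'))⟩
  rcases le_total (x.1 i : ℝ) (1 / 2) with h | h
  · rw [h₁ x h, k₁ x ⟨_, bra_lo_mem i x.2⟩ h rfl, P₁.e]
  · rw [h₂ x h, k₂ x ⟨_, bra_hi_mem i x.2⟩ h rfl, P₂.e]

theorem PM.exists_symm' (i : Fin (n + 1)) (P₁ : PM (n + 1) E) :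
    ∃ P : PM (n + 1) E, (∀ x y : Bd (n + 1), y.1 = rf i x.1 → P.β x = P₁.β y) ∧
      ∀ (w₀ : W) (L : Lift E w₀), (P.dat L).cap = (P₁.dat L).cap⁻¹ := by
  refine ⟨⟨P₁.f.comp ⟨rf i, bra_continuous_rf i⟩,
    P₁.β.comp ⟨fun x => ⟨rf i x.1, bra_rf_mem i x.2⟩,
      ((bra_continuous_rf i).comp continuous_subtype_val).subtype_mk _⟩, fun x => P₁.e _⟩,
    fun x y hy => congrArg P₁.β (Subtype.ext hy.symm), fun w₀ L => Dat.cap_symm' i _ _
      (fun x => rfl) fun x y hy => congrArg L.1 (congrArg P₁.β (Subtype.ext hy.symm))⟩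

end PM

theorem Dat.cap_one' (D : Dat 1 w₀) {x₀ x₁ : W} (a : Path w₀ x₀) (f : Path x₀ x₁) (b : Path w₀ x₁)
    (ha : ∀ x : Bd 1, x.1 0 = 0 → D.l x = PS.ofPath a) (hf : ∀ x, D.f x = f (x 0))
    (hb : ∀ x : Bd 1, x.1 0 = 1 → D.l x = PS.ofPath b) :
    HomotopyGroup.pi1MulEquivFundamentalGroup D.cap =
      FundamentalGroup.fromPath ⟦a.trans (f.trans b.symm)⟧ := by
  have hc : D.Caps ((genLoopEquivOfUnique (Fin 1)).symm (a.trans (f.trans b.symm))) := by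
    refine ⟨(a.trans (f.trans b.symm)).extend.comp
      ⟨fun p => (1 - (p.1 0 : ℝ)) * (p.2 / 2) + p.1 0 * (1 - p.2 / 4), by fun_prop⟩,
      fun x => ?_, fun x => ?_, fun x τ => ?_⟩
    · change (a.trans (f.trans b.symm)).extend
        ((1 - (x 0 : ℝ)) * (((0 : I) : ℝ) / 2) + x 0 * (1 - ((0 : I) : ℝ) / 4)) =
        (a.trans (f.trans b.symm)) (x 0)
      rw [← Path.extend_extends']
      congr 1
      simp
    · change (a.trans (f.trans b.symm)).extend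
        ((1 - (x 0 : ℝ)) * (((1 : I) : ℝ) / 2) + x 0 * (1 - ((1 : I) : ℝ) / 4)) = _
      have h0 := (x 0).2.1
      have h1 := (x 0).2.2
      rw [Icc.coe_one, Path.extend_trans_of_half_le _ _ (by linarith),
        Path.extend_trans_of_le_half _ _ (by linarith), hf, ← Path.extend_extends']
      congr 1
      ring
    · change (a.trans (f.trans b.symm)).extend
        ((1 - (x.1 0 : ℝ)) * ((τ : ℝ) / 2) + x.1 0 * (1 - (τ : ℝ) / 4)) = _
      have h0 := τ.2.1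
      have h1 := τ.2.2
      obtain ⟨j, hj⟩ := x.2
      rw [Subsingleton.elim j 0] at hj
      rcases hj with hj | hj
      · rw [ha x hj, hj, Icc.coe_zero, Path.extend_trans_of_le_half _ _ (by linarith)]
        change _ = a τ
        rw [← Path.extend_extends']
        congr 1
        ring
      · rw [hb x hj, hj, Icc.coe_one, Path.extend_trans_of_half_le _ _ (by linarith),
          Path.extend_trans_of_half_le _ _ (by linarith), Path.extend_symm_apply]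
        change _ = b τ
        rw [← Path.extend_extends']
        congr 1
        ring
  rw [D.cap_eq hc]
  exact congrArg (fun p : Path w₀ w₀ => FundamentalGroup.fromPath ⟦p⟧)
    ((genLoopEquivOfUnique (Fin 1)).apply_symm_apply (a.trans (f.trans b.symm)))

end Crest.Agent.R185
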