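import Crest.Agent.R185.BRHep
import Crest.Agent.R185.BRAddA

/-!
# Row 185, bridge: additivity of `Dat.cap`, induced maps, change of base point
-/

set_option autoImplicit false

open unitInterval Topology Set

namespace Crest.Agent.R185

variable {W W' : Type} [TopologicalSpace W] [TopologicalSpace W'] {w₀ w₁ : W} {w₀' : W'} {n : ℕ}

/-- Concatenation in direction `i`.  Take `H₁`, `H₂` capping `D₁`, `D₂` with `g₁`, `g₂`;
`H (x, τ) = if x i ≤ 1/2 then H₁ (lo i x, τ) else H₂ (hi i x, τ)` is continuous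
(`Continuous.if_le`; on `x i = 1/2` both are boundary points and `hm` applies) and caps `D` with
`GenLoop.transAt i g₁ g₂`; `HomotopyGroup.mul_spec`.  For `x` on the boundary with `x i ≤ 1/2`,
`lo i x` is on the boundary, similarly `hi`. -/
theorem Dat.cap_trans (i : Fin (n + 1)) (D D₁ D₂ : Dat (n + 1) w₀)
    (hf₁ : ∀ x : Cb (n + 1), (x i : ℝ) ≤ 1 / 2 → D.f x = D₁.f (lo i x))
    (hf₂ : ∀ x : Cb (n + 1), 1 / 2 ≤ (x i : ℝ) → D.f x = D₂.f (hi i x))
    (hl₁ : ∀ x y : Bd (n + 1), (x.1 i : ℝ) ≤ 1 / 2 → y.1 = lo i x.1 → D.l x = D₁.l y)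
    (hl₂ : ∀ x y : Bd (n + 1), 1 / 2 ≤ (x.1 i : ℝ) → y.1 = hi i x.1 → D.l x = D₂.l y)
    (hm : ∀ y y' : Bd (n + 1), y.1 i = 1 → y'.1 = Function.update y.1 i 0 → D₁.l y = D₂.l y') :
    D.cap = D₂.cap * D₁.cap := by
  exact Dat.cap_trans' i D D₁ D₂ hf₁ hf₂ hl₁ hl₂ hm

/-- existence of the concatenated datum -/
theorem Dat.exists_trans (i : Fin (n + 1)) (D₁ D₂ : Dat (n + 1) w₀)
    (hm : ∀ y y' : Bd (n + 1), y.1 i = 1 → y'.1 = Function.update y.1 i 0 → D₁.l y = D₂.l y') :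
    ∃ D : Dat (n + 1) w₀,
      (∀ x : Cb (n + 1), (x i : ℝ) ≤ 1 / 2 → D.f x = D₁.f (lo i x)) ∧
      (∀ x : Cb (n + 1), 1 / 2 ≤ (x i : ℝ) → D.f x = D₂.f (hi i x)) ∧
      (∀ x y : Bd (n + 1), (x.1 i : ℝ) ≤ 1 / 2 → y.1 = lo i x.1 → D.l x = D₁.l y) ∧
      (∀ x y : Bd (n + 1), 1 / 2 ≤ (x.1 i : ℝ) → y.1 = hi i x.1 → D.l x = D₂.l y) := by
  exact Dat.exists_trans' i D₁ D₂ hm

/-- reflection (`GenLoop.symmAt`, `HomotopyGroup.inv_spec`) -/
theorem Dat.cap_symm (i : Fin (n + 1)) (D D' : Dat (n + 1) w₀) (hf : ∀ x, D'.f x = D.f (rf i x))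
    (hl : ∀ x y : Bd (n + 1), y.1 = rf i x.1 → D'.l x = D.l y) : D'.cap = D.cap⁻¹ := by
  exact Dat.cap_symm' i D D' hf hl

section PM

variable {A : Type} [TopologicalSpace A] {E : C(A, W)}

/-- concatenation of maps of pairs -/
theorem PM.exists_trans (i : Fin (n + 1)) (P₁ P₂ : PM (n + 1) E)
    (hm : ∀ y y' : Bd (n + 1), y.1 i = 1 → y'.1 = Function.update y.1 i 0 → P₁.β y = P₂.β y') :
    ∃ P : PM (n + 1) E,
      (∀ x y : Bd (n + 1), (x.1 i : ℝ) ≤ 1 / 2 → y.1 = lo i x.1 → P.β x = P₁.β y) ∧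
      (∀ x y : Bd (n + 1), 1 / 2 ≤ (x.1 i : ℝ) → y.1 = hi i x.1 → P.β x = P₂.β y) ∧
      ∀ (w₀ : W) (L : Lift E w₀), (P.dat L).cap = (P₂.dat L).cap * (P₁.dat L).cap := by
  exact PM.exists_trans' i P₁ P₂ hm

/-- reflection of a map of pairs -/
theorem PM.exists_symm (i : Fin (n + 1)) (P₁ : PM (n + 1) E) :
    ∃ P : PM (n + 1) E, (∀ x y : Bd (n + 1), y.1 = rf i x.1 → P.β x = P₁.β y) ∧
      ∀ (w₀ : W) (L : Lift E w₀), (P.dat L).cap = (P₁.dat L).cap⁻¹ := by
  exact PM.exists_symm' i P₁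

end PM

/-- the induced map on homotopy classes -/
noncomputable def piFn (F : C(W, W')) (h : F w₀ = w₀') (x : Pn n W w₀) : Pn n W' w₀' :=
  ⟦Lp.map F h (Quotient.out x)⟧

theorem piFn_mk (F : C(W, W')) (h : F w₀ = w₀') (ψ : Lp n W w₀) :
    piFn F h ⟦ψ⟧ = ⟦Lp.map F h ψ⟧ := by
  have hh : GenLoop.Homotopic (Quotient.out (⟦ψ⟧ : Pn n W w₀)) ψ :=
    Quotient.exact (Quotient.out_eq (⟦ψ⟧ : Pn n W w₀))
  exact Quotient.sound (ContinuousMap.HomotopicRel.comp_continuousMap hh F)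

theorem piFn_mul (F : C(W, W')) (h : F w₀ = w₀') (x y : Pn (n + 1) W w₀) :
    piFn F h (x * y) = piFn F h x * piFn F h y := by
  induction x using Quotient.inductionOn with | _ p => ?_
  induction y using Quotient.inductionOn with | _ q => ?_
  have e1 := HomotopyGroup.mul_spec (i := (0 : Fin (n + 1))) (p := p) (q := q)
  have e2 := HomotopyGroup.mul_spec (i := (0 : Fin (n + 1))) (p := Lp.map F h p)
    (q := Lp.map F h q)
  have e3 : Lp.map F h (GenLoop.transAt 0 q p) =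
      GenLoop.transAt 0 (Lp.map F h q) (Lp.map F h p) := by
    apply GenLoop.ext
    intro t
    change F (if _ then _ else _) = if _ then _ else _
    rw [apply_ite F]
    rfl
  exact (congrArg (piFn F h) e1).trans ((piFn_mk F h _).trans ((congrArg _ e3).trans
    (e2.symm.trans (congrArg₂ (fun u v : Pn (n + 1) W' w₀' => u * v) (piFn_mk F h p).symm
      (piFn_mk F h q).symm))))

/-- the induced homomorphism -/
noncomputable def piMap (F : C(W, W')) (h : F w₀ = w₀') : Pn (n + 1) W w₀ →* Pn (n + 1) W' w₀' :=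
  MonoidHom.mk' (piFn F h) (piFn_mul F h)

theorem piMap_mk (F : C(W, W')) (h : F w₀ = w₀') (ψ : Lp (n + 1) W w₀) :
    piMap F h ⟦ψ⟧ = ⟦Lp.map F h ψ⟧ := piFn_mk F h ψ

theorem Dat.cap_map (F : C(W, W')) (h : F w₀ = w₀') (D : Dat (n + 1) w₀) :
    (D.map F h).cap = piMap F h D.cap := by
  obtain ⟨g, ⟨H, h0, h1, hb⟩, hc⟩ := D.exists_caps_cap
  rw [hc, piMap_mk]
  exact Dat.cap_eq _ ⟨F.comp H, fun x => congrArg F (h0 x), fun x => congrArg F (h1 x),
    fun x τ => congrArg F (hb x τ)⟩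

/-- change of base point on homotopy classes -/
noncomputable def rhoFn (a : Path w₀ w₁) (x : Pn n W w₁) : Pn n W w₀ :=
  ((Dat.ofLoop (Quotient.out x)).shift a).cap

theorem Dat.Caps.cap_shift (a : Path w₀ w₁) {D : Dat n w₁} {g : Lp n W w₁} (h : D.Caps g) :
    ((Dat.ofLoop g).shift a).cap = (D.shift a).cap := by
  obtain ⟨H, h0, h1, hb⟩ := h
  refine Dat.cap_congr _ _ H ((PS.shift a).comp (PS.part.comp (D.l.prodMap (ContinuousMap.id I))))
    (fun x t => ?_) h0 h1 (fun x => ?_) (fun x => ?_)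
  · exact (PS.shift_e a _).trans ((PS.part_e _ _).trans (hb x t).symm)
  · refine congrArg (PS.shift a) (PS.ext fun τ => ?_)
    change (D.l x).1 (0 * τ) = w₁
    rw [zero_mul]; exact (D.l x).2
  · refine congrArg (PS.shift a) (PS.ext fun τ => ?_)
    change (D.l x).1 (1 * τ) = (D.l x).1 τ
    rw [one_mul]

theorem rhoFn_mk (a : Path w₀ w₁) (ψ : Lp n W w₁) :
    rhoFn a ⟦ψ⟧ = ((Dat.ofLoop ψ).shift a).cap := by
  have hh : GenLoop.Homotopic (Quotient.out (⟦ψ⟧ : Pn n W w₁)) ψ :=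
    Quotient.exact (Quotient.out_eq (⟦ψ⟧ : Pn n W w₁))
  obtain ⟨H⟩ := hh
  refine Dat.Caps.cap_shift a ⟨H.toContinuousMap.comp ContinuousMap.prodSwap,
    fun x => H.apply_zero x, fun x => H.apply_one x, fun x τ => ?_⟩
  exact (H.eq_snd τ x.2).trans (ψ.2 x x.2)

/-- if `H` caps `D` with `g`, the family `(H (·, t), shift a (part (D.l ·, t)))` joins
`(ofLoop g).shift a` to `D.shift a`; a homotopy of loops rel boundary is the special case
`D = ofLoop _` -/
theorem Dat.cap_shift' (a : Path w₀ w₁) (D : Dat n w₁) : (D.shift a).cap = rhoFn a D.cap := by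
  obtain ⟨g, hg, hc⟩ := D.exists_caps_cap
  rw [hc, rhoFn_mk, hg.cap_shift a]

theorem rhoFn_mul (a : Path w₀ w₁) (x y : Pn (n + 1) W w₁) :
    rhoFn a (x * y) = rhoFn a x * rhoFn a y := by
  induction x using Quotient.inductionOn with | _ p => ?_
  induction y using Quotient.inductionOn with | _ q => ?_
  have e1 := HomotopyGroup.mul_spec (i := (0 : Fin (n + 1))) (p := p) (q := q)
  refine (congrArg (rhoFn a) e1).trans ((rhoFn_mk a _).trans
    (Eq.trans ?_ (congrArg₂ (· * ·) (rhoFn_mk a p).symm (rhoFn_mk a q).symm)))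
  refine Dat.cap_trans 0 _ _ _ (fun x hx => if_pos hx) (fun x hx => ?_) (fun _ _ _ _ => rfl)
    (fun _ _ _ _ => rfl) (fun _ _ _ _ => rfl)
  by_cases hx' : (x 0 : ℝ) ≤ 1 / 2
  · have e : (x 0 : ℝ) = 1 / 2 := le_antisymm hx' hx
    have h1 : q (lo 0 x) = w₁ := q.2 _ ⟨0, Or.inr (by
      rw [lo, Function.update_self, e, Set.projIcc_of_right_le _ (by norm_num)]; rfl)⟩
    have h2 : p (hi 0 x) = w₁ := p.2 _ ⟨0, Or.inl (by
      rw [hi, Function.update_self, e, Set.projIcc_of_le_left _ (by norm_num)]; rfl)⟩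
    exact (if_pos hx').trans (h1.trans h2.symm)
  · exact if_neg hx'

/-- change of base point along a path -/
noncomputable def rho (a : Path w₀ w₁) : Pn (n + 1) W w₁ →* Pn (n + 1) W w₀ :=
  MonoidHom.mk' (rhoFn a) (rhoFn_mul a)

theorem Dat.cap_shift (a : Path w₀ w₁) (D : Dat (n + 1) w₁) : (D.shift a).cap = rho a D.cap :=
  D.cap_shift' a

/-- a loop at `w₁` with the constant family of paths `a` -/
def Dat.ofLoopPath (a : Path w₀ w₁) (ψ : Lp n W w₁) : Dat n w₀ :=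
  ⟨ψ.1, ContinuousMap.const _ (PS.ofPath a), fun x => a.target.trans (ψ.2 x x.2).symm⟩

theorem cap_eq_rhoFn (a : Path w₀ w₁) (ψ : Lp n W w₁) (D : Dat n w₀)
    (hf : ∀ x, D.f x = ψ x) (hl : ∀ x, D.l x = PS.ofPath a) : D.cap = rhoFn a ⟦ψ⟧ := by
  rw [rhoFn_mk]
  refine Dat.cap_reparam _ _ hf ⟨fun p => a.extend p.2, by fun_prop⟩
    ⟨fun p => (p.2 : ℝ), by fun_prop⟩ ⟨fun p => min (2 * (p.2 : ℝ)) 1, by fun_prop⟩
    (fun x => by simp) (fun x => by simp) (fun x τ => ?_) (fun x τ => ?_)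
  · rw [hl]
    exact (a.extend_extends' τ).symm
  · change (a.trans (PS.const w₁).path) τ = a.extend (min (2 * (τ : ℝ)) 1)
    rw [Path.trans_apply]
    split_ifs with hτ
    · rw [min_eq_left (by linarith)]
      exact (a.extend_extends' ⟨_, _⟩).symm
    · rw [min_eq_right (by linarith), a.extend_one]
      rfl

theorem rho_congr {a a' : Path w₀ w₁} (h : a.Homotopic a') (x : Pn (n + 1) W w₁) :
    rho a x = rho a' x := by
  induction x using Quotient.inductionOn with | _ ψ => ?_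
  obtain ⟨H⟩ := h
  refine (cap_eq_rhoFn a ψ (Dat.ofLoopPath a ψ) (fun _ => rfl) (fun _ => rfl)).symm.trans
    (Eq.trans ?_ (cap_eq_rhoFn a' ψ (Dat.ofLoopPath a' ψ) (fun _ => rfl) (fun _ => rfl)))
  refine Dat.cap_congr _ _ (ψ.1.comp ContinuousMap.fst)
    ⟨fun p => PS.ofPath (H.eval p.2), PS.continuous_of
      (H.continuous.comp (continuous_fst.snd.prodMk continuous_snd))⟩
    (fun x t => ?_) (fun _ => rfl) (fun _ => rfl) (fun x => ?_) (fun x => ?_)
  · exact (PS.ofPath_e _).trans (ψ.2 x x.2).symm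
  · exact congrArg PS.ofPath H.eval_zero
  · exact congrArg PS.ofPath H.eval_one

theorem rho_refl (x : Pn (n + 1) W w₀) : rho (Path.refl w₀) x = x := by
  induction x using Quotient.inductionOn with | _ ψ => ?_
  exact (cap_eq_rhoFn (Path.refl w₀) ψ (Dat.ofLoop ψ) (fun _ => rfl) (fun _ => rfl)).symm.trans
    (Dat.cap_ofLoop ψ)

/-- `rho a ⟦ψ⟧` is the cap of `ψ` with the constant family of paths `a` -/
theorem cap_eq_rho (a : Path w₀ w₁) (ψ : Lp (n + 1) W w₁) (D : Dat (n + 1) w₀)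
    (hf : ∀ x, D.f x = ψ x) (hl : ∀ x, D.l x = PS.ofPath a) : D.cap = rho a ⟦ψ⟧ := by
  exact cap_eq_rhoFn a ψ D hf hl

/-- naturality -/
theorem piMap_rho (F : C(W, W')) (h : F w₀ = w₀') (a : Path w₀ w₁) (x : Pn (n + 1) W w₁) :
    piMap F h (rho a x) = rho ((a.map F.continuous).cast h.symm rfl) (piMap F rfl x) := by
  induction x using Quotient.inductionOn with | _ ψ => ?_
  have e1 := cap_eq_rho a ψ (Dat.ofLoopPath a ψ) (fun _ => rfl) (fun _ => rfl)
  have e2 := cap_eq_rho ((a.map F.continuous).cast h.symm rfl) (Lp.map F rfl ψ)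
    ((Dat.ofLoopPath a ψ).map F h) (fun _ => rfl) (fun _ => rfl)
  exact (congrArg (piMap F h) e1.symm).trans ((Dat.cap_map F h _).symm.trans
    (e2.trans (congrArg _ (piMap_mk F rfl ψ).symm)))

/-- dimension one: the cap is the class of `a · f · b⁻¹` (`Dat.cap_eq` with an explicit square,
`genLoopEquivOfUnique`) -/
theorem Dat.cap_one (D : Dat 1 w₀) {x₀ x₁ : W} (a : Path w₀ x₀) (f : Path x₀ x₁) (b : Path w₀ x₁)
    (ha : ∀ x : Bd 1, x.1 0 = 0 → D.l x = PS.ofPath a) (hf : ∀ x, D.f x = f (x 0))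
    (hb : ∀ x : Bd 1, x.1 0 = 1 → D.l x = PS.ofPath b) :
    HomotopyGroup.pi1MulEquivFundamentalGroup D.cap =
      FundamentalGroup.fromPath ⟦a.trans (f.trans b.symm)⟧ := by
  exact Dat.cap_one' D a f b ha hf hb

section Act

variable {G : Type} [Group G] {m : ℕ} {A B : Type} [TopologicalSpace A] [TopologicalSpace B]
  [MulAction G A] [MulAction G B] [ContinuousConstSMul G A] [ContinuousConstSMul G B]
  {a₀ : A} {b₀ : B} {S : Type}

/-- translation followed by the change of base point along `k` -/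
noncomputable def trRho {g : G} (k : Path a₀ (g • a₀)) : Pn (n + 1) A a₀ →* Pn (n + 1) A a₀ :=
  (rho k).comp (piMap (tr g) rfl)

/-- the attaching classes of the cells sum to zero along the elements of `Z` -/
def Att.Cyc (T : Att G (m + 1) a₀ b₀ S) (k : ∀ g : G, Path a₀ (g • a₀))
    (Z : Submodule ℤ (Cell G S →₀ ℤ)) : Prop :=
  ∀ (X : Type) [CommGroup X] (θ : Pn (m + 1) A a₀ →* X), ∀ z ∈ Z,
    lin (fun c : Cell G S => θ (trRho (k c.g) ⟦T.φ c.s⟧)) z = 0

/-- null-homotopic maps have vanishing obstruction on the elements of `Z` -/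
def Att.QQ (T : Att G m a₀ b₀ S) (Z : Submodule ℤ (Cell G S →₀ ℤ)) : Prop :=
  ∀ (W : Type) [TopologicalSpace W] (w₀ : W) (F : C(B, W)) (L : Lift (F.comp T.i) w₀)
    (_ : Lift F w₀) (X : Type) [CommGroup X] (θ : Pn (m + 1) W w₀ →* X), ∀ z ∈ Z,
    lin (fun c => θ (T.ob F L c)) z = 0

end Act

end Crest.Agent.R185
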