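import Crest.Agent.R185.BRHep

/-!
# Row 185, bridge: existence of cell attachments; extension of equivariant maps
-/

set_option autoImplicit false

open unitInterval Topology Set

namespace Crest.Agent.R185

variable {G : Type} [Group G] {n : ℕ} {A : Type} [TopologicalSpace A] [MulAction G A]
  [ContinuousConstSMul G A] {a₀ : A} {S : Type}

/-- the underlying set of the attachment -/
inductive AB (G A S : Type) (n : ℕ) : Type
  | old (a : A) : AB G A S n
  | new (g : G) (s : S) (x : Cb (n + 1)) (hx : x ∉ Cube.boundary (Fin (n + 1))) : AB G A S n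

/-- the action -/
def AB.sm {G A S : Type} {n : ℕ} [Group G] [MulAction G A] (h : G) : AB G A S n → AB G A S n
  | .old a => .old (h • a)
  | .new g s x hx => .new (h * g) s x hx

instance {G A S : Type} {n : ℕ} [Group G] [MulAction G A] : MulAction G (AB G A S n) where
  smul := AB.sm
  one_smul b := by
    change AB.sm 1 b = b
    cases b <;> simp [AB.sm]
  mul_smul h h' b := by
    change AB.sm (h * h') b = AB.sm h (AB.sm h' b)
    cases b <;> simp [AB.sm, mul_smul, mul_assoc]

open Classical in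
/-- the characteristic maps -/
noncomputable def AB.ch (φ : S → Lp n A a₀) (g : G) (s : S) (x : Cb (n + 1)) : AB G A S n :=
  if h : x ∈ Cube.boundary (Fin (n + 1)) then .old (g • att (φ s) ⟨x, h⟩) else .new g s x h

omit [ContinuousConstSMul G A] in
theorem AB.smul_ch (φ : S → Lp n A a₀) (h g : G) (s : S) (x : Cb (n + 1)) :
    h • AB.ch φ g s x = AB.ch φ (h * g) s x := by
  change AB.sm h _ = _
  unfold AB.ch
  split_ifs <;> simp [AB.sm, mul_smul]

omit [ContinuousConstSMul G A] in
theorem AB.ch_bd (φ : S → Lp n A a₀) (g : G) (s : S) (x : Bd (n + 1)) :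
    AB.ch φ g s x = .old (g • att (φ s) x) := dif_pos x.2

/-- the topology -/
@[reducible] noncomputable def AB.top (G : Type) [Group G] [MulAction G A] (φ : S → Lp n A a₀) :
    TopologicalSpace (AB G A S n) :=
  .coinduced AB.old inferInstance ⊔ ⨆ c : G × S, .coinduced (AB.ch φ c.1 c.2) inferInstance

omit [ContinuousConstSMul G A] in
theorem AB.cont_iff (φ : S → Lp n A a₀) {W : Type} [TopologicalSpace W] (f : AB G A S n → W) :
    Continuous[AB.top G φ, _] f ↔ Continuous (fun a => f (.old a)) ∧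
      ∀ g s, Continuous fun x => f (AB.ch φ g s x) := by
  rw [AB.top, continuous_sup_dom, continuous_iSup_dom, continuous_coinduced_dom]
  refine and_congr Iff.rfl ⟨fun h g s => ?_, fun h c => ?_⟩
  · exact continuous_coinduced_dom.1 (h (g, s))
  · exact continuous_coinduced_dom.2 (h c.1 c.2)

/-- `B = A ⊕ (G × S × {x : Cb (n+1) // x ∉ boundary})` (as a new structure/inductive type), with
`ch g s x = if h : x ∈ boundary then inl (g • att (φ s) ⟨x, h⟩) else inr (g, s, ⟨x, h⟩)` and the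
topology `coinduced inl ⊔ ⨆ g s, coinduced (ch g s)` (see `Lib.RAAG.Cube` for the pattern
`continuous_iSup_dom`, `continuous_sup_dom`, `continuous_coinduced_dom`). -/
theorem exists_att (φ : S → Lp n A a₀) :
    ∃ (B : Type) (_ : TopologicalSpace B) (_ : MulAction G B) (_ : ContinuousConstSMul G B)
      (b₀ : B) (T : Att G n a₀ b₀ S), T.φ = φ := by
  let _ : TopologicalSpace (AB G A S n) := AB.top G φ
  obtain ⟨hold, hch⟩ := (AB.cont_iff (G := G) φ id).1 continuous_id
  have hsm : ContinuousConstSMul G (AB G A S n) := ⟨fun h => by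
    refine (AB.cont_iff φ _).2 ⟨hold.comp (continuous_const_smul h), fun g s => ?_⟩
    simp only [AB.smul_ch]
    exact hch _ _⟩
  refine ⟨AB G A S n, inferInstance, inferInstance, hsm, .old a₀,
    ⟨⟨AB.old, hold⟩, rfl, fun _ _ => rfl, φ, fun s => ⟨AB.ch φ 1 s, hch 1 s⟩, fun s x => ?_,
      fun b => ?_, fun W f F hF => ?_, fun W _ f h1 h2 => ?_⟩, rfl⟩
  · exact (AB.ch_bd φ 1 s x).trans (by rw [one_smul]; rfl)
  · cases b with
    | old a => exact Or.inl ⟨a, rfl⟩
    | new g s x hx =>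
      refine Or.inr ⟨g, s, x, ?_⟩
      change g • AB.ch φ 1 s x = _
      rw [AB.smul_ch, mul_one]
      exact dif_neg hx
  · refine ⟨fun b => match b with
      | .old a => f a
      | .new g s x _ => F ⟨g, s⟩ x, fun a => rfl, fun c x => ?_⟩
    have e : c.g • (⟨AB.ch φ 1 c.s, hch 1 c.s⟩ : C(Cb (n + 1), AB G A S n)) x =
        AB.ch φ c.g c.s x := by
      change c.g • AB.ch φ 1 c.s x = _
      rw [AB.smul_ch, mul_one]
    rw [e]
    unfold AB.ch
    split_ifs with hx
    · exact (hF c ⟨x, hx⟩).symm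
    · rfl
  · refine (AB.cont_iff φ f).2 ⟨h1, fun g s => ?_⟩
    have := h2 g s
    change Continuous fun x => f (g • AB.ch φ 1 s x) at this
    simpa only [AB.smul_ch, mul_one] using this

variable {B : Type} [TopologicalSpace B] [MulAction G B] [ContinuousConstSMul G B] {b₀ : B}
  {Z : Type} [TopologicalSpace Z]

/-- a map of the boundary of the cube into a contractible space extends (`exists_hep'` applied to
the constant map and `μ (x, τ) = c (b x, σ τ)`; take `H (·, 0)`) -/
theorem exists_ext_cube {k : ℕ} (z₀ : Z) (c : C(Z × I, Z)) (c0 : ∀ z, c (z, 0) = z₀)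
    (c1 : ∀ z, c (z, 1) = z) (b : C(Bd k, Z)) : ∃ f : C(Cb k, Z), ∀ x : Bd k, f x = b x := by
  obtain ⟨H, -, hH⟩ := exists_hep' (ContinuousMap.const (Cb k) z₀)
    ⟨fun p : Bd k × I => c (b p.1, σ p.2), by fun_prop⟩ (fun x => by simp [c0])
  refine ⟨⟨fun x => H (x, 0), by fun_prop⟩, fun x => ?_⟩
  change H (x, 0) = _
  rw [hH]
  simp [c1]

/-- equivariant gluing: `F ⟨g, s⟩ x = a g (β s x)`; equivariance from `Att.surj` -/
theorem Att.exists_glue (T : Att G n a₀ b₀ S) (a : G →* Equiv.Perm Z)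
    (ha : ∀ g, Continuous (a g)) (f : C(A, Z)) (hf : ∀ g y, f (g • y) = a g (f y))
    (β : S → C(Cb (n + 1), Z)) (hβ : ∀ s (x : Bd (n + 1)), β s x = f (att (T.φ s) x)) :
    ∃ f' : C(B, Z), (∀ g y, f' (g • y) = a g (f' y)) ∧ (∀ y, f' (T.i y) = f y) ∧
      ∀ s x, f' (T.χ s x) = β s x := by
  obtain ⟨f', h1, h2⟩ := T.glue Z f (fun c x => a c.g (β c.s x)) fun c x => by rw [hβ, hf]
  refine ⟨⟨f', T.final Z f' ?_ fun g s => ?_⟩, fun g y => ?_, h1, fun s x => ?_⟩
  · simp only [h1]
    exact f.continuous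
  · have : (fun x => f' (g • T.χ s x)) = fun x => a g (β s x) := funext fun x => h2 ⟨g, s⟩ x
    rw [this]
    exact (ha g).comp (β s).continuous
  · change f' (g • y) = a g (f' y)
    rcases T.surj y with ⟨y, rfl⟩ | ⟨g', s, x, rfl⟩
    · rw [← T.i_smul, h1, h1, hf]
    · rw [smul_smul, h2 ⟨g * g', s⟩ x, h2 ⟨g', s⟩ x, map_mul]
      rfl
  · have := h2 ⟨1, s⟩ x
    simpa using this

theorem Att.exists_ext (T : Att G n a₀ b₀ S) (a : G →* Equiv.Perm Z)
    (ha : ∀ g, Continuous (a g)) (z₀ : Z) (c : C(Z × I, Z)) (c0 : ∀ z, c (z, 0) = z₀)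
    (c1 : ∀ z, c (z, 1) = z) (f : C(A, Z)) (hf : ∀ g y, f (g • y) = a g (f y)) :
    ∃ f' : C(B, Z), (∀ g y, f' (g • y) = a g (f' y)) ∧ ∀ y, f' (T.i y) = f y := by
  choose β hβ using fun s => exists_ext_cube z₀ c c0 c1 (f.comp (att (T.φ s)))
  obtain ⟨f', h1, h2, -⟩ := T.exists_glue a ha f hf β hβ
  exact ⟨f', h1, h2⟩

end Crest.Agent.R185
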