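import Crest.Agent.R185.BRStep

/-!
# Row 185, bridge: the Cayley graph (start of the induction)

`π : FreeGroup S ↠ G` with kernel the normal closure of a finite set `R`.  Vertices `Cell G Unit`
(discrete), `φ s` the point `⟨π (of s), ()⟩` (a loop of dimension `0`), so the edge `(g, s)` runs
from `g * π s` (height `0`) to `g` (height `1`).  Work in `FundamentalGroupoid B`; `E g s` is the
class of the reversed edge, from `v g = T.i ⟨g, ()⟩` to `v (g * π s)`.
-/

set_option autoImplicit false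

open unitInterval Topology Set

namespace Crest.Agent.R185

instance (G S : Type) : TopologicalSpace (Cell G S) := ⊥

instance (G S : Type) : DiscreteTopology (Cell G S) := ⟨rfl⟩

instance (G S : Type) [Group G] : ContinuousConstSMul G (Cell G S) :=
  ⟨fun _ => continuous_of_discreteTopology⟩

variable {G : Type} [Group G] {S : Type}

/-- a vertex as a loop of dimension zero -/
def vtxLoop (g : G) : Lp 0 (Cell G Unit) ⟨1, ()⟩ :=
  ⟨ContinuousMap.const _ ⟨g, ()⟩, fun _ h => h.elim fun i _ => i.elim0⟩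

/-- the boundary of the edges -/
noncomputable def bd1 (x : S → G) : (Cell G S →₀ ℤ) →ₗ[ℤ] (Cell G Unit →₀ ℤ) :=
  orb (permRep G (Cell G Unit)) fun s =>
    Finsupp.single ⟨x s, ()⟩ 1 - Finsupp.single ⟨1, ()⟩ 1

/-- The edge path of a word: `ℓ (w w') = ℓ w * π w • ℓ w'`, `ℓ (of s) = of ⟨1, s⟩`
(the left component of a homomorphism to the semidirect product `FreeGroup (Cell G S) ⋊ G`). -/
theorem exists_edgeWord (x : S → G) : ∃ ℓ : FreeGroup S → FreeGroup (Cell G S),
    (∀ s, ℓ (FreeGroup.of s) = FreeGroup.of ⟨1, s⟩) ∧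
    ∀ w w', ℓ (w * w') = ℓ w * FreeGroup.map (fun c : Cell G S => FreeGroup.lift x w • c) (ℓ w') := by
  let φ : G →* MulAut (FreeGroup (Cell G S)) :=
    MonoidHom.mk' (fun g => FreeGroup.freeGroupCongr (MulAction.toPerm g)) (fun a b => by
      refine MulEquiv.toMonoidHom_injective (FreeGroup.ext_hom _ _ fun c => ?_)
      simp [mul_smul])
  let Ψ : FreeGroup S →* FreeGroup (Cell G S) ⋊[φ] G :=
    FreeGroup.lift fun s => ⟨FreeGroup.of ⟨1, s⟩, x s⟩
  have hr : SemidirectProduct.rightHom.comp Ψ = FreeGroup.lift x :=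
    FreeGroup.ext_hom _ _ fun s => by simp [Ψ]
  refine ⟨fun w => (Ψ w).left, fun s => by simp [Ψ], fun w w' => ?_⟩
  have : (Ψ w).right = FreeGroup.lift x w := DFunLike.congr_fun hr w
  simp only [map_mul, SemidirectProduct.mul_left, this]
  rfl

theorem bd1_single (x : S → G) (c : Cell G S) (n : ℤ) : bd1 x (Finsupp.single c n) =
    n • (Finsupp.single ⟨c.g * x c.s, ()⟩ 1 - Finsupp.single ⟨c.g, ()⟩ 1) := by
  rw [bd1, orb_single, map_sub, permRep_single, permRep_single]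
  congr 3
  exact Cell.ext (mul_one _) rfl

theorem bd1_perm (x : S → G) (g : G) (z : Cell G S →₀ ℤ) :
    bd1 x (permRep G (Cell G S) g z) = permRep G (Cell G Unit) g (bd1 x z) := eqv_orb _ _ g z

theorem mapc_one (w : FreeGroup (Cell G S)) :
    FreeGroup.map (fun c : Cell G S => (1 : G) • c) w = w := by
  simp only [one_smul]
  exact FreeGroup.map.id' w

theorem mapc_mul (g h : G) (w : FreeGroup (Cell G S)) :
    FreeGroup.map (fun c : Cell G S => g • c) (FreeGroup.map (fun c : Cell G S => h • c) w) =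
      FreeGroup.map (fun c : Cell G S => (g * h) • c) w := by
  rw [FreeGroup.map.comp]
  simp only [mul_smul]
  rfl

theorem edgeWord_one {x : S → G} {ℓ : FreeGroup S → FreeGroup (Cell G S)}
    (h2 : ∀ w w', ℓ (w * w') =
      ℓ w * FreeGroup.map (fun c : Cell G S => FreeGroup.lift x w • c) (ℓ w')) : ℓ 1 = 1 := by
  have := h2 1 1
  rw [mul_one, map_one, mapc_one] at this
  exact left_eq_mul.1 this

theorem edgeWord_inv {x : S → G} {ℓ : FreeGroup S → FreeGroup (Cell G S)}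
    (h2 : ∀ w w', ℓ (w * w') =
      ℓ w * FreeGroup.map (fun c : Cell G S => FreeGroup.lift x w • c) (ℓ w')) (w : FreeGroup S) :
    FreeGroup.map (fun c : Cell G S => FreeGroup.lift x w • c) (ℓ w⁻¹) = (ℓ w)⁻¹ := by
  have := h2 w w⁻¹
  rw [mul_inv_cancel, edgeWord_one h2] at this
  exact eq_inv_of_mul_eq_one_right this.symm

theorem bd1_edgeWord (x : S → G) (ℓ : FreeGroup S → FreeGroup (Cell G S))
    (h1 : ∀ s, ℓ (FreeGroup.of s) = FreeGroup.of ⟨1, s⟩)
    (h2 : ∀ w w', ℓ (w * w') =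
      ℓ w * FreeGroup.map (fun c : Cell G S => FreeGroup.lift x w • c) (ℓ w')) (w : FreeGroup S) :
    bd1 x (Multiplicative.toAdd (abw _ (ℓ w))) =
      Finsupp.single ⟨FreeGroup.lift x w, ()⟩ 1 - Finsupp.single ⟨1, ()⟩ 1 := by
  have hm : ∀ w w', bd1 x (Multiplicative.toAdd (abw _ (ℓ (w * w')))) =
      bd1 x (Multiplicative.toAdd (abw _ (ℓ w))) + permRep G (Cell G Unit) (FreeGroup.lift x w)
        (bd1 x (Multiplicative.toAdd (abw _ (ℓ w')))) := fun w w' => by
    rw [h2, map_mul, toAdd_mul, map_add, abw_map, bd1_perm]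
  have hs : ∀ g h : G, g • (⟨h, ()⟩ : Cell G Unit) = ⟨g * h, ()⟩ := fun _ _ => rfl
  induction w using FreeGroup.induction_on with
  | C1 => simp [edgeWord_one h2]
  | of s => simp [h1, abw, bd1_single]
  | inv_of s ih =>
    have := hm (FreeGroup.of s)⁻¹ (FreeGroup.of s)
    rw [inv_mul_cancel, edgeWord_one h2, ih, map_sub, permRep_single, permRep_single, hs, hs,
      ← map_mul, inv_mul_cancel, mul_one] at this
    simp only [map_one, toAdd_one, map_zero] at this
    rw [eq_neg_of_add_eq_zero_left this.symm, neg_sub]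
  | mul a b iha ihb =>
    rw [hm, iha, ihb, map_sub, permRep_single, permRep_single, hs, hs, mul_one, map_mul]
    abel

theorem range_bd1 (x : S → G) (hx : Function.Surjective (FreeGroup.lift x)) :
    LinearMap.range (bd1 x) = LinearMap.ker (aug (Cell G Unit)) := by
  obtain ⟨ℓ, h1, h2⟩ := exists_edgeWord x
  apply le_antisymm
  · rw [LinearMap.range_le_ker_iff]
    refine Finsupp.lhom_ext fun c n => ?_
    simp [bd1_single]
  · intro z hz
    have key : ∀ z : Cell G Unit →₀ ℤ,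
        z - aug _ z • Finsupp.single ⟨1, ()⟩ 1 ∈ LinearMap.range (bd1 x) := by
      intro z
      induction z using Finsupp.induction_linear with
      | zero => simp
      | add a b ha hb =>
        convert add_mem ha hb using 1
        rw [map_add, add_smul]; abel
      | single c n =>
        obtain ⟨w, hw⟩ := hx c.g
        have := bd1_edgeWord x ℓ h1 h2 w
        rw [hw] at this
        refine ⟨n • Multiplicative.toAdd (abw _ (ℓ w)), ?_⟩
        rw [map_smul, this, aug_single, smul_sub, Finsupp.smul_single, smul_eq_mul, mul_one]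
    simpa [LinearMap.mem_ker.1 hz] using key z

variable {B : Type} [TopologicalSpace B] [MulAction G B] [ContinuousConstSMul G B] {b₀ : B}

section Groupoid

open CategoryTheory

variable {W : Type} [TopologicalSpace W]

/-- the class of a path as an arrow of the fundamental groupoid -/
def Qp {y y' : W} (p : Path y y') : FundamentalGroupoid.mk y ⟶ FundamentalGroupoid.mk y' :=
  Path.Homotopic.Quotient.mk p

theorem Qp_trans {y y' y'' : W} (p : Path y y') (q : Path y' y'') :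
    Qp (p.trans q) = Qp p ≫ Qp q := rfl

theorem Qp_symm {y y' : W} (p : Path y y') : Qp p.symm = inv (Qp p) := by
  rw [← Groupoid.inv_eq_inv]; rfl

theorem Qp_refl (y : W) : Qp (Path.refl y) = 𝟙 _ := rfl

theorem Qp_congr {y y' z z' : W} (p : Path y y') (q : Path z z') (h : y = z) (h' : z' = y')
    (hpq : ∀ t, p t = q t) :
    Qp p = eqToHom (congrArg _ h) ≫ Qp q ≫ eqToHom (congrArg _ h') := by
  subst h h'
  rw [show p = q from Path.ext (funext hpq)]
  simp

theorem Qp_surj {y y' : W} (p : FundamentalGroupoid.mk y ⟶ FundamentalGroupoid.mk y') :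
    ∃ q, Qp q = p := Path.Homotopic.Quotient.mk_surjective p

/-- the class in the fundamental group, as an arrow -/
noncomputable def ar {w₀ : W} (y : Pn 1 W w₀) :
    FundamentalGroupoid.mk w₀ ⟶ FundamentalGroupoid.mk w₀ :=
  HomotopyGroup.pi1MulEquivFundamentalGroup y

theorem ar_mul {w₀ : W} (y y' : Pn 1 W w₀) : ar (y * y') = ar y' ≫ ar y :=
  map_mul HomotopyGroup.pi1MulEquivFundamentalGroup y y'

theorem ar_one {w₀ : W} : ar (1 : Pn 1 W w₀) = 𝟙 _ :=
  map_one HomotopyGroup.pi1MulEquivFundamentalGroup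

theorem ar_bij {w₀ : W} : Function.Bijective (ar : Pn 1 W w₀ → _) :=
  HomotopyGroup.pi1MulEquivFundamentalGroup.bijective

theorem ar_cap {w₀ : W} (D : Dat 1 w₀) {x₀ x₁ : W} (a : Path w₀ x₀) (f : Path x₀ x₁)
    (b : Path w₀ x₁) (ha : ∀ x : Bd 1, x.1 0 = 0 → D.l x = PS.ofPath a)
    (hf : ∀ x, D.f x = f (x 0)) (hb : ∀ x : Bd 1, x.1 0 = 1 → D.l x = PS.ofPath b) :
    ar D.cap = Qp a ≫ Qp f ≫ inv (Qp b) := by
  rw [← Qp_symm]
  exact D.cap_one a f b ha hf hb

theorem cb_one (x : Cb 1) : (fun _ => x 0) = x := funext fun i => by rw [Subsingleton.elim i 0]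

/-- a loop of dimension one as a path -/
def Lp.path {w₀ : W} (ψ : Lp 1 W w₀) : Path w₀ w₀ where
  toFun t := ψ fun _ => t
  continuous_toFun := ψ.1.continuous.comp (by fun_prop)
  source' := ψ.2 _ ⟨0, Or.inl rfl⟩
  target' := ψ.2 _ ⟨0, Or.inr rfl⟩

theorem ar_mk {w₀ : W} (ψ : Lp 1 W w₀) : ar (⟦ψ⟧ : Pn 1 W w₀) = Qp (Lp.path ψ) := by
  rw [← Dat.cap_ofLoop, ar_cap _ (Path.refl _) (Lp.path ψ) (Path.refl _) (fun _ _ => rfl)
    (fun x => congrArg ψ (cb_one x).symm) (fun _ _ => rfl)]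
  simp [Qp_refl]

/-- the path of a null-homotopy -/
def Lift.pa {A : Type} [TopologicalSpace A] {E : C(A, W)} {w₀ : W} (L : Lift E w₀) (a : A) :
    Path w₀ (E a) := (L.1 a).path.cast rfl (L.2 a).symm

theorem Lift.ofPath_pa {A : Type} [TopologicalSpace A] {E : C(A, W)} {w₀ : W} (L : Lift E w₀)
    (a : A) : PS.ofPath (L.pa a) = L.1 a := rfl

/-- translation of arrows -/
noncomputable def actH (g : G) {y y' : B}
    (p : FundamentalGroupoid.mk y ⟶ FundamentalGroupoid.mk y') :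
    FundamentalGroupoid.mk (g • y) ⟶ FundamentalGroupoid.mk (g • y') :=
  (FundamentalGroupoid.map (tr g)).map p

theorem actH_Qp (g : G) {y y' : B} (p : Path y y') :
    actH g (Qp p) = Qp (p.map (tr g).continuous) := rfl

theorem actH_comp (g : G) {y y' y'' : B}
    (p : FundamentalGroupoid.mk y ⟶ FundamentalGroupoid.mk y')
    (q : FundamentalGroupoid.mk y' ⟶ FundamentalGroupoid.mk y'') :
    actH g (p ≫ q) = actH g p ≫ actH g q := (FundamentalGroupoid.map (tr g)).map_comp p q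

theorem actH_id (g : G) (y : B) : actH g (𝟙 (FundamentalGroupoid.mk y)) = 𝟙 _ :=
  (FundamentalGroupoid.map (tr g)).map_id _

theorem actH_eqToHom (g : G) {y y' : B}
    (h : FundamentalGroupoid.mk y = FundamentalGroupoid.mk y') :
    actH g (eqToHom h) = eqToHom (by rw [show y = y' from congrArg (·.as) h]) := by
  obtain rfl : y = y' := congrArg (·.as) h
  exact actH_id g y

theorem actH_inv (g : G) {y y' : B} (p : FundamentalGroupoid.mk y ⟶ FundamentalGroupoid.mk y') :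
    actH g (inv p) = inv (actH g p) := by
  apply IsIso.eq_inv_of_hom_inv_id
  rw [← actH_comp, IsIso.hom_inv_id, actH_id]

theorem actH_mul (g h : G) {y y' : B}
    (p : FundamentalGroupoid.mk y ⟶ FundamentalGroupoid.mk y') :
    actH (g * h) p = eqToHom (by rw [mul_smul]) ≫ actH g (actH h p) ≫
      eqToHom (by rw [mul_smul]) := by
  obtain ⟨q, rfl⟩ := Qp_surj p
  exact Qp_congr _ _ (mul_smul g h y) (mul_smul g h y').symm fun t => mul_smul g h (q t)

theorem actH_one {y y' : B} (p : FundamentalGroupoid.mk y ⟶ FundamentalGroupoid.mk y') :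
    actH (1 : G) p = eqToHom (by rw [one_smul]) ≫ p ≫ eqToHom (by rw [one_smul]) := by
  obtain ⟨q, rfl⟩ := Qp_surj p
  exact Qp_congr _ _ (one_smul G y) (one_smul G y').symm fun t => one_smul G (q t)

theorem actH_congr {g h : G} (e : g = h) {y y' : B}
    (p : FundamentalGroupoid.mk y ⟶ FundamentalGroupoid.mk y') :
    actH g p = eqToHom (by rw [e]) ≫ actH h p ≫ eqToHom (by rw [e]) := by
  subst e; simp

/-- classes of paths from `b₀` to its translates -/
structure Gm (G : Type) [Group G] [MulAction G B] (b₀ : B) where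
  g : G
  p : FundamentalGroupoid.mk b₀ ⟶ FundamentalGroupoid.mk (g • b₀)

omit [ContinuousConstSMul G B] in
theorem Gm.ext' {a b : Gm G b₀} (h : a.g = b.g) (hp : a.p ≫ eqToHom (by rw [h]) = b.p) :
    a = b := by
  obtain ⟨g, p⟩ := a
  obtain ⟨g', p'⟩ := b
  obtain rfl : g = g' := h
  simpa using hp

noncomputable instance : Mul (Gm G b₀) :=
  ⟨fun a b => ⟨a.g * b.g, a.p ≫ actH a.g b.p ≫ eqToHom (by rw [mul_smul])⟩⟩

noncomputable instance : One (Gm G b₀) := ⟨⟨1, eqToHom (by rw [one_smul])⟩⟩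

noncomputable instance : _root_.Inv (Gm G b₀) :=
  ⟨fun a => ⟨a.g⁻¹, eqToHom (by rw [inv_smul_smul]) ≫ actH a.g⁻¹ (inv a.p)⟩⟩

theorem Gm.mul_g (a b : Gm G b₀) : (a * b).g = a.g * b.g := rfl

theorem Gm.mul_p (a b : Gm G b₀) :
    (a * b).p = a.p ≫ actH a.g b.p ≫ eqToHom (by rw [Gm.mul_g, mul_smul]) := rfl

noncomputable instance : Group (Gm G b₀) :=
  Group.ofLeftAxioms
    (fun a b c => Gm.ext' (mul_assoc _ _ _) (by
      simp only [Gm.mul_p, Gm.mul_g, actH_mul, actH_comp, actH_eqToHom, Category.assoc,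
        eqToHom_trans, eqToHom_trans_assoc, eqToHom_refl, Category.id_comp]))
    (fun a => Gm.ext' (one_mul _) (by
      change (eqToHom (congrArg FundamentalGroupoid.mk (one_smul G b₀).symm) ≫
        actH (1 : G) a.p ≫ eqToHom _) ≫ _ = _
      simp [actH_one]))
    (fun a => Gm.ext' (inv_mul_cancel _) (by
      change ((eqToHom (congrArg FundamentalGroupoid.mk (inv_smul_smul a.g b₀).symm) ≫
        actH a.g⁻¹ (inv a.p)) ≫ actH a.g⁻¹ a.p ≫ eqToHom _) ≫ _ =
        eqToHom (congrArg FundamentalGroupoid.mk (one_smul G b₀).symm)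
      simp [actH_inv]))

/-- the projection -/
noncomputable def Gm.proj : Gm G b₀ →* G := MonoidHom.mk' Gm.g Gm.mul_g

/-- the fundamental group inside `Gm` -/
noncomputable def Gm.ι (G : Type) [Group G] [MulAction G B] [ContinuousConstSMul G B] :
    Pn 1 B b₀ →* Gm G b₀ :=
  MonoidHom.mk' (fun y => ⟨1, inv (ar y) ≫ eqToHom (by rw [one_smul])⟩) fun y y' =>
    Gm.ext' (mul_one _).symm (by simp [Gm.mul_p, ar_mul, actH_one])

theorem Gm.ι_inj : Function.Injective (Gm.ι G : Pn 1 B b₀ → Gm G b₀) := by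
  intro y y' h
  have h' : inv (ar y) ≫ eqToHom _ = inv (ar y') ≫ eqToHom _ := eq_of_heq (Gm.mk.inj h).2
  rw [cancel_mono, IsIso.inv_eq_inv] at h'
  exact ar_bij.1 h'

theorem Gm.ι_trRho {g : G} (k : Path b₀ (g • b₀)) (y : Pn 1 B b₀) :
    Gm.ι G (trRho k y) * ⟨g, Qp k⟩ = ⟨g, Qp k⟩ * Gm.ι G y := by
  obtain ⟨ψ, rfl⟩ := Quotient.exists_rep y
  let D : Dat 1 b₀ := ⟨(Lp.map (tr g) rfl ψ).1, ContinuousMap.const _ (PS.ofPath k), fun x =>
    (PS.ofPath_e k).trans ((Lp.map (tr g) rfl ψ).2 x x.2).symm⟩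
  have h1 : trRho k (⟦ψ⟧ : Pn 1 B b₀) = D.cap := by
    rw [cap_eq_rho k (Lp.map (tr g) rfl ψ) D (fun _ => rfl) (fun _ => rfl), ← piMap_mk]
    rfl
  have h2 : ar D.cap = Qp k ≫ actH g (Qp (Lp.path ψ)) ≫ inv (Qp k) :=
    ar_cap D k ((Lp.path ψ).map (tr g).continuous) k (fun _ _ => rfl)
      (fun x => congrArg (fun z => g • ψ z) (cb_one x).symm) (fun _ _ => rfl)
  refine Gm.ext' ((one_mul g).trans (mul_one g).symm) ?_
  change ((inv (ar (trRho k (⟦ψ⟧ : Pn 1 B b₀))) ≫ eqToHom _) ≫ actH (1 : G) (Qp k) ≫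
    eqToHom _) ≫ _ = Qp k ≫ actH g (inv (ar (⟦ψ⟧ : Pn 1 B b₀)) ≫ eqToHom _) ≫ eqToHom _
  rw [h1, h2, ar_mk]
  simp [actH_one, actH_comp, actH_inv, actH_eqToHom]

variable {x : S → G} {T : Att G 0 (⟨1, ()⟩ : Cell G Unit) b₀ S}

omit [ContinuousConstSMul G B] in
theorem att_vtx0 (hT : T.φ = fun s => vtxLoop (x s)) (c : Cell G S) (y : Bd 1) (h : y.1 0 = 0) :
    c.g • att (T.φ c.s) y = ⟨c.g * x c.s, ()⟩ := by
  rw [att_bot _ _ h, hT]; rfl

omit [ContinuousConstSMul G B] in
theorem att_vtx1 (c : Cell G S) (y : Bd 1) (h : y.1 0 = 1) :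
    c.g • att (T.φ c.s) y = ⟨c.g, ()⟩ := by
  rw [att_rest _ _ (Or.inl h)]
  exact Cell.ext (mul_one _) rfl

/-- the edge as a path -/
def edge (hT : T.φ = fun s => vtxLoop (x s)) (c : Cell G S) :
    Path (T.i ⟨c.g * x c.s, ()⟩) (T.i ⟨c.g, ()⟩) where
  toFun t := c.g • T.χ c.s fun _ => t
  continuous_toFun := ((T.χ c.s).continuous.comp (by fun_prop)).const_smul _
  source' := by
    rw [← att_vtx0 hT c ⟨fun _ => 0, 0, Or.inl rfl⟩ rfl, T.i_smul, ← T.χ_bd]
  target' := by
    rw [← att_vtx1 (T := T) c ⟨fun _ => 1, 0, Or.inr rfl⟩ rfl, T.i_smul, ← T.χ_bd]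

theorem ar_ob (hT : T.φ = fun s => vtxLoop (x s)) {w₀ : W} (F : C(B, W))
    (L : Lift (F.comp T.i) w₀) (c : Cell G S) :
    ar (T.ob F L c) = Qp (L.pa ⟨c.g * x c.s, ()⟩) ≫ Qp ((edge hT c).map F.continuous) ≫
      inv (Qp (L.pa ⟨c.g, ()⟩)) :=
  ar_cap _ _ _ _ (fun y h => congrArg L.1 (att_vtx0 hT c y h))
    (fun y => congrArg (fun z => F (c.g • T.χ c.s z)) (cb_one y).symm)
    (fun y h => congrArg L.1 (att_vtx1 c y h))

omit [ContinuousConstSMul G B] in
theorem i_vtx (T : Att G 0 (⟨1, ()⟩ : Cell G Unit) b₀ S) (g : G) : T.i ⟨g, ()⟩ = g • b₀ := by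
  have := T.i_smul g ⟨1, ()⟩
  rwa [T.base, Cell.smul_mk, mul_one] at this

end Groupoid

open CategoryTheory in
/-- `Dat.cap_one`: `θ (ob (g, s)) = δ (g * x s) * (δ g)⁻¹` with `δ g = θ` of the class of the loop
`L g · (L₂ (i g))⁻¹`, because `L₂ (i (g * x s)) · F edge ≃ L₂ (i g)`; so the functional factors
through `bd1`. -/
theorem qq_base (x : S → G) (T : Att G 0 (⟨1, ()⟩ : Cell G Unit) b₀ S)
    (hT : T.φ = fun s => vtxLoop (x s)) : T.QQ (LinearMap.ker (bd1 x)) := by
  intro W _ w₀ F L L₂ X _ θ z hz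
  let L' : Lift (F.comp T.i) w₀ := ⟨L₂.1.comp T.i, fun a => L₂.2 _⟩
  choose d hd using fun a : Cell G Unit => ar_bij.2 (Qp (L.pa a) ≫ inv (Qp (L'.pa a)))
  have h0 : ∀ c, T.ob F L' c = 1 := fun c =>
    Dat.cap_eq_const _ (L₂.1.comp ((tr c.g).comp (T.χ c.s))) (fun y => L₂.2 _) fun y => by
      change L₂.1 (c.g • T.χ c.s y) = L₂.1 (T.i (c.g • att (T.φ c.s) y))
      rw [T.χ_bd, T.i_smul]
  have h1 : ∀ c, d ⟨c.g, ()⟩ * T.ob F L c = d ⟨c.g * x c.s, ()⟩ := fun c => by
    apply ar_bij.1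
    have := ar_ob hT F L' c
    rw [h0, ar_one, eq_comm, ← Category.assoc, IsIso.comp_inv_eq, Category.id_comp] at this
    rw [ar_mul, hd, hd, ar_ob hT, ← this]
    simp
  have h2 : lin (fun c => θ (T.ob F L c)) = lin (fun a => θ (d a)) ∘ₗ bd1 x := by
    refine Finsupp.lhom_ext fun c n => ?_
    rw [LinearMap.comp_apply, bd1_single, map_smul, map_sub, lin_single, lin_single, lin_single,
      ← h1, map_mul, ofMul_mul, one_smul, one_smul, add_sub_cancel_left]
  rw [h2, LinearMap.comp_apply, LinearMap.mem_ker.1 hz, map_zero]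

open CategoryTheory in
/-- Choose words `u g` with `π (u g) = g`, `u 1 = 1`, and let `K ⟨g, ()⟩` be a path in the class
`P 1 (u g)`, where `P g w : v g ⟶ v (g * π w)` is the edge path class (`P g (w w') = P g w ≫
P (g π w) w'`, `P g (of s) = E g s`, `g • P 1 w = P g w`; e.g. from an action of `FreeGroup S` on
`Σ g, (v h ⟶ v g)` as in `Lib.CW2.exists_vertex_paths`), constant for `g = 1`.  With
`ι y = (pi1MulEquivFundamentalGroup y)⁻¹` (this turns Mathlib's multiplication into path order) one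
has `ι (τ (g • ℓ w)) = k g ≫ P g w ≫ (k (g π w))⁻¹` and `ι (trRho (kp g) y) = k g ≫ g • ι y ≫ (k g)⁻¹`
(`Dat.cap_one`, `cap_eq_rho`).  Relator data: `r t = ℓ t` (`t ∈ R`), `p = id - h₀ ∘ bd1`,
`h₀ (single ⟨g, ()⟩ 1) = ab (ℓ (u g))`, `w (g, s) = ℓ (u g * of s * (u (g * x s))⁻¹)`. -/
theorem rel_base (x : S → G) (hx : Function.Surjective (FreeGroup.lift x))
    (hR : (FreeGroup.lift x).ker.IsFinitelyNormallyGenerated)
    (T : Att G 0 (⟨1, ()⟩ : Cell G Unit) b₀ S) (hT : T.φ = fun s => vtxLoop (x s)) :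
    ∃ K : T.Ctr, K.1 ⟨1, ()⟩ = PS.const b₀ ∧
      RelData (T.ob (ContinuousMap.id B) K) (fun g => trRho (T.kp K g)) (LinearMap.ker (bd1 x)) := by
  classical
  obtain ⟨ℓ, h1, h2⟩ := exists_edgeWord x
  obtain ⟨u, hu, hu1⟩ : ∃ u : G → FreeGroup S, (∀ g, FreeGroup.lift x (u g) = g) ∧ u 1 = 1 := by
    choose u hu using hx
    refine ⟨fun g => if g = 1 then 1 else u g, fun g => ?_, if_pos rfl⟩
    dsimp only
    split_ifs with h
    · rw [map_one, h]
    · exact hu g
  let ε : ∀ s, Path (x s • b₀) b₀ := fun s => (edge hT ⟨1, s⟩).cast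
    (by rw [i_vtx, one_mul]) (by rw [i_vtx, one_smul])
  let Φ : FreeGroup S →* Gm G b₀ := FreeGroup.lift fun s => ⟨x s, inv (Qp (ε s))⟩
  have hΦ : ∀ w, (Φ w).g = FreeGroup.lift x w := fun w =>
    DFunLike.congr_fun (FreeGroup.ext_hom (Gm.proj.comp Φ) (FreeGroup.lift x) fun s => by
      simp [Φ, Gm.proj]) w
  have hγ : ∀ g, ∃ γ : Path b₀ (g • b₀), (⟨g, Qp γ⟩ : Gm G b₀) = Φ (u g) ∧
      (g = 1 → ∀ t, γ t = b₀) := fun g => by
    by_cases hg : g = 1
    · subst hg
      refine ⟨(Path.refl b₀).cast rfl (one_smul G b₀), ?_, fun _ _ => rfl⟩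
      rw [hu1, map_one]
      refine Gm.ext' rfl ?_
      change Qp _ ≫ _ = eqToHom (congrArg FundamentalGroupoid.mk (one_smul G b₀).symm)
      rw [Qp_congr _ (Path.refl b₀) rfl (one_smul G b₀).symm fun _ => rfl]
      simp [Qp_refl]
    · have := (hΦ (u g)).trans (hu g)
      generalize Φ (u g) = a at this
      obtain ⟨g', p⟩ := a
      obtain rfl : g' = g := this
      obtain ⟨q, rfl⟩ := Qp_surj p
      exact ⟨q, rfl, fun h => absurd h hg⟩
  choose γ hγ hγ1 using hγ
  let K : T.Ctr := ⟨⟨fun a => PS.ofPath (γ a.g), continuous_of_discreteTopology⟩, fun a =>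
    (PS.ofPath_e _).trans (i_vtx T a.g).symm⟩
  have hγe : ∀ g g', g = g' → ∀ t, γ g t = γ g' t := by
    rintro g _ rfl t; rfl
  have hkp : ∀ g, T.kp K g = γ g := fun g => Path.ext (funext fun t => hγe _ _ (mul_one g) t)
  set o := T.ob (ContinuousMap.id B) K with ho
  have hA : ∀ c : Cell G S, Gm.ι G (o c) =
      Φ (u c.g) * Φ (FreeGroup.of c.s) * (Φ (u (c.g * x c.s)))⁻¹ := fun c => by
    rw [eq_mul_inv_iff_mul_eq, ← hγ, ← hγ, show Φ (FreeGroup.of c.s) = ⟨x c.s, inv (Qp (ε c.s))⟩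
      from FreeGroup.lift_apply_of]
    refine Gm.ext' (one_mul _) ?_
    change ((inv (ar (o c)) ≫ eqToHom _) ≫ actH (1 : G) (Qp (γ (c.g * x c.s))) ≫ eqToHom _) ≫ _ =
      Qp (γ c.g) ≫ actH c.g (inv (Qp (ε c.s))) ≫ eqToHom _
    rw [ho, ar_ob hT, Qp_congr (K.pa ⟨c.g * x c.s, ()⟩) (γ (c.g * x c.s)) rfl (i_vtx T _).symm
      (fun _ => rfl), Qp_congr (K.pa ⟨c.g, ()⟩) (γ c.g) rfl (i_vtx T _).symm (fun _ => rfl),
      Qp_congr ((edge hT c).map (ContinuousMap.id B).continuous)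
        ((ε c.s).map (tr c.g).continuous) ((i_vtx T _).trans (mul_smul _ _ _)) (i_vtx T _).symm
        (fun t => congrArg (c.g • ·) (one_smul G (T.χ c.s fun _ => t)).symm), actH_one, actH_inv, actH_Qp]
    simp
  have hM : ∀ w g, Gm.ι G (FreeGroup.lift o (FreeGroup.map (fun c : Cell G S => g • c) (ℓ w))) =
      Φ (u g) * Φ w * (Φ (u (g * FreeGroup.lift x w)))⁻¹ := by
    have hm : ∀ w w' g, FreeGroup.map (fun c : Cell G S => g • c) (ℓ (w * w')) =
        FreeGroup.map (fun c : Cell G S => g • c) (ℓ w) *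
          FreeGroup.map (fun c : Cell G S => (g * FreeGroup.lift x w) • c) (ℓ w') :=
      fun w w' g => by rw [h2, map_mul, mapc_mul]
    intro w
    induction w using FreeGroup.induction_on with
    | C1 => intro g; simp [edgeWord_one h2]
    | of s =>
      intro g
      rw [h1, FreeGroup.map.of, FreeGroup.lift_apply_of, hA,
        FreeGroup.lift_apply_of (f := x)]
      simp
    | inv_of s ih =>
      intro g
      have := hm (FreeGroup.of s)⁻¹ (FreeGroup.of s) g
      rw [inv_mul_cancel, edgeWord_one h2, map_one] at this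
      rw [eq_inv_of_mul_eq_one_left this.symm, map_inv, map_inv, ih, mul_assoc g,
        ← map_mul (FreeGroup.lift x), inv_mul_cancel, map_one, mul_one, map_inv Φ]
      group
    | mul a b iha ihb =>
      intro g
      rw [hm, map_mul, map_mul, iha, ihb, map_mul Φ, map_mul, mul_assoc g]
      group
  have hM1 : ∀ w, FreeGroup.lift x w = 1 → Gm.ι G (FreeGroup.lift o (ℓ w)) = Φ w := fun w hw => by
    have := hM w 1
    rwa [mapc_one, hw, mul_one, hu1, map_one, one_mul, inv_one, mul_one] at this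
  obtain ⟨R, hRf, hRk⟩ := hR
  have hRm : ∀ t : R, FreeGroup.lift x t.1 = 1 := fun t => by
    rw [← MonoidHom.mem_ker, ← hRk]
    exact Subgroup.subset_normalClosure t.2
  let h₀ : (Cell G Unit →₀ ℤ) →ₗ[ℤ] (Cell G S →₀ ℤ) :=
    Finsupp.linearCombination ℤ fun a => Multiplicative.toAdd (abw _ (ℓ (u a.g)))
  refine ⟨K, PS.ext (hγ1 1 rfl), R, hRf.to_subtype, fun t => ℓ t.1,
    LinearMap.id - h₀ ∘ₗ bd1 x, fun t => ?_, fun z hz => ?_, fun g t => ?_, fun c => ?_⟩
  · rw [LinearMap.mem_ker, bd1_edgeWord x ℓ h1 h2, hRm, sub_self]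
  · simp [LinearMap.mem_ker.1 hz]
  · apply Gm.ι_inj (G := G)
    rw [hM, hRm, mul_one, eq_mul_inv_iff_mul_eq, ← hγ, ← hM1 _ (hRm t), ← hkp]
    exact Gm.ι_trRho _ _
  · set N := Subgroup.normalClosure
      (range fun e : Cell G R => FreeGroup.map (fun c : Cell G S => e.g • c) (ℓ e.s.1)) with hN
    let H : Subgroup (FreeGroup S) :=
      { carrier := {w | FreeGroup.lift x w = 1 ∧
          ∀ g : G, FreeGroup.map (fun c : Cell G S => g • c) (ℓ w) ∈ N}
        one_mem' := ⟨map_one _, fun g => by rw [edgeWord_one h2, map_one]; exact N.one_mem⟩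
        mul_mem' := fun {a b} ha hb => ⟨by rw [map_mul, ha.1, hb.1, mul_one], fun g => by
          rw [h2, ha.1, mapc_one, map_mul]; exact N.mul_mem (ha.2 g) (hb.2 g)⟩
        inv_mem' := fun {a} ha => ⟨by rw [map_inv, ha.1, inv_one], fun g => by
          have := edgeWord_inv h2 a
          rw [ha.1, mapc_one] at this
          rw [this, map_inv]; exact N.inv_mem (ha.2 g)⟩ }
    have : H.Normal := ⟨fun w hw v => ⟨by simp [hw.1], fun g => by
      rw [h2, map_mul (FreeGroup.lift x), hw.1, mul_one, edgeWord_inv h2, h2, map_mul, map_mul,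
        map_inv, mapc_mul]
      exact Subgroup.normalClosure_normal.conj_mem _ (hw.2 _) _⟩⟩
    have hle : (FreeGroup.lift x).ker ≤ H := by
      rw [← hRk]
      exact Subgroup.normalClosure_le_normal fun t ht => ⟨hRm ⟨t, ht⟩, fun g =>
        Subgroup.subset_normalClosure ⟨⟨g, ⟨t, ht⟩⟩, rfl⟩⟩
    have hw : FreeGroup.lift x (u c.g * FreeGroup.of c.s * (u (c.g * x c.s))⁻¹) = 1 := by
      simp [hu]
    refine ⟨ℓ (u c.g * FreeGroup.of c.s * (u (c.g * x c.s))⁻¹), ?_, ?_, ?_⟩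
    · have := (hle hw).2 1
      rwa [mapc_one] at this
    · apply Gm.ι_inj (G := G)
      rw [hM1 _ hw, hA, map_mul, map_mul, map_inv]
    · have e1 : FreeGroup.lift x (u c.g * FreeGroup.of c.s) =
          FreeGroup.lift x (u (c.g * x c.s)) := by simp [hu]
      have e2 : c.g • (⟨1, c.s⟩ : Cell G S) = c := Cell.ext (mul_one _) rfl
      rw [h2, e1, edgeWord_inv h2, h2, h1, hu, FreeGroup.map.of, e2]
      simp only [map_mul, map_inv, toAdd_mul, toAdd_inv, LinearMap.sub_apply, LinearMap.id_apply,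
        LinearMap.comp_apply, bd1_single, one_smul, map_sub, h₀,
        Finsupp.linearCombination_single]
      rw [show Multiplicative.toAdd (abw _ (FreeGroup.of c)) = Finsupp.single c 1 by simp [abw]]
      abel

theorem exists_base [hfp : Group.IsFinitelyPresented G] (h : IsFPinf G) :
    ∃ (S : Type) (_ : Finite S) (φ : S → Lp 0 (Cell G Unit) ⟨1, ()⟩),
      ∀ (B : Type) [TopologicalSpace B] [MulAction G B] [ContinuousConstSMul G B] (b₀ : B)
        (T : Att G 0 (⟨1, ()⟩ : Cell G Unit) b₀ S), T.φ = φ →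
        ∃ (K : T.Ctr) (Z : Submodule ℤ (Cell G S →₀ ℤ)), Inv T K Z := by
  obtain ⟨n, π, hs, hk⟩ := hfp.out
  have hπ : FreeGroup.lift (fun s => π (FreeGroup.of s)) = π := by ext; simp
  refine ⟨Fin n, inferInstance, fun s => vtxLoop (π (FreeGroup.of s)), fun B _ _ _ b₀ T hT => ?_⟩
  obtain ⟨K, h1, h2⟩ := rel_base _ (hπ.symm ▸ hs) (hπ.symm ▸ hk) T hT
  exact ⟨K, _, h1, (syz_aug h).ker _ (range_bd1 _ (hπ.symm ▸ hs)), qq_base _ T hT, h2⟩

end Crest.Agent.R185
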