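import Crest.Agent.R185.BRLim
import Crest.Agent.Lib.CW2.Cells
import Crest.Prelude.Def_FiniteTypeClassifying

/-!
# Row 185, bridge: the quotient is a CW complex of finite type

`X = orbitRel.Quotient G Lim`.  Cells: `Unit` in dimension `0`, `S n` in dimension `n + 1`, with
characteristic maps `x ↦ mk (ι (n+1) (χ s (fun i => rs (x i))))` (`rs` and
`continuousOn_symm_of_ball`, `mem_ball_iff`, `exists_of_mem_sphere` from `Lib.CW2.Cells`, whose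
`exists_cw` is the model to follow, with `CWComplex.mkFiniteType`).
-/

set_option autoImplicit false

open unitInterval Topology Set

namespace Crest.Agent.R185

variable {G : Type} [Group G] (𝒯 : Tower G)

/-- the orbit space -/
abbrev Tower.X : Type := MulAction.orbitRel.Quotient G 𝒯.Lim

/-- the projection -/
def Tower.pr (y : 𝒯.Lim) : 𝒯.X := Quotient.mk _ y

theorem Tower.pr_smul (g : G) (y : 𝒯.Lim) : 𝒯.pr (g • y) = 𝒯.pr y :=
  Quotient.sound (MulAction.mem_orbit y g)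

theorem Tower.isQuotientMap_pr : IsQuotientMap 𝒯.pr := isQuotientMap_quotient_mk'

/-- Coordinates: `exists_map_cell` with the trivial action on `ℝ × (Fin (n+1) → ℝ)` and
`β s' x = if s' = s then (bump x, bump x • x) else 0`, descended to the quotient. -/
theorem Tower.exists_coord (n : ℕ) (s : 𝒯.S n) :
    ∃ (F : C(𝒯.X, ℝ × (Fin (n + 1) → ℝ))) (b : Cb (n + 1) → ℝ),
      (∀ x, x ∉ Cube.boundary (Fin (n + 1)) → b x ≠ 0) ∧
      (∀ m ≤ n, ∀ y, F (𝒯.pr (𝒯.ι m y)) = 0) ∧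
      (∀ x, F (𝒯.pr (𝒯.ι (n + 1) ((𝒯.T n).χ s x))) = (b x, fun i => b x * x i)) ∧
      ∀ s', s' ≠ s → ∀ x, F (𝒯.pr (𝒯.ι (n + 1) ((𝒯.T n).χ s' x))) = 0 := by
  classical
  let b : Cb (n + 1) → ℝ := fun x => ∏ i, ((x i : ℝ) * (1 - x i))
  have hb : Continuous b := by
    refine continuous_finsetProd _ fun i _ => ?_
    fun_prop
  have hb0 : ∀ x : Bd (n + 1), b x = 0 := by
    rintro ⟨x, i, hi⟩
    refine Finset.prod_eq_zero (Finset.mem_univ i) ?_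
    rcases hi with hi | hi <;> simp [hi]
  let β₀ : C(Cb (n + 1), ℝ × (Fin (n + 1) → ℝ)) := ⟨fun x => (b x, fun i => b x * x i), by fun_prop⟩
  obtain ⟨F, hF, h0, h1⟩ := 𝒯.exists_map_cell (Z := ℝ × (Fin (n + 1) → ℝ)) 1 (fun _ => continuous_id) 0
    ⟨fun p => (p.2 : ℝ) • p.1, by fun_prop⟩ (fun z => by simp) (fun z => by simp) (fun _ => rfl) n
    (fun s' => if s' = s then β₀ else 0) (fun s' x => by
      split_ifs
      · change (b x, fun i => b x * x.1 i) = _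
        rw [hb0]
        ext <;> simp
      · rfl)
  refine ⟨⟨Quotient.lift F ?_, F.continuous.quotient_lift _⟩, b, fun x hx => ?_, h0, fun x => ?_,
    fun s' hs' x => ?_⟩
  · rintro y y' ⟨g, rfl⟩
    exact hF g y'
  · refine Finset.prod_ne_zero_iff.2 fun i _ => mul_ne_zero (fun h => hx ⟨i, Or.inl (Subtype.ext h)⟩)
      fun h => hx ⟨i, Or.inr (Subtype.ext (sub_eq_zero.1 h).symm)⟩
  · exact (h1 s x).trans (by rw [if_pos rfl]; rfl)
  · exact (h1 s' x).trans (by rw [if_neg hs']; rfl)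

/-- the closed cells of the quotient -/
def Tower.cl (n : ℕ) (s : 𝒯.S n) (x : Cb (n + 1)) : 𝒯.X := 𝒯.pr (𝒯.ι (n + 1) ((𝒯.T n).χ s x))

theorem Tower.continuous_cl (n : ℕ) (s : 𝒯.S n) : Continuous (𝒯.cl n s) :=
  𝒯.isQuotientMap_pr.continuous.comp ((𝒯.ι (n + 1)).continuous.comp ((𝒯.T n).χ s).continuous)

theorem Tower.cl_bd (n : ℕ) (s : 𝒯.S n) {x : Cb (n + 1)} (hx : x ∈ Cube.boundary (Fin (n + 1))) :
    ∃ a, 𝒯.cl n s x = 𝒯.pr (𝒯.ι n a) :=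
  ⟨_, congrArg 𝒯.pr ((congrArg (𝒯.ι (n + 1)) ((𝒯.T n).χ_bd s ⟨x, hx⟩)).trans (𝒯.ι_i n _))⟩

theorem Tower.exists_cl (n : ℕ) (a : 𝒯.Y n) : 𝒯.pr (𝒯.ι n a) = 𝒯.pr (𝒯.ι 0 (𝒯.y 0)) ∨
    ∃ m < n, ∃ (s : 𝒯.S m) (x : Cb (m + 1)), x ∉ Cube.boundary (Fin (m + 1)) ∧
      𝒯.pr (𝒯.ι n a) = 𝒯.cl m s x := by
  rcases 𝒯.exists_cell n a with ⟨g, h⟩ | ⟨m, hm, g, s, x, hx, h⟩
  · exact Or.inl (by rw [h, 𝒯.pr_smul])
  · exact Or.inr ⟨m, hm, s, x, hx, by rw [h, 𝒯.pr_smul]; rfl⟩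

/-- separation by open sets -/
def CWSep {X : Type} [TopologicalSpace X] (p q : X) : Prop :=
  ∃ u v : Set X, IsOpen u ∧ IsOpen v ∧ p ∈ u ∧ q ∈ v ∧ Disjoint u v

theorem CWSep.symm {X : Type} [TopologicalSpace X] {p q : X} (h : CWSep p q) : CWSep q p := by
  obtain ⟨u, v, hu, hv, hp, hq, h⟩ := h
  exact ⟨v, u, hv, hu, hq, hp, h.symm⟩

theorem CWSep.ne {X : Type} [TopologicalSpace X] {p q : X} (h : CWSep p q) : p ≠ q := by
  obtain ⟨u, v, -, -, hp, hq, h⟩ := h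
  rintro rfl
  exact disjoint_left.1 h hp hq

theorem Tower.sep_lower {n m : ℕ} (s : 𝒯.S n) {x : Cb (n + 1)}
    (hx : x ∉ Cube.boundary (Fin (n + 1))) (hm : m ≤ n) (a : 𝒯.Y m) :
    CWSep (𝒯.cl n s x) (𝒯.pr (𝒯.ι m a)) := by
  obtain ⟨F, b, hb, h0, h1, -⟩ := 𝒯.exists_coord n s
  refine separated_by_continuous F.continuous fun h => hb x hx ?_
  exact congrArg Prod.fst ((h1 x).symm.trans (h.trans (h0 m hm a)))

theorem Tower.sep_same {n : ℕ} {s s' : 𝒯.S n} {x x' : Cb (n + 1)}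
    (hx : x ∉ Cube.boundary (Fin (n + 1))) (hne : ¬(s' = s ∧ x' = x)) :
    CWSep (𝒯.cl n s x) (𝒯.cl n s' x') := by
  obtain ⟨F, b, hb, -, h1, h2⟩ := 𝒯.exists_coord n s
  refine separated_by_continuous F.continuous fun h => ?_
  by_cases hs : s' = s
  · subst hs
    have h3 := (h1 x).symm.trans (h.trans (h1 x'))
    obtain ⟨h4, h5⟩ := Prod.mk.inj h3
    refine hne ⟨rfl, funext fun i => Subtype.ext ?_⟩
    have h6 := congrFun h5 i
    rw [← h4] at h6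
    exact (mul_left_cancel₀ (hb x hx) h6).symm
  · exact hb x hx (congrArg Prod.fst ((h1 x).symm.trans (h.trans (h2 s' hs x'))))

/-- the coordinates separate points (`exists_cell`; compare the dimensions of the two cells) -/
theorem Tower.t2 : T2Space 𝒯.X := by
  refine ⟨fun p q hpq => ?_⟩
  change CWSep p q
  obtain ⟨p, rfl⟩ := 𝒯.isQuotientMap_pr.surjective p
  obtain ⟨q, rfl⟩ := 𝒯.isQuotientMap_pr.surjective q
  obtain ⟨n, a, rfl⟩ := 𝒯.exists_ι p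
  obtain ⟨n', a', rfl⟩ := 𝒯.exists_ι q
  rcases 𝒯.exists_cl n a with h | ⟨m, -, s, x, hx, h⟩ <;>
    rcases 𝒯.exists_cl n' a' with h' | ⟨m', -, s', x', hx', h'⟩ <;> rw [h, h'] at hpq ⊢
  · exact absurd rfl hpq
  · exact (𝒯.sep_lower s' hx' (Nat.zero_le _) _).symm
  · exact 𝒯.sep_lower s hx (Nat.zero_le _) _
  · rcases lt_trichotomy m m' with hm | rfl | hm
    · exact (𝒯.sep_lower s' hx' hm _).symm
    · refine 𝒯.sep_same hx ?_
      rintro ⟨rfl, rfl⟩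
      exact hpq rfl
    · exact 𝒯.sep_lower s hx hm _

theorem Tower.isQuotientCoveringMap : IsQuotientCoveringMap 𝒯.pr G := by
  exact
    { toIsQuotientMap := 𝒯.isQuotientMap_pr
      toContinuousConstSMul := inferInstance
      apply_eq_iff_mem_orbit := Quotient.eq
      disjoint := 𝒯.exists_nhds }

open Metric Crest.Agent.Lib.CW2

/-- rescaling of the closed ball to the cube -/
noncomputable def cwRs {n : ℕ} (x : Fin n → ℝ) : Cb n := fun i => rs (x i)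

theorem continuous_cwRs {n : ℕ} : Continuous (cwRs : (Fin n → ℝ) → Cb n) :=
  continuous_pi fun i => continuous_rs.comp (continuous_apply i)

theorem cwRs_ball {n : ℕ} {x : Fin n → ℝ} (hx : x ∈ ball (0 : Fin n → ℝ) 1) :
    cwRs x ∉ Cube.boundary (Fin n) := by
  rintro ⟨i, hi⟩
  obtain ⟨u, hu⟩ := rs_in (mem_ball_iff.1 hx i)
  rcases hi with hi | hi
  · exact u.2.1 (hu.symm.trans hi)
  · exact u.2.2 (hu.symm.trans hi)

theorem cwRs_sphere {n : ℕ} {x : Fin n → ℝ} (hx : x ∈ sphere (0 : Fin n → ℝ) 1) :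
    cwRs x ∈ Cube.boundary (Fin n) := by
  obtain ⟨i, hi⟩ := exists_of_mem_sphere hx
  exact ⟨i, rs_bdry hi⟩

theorem cwRs_inj {n : ℕ} {x y : Fin n → ℝ} (hx : x ∈ ball (0 : Fin n → ℝ) 1)
    (hy : y ∈ ball (0 : Fin n → ℝ) 1) (h : cwRs x = cwRs y) : x = y :=
  funext fun i => rs_inj (mem_ball_iff.1 hx i) (mem_ball_iff.1 hy i) (congrFun h i)

theorem exists_cwRs_ball {n : ℕ} {y : Cb n} (hy : y ∉ Cube.boundary (Fin n)) :
    ∃ x ∈ ball (0 : Fin n → ℝ) 1, cwRs x = y := by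
  choose x hx using fun i => rs_surj ⟨y i, fun h => hy ⟨i, Or.inl h⟩, fun h => hy ⟨i, Or.inr h⟩⟩
  exact ⟨x, mem_ball_iff.2 fun i => (hx i).1, funext fun i => (hx i).2⟩

theorem exists_cwRs {n : ℕ} (y : Cb n) : ∃ x ∈ closedBall (0 : Fin n → ℝ) 1, cwRs x = y := by
  refine ⟨fun i => 2 * (y i : ℝ) - 1, ?_, funext fun i => ?_⟩
  · rw [mem_closedBall_zero_iff, pi_norm_le_iff_of_nonneg zero_le_one]
    intro i
    rw [Real.norm_eq_abs, abs_le]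
    constructor <;> linarith [(y i).2.1, (y i).2.2]
  · change projIcc 0 1 zero_le_one ((2 * (y i : ℝ) - 1 + 1) / 2) = y i
    rw [show (2 * (y i : ℝ) - 1 + 1) / 2 = y i by ring, projIcc_val]

/-- the cells -/
def Tower.cellT : ℕ → Type
  | 0 => Unit
  | n + 1 => 𝒯.S n

/-- the characteristic maps -/
noncomputable def Tower.chi : (n : ℕ) → 𝒯.cellT n → (Fin n → ℝ) → 𝒯.X
  | 0, _, _ => 𝒯.pr (𝒯.ι 0 (𝒯.y 0))
  | n + 1, s, x => 𝒯.cl n s (cwRs x)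

theorem Tower.finite_cellT : ∀ n, Finite (𝒯.cellT n)
  | 0 => inferInstanceAs (Finite Unit)
  | n + 1 => 𝒯.fin n

theorem Tower.continuous_chi : ∀ (n : ℕ) (i : 𝒯.cellT n), Continuous (𝒯.chi n i)
  | 0, _ => continuous_const
  | n + 1, s => (𝒯.continuous_cl n s).comp continuous_cwRs

theorem Tower.chi_same : ∀ (n : ℕ) (i j : 𝒯.cellT n), ∀ x ∈ ball (0 : Fin n → ℝ) 1,
    ∀ y ∈ ball (0 : Fin n → ℝ) 1, 𝒯.chi n i x = 𝒯.chi n j y → i = j ∧ x = y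
  | 0, _, _, _, _, _, _, _ => ⟨rfl, Subsingleton.elim _ _⟩
  | n + 1, s, s', x, hx, y, hy, h => by
    by_contra hc
    refine (𝒯.sep_same (s := s) (s' := s') (x' := cwRs y) (cwRs_ball hx) ?_).ne h
    rintro ⟨h1, h2⟩
    exact hc ⟨h1.symm, cwRs_inj hx hy h2.symm⟩

theorem Tower.injOn_chi (n : ℕ) (i : 𝒯.cellT n) : InjOn (𝒯.chi n i) (ball 0 1) :=
  fun x hx y hy h => (𝒯.chi_same n i i x hx y hy h).2

theorem Tower.chi_skel : ∀ (n : ℕ) (i : 𝒯.cellT n) (x : Fin n → ℝ), ∃ a, 𝒯.chi n i x = 𝒯.pr (𝒯.ι n a)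
  | 0, _, _ => ⟨_, rfl⟩
  | _ + 1, _, _ => ⟨_, rfl⟩

theorem Tower.chi_ne : ∀ (n : ℕ) (i : 𝒯.cellT n), ∀ x ∈ ball (0 : Fin n → ℝ) 1, ∀ m < n, ∀ a,
    𝒯.chi n i x ≠ 𝒯.pr (𝒯.ι m a)
  | 0, _, _, _, _, hm, _ => absurd hm (Nat.not_lt_zero _)
  | _ + 1, s, _, hx, _, hm, a => (𝒯.sep_lower s (cwRs_ball hx) (Nat.lt_succ_iff.1 hm) a).ne

theorem Tower.chi_sphere : ∀ (n : ℕ) (i : 𝒯.cellT n), ∀ x ∈ sphere (0 : Fin n → ℝ) 1,
    ∃ m < n, ∃ a, 𝒯.chi n i x = 𝒯.pr (𝒯.ι m a)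
  | 0, _, x, hx => by
    obtain ⟨i, -⟩ := exists_of_mem_sphere hx
    exact i.elim0
  | n + 1, s, _, hx => ⟨n, Nat.lt_succ_self n, 𝒯.cl_bd n s (cwRs_sphere hx)⟩

theorem Tower.exists_chi (n : ℕ) (a : 𝒯.Y n) : ∃ m ≤ n, ∃ (j : 𝒯.cellT m),
    ∃ x ∈ ball (0 : Fin m → ℝ) 1, 𝒯.chi m j x = 𝒯.pr (𝒯.ι n a) := by
  rcases 𝒯.exists_cl n a with h | ⟨m, hm, s, x, hx, h⟩
  · exact ⟨0, Nat.zero_le _, (), 0, mem_ball_self zero_lt_one, h.symm⟩
  · obtain ⟨y, hy, rfl⟩ := exists_cwRs_ball hx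
    exact ⟨m + 1, hm, s, y, hy, h.symm⟩

/-- `closed'`: the indicator `y ↦ pr y ∈ Aᶜ : Lim → Prop` is continuous by `continuous_of_cells`
(`continuous_Prop`), every `x : Cb (n+1)` being `rs` of a point of the closed ball. -/
theorem Tower.exists_cw : ∃ _ : CWComplex (univ : Set 𝒯.X),
    RelCWComplex.FiniteType (univ : Set 𝒯.X) := by
  have := 𝒯.t2
  refine ⟨CWComplex.mkFiniteType univ 𝒯.cellT
    (fun n i => (𝒯.injOn_chi n i).toPartialEquiv (𝒯.chi n i) _) 𝒯.finite_cellT (fun _ _ => rfl)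
    (fun n i => (𝒯.continuous_chi n i).continuousOn)
    (fun n i => continuousOn_symm_of_ball _ (𝒯.continuous_chi n i) _ ?_) ?_ ?_ ?_ ?_,
    CWComplex.finiteType_mkFiniteType _ _ _ _ _ _ _ _ _ _ _⟩
  · rintro x hx ⟨y, hy, h⟩
    obtain ⟨m, hm, a, ha⟩ := 𝒯.chi_sphere n i x hx
    exact 𝒯.chi_ne n i y hy m hm a (h.trans ha)
  · rintro ⟨n, i⟩ - ⟨m, j⟩ - hne
    refine disjoint_left.2 ?_
    rintro _ ⟨x, hx, rfl⟩ ⟨y, hy, h⟩
    replace h : 𝒯.chi m j y = 𝒯.chi n i x := h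
    rcases lt_trichotomy m n with hm | rfl | hm
    · obtain ⟨a, ha⟩ := 𝒯.chi_skel m j y
      exact 𝒯.chi_ne n i x hx m hm a (h.symm.trans ha)
    · exact hne (congrArg _ (𝒯.chi_same m j i y hy x hx h).1.symm)
    · obtain ⟨a, ha⟩ := 𝒯.chi_skel n i x
      exact 𝒯.chi_ne m j y hy n hm a (h.trans ha)
  · intro n i x hx
    obtain ⟨m, hm, a, ha⟩ := 𝒯.chi_sphere n i x hx
    obtain ⟨k, hk, j, y, hy, h⟩ := 𝒯.exists_chi m a
    exact mem_iUnion₂.2 ⟨k, lt_of_le_of_lt hk hm,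
      mem_iUnion.2 ⟨j, y, ball_subset_closedBall hy, h.trans ha.symm⟩⟩
  · intro A _ hA
    rw [← 𝒯.isQuotientMap_pr.isClosed_preimage, ← isOpen_compl_iff]
    refine continuous_Prop.1 (𝒯.continuous_of_cells (f := fun y => 𝒯.pr y ∉ A) fun n g s => ?_)
    simp only [𝒯.pr_smul]
    refine continuous_Prop.2 ?_
    have h := (hA (n + 1) s).preimage (𝒯.continuous_cl n s)
    rw [← isOpen_compl_iff] at h
    convert h using 1
    ext x
    obtain ⟨y, hy, rfl⟩ := exists_cwRs x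
    exact not_congr ⟨fun h => ⟨h, y, hy, rfl⟩, fun h => h.1⟩
  · refine eq_univ_of_forall fun p => ?_
    obtain ⟨p, rfl⟩ := 𝒯.isQuotientMap_pr.surjective p
    obtain ⟨n, a, rfl⟩ := 𝒯.exists_ι p
    obtain ⟨k, -, j, y, hy, h⟩ := 𝒯.exists_chi n a
    exact mem_iUnion₂.2 ⟨k, j, y, ball_subset_closedBall hy, h⟩

include 𝒯 in
theorem Tower.classifying : Crest.Topology.HasFiniteTypeClassifyingComplex G := by
  obtain ⟨cw, hfin⟩ := 𝒯.exists_cw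
  have hc := 𝒯.contractible
  have hq := 𝒯.isQuotientCoveringMap
  exact ⟨𝒯.X, inferInstance, cw, 𝒯.t2, hfin,
    ⟨𝒯.Lim, inferInstance, 𝒯.pr, hc, hq.isCoveringMap, hq.surjective⟩, 𝒯.pr (𝒯.ι 0 (𝒯.y 0)),
    ⟨(hq.fundamentalGroupEquiv ⟨𝒯.ι 0 (𝒯.y 0), rfl⟩).trans (MulEquiv.inv' G).symm⟩⟩

end Crest.Agent.R185
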