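import Crest.Agent.R185.FPDefs

/-!
# Row 185: from `FP_∞` to a classifying complex (definitions)

* `PS w₀` paths starting at `w₀`; `Dat n w₀` a map of the `n`-cube together with paths from `w₀` to
  its boundary points; `Dat.cap` the element of `π_n` obtained by capping the boundary off.
* `Lift E w₀` a null-homotopy of `E`; `PM n E` a map of pairs `(Iⁿ, ∂Iⁿ) → (W, A)`.
* `Att` abstract free equivariant attachment of `(n+1)`-cells; `Tower` the sequence of skeleta.
The coordinate `x 0` of a cube of dimension `n + 1` is the "height"; cells are attached along the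
face `x 0 = 0` and are constant on all other faces.
-/

set_option autoImplicit false

open unitInterval Topology Set

namespace Crest.Agent.R185

/-- the cube -/
abbrev Cb (n : ℕ) : Type := Fin n → I

/-- its boundary -/
abbrev Bd (n : ℕ) : Type := ↥(Cube.boundary (Fin n))

/-- homotopy groups -/
abbrev Pn (n : ℕ) (W : Type) [TopologicalSpace W] (w₀ : W) : Type := HomotopyGroup (Fin n) W w₀

/-- generalised loops -/
abbrev Lp (n : ℕ) (W : Type) [TopologicalSpace W] (w₀ : W) : Type := ↥(GenLoop (Fin n) W w₀)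

theorem mem_bd_succ {n : ℕ} {x : Cb (n + 1)} : x ∈ Cube.boundary (Fin (n + 1)) ↔
    x 0 = 0 ∨ x 0 = 1 ∨ Fin.tail x ∈ Cube.boundary (Fin n) := by
  simp only [Cube.boundary, mem_ofPred_eq, Fin.exists_fin_succ, Fin.tail, or_assoc]

theorem isClosed_bd (n : ℕ) : IsClosed (Cube.boundary (Fin n)) := by
  have : Cube.boundary (Fin n) = ⋃ i, ({x | x i = 0} ∪ {x | x i = 1}) := by
    ext x; simp [Cube.boundary]
  rw [this]
  exact isClosed_iUnion_of_finite fun i =>
    (isClosed_eq (continuous_apply i) continuous_const).union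
      (isClosed_eq (continuous_apply i) continuous_const)

theorem continuous_tail {n : ℕ} : Continuous (Fin.tail : Cb (n + 1) → Cb n) :=
  continuous_pi fun i => continuous_apply i.succ

/-- lower half of the cube in direction `i`, rescaled (the formula of `GenLoop.transAt`) -/
noncomputable def lo {n : ℕ} (i : Fin n) (x : Cb n) : Cb n :=
  Function.update x i (Set.projIcc 0 1 zero_le_one (2 * x i))

/-- upper half of the cube in direction `i`, rescaled -/
noncomputable def hi {n : ℕ} (i : Fin n) (x : Cb n) : Cb n :=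
  Function.update x i (Set.projIcc 0 1 zero_le_one (2 * x i - 1))

/-- reflection in direction `i` (the formula of `GenLoop.symmAt`) -/
def rf {n : ℕ} (i : Fin n) (x : Cb n) : Cb n := fun j => if j = i then σ (x i) else x j

section Paths

variable {W W' : Type} [TopologicalSpace W] [TopologicalSpace W'] {w₀ w₁ : W} {w₀' : W'}

/-- paths starting at `w₀` -/
def PS (w₀ : W) : Type := {γ : C(I, W) // γ 0 = w₀}

instance (w₀ : W) : TopologicalSpace (PS w₀) :=
  inferInstanceAs (TopologicalSpace {γ : C(I, W) // γ 0 = w₀})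

/-- the end point -/
def PS.e (γ : PS w₀) : W := γ.1 1

/-- as a path -/
def PS.path (γ : PS w₀) : Path w₀ γ.e := ⟨γ.1, γ.2, rfl⟩

@[ext] theorem PS.ext {γ γ' : PS w₀} (h : ∀ τ, γ.1 τ = γ'.1 τ) : γ = γ' :=
  Subtype.ext (ContinuousMap.ext h)

theorem PS.continuous_val : Continuous fun γ : PS w₀ => γ.1 := continuous_subtype_val

theorem PS.continuous_ev : Continuous fun p : PS w₀ × I => p.1.1 p.2 :=
  (PS.continuous_val.comp continuous_fst).eval continuous_snd

theorem PS.continuous_e : Continuous (PS.e : PS w₀ → W) :=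
  PS.continuous_val.eval continuous_const

theorem PS.continuous_of {K : Type} [TopologicalSpace K] {f : K → PS w₀}
    (h : Continuous fun p : K × I => (f p.1).1 p.2) : Continuous f :=
  continuous_induced_rng.2 (ContinuousMap.continuous_of_continuous_uncurry _ h)

/-- extension of a path to the real line -/
noncomputable def PS.ext' (γ : PS w₀) (r : ℝ) : W := γ.1 (Set.projIcc 0 1 zero_le_one r)

theorem PS.continuous_ext' {K : Type} [TopologicalSpace K] {f : K → PS w₀} {r : K → ℝ}
    (hf : Continuous f) (hr : Continuous r) : Continuous fun k => (f k).ext' (r k) :=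
  PS.continuous_ev.comp (hf.prodMk ((continuous_projIcc (h := zero_le_one)).comp hr))

theorem PS.ext'_coe (γ : PS w₀) (u : I) : γ.ext' u = γ.1 u := by
  rw [PS.ext', Set.projIcc_val]

theorem PS.ext'_of_le (γ : PS w₀) {r : ℝ} (h : r ≤ 0) : γ.ext' r = w₀ := by
  rw [PS.ext', Set.projIcc_of_le_left _ h]; exact γ.2

theorem PS.ext'_of_ge (γ : PS w₀) {r : ℝ} (h : 1 ≤ r) : γ.ext' r = γ.e := by
  rw [PS.ext', Set.projIcc_of_right_le _ h]; rfl

/-- the constant path -/
def PS.const (w₀ : W) : PS w₀ := ⟨ContinuousMap.const _ w₀, rfl⟩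

/-- a path as an element of `PS` -/
def PS.ofPath (a : Path w₀ w₁) : PS w₀ := ⟨a.toContinuousMap, a.source⟩

theorem PS.ofPath_e (a : Path w₀ w₁) : (PS.ofPath a).e = w₁ := a.target

/-- the image of a path -/
def PS.map (F : C(W, W')) (h : F w₀ = w₀') : C(PS w₀, PS w₀') where
  toFun γ := ⟨F.comp γ.1, by rw [ContinuousMap.comp_apply, γ.2, h]⟩
  continuous_toFun := PS.continuous_of (F.continuous.comp PS.continuous_ev)

theorem PS.map_e (F : C(W, W')) (h : F w₀ = w₀') (γ : PS w₀) : (PS.map F h γ).e = F γ.e := rfl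

/-- concatenation with a fixed path at the start -/
noncomputable def PS.shift (a : Path w₀ w₁) : C(PS w₁, PS w₀) where
  toFun γ := ⟨(a.trans γ.path).toContinuousMap, (a.trans γ.path).source⟩
  continuous_toFun := PS.continuous_of (Path.trans_continuous_family (fun _ : PS w₁ => a)
    (a.continuous.comp continuous_snd) (fun γ : PS w₁ => γ.path) PS.continuous_ev)

theorem PS.shift_e (a : Path w₀ w₁) (γ : PS w₁) : (PS.shift a γ).e = γ.e :=
  (a.trans γ.path).target

/-- the initial part of a path, up to time `u` -/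
def PS.part : C(PS w₀ × I, PS w₀) where
  toFun p := ⟨⟨fun τ => p.1.1 (p.2 * τ), by fun_prop⟩, by simpa using p.1.2⟩
  continuous_toFun := PS.continuous_of
    (PS.continuous_ev.comp (continuous_fst.fst.prodMk (continuous_fst.snd.mul continuous_snd)))

theorem PS.part_e (γ : PS w₀) (u : I) : (PS.part (γ, u)).e = γ.1 u := by
  change γ.1 (u * 1) = _
  rw [mul_one]

/-- pairs of paths with the same end point -/
def W2 (w₀ : W) : Type := {z : PS w₀ × PS w₀ // z.1.e = z.2.e}

instance (w₀ : W) : TopologicalSpace (W2 w₀) :=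
  inferInstanceAs (TopologicalSpace {z : PS w₀ × PS w₀ // z.1.e = z.2.e})

/-- first path -/
def W2.p (z : W2 w₀) : PS w₀ := z.1.1

/-- second path -/
def W2.q (z : W2 w₀) : PS w₀ := z.1.2

theorem W2.continuous_p : Continuous (W2.p : W2 w₀ → PS w₀) := continuous_subtype_val.fst

theorem W2.continuous_q : Continuous (W2.q : W2 w₀ → PS w₀) := continuous_subtype_val.snd

theorem W2.continuous_of {K : Type} [TopologicalSpace K] {f : K → W2 w₀}
    (hp : Continuous fun k => (f k).p) (hq : Continuous fun k => (f k).q) : Continuous f :=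
  continuous_induced_rng.2 (hp.prodMk hq)

/-- the pair of constant paths -/
def W2.const (w₀ : W) : W2 w₀ := ⟨(PS.const w₀, PS.const w₀), rfl⟩

/-- `q` on `[0, 1]`, then `p` backwards on `[1, 2]` -/
noncomputable def W2.long (z : W2 w₀) (r : ℝ) : W :=
  if r ≤ 1 then z.q.ext' r else z.p.ext' (2 - r)

theorem W2.continuous_long : Continuous fun y : W2 w₀ × ℝ => y.1.long y.2 := by
  refine Continuous.if_le (PS.continuous_ext' (W2.continuous_q.comp continuous_fst) continuous_snd)
    (PS.continuous_ext' (W2.continuous_p.comp continuous_fst) (by fun_prop)) continuous_snd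
    continuous_const ?_
  rintro ⟨z, r⟩ (rfl : r = 1)
  rw [PS.ext'_of_ge _ le_rfl, PS.ext'_of_ge _ (by norm_num)]
  exact z.2.symm

/-- the path `q` followed by `p` backwards from time `1` to time `u` -/
noncomputable def W2.back : C(W2 w₀ × I, PS w₀) where
  toFun y := ⟨⟨fun τ => y.1.long ((2 - y.2) * τ),
      W2.continuous_long.comp (continuous_const.prodMk (by fun_prop))⟩, by
    change y.1.long ((2 - y.2) * (0 : I)) = w₀
    rw [Icc.coe_zero, mul_zero, W2.long, if_pos zero_le_one, PS.ext'_of_le _ le_rfl]⟩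
  continuous_toFun := PS.continuous_of
    (W2.continuous_long.comp (continuous_fst.fst.prodMk (by fun_prop)))

/-! ### Capping -/

/-- a map of the cube with paths from the base point to its boundary points -/
structure Dat (n : ℕ) (w₀ : W) where
  f : C(Cb n, W)
  l : C(Bd n, PS w₀)
  e : ∀ x, (l x).e = f x

variable {n : ℕ}

/-- `g` is obtained from `D.f` by sliding the boundary along the paths -/
def Dat.Caps (D : Dat n w₀) (g : Lp n W w₀) : Prop :=
  ∃ H : C(Cb n × I, W), (∀ x, H (x, 0) = g x) ∧ (∀ x, H (x, 1) = D.f x) ∧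
    ∀ (x : Bd n) (τ : I), H (x, τ) = (D.l x).1 τ

open Classical in
/-- the class of the capped map -/
noncomputable def Dat.cap (D : Dat n w₀) : Pn n W w₀ :=
  if h : ∃ g, D.Caps g then ⟦h.choose⟧ else default

/-- a loop with constant paths -/
def Dat.ofLoop (ψ : Lp n W w₀) : Dat n w₀ :=
  ⟨ψ.1, ContinuousMap.const _ (PS.const w₀), fun x => (ψ.2 x x.2).symm⟩

/-- change of the base point along a path -/
noncomputable def Dat.shift (a : Path w₀ w₁) (D : Dat n w₁) : Dat n w₀ :=
  ⟨D.f, (PS.shift a).comp D.l, fun x => (PS.shift_e a _).trans (D.e x)⟩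

/-- image under a map -/
def Dat.map (F : C(W, W')) (h : F w₀ = w₀') (D : Dat n w₀) : Dat n w₀' :=
  ⟨F.comp D.f, (PS.map F h).comp D.l, fun x => congrArg F (D.e x)⟩

/-- image of a loop -/
def Lp.map (F : C(W, W')) (h : F w₀ = w₀') (ψ : Lp n W w₀) : Lp n W' w₀' :=
  ⟨F.comp ψ.1, fun x hx => by rw [ContinuousMap.comp_apply, ψ.2 x hx, h]⟩

/-- the datum in `W` attached to a loop in `W2` -/
def IsJ (b : W2 w₀) (ψ : Lp n (W2 w₀) b) (D : Dat (n + 1) w₀) : Prop :=
  (∀ x, D.f x = (ψ (Fin.tail x)).p.1 (x 0)) ∧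
    (∀ x : Bd (n + 1), x.1 0 = 1 → D.l x = (ψ (Fin.tail x.1)).q) ∧
    ∀ x : Bd (n + 1), x.1 0 = 0 ∨ Fin.tail x.1 ∈ Cube.boundary (Fin n) →
      D.l x = W2.back (b, x.1 0)

variable {A : Type} [TopologicalSpace A]

/-- a null-homotopy of `E` -/
def Lift (E : C(A, W)) (w₀ : W) : Type := {L : C(A, PS w₀) // ∀ a, (L a).e = E a}

/-- a map of pairs `(Iⁿ, ∂Iⁿ) → (W, A)` relative to `E : A → W` -/
structure PM (n : ℕ) (E : C(A, W)) where
  f : C(Cb n, W)
  β : C(Bd n, A)
  e : ∀ x, E (β x) = f x

/-- the datum of a map of pairs with respect to a null-homotopy -/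
def PM.dat {E : C(A, W)} (P : PM n E) (L : Lift E w₀) : Dat n w₀ :=
  ⟨P.f, L.1.comp P.β, fun x => (L.2 _).trans (P.e x)⟩

open Classical in
/-- the attaching map on the boundary of the `(n+1)`-cube -/
noncomputable def att {a₀ : A} (φ : Lp n A a₀) : C(Bd (n + 1), A) where
  toFun x := if x.1 0 = 0 then φ (Fin.tail x.1) else a₀
  continuous_toFun := by
    have h0 : Continuous fun x : Bd (n + 1) => x.1 0 :=
      (continuous_apply 0).comp continuous_subtype_val
    have ht : Continuous fun x : Bd (n + 1) => Fin.tail x.1 :=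
      continuous_tail.comp continuous_subtype_val
    have hs : IsClosed {x : Bd (n + 1) | x.1 0 = 0} := isClosed_eq h0 continuous_const
    have hu : IsClosed {x : Bd (n + 1) | x.1 0 = 1 ∨ Fin.tail x.1 ∈ Cube.boundary (Fin n)} :=
      (isClosed_eq h0 continuous_const).union ((isClosed_bd n).preimage ht)
    rw [← continuousOn_univ, show (univ : Set (Bd (n + 1))) = _ ∪ _ from
      (eq_univ_of_forall fun x => mem_bd_succ.1 x.2).symm]
    refine ContinuousOn.union_of_isClosed ?_ ?_ hs hu
    · exact (φ.1.continuous.comp ht).continuousOn.congr fun x hx => if_pos hx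
    · refine (continuousOn_const (c := a₀)).congr fun x hx => ?_
      dsimp only
      split_ifs with h
      · rcases hx with hx | hx
        · exact absurd (h.symm.trans hx) zero_ne_one
        · exact φ.2 _ hx
      · rfl

theorem att_bot {a₀ : A} (φ : Lp n A a₀) (x : Bd (n + 1)) (h : x.1 0 = 0) :
    att φ x = φ (Fin.tail x.1) := if_pos h

theorem att_rest {a₀ : A} (φ : Lp n A a₀) (x : Bd (n + 1))
    (h : x.1 0 = 1 ∨ Fin.tail x.1 ∈ Cube.boundary (Fin n)) : att φ x = a₀ := by
  by_cases h0 : x.1 0 = 0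
  · rw [att_bot φ x h0]
    rcases h with h | h
    · exact absurd (h0.symm.trans h) zero_ne_one
    · exact φ.2 _ h
  · exact if_neg h0

end Paths

/-! ### Free equivariant cell attachments -/

/-- translation as a continuous map -/
def tr {G Y : Type} [Group G] [TopologicalSpace Y] [MulAction G Y] [ContinuousConstSMul G Y]
    (g : G) : C(Y, Y) := ⟨fun y => g • y, continuous_const_smul g⟩

@[simp] theorem tr_apply {G Y : Type} [Group G] [TopologicalSpace Y] [MulAction G Y]
    [ContinuousConstSMul G Y] (g : G) (y : Y) : tr g y = g • y := rfl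

/-- `B` is obtained from `A` by attaching the free orbits of `(n+1)`-cells indexed by `S` -/
structure Att (G : Type) [Group G] (n : ℕ) {A B : Type} [TopologicalSpace A] [TopologicalSpace B]
    [MulAction G A] [MulAction G B] (a₀ : A) (b₀ : B) (S : Type) where
  i : C(A, B)
  base : i a₀ = b₀
  i_smul : ∀ (g : G) a, i (g • a) = g • i a
  φ : S → Lp n A a₀
  χ : S → C(Cb (n + 1), B)
  χ_bd : ∀ s (x : Bd (n + 1)), χ s x = i (att (φ s) x)
  surj : ∀ b, (∃ a, i a = b) ∨ ∃ (g : G) (s : S) (x : Cb (n + 1)), g • χ s x = b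
  glue : ∀ (W : Type) (f : A → W) (F : Cell G S → Cb (n + 1) → W),
    (∀ c (x : Bd (n + 1)), F c x = f (c.g • att (φ c.s) x)) →
    ∃ f' : B → W, (∀ a, f' (i a) = f a) ∧ ∀ c x, f' (c.g • χ c.s x) = F c x
  final : ∀ (W : Type) [TopologicalSpace W] (f : B → W), Continuous (fun a => f (i a)) →
    (∀ (g : G) (s : S), Continuous fun x => f (g • χ s x)) → Continuous f

section Att

variable {G : Type} [Group G] {n : ℕ} {A B : Type} [TopologicalSpace A] [TopologicalSpace B]
  [MulAction G A] [MulAction G B] [ContinuousConstSMul G A] [ContinuousConstSMul G B]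
  {a₀ : A} {b₀ : B} {S : Type} {W : Type} [TopologicalSpace W] {w₀ : W}

/-- a cell as a map of pairs -/
noncomputable def Att.cell (T : Att G n a₀ b₀ S) (F : C(B, W)) (c : Cell G S) :
    PM (n + 1) (F.comp T.i) where
  f := F.comp ((tr c.g).comp (T.χ c.s))
  β := (tr c.g).comp (att (T.φ c.s))
  e x := by simp [T.χ_bd, T.i_smul]

/-- the obstruction to extending the null-homotopy `L` over the cell `c` -/
noncomputable def Att.ob (T : Att G n a₀ b₀ S) (F : C(B, W)) (L : Lift (F.comp T.i) w₀)
    (c : Cell G S) : Pn (n + 1) W w₀ := ((T.cell F c).dat L).cap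

/-- contractions of `A` inside `B` -/
abbrev Att.Ctr (T : Att G n a₀ b₀ S) : Type := Lift ((ContinuousMap.id B).comp T.i) b₀

/-- the path from `b₀` to `g • b₀` given by a contraction -/
def Att.kp (T : Att G n a₀ b₀ S) (K : T.Ctr) (g : G) : Path b₀ (g • b₀) :=
  (K.1 (g • a₀)).path.cast rfl (by rw [K.2]; simp [T.i_smul, T.base])

end Att

/-- the linear extension of a function with values in a commutative group -/
noncomputable def lin {C X : Type} [CommGroup X] (θ : C → X) : (C →₀ ℤ) →ₗ[ℤ] Additive X :=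
  Finsupp.linearCombination ℤ fun c => Additive.ofMul (θ c)

@[simp] theorem lin_single {C X : Type} [CommGroup X] (θ : C → X) (c : C) (k : ℤ) :
    lin θ (Finsupp.single c k) = k • Additive.ofMul (θ c) := by simp [lin]

/-- abelianisation of the free group on the cells -/
noncomputable def abw (C : Type) : FreeGroup C →* Multiplicative (C →₀ ℤ) :=
  FreeGroup.lift fun c => Multiplicative.ofAdd (Finsupp.single c 1)

/-- the sequence of skeleta of a contractible free `G`-complex of finite type -/
structure Tower (G : Type) [Group G] where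
  Y : ℕ → Type
  [top : ∀ n, TopologicalSpace (Y n)]
  [act : ∀ n, MulAction G (Y n)]
  [cont : ∀ n, ContinuousConstSMul G (Y n)]
  y : ∀ n, Y n
  S : ℕ → Type
  fin : ∀ n, Finite (S n)
  T : ∀ n, Att G n (y n) (y (n + 1)) (S n)
  disc : DiscreteTopology (Y 0)
  free : Function.Bijective fun g : G => g • y 0
  K : ∀ n, (T n).Ctr
  compat : ∀ n a, (K (n + 1)).1 ((T n).i a) = PS.map (T (n + 1)).i (T (n + 1)).base ((K n).1 a)

attribute [instance] Tower.top Tower.act Tower.cont

end Crest.Agent.R185
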