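import Crest.Agent.R185.BRJ

/-!
# Row 185, bridge: comparing two null-homotopies; equivariance of the obstruction on cycles
-/

set_option autoImplicit false

open unitInterval Topology Set

namespace Crest.Agent.R185

variable {G : Type} [Group G] {m : ℕ} {A B : Type} [TopologicalSpace A] [TopologicalSpace B]
  [MulAction G A] [MulAction G B] [ContinuousConstSMul G A] [ContinuousConstSMul G B]
  {a₀ : A} {b₀ : B} {S : Type} {W : Type} [TopologicalSpace W] {w₀ : W}

/-- the pair of two null-homotopies -/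
def Lift.pair {E : C(A, W)} (L L' : Lift E w₀) : C(A, W2 w₀) where
  toFun a := ⟨(L'.1 a, L.1 a), (L'.2 a).trans (L.2 a).symm⟩
  continuous_toFun := W2.continuous_of L'.1.continuous L.1.continuous

/-- `θ = J (pair a₀) ∘ piMap pair`; `diff_cell` for `ψ = Lp.map pair (Lp.map (tr g) (φ s))` based at
`pair (g • a₀)`, then `piMap_rho` and the second property of `exists_J`. -/
theorem Att.diff (T : Att G (m + 1) a₀ b₀ S) (k : ∀ g : G, Path a₀ (g • a₀)) (F : C(B, W))
    (L L' : Lift (F.comp T.i) w₀) :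
    ∃ θ : Pn (m + 1) A a₀ →* Pn (m + 2) W w₀, ∀ c : Cell G S,
      T.ob F L c * θ (trRho (k c.g) ⟦T.φ c.s⟧) =
        rho (L.pair L' (c.g • a₀)).loop (T.ob F L' c) := by
  obtain ⟨J, hJ, hJr⟩ := exists_J m w₀
  refine ⟨(J (L.pair L' a₀)).comp (piMap (L.pair L') rfl), fun c => ?_⟩
  let φ' : Lp (m + 1) A (c.g • a₀) := Lp.map (tr c.g) rfl (T.φ c.s)
  let ψ : Lp (m + 1) (W2 w₀) (L.pair L' (c.g • a₀)) := Lp.map (L.pair L') rfl φ'
  obtain ⟨α, hα⟩ := exists_isJ _ ψ
  have h1 : trRho (k c.g) ⟦T.φ c.s⟧ = rho (k c.g) ⟦φ'⟧ :=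
    congrArg (rho (k c.g)) (piMap_mk (tr c.g) rfl (T.φ c.s))
  have h2 : (J (L.pair L' a₀)).comp (piMap (L.pair L') rfl) (trRho (k c.g) ⟦T.φ c.s⟧) = α.cap := by
    rw [MonoidHom.comp_apply, h1, piMap_rho, hJr, piMap_mk, hJ _ ψ α hα]
  rw [h2]
  refine diff_cell _ ψ α ((T.cell F c).dat L) ((T.cell F c).dat L') hα (fun _ => rfl)
    (fun x hx => ?_) (fun x hx => ?_)
  · have := att_bot (T.φ c.s) x hx
    exact ⟨congrArg (fun a => L.1 (c.g • a)) this, congrArg (fun a => L'.1 (c.g • a)) this⟩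
  · have := att_rest (T.φ c.s) x hx
    exact ⟨congrArg (fun a => L.1 (c.g • a)) this, congrArg (fun a => L'.1 (c.g • a)) this⟩

theorem lin_mul {C X : Type} [CommGroup X] (θ θ' : C → X) (z : C →₀ ℤ) :
    lin (fun c => θ c * θ' c) z = lin θ z + lin θ' z := by
  induction z using Finsupp.induction_linear with
  | zero => simp
  | add x y hx hy => rw [map_add, map_add, map_add, hx, hy]; abel
  | single c n => simp

theorem lin_one {C X : Type} [CommGroup X] (z : C →₀ ℤ) : lin (fun _ : C => (1 : X)) z = 0 := by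
  induction z using Finsupp.induction_linear with
  | zero => simp
  | add x y hx hy => rw [map_add, hx, hy, add_zero]
  | single c n => simp

/-- `L' = L₂ ∘ i` has trivial obstruction (`Dat.cap_eq_const`), so `T.ob F L c` is the inverse of
`θ₀ (…)`; apply `Cyc` to `θ ∘ θ₀`. -/
theorem Att.qq_of_cyc (T : Att G (m + 1) a₀ b₀ S) (k : ∀ g : G, Path a₀ (g • a₀))
    {Z : Submodule ℤ (Cell G S →₀ ℤ)} (h : T.Cyc k Z) : T.QQ Z := by
  intro W _ w₀ F L L₂ X _ θ z hz
  let L' : Lift (F.comp T.i) w₀ := ⟨L₂.1.comp T.i, fun a => L₂.2 _⟩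
  obtain ⟨θ₀, h₀⟩ := T.diff k F L L'
  have h1 : ∀ c, T.ob F L' c = 1 := fun c =>
    Dat.cap_eq_const _ (L₂.1.comp ((tr c.g).comp (T.χ c.s))) (fun x => L₂.2 _) fun x => by
      change L₂.1 (c.g • T.χ c.s x) = L₂.1 (T.i (c.g • att (T.φ c.s) x))
      rw [T.χ_bd, T.i_smul]
  have h2 := h X (θ.comp θ₀) z hz
  have h3 := lin_mul (fun c => θ (T.ob F L c))
    (fun c : Cell G S => θ.comp θ₀ (trRho (k c.g) ⟦T.φ c.s⟧)) z
  have h4 : (fun c : Cell G S => θ (T.ob F L c) * θ.comp θ₀ (trRho (k c.g) ⟦T.φ c.s⟧)) =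
      fun _ => 1 := by
    funext c
    rw [MonoidHom.comp_apply, ← map_mul, h₀, h1, map_one, map_one]
  rw [h4, lin_one, h2, add_zero] at h3
  exact h3.symm

/-- two paths in `A` with the same end points become homotopic in `B`: the square
`(t, τ) ↦ (K (γ t)).1 τ` shows `map i γ ≃ K γ.e` -/
theorem Att.hom_of_ctr (T : Att G m a₀ b₀ S) (K : T.Ctr) (hK : K.1 a₀ = PS.const b₀)
    (γ : PS a₀) : PS.Hom (K.1 γ.e) (PS.map T.i T.base γ) := by
  let a : I × I → I := fun p => max p.2 (Set.projIcc 0 1 zero_le_one (1 - 2 * p.1))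
  let b : I × I → I := fun p => max p.2 (Set.projIcc 0 1 zero_le_one (2 * p.1 - 1))
  have ha : Continuous a :=
    continuous_snd.max ((continuous_projIcc (h := zero_le_one)).comp (by fun_prop))
  have hb : Continuous b :=
    continuous_snd.max ((continuous_projIcc (h := zero_le_one)).comp (by fun_prop))
  let Q : I × I → B := fun p => (K.1 (γ.1 (a p))).1 (b p)
  have hQ : Continuous Q :=
    PS.continuous_ev.comp ((K.1.continuous.comp (γ.1.continuous.comp ha)).prodMk hb)
  have hQ0 : ∀ s, Q (s, 0) = b₀ := by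
    intro s
    rcases le_total (s : ℝ) (1 / 2) with hs | hs
    · have : b (s, 0) = 0 := by
        simp only [b]
        rw [Set.projIcc_of_le_left _ (by linarith)]
        exact max_self _
      simp only [Q]
      rw [this]
      exact (K.1 _).2
    · have : a (s, 0) = 0 := by
        simp only [a]
        rw [Set.projIcc_of_le_left _ (by linarith)]
        exact max_self _
      simp only [Q]
      rw [this, γ.2, hK]
      rfl
  let R : I → PS b₀ := fun s => ⟨⟨fun τ => Q (s, τ), hQ.comp (by fun_prop)⟩, hQ0 s⟩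
  refine ⟨⟨⟨R, PS.continuous_of hQ⟩, PS.ext fun τ => ?_, PS.ext fun τ => ?_⟩, fun s => ?_⟩
  · have h1 : a (0, τ) = 1 := by
      simp only [a]
      rw [Set.projIcc_of_right_le _ (by simp)]
      exact max_eq_right le_one'
    have h2 : b (0, τ) = τ := by
      simp only [b]
      rw [Set.projIcc_of_le_left _ (by simp)]
      exact max_eq_left nonneg'
    change (K.1 (γ.1 (a (0, τ)))).1 (b (0, τ)) = _
    rw [h1, h2]
    rfl
  · have h1 : a (1, τ) = τ := by
      simp only [a]
      rw [Set.projIcc_of_le_left _ (by norm_num)]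
      exact max_eq_left nonneg'
    have h2 : b (1, τ) = 1 := by
      simp only [b]
      rw [Set.projIcc_of_right_le _ (by norm_num)]
      exact max_eq_right le_one'
    change (K.1 (γ.1 (a (1, τ)))).1 (b (1, τ)) = _
    rw [h1, h2]
    exact K.2 _
  · have h1 : a (s, 1) = 1 := max_eq_left le_one'
    have h2 : b (s, 1) = 1 := max_eq_left le_one'
    change (K.1 (γ.1 (a (s, 1)))).1 (b (s, 1)) = _
    rw [h1, h2]
    rfl

theorem Dat.ext_diff {n : ℕ} {D D' : Dat n w₀} (hf : ∀ x, D.f x = D'.f x)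
    (hl : ∀ x, D.l x = D'.l x) : D = D' := by
  obtain ⟨f, l, e⟩ := D
  obtain ⟨f', l', e'⟩ := D'
  obtain rfl : f = f' := ContinuousMap.ext hf
  obtain rfl : l = l' := ContinuousMap.ext hl
  rfl

/-- Equivariance on cycles.  Let `L' a = shift (T.kp K g) (map (tr g) (K (g⁻¹ • a)))`.  Then
`T.ob id L' (g • c) = trRho (T.kp K g) (T.ob id K c)` (`Dat.cap_shift`, `Dat.cap_map`; the data are
equal), the loops in `Att.diff` are trivial (`hk` shows that `L' (h • a₀)` is the image under `i` of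
the path `k g · g k (g⁻¹ h)`; `hom_of_ctr`, `W2.loop_homotopic`, `rho_congr`, `rho_refl`), and the
`θ`-terms cancel on `g • z ∈ Z`. -/
theorem Att.equivariant (T : Att G (m + 1) a₀ b₀ S) (K : T.Ctr) (hK : K.1 a₀ = PS.const b₀)
    (k : ∀ g : G, Path a₀ (g • a₀))
    (hk : ∀ g, K.1 (g • a₀) = PS.map T.i T.base (PS.ofPath (k g)))
    {Z : Submodule ℤ (Cell G S →₀ ℤ)} (hZ : ∀ g, ∀ z ∈ Z, permRep G (Cell G S) g z ∈ Z)
    (h : T.Cyc k Z) (g : G) (z : Cell G S →₀ ℤ) (hz : z ∈ Z) :
    lin (T.ob (ContinuousMap.id B) K) (permRep G (Cell G S) g z) =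
      Additive.ofMul (trRho (T.kp K g) (Additive.toMul (lin (T.ob (ContinuousMap.id B) K) z))) := by
  let mp : C(PS b₀, PS (g • b₀)) := PS.map (tr g) rfl
  let L' : T.Ctr := ⟨(PS.shift (T.kp K g)).comp (mp.comp (K.1.comp (tr g⁻¹))), fun a => by
    refine (PS.shift_e _ _).trans ?_
    change g • (K.1 (g⁻¹ • a)).e = T.i a
    rw [K.2]
    simp [T.i_smul]⟩
  have hL' : ∀ a, L'.1 a = PS.shift (T.kp K g) (mp (K.1 (g⁻¹ • a))) := fun _ => rfl
  obtain ⟨θ, hθ⟩ := T.diff k (ContinuousMap.id B) K L'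
  have hloop : ∀ u : G, (Lift.pair K L' (u • a₀)).loop.Homotopic (Path.refl b₀) := by
    intro u
    refine W2.loop_homotopic _ ?_
    let ma : C(PS a₀, PS (g • a₀)) := PS.map (tr g) rfl
    let γ : PS a₀ := PS.shift (k g) (ma (PS.ofPath (k (g⁻¹ * u))))
    have he : γ.e = u • a₀ := by
      refine (PS.shift_e _ _).trans ?_
      change g • (PS.ofPath (k (g⁻¹ * u))).e = _
      rw [PS.ofPath_e, smul_smul, mul_inv_cancel_left]
    have h1 := T.hom_of_ctr K hK γ
    have h2 : PS.map T.i T.base γ = L'.1 (u • a₀) := by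
      rw [hL', smul_smul, hk]
      refine PS.ext fun τ => ?_
      change T.i (((k g).trans (ma (PS.ofPath (k (g⁻¹ * u)))).path) τ) =
        ((T.kp K g).trans (mp (PS.map T.i T.base (PS.ofPath (k (g⁻¹ * u))))).path) τ
      rw [Path.trans_apply, Path.trans_apply]
      split_ifs
      · change _ = (K.1 (g • a₀)).1 _
        rw [hk]
        rfl
      · exact T.i_smul _ _
    rw [he, h2] at h1
    exact h1
  have h1 : ∀ c : Cell G S, T.ob (ContinuousMap.id B) K c * θ (trRho (k c.g) ⟦T.φ c.s⟧) =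
      T.ob (ContinuousMap.id B) L' c := fun c => by
    rw [hθ, rho_congr (hloop c.g), rho_refl]
  have h2 : ∀ c : Cell G S, T.ob (ContinuousMap.id B) L' (g • c) =
      trRho (T.kp K g) (T.ob (ContinuousMap.id B) K c) := by
    intro c
    let D : Dat (m + 2) (g • b₀) := ((T.cell (ContinuousMap.id B) c).dat K).map (tr g) rfl
    have e1 : (T.cell (ContinuousMap.id B) (g • c)).dat L' = D.shift (T.kp K g) := by
      refine Dat.ext_diff (fun x => mul_smul g c.g _) fun x => ?_
      change L'.1 ((g * c.g) • att (T.φ c.s) x) =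
        PS.shift (T.kp K g) (mp (K.1 (c.g • att (T.φ c.s) x)))
      rw [hL', mul_smul, inv_smul_smul]
    rw [Att.ob, e1, Dat.cap_shift]
    exact congrArg (rho (T.kp K g)) (Dat.cap_map (tr g) rfl _)
  have h3 := lin_mul (T.ob (ContinuousMap.id B) K)
    (fun c : Cell G S => θ (trRho (k c.g) ⟦T.φ c.s⟧)) (permRep G (Cell G S) g z)
  rw [h _ θ _ (hZ g z hz), add_zero, funext h1] at h3
  rw [← h3]
  clear h3 hz
  induction z using Finsupp.induction_linear with
  | zero => simp
  | add x y hx hy => rw [map_add, map_add, map_add, hx, hy, toMul_add, map_mul, ofMul_mul]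
  | single c n => rw [permRep_single, lin_single, lin_single, h2, toMul_zsmul, map_zpow]; rfl

end Crest.Agent.R185
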