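import Crest.Agent.R185.BRDefs

/-!
# Row 185, bridge: homotopy extension for the cube and the basic properties of `Dat.cap`
-/

set_option autoImplicit false

open unitInterval Topology Set

namespace Crest.Agent.R185

variable {W : Type} [TopologicalSpace W] {w₀ : W} {n : ℕ}

namespace HepAux

/-- the vector from the centre of the cube -/
noncomputable def cv (x : Cb n) : Fin n → ℝ := fun i => (x i : ℝ) - 1 / 2

theorem continuous_cv : Continuous (cv : Cb n → Fin n → ℝ) :=
  continuous_pi fun i => (continuous_subtype_val.comp (continuous_apply i)).sub continuous_const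

theorem norm_cv_le (x : Cb n) : ‖cv x‖ ≤ 1 / 2 := by
  refine (pi_norm_le_iff_of_nonneg (by norm_num)).2 fun i => ?_
  rw [Real.norm_eq_abs, abs_le]
  have h0 := (x i).2.1
  have h1 := (x i).2.2
  constructor <;> simp only [cv] <;> linarith

/-- the inverse of the scaling factor -/
noncomputable def sc (p : Cb n × I) : ℝ := max (2 * ‖cv p.1‖) (((p.2 : ℝ) + 1) / 2)

theorem continuous_sc : Continuous (sc : Cb n × I → ℝ) :=
  (continuous_const.mul (continuous_cv.comp continuous_fst).norm).max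
    (((continuous_subtype_val.comp continuous_snd).add continuous_const).div_const _)

theorem sc_pos (p : Cb n × I) : 0 < sc p :=
  lt_of_lt_of_le (by have := p.2.2.1; linarith) (le_max_right _ _)

theorem sc_eq_one {p : Cb n × I} (h : p.2 = 1 ∨ p.1 ∈ Cube.boundary (Fin n)) : sc p = 1 := by
  have h1 := norm_cv_le p.1
  have h2 := p.2.2.2
  refine le_antisymm (max_le (by linarith) (by linarith)) ?_
  rcases h with h | ⟨i, h⟩
  · refine le_trans ?_ (le_max_right _ _)
    rw [h, Icc.coe_one]; norm_num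
  · refine le_trans ?_ (le_max_left _ _)
    have h3 := norm_le_pi_norm (cv p.1) i
    have h4 : ‖cv p.1 i‖ = 1 / 2 := by
      rcases h with h | h
      · simp only [cv, h, Icc.coe_zero, Real.norm_eq_abs]; norm_num [abs_of_neg]
      · simp only [cv, h, Icc.coe_one, Real.norm_eq_abs]; norm_num [abs_of_pos]
    linarith

/-- straight segments in the unit interval -/
noncomputable def seg (a b s : I) : I := Set.projIcc 0 1 zero_le_one ((1 - s) * a + s * b)

theorem seg_zero (a b : I) : seg a b 0 = a := by simp [seg]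

theorem seg_one (a b : I) : seg a b 1 = b := by simp [seg]

theorem seg_self (a s : I) : seg a a s = a := by
  have : (1 - (s : ℝ)) * a + s * a = a := by ring
  rw [seg, this, Set.projIcc_val]

theorem continuous_seg {K : Type} [TopologicalSpace K] {a b s : K → I} (ha : Continuous a)
    (hb : Continuous b) (hs : Continuous s) : Continuous fun k => seg (a k) (b k) (s k) :=
  (continuous_projIcc (h := zero_le_one)).comp (by fun_prop)

end HepAux

open HepAux

/-- Radial projection from the point `(c, -1)`, `c = (1/2, …, 1/2)`: with `v = x - c : Fin n → ℝ`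
and `s = 1 / max (2 * ‖v‖) ((τ + 1) / 2) ≥ 1`, put `r (x, τ) = (c + s • v, s * (τ + 1) - 1)`
(use `Set.projIcc` for the coordinates).  `2 * ‖v‖ = 1` iff `x` is on the boundary (sup norm;
`Pi.exists_apply_eq_nnnorm`-type lemma or `pi_norm_lt_iff` when `‖v‖ > 0`). -/
theorem exists_retr (n : ℕ) : ∃ r : C(Cb n × I, Cb n × I),
    (∀ p, (r p).2 = 1 ∨ (r p).1 ∈ Cube.boundary (Fin n)) ∧
      ∀ p, p.2 = 1 ∨ p.1 ∈ Cube.boundary (Fin n) → r p = p := by
  refine ⟨⟨fun p => (fun i => Set.projIcc 0 1 zero_le_one (1 / 2 + cv p.1 i / sc p),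
      Set.projIcc 0 1 zero_le_one (((p.2 : ℝ) + 1) / sc p - 1)), ?_⟩, fun p => ?_, fun p hp => ?_⟩
  · refine Continuous.prodMk (continuous_pi fun i => ?_) ?_
    · exact (continuous_projIcc (h := zero_le_one)).comp (continuous_const.add
        (((continuous_apply i).comp (continuous_cv.comp continuous_fst)).div continuous_sc
          fun p => (sc_pos p).ne'))
    · exact (continuous_projIcc (h := zero_le_one)).comp
        ((((continuous_subtype_val.comp continuous_snd).add continuous_const).div continuous_sc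
          fun p => (sc_pos p).ne').sub continuous_const)
  · have h0 := p.2.2.1
    rcases le_total (2 * ‖cv p.1‖) (((p.2 : ℝ) + 1) / 2) with h | h
    · left
      have h1 : sc p = ((p.2 : ℝ) + 1) / 2 := max_eq_right h
      have h2 : ((p.2 : ℝ) + 1) / sc p - 1 = 1 := by
        rw [h1]; field_simp; ring
      change Set.projIcc 0 1 zero_le_one (((p.2 : ℝ) + 1) / sc p - 1) = 1
      rw [h2]
      exact Set.projIcc_right _
    · right
      have h1 : sc p = 2 * ‖cv p.1‖ := max_eq_left h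
      have h2 : 0 < ‖cv p.1‖ := by linarith
      obtain ⟨i, hi⟩ : ∃ i, ‖cv p.1‖ ≤ ‖cv p.1 i‖ := by
        by_contra hcon
        push Not at hcon
        exact lt_irrefl _ ((pi_norm_lt_iff h2).2 hcon)
      have h3 : |cv p.1 i| = ‖cv p.1‖ := le_antisymm (norm_le_pi_norm (cv p.1) i) hi
      refine ⟨i, ?_⟩
      change Set.projIcc 0 1 zero_le_one (1 / 2 + cv p.1 i / sc p) = 0 ∨
        Set.projIcc 0 1 zero_le_one (1 / 2 + cv p.1 i / sc p) = 1
      rcases (abs_eq h2.le).1 h3 with h4 | h4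
      · right
        have h5 : 1 / 2 + cv p.1 i / sc p = 1 := by
          rw [h1, h4]; field_simp; ring
        rw [h5]
        exact Set.projIcc_right _
      · left
        have h5 : 1 / 2 + cv p.1 i / sc p = 0 := by
          rw [h1, h4]; field_simp; ring
        rw [h5]
        exact Set.projIcc_left _
  · have h1 := sc_eq_one hp
    refine Prod.ext (funext fun i => ?_) ?_
    · change Set.projIcc 0 1 zero_le_one (1 / 2 + cv p.1 i / sc p) = p.1 i
      have : 1 / 2 + cv p.1 i / sc p = p.1 i := by rw [h1]; simp only [cv]; ring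
      rw [this, Set.projIcc_val]
    · change Set.projIcc 0 1 zero_le_one (((p.2 : ℝ) + 1) / sc p - 1) = p.2
      have : ((p.2 : ℝ) + 1) / sc p - 1 = p.2 := by rw [h1]; ring
      rw [this, Set.projIcc_val]

/-- Homotopy extension with a parameter.  Glue `f` and `μ` along the two closed sets
`{(r p).2 = 1}` and `{(r p).1 ∈ boundary}` (`ContinuousOn.union_of_isClosed`,
`continuousOn_iff_continuous_restrict`). -/
theorem exists_hep {T : Type} [TopologicalSpace T] (f : C(Cb n × T, W))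
    (μ : C((Bd n × T) × I, W)) (h : ∀ x t, μ ((x, t), 1) = f (x, t)) :
    ∃ H : C((Cb n × T) × I, W), (∀ x t, H ((x, t), 1) = f (x, t)) ∧
      ∀ (x : Bd n) t τ, H ((x, t), τ) = μ ((x, t), τ) := by
  classical
  obtain ⟨r, hr1, hr2⟩ := exists_retr n
  let q : (Cb n × T) × I → Cb n × I := fun p => r (p.1.1, p.2)
  have hq : Continuous q := r.continuous.comp (continuous_fst.fst.prodMk continuous_snd)
  let H : (Cb n × T) × I → W := fun p =>
    if hb : (q p).1 ∈ Cube.boundary (Fin n) then μ ((⟨(q p).1, hb⟩, p.1.2), (q p).2)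
    else f ((q p).1, p.1.2)
  have hH1 : ∀ p, (q p).2 = 1 → H p = f ((q p).1, p.1.2) := by
    intro p hp
    by_cases hb : (q p).1 ∈ Cube.boundary (Fin n)
    · simp only [H, dif_pos hb, hp]
      exact h _ _
    · simp only [H, dif_neg hb]
  have hs : IsClosed {p : (Cb n × T) × I | (q p).2 = 1} := isClosed_eq hq.snd continuous_const
  have hu : IsClosed {p : (Cb n × T) × I | (q p).1 ∈ Cube.boundary (Fin n)} :=
    (isClosed_bd n).preimage hq.fst
  have hH : Continuous H := by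
    rw [← continuousOn_univ, show (univ : Set ((Cb n × T) × I)) =
      {p | (q p).2 = 1} ∪ {p | (q p).1 ∈ Cube.boundary (Fin n)} from
      (eq_univ_of_forall fun p => hr1 _).symm]
    refine ContinuousOn.union_of_isClosed ?_ ?_ hs hu
    · exact (f.continuous.comp (hq.fst.prodMk continuous_fst.snd)).continuousOn.congr
        fun p hp => hH1 p hp
    · rw [continuousOn_iff_continuous_domRestrict]
      have hc : Continuous fun p : {p : (Cb n × T) × I | (q p).1 ∈ Cube.boundary (Fin n)} =>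
          μ (((⟨(q p.1).1, p.2⟩ : Bd n), p.1.1.2), (q p.1).2) :=
        μ.continuous.comp ((((hq.fst.comp continuous_subtype_val).subtype_mk _).prodMk
          continuous_subtype_val.fst.snd).prodMk (hq.snd.comp continuous_subtype_val))
      refine hc.congr fun p => ?_
      have hp : (q p.1).1 ∈ Cube.boundary (Fin n) := p.2
      change _ = H p.1
      simp only [H, dif_pos hp]
  refine ⟨⟨H, hH⟩, fun x t => ?_, fun x t τ => ?_⟩
  · have h1 : q ((x, t), 1) = (x, 1) := hr2 _ (Or.inl rfl)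
    change H _ = _
    rw [hH1 _ (by rw [h1]), h1]
  · have h1 : q (((x : Cb n), t), τ) = ((x : Cb n), τ) := hr2 _ (Or.inr x.2)
    have h2 : (q (((x : Cb n), t), τ)).1 ∈ Cube.boundary (Fin n) := by rw [h1]; exact x.2
    change H _ = _
    simp only [H, dif_pos h2]
    have h3 : (q (((x : Cb n), t), τ)).1 = x := congrArg Prod.fst h1
    have h4 : (q (((x : Cb n), t), τ)).2 = τ := congrArg Prod.snd h1
    exact congrArg μ (Prod.ext (Prod.ext (Subtype.ext h3) rfl) h4)

/-- homotopy extension without parameter (`T = Unit`) -/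
theorem exists_hep' (f : C(Cb n, W)) (μ : C(Bd n × I, W)) (h : ∀ x, μ (x, 1) = f x) :
    ∃ H : C(Cb n × I, W), (∀ x, H (x, 1) = f x) ∧ ∀ (x : Bd n) τ, H (x, τ) = μ (x, τ) := by
  obtain ⟨H, h1, h2⟩ := exists_hep (T := Unit) (f.comp ⟨Prod.fst, continuous_fst⟩)
    (μ.comp ⟨fun p => (p.1.1, p.2), continuous_fst.fst.prodMk continuous_snd⟩) (fun x _ => h x)
  exact ⟨H.comp ⟨fun p => ((p.1, ()), p.2),
    (continuous_fst.prodMk continuous_const).prodMk continuous_snd⟩,
    fun x => h1 x (), fun x τ => h2 x () τ⟩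

theorem Dat.exists_caps (D : Dat n w₀) : ∃ g, D.Caps g := by
  obtain ⟨H, h1, h2⟩ := exists_hep' D.f ⟨fun p => (D.l p.1).1 p.2,
    PS.continuous_ev.comp ((D.l.continuous.comp continuous_fst).prodMk continuous_snd)⟩ D.e
  refine ⟨⟨H.comp ⟨fun x => (x, 0), continuous_id.prodMk continuous_const⟩, fun x hx => ?_⟩,
    H, fun _ => rfl, h1, h2⟩
  exact (h2 ⟨x, hx⟩ 0).trans (D.l ⟨x, hx⟩).2

theorem Dat.caps_homotopic (D : Dat n w₀) {g g' : Lp n W w₀} (h : D.Caps g) (h' : D.Caps g') :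
    GenLoop.Homotopic g g' := by
  obtain ⟨r, hr1, hr2⟩ := exists_retr n
  let ρ : C(Cb n, Cb n × I) := r.comp ⟨fun x => (x, 0), continuous_id.prodMk continuous_const⟩
  have hρ : ∀ x ∈ Cube.boundary (Fin n), ρ x = (x, 0) := fun x hx => hr2 (x, 0) (Or.inr hx)
  have key : ∀ (g : Lp n W w₀) (H : C(Cb n × I, W)), (∀ x, H (x, 0) = g x) →
      g.1.HomotopicRel (H.comp ρ) (Cube.boundary (Fin n)) := by
    intro g H h0
    refine ⟨⟨⟨⟨fun p => H (fun i => seg (p.2 i) ((ρ p.2).1 i) p.1, seg 0 (ρ p.2).2 p.1), ?_⟩,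
      fun x => ?_, fun x => ?_⟩, fun t x hx => ?_⟩⟩
    · refine H.continuous.comp (Continuous.prodMk (continuous_pi fun i => ?_) ?_)
      · exact continuous_seg ((continuous_apply i).comp continuous_snd)
          ((continuous_apply i).comp (ρ.continuous.comp continuous_snd).fst) continuous_fst
      · exact continuous_seg continuous_const (ρ.continuous.comp continuous_snd).snd continuous_fst
    · change H (fun i => seg (x i) ((ρ x).1 i) 0, seg 0 (ρ x).2 0) = g x
      simp only [seg_zero]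
      exact h0 x
    · change H (fun i => seg (x i) ((ρ x).1 i) 1, seg 0 (ρ x).2 1) = H (ρ x)
      simp only [seg_one]
    · change H (fun i => seg (x i) ((ρ x).1 i) t, seg 0 (ρ x).2 t) = g x
      simp only [hρ x hx, seg_self]
      exact h0 x
  obtain ⟨H, h0, h1, h2⟩ := h
  obtain ⟨H', h0', h1', h2'⟩ := h'
  have he : H.comp ρ = H'.comp ρ := by
    ext x
    change H (ρ x) = H' (ρ x)
    rcases hr1 (x, 0) with hx | hx
    · have : ρ x = ((ρ x).1, 1) := Prod.ext rfl hx
      rw [this, h1, h1']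
    · exact (h2 ⟨(ρ x).1, hx⟩ (ρ x).2).trans (h2' ⟨(ρ x).1, hx⟩ (ρ x).2).symm
  have k1 := key g H h0
  have k2 := key g' H' h0'
  rw [he] at k1
  exact k1.trans k2.symm

/-- Uniqueness.  If `H` caps with `g` then `g ≃ H ∘ r (·, 0)` rel boundary through the straight
segment from `(x, 0)` to `r (x, 0)` in the convex set `Cb n × I` (constant for `x` on the boundary;
`Set.Icc.convexComb`/`projIcc` coordinatewise), and `H ∘ r` depends only on `D`. -/
theorem Dat.cap_eq (D : Dat n w₀) {g : Lp n W w₀} (h : D.Caps g) : D.cap = ⟦g⟧ := by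
  have hex : ∃ g, D.Caps g := ⟨g, h⟩
  exact (dif_pos hex : D.cap = ⟦hex.choose⟧).trans
    (Quotient.sound (D.caps_homotopic hex.choose_spec h))

theorem Dat.exists_caps_cap (D : Dat n w₀) : ∃ g, D.Caps g ∧ D.cap = ⟦g⟧ :=
  D.exists_caps.imp fun _ h => ⟨h, D.cap_eq h⟩

/-- homotopy invariance (`exists_hep` with `T = I`; the bottom `H ((x, t), 0)` is a homotopy rel
boundary between caps of `D` and `D'`) -/
theorem Dat.cap_congr (D D' : Dat n w₀) (F : C(Cb n × I, W)) (Λ : C(Bd n × I, PS w₀))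
    (he : ∀ (x : Bd n) t, (Λ (x, t)).e = F (x, t)) (h0 : ∀ x, F (x, 0) = D.f x)
    (h1 : ∀ x, F (x, 1) = D'.f x) (l0 : ∀ x, Λ (x, 0) = D.l x) (l1 : ∀ x, Λ (x, 1) = D'.l x) :
    D.cap = D'.cap := by
  obtain ⟨H, k1, k2⟩ := exists_hep (T := I) F ⟨fun p => (Λ p.1).1 p.2,
    PS.continuous_ev.comp ((Λ.continuous.comp continuous_fst).prodMk continuous_snd)⟩ he
  have hb : ∀ x ∈ Cube.boundary (Fin n), ∀ t, H ((x, t), 0) = w₀ := fun x hx t =>
    (k2 ⟨x, hx⟩ t 0).trans (Λ (⟨x, hx⟩, t)).2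
  let g : I → Lp n W w₀ := fun t => ⟨H.comp ⟨fun x => ((x, t), 0),
    (continuous_id.prodMk continuous_const).prodMk continuous_const⟩, fun x hx => hb x hx t⟩
  have hc : ∀ (t : I) (E : Dat n w₀), (∀ x, F (x, t) = E.f x) → (∀ x, Λ (x, t) = E.l x) →
      E.Caps (g t) := by
    intro t E e1 e2
    refine ⟨H.comp ⟨fun p => ((p.1, t), p.2),
      (continuous_fst.prodMk continuous_const).prodMk continuous_snd⟩, fun _ => rfl,
      fun x => (k1 x t).trans (e1 x), fun x τ => (k2 x t τ).trans ?_⟩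
    change (Λ (x, t)).1 τ = _
    rw [e2]
  rw [D.cap_eq (hc 0 D h0 l0), D'.cap_eq (hc 1 D' h1 l1)]
  refine Quotient.sound ?_
  refine ⟨⟨⟨⟨fun p => H ((p.2, p.1), 0), H.continuous.comp
    ((continuous_snd.prodMk continuous_fst).prodMk continuous_const)⟩, fun _ => rfl, fun _ => rfl⟩,
    fun t x hx => ?_⟩⟩
  exact (hb x hx t).trans (hb x hx 0).symm

theorem Dat.cap_ofLoop (ψ : Lp n W w₀) : (Dat.ofLoop ψ).cap = ⟦ψ⟧ := by
  refine Dat.cap_eq _ ⟨ψ.1.comp ⟨Prod.fst, continuous_fst⟩, fun _ => rfl, fun _ => rfl,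
    fun x τ => ?_⟩
  exact ψ.2 x x.2

/-- if the paths extend over the cube the class is trivial (`H (x, τ) = (Λ x).1 τ`) -/
theorem Dat.cap_eq_const (D : Dat n w₀) (Λ : C(Cb n, PS w₀)) (he : ∀ x, (Λ x).e = D.f x)
    (hl : ∀ x : Bd n, Λ x = D.l x) : D.cap = ⟦GenLoop.const⟧ := by
  refine D.cap_eq ⟨⟨fun p => (Λ p.1).1 p.2,
    PS.continuous_ev.comp ((Λ.continuous.comp continuous_fst).prodMk continuous_snd)⟩,
    fun x => (Λ x).2, he, fun x τ => ?_⟩
  change (Λ x).1 τ = _
  rw [hl]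

/-- reparametrisation of the paths (interpolate `θ₀` and `θ₁` linearly, `cap_congr`) -/
theorem Dat.cap_reparam (D D' : Dat n w₀) (hf : ∀ x, D.f x = D'.f x) (Γ : C(Bd n × ℝ, W))
    (θ₀ θ₁ : C(Bd n × I, ℝ)) (hs : ∀ x, θ₀ (x, 0) = θ₁ (x, 0)) (he : ∀ x, θ₀ (x, 1) = θ₁ (x, 1))
    (h0 : ∀ x τ, (D.l x).1 τ = Γ (x, θ₀ (x, τ))) (h1 : ∀ x τ, (D'.l x).1 τ = Γ (x, θ₁ (x, τ))) :
    D.cap = D'.cap := by
  have hmix : ∀ (t a : ℝ), (1 - t) * a + t * a = a := fun t a => by ring
  let Λ : Bd n × I → PS w₀ := fun p =>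
    ⟨⟨fun τ => Γ (p.1, (1 - (p.2 : ℝ)) * θ₀ (p.1, τ) + p.2 * θ₁ (p.1, τ)), by fun_prop⟩, by
      change Γ (p.1, (1 - (p.2 : ℝ)) * θ₀ (p.1, 0) + p.2 * θ₁ (p.1, 0)) = w₀
      rw [← hs, hmix, ← h0]
      exact (D.l p.1).2⟩
  have hΛ : Continuous Λ := by
    refine PS.continuous_of ?_
    change Continuous fun p : (Bd n × I) × I =>
      Γ (p.1.1, (1 - (p.1.2 : ℝ)) * θ₀ (p.1.1, p.2) + p.1.2 * θ₁ (p.1.1, p.2))
    fun_prop
  refine Dat.cap_congr D D' (D.f.comp ⟨Prod.fst, continuous_fst⟩) ⟨Λ, hΛ⟩ (fun x t => ?_)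
    (fun _ => rfl) hf (fun x => PS.ext fun τ => ?_) (fun x => PS.ext fun τ => ?_)
  · change Γ (x, (1 - (t : ℝ)) * θ₀ (x, 1) + t * θ₁ (x, 1)) = D.f x
    rw [← he, hmix, ← h0]
    exact D.e x
  · change Γ (x, (1 - ((0 : I) : ℝ)) * θ₀ (x, τ) + ((0 : I) : ℝ) * θ₁ (x, τ)) = _
    rw [h0]; simp
  · change Γ (x, (1 - ((1 : I) : ℝ)) * θ₀ (x, τ) + ((1 : I) : ℝ) * θ₁ (x, τ)) = _
    rw [h1]; simp

/-- reparametrisation of the cube: `κ t` a family of self-maps of the cube preserving the boundary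
(`cap_congr`) -/
theorem Dat.cap_comp (D D' : Dat n w₀) (κ : C(Cb n × I, Cb n))
    (hκ : ∀ (x : Bd n) t, κ (x, t) ∈ Cube.boundary (Fin n)) (h0 : ∀ x, κ (x, 0) = x)
    (hf : ∀ x, D'.f x = D.f (κ (x, 1))) (hl : ∀ x, D'.l x = D.l ⟨κ (x, 1), hκ x 1⟩) :
    D.cap = D'.cap := by
  refine Dat.cap_congr D D' (D.f.comp κ)
    (D.l.comp ⟨fun p => ⟨κ (p.1, p.2), hκ p.1 p.2⟩, (κ.continuous.comp
      ((continuous_subtype_val.comp continuous_fst).prodMk continuous_snd)).subtype_mk _⟩)
    (fun x t => D.e _) (fun x => congrArg D.f (h0 x)) (fun x => (hf x).symm)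
    (fun x => congrArg D.l (Subtype.ext (h0 x))) (fun x => (hl x).symm)

variable {A : Type} [TopologicalSpace A] {E : C(A, W)}

/-- homotopic maps of pairs -/
theorem PM.cap_congr (P P' : PM n E) (F : C(Cb n × I, W)) (β : C(Bd n × I, A))
    (he : ∀ (x : Bd n) t, E (β (x, t)) = F (x, t)) (h0 : ∀ x, F (x, 0) = P.f x)
    (h1 : ∀ x, F (x, 1) = P'.f x) (l0 : ∀ x, β (x, 0) = P.β x) (l1 : ∀ x, β (x, 1) = P'.β x)
    (L : Lift E w₀) : (P.dat L).cap = (P'.dat L).cap := by
  exact Dat.cap_congr (P.dat L) (P'.dat L) F (L.1.comp β) (fun x t => (L.2 _).trans (he x t)) h0 h1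
    (fun x => congrArg L.1 (l0 x)) (fun x => congrArg L.1 (l1 x))

/-- a map of pairs that factors through `A` -/
theorem PM.cap_thin (P : PM n E) (b : C(Cb n, A)) (hf : ∀ x, E (b x) = P.f x)
    (hβ : ∀ x : Bd n, b x = P.β x) (L : Lift E w₀) : (P.dat L).cap = ⟦GenLoop.const⟧ := by
  exact (P.dat L).cap_eq_const (L.1.comp b) (fun x => (L.2 _).trans (hf x))
    (fun x => congrArg L.1 (hβ x))

/-- moving the boundary map of a map of pairs along a homotopy in `A` (`exists_hep'`) -/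
theorem PM.exists_slide (P : PM n E) (β : C(Bd n × I, A)) (h1 : ∀ x, β (x, 1) = P.β x) :
    ∃ P' : PM n E, (∀ x, P'.β x = β (x, 0)) ∧
      ∀ (w₀ : W) (L : Lift E w₀), (P'.dat L).cap = (P.dat L).cap := by
  obtain ⟨H, k1, k2⟩ := exists_hep' P.f (E.comp β)
    (fun x => (congrArg E (h1 x)).trans (P.e x))
  refine ⟨⟨H.comp ⟨fun x => (x, 0), continuous_id.prodMk continuous_const⟩,
    β.comp ⟨fun x => (x, 0), continuous_id.prodMk continuous_const⟩, fun x => (k2 x 0).symm⟩,
    fun _ => rfl, fun w₀ L => ?_⟩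
  exact PM.cap_congr _ P H β (fun x t => (k2 x t).symm) (fun _ => rfl) k1 (fun _ => rfl) h1 L

end Crest.Agent.R185
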