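import Crest.Agent.R185.BRAdd

/-!
# Row 185, bridge: the homomorphism `π_{n+1}(W2) → π_{n+2}(W)` and the difference formula
-/

set_option autoImplicit false

open unitInterval Topology Set

namespace Crest.Agent.R185

variable {W : Type} [TopologicalSpace W] {w₀ : W} {n : ℕ}

theorem W2.q_e (z : W2 w₀) : z.q.e = z.p.e := z.2.symm

theorem W2.long_two_sub (z : W2 w₀) (u : I) : z.long (2 - u) = z.p.1 u := by
  unfold W2.long
  split_ifs with h
  · have hu : u = 1 := Subtype.ext (le_antisymm u.2.2 (by change (1 : ℝ) ≤ u; linarith))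
    subst hu
    rw [PS.ext'_of_ge _ (by norm_num), z.q_e]; rfl
  · rw [sub_sub_cancel, PS.ext'_coe]

theorem W2.back_apply (z : W2 w₀) (u τ : I) :
    (W2.back (z, u)).1 τ = z.long ((2 - u) * τ) := rfl

theorem PS.part_apply (γ : PS w₀) (u τ : I) : (PS.part (γ, u)).1 τ = γ.1 (u * τ) := rfl

theorem PS.part_one (γ : PS w₀) : PS.part (γ, 1) = γ :=
  PS.ext fun τ => by rw [PS.part_apply, one_mul]

theorem PS.part_zero (γ : PS w₀) : PS.part (γ, 0) = PS.const w₀ :=
  PS.ext fun τ => by rw [PS.part_apply, zero_mul, γ.2]; rfl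

theorem glue_bd {T Z : Type} [TopologicalSpace T] [TopologicalSpace Z] (c c' : I) (hcc : c ≠ c')
    (h01 : ∀ u : I, u = 0 ∨ u = 1 → u = c ∨ u = c') (f g : Bd (n + 1) × T → Z)
    (hf : Continuous f) (hg : Continuous g)
    (hfg : ∀ (x : Bd (n + 1)) t, x.1 0 = c → Fin.tail x.1 ∈ Cube.boundary (Fin n) →
      f (x, t) = g (x, t)) :
    ∃ Λ : C(Bd (n + 1) × T, Z), (∀ (x : Bd (n + 1)) t, x.1 0 = c → Λ (x, t) = f (x, t)) ∧
      ∀ (x : Bd (n + 1)) t, x.1 0 = c' ∨ Fin.tail x.1 ∈ Cube.boundary (Fin n) →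
        Λ (x, t) = g (x, t) := by
  classical
  have key : ∀ y : Bd (n + 1) × T, y.1.1 0 = c' ∨ Fin.tail y.1.1 ∈ Cube.boundary (Fin n) →
      (if y.1.1 0 = c then f y else g y) = g y := by
    intro y hy
    split_ifs with h
    · rcases hy with hy | hy
      · exact absurd (h.symm.trans hy) hcc
      · exact hfg y.1 y.2 h hy
    · rfl
  refine ⟨⟨fun y => if y.1.1 0 = c then f y else g y, ?_⟩, fun x t h => if_pos h,
    fun x t h => key (x, t) h⟩
  have h0 : Continuous fun y : Bd (n + 1) × T => y.1.1 0 :=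
    (continuous_apply 0).comp (continuous_subtype_val.comp continuous_fst)
  have ht : Continuous fun y : Bd (n + 1) × T => Fin.tail y.1.1 :=
    continuous_tail.comp (continuous_subtype_val.comp continuous_fst)
  have hs : IsClosed {y : Bd (n + 1) × T | y.1.1 0 = c} := isClosed_eq h0 continuous_const
  have hu : IsClosed {y : Bd (n + 1) × T |
      y.1.1 0 = c' ∨ Fin.tail y.1.1 ∈ Cube.boundary (Fin n)} :=
    (isClosed_eq h0 continuous_const).union ((isClosed_bd n).preimage ht)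
  have hcov : (univ : Set (Bd (n + 1) × T)) = {y | y.1.1 0 = c} ∪
      {y : Bd (n + 1) × T | y.1.1 0 = c' ∨ Fin.tail y.1.1 ∈ Cube.boundary (Fin n)} := by
    refine (eq_univ_of_forall fun y => ?_).symm
    rcases mem_bd_succ.1 y.1.2 with h | h | h
    · exact (h01 _ (Or.inl h)).imp id Or.inl
    · exact (h01 _ (Or.inr h)).imp id Or.inl
    · exact Or.inr (Or.inr h)
  rw [← continuousOn_univ, hcov]
  exact ContinuousOn.union_of_isClosed (hf.continuousOn.congr fun y hy => if_pos hy)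
    (hg.continuousOn.congr fun y hy => key y hy) hs hu

theorem tail_lo_succ (i : Fin n) (x : Cb (n + 1)) :
    Fin.tail (lo i.succ x) = lo i (Fin.tail x) := by
  unfold lo; rw [Fin.tail_update_succ]; rfl

theorem tail_hi_succ (i : Fin n) (x : Cb (n + 1)) :
    Fin.tail (hi i.succ x) = hi i (Fin.tail x) := by
  unfold hi; rw [Fin.tail_update_succ]; rfl

theorem lo_succ_zero (i : Fin n) (x : Cb (n + 1)) : lo i.succ x 0 = x 0 :=
  Function.update_of_ne (Fin.succ_ne_zero i).symm _ _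

theorem hi_succ_zero (i : Fin n) (x : Cb (n + 1)) : hi i.succ x 0 = x 0 :=
  Function.update_of_ne (Fin.succ_ne_zero i).symm _ _

theorem tail_lo_zero (x : Cb (n + 1)) : Fin.tail (lo 0 x) = Fin.tail x := Fin.tail_update_zero _ _

theorem tail_hi_zero (x : Cb (n + 1)) : Fin.tail (hi 0 x) = Fin.tail x := Fin.tail_update_zero _ _

theorem lo_mem_bd (i : Fin n) {x : Cb n} (hx : x ∈ Cube.boundary (Fin n))
    (h : (x i : ℝ) ≤ 1 / 2) : lo i x ∈ Cube.boundary (Fin n) := by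
  obtain ⟨j, hj⟩ := hx
  refine ⟨j, ?_⟩
  by_cases hji : j = i
  · subst hji
    rcases hj with hj | hj
    · left; simp [lo, hj]
    · rw [hj] at h; norm_num at h
  · rwa [lo, Function.update_of_ne hji]

theorem hi_mem_bd (i : Fin n) {x : Cb n} (hx : x ∈ Cube.boundary (Fin n))
    (h : 1 / 2 ≤ (x i : ℝ)) : hi i x ∈ Cube.boundary (Fin n) := by
  obtain ⟨j, hj⟩ := hx
  refine ⟨j, ?_⟩
  by_cases hji : j = i
  · subst hji
    rcases hj with hj | hj
    · rw [hj] at h; norm_num at h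
    · right
      rw [hi, Function.update_self, hj, Set.projIcc_of_right_le _ (by norm_num)]; rfl
  · rwa [hi, Function.update_of_ne hji]

theorem transAt_lo {Z : Type} [TopologicalSpace Z] {z : Z} (i : Fin n) (f g : Lp n Z z) {x : Cb n}
    (h : (x i : ℝ) ≤ 1 / 2) : GenLoop.transAt i f g x = f (lo i x) := if_pos h

theorem transAt_hi {Z : Type} [TopologicalSpace Z] {z : Z} (i : Fin n) (f g : Lp n Z z) {x : Cb n}
    (h : 1 / 2 ≤ (x i : ℝ)) : GenLoop.transAt i f g x = g (hi i x) := by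
  by_cases h' : (x i : ℝ) ≤ 1 / 2
  · have e : (x i : ℝ) = 1 / 2 := le_antisymm h' h
    rw [transAt_lo i f g h']
    refine (f.2 _ ⟨i, Or.inr ?_⟩).trans (g.2 _ ⟨i, Or.inl ?_⟩).symm
    · rw [lo, Function.update_self, e, Set.projIcc_of_right_le _ (by norm_num)]; rfl
    · rw [hi, Function.update_self, e, Set.projIcc_of_le_left _ (by norm_num)]; rfl
  · exact if_neg h'

theorem W2.back_e (z : W2 w₀) (u : I) : (W2.back (z, u)).e = z.p.1 u := by
  change z.long ((2 - u) * (1 : I)) = _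
  rw [Icc.coe_one, mul_one, W2.long_two_sub]

theorem W2.back_one (z : W2 w₀) : W2.back (z, 1) = z.q := by
  refine PS.ext fun τ => ?_
  rw [W2.back_apply, Icc.coe_one, show (2 : ℝ) - 1 = 1 by norm_num, one_mul, W2.long,
    if_pos τ.2.2, PS.ext'_coe]

theorem W2.back_const (u : I) : W2.back (W2.const w₀, u) = PS.const w₀ := by
  refine PS.ext fun τ => ?_
  rw [W2.back_apply, W2.long]
  split_ifs <;> rfl

/-- A family version of `IsJ`: `ψ t` is a map of the cube into `W2` that is constant `= b t` on the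
boundary.  The paths are glued along the closed sets `{x 0 = 1}` and `{x 0 = 0 ∨ tail x ∈ ∂}` as in
the definition of `att`. -/
theorem exists_J_family {T : Type} [TopologicalSpace T] (ψ : C(Cb n × T, W2 w₀)) (b : C(T, W2 w₀))
    (hb : ∀ (x : Bd n) t, ψ (x, t) = b t) :
    ∃ Λ : C(Bd (n + 1) × T, PS w₀),
      (∀ (x : Bd (n + 1)) t, (Λ (x, t)).e = (ψ (Fin.tail x.1, t)).p.1 (x.1 0)) ∧
      (∀ (x : Bd (n + 1)) t, x.1 0 = 1 → Λ (x, t) = (ψ (Fin.tail x.1, t)).q) ∧
      ∀ (x : Bd (n + 1)) t, x.1 0 = 0 ∨ Fin.tail x.1 ∈ Cube.boundary (Fin n) →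
        Λ (x, t) = W2.back (b t, x.1 0) := by
  have ht : Continuous fun y : Bd (n + 1) × T => ψ (Fin.tail y.1.1, y.2) :=
    ψ.continuous.comp ((continuous_tail.comp (continuous_subtype_val.comp continuous_fst)).prodMk
      continuous_snd)
  obtain ⟨Λ, h1, h2⟩ := glue_bd (n := n) 1 0 one_ne_zero (fun _ h => h.symm)
    (fun y : Bd (n + 1) × T => (ψ (Fin.tail y.1.1, y.2)).q) (fun y => W2.back (b y.2, y.1.1 0))
    (W2.continuous_q.comp ht)
    (W2.back.continuous.comp ((b.continuous.comp continuous_snd).prodMk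
      ((continuous_apply 0).comp (continuous_subtype_val.comp continuous_fst))))
    (fun x t h hx => by
      dsimp only
      rw [h, W2.back_one, hb ⟨_, hx⟩ t])
  refine ⟨Λ, fun x t => ?_, h1, h2⟩
  rcases mem_bd_succ.1 x.2 with h | h | h
  · rw [h2 x t (Or.inl h), W2.back_e, h, (b t).p.2, (ψ _).p.2]
  · rw [h1 x t h, W2.q_e, h]; rfl
  · rw [h2 x t (Or.inr h), W2.back_e, hb ⟨_, h⟩ t]

theorem exists_isJ (b : W2 w₀) (ψ : Lp n (W2 w₀) b) : ∃ D, IsJ b ψ D := by
  obtain ⟨Λ, h0, h1, h2⟩ := exists_J_family (T := Unit) (ψ.1.comp ContinuousMap.fst)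
    (ContinuousMap.const _ b) (fun x _ => ψ.2 x x.2)
  refine ⟨⟨⟨fun x => (ψ (Fin.tail x)).p.1 (x 0), ?_⟩, Λ.comp ⟨fun x => (x, ()), by fun_prop⟩,
    fun x => h0 x ()⟩, fun x => rfl, fun x h => h1 x () h, fun x h => h2 x () h⟩
  exact PS.continuous_ev.comp ((W2.continuous_p.comp (ψ.1.continuous.comp continuous_tail)).prodMk
    (continuous_apply 0))

theorem IsJ.cap_congr {b₀ b₁ : W2 w₀} {ψ₀ : Lp n (W2 w₀) b₀} {ψ₁ : Lp n (W2 w₀) b₁}
    {D₀ D₁ : Dat (n + 1) w₀} (h₀ : IsJ b₀ ψ₀ D₀) (h₁ : IsJ b₁ ψ₁ D₁) (Ψ : C(Cb n × I, W2 w₀))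
    (β : C(I, W2 w₀)) (hb : ∀ (x : Bd n) t, Ψ (x, t) = β t) (e₀ : ∀ x, Ψ (x, 0) = ψ₀ x)
    (e₁ : ∀ x, Ψ (x, 1) = ψ₁ x) (f₀ : β 0 = b₀) (f₁ : β 1 = b₁) : D₀.cap = D₁.cap := by
  obtain ⟨Λ, h0, h1, h2⟩ := exists_J_family Ψ β hb
  refine Dat.cap_congr D₀ D₁ ⟨fun y => (Ψ (Fin.tail y.1, y.2)).p.1 (y.1 0), ?_⟩ Λ h0
    (fun x => ?_) (fun x => ?_) (fun x => ?_) (fun x => ?_)
  · exact PS.continuous_ev.comp ((W2.continuous_p.comp (Ψ.continuous.comp
      ((continuous_tail.comp continuous_fst).prodMk continuous_snd))).prodMk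
      ((continuous_apply 0).comp continuous_fst))
  · rw [h₀.1, ← e₀]; rfl
  · rw [h₁.1, ← e₁]; rfl
  · rcases mem_bd_succ.1 x.2 with h | h | h
    · rw [h2 x 0 (Or.inl h), h₀.2.2 x (Or.inl h), f₀]
    · rw [h1 x 0 h, h₀.2.1 x h, e₀]
    · rw [h2 x 0 (Or.inr h), h₀.2.2 x (Or.inr h), f₀]
  · rcases mem_bd_succ.1 x.2 with h | h | h
    · rw [h2 x 1 (Or.inl h), h₁.2.2 x (Or.inl h), f₁]
    · rw [h1 x 1 h, h₁.2.1 x h, e₁]
    · rw [h2 x 1 (Or.inr h), h₁.2.2 x (Or.inr h), f₁]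

/-- the underlying function of `J` -/
noncomputable def Jfn (b : W2 w₀) (x : Pn n (W2 w₀) b) : Pn (n + 1) W w₀ :=
  (exists_isJ b (Quotient.out x)).choose.cap

theorem IsJ.cap_eq {b : W2 w₀} {ψ : Lp n (W2 w₀) b} {D : Dat (n + 1) w₀} (h : IsJ b ψ D) :
    D.cap = Jfn b ⟦ψ⟧ := by
  obtain ⟨H⟩ : GenLoop.Homotopic (Quotient.out (⟦ψ⟧ : Pn n (W2 w₀) b)) ψ :=
    Quotient.exact (s := GenLoop.Homotopic.setoid (Fin n) b) (Quotient.out_eq _)
  refine (IsJ.cap_congr (exists_isJ b _).choose_spec h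
    ⟨fun y => H (y.2, y.1), H.continuous.comp (continuous_snd.prodMk continuous_fst)⟩
    (ContinuousMap.const _ b) (fun x t => ?_) (fun x => H.apply_zero x) (fun x => H.apply_one x)
    rfl rfl).symm
  exact (H.eq_snd t x.2).trans (ψ.2 x x.2)

theorem Jfn_mul (b : W2 w₀) (x y : Pn (n + 1) (W2 w₀) b) :
    Jfn b (x * y) = Jfn b x * Jfn b y := by
  induction x using Quotient.inductionOn with | _ p => ?_
  induction y using Quotient.inductionOn with | _ q => ?_
  have e := HomotopyGroup.mul_spec (i := 0) (p := p) (q := q)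
  obtain ⟨D, hD⟩ := exists_isJ b (GenLoop.transAt 0 q p)
  obtain ⟨D₁, h₁⟩ := exists_isJ b q
  obtain ⟨D₂, h₂⟩ := exists_isJ b p
  refine (congrArg (Jfn b) e).trans ?_
  rw [← hD.cap_eq, ← h₁.cap_eq, ← h₂.cap_eq]
  refine Dat.cap_trans (Fin.succ 0) D D₁ D₂ (fun x hx => ?_) (fun x hx => ?_)
    (fun x y hx hy => ?_) (fun x y hx hy => ?_) (fun y y' hy hy' => ?_)
  · rw [hD.1, h₁.1, tail_lo_succ, lo_succ_zero, transAt_lo 0 q p hx]
  · rw [hD.1, h₂.1, tail_hi_succ, hi_succ_zero, transAt_hi 0 q p hx]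
  · have e0 : y.1 0 = x.1 0 := by rw [hy, lo_succ_zero]
    have et : Fin.tail y.1 = lo 0 (Fin.tail x.1) := by rw [hy, tail_lo_succ]
    rcases mem_bd_succ.1 x.2 with h | h | h
    · rw [hD.2.2 x (Or.inl h), h₁.2.2 y (Or.inl (e0.trans h)), e0]
    · rw [hD.2.1 x h, h₁.2.1 y (e0.trans h), et, transAt_lo 0 q p hx]
    · rw [hD.2.2 x (Or.inr h), h₁.2.2 y (Or.inr (et ▸ lo_mem_bd 0 h hx)), e0]
  · have e0 : y.1 0 = x.1 0 := by rw [hy, hi_succ_zero]
    have et : Fin.tail y.1 = hi 0 (Fin.tail x.1) := by rw [hy, tail_hi_succ]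
    rcases mem_bd_succ.1 x.2 with h | h | h
    · rw [hD.2.2 x (Or.inl h), h₂.2.2 y (Or.inl (e0.trans h)), e0]
    · rw [hD.2.1 x h, h₂.2.1 y (e0.trans h), et, transAt_hi 0 q p hx]
    · rw [hD.2.2 x (Or.inr h), h₂.2.2 y (Or.inr (et ▸ hi_mem_bd 0 h hx)), e0]
  · have e0 : y'.1 0 = y.1 0 := by
      rw [hy', Function.update_of_ne (Fin.succ_ne_zero _).symm]
    rw [h₁.2.2 y (Or.inr ⟨0, Or.inr hy⟩), h₂.2.2 y' (Or.inr ⟨0, Or.inl ?_⟩), e0]
    change y'.1 (Fin.succ 0) = 0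
    rw [hy', Function.update_self]

/-- `J b ⟦ψ⟧` is the cap of the datum `IsJ b ψ`.  Well defined and invariant under free homotopies
through boundary-constant maps by `exists_J_family` (with `T = I`) and `Dat.cap_congr`; a cap `H` of
`⟨ψ, const (ofPath a)⟩` is such a free homotopy from a representative of `rho a ⟦ψ⟧` to `ψ`
(`cap_eq_rho`).  Multiplicative by `Dat.cap_trans` in direction `Fin.succ 0` and
`HomotopyGroup.mul_spec (i := 0)` (`Fin.tail (lo (succ i) x) = lo i (Fin.tail x)`). -/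
theorem exists_J (n : ℕ) (w₀ : W) :
    ∃ J : ∀ b : W2 w₀, Pn (n + 1) (W2 w₀) b →* Pn (n + 2) W w₀,
      (∀ b ψ D, IsJ b ψ D → D.cap = J b ⟦ψ⟧) ∧
      ∀ (b b' : W2 w₀) (a : Path b b') x, J b (rho a x) = J b' x := by
  refine ⟨fun b => MonoidHom.mk' (Jfn b) (Jfn_mul b), fun b ψ D h => h.cap_eq, fun b b' a x => ?_⟩
  induction x using Quotient.inductionOn with | _ ψ => ?_
  let D : Dat (n + 1) b := ⟨ψ.1, ContinuousMap.const _ (PS.ofPath a),
    fun x => (PS.ofPath_e a).trans (ψ.2 x x.2).symm⟩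
  obtain ⟨g, ⟨H, h0, h1, h2⟩, hg⟩ := D.exists_caps_cap
  rw [← cap_eq_rho a ψ D (fun _ => rfl) (fun _ => rfl), hg]
  obtain ⟨D₀, h₀⟩ := exists_isJ b g
  obtain ⟨D₁, h₁⟩ := exists_isJ b' ψ
  exact h₀.cap_eq.symm.trans
    ((h₀.cap_congr h₁ H a.toContinuousMap h2 h0 h1 a.source a.target).trans h₁.cap_eq)

/-- Let `D` be a datum in `W2` whose paths have partial paths as first components.  If `H` caps `D`
with `ψ`, use the family `f_t (u, y) = (H (y, t)).p u`, paths: `(H (y, t)).q` on the top, constant on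
the bottom, `((D.l y).1 (t * u)).q` on the sides (glue on three closed sets); at `t = 1` it is `E`,
at `t = 0` it satisfies `IsJ (W2.const w₀) ψ` (`W2.back_const`). -/
theorem cap_of_J (J : Pn (n + 1) (W2 w₀) (W2.const w₀) → Pn (n + 2) W w₀)
    (hJ : ∀ ψ D, IsJ (W2.const w₀) ψ D → D.cap = J ⟦ψ⟧) (D : Dat (n + 1) (W2.const w₀))
    (hD : ∀ (y : Bd (n + 1)) (u : I), ((D.l y).1 u).p = PS.part ((D.f y).p, u))
    (E : Dat (n + 2) w₀) (hf : ∀ x, E.f x = (D.f (Fin.tail x)).p.1 (x 0))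
    (h0 : ∀ x : Bd (n + 2), x.1 0 = 0 → E.l x = PS.const w₀)
    (h1 : ∀ x : Bd (n + 2), x.1 0 = 1 → E.l x = (D.f (Fin.tail x.1)).q)
    (hs : ∀ (x : Bd (n + 2)) (y : Bd (n + 1)), y.1 = Fin.tail x.1 →
      E.l x = ((D.l y).1 (x.1 0)).q) : E.cap = J D.cap := by
  obtain ⟨ψ, ⟨H, H0, H1, H2⟩, hψ⟩ := D.exists_caps_cap
  obtain ⟨α, hα⟩ := exists_isJ _ ψ
  rw [hψ, ← hJ ψ α hα]
  have hx0 : Continuous fun y : Bd (n + 2) × I => y.1.1 0 :=
    (continuous_apply 0).comp (continuous_subtype_val.comp continuous_fst)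
  obtain ⟨Λ, l0, l1⟩ := glue_bd (n := n + 1) 0 1 zero_ne_one (fun _ h => h)
    (fun _ : Bd (n + 2) × I => PS.const w₀) (fun y => (H (Fin.tail y.1.1, y.2 * y.1.1 0)).q)
    continuous_const
    (W2.continuous_q.comp (H.continuous.comp
      ((continuous_tail.comp (continuous_subtype_val.comp continuous_fst)).prodMk
        (continuous_snd.mul hx0))))
    (fun x t h hx => by
      dsimp only
      rw [h, mul_zero, H0, GenLoop.boundary ψ _ hx]; rfl)
  refine (Dat.cap_congr α E ⟨fun y => (H (Fin.tail y.1, y.2)).p.1 (y.1 0), ?_⟩ Λ (fun x t => ?_)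
    (fun x => ?_) (fun x => ?_) (fun x => ?_) (fun x => ?_)).symm
  · exact PS.continuous_ev.comp ((W2.continuous_p.comp (H.continuous.comp
      ((continuous_tail.comp continuous_fst).prodMk continuous_snd))).prodMk
      ((continuous_apply 0).comp continuous_fst))
  · change _ = (H (Fin.tail x.1, t)).p.1 (x.1 0)
    rcases mem_bd_succ.1 x.2 with h | h | h
    · rw [l0 x t h, h, (H _).p.2]; rfl
    · rw [l1 x t (Or.inl h), W2.q_e, h, mul_one]; rfl
    · rw [l1 x t (Or.inr h), W2.q_e, H2 ⟨_, h⟩, H2 ⟨_, h⟩, hD, hD, PS.part_e, PS.part_apply]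
  · rw [hα.1, ← H0]; rfl
  · rw [hf, ← H1]; rfl
  · rcases mem_bd_succ.1 x.2 with h | h | h
    · rw [l0 x 0 h, hα.2.2 x (Or.inl h), W2.back_const]
    · rw [l1 x 0 (Or.inl h), hα.2.1 x h, zero_mul, H0]
    · rw [l1 x 0 (Or.inr h), hα.2.2 x (Or.inr h), W2.back_const, zero_mul, H0,
        GenLoop.boundary ψ _ h]; rfl
  · rcases mem_bd_succ.1 x.2 with h | h | h
    · rw [l0 x 1 h, h0 x h]
    · rw [l1 x 1 (Or.inl h), h1 x h, h, mul_one, H1]
    · rw [l1 x 1 (Or.inr h), hs x ⟨_, h⟩ rfl, one_mul, H2 ⟨_, h⟩]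

/-- the loop `q · p⁻¹` -/
noncomputable def W2.loop (z : W2 w₀) : Path w₀ w₀ :=
  (W2.back (z, 0)).path.cast rfl (by rw [W2.back_e]; exact z.p.2.symm)

theorem W2.loop_apply (z : W2 w₀) (τ : I) : z.loop τ = z.long (2 * τ) := by
  change z.long ((2 - (0 : I)) * τ) = _
  rw [Icc.coe_zero, sub_zero]

theorem W2.long_zero (z : W2 w₀) : z.long 0 = w₀ := by
  rw [W2.long, if_pos zero_le_one, PS.ext'_of_le _ le_rfl]

theorem W2.long_two (z : W2 w₀) : z.long 2 = w₀ := by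
  rw [W2.long, if_neg (by norm_num), PS.ext'_of_le _ (by norm_num)]

/-- homotopy of paths relative to the end points -/
def PS.Hom (γ γ' : PS w₀) : Prop := ∃ R : Path γ γ', ∀ t, (R t).e = γ.e

theorem W2.loop_homotopic (z : W2 w₀) (h : PS.Hom z.q z.p) :
    z.loop.Homotopic (Path.refl w₀) := by
  obtain ⟨R, hR⟩ := h
  let Z : I → W2 w₀ := fun t => ⟨(z.p, R t), (z.q_e.symm.trans (hR t).symm)⟩
  have hZ : Continuous Z := W2.continuous_of continuous_const R.continuous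
  have hZ0 : Z 0 = z := Subtype.ext (Prod.ext rfl R.source)
  have h1 : z.loop.Homotopic (Z 1).loop := by
    refine ⟨⟨⟨⟨fun y => (Z y.1).long (2 * y.2), W2.continuous_long.comp
      ((hZ.comp continuous_fst).prodMk (by fun_prop))⟩, fun τ => ?_, fun τ => ?_⟩, ?_⟩⟩
    · change (Z 0).long _ = z.loop τ
      rw [hZ0, W2.loop_apply]
    · exact ((Z 1).loop_apply τ).symm
    · rintro t τ (rfl | rfl)
      · change (Z t).long (2 * (0 : I)) = z.loop 0
        rw [Icc.coe_zero, mul_zero, W2.long_zero, Path.source]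
      · change (Z t).long (2 * (1 : I)) = z.loop 1
        rw [Icc.coe_one, mul_one, W2.long_two, Path.target]
  refine h1.trans ⟨⟨⟨⟨fun y => z.p.ext' ((1 - y.1) * min (2 * (y.2 : ℝ)) (2 - 2 * y.2)),
    PS.continuous_ext' continuous_const (by fun_prop)⟩, fun τ => ?_, fun τ => ?_⟩, ?_⟩⟩
  · change z.p.ext' ((1 - (0 : I)) * min (2 * (τ : ℝ)) (2 - 2 * τ)) = (Z 1).loop τ
    rw [Icc.coe_zero, sub_zero, one_mul, W2.loop_apply, W2.long]
    have hq : (Z 1).q = z.p := R.target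
    split_ifs with h
    · rw [min_eq_left (by linarith), hq]
    · rw [min_eq_right (by linarith)]; rfl
  · change z.p.ext' ((1 - (1 : I)) * min (2 * (τ : ℝ)) (2 - 2 * τ)) = w₀
    rw [Icc.coe_one, sub_self, zero_mul, PS.ext'_of_le _ le_rfl]
  · rintro t τ (rfl | rfl)
    · change z.p.ext' ((1 - t) * min (2 * ((0 : I) : ℝ)) (2 - 2 * (0 : I))) = (Z 1).loop 0
      rw [Path.source, PS.ext'_of_le _ (by simp)]
    · change z.p.ext' ((1 - t) * min (2 * ((1 : I) : ℝ)) (2 - 2 * (1 : I))) = (Z 1).loop 1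
      rw [Path.target, PS.ext'_of_le _ (by simp)]

theorem shift_loop_part (b : W2 w₀) (v τ : I) :
    (PS.shift b.loop (PS.part (b.p, v))).1 τ = b.long (min (4 * τ) (2 - v * (2 * τ - 1))) := by
  change (b.loop.trans (PS.part (b.p, v)).path) τ = _
  rw [Path.trans_apply]
  have h0 := v.2.1
  have h1 := v.2.2
  split_ifs with h
  · rw [W2.loop_apply, min_eq_left (by nlinarith)]
    congr 1
    ring
  · push Not at h
    rw [min_eq_right (by nlinarith)]
    exact (b.long_two_sub _).symm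

/-- The difference formula for one cell.  `D`, `D'` have the same map `f`, constant on all faces
but the bottom; `ψ y = (D'.l, D.l)` along the bottom face.  Let `α` be the `IsJ` datum and `α'` the
datum with the same map and the paths `shift b.loop (part ((ψ (tail x)).p, x 0))` (they extend over
the cube, so its cap is trivial, `Dat.cap_eq_const`).  Concatenate in direction `0`
(`Dat.exists_trans`): `α` with `D`, and `α'` with `D'.shift b.loop`.  The two concatenations have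
the same map and their paths are reparametrisations of `b.long`
(`θ₀ = (2 - v) τ`, `θ₁ = if τ ≤ 1/2 then 4 τ else 2 - v (2 τ - 1) = min (4 τ) (2 - v (2 τ - 1))`,
`v = min (2 * x 0) 1`), `Dat.cap_reparam`.  Finish with `Dat.cap_trans`, `Dat.cap_shift`. -/
theorem diff_cell (b : W2 w₀) (ψ : Lp (n + 1) (W2 w₀) b) (α D D' : Dat (n + 2) w₀)
    (hα : IsJ b ψ α) (hf : ∀ x, D'.f x = D.f x)
    (hb : ∀ x : Bd (n + 2), x.1 0 = 0 →
      D.l x = (ψ (Fin.tail x.1)).q ∧ D'.l x = (ψ (Fin.tail x.1)).p)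
    (hr : ∀ x : Bd (n + 2), x.1 0 = 1 ∨ Fin.tail x.1 ∈ Cube.boundary (Fin (n + 1)) →
      D.l x = b.q ∧ D'.l x = b.p) :
    D.cap * α.cap = rho b.loop D'.cap := by
  let Λ : C(Cb (n + 2), PS w₀) := (PS.shift b.loop).comp (PS.part.comp
    ⟨fun x => ((ψ (Fin.tail x)).p, x 0),
      (W2.continuous_p.comp (ψ.1.continuous.comp continuous_tail)).prodMk (continuous_apply 0)⟩)
  have hΛ : ∀ x, Λ x = PS.shift b.loop (PS.part ((ψ (Fin.tail x)).p, x 0)) := fun _ => rfl
  have hΛe : ∀ x, (Λ x).e = α.f x := fun x => by rw [hΛ, PS.shift_e, PS.part_e, hα.1]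
  let α' : Dat (n + 2) w₀ := ⟨α.f, Λ.comp ⟨Subtype.val, continuous_subtype_val⟩, fun x => hΛe x⟩
  have hα' : α'.cap = 1 := α'.cap_eq_const Λ hΛe fun _ => rfl
  have hl' : ∀ x : Bd (n + 2), α'.l x =
      PS.shift b.loop (PS.part ((ψ (Fin.tail x.1)).p, x.1 0)) := fun _ => rfl
  have hsh : ∀ x, (D'.shift b.loop).l x = PS.shift b.loop (D'.l x) := fun _ => rfl
  have hm₁ : ∀ y y' : Bd (n + 2), y.1 0 = 1 → y'.1 = Function.update y.1 0 0 →
      α.l y = D.l y' := by
    intro y y' hy hy'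
    rw [hα.2.1 y hy, (hb y' (by rw [hy', Function.update_self])).1, hy', Fin.tail_update_zero]
  have hm₂ : ∀ y y' : Bd (n + 2), y.1 0 = 1 → y'.1 = Function.update y.1 0 0 →
      α'.l y = (D'.shift b.loop).l y' := by
    intro y y' hy hy'
    rw [hl', hsh, hy, PS.part_one, (hb y' (by rw [hy', Function.update_self])).2, hy',
      Fin.tail_update_zero]
  obtain ⟨C₁, a1, a2, a3, a4⟩ := Dat.exists_trans 0 α D hm₁
  obtain ⟨C₂, b1, b2, b3, b4⟩ := Dat.exists_trans 0 α' (D'.shift b.loop) hm₂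
  rw [← Dat.cap_trans 0 C₁ α D a1 a2 a3 a4 hm₁, ← Dat.cap_shift,
    ← mul_one (D'.shift b.loop).cap, ← hα', ← Dat.cap_trans 0 C₂ α' _ b1 b2 b3 b4 hm₂]
  let v : Bd (n + 2) → I := fun x => Set.projIcc 0 1 zero_le_one (2 * x.1 0)
  have hv : Continuous v := continuous_projIcc.comp (continuous_const.mul
    (continuous_subtype_val.comp ((continuous_apply 0).comp continuous_subtype_val)))
  have key : ∀ x : Bd (n + 2), C₁.l x = W2.back (b, v x) ∧
      C₂.l x = PS.shift b.loop (PS.part (b.p, v x)) := by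
    intro x
    rcases le_total (x.1 0 : ℝ) (1 / 2) with h | h
    · let y : Bd (n + 2) := ⟨lo 0 x.1, lo_mem_bd 0 x.2 h⟩
      have y0 : y.1 0 = v x := by
        change lo 0 x.1 0 = _
        rw [lo, Function.update_self]
      have yt : Fin.tail y.1 = Fin.tail x.1 := tail_lo_zero _
      rw [a3 x y h rfl, b3 x y h rfl, hl', y0, yt]
      rcases mem_bd_succ.1 x.2 with h' | h' | h'
      · have v0 : v x = 0 := by simp [v, h']
        rw [hα.2.2 y (Or.inl (y0.trans v0)), y0, v0, PS.part_zero, PS.part_zero]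
        exact ⟨rfl, rfl⟩
      · rw [h'] at h; norm_num at h
      · rw [hα.2.2 y (Or.inr (yt ▸ h')), y0, GenLoop.boundary ψ _ h']
        exact ⟨rfl, rfl⟩
    · let y : Bd (n + 2) := ⟨hi 0 x.1, hi_mem_bd 0 x.2 h⟩
      have yt : Fin.tail y.1 = Fin.tail x.1 := tail_hi_zero _
      have v1 : v x = 1 := Set.projIcc_of_right_le _ (by linarith)
      have hy : y.1 0 = 1 ∨ Fin.tail y.1 ∈ Cube.boundary (Fin (n + 1)) := by
        rcases mem_bd_succ.1 x.2 with h' | h' | h'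
        · rw [h'] at h; norm_num at h
        · left
          change hi 0 x.1 0 = 1
          rw [hi, Function.update_self, h', Set.projIcc_of_right_le _ (by norm_num)]; rfl
        · exact Or.inr (yt ▸ h')
      rw [a4 x y h rfl, b4 x y h rfl, hsh, (hr y hy).1, (hr y hy).2, v1, W2.back_one,
        PS.part_one]
      exact ⟨rfl, rfl⟩
  refine Dat.cap_reparam C₁ C₂ (fun x => ?_)
    ⟨fun y => b.long y.2, W2.continuous_long.comp (continuous_const.prodMk continuous_snd)⟩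
    ⟨fun y => (2 - v y.1) * y.2, by fun_prop⟩
    ⟨fun y => min (4 * y.2) (2 - v y.1 * (2 * y.2 - 1)), by fun_prop⟩ (fun x => ?_) (fun x => ?_)
    (fun x τ => ?_) (fun x τ => ?_)
  · rcases le_total (x 0 : ℝ) (1 / 2) with h | h
    · rw [a1 x h, b1 x h]
    · rw [a2 x h, b2 x h]; exact (hf _).symm
  · have := (v x).2.1
    change (2 - (v x : ℝ)) * (0 : I) = min (4 * ((0 : I) : ℝ)) (2 - v x * (2 * (0 : I) - 1))
    rw [Icc.coe_zero, min_eq_left (by linarith)]; ring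
  · have := (v x).2.1
    change (2 - (v x : ℝ)) * (1 : I) = min (4 * ((1 : I) : ℝ)) (2 - v x * (2 * (1 : I) - 1))
    rw [Icc.coe_one, min_eq_right (by linarith)]; ring
  · rw [(key x).1]; rfl
  · rw [(key x).2, shift_loop_part]; rfl

end Crest.Agent.R185
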