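import Crest.Agent.R185.BRAttach

/-!
# Row 185, bridge: the union of the skeleta
-/

set_option autoImplicit false

open unitInterval Topology Set

namespace Crest.Agent.R185

variable {G : Type} [Group G] (𝒯 : Tower G)

/-- identification of a point with its image in the next skeleton -/
inductive Tower.Rel : (Σ n, 𝒯.Y n) → (Σ n, 𝒯.Y n) → Prop
  | mk (n : ℕ) (a : 𝒯.Y n) : Tower.Rel ⟨n, a⟩ ⟨n + 1, (𝒯.T n).i a⟩

/-- the union of the skeleta -/
def Tower.Lim : Type := Quot 𝒯.Rel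

instance : TopologicalSpace 𝒯.Lim := inferInstanceAs (TopologicalSpace (Quot 𝒯.Rel))

/-- the inclusion of a skeleton -/
def Tower.ι (n : ℕ) : C(𝒯.Y n, 𝒯.Lim) :=
  ⟨fun a => Quot.mk _ ⟨n, a⟩, continuous_quot_mk.comp continuous_sigmaMk⟩

theorem Tower.ι_i (n : ℕ) (a : 𝒯.Y n) : 𝒯.ι (n + 1) ((𝒯.T n).i a) = 𝒯.ι n a :=
  (Quot.sound (Tower.Rel.mk n a)).symm

theorem Tower.exists_ι (x : 𝒯.Lim) : ∃ n a, 𝒯.ι n a = x := by
  obtain ⟨n, a⟩ := x
  exact ⟨n, a, rfl⟩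

instance : MulAction G 𝒯.Lim where
  smul g := Quot.map (fun p => ⟨p.1, g • p.2⟩) (by
    rintro _ _ ⟨n, a⟩
    dsimp only
    rw [← (𝒯.T n).i_smul]
    exact Tower.Rel.mk n _)
  one_smul := by
    rintro ⟨n, a⟩
    exact congrArg (𝒯.ι n) (one_smul G a)
  mul_smul g h := by
    rintro ⟨n, a⟩
    exact congrArg (𝒯.ι n) (mul_smul g h a)

theorem Tower.smul_ι (g : G) (n : ℕ) (a : 𝒯.Y n) : g • 𝒯.ι n a = 𝒯.ι n (g • a) := rfl

theorem Tower.continuous_of {W : Type} [TopologicalSpace W] {f : 𝒯.Lim → W}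
    (h : ∀ n, Continuous fun a => f (𝒯.ι n a)) : Continuous f :=
  isQuotientMap_quot_mk.continuous_iff.2 (continuous_sigma h)

instance : ContinuousConstSMul G 𝒯.Lim :=
  ⟨fun g => 𝒯.continuous_of fun n => (𝒯.ι n).continuous.comp (continuous_const_smul g)⟩

/-- compatible families of maps -/
theorem Tower.exists_lift {W : Type} [TopologicalSpace W] (f : ∀ n, C(𝒯.Y n, W))
    (hf : ∀ n a, f (n + 1) ((𝒯.T n).i a) = f n a) :
    ∃ F : C(𝒯.Lim, W), ∀ n a, F (𝒯.ι n a) = f n a :=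
  ⟨⟨Quot.lift (fun p => f p.1 p.2) (by rintro _ _ ⟨n, a⟩; exact (hf n a).symm),
    𝒯.continuous_of fun n => (f n).continuous⟩, fun _ _ => rfl⟩

theorem Tower.ι_base (n : ℕ) : 𝒯.ι n (𝒯.y n) = 𝒯.ι 0 (𝒯.y 0) := by
  induction n with
  | zero => rfl
  | succ n ih => rw [← (𝒯.T n).base, 𝒯.ι_i, ih]

/-- recursive construction of a map on the union -/
theorem Tower.exists_rec {W : Type} [TopologicalSpace W] (P : ∀ n, C(𝒯.Y n, W) → Prop)
    (h0 : ∃ f, P 0 f)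
    (hs : ∀ n f, P n f → ∃ f', P (n + 1) f' ∧ ∀ y, f' ((𝒯.T n).i y) = f y) :
    ∃ F : C(𝒯.Lim, W), ∀ n, P n (F.comp (𝒯.ι n)) := by
  let seq : ∀ n, {f // P n f} := fun n => Nat.rec ⟨h0.choose, h0.choose_spec⟩
    (fun n f => ⟨(hs n f.1 f.2).choose, (hs n f.1 f.2).choose_spec.1⟩) n
  obtain ⟨F, hF⟩ := 𝒯.exists_lift (fun n => (seq n).1)
    fun n a => (hs n (seq n).1 (seq n).2).choose_spec.2 a
  refine ⟨F, fun n => ?_⟩
  have : F.comp (𝒯.ι n) = (seq n).1 := ContinuousMap.ext (hF n)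
  rw [this]
  exact (seq n).2

/-- `exists_lift` for `a ↦ (ι (n+1)) ∘ (K n a) : C(I, Lim)` -/
theorem Tower.contractible : ContractibleSpace 𝒯.Lim := by
  obtain ⟨F, hF⟩ := 𝒯.exists_lift (W := C(I, 𝒯.Lim))
    (fun n => ⟨fun a => (𝒯.ι (n + 1)).comp ((𝒯.K n).1 a).1,
      (ContinuousMap.continuous_postcomp _).comp
        (PS.continuous_val.comp (𝒯.K n).1.continuous)⟩)
    (fun n a => by
      ext τ
      change 𝒯.ι (n + 2) (((𝒯.K (n + 1)).1 ((𝒯.T n).i a)).1 τ) = _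
      rw [𝒯.compat]
      exact 𝒯.ι_i (n + 1) _)
  rw [contractible_iff_id_nullhomotopic]
  refine ⟨𝒯.ι 0 (𝒯.y 0), ContinuousMap.Homotopic.symm ⟨⟨⟨fun p => F p.2 p.1,
    (F.continuous.comp continuous_snd).eval continuous_fst⟩, fun x => ?_, fun x => ?_⟩⟩⟩
  · obtain ⟨n, a, rfl⟩ := 𝒯.exists_ι x
    change F (𝒯.ι n a) 0 = 𝒯.ι 0 (𝒯.y 0)
    rw [hF]
    change 𝒯.ι (n + 1) (((𝒯.K n).1 a).1 0) = _
    rw [((𝒯.K n).1 a).2, 𝒯.ι_base]
  · obtain ⟨n, a, rfl⟩ := 𝒯.exists_ι x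
    change F (𝒯.ι n a) 1 = 𝒯.ι n a
    rw [hF]
    change 𝒯.ι (n + 1) ((𝒯.K n).1 a).e = _
    rw [(𝒯.K n).2]
    exact 𝒯.ι_i n a

/-- continuity can be tested on the cells (induction on `n` with `Att.final`) -/
theorem Tower.continuous_of_cells {W : Type} [TopologicalSpace W] {f : 𝒯.Lim → W}
    (h : ∀ n (g : G) s, Continuous fun x => f (g • 𝒯.ι (n + 1) ((𝒯.T n).χ s x))) :
    Continuous f := by
  refine 𝒯.continuous_of fun n => ?_
  induction n with
  | zero =>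
    have := 𝒯.disc
    exact continuous_of_discreteTopology
  | succ n ih =>
    refine (𝒯.T n).final W (fun b => f (𝒯.ι (n + 1) b)) ?_ fun g s => h n g s
    simpa only [𝒯.ι_i] using ih

/-- every point of the `n`-skeleton is a vertex or an interior point of a cell of dimension `≤ n` -/
theorem Tower.exists_cell (n : ℕ) (a : 𝒯.Y n) : (∃ g : G, 𝒯.ι n a = g • 𝒯.ι 0 (𝒯.y 0)) ∨
    ∃ m < n, ∃ (g : G) (s : 𝒯.S m) (x : Cb (m + 1)), x ∉ Cube.boundary (Fin (m + 1)) ∧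
      𝒯.ι n a = g • 𝒯.ι (m + 1) ((𝒯.T m).χ s x) := by
  induction n with
  | zero =>
    obtain ⟨g, hg⟩ := 𝒯.free.2 a
    exact Or.inl ⟨g, by rw [𝒯.smul_ι]; exact congrArg _ hg.symm⟩
  | succ n ih =>
    have key : ∀ a' : 𝒯.Y n, (∃ g : G, 𝒯.ι (n + 1) ((𝒯.T n).i a') = g • 𝒯.ι 0 (𝒯.y 0)) ∨
        ∃ m < n + 1, ∃ (g : G) (s : 𝒯.S m) (x : Cb (m + 1)), x ∉ Cube.boundary (Fin (m + 1)) ∧
          𝒯.ι (n + 1) ((𝒯.T n).i a') = g • 𝒯.ι (m + 1) ((𝒯.T m).χ s x) := by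
      intro a'
      rw [𝒯.ι_i]
      rcases ih a' with h | ⟨m, hm, h⟩
      · exact Or.inl h
      · exact Or.inr ⟨m, Nat.lt_succ_of_lt hm, h⟩
    rcases (𝒯.T n).surj a with ⟨a', rfl⟩ | ⟨g, s, x, rfl⟩
    · exact key a'
    · by_cases hx : x ∈ Cube.boundary (Fin (n + 1))
      · have := (𝒯.T n).χ_bd s ⟨x, hx⟩
        dsimp only at this
        rw [this, ← (𝒯.T n).i_smul]
        exact key _
      · exact Or.inr ⟨n, Nat.lt_succ_self n, g, s, x, hx, rfl⟩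

theorem Tower.equivariant_of {Z : Type} [TopologicalSpace Z] {a : G →* Equiv.Perm Z}
    {F : C(𝒯.Lim, Z)}
    (h : ∀ n g y, (F.comp (𝒯.ι n)) (g • y) = a g ((F.comp (𝒯.ι n)) y)) (g : G) (y : 𝒯.Lim) :
    F (g • y) = a g (F y) := by
  obtain ⟨n, y, rfl⟩ := 𝒯.exists_ι y
  exact h n g y

/-- the equivariant map on the vertices with a prescribed value at the base vertex -/
theorem Tower.exists_zero {Z : Type} [TopologicalSpace Z] (a : G →* Equiv.Perm Z) (z : Z) :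
    ∃ f : C(𝒯.Y 0, Z), (∀ g y, f (g • y) = a g (f y)) ∧ f (𝒯.y 0) = z := by
  have := 𝒯.disc
  let e := Equiv.ofBijective _ 𝒯.free
  have he : ∀ g : G, e.symm (g • 𝒯.y 0) = g := fun g => e.symm_apply_apply g
  refine ⟨⟨fun y => a (e.symm y) z, continuous_of_discreteTopology⟩, fun g y => ?_, ?_⟩
  · obtain ⟨h, rfl⟩ := 𝒯.free.2 y
    change a (e.symm (g • h • 𝒯.y 0)) z = a g (a (e.symm (h • 𝒯.y 0)) z)
    rw [← mul_smul, he, he, map_mul]
    rfl
  · have h1 := he 1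
    rw [one_smul] at h1
    change a (e.symm (𝒯.y 0)) z = z
    rw [h1, map_one]
    rfl

variable {Z : Type} [TopologicalSpace Z] (a : G →* Equiv.Perm Z) (ha : ∀ g, Continuous (a g))
  (z₀ : Z) (c : C(Z × I, Z)) (c0 : ∀ z, c (z, 0) = z₀) (c1 : ∀ z, c (z, 1) = z)

include ha c0 c1 in
/-- an equivariant map with a prescribed value at the base vertex (recursion on `n` with
`Att.exists_ext`) -/
theorem Tower.exists_map_vertex (z : Z) :
    ∃ F : C(𝒯.Lim, Z), (∀ g y, F (g • y) = a g (F y)) ∧ F (𝒯.ι 0 (𝒯.y 0)) = z := by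
  obtain ⟨F, hF⟩ := 𝒯.exists_rec
    (fun n f => (∀ g y, f (g • y) = a g (f y)) ∧ f (𝒯.y n) = z) (𝒯.exists_zero a z)
    (fun n f hf => by
      obtain ⟨f', h1, h2⟩ := (𝒯.T n).exists_ext a ha z₀ c c0 c1 f hf.1
      exact ⟨f', ⟨h1, by rw [← (𝒯.T n).base, h2, hf.2]⟩, h2⟩)
  exact ⟨F, 𝒯.equivariant_of fun n => (hF n).1, (hF 0).2⟩

include ha c0 c1 in
/-- an equivariant map that is constant on the `n`-skeleton and prescribed on the `(n+1)`-cells
(recursion on `m` in the subtype of equivariant maps `Y m → Z` that are constant if `m ≤ n` and have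
the prescribed values if `m = n + 1`; `Att.exists_glue`, `Att.exists_ext`) -/
theorem Tower.exists_map_cell (hz : ∀ g, a g z₀ = z₀) (n : ℕ) (β : 𝒯.S n → C(Cb (n + 1), Z))
    (hβ : ∀ s (x : Bd (n + 1)), β s x = z₀) :
    ∃ F : C(𝒯.Lim, Z), (∀ g y, F (g • y) = a g (F y)) ∧ (∀ m ≤ n, ∀ y, F (𝒯.ι m y) = z₀) ∧
      ∀ s x, F (𝒯.ι (n + 1) ((𝒯.T n).χ s x)) = β s x := by
  obtain ⟨F, hF⟩ := 𝒯.exists_rec
    (fun m f => (∀ g y, f (g • y) = a g (f y)) ∧ (m ≤ n → ∀ y, f y = z₀) ∧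
      ∀ s x (y : 𝒯.Y m), (⟨m, y⟩ : Σ n, 𝒯.Y n) = ⟨n + 1, (𝒯.T n).χ s x⟩ → f y = β s x)
    ⟨ContinuousMap.const _ z₀, fun g _ => (hz g).symm, fun _ _ => rfl, fun s x y h =>
      absurd (congrArg Sigma.fst h) (Nat.succ_ne_zero n).symm⟩
    (fun m f hf => by
      rcases lt_trichotomy m n with hm | rfl | hm
      · obtain ⟨f', h1, h2, h3⟩ := (𝒯.T m).exists_glue a ha f hf.1
          (fun _ => ContinuousMap.const _ z₀) fun s x => (hf.2.1 hm.le _).symm
        refine ⟨f', ⟨h1, fun _ y => ?_, fun s x y h => ?_⟩, h2⟩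
        · rcases (𝒯.T m).surj y with ⟨y', rfl⟩ | ⟨g, s, x, rfl⟩
          · rw [h2, hf.2.1 hm.le]
          · rw [h1, h3]
            exact hz g
        · have : m + 1 = n + 1 := congrArg Sigma.fst h
          omega
      · obtain ⟨f', h1, h2, h3⟩ := (𝒯.T m).exists_glue a ha f hf.1 β
          fun s x => (hβ s x).trans (hf.2.1 le_rfl _).symm
        refine ⟨f', ⟨h1, fun h => absurd h (Nat.not_succ_le_self m), fun s x y h => ?_⟩, h2⟩
        rw [eq_of_heq (Sigma.mk.inj_iff.1 h).2, h3]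
      · obtain ⟨f', h1, h2⟩ := (𝒯.T m).exists_ext a ha z₀ c c0 c1 f hf.1
        refine ⟨f', ⟨h1, fun h => by omega, fun s x y h => ?_⟩, h2⟩
        have : m + 1 = n + 1 := congrArg Sigma.fst h
        omega)
  exact ⟨F, 𝒯.equivariant_of fun m => (hF m).1, fun m hm y => (hF m).2.1 hm y,
    fun s x => (hF (n + 1)).2.2 s x _ rfl⟩

/-- real functions on `G` with at most one non-zero value -/
def Spike (G : Type) : Type := {f : G → ℝ // ∀ g h, f g ≠ 0 → f h ≠ 0 → g = h}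

instance : TopologicalSpace (Spike G) :=
  inferInstanceAs (TopologicalSpace {f : G → ℝ // ∀ g h, f g ≠ 0 → f h ≠ 0 → g = h})

instance : MulAction G (Spike G) where
  smul g f := ⟨fun h => f.1 (g⁻¹ * h), fun _ _ h h' => mul_left_cancel (f.2 _ _ h h')⟩
  one_smul f := Subtype.ext (funext fun h => congrArg f.1 (by simp))
  mul_smul g g' f := Subtype.ext (funext fun h => congrArg f.1 (by simp [mul_assoc]))

theorem Spike.smul_val (g : G) (f : Spike G) (h : G) : (g • f).1 h = f.1 (g⁻¹ * h) := rfl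

omit [Group G] in
theorem Spike.continuous_ev (h : G) : Continuous fun f : Spike G => f.1 h :=
  (continuous_apply h).comp continuous_subtype_val

omit [Group G] in
theorem Spike.continuous_of {K : Type} [TopologicalSpace K] {f : K → Spike G}
    (h : ∀ g, Continuous fun k => (f k).1 g) : Continuous f :=
  continuous_induced_rng.2 (continuous_pi h)

/-- scaling -/
def Spike.scale (r : ℝ) (f : Spike G) : Spike G :=
  ⟨fun h => r * f.1 h, fun g h hg hh => f.2 g h (right_ne_zero_of_mul hg) (right_ne_zero_of_mul hh)⟩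

open Classical in
/-- the spike at the unit -/
noncomputable def Spike.one : Spike G :=
  ⟨fun h => if h = 1 then 1 else 0, fun g h hg hh => by
    have h1 : g = 1 := by by_contra h'; exact hg (if_neg h')
    have h2 : h = 1 := by by_contra h'; exact hh (if_neg h')
    rw [h1, h2]⟩

theorem Spike.one_val : (Spike.one : Spike G).1 1 = 1 := if_pos rfl

/-- the zero function -/
def Spike.zero : Spike G := ⟨fun _ => 0, fun _ _ h => absurd rfl h⟩

/-- the contraction -/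
def Spike.ctr : C(Spike G × I, Spike G) :=
  ⟨fun p => Spike.scale p.2 p.1, Spike.continuous_of fun g =>
    (continuous_subtype_val.comp continuous_snd).mul ((Spike.continuous_ev g).comp continuous_fst)⟩

theorem Tower.nhds_of_spike {y : 𝒯.Lim} (F : C(𝒯.Lim, Spike G))
    (hF : ∀ (g : G) y, F (g • y) = g • F y) {g₀ : G} (h : (F y).1 g₀ ≠ 0) :
    ∃ U ∈ nhds y, ∀ g : G, ((g • ·) '' U ∩ U).Nonempty → g = 1 := by
  refine ⟨{p | (F p).1 g₀ ≠ 0},
    (isOpen_ne_fun ((Spike.continuous_ev g₀).comp F.continuous) continuous_const).mem_nhds h, ?_⟩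
  rintro g ⟨_, ⟨p, hp, rfl⟩, hp'⟩
  have h1 : (F (g • p)).1 g₀ ≠ 0 := hp'
  rw [hF, Spike.smul_val] at h1
  have h2 := (F p).2 _ _ h1 hp
  exact inv_eq_one.1 (mul_eq_right.1 h2)

/-- The action is properly discontinuous.  `Z = {f : G → ℝ // ∀ g h, f g ≠ 0 → f h ≠ 0 → g = h}`,
`a g f = f (g⁻¹ * ·)`, contraction by scaling.  For a point `g₀ • χ s x₀` take
`β s x = bump x • δ₁` with `bump x = ∏ i, x i * (1 - x i)`, for a vertex take `z = δ₁`;
`U = {p | (F p).1 g₀ ≠ 0}`. -/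
theorem Tower.exists_nhds (y : 𝒯.Lim) :
    ∃ U ∈ nhds y, ∀ g : G, ((g • ·) '' U ∩ U).Nonempty → g = 1 := by
  have ha : ∀ g : G, Continuous (MulAction.toPermHom G (Spike G) g) := fun g =>
    Spike.continuous_of fun h => Spike.continuous_ev (g⁻¹ * h)
  have c0 : ∀ z : Spike G, Spike.ctr (z, 0) = Spike.zero := fun z =>
    Subtype.ext (funext fun h => zero_mul _)
  have c1 : ∀ z : Spike G, Spike.ctr (z, 1) = z := fun z =>
    Subtype.ext (funext fun h => one_mul _)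
  obtain ⟨n, y, rfl⟩ := 𝒯.exists_ι y
  rcases 𝒯.exists_cell n y with ⟨g₀, hy⟩ | ⟨m, -, g₀, s, x, hx, hy⟩
  · obtain ⟨F, h1, h2⟩ := 𝒯.exists_map_vertex _ ha Spike.zero Spike.ctr c0 c1 Spike.one
    refine 𝒯.nhds_of_spike F h1 (g₀ := g₀) ?_
    rw [hy, h1, h2]
    change (Spike.one : Spike G).1 (g₀⁻¹ * g₀) ≠ 0
    rw [inv_mul_cancel, Spike.one_val]
    exact one_ne_zero
  · obtain ⟨F, h1, -, h2⟩ := 𝒯.exists_map_cell _ ha Spike.zero Spike.ctr c0 c1 (fun _ => rfl) m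
      (fun _ => ⟨fun x => Spike.scale (∏ i, (x i : ℝ) * (1 - x i)) Spike.one,
        Spike.continuous_of fun g => Continuous.mul (by fun_prop) continuous_const⟩)
      (fun s x => Subtype.ext (funext fun h => by
        obtain ⟨i, hi⟩ := x.2
        have : ∏ i, (x.1 i : ℝ) * (1 - x.1 i) = 0 :=
          Finset.prod_eq_zero (Finset.mem_univ i) (by rcases hi with hi | hi <;> simp [hi])
        change (∏ i, (x.1 i : ℝ) * (1 - x.1 i)) * _ = 0
        rw [this, zero_mul]))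
    refine 𝒯.nhds_of_spike F h1 (g₀ := g₀) ?_
    rw [hy, h1, h2]
    change (∏ i, (x i : ℝ) * (1 - x i)) * (Spike.one : Spike G).1 (g₀⁻¹ * g₀) ≠ 0
    rw [inv_mul_cancel, Spike.one_val, mul_one]
    refine Finset.prod_ne_zero_iff.2 fun i _ => mul_ne_zero (fun h => hx ⟨i, Or.inl ?_⟩)
      fun h => hx ⟨i, Or.inr ?_⟩
    · exact Subtype.ext h
    · exact Subtype.ext (sub_eq_zero.1 h).symm

end Crest.Agent.R185
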