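import Crest.Agent.R185.BRBase
import Crest.Agent.R185.BRCW

/-! # Row 185, bridge: finitely presented and `FP_∞` implies `F_∞` -/

set_option autoImplicit false

namespace Crest.Agent.R185

variable {G : Type} [Group G]

/-- one stage of the construction -/
structure Stg (G : Type) [Group G] (m : ℕ) where
  A : Type
  B : Type
  [tA : TopologicalSpace A]
  [tB : TopologicalSpace B]
  [aA : MulAction G A]
  [aB : MulAction G B]
  [cA : ContinuousConstSMul G A]
  [cB : ContinuousConstSMul G B]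
  a₀ : A
  b₀ : B
  S : Type
  fin : Finite S
  T : Att G m a₀ b₀ S
  K : T.Ctr
  Z : Submodule ℤ (Cell G S →₀ ℤ)
  inv : Inv T K Z

attribute [instance] Stg.tA Stg.tB Stg.aA Stg.aB Stg.cA Stg.cB

/-- the data of the next stage -/
structure Nxt {m : ℕ} (s : Stg G m) where
  C : Type
  [tC : TopologicalSpace C]
  [aC : MulAction G C]
  [cC : ContinuousConstSMul G C]
  c₀ : C
  S : Type
  fin : Finite S
  T : Att G (m + 1) s.b₀ c₀ S
  K : T.Ctr
  Z : Submodule ℤ (Cell G S →₀ ℤ)
  inv : Inv T K Z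
  compat : ∀ a, K.1 (s.T.i a) = PS.map T.i T.base (s.K.1 a)

attribute [instance] Nxt.tC Nxt.aC Nxt.cC

theorem Stg.nonempty_nxt {m : ℕ} (s : Stg G m) : Nonempty (Nxt s) := by
  obtain ⟨S', hS', φ, h⟩ := s.inv.step
  obtain ⟨C, _, _, _, c₀, T', hT'⟩ := exists_att (G := G) φ
  obtain ⟨K', Z', h1, h2⟩ := h C c₀ T' hT'
  exact ⟨{ C := C, c₀ := c₀, S := S', fin := hS', T := T', K := K', Z := Z', inv := h1,
           compat := h2 }⟩

/-- the next stage -/
noncomputable def Stg.next {m : ℕ} (s : Stg G m) : Stg G (m + 1) :=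
  let N := s.nonempty_nxt.some
  { A := s.B, B := N.C, a₀ := s.b₀, b₀ := N.c₀, S := N.S, fin := N.fin, T := N.T, K := N.K,
    Z := N.Z, inv := N.inv }

/-- all stages -/
noncomputable def Stg.seq (s : Stg G 0) : (m : ℕ) → Stg G m
  | 0 => s
  | m + 1 => (Stg.seq s m).next

theorem bridge [Group.IsFinitelyPresented G] (h : IsFPinf G) :
    Crest.Topology.HasFiniteTypeClassifyingComplex G := by
  obtain ⟨S, hS, φ, hb⟩ := exists_base h
  obtain ⟨B, _, _, _, b₀, T, hT⟩ := exists_att (G := G) φ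
  obtain ⟨K, Z, hI⟩ := hb B b₀ T hT
  let s : Stg G 0 := { A := Cell G Unit, B := B, a₀ := ⟨1, ()⟩, b₀ := b₀, S := S, fin := hS,
                       T := T, K := K, Z := Z, inv := hI }
  let 𝒯 : Tower G :=
    { Y := fun n => (s.seq n).A
      y := fun n => (s.seq n).a₀
      S := fun n => (s.seq n).S
      fin := fun n => (s.seq n).fin
      T := fun n => (s.seq n).T
      disc := inferInstanceAs (DiscreteTopology (Cell G Unit))
      free := ⟨fun g g' e => by simpa using congrArg Cell.g (show (⟨g * 1, ()⟩ : Cell G Unit) = ⟨g' * 1, ()⟩ from e),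
        fun c => ⟨Cell.g c, Cell.ext (mul_one _) rfl⟩⟩
      K := fun n => (s.seq n).K
      compat := fun n => (s.seq n).nonempty_nxt.some.compat }
  exact 𝒯.classifying

end Crest.Agent.R185
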