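import Crest.Agent.R185.BRAdd

/-!
# Row 185, bridge: homotopies through the new cells, with control of the obstruction
-/

set_option autoImplicit false

open unitInterval Topology Set

namespace Crest.Agent.R185

section Aux

variable {n : ℕ}

theorem nl_lo_of_zero {i : Fin n} {x : Cb n} (h : x i = 0) : lo i x i = 0 := by
  rw [lo, Function.update_self, h, Icc.coe_zero, mul_zero, Set.projIcc_left]; rfl

theorem nl_hi_of_one {i : Fin n} {x : Cb n} (h : x i = 1) : hi i x i = 1 := by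
  rw [hi, Function.update_self, h, Icc.coe_one, Set.projIcc_of_right_le _ (by norm_num)]; rfl

theorem nl_lo_mem (i : Fin n) {x : Cb n} (hx : x ∈ Cube.boundary (Fin n))
    (h : (x i : ℝ) ≤ 1 / 2) : lo i x ∈ Cube.boundary (Fin n) := by
  obtain ⟨j, hj⟩ := hx
  by_cases hji : j = i
  · subst hji
    rcases hj with hj | hj
    · exact ⟨j, Or.inl (nl_lo_of_zero hj)⟩
    · rw [hj] at h; norm_num at h
  · exact ⟨j, by rwa [lo, Function.update_of_ne hji]⟩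

theorem nl_hi_mem (i : Fin n) {x : Cb n} (hx : x ∈ Cube.boundary (Fin n))
    (h : 1 / 2 ≤ (x i : ℝ)) : hi i x ∈ Cube.boundary (Fin n) := by
  obtain ⟨j, hj⟩ := hx
  by_cases hji : j = i
  · subst hji
    rcases hj with hj | hj
    · rw [hj] at h; norm_num at h
    · exact ⟨j, Or.inr (nl_hi_of_one hj)⟩
  · exact ⟨j, by rwa [hi, Function.update_of_ne hji]⟩

theorem nl_rf_mem (i : Fin n) {x : Cb n} (hx : x ∈ Cube.boundary (Fin n)) :
    rf i x ∈ Cube.boundary (Fin n) := by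
  obtain ⟨j, hj⟩ := hx
  refine ⟨j, ?_⟩
  by_cases hji : j = i
  · subst hji
    rcases hj with hj | hj <;> simp [rf, hj]
  · simpa [rf, hji] using hj

theorem nl_tail_lo (x : Cb (n + 1)) : Fin.tail (lo 0 x) = Fin.tail x := Fin.tail_update_zero _ _

theorem nl_tail_hi (x : Cb (n + 1)) : Fin.tail (hi 0 x) = Fin.tail x := Fin.tail_update_zero _ _

theorem nl_tail_rf (x : Cb (n + 1)) : Fin.tail (rf 0 x) = Fin.tail x := by
  funext j; simp [rf, Fin.tail]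

theorem nl_tail_lo_succ (i : Fin n) (x : Cb (n + 1)) :
    Fin.tail (lo i.succ x) = lo i (Fin.tail x) := Fin.tail_update_succ _ _ _

theorem nl_tail_hi_succ (i : Fin n) (x : Cb (n + 1)) :
    Fin.tail (hi i.succ x) = hi i (Fin.tail x) := Fin.tail_update_succ _ _ _

theorem nl_lo_succ_zero (i : Fin n) (x : Cb (n + 1)) : lo i.succ x 0 = x 0 :=
  Function.update_of_ne (Fin.succ_ne_zero i).symm _ _

theorem nl_hi_succ_zero (i : Fin n) (x : Cb (n + 1)) : hi i.succ x 0 = x 0 :=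
  Function.update_of_ne (Fin.succ_ne_zero i).symm _ _

variable {W A : Type} [TopologicalSpace W] [TopologicalSpace A]

theorem nl_transAt {w₀ : W} (i : Fin n) (f g : Lp n W w₀) (x : Cb n) :
    GenLoop.transAt i f g x = if (x i : ℝ) ≤ 1 / 2 then f (lo i x) else g (hi i x) := rfl

/-- gluing along the bottom face and the union of the other faces -/
theorem nl_glue {K : Type} [TopologicalSpace K] (f g : C(Bd (n + 1) × K, W))
    (h : ∀ (x : Bd (n + 1)) t, x.1 0 = 0 → Fin.tail x.1 ∈ Cube.boundary (Fin n) →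
      f (x, t) = g (x, t)) :
    ∃ β : C(Bd (n + 1) × K, W), (∀ (x : Bd (n + 1)) t, x.1 0 = 0 → β (x, t) = f (x, t)) ∧
      ∀ (x : Bd (n + 1)) t, x.1 0 = 1 ∨ Fin.tail x.1 ∈ Cube.boundary (Fin n) → β (x, t) = g (x, t) := by
  classical
  have hr : ∀ p : Bd (n + 1) × K, p.1.1 0 = 1 ∨ Fin.tail p.1.1 ∈ Cube.boundary (Fin n) →
      (if p.1.1 0 = 0 then f p else g p) = g p := by
    intro p hp
    split_ifs with h0
    · rcases hp with hp | hp
      · exact absurd (h0.symm.trans hp) zero_ne_one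
      · exact h p.1 p.2 h0 hp
    · rfl
  refine ⟨⟨fun p => if p.1.1 0 = 0 then f p else g p, ?_⟩, fun x t hx => if_pos hx,
    fun x t hx => hr (x, t) hx⟩
  have h0 : Continuous fun p : Bd (n + 1) × K => p.1.1 0 :=
    (continuous_apply 0).comp (continuous_subtype_val.comp continuous_fst)
  have ht : Continuous fun p : Bd (n + 1) × K => Fin.tail p.1.1 :=
    continuous_tail.comp (continuous_subtype_val.comp continuous_fst)
  have hs : IsClosed {p : Bd (n + 1) × K | p.1.1 0 = 0} := isClosed_eq h0 continuous_const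
  have hu : IsClosed {p : Bd (n + 1) × K |
      p.1.1 0 = 1 ∨ Fin.tail p.1.1 ∈ Cube.boundary (Fin n)} :=
    (isClosed_eq h0 continuous_const).union ((isClosed_bd n).preimage ht)
  rw [← continuousOn_univ, show (univ : Set (Bd (n + 1) × K)) = _ ∪ _ from
    (eq_univ_of_forall fun p => mem_bd_succ.1 p.1.2).symm]
  refine ContinuousOn.union_of_isClosed ?_ ?_ hs hu
  · exact f.continuous.continuousOn.congr fun p hp => if_pos hp
  · exact g.continuous.continuousOn.congr fun p hp => hr p hp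

/-- a map of pairs that factors through `A` -/
def nlOfMap (E : C(A, W)) (b : C(Cb n, A)) : PM n E :=
  ⟨E.comp b, b.comp ⟨Subtype.val, continuous_subtype_val⟩, fun _ => rfl⟩

theorem nlOfMap_cap {E : C(A, W)} (b : C(Cb (n + 1), A)) {w₀ : W} (L : Lift E w₀) :
    ((nlOfMap E b).dat L).cap = 1 :=
  (nlOfMap E b).cap_thin b (fun _ => rfl) (fun _ => rfl) L

end Aux

variable {G : Type} [Group G] {m : ℕ} {B C : Type} [TopologicalSpace B] [TopologicalSpace C]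
  [MulAction G B] [MulAction G C] [ContinuousConstSMul G B] [ContinuousConstSMul G C]
  {b₀ : B} {c₀ : C} {S : Type}

/-- a homotopy in `C` from the loop `ψ₀` (bottom) to the loop `ψ₁` (top) of `B` whose class with
respect to every contraction is the obstruction of the chain `a` -/
def Att.Hty (T : Att G (m + 1) b₀ c₀ S) (ψ₀ ψ₁ : Lp (m + 1) B b₀) (a : Cell G S →₀ ℤ) : Prop :=
  ∃ P : PM (m + 2) ((ContinuousMap.id C).comp T.i),
    (∀ x : Bd (m + 2), x.1 0 = 0 → P.β x = ψ₀ (Fin.tail x.1)) ∧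
    (∀ x : Bd (m + 2), x.1 0 = 1 → P.β x = ψ₁ (Fin.tail x.1)) ∧
    (∀ x : Bd (m + 2), Fin.tail x.1 ∈ Cube.boundary (Fin (m + 1)) → P.β x = b₀) ∧
    ∀ K : T.Ctr, Additive.ofMul (P.dat K).cap = lin (T.ob (ContinuousMap.id C) K) a

variable {T : Att G (m + 1) b₀ c₀ S}

/-- `PM.cap_thin` -/
theorem Att.Hty.thin {ψ₀ ψ₁ : Lp (m + 1) B b₀} (h : (⟦ψ₀⟧ : Pn (m + 1) B b₀) = ⟦ψ₁⟧) :
    T.Hty ψ₀ ψ₁ 0 := by
  obtain ⟨H⟩ : GenLoop.Homotopic ψ₀ ψ₁ := Quotient.exact h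
  let b : C(Cb (m + 2), B) := ⟨fun x => H (x 0, Fin.tail x),
    H.continuous.comp ((continuous_apply 0).prodMk continuous_tail)⟩
  refine ⟨nlOfMap _ b, fun x hx => ?_, fun x hx => ?_, fun x hx => ?_, fun K => ?_⟩
  · change H (x.1 0, Fin.tail x.1) = _
    rw [hx]; exact H.apply_zero _
  · change H (x.1 0, Fin.tail x.1) = _
    rw [hx]; exact H.apply_one _
  · change H (x.1 0, Fin.tail x.1) = _
    rw [H.eq_fst _ hx]; exact ψ₀.2 _ hx
  · rw [nlOfMap_cap, map_zero]; rfl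

/-- `PM.exists_trans` in direction `0` -/
theorem Att.Hty.trans {ψ₀ ψ₁ ψ₂ : Lp (m + 1) B b₀} {a a' : Cell G S →₀ ℤ} (h : T.Hty ψ₀ ψ₁ a)
    (h' : T.Hty ψ₁ ψ₂ a') : T.Hty ψ₀ ψ₂ (a + a') := by
  obtain ⟨P₁, a0, a1, a2, a3⟩ := h
  obtain ⟨P₂, b0, b1, b2, b3⟩ := h'
  obtain ⟨P, h1, h2, h3⟩ := PM.exists_trans 0 P₁ P₂ fun y y' hy hy' => by
    rw [a1 y hy, b0 y' (by rw [hy', Function.update_self]), hy', Fin.tail_update_zero]
  refine ⟨P, fun x hx => ?_, fun x hx => ?_, fun x hx => ?_, fun K => ?_⟩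
  · have hle : (x.1 0 : ℝ) ≤ 1 / 2 := by rw [hx]; norm_num
    rw [h1 x ⟨_, nl_lo_mem 0 x.2 hle⟩ hle rfl, a0 _ (nl_lo_of_zero hx), nl_tail_lo]
  · have hle : 1 / 2 ≤ (x.1 0 : ℝ) := by rw [hx]; norm_num
    rw [h2 x ⟨_, nl_hi_mem 0 x.2 hle⟩ hle rfl, b1 _ (nl_hi_of_one hx), nl_tail_hi]
  · rcases le_total (x.1 0 : ℝ) (1 / 2) with hle | hle
    · rw [h1 x ⟨_, nl_lo_mem 0 x.2 hle⟩ hle rfl, a2 _ (by rw [nl_tail_lo]; exact hx)]
    · rw [h2 x ⟨_, nl_hi_mem 0 x.2 hle⟩ hle rfl, b2 _ (by rw [nl_tail_hi]; exact hx)]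
  · rw [h3, add_comm a a', map_add, ← a3, ← b3]; rfl

/-- `PM.exists_symm` in direction `0` -/
theorem Att.Hty.symm {ψ₀ ψ₁ : Lp (m + 1) B b₀} {a : Cell G S →₀ ℤ} (h : T.Hty ψ₀ ψ₁ a) :
    T.Hty ψ₁ ψ₀ (-a) := by
  obtain ⟨P₁, a0, a1, a2, a3⟩ := h
  obtain ⟨P, h1, h3⟩ := PM.exists_symm 0 P₁
  refine ⟨P, fun x hx => ?_, fun x hx => ?_, fun x hx => ?_, fun K => ?_⟩
  · rw [h1 x ⟨_, nl_rf_mem 0 x.2⟩ rfl, a1 _ (by simp [rf, hx]), nl_tail_rf]
  · rw [h1 x ⟨_, nl_rf_mem 0 x.2⟩ rfl, a0 _ (by simp [rf, hx]), nl_tail_rf]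
  · rw [h1 x ⟨_, nl_rf_mem 0 x.2⟩ rfl, a2 _ (by rw [nl_tail_rf]; exact hx)]
  · rw [h3, map_neg, ← a3]; rfl

/-- `PM.exists_trans` in direction `Fin.succ 0` -/
theorem Att.Hty.mul {ψ₀ ψ₁ ψ₀' ψ₁' : Lp (m + 1) B b₀} {a a' : Cell G S →₀ ℤ} (h : T.Hty ψ₀ ψ₁ a)
    (h' : T.Hty ψ₀' ψ₁' a') :
    T.Hty (GenLoop.transAt 0 ψ₀ ψ₀') (GenLoop.transAt 0 ψ₁ ψ₁') (a + a') := by
  obtain ⟨P₁, a0, a1, a2, a3⟩ := h
  obtain ⟨P₂, b0, b1, b2, b3⟩ := h'
  obtain ⟨P, h1, h2, h3⟩ := PM.exists_trans (Fin.succ 0) P₁ P₂ fun y y' hy hy' => by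
    rw [a2 y ⟨0, Or.inr hy⟩, b2 y' ⟨0, Or.inl (by
      change y'.1 (Fin.succ 0) = 0
      rw [hy', Function.update_self])⟩]
  refine ⟨P, fun x hx => ?_, fun x hx => ?_, fun x hx => ?_, fun K => ?_⟩
  · rw [nl_transAt]
    split_ifs with hle
    · have hle' : (x.1 (Fin.succ 0) : ℝ) ≤ 1 / 2 := hle
      rw [h1 x ⟨_, nl_lo_mem _ x.2 hle'⟩ hle' rfl,
        a0 ⟨_, nl_lo_mem _ x.2 hle'⟩ ((nl_lo_succ_zero 0 x.1).trans hx), nl_tail_lo_succ]
    · have hle' : 1 / 2 ≤ (x.1 (Fin.succ 0) : ℝ) := (not_le.1 hle).le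
      rw [h2 x ⟨_, nl_hi_mem _ x.2 hle'⟩ hle' rfl,
        b0 ⟨_, nl_hi_mem _ x.2 hle'⟩ ((nl_hi_succ_zero 0 x.1).trans hx), nl_tail_hi_succ]
  · rw [nl_transAt]
    split_ifs with hle
    · have hle' : (x.1 (Fin.succ 0) : ℝ) ≤ 1 / 2 := hle
      rw [h1 x ⟨_, nl_lo_mem _ x.2 hle'⟩ hle' rfl,
        a1 ⟨_, nl_lo_mem _ x.2 hle'⟩ ((nl_lo_succ_zero 0 x.1).trans hx), nl_tail_lo_succ]
    · have hle' : 1 / 2 ≤ (x.1 (Fin.succ 0) : ℝ) := (not_le.1 hle).le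
      rw [h2 x ⟨_, nl_hi_mem _ x.2 hle'⟩ hle' rfl,
        b1 ⟨_, nl_hi_mem _ x.2 hle'⟩ ((nl_hi_succ_zero 0 x.1).trans hx), nl_tail_hi_succ]
  · rcases le_total (x.1 (Fin.succ 0) : ℝ) (1 / 2) with hle | hle
    · rw [h1 x ⟨_, nl_lo_mem _ x.2 hle⟩ hle rfl,
        a2 _ (by rw [nl_tail_lo_succ]; exact nl_lo_mem 0 hx hle)]
    · rw [h2 x ⟨_, nl_hi_mem _ x.2 hle⟩ hle rfl,
        b2 _ (by rw [nl_tail_hi_succ]; exact nl_hi_mem 0 hx hle)]
  · rw [h3, add_comm a a', map_add, ← a3, ← b3]; rfl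

/-- The cell itself.  Let `H` cap the datum `⟨g φ, const (ofPath k)⟩` with `ψ'`
(`cap_eq_rho`, `piMap_mk`: `⟦ψ'⟧ = trRho k ⟦φ⟧`).  Slide the boundary of `T.cell id c`
(`PM.exists_slide`) along `β (x, τ) = H (tail x, τ)` on the bottom face and `k τ` on the other
faces; then `thin` and `trans`. -/
theorem Att.Hty.cell (c : Cell G S) (k : Path b₀ (c.g • b₀)) (ψ : Lp (m + 1) B b₀)
    (h : (⟦ψ⟧ : Pn (m + 1) B b₀) = trRho k ⟦T.φ c.s⟧) :
    T.Hty ψ GenLoop.const (Finsupp.single c 1) := by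
  let D : Dat (m + 1) b₀ := ⟨(tr c.g).comp (T.φ c.s).1, ContinuousMap.const _ (PS.ofPath k),
    fun x => (PS.ofPath_e k).trans (congrArg (c.g • ·) ((T.φ c.s).2 x x.2).symm)⟩
  obtain ⟨ψ', ⟨H, H0, H1, Hb⟩, hcap⟩ := D.exists_caps_cap
  have h1 : D.cap = trRho k ⟦T.φ c.s⟧ := by
    rw [cap_eq_rho k (Lp.map (tr c.g) rfl (T.φ c.s)) D (fun _ => rfl) (fun _ => rfl), trRho,
      MonoidHom.comp_apply, piMap_mk]
  obtain ⟨β, β0, β1⟩ := nl_glue (n := m + 1) (K := I)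
    (H.comp ⟨fun p => (Fin.tail p.1.1, p.2),
      (continuous_tail.comp (continuous_subtype_val.comp continuous_fst)).prodMk continuous_snd⟩)
    (k.toContinuousMap.comp ContinuousMap.snd) fun x τ _ hx => Hb ⟨_, hx⟩ τ
  obtain ⟨P, hP, hc⟩ := (T.cell (ContinuousMap.id C) c).exists_slide β fun x => by
    change _ = c.g • att (T.φ c.s) x
    rcases mem_bd_succ.1 x.2 with hx | hx
    · rw [β0 x 1 hx, att_bot _ x hx]
      exact H1 _
    · rw [β1 x 1 hx, att_rest _ x hx]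
      exact k.target
  have h2 : T.Hty ψ' GenLoop.const (Finsupp.single c 1) := by
    refine ⟨P, fun x hx => ?_, fun x hx => ?_, fun x hx => ?_, fun K => ?_⟩
    · rw [hP, β0 x 0 hx]
      exact H0 _
    · rw [hP, β1 x 0 (Or.inl hx)]
      exact k.source
    · rw [hP, β1 x 0 (Or.inr hx)]
      exact k.source
    · rw [hc, lin_single, one_smul]; rfl
  simpa using (Att.Hty.thin (T := T) (h.trans (h1.symm.trans hcap))).trans h2

/-- `Hty` on classes -/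
def Att.NlR (T : Att G (m + 1) b₀ c₀ S) (x y : Pn (m + 1) B b₀) (a : Cell G S →₀ ℤ) : Prop :=
  ∀ ψ₀ ψ₁ : Lp (m + 1) B b₀, (⟦ψ₀⟧ : Pn (m + 1) B b₀) = x → (⟦ψ₁⟧ : Pn (m + 1) B b₀) = y →
    T.Hty ψ₀ ψ₁ a

theorem Att.NlR.of_hty {ψ₀ ψ₁ : Lp (m + 1) B b₀} {a : Cell G S →₀ ℤ} (h : T.Hty ψ₀ ψ₁ a) :
    T.NlR ⟦ψ₀⟧ ⟦ψ₁⟧ a := fun _ _ h0 h1 => by
  simpa using ((Att.Hty.thin h0).trans h).trans (Att.Hty.thin h1.symm)

theorem Att.NlR.refl (x : Pn (m + 1) B b₀) : T.NlR x x 0 := fun _ _ h0 h1 =>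
  Att.Hty.thin (h0.trans h1.symm)

theorem Att.NlR.symm {x y : Pn (m + 1) B b₀} {a : Cell G S →₀ ℤ} (h : T.NlR x y a) :
    T.NlR y x (-a) := fun _ _ h0 h1 => (h _ _ h1 h0).symm

theorem Att.NlR.mul {x y x' y' : Pn (m + 1) B b₀} {a a' : Cell G S →₀ ℤ} (h : T.NlR x y a)
    (h' : T.NlR x' y' a') : T.NlR (x * x') (y * y') (a + a') := by
  obtain ⟨p, rfl⟩ := Quotient.exists_rep x
  obtain ⟨q, rfl⟩ := Quotient.exists_rep y
  obtain ⟨p', rfl⟩ := Quotient.exists_rep x'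
  obtain ⟨q', rfl⟩ := Quotient.exists_rep y'
  have h1 := Att.NlR.of_hty ((h' p' q' rfl rfl).mul (h p q rfl rfl))
  rw [← HomotopyGroup.mul_spec, ← HomotopyGroup.mul_spec, add_comm a' a] at h1
  exact h1

/-- Fillings of the elements of the normal closure.  The set of `w` satisfying the conclusion is a
normal subgroup: on classes the relation `R x y a := ∀ representatives, Hty` contains the diagonal,
is closed under products and under `(x, y, a) ↦ (y, x, -a)`, so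
`(x⁻¹, 1, -a) = (x⁻¹, x⁻¹, 0) (1, x, -a)` and conjugation by `(v, v, 0)` are available. -/
theorem Att.exists_fill {X : Type} (τ : FreeGroup X →* Pn (m + 1) B b₀)
    (k : ∀ g : G, Path b₀ (g • b₀)) (r : Cell G S → FreeGroup X)
    (hr : ∀ c : Cell G S, τ (r c) = trRho (k c.g) ⟦T.φ c.s⟧)
    (d : (Cell G S →₀ ℤ) →ₗ[ℤ] (X →₀ ℤ))
    (hd : ∀ c, d (Finsupp.single c 1) = Multiplicative.toAdd (abw X (r c)))
    (w : FreeGroup X) (hw : w ∈ Subgroup.normalClosure (range r)) :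
    ∃ a : Cell G S →₀ ℤ, d a = Multiplicative.toAdd (abw X w) ∧
      ∀ ψ : Lp (m + 1) B b₀, (⟦ψ⟧ : Pn (m + 1) B b₀) = τ w → T.Hty ψ GenLoop.const a := by
  let N : Subgroup (FreeGroup X) :=
    { carrier := {w | ∃ a, d a = Multiplicative.toAdd (abw X w) ∧ T.NlR (τ w) 1 a}
      one_mem' := ⟨0, by simp, by rw [map_one]; exact Att.NlR.refl 1⟩
      mul_mem' := by
        rintro w w' ⟨a, h1, h2⟩ ⟨a', h1', h2'⟩
        refine ⟨a + a', by rw [map_add, map_mul, toAdd_mul, h1, h1'], ?_⟩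
        simpa using h2.mul h2'
      inv_mem' := by
        rintro w ⟨a, h1, h2⟩
        refine ⟨-a, by rw [map_neg, map_inv, toAdd_inv, h1], ?_⟩
        simpa using (Att.NlR.refl (T := T) (τ w)⁻¹).mul h2.symm }
  have hN : N.Normal := ⟨by
    rintro w ⟨a, h1, h2⟩ g
    refine ⟨a, by rw [h1, (abw X).map_mul, (abw X).map_mul, map_inv, mul_inv_cancel_comm], ?_⟩
    simpa using ((Att.NlR.refl (T := T) (τ g)).mul h2).mul (Att.NlR.refl (τ g)⁻¹)⟩
  have hle : Subgroup.normalClosure (range r) ≤ N := by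
    refine Subgroup.normalClosure_le_normal ?_
    rintro _ ⟨c, rfl⟩
    refine ⟨Finsupp.single c 1, hd c, ?_⟩
    obtain ⟨ψ, hψ⟩ := Quotient.exists_rep (τ (r c))
    have := Att.NlR.of_hty (Att.Hty.cell c (k c.g) ψ (hψ.trans (hr c)))
    rw [← hψ]
    exact this
  obtain ⟨a, h1, h2⟩ := hle hw
  exact ⟨a, h1, fun ψ hψ => h2 ψ _ hψ rfl⟩

/-- `P` is the map of pairs swept out by the paths `Λ` over the datum `D` -/
def IsCyl (j : C(B, C)) (D : Dat (m + 1) b₀) (Λ : C(Cb (m + 1), PS c₀))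
    (P : PM (m + 2) ((ContinuousMap.id C).comp j)) : Prop :=
  (∀ x, P.f x = (Λ (Fin.tail x)).1 (x 0)) ∧
    (∀ x : Bd (m + 2), x.1 0 = 0 → P.β x = b₀) ∧
    (∀ x : Bd (m + 2), x.1 0 = 1 → P.β x = D.f (Fin.tail x.1)) ∧
    ∀ (x : Bd (m + 2)) (y : Bd (m + 1)), y.1 = Fin.tail x.1 → P.β x = (D.l y).1 (x.1 0)

/-- Extension of the paths over a cube.  `H` caps `D` with `ψ`; concatenate (direction `0`) the
reversed filling of `ψ` with the thin map of pairs `(u, y) ↦ H (y, u)`; the boundary map is `b₀` on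
the bottom, `D.f` on the top and `(D.l y).ext' (2 u - 1)` on the sides; slide it
(`PM.exists_slide`) to `(D.l y).1 u` along `(D.l y).ext' (τ (2 u - 1) + (1 - τ) u)`; `Λ` is the
curried map. -/
theorem Att.exists_cyl (D : Dat (m + 1) b₀) (a : Cell G S →₀ ℤ)
    (h : ∀ ψ : Lp (m + 1) B b₀, (⟦ψ⟧ : Pn (m + 1) B b₀) = D.cap → T.Hty ψ GenLoop.const a) :
    ∃ (Λ : C(Cb (m + 1), PS c₀)) (P : PM (m + 2) ((ContinuousMap.id C).comp T.i)),
      (∀ y, (Λ y).e = T.i (D.f y)) ∧ (∀ y : Bd (m + 1), Λ y = PS.map T.i T.base (D.l y)) ∧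
      IsCyl T.i D Λ P ∧
      ∀ K : T.Ctr, Additive.ofMul (P.dat K).cap = -lin (T.ob (ContinuousMap.id C) K) a := by
  obtain ⟨ψ, ⟨H, H0, H1, Hb⟩, hcap⟩ := D.exists_caps_cap
  obtain ⟨P₁, a0, a1, a2, a3⟩ := (h ψ hcap.symm).symm
  let b : C(Cb (m + 2), B) :=
    H.comp ⟨fun x => (Fin.tail x, x 0), continuous_tail.prodMk (continuous_apply 0)⟩
  have hb : ∀ x : Bd (m + 2), (nlOfMap ((ContinuousMap.id C).comp T.i) b).β x =
      H (Fin.tail x.1, x.1 0) := fun _ => rfl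
  obtain ⟨P₃, h1, h2, h3⟩ := PM.exists_trans 0 P₁ (nlOfMap _ b) fun y y' hy hy' => by
    rw [a1 y hy, hb, hy', Function.update_self, Fin.tail_update_zero, H0]
  have hx0 : Continuous fun p : Bd (m + 2) × I => p.1.1 0 :=
    (continuous_apply 0).comp (continuous_subtype_val.comp continuous_fst)
  obtain ⟨β, β0, β1⟩ := nl_glue (n := m + 1) (K := I) (ContinuousMap.const _ b₀)
    (H.comp ⟨fun p => (Fin.tail p.1.1, Set.projIcc 0 1 zero_le_one
        (p.2 * (2 * p.1.1 0 - 1) + (1 - p.2) * p.1.1 0)),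
      (continuous_tail.comp (continuous_subtype_val.comp continuous_fst)).prodMk
        ((continuous_projIcc (h := zero_le_one)).comp (by fun_prop))⟩) fun x τ hx hx' => by
    change b₀ = H ((⟨_, hx'⟩ : Bd (m + 1)), _)
    rw [Hb]
    refine ((D.l ⟨_, hx'⟩).ext'_of_le ?_).symm
    rw [hx]
    simpa using τ.2.1
  have β1' : ∀ (x : Bd (m + 2)) (τ : I),
      x.1 0 = 1 ∨ Fin.tail x.1 ∈ Cube.boundary (Fin (m + 1)) → β (x, τ) =
      H (Fin.tail x.1, Set.projIcc 0 1 zero_le_one (τ * (2 * x.1 0 - 1) + (1 - τ) * x.1 0)) :=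
    β1
  obtain ⟨P, hP, hc⟩ := P₃.exists_slide β fun x => by
    rcases mem_bd_succ.1 x.2 with hx | hx
    · have hle : (x.1 0 : ℝ) ≤ 1 / 2 := by rw [hx]; norm_num
      rw [β0 x 1 hx, h1 x ⟨_, nl_lo_mem 0 x.2 hle⟩ hle rfl, a0 _ (nl_lo_of_zero hx)]
      rfl
    · rw [β1' x 1 hx, Icc.coe_one, one_mul, sub_self, zero_mul, add_zero]
      rcases le_total (x.1 0 : ℝ) (1 / 2) with hle | hle
      · have hx' : Fin.tail x.1 ∈ Cube.boundary (Fin (m + 1)) := by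
          refine hx.resolve_left fun hx1 => ?_
          rw [hx1] at hle
          norm_num at hle
        rw [h1 x ⟨_, nl_lo_mem 0 x.2 hle⟩ hle rfl, a2 _ (by rw [nl_tail_lo]; exact hx')]
        change H ((⟨_, hx'⟩ : Bd (m + 1)), _) = _
        rw [Hb]
        exact (D.l ⟨_, hx'⟩).ext'_of_le (by linarith)
      · rw [h2 x ⟨_, nl_hi_mem 0 x.2 hle⟩ hle rfl, hb, nl_tail_hi]
        simp only [hi, Function.update_self]
  have p0 : ∀ x : Bd (m + 2), x.1 0 = 0 → P.β x = b₀ := fun x hx => by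
    rw [hP, β0 x 0 hx]; rfl
  have pr : ∀ x : Bd (m + 2), x.1 0 = 1 ∨ Fin.tail x.1 ∈ Cube.boundary (Fin (m + 1)) →
      P.β x = H (Fin.tail x.1, x.1 0) := fun x hx => by
    rw [hP, β1' x 0 hx, Icc.coe_zero, zero_mul, sub_zero, one_mul, zero_add, Set.projIcc_val]
  have p1 : ∀ x : Bd (m + 2), x.1 0 = 1 → P.β x = D.f (Fin.tail x.1) := fun x hx => by
    rw [pr x (Or.inl hx), hx, H1]
  have p2 : ∀ (x : Bd (m + 2)) (y : Bd (m + 1)), y.1 = Fin.tail x.1 →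
      P.β x = (D.l y).1 (x.1 0) := fun x y hy => by
    rw [pr x (Or.inr (hy ▸ y.2)), ← hy, Hb]
  have hcons : Continuous fun p : Cb (m + 1) × I => (Fin.cons p.2 p.1 : Cb (m + 2)) :=
    Continuous.finCons (A := fun _ => I) continuous_snd continuous_fst
  have pe : ∀ x : Bd (m + 2), P.f x = T.i (P.β x) := fun x => (P.e x).symm
  let Λ : C(Cb (m + 1), PS c₀) :=
    ⟨fun y => ⟨⟨fun u => P.f (Fin.cons u y),
        P.f.continuous.comp (hcons.comp (continuous_const.prodMk continuous_id))⟩, by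
        have := pe ⟨Fin.cons 0 y, mem_bd_succ.2 (Or.inl rfl)⟩
        rw [p0 _ rfl, T.base] at this
        exact this⟩,
      PS.continuous_of (P.f.continuous.comp hcons)⟩
  refine ⟨Λ, P, fun y => ?_, fun y => PS.ext fun u => ?_, ⟨fun x => ?_, p0, p1, p2⟩, fun K => ?_⟩
  · have := pe ⟨Fin.cons 1 y, mem_bd_succ.2 (Or.inr (Or.inl rfl))⟩
    rw [p1 _ rfl] at this
    exact this
  · have := pe ⟨Fin.cons u y.1, mem_bd_succ.2 (Or.inr (Or.inr y.2))⟩
    rw [p2 _ y rfl] at this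
    exact this
  · change _ = P.f (Fin.cons (x 0) (Fin.tail x))
    rw [Fin.cons_self_tail]
  · rw [hc, h3, nlOfMap_cap, one_mul, a3, map_neg]

end Crest.Agent.R185
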