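import Crest.Agent.R185.FPBasic

/-! # Row 185: partial resolutions and algebraic mapping telescopes -/

set_option autoImplicit false

namespace Crest.Agent.R185

open Function

variable {G : Type} [Group G] {A B : Type} [AddCommGroup A] [AddCommGroup B]
  {α : Representation ℤ G A} {β : Representation ℤ G B}

/-- A partial resolution by `FP_∞` representations.  Induction on `n`, generalising everything:
for `n + 1` apply the hypothesis to the shifted complex `D (j+1)` with target `ker ε` and the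
corestriction of `d 0`, then `FP.quot`. -/
theorem fp_of_exact (n : ℕ) (D : ℕ → Type) [∀ j, AddCommGroup (D j)]
    (δ : ∀ j, Representation ℤ G (D j)) (hD : ∀ j ≤ n, FPinf G (δ j))
    (d : ∀ j, D (j + 1) →ₗ[ℤ] D j) (hd : ∀ j, Eqv (δ (j + 1)) (δ j) (d j))
    (ε : D 0 →ₗ[ℤ] A) (hε : Eqv (δ 0) α ε) (hs : Surjective ε)
    (h0 : 0 < n → Exact (d 0) ε) (hex : ∀ j, j + 1 < n → Exact (d (j + 1)) (d j)) :
    FP G n α := by
  induction n generalizing A D with
  | zero => exact FP.zero_of_surj hε hs (hD 0 le_rfl 0)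
  | succ n ih =>
    have hx := h0 (Nat.succ_pos n)
    let ε' : D 1 →ₗ[ℤ] LinearMap.ker ε :=
      (d 0).codRestrict (LinearMap.ker ε) fun x => hx.apply_apply_eq_zero x
    have hK : FP G n hε.kerRep :=
      ih (α := hε.kerRep) (fun j => D (j + 1)) (fun j => δ (j + 1))
        (fun j hj => hD (j + 1) (by omega)) (fun j => d (j + 1)) (fun j => hd (j + 1)) ε'
        (fun g x => Subtype.ext (hd 0 g x))
        (fun z => by
          obtain ⟨x, hx'⟩ := (hx z.1).mp z.2
          exact ⟨x, Subtype.ext hx'⟩)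
        (fun hn x => by
          rw [← hex 0 (by omega) x]
          exact ⟨fun h => congrArg Subtype.val h, fun h => Subtype.ext h⟩)
        (fun j hj => hex (j + 1) (by omega))
    exact FP.quot (eqv_subtype _ _ hε.ker_le) hε (Submodule.injective_subtype _) hs
      (LinearMap.exact_subtype_ker_map ε) hK (hD 0 (Nat.zero_le _) (n + 1))

/-- the diagram chase of the telescope -/
theorem tel_step {X Y Z : Type} [AddCommGroup X] [AddCommGroup Y] [AddCommGroup Z]
    (e : X →ₗ[ℤ] Y) (d : Y →ₗ[ℤ] Z) (FY : Y →ₗ[ℤ] Y) (FZ : Z →ₗ[ℤ] Z)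
    (hc : ∀ x, d (FY x) = FZ (d x)) (hk : ∀ x, d x = 0 → ∃ u, e u = FY x) (x : Y) (y : Z) (w : Y)
    (hx : d x = y - FZ y) (hw : d w = FZ y) : ∃ u v, x = e u + (v - FY v) := by
  obtain ⟨u, hu⟩ := hk (x - ((x + w) - FY (x + w))) (by
    rw [map_sub, map_sub, hc, map_add, hx, hw, sub_add_cancel, sub_self])
  refine ⟨u, x - ((x + w) - FY (x + w)) + (x + w), ?_⟩
  rw [hu, map_add FY (x - ((x + w) - FY (x + w)))]
  abel

/-- Algebraic mapping telescope.  `F` is a chain endomorphism of the augmented complex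
`D → A` (in degrees `≤ n`) that sends cycles of degree `< n` to boundaries, `1 - F` is injective
and `B` is the cokernel of `1 - F` on `A`.  Proof: `Q j = D j ⧸ range (1 - F j)` is `FP_∞`
(`FP.quot`, `FP.zero_of_surj`); the induced complex `Q → B` is exact: if `∂ x = (1 - F) y` then
`∂ y = 0` by injectivity, `F y = ∂ w`, `x' = x - (1 - F) (x + w)` is a cycle, `x' ≡ F x' = ∂ u`.
Apply `fp_of_exact` (for `j ≥ n` replace the induced differential by `0`, e.g. via `dite`). -/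
theorem fp_of_telescope (n : ℕ) (D : ℕ → Type) [∀ j, AddCommGroup (D j)]
    (δ : ∀ j, Representation ℤ G (D j)) (hD : ∀ j ≤ n, FPinf G (δ j))
    (d : ∀ j, D (j + 1) →ₗ[ℤ] D j) (hd : ∀ j, Eqv (δ (j + 1)) (δ j) (d j))
    (ε : D 0 →ₗ[ℤ] A) (hε : Eqv (δ 0) α ε) (hs : Surjective ε)
    (hεd : ∀ x, ε (d 0 x) = 0) (hdd : ∀ j x, d j (d (j + 1) x) = 0)
    (F : ∀ j, D j →ₗ[ℤ] D j) (hF : ∀ j, Eqv (δ j) (δ j) (F j))
    (FA : A →ₗ[ℤ] A) (hFA : Eqv α α FA)
    (hc0 : ∀ x, ε (F 0 x) = FA (ε x)) (hc : ∀ j < n, ∀ x, d j (F (j + 1) x) = F j (d j x))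
    (hinj : ∀ j ≤ n, ∀ x, F j x = x → x = 0) (hinjA : ∀ x, FA x = x → x = 0)
    (hk0 : 0 < n → ∀ x, ε x = 0 → ∃ y, d 0 y = F 0 x)
    (hk : ∀ j, j + 1 < n → ∀ x, d j x = 0 → ∃ y, d (j + 1) y = F (j + 1) x)
    (π : A →ₗ[ℤ] B) (hπ : Eqv α β π) (hπs : Surjective π)
    (hπk : ∀ x, π x = 0 ↔ ∃ y, y - FA y = x) : FP G n β := by
  let R : ∀ j, Submodule ℤ (D j) := fun j => LinearMap.range (LinearMap.id - F j)
  have hmem : ∀ j x, x ∈ R j ↔ ∃ y, y - F j y = x := fun j x => Iff.rfl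
  have hE : ∀ j, Eqv (δ j) (δ j) (LinearMap.id - F j) := fun j g x => by
    simp only [LinearMap.sub_apply, LinearMap.id_apply, map_sub, hF j g x]
  let κ : ∀ j, Representation ℤ G (D j ⧸ R j) := fun j => (δ j).quotient (R j) (hE j).range_le
  have hmk : ∀ j, Eqv (δ j) (κ j) (R j).mkQ := fun j g x => rfl
  have hle : ∀ j < n, R (j + 1) ≤ (R j).comap (d j) := fun j hj x hx => by
    obtain ⟨y, rfl⟩ := (hmem _ _).mp hx
    exact (hmem _ _).mpr ⟨d j y, by rw [map_sub, hc j hj]⟩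
  let e : ∀ j, (D (j + 1) ⧸ R (j + 1)) →ₗ[ℤ] (D j ⧸ R j) := fun j =>
    if h : j < n then (R (j + 1)).mapQ (R j) (d j) (hle j h) else 0
  have he : ∀ j < n, ∀ x, e j ((R (j + 1)).mkQ x) = (R j).mkQ (d j x) := fun j hj x => by
    simp only [e, dif_pos hj]
    rfl
  have hker : R 0 ≤ LinearMap.ker (π ∘ₗ ε) := fun x hx => by
    obtain ⟨y, rfl⟩ := (hmem _ _).mp hx
    rw [LinearMap.mem_ker, LinearMap.comp_apply, hπk]
    exact ⟨ε y, by rw [map_sub, hc0]⟩
  let η : (D 0 ⧸ R 0) →ₗ[ℤ] B := (R 0).liftQ (π ∘ₗ ε) hker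
  have hη : ∀ x, η ((R 0).mkQ x) = π (ε x) := fun x => rfl
  have hz : ∀ j x, (R j).mkQ x = 0 ↔ ∃ y, y - F j y = x := fun j x =>
    (Submodule.Quotient.mk_eq_zero _).trans (hmem j x)
  have hfin : ∀ j < n, ∀ x u v, x = d j u + (v - F j v) → ∃ u', e j u' = (R j).mkQ x :=
    fun j hj x u v hx => ⟨(R (j + 1)).mkQ u, by
      rw [he j hj, hx, map_add, (hz j (v - F j v)).mpr ⟨v, rfl⟩, add_zero]⟩
  refine fp_of_exact n (fun j => D j ⧸ R j) κ (fun j hj m => ?_) e (fun j g x => ?_) η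
    (fun g x => ?_) (fun b => ?_) (fun hn x => ?_) (fun j hj x => ?_)
  · cases m with
    | zero => exact FP.zero_of_surj (hmk j) (R j).mkQ_surjective (hD j hj 0)
    | succ m =>
      refine FP.quot (hE j) (hmk j) ?_ (R j).mkQ_surjective (LinearMap.exact_map_mkQ_range _)
        (hD j hj m) (hD j hj (m + 1))
      rw [injective_iff_map_eq_zero]
      exact fun x hx => hinj j hj x (sub_eq_zero.mp hx).symm
  · obtain ⟨x, rfl⟩ := (R (j + 1)).mkQ_surjective x
    by_cases hj : j < n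
    · rw [← hmk, he j hj, he j hj, hd, hmk]
    · simp only [e, dif_neg hj, LinearMap.zero_apply, map_zero]
  · obtain ⟨x, rfl⟩ := (R 0).mkQ_surjective x
    rw [← hmk, hη, hη, hε, hπ]
  · obtain ⟨a, rfl⟩ := hπs b
    obtain ⟨x, rfl⟩ := hs a
    exact ⟨(R 0).mkQ x, rfl⟩
  · obtain ⟨x, rfl⟩ := (R 0).mkQ_surjective x
    constructor
    · intro hx
      obtain ⟨y, hy⟩ := (hπk _).mp ((hη x).symm.trans hx)
      obtain ⟨w, hw⟩ := hs (FA y)
      obtain ⟨u, v, huv⟩ := tel_step (d 0) ε (F 0) FA hc0 (hk0 hn) x y w hy.symm hw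
      exact hfin 0 hn x u v huv
    · rintro ⟨u, hu⟩
      obtain ⟨u, rfl⟩ := (R 1).mkQ_surjective u
      rw [← hu, he 0 hn, hη, hεd, map_zero]
  · obtain ⟨x, rfl⟩ := (R (j + 1)).mkQ_surjective x
    have hj' : j < n := by omega
    constructor
    · intro hx
      rw [he j hj', hz] at hx
      obtain ⟨y, hy⟩ := hx
      obtain ⟨w, hw⟩ : ∃ w, d j w = F j y := by
        cases j with
        | zero =>
          refine hk0 hj' y (hinjA _ ?_)
          have := hεd x
          rw [← hy, map_sub, hc0] at this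
          exact (sub_eq_zero.mp this).symm
        | succ j =>
          refine hk j hj' y (hinj j (by omega) _ ?_)
          have := hdd j x
          rw [← hy, map_sub, hc j (by omega)] at this
          exact (sub_eq_zero.mp this).symm
      obtain ⟨u, v, huv⟩ := tel_step (d (j + 1)) (d j) (F (j + 1)) (F j) (hc j hj') (hk j hj)
        x y w hy.symm hw
      exact hfin (j + 1) hj x u v huv
    · rintro ⟨u, hu⟩
      obtain ⟨u, rfl⟩ := (R (j + 1 + 1)).mkQ_surjective u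
      rw [← hu, he (j + 1) hj, he j hj', hdd, map_zero]

end Crest.Agent.R185
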