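import Crest.Agent.R185.FPInd
import Crest.Agent.R185.FPTel

/-!
# Row 185: `FP_∞` for groups (change of groups, products, Brown's criterion, syzygies)
-/

set_option autoImplicit false

namespace Crest.Agent.R185

open Function

variable {G H : Type} [Group G] [Group H]

section Aux

private theorem Eqv.comp_hom {V W : Type} [AddCommGroup V] [AddCommGroup W] {ρ : Representation ℤ G V}
    {σ : Representation ℤ G W} {f : V →ₗ[ℤ] W} (h : Eqv ρ σ f) (φ : H →* G) :
    Eqv (ρ.comp φ) (σ.comp φ) f := fun g x => h (φ g) x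

private theorem eqv_lmapDomain {X Y : Type} [MulAction G X] [MulAction G Y] (f : X → Y)
    (hf : ∀ (g : G) (x : X), f (g • x) = g • f x) :
    Eqv (permRep G X) (permRep G Y) (Finsupp.lmapDomain ℤ ℤ f) :=
  eqv_of_single fun g x => by simp [hf]

private theorem lmapDomain_bij {X Y : Type} {f : X → Y} (hf : Bijective f) :
    Bijective (Finsupp.lmapDomain ℤ ℤ f) :=
  ⟨Finsupp.mapDomain_injective hf.1, Finsupp.mapDomain_surjective hf.2⟩

private theorem aug_surj {X : Type} (x : X) : Surjective (aug X) :=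
  fun k => ⟨Finsupp.single x k, aug_single _ _⟩

private theorem orb_surj_of_comp (φ : H →* G) {V : Type} [AddCommGroup V]
    (ρ : Representation ℤ G V) {S : Type} (v : S → V) (hv : Surjective (orb (ρ.comp φ) v)) :
    Surjective (orb ρ v) := by
  have h : orb (ρ.comp φ) v =
      orb ρ v ∘ₗ Finsupp.lmapDomain ℤ ℤ fun c : Cell H S => (⟨φ c.g, c.s⟩ : Cell G S) := by
    refine Finsupp.lhom_ext' fun c => LinearMap.ext_ring ?_
    simp
  rw [h, LinearMap.coe_comp] at hv
  exact hv.of_comp

private theorem orb_subrep {V : Type} [AddCommGroup V] (ρ : Representation ℤ G V)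
    (Z : Submodule ℤ V) (hZ : ∀ g, Z ≤ Z.comap (ρ g)) {T : Type} (v : T → Z) :
    orb ρ (fun t => (v t).1) = Z.subtype ∘ₗ orb (ρ.subrepresentation Z hZ) v := by
  refine Finsupp.lhom_ext' fun c => LinearMap.ext_ring ?_
  simp only [LinearMap.comp_apply, Finsupp.lsingle_apply, orb_single, one_smul]
  rfl

private theorem fpinf_cell_comp (φ : H →* G) (hφ : FPinf H ((permRep G G).comp φ)) (S : Type)
    [Finite S] : FPinf H ((permRep G (Cell G S)).comp φ) := by
  refine Finite.induction_empty_option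
    (P := fun S => FPinf H ((permRep G (Cell G S)).comp φ)) ?_ ?_ ?_ S
  · intro α β e ih n
    refine FP.of_bij ((eqv_lmapDomain (G := G)
      (fun c : Cell G α => (⟨c.g, e c.s⟩ : Cell G β)) fun _ _ => rfl).comp_hom φ)
      (lmapDomain_bij ⟨fun a b hab => ?_, fun c => ?_⟩) (ih n)
    · exact Cell.ext (congrArg Cell.g hab :) (e.injective (congrArg Cell.s hab :))
    · exact ⟨⟨c.g, e.symm c.s⟩, Cell.ext rfl (e.apply_symm_apply _)⟩
  · intro n
    haveI : IsEmpty (Cell G PEmpty) := ⟨fun c => c.s.elim⟩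
    exact fp_of_subsingleton n
  · intro α _ ih n
    let i : (Cell G α →₀ ℤ) →ₗ[ℤ] (Cell G (Option α) →₀ ℤ) :=
      Finsupp.lmapDomain ℤ ℤ fun c => ⟨c.g, some c.s⟩
    let s : (G →₀ ℤ) →ₗ[ℤ] (Cell G (Option α) →₀ ℤ) := Finsupp.lmapDomain ℤ ℤ fun g => ⟨g, none⟩
    let p : (Cell G (Option α) →₀ ℤ) →ₗ[ℤ] (G →₀ ℤ) :=
      Finsupp.linearCombination ℤ fun c => c.s.elim (Finsupp.single c.g 1) fun _ => 0
    let r : (Cell G (Option α) →₀ ℤ) →ₗ[ℤ] (Cell G α →₀ ℤ) :=
      Finsupp.linearCombination ℤ fun c => c.s.elim 0 fun a => Finsupp.single ⟨c.g, a⟩ 1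
    have hi : Eqv (permRep G (Cell G α)) (permRep G (Cell G (Option α))) i :=
      eqv_lmapDomain _ fun _ _ => rfl
    have hp : Eqv (permRep G (Cell G (Option α))) (permRep G G) p := by
      refine eqv_of_single fun g x => ?_
      obtain ⟨x, _ | a⟩ := x <;> simp [p]
    have h1 : r ∘ₗ i = LinearMap.id := by
      refine Finsupp.lhom_ext' fun c => LinearMap.ext_ring ?_
      simp [r, i]
    have h2 : p ∘ₗ s = LinearMap.id := by
      refine Finsupp.lhom_ext' fun c => LinearMap.ext_ring ?_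
      simp [p, s]
    have h3 : p ∘ₗ i = 0 := by
      refine Finsupp.lhom_ext' fun c => LinearMap.ext_ring ?_
      simp [p, i]
    have h4 : i ∘ₗ r + s ∘ₗ p = LinearMap.id := by
      refine Finsupp.lhom_ext' fun c => LinearMap.ext_ring ?_
      obtain ⟨x, _ | a⟩ := c <;> simp [p, i, r, s]
    refine FP.ext (hi.comp_hom φ) (hp.comp_hom φ)
      (LeftInverse.injective (g := r) fun x => LinearMap.congr_fun h1 x)
      (RightInverse.surjective (g := s) fun x => LinearMap.congr_fun h2 x)
      (fun y => ⟨fun hy => ⟨r y, ?_⟩, ?_⟩) (ih n) (hφ n)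
    · have h5 := LinearMap.congr_fun h4 y
      rwa [LinearMap.add_apply, LinearMap.comp_apply, LinearMap.comp_apply, hy, map_zero, add_zero,
        LinearMap.id_apply] at h5
    · rintro ⟨x, rfl⟩
      exact LinearMap.congr_fun h3 x

end Aux

/-- Change of groups when `ℤG` is `FP_∞` over `H`.  First: `(permRep G (Cell G S)).comp φ` is
`FP_∞` over `H` for finite `S` (induction on `S`, `Finite.induction_empty_option`, `FP.ext`).
Then induction on `n`, both directions: `←` by `FP.zero_of_surj`/`FP.quot`; `→`: generators over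
`H` are generators over `G`, and `FP.sub` over `H` gives the kernel.  An `Eqv` over `G` is an `Eqv`
of the `.comp φ`, and `(h.kerRep).comp φ` is definitionally the `kerRep` over `H`. -/
theorem FP.comp_iff (φ : H →* G) (hφ : FPinf H ((permRep G G).comp φ)) {n : ℕ} {V : Type}
    [AddCommGroup V] (ρ : Representation ℤ G V) : FP H n (ρ.comp φ) ↔ FP G n ρ := by
  have hS := fpinf_cell_comp φ hφ
  induction n generalizing V with
  | zero =>
    constructor
    · rintro ⟨S, _, v, hv⟩
      exact ⟨S, inferInstance, v, orb_surj_of_comp φ ρ v hv⟩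
    · rintro ⟨S, _, v, hv⟩
      exact FP.zero_of_surj ((eqv_orb ρ v).comp_hom φ) hv (hS S 0)
  | succ n ih =>
    constructor
    · intro h
      obtain ⟨S, _, v, hv, -⟩ := id h
      have hv' := orb_surj_of_comp φ ρ v hv
      refine ⟨S, inferInstance, v, hv', (ih _).1 ?_⟩
      exact FP.sub ((eqv_subtype _ _ (eqv_orb ρ v).ker_le).comp_hom φ) ((eqv_orb ρ v).comp_hom φ)
        (Submodule.injective_subtype _) hv' (LinearMap.exact_subtype_ker_map _) (hS S n) h
    · rintro ⟨S, _, v, hv, hk⟩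
      exact FP.quot ((eqv_subtype _ _ (eqv_orb ρ v).ker_le).comp_hom φ) ((eqv_orb ρ v).comp_hom φ)
        (Submodule.injective_subtype _) hv (LinearMap.exact_subtype_ker_map _) ((ih _).2 hk)
        (hS S (n + 1))

/-- the trivial group (`orb` of `fun _ : Unit => 1` is bijective onto `ℤ`) -/
theorem isFPinf_of_subsingleton [Subsingleton G] : IsFPinf G := by
  intro n
  haveI : Subsingleton (Cell G Unit) := ⟨fun a b => Cell.ext (Subsingleton.elim _ _) rfl⟩
  letI : Unique (Cell G Unit) := uniqueOfSubsingleton ⟨1, ()⟩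
  refine FP.of_bij (eqv_aug (Cell G Unit)) ⟨?_, aug_surj ⟨1, ()⟩⟩ (fp_free Unit n)
  rw [injective_iff_map_eq_zero]
  intro c hc
  rw [Finsupp.unique_single c, aug_single] at hc
  rw [Finsupp.unique_single c, hc, Finsupp.single_zero]

/-- isomorphism invariance (direct induction on `n` for arbitrary representations, or
`FP.comp_iff` with `(permRep G G).comp e ≅ permRep H (Cell H Unit)`) -/
theorem IsFP.of_equiv (e : G ≃* H) {n : ℕ} (h : IsFP G n) : IsFP H n := by
  have hφ : FPinf H ((permRep G G).comp e.symm.toMonoidHom) := fun m => by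
    refine FP.of_bij (α := permRep H (Cell H Unit))
      (f := Finsupp.lmapDomain ℤ ℤ fun c : Cell H Unit => e.symm c.g)
      (eqv_of_single fun g x => ?_) (lmapDomain_bij ⟨fun a b hab => ?_, fun g => ?_⟩)
      (fp_free Unit m)
    · simp
    · exact Cell.ext (e.symm.injective hab) rfl
    · exact ⟨⟨e g, ()⟩, e.symm_apply_apply g⟩
  exact (FP.comp_iff e.symm.toMonoidHom hφ (Representation.trivial ℤ G ℤ)).2 h

theorem IsFPinf.of_equiv (e : G ≃* H) (h : IsFPinf G) : IsFPinf H := fun n => (h n).of_equiv e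

/-- `FP_∞` kernel and image of finite index.  `H` acts on `G` through `φ`
(`MulAction.compHom`); finitely many orbits (right cosets of the range), every stabiliser is
`φ.ker`; `Cofin.fpinf`, `FP.comp_iff`; `(trivial G).comp φ = trivial H`. -/
theorem isFP_iff_of_hom (φ : H →* G) (hk : IsFPinf φ.ker) [φ.range.FiniteIndex] (n : ℕ) :
    IsFP H n ↔ IsFP G n := by
  letI : MulAction H G := MulAction.compHom G φ
  have hsm : ∀ (h : H) (x : G), h • x = φ h * x := fun _ _ => rfl
  have hC : Cofin H G := by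
    refine ⟨?_, fun x => ?_⟩
    · refine Finite.of_surjective
        (fun q : G ⧸ φ.range => (Quotient.mk'' (q.out)⁻¹ : MulAction.orbitRel.Quotient H G)) ?_
      intro y
      induction y using Quotient.inductionOn' with
      | h x =>
        refine ⟨((x⁻¹ : G) : G ⧸ φ.range), Quotient.sound' ?_⟩
        obtain ⟨⟨_, r, rfl⟩, hr⟩ := QuotientGroup.mk_out_eq_mul φ.range x⁻¹
        rw [MulAction.orbitRel_apply]
        refine ⟨r⁻¹, ?_⟩
        simp only [hsm, hr, map_inv, mul_inv_rev, inv_inv]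
    · have : MulAction.stabilizer H x = φ.ker := by
        ext h
        rw [MulAction.mem_stabilizer_iff, hsm, MonoidHom.mem_ker, mul_eq_right]
      rw [this]; exact hk
  exact FP.comp_iff φ hC.fpinf (Representation.trivial ℤ G ℤ)

theorem isFPinf_iff_of_hom (φ : H →* G) (hk : IsFPinf φ.ker) [φ.range.FiniteIndex] :
    IsFPinf H ↔ IsFPinf G := forall_congr' (isFP_iff_of_hom φ hk)

theorem isFPinf_iff_of_finiteIndex (K : Subgroup G) [K.FiniteIndex] : IsFPinf K ↔ IsFPinf G := by
  haveI : K.subtype.range.FiniteIndex := by rw [Subgroup.range_subtype]; infer_instance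
  refine isFPinf_iff_of_hom K.subtype ?_
  rw [Subgroup.ker_subtype]
  exact isFPinf_of_subsingleton

theorem isFPinf_of_finite [Finite G] : IsFPinf G := by
  exact (isFPinf_iff_of_finiteIndex (⊥ : Subgroup G)).1 isFPinf_of_subsingleton

theorem IsFPinf.prod (hG : IsFPinf G) (hH : IsFPinf H) : IsFPinf (G × H) := by
  haveI : (MonoidHom.snd G H).range.FiniteIndex := by
    rw [MonoidHom.range_eq_top.2 Prod.snd_surjective]; infer_instance
  let e : G ≃* (MonoidHom.snd G H).ker :=
    { toFun := fun g => ⟨(g, 1), rfl⟩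
      invFun := fun x => x.1.1
      left_inv := fun _ => rfl
      right_inv := fun x => Subtype.ext (Prod.ext rfl (show x.1.2 = 1 from x.2).symm)
      map_mul' := fun a b => Subtype.ext (Prod.ext rfl (one_mul (1 : H)).symm) }
  exact (isFPinf_iff_of_hom (MonoidHom.snd G H) (hG.of_equiv e)).2 hH

theorem IsFPinf.pi {ι : Type} [Finite ι] {K : ι → Type} [∀ i, Group (K i)]
    (h : ∀ i, IsFPinf (K i)) : IsFPinf (∀ i, K i) := by
  revert K
  refine Finite.induction_empty_option (P := fun ι => ∀ {K : ι → Type} [∀ i, Group (K i)],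
    (∀ i, IsFPinf (K i)) → IsFPinf (∀ i, K i)) ?_ ?_ ?_ ι
  · intro α β e ih K _ h
    let e' : (∀ b, K b) ≃* (∀ a, K (e a)) :=
      { Equiv.piCongrLeft' K e.symm with map_mul' := fun _ _ => rfl }
    exact (ih fun a => h (e a)).of_equiv e'.symm
  · intro K _ _
    exact isFPinf_of_subsingleton
  · intro α _ ih K _ h
    let e' : (∀ b, K b) ≃* K none × (∀ a, K (some a)) :=
      { Equiv.piOptionEquivProd with map_mul' := fun _ _ => rfl }
    exact ((h none).prod (ih fun a => h (some a))).of_equiv e'.symm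

/-- `FP_1` groups are finitely generated.  `ker (aug G)` is `FP_0` (`FP.sub`), let `L` be the
subgroup generated by the supports of its generators `v s` (finite); the image of `v s`, hence of
every `g • v s`, in `(G ⧸ L) →₀ ℤ` (push forward along `mk`) is `0`; apply this to
`single g 1 - single 1 1`. -/
theorem IsFP.fg (h : IsFP G 1) : Group.FG G := by
  classical
  have h0 : FP G 0 (eqv_aug (G := G) (Cell G Unit)).kerRep :=
    FP.sub (eqv_subtype _ _ (eqv_aug (Cell G Unit)).ker_le) (eqv_aug _)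
      (Submodule.injective_subtype _) (aug_surj ⟨1, ()⟩) (LinearMap.exact_subtype_ker_map _)
      (fp_free Unit 0) h
  obtain ⟨S, _, v, hv⟩ := h0
  let A : Set G := ⋃ s, Cell.g '' ((v s).1.support : Set (Cell G Unit))
  have hA : A.Finite := Set.finite_iUnion fun s => (Finset.finite_toSet _).image _
  let L : Subgroup G := Subgroup.closure A
  let π : (Cell G Unit →₀ ℤ) →ₗ[ℤ] ((G ⧸ L) →₀ ℤ) :=
    Finsupp.lmapDomain ℤ ℤ fun c => (c.g : G ⧸ L)
  have hπ : Eqv (permRep G (Cell G Unit)) (permRep G (G ⧸ L)) π :=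
    eqv_lmapDomain _ fun _ _ => rfl
  have h1 : ∀ s, π (v s).1 = 0 := by
    intro s
    have h2 : π (v s).1 = Finsupp.mapDomain (fun _ => ((1 : G) : G ⧸ L)) (v s).1 := by
      refine Finsupp.mapDomain_congr fun c hc => ?_
      rw [eq_comm, QuotientGroup.eq, inv_one, one_mul]
      exact Subgroup.subset_closure (Set.mem_iUnion.2 ⟨s, c, hc, rfl⟩)
    have h3 : (Finsupp.lmapDomain ℤ ℤ fun _ : Cell G Unit => ((1 : G) : G ⧸ L)) =
        Finsupp.lsingle ((1 : G) : G ⧸ L) ∘ₗ aug (Cell G Unit) := by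
      refine Finsupp.lhom_ext' fun x => LinearMap.ext_ring ?_
      simp
    have h4 := LinearMap.congr_fun h3 (v s).1
    rw [Finsupp.lmapDomain_apply, LinearMap.comp_apply, LinearMap.mem_ker.1 (v s).2,
      map_zero] at h4
    rw [h2, h4]
  have h5 : π ∘ₗ (Submodule.subtype _) ∘ₗ orb (eqv_aug (G := G) (Cell G Unit)).kerRep v = 0 := by
    refine Finsupp.lhom_ext' fun c => LinearMap.ext_ring ?_
    have := hπ c.g (v c.s).1
    rw [h1, map_zero] at this
    simp only [LinearMap.comp_apply, Finsupp.lsingle_apply, orb_single, one_smul,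
      LinearMap.zero_apply]
    exact this
  refine Group.fg_iff.2 ⟨A, eq_top_iff.2 fun g _ => ?_, hA⟩
  have hw : Finsupp.single (⟨1, ()⟩ : Cell G Unit) (1 : ℤ) - Finsupp.single ⟨g, ()⟩ 1 ∈
      LinearMap.ker (aug (Cell G Unit)) := by
    rw [LinearMap.mem_ker, map_sub, aug_single, aug_single, sub_self]
  obtain ⟨c, hc⟩ := hv ⟨_, hw⟩
  have h6 := LinearMap.congr_fun h5 c
  rw [LinearMap.comp_apply, LinearMap.comp_apply, hc, Submodule.subtype_apply, map_sub,
    LinearMap.zero_apply, sub_eq_zero] at h6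
  simp only [π, Finsupp.lmapDomain_apply, Finsupp.mapDomain_single] at h6
  have h7 := (Finsupp.single_left_inj one_ne_zero).1 h6
  rwa [QuotientGroup.eq, inv_one, one_mul] at h7

theorem IsFPinf.fg (h : IsFPinf G) : Group.FG G := (h 1).fg

/-- Brown's criterion, homological form -/
theorem isFP_of_complex (n : ℕ) (X : ℕ → Type) [∀ j, MulAction G (X j)]
    (hX : ∀ j ≤ n, Cofin G (X j)) (d : ∀ j, (X (j + 1) →₀ ℤ) →ₗ[ℤ] (X j →₀ ℤ))
    (hd : ∀ j, Eqv (permRep G (X (j + 1))) (permRep G (X j)) (d j)) (hne : Nonempty (X 0))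
    (h0 : 0 < n → Exact (d 0) (aug (X 0))) (hex : ∀ j, j + 1 < n → Exact (d (j + 1)) (d j)) :
    IsFP G n :=
  fp_of_exact n (fun j => X j →₀ ℤ) (fun j => permRep G (X j)) (fun j hj => (hX j hj).fpinf) d hd
    (aug (X 0)) (eqv_aug _) (fun k => ⟨Finsupp.single hne.some k, aug_single _ _⟩) h0 hex

theorem cofin_cell (S : Type) [Finite S] : Cofin G (Cell G S) := by
  refine ⟨?_, fun x => ?_⟩
  · refine Finite.of_surjective
      (fun s : S => (Quotient.mk'' ⟨1, s⟩ : MulAction.orbitRel.Quotient G (Cell G S))) ?_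
    intro y
    induction y using Quotient.inductionOn' with
    | h x =>
      refine ⟨x.s, Quotient.sound' ?_⟩
      rw [MulAction.orbitRel_apply]
      exact ⟨x.g⁻¹, Cell.ext (by simp) rfl⟩
  · have : MulAction.stabilizer G x = ⊥ := by
      refine eq_bot_iff.2 fun h hh => ?_
      have h1 := congrArg Cell.g (MulAction.mem_stabilizer_iff.1 hh)
      rw [Cell.smul_g, mul_eq_right] at h1
      exact Subgroup.mem_bot.2 h1
    rw [this]
    exact isFPinf_of_subsingleton

/-! ### Syzygies (used by the construction of the classifying complex) -/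

/-- an invariant subgroup of a free representation that is of type `FP_∞` -/
def Syz (G : Type) [Group G] {S : Type} (Z : Submodule ℤ (Cell G S →₀ ℤ)) : Prop :=
  ∃ h : ∀ g, Z ≤ Z.comap (permRep G (Cell G S) g), FPinf G ((permRep G (Cell G S)).subrepresentation Z h)

theorem Syz.smul_mem {S : Type} {Z : Submodule ℤ (Cell G S →₀ ℤ)} (h : Syz G Z) (g : G) {z}
    (hz : z ∈ Z) : permRep G (Cell G S) g z ∈ Z := h.1 g hz

theorem syz_aug (h : IsFPinf G) : Syz G (LinearMap.ker (aug (Cell G Unit))) := by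
  exact ⟨(eqv_aug _).ker_le, FPinf.ker (eqv_aug _) (aug_surj ⟨1, ()⟩) (fp_free Unit) h⟩

theorem Syz.exists_gen {S : Type} {Z : Submodule ℤ (Cell G S →₀ ℤ)} (h : Syz G Z) :
    ∃ (T : Type) (_ : Finite T) (z : T → (Cell G S →₀ ℤ)),
      LinearMap.range (orb (permRep G (Cell G S)) z) = Z := by
  obtain ⟨hZ, h⟩ := h
  obtain ⟨T, _, v, hv⟩ := h 0
  refine ⟨T, inferInstance, fun t => (v t).1, ?_⟩
  rw [orb_subrep _ Z hZ v, LinearMap.range_comp, LinearMap.range_eq_top.2 hv,
    Submodule.map_subtype_top]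

theorem Syz.ker {S : Type} {Z : Submodule ℤ (Cell G S →₀ ℤ)} (h : Syz G Z) {T : Type} [Finite T]
    (z : T → (Cell G S →₀ ℤ)) (hz : LinearMap.range (orb (permRep G (Cell G S)) z) = Z) :
    Syz G (LinearMap.ker (orb (permRep G (Cell G S)) z)) := by
  obtain ⟨hZ, h⟩ := h
  have hmem : ∀ t, z t ∈ Z := fun t => by
    rw [← hz]
    exact ⟨Finsupp.single ⟨1, t⟩ 1, by simp⟩
  let v : T → Z := fun t => ⟨z t, hmem t⟩
  have h1 := orb_subrep _ Z hZ v
  have h2 : Surjective (orb ((permRep G (Cell G S)).subrepresentation Z hZ) v) := by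
    intro w
    have hw : w.1 ∈ LinearMap.range (orb (permRep G (Cell G S)) z) := hz.symm ▸ w.2
    obtain ⟨c, hc⟩ := hw
    exact ⟨c, Subtype.ext ((LinearMap.congr_fun h1 c).symm.trans hc)⟩
  have h3 : LinearMap.ker (orb (permRep G (Cell G S)) z) =
      LinearMap.ker (orb ((permRep G (Cell G S)).subrepresentation Z hZ) v) := by
    have h4 : orb (permRep G (Cell G S)) z = _ := h1
    rw [h4, LinearMap.ker_comp_of_ker_eq_bot _ Z.ker_subtype]
  rw [h3]
  exact ⟨(eqv_orb _ v).ker_le, FPinf.ker (eqv_orb _ v) h2 (fp_free T) h⟩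

end Crest.Agent.R185
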