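import Crest.Agent.R185.BRDiff
import Crest.Agent.R185.BRNull
import Crest.Agent.R185.FPGroup

/-!
# Row 185, bridge: the inductive step
-/

set_option autoImplicit false
set_option linter.unusedSectionVars false

open unitInterval Topology Set

namespace Crest.Agent.R185

variable {G : Type} [Group G] {m : ℕ} {A B C : Type} [TopologicalSpace A] [TopologicalSpace B]
  [TopologicalSpace C] [MulAction G A] [MulAction G B] [MulAction G C] [ContinuousConstSMul G A]
  [ContinuousConstSMul G B] [ContinuousConstSMul G C] {a₀ : A} {b₀ : B} {c₀ : C} {S S' : Type}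

/-- finitely many words whose translates kill all obstructions -/
def RelData {X : Type} [Group X] (o : Cell G S → X) (ρ : G → X →* X)
    (Z : Submodule ℤ (Cell G S →₀ ℤ)) : Prop :=
  ∃ (R : Type) (_ : Finite R) (r : R → FreeGroup (Cell G S))
    (p : (Cell G S →₀ ℤ) →ₗ[ℤ] (Cell G S →₀ ℤ)),
    (∀ t, Multiplicative.toAdd (abw _ (r t)) ∈ Z) ∧ (∀ z ∈ Z, p z = z) ∧
    (∀ g t, ρ g (FreeGroup.lift o (r t)) =
      FreeGroup.lift o (FreeGroup.map (fun c => g • c) (r t))) ∧
    ∀ c, ∃ w ∈ Subgroup.normalClosure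
        (range fun e : Cell G R => FreeGroup.map (fun c : Cell G S => e.g • c) (r e.s)),
      FreeGroup.lift o w = o c ∧ Multiplicative.toAdd (abw _ w) = p (Finsupp.single c 1)

/-- the invariant of the construction -/
structure Inv (T : Att G m a₀ b₀ S) (K : T.Ctr) (Z : Submodule ℤ (Cell G S →₀ ℤ)) : Prop where
  base : K.1 a₀ = PS.const b₀
  syz : Syz G Z
  qq : T.QQ Z
  rel : RelData (T.ob (ContinuousMap.id B) K) (fun g => trRho (T.kp K g)) Z

theorem abw_map (g : G) (w : FreeGroup (Cell G S)) :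
    Multiplicative.toAdd (abw _ (FreeGroup.map (fun c : Cell G S => g • c) w)) =
      permRep G (Cell G S) g (Multiplicative.toAdd (abw _ w)) := by
  induction w using FreeGroup.induction_on with
  | C1 => simp
  | of x => simp [abw]
  | inv_of x ih => simp only [map_inv, toAdd_inv, map_neg, ih]
  | mul x y hx hy => simp only [map_mul, toAdd_mul, map_add, hx, hy]

theorem lin_abw {X Y : Type} [CommGroup Y] (o : X → Y) (w : FreeGroup X) :
    lin o (Multiplicative.toAdd (abw X w)) = Additive.ofMul (FreeGroup.lift o w) := by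
  induction w using FreeGroup.induction_on with
  | C1 => simp
  | of x => simp [abw]
  | inv_of x ih => simp only [map_inv, toAdd_inv, map_neg, ih, ofMul_inv]
  | mul x y hx hy => simp only [map_mul, toAdd_mul, map_add, hx, hy, ofMul_mul]

theorem abw_surjective (X : Type) : Function.Surjective (abw X) := by
  have key : ∀ y : X →₀ ℤ, ∃ w, Multiplicative.toAdd (abw X w) = y := by
    intro y
    induction y using Finsupp.induction_linear with
    | zero => exact ⟨1, by simp⟩
    | add a b ha hb =>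
      obtain ⟨u, rfl⟩ := ha
      obtain ⟨v, rfl⟩ := hb
      exact ⟨u * v, by rw [map_mul, toAdd_mul]⟩
    | single x k => exact ⟨FreeGroup.of x ^ k, by simp [abw]⟩
  intro y
  obtain ⟨w, hw⟩ := key (Multiplicative.toAdd y)
  exact ⟨w, Multiplicative.toAdd.injective hw⟩

/-- the commutative case: generators of `Z` (`Syz.exists_gen`) lifted to words; the image under
`abw` of the normal closure contains `Z` -/
theorem relData_of_comm {X : Type} [CommGroup X] (o : Cell G S → X) (ρ : G → X →* X)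
    {Z : Submodule ℤ (Cell G S →₀ ℤ)} (hZ : Syz G Z)
    (hE : ∀ g, ∀ z ∈ Z, lin o (permRep G (Cell G S) g z) =
      Additive.ofMul (ρ g (Additive.toMul (lin o z))))
    (p : (Cell G S →₀ ℤ) →ₗ[ℤ] (Cell G S →₀ ℤ)) (hp : ∀ z ∈ Z, p z = z) (hp' : ∀ c, p c ∈ Z)
    (hpo : ∀ c, lin o (p c) = lin o c) : RelData o ρ Z := by
  obtain ⟨R, hR, z, hz⟩ := hZ.exists_gen
  choose r hr using fun t => abw_surjective (Cell G S) (Multiplicative.ofAdd (z t))
  have hr' : ∀ t, Multiplicative.toAdd (abw _ (r t)) = z t := fun t => by rw [hr]; rfl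
  have hzZ : ∀ t, z t ∈ Z := fun t => by
    rw [← hz]
    exact ⟨Finsupp.single ⟨1, t⟩ 1, by simp⟩
  refine ⟨R, hR, r, p, fun t => by rw [hr']; exact hzZ t, hp, fun g t => ?_, fun c => ?_⟩
  · apply Additive.ofMul.injective
    rw [← lin_abw, abw_map, hr', hE g _ (hzZ t), ← hr', lin_abw]
    rfl
  · have key : ∀ y : Cell G R →₀ ℤ, ∃ w ∈ Subgroup.normalClosure
        (range fun e : Cell G R => FreeGroup.map (fun c : Cell G S => e.g • c) (r e.s)),
        Multiplicative.toAdd (abw _ w) = orb (permRep G (Cell G S)) z y := by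
      intro y
      induction y using Finsupp.induction_linear with
      | zero => exact ⟨1, Subgroup.one_mem _, by simp⟩
      | add a b ha hb =>
        obtain ⟨u, hu, hu'⟩ := ha
        obtain ⟨v, hv, hv'⟩ := hb
        exact ⟨u * v, Subgroup.mul_mem _ hu hv, by rw [map_mul, toAdd_mul, hu', hv', map_add]⟩
      | single e k =>
        refine ⟨FreeGroup.map (fun c : Cell G S => e.g • c) (r e.s) ^ k,
          Subgroup.zpow_mem _ (Subgroup.subset_normalClosure (mem_range_self e)) k, ?_⟩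
        rw [map_zpow, toAdd_zpow, abw_map, hr', orb_single]
    have h1 := hp' (Finsupp.single c 1)
    rw [← hz] at h1
    obtain ⟨y, hy⟩ := h1
    obtain ⟨w, hw, hw'⟩ := key y
    refine ⟨w, hw, ?_, hw'.trans hy⟩
    apply Additive.ofMul.injective
    rw [← lin_abw, hw', hy, hpo, lin_single, one_smul]

/-- gluing the extension of the contraction (`Att.glue`, `Att.final` with `W = PS c₀`; end points
by `Att.surj`) -/
theorem Att.exists_ctr (T : Att G m a₀ b₀ S) (K : T.Ctr) (T' : Att G (m + 1) b₀ c₀ S')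
    (Λ : Cell G S → C(Cb (m + 1), PS c₀))
    (he : ∀ c y, (Λ c y).e = T'.i (c.g • T.χ c.s y))
    (hb : ∀ c (y : Bd (m + 1)), Λ c y = PS.map T'.i T'.base (K.1 (c.g • att (T.φ c.s) y))) :
    ∃ K' : T'.Ctr, (∀ a, K'.1 (T.i a) = PS.map T'.i T'.base (K.1 a)) ∧
      ∀ c y, K'.1 (c.g • T.χ c.s y) = Λ c y := by
  obtain ⟨f, h1, h2⟩ := T.glue (PS c₀) (fun a => PS.map T'.i T'.base (K.1 a)) (fun c y => Λ c y) hb
  have hf : Continuous f := by
    refine T.final _ f ?_ (fun g s => ?_)
    · simp only [h1]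
      exact (PS.map T'.i T'.base).continuous.comp K.1.continuous
    · have : (fun x => f (g • T.χ s x)) = Λ ⟨g, s⟩ := funext fun x => h2 ⟨g, s⟩ x
      rw [this]
      exact (Λ _).continuous
  refine ⟨⟨⟨f, hf⟩, fun b => ?_⟩, h1, h2⟩
  change (f b).e = T'.i b
  rcases T.surj b with ⟨a, rfl⟩ | ⟨g, s, x, rfl⟩
  · rw [h1, PS.map_e, K.2]; rfl
  · exact (congrArg PS.e (h2 ⟨g, s⟩ x)).trans (he ⟨g, s⟩ x)

theorem PS.part_zero' {W : Type} [TopologicalSpace W] {w₀ : W} (γ : PS w₀) :
    PS.part (γ, 0) = PS.const w₀ := by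
  ext τ
  change γ.1 (0 * τ) = w₀
  rw [zero_mul, γ.2]

theorem PS.part_one' {W : Type} [TopologicalSpace W] {w₀ : W} (γ : PS w₀) :
    PS.part (γ, 1) = γ := by
  ext τ
  change γ.1 (1 * τ) = _
  rw [one_mul]

theorem PS.map_const' {W W' : Type} [TopologicalSpace W] [TopologicalSpace W'] {w₀ : W} {w₀' : W'}
    (F : C(W, W')) (h : F w₀ = w₀') : PS.map F h (PS.const w₀) = PS.const w₀' := by
  ext τ
  exact h

theorem W2.ext' {W : Type} [TopologicalSpace W] {w₀ : W} {z z' : W2 w₀} (hp : z.p = z'.p)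
    (hq : z.q = z'.q) : z = z' := Subtype.ext (Prod.ext hp hq)

/-- a family of paths in `W2` from two families of paths of paths -/
theorem exists_lift_W2 {W Y : Type} [TopologicalSpace W] [TopologicalSpace Y] {w₀ : W}
    (E : C(Y, W2 w₀)) (p q : C(Y × I, PS w₀)) (he : ∀ x, (p x).e = (q x).e)
    (hp0 : ∀ y, p (y, 0) = PS.const w₀) (hq0 : ∀ y, q (y, 0) = PS.const w₀)
    (hp1 : ∀ y, p (y, 1) = (E y).p) (hq1 : ∀ y, q (y, 1) = (E y).q) :
    ∃ L : Lift E (W2.const w₀), ∀ y u, ((L.1 y).1 u).p = p (y, u) ∧ ((L.1 y).1 u).q = q (y, u) := by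
  let M : C(Y × I, W2 w₀) :=
    ⟨fun x => ⟨(p x, q x), he x⟩, W2.continuous_of p.continuous q.continuous⟩
  let L : C(Y, PS (W2.const w₀)) :=
    ⟨fun y => ⟨M.curry y, W2.ext' (hp0 y) (hq0 y)⟩, PS.continuous_of M.continuous⟩
  exact ⟨⟨L, fun y => W2.ext' (hp1 y) (hq1 y)⟩, fun y u => ⟨rfl, rfl⟩⟩

/-- The classes of the cylinders cancel on cycles.  Apply `QQ` in `W2 c₀` to
`F b = (K' b, K' b)`, `L a u = (part (K' (i a), u), K' (K a u))`,
`L₂ b u = (part (K' b, u), part (K' b, u))` and `θ = J (W2.const c₀)`; `cap_of_J` identifies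
`θ (T.ob F L c)` with `((P c).dat K').cap`. -/
theorem Att.cyl_cancel (T : Att G m a₀ b₀ S) (K : T.Ctr) (hK : K.1 a₀ = PS.const b₀)
    {Z : Submodule ℤ (Cell G S →₀ ℤ)} (hQ : T.QQ Z) (T' : Att G (m + 1) b₀ c₀ S') (K' : T'.Ctr)
    (hK' : ∀ a, K'.1 (T.i a) = PS.map T'.i T'.base (K.1 a))
    (Λ : Cell G S → C(Cb (m + 1), PS c₀)) (hΛ : ∀ c y, K'.1 (c.g • T.χ c.s y) = Λ c y)
    (P : Cell G S → PM (m + 2) ((ContinuousMap.id C).comp T'.i))
    (hP : ∀ c, IsCyl T'.i ((T.cell (ContinuousMap.id B) c).dat K) (Λ c) (P c)) :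
    ∀ z ∈ Z, lin (fun c => ((P c).dat K').cap) z = 0 := by
  have hb₀ : K'.1 b₀ = PS.const c₀ := by
    have := hK' a₀
    rwa [T.base, hK, PS.map_const'] at this
  let F : C(B, W2 c₀) :=
    ⟨fun b => ⟨(K'.1 b, K'.1 b), rfl⟩, W2.continuous_of K'.1.continuous K'.1.continuous⟩
  obtain ⟨L, hL⟩ := exists_lift_W2 (F.comp T.i)
    (PS.part.comp ((K'.1.comp T.i).prodMap (ContinuousMap.id I)))
    (K'.1.comp ⟨fun x : A × I => (K.1 x.1).1 x.2,
      PS.continuous_ev.comp (K.1.continuous.prodMap continuous_id)⟩)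
    (fun x => by
      change (PS.part (K'.1 (T.i x.1), x.2)).e = (K'.1 ((K.1 x.1).1 x.2)).e
      rw [PS.part_e, hK', K'.2]; rfl)
    (fun a => PS.part_zero' _)
    (fun a => by
      change K'.1 ((K.1 a).1 0) = _
      rw [(K.1 a).2, hb₀])
    (fun a => PS.part_one' _)
    (fun a => by
      change K'.1 (K.1 a).e = K'.1 (T.i a)
      rw [K.2]; rfl)
  obtain ⟨L₂, -⟩ := exists_lift_W2 F
    (PS.part.comp (K'.1.prodMap (ContinuousMap.id I)))
    (PS.part.comp (K'.1.prodMap (ContinuousMap.id I))) (fun _ => rfl)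
    (fun a => PS.part_zero' _) (fun a => PS.part_zero' _) (fun a => PS.part_one' _)
    (fun a => PS.part_one' _)
  obtain ⟨J, hJ, -⟩ := exists_J m c₀
  intro z hz
  have h := hQ (W2 c₀) (W2.const c₀) F L L₂ (Pn (m + 2) C c₀) (J (W2.const c₀)) z hz
  have e : ∀ c, ((P c).dat K').cap = J (W2.const c₀) (T.ob F L c) := by
    intro c
    obtain ⟨p1, p2, p3, p4⟩ := hP c
    refine cap_of_J (J (W2.const c₀)) (hJ _) ((T.cell F c).dat L) (fun y u => ?_) _
      (fun x => ?_) (fun x hx => ?_) (fun x hx => ?_) (fun x y hy => ?_)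
    · refine (hL _ u).1.trans ?_
      change PS.part (K'.1 (T.i (c.g • att (T.φ c.s) y)), u) =
        PS.part (K'.1 (c.g • T.χ c.s y), u)
      rw [T.i_smul, T.χ_bd]
    · change (P c).f x = (K'.1 (c.g • T.χ c.s (Fin.tail x))).1 (x 0)
      rw [p1, hΛ]
    · change K'.1 ((P c).β x) = _
      rw [p2 x hx, hb₀]
    · change K'.1 ((P c).β x) = _
      rw [p3 x hx]; rfl
    · change K'.1 ((P c).β x) = _
      rw [p4 x y hy]
      exact (hL _ _).2.symm
  rw [funext e]
  exact h

/-- The step.  `S' = R`, `φ t` represents `τ (r t)`, `τ = lift (T.ob id K)`,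
`∂ = orb permRep (ab ∘ r)`, `range ∂ = Z` (`⊇` from `z = p z` and `exists_fill`), `Z' = ker ∂`
(`Syz.ker`).  `exists_fill` with `k = T.kp K` gives chains `a c` with `∂ (a c) = p (single c 1)`,
`exists_cyl` gives `Λ c`, `P c`, `exists_ctr` gives `K'`.  `Cyc T' (T.kp K) Z'` follows from
`lin_abw`; then `qq_of_cyc`, `equivariant`, and `relData_of_comm` with `p' = id - h ∘ ∂`,
`h = linearCombination a`, using `cyl_cancel` for `lin ob' (h z) = 0` (`z ∈ Z`). -/
theorem Inv.step {T : Att G m a₀ b₀ S} {K : T.Ctr} {Z : Submodule ℤ (Cell G S →₀ ℤ)}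
    (h : Inv T K Z) : ∃ (S' : Type) (_ : Finite S') (φ : S' → Lp (m + 1) B b₀),
      ∀ (C : Type) [TopologicalSpace C] [MulAction G C] [ContinuousConstSMul G C] (c₀ : C)
        (T' : Att G (m + 1) b₀ c₀ S'), T'.φ = φ →
        ∃ (K' : T'.Ctr) (Z' : Submodule ℤ (Cell G S' →₀ ℤ)), Inv T' K' Z' ∧
          ∀ a, K'.1 (T.i a) = PS.map T'.i T'.base (K.1 a) := by
  obtain ⟨R, hR, r, p, hrZ, hp, hρ, hw⟩ := h.rel
  set o := T.ob (ContinuousMap.id B) K with ho
  refine ⟨R, hR, fun t => Quotient.out (FreeGroup.lift o (r t)), fun C _ _ _ c₀ T' hφ => ?_⟩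
  have hφ' : ∀ t, (⟦T'.φ t⟧ : Pn (m + 1) B b₀) = FreeGroup.lift o (r t) := fun t => by
    rw [hφ]; exact Quotient.out_eq _
  let z : R → (Cell G S →₀ ℤ) := fun t => Multiplicative.toAdd (abw _ (r t))
  let d := orb (permRep G (Cell G S)) z
  let r' : Cell G R → FreeGroup (Cell G S) :=
    fun e => FreeGroup.map (fun c : Cell G S => e.g • c) (r e.s)
  have hr : ∀ e : Cell G R, FreeGroup.lift o (r' e) = trRho (T.kp K e.g) ⟦T'.φ e.s⟧ := fun e => by
    rw [hφ']; exact (hρ e.g e.s).symm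
  have hd : ∀ e, d (Finsupp.single e 1) = Multiplicative.toAdd (abw _ (r' e)) := fun e => by
    simp only [d, r', z, orb_single, one_smul, abw_map]
  choose w hwN hwo hwp using hw
  choose a had haH using fun c =>
    Att.exists_fill (T := T') (FreeGroup.lift o) (T.kp K) r' hr d hd (w c) (hwN c)
  choose Λ P he hb hP hcap using fun c =>
    Att.exists_cyl (T := T') ((T.cell (ContinuousMap.id B) c).dat K) (a c)
      (fun ψ hψ => haH c ψ (hψ.trans (hwo c).symm))
  obtain ⟨K', hK', hΛ⟩ := T.exists_ctr K T' Λ he hb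
  let hm : (Cell G S →₀ ℤ) →ₗ[ℤ] (Cell G R →₀ ℤ) := Finsupp.linearCombination ℤ a
  have hdh : ∀ y, d (hm y) = p y := by
    intro y
    have : d ∘ₗ hm = p := by
      refine Finsupp.lhom_ext' fun c => LinearMap.ext_ring ?_
      simp only [hm, LinearMap.comp_apply, Finsupp.lsingle_apply,
        Finsupp.linearCombination_single, one_smul, had, hwp]
    exact LinearMap.congr_fun this y
  have hdZ : ∀ y, d y ∈ Z := by
    intro y
    induction y using Finsupp.induction_linear with
    | zero => rw [map_zero]; exact Z.zero_mem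
    | add u v hu hv => rw [map_add]; exact Z.add_mem hu hv
    | single e k =>
      simp only [d, orb_single]
      exact Z.smul_mem k (h.syz.smul_mem e.g (hrZ e.s))
  have hrange : LinearMap.range d = Z := by
    refine le_antisymm ?_ fun y hy => ⟨hm y, (hdh y).trans (hp y hy)⟩
    rintro _ ⟨y, rfl⟩
    exact hdZ y
  have hsyz : Syz G (LinearMap.ker d) := h.syz.ker z hrange
  have hbase : K'.1 b₀ = PS.const c₀ := by
    have := hK' a₀
    rwa [T.base, h.base, PS.map_const'] at this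
  have hcyc : T'.Cyc (T.kp K) (LinearMap.ker d) := by
    intro X _ θ y hy
    have : lin (fun c : Cell G R => θ (trRho (T.kp K c.g) ⟦T'.φ c.s⟧)) =
        lin (fun c => θ (o c)) ∘ₗ d := by
      refine Finsupp.lhom_ext' fun e => LinearMap.ext_ring ?_
      simp only [LinearMap.comp_apply, Finsupp.lsingle_apply, lin_single, one_smul]
      rw [hd, lin_abw, ← hr]
      congr 1
      exact FreeGroup.lift_unique (θ.comp (FreeGroup.lift o)) (fun x => by simp)
    rw [this, LinearMap.comp_apply, LinearMap.mem_ker.1 hy, map_zero]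
  have hk : ∀ g : G, K'.1 (g • b₀) = PS.map T'.i T'.base (PS.ofPath (T.kp K g)) := by
    intro g
    have := hK' (g • a₀)
    rw [T.i_smul, T.base] at this
    rw [this]
    rfl
  have hcan := T.cyl_cancel K h.base h.qq T' K' hK' Λ hΛ P hP
  have hoh : ∀ y ∈ Z, lin (T'.ob (ContinuousMap.id C) K') (hm y) = 0 := by
    intro y hy
    have : lin (T'.ob (ContinuousMap.id C) K') ∘ₗ hm = -lin (fun c => ((P c).dat K').cap) := by
      refine Finsupp.lhom_ext' fun c => LinearMap.ext_ring ?_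
      simp only [hm, LinearMap.comp_apply, Finsupp.lsingle_apply,
        Finsupp.linearCombination_single, one_smul, LinearMap.neg_apply, lin_single, hcap c K',
        neg_neg]
    have h2 := LinearMap.congr_fun this y
    rw [LinearMap.comp_apply, LinearMap.neg_apply, hcan y hy, neg_zero] at h2
    exact h2
  refine ⟨K', LinearMap.ker d, ⟨hbase, hsyz, T'.qq_of_cyc _ hcyc, ?_⟩, hK'⟩
  refine relData_of_comm (T'.ob (ContinuousMap.id C) K') (fun g => trRho (T'.kp K' g)) hsyz
    (fun g y hy => T'.equivariant K' hbase (T.kp K) hk (fun g y hy => hsyz.smul_mem g hy) hcyc g y hy)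
    (LinearMap.id - hm ∘ₗ d) (fun y hy => ?_) (fun y => ?_) (fun y => ?_)
  · rw [LinearMap.sub_apply, LinearMap.comp_apply, LinearMap.mem_ker.1 hy, map_zero, sub_zero]
    rfl
  · rw [LinearMap.mem_ker, LinearMap.sub_apply, LinearMap.comp_apply, map_sub, hdh,
      hp _ (hdZ y), LinearMap.id_apply, sub_self]
  · rw [LinearMap.sub_apply, LinearMap.comp_apply, map_sub, hoh _ (hdZ y), sub_zero]
    rfl

end Crest.Agent.R185
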