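import Crest.Agent.R185.FPres

/-! # Row 185: Brown's criterion for finite generation and finite presentability -/

set_option autoImplicit false

namespace Crest.Agent.R185

open Function

variable {G : Type} [Group G]

/-- a non-abelian 1-cocycle on the relation `r` -/
def IsCoc {V K : Type} [Group K] (r : V → V → Prop) (c : V → V → K) : Prop :=
  ∀ x y z, r x y → r y z → r x z → c x z = c x y * c y z

/-- every cocycle on `r` is a coboundary -/
def SimplyConn {V : Type} (r : V → V → Prop) : Prop :=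
  ∀ (K : Type) [Group K] (c : V → V → K), IsCoc r c → ∃ b : V → K, ∀ x y, r x y → c x y = (b x)⁻¹ * b y

/-- nonempty and connected -/
def RelConn {V : Type} (r : V → V → Prop) : Prop :=
  Nonempty V ∧ ∀ x y, Relation.EqvGen r x y

/-- finite generation from an action on a connected graph: the subgroup `L` generated by the
stabilisers of the orbit representatives `V₀` and by elements carrying the ends of the edge
representatives into `V₀` satisfies that `L • V₀` is closed under `r` in both directions. -/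
theorem fg_of_action {V : Type} [MulAction G V] (r : V → V → Prop)
    (hr : ∀ (g : G) x y, r x y → r (g • x) (g • y)) (hc : RelConn r)
    (h0 : ∃ s : Set V, s.Finite ∧ ∀ x, ∃ (g : G), g • x ∈ s)
    (h1 : ∃ s : Set (V × V), s.Finite ∧ ∀ x y, r x y → ∃ (g : G), (g • x, g • y) ∈ s)
    (hv : ∀ x : V, Group.FG (MulAction.stabilizer G x)) : Group.FG G := by
  classical
  obtain ⟨s₀, hs₀, h0⟩ := h0
  obtain ⟨s₁, hs₁, h1⟩ := h1
  choose γ hγ using h0
  have hτ : ∀ u v : V, ∃ τ : G, (∃ g : G, g • u = v) → τ • u = v := by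
    intro u v
    by_cases h : ∃ g : G, g • u = v
    · obtain ⟨g, hg⟩ := h
      exact ⟨g, fun _ => hg⟩
    · exact ⟨1, fun h' => absurd h' h⟩
  choose τ hτ using hτ
  set A : Set G := (fun a : V × V => γ a.1) '' s₁ ∪ (fun a : V × V => γ a.2) '' s₁ ∪
    (fun a : V × V => τ a.1 a.2) '' (s₀ ×ˢ s₀) with hA
  have hAf : A.Finite := ((hs₁.image _).union (hs₁.image _)).union ((hs₀.prod hs₀).image _)
  set L : Subgroup G := (⨆ v ∈ s₀, MulAction.stabilizer G v) ⊔ Subgroup.closure A with hL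
  have hLfg : L.FG :=
    (Subgroup.FG.biSup hs₀ _ fun v _ => (Group.fg_iff_subgroup_fg _).1 (hv v)).sup
      ((Subgroup.fg_iff _).2 ⟨A, rfl, hAf⟩)
  have hAL : ∀ a ∈ A, a ∈ L := fun a ha => Subgroup.mem_sup_right (Subgroup.subset_closure ha)
  have key : ∀ (g : G) u, u ∈ s₀ → g • u ∈ s₀ → g ∈ L := by
    intro g u hu hgu
    have h1 : τ u (g • u) ∈ L := hAL _ (Or.inr ⟨(u, g • u), ⟨hu, hgu⟩, rfl⟩)
    have h2 : (τ u (g • u))⁻¹ * g ∈ L := by
      refine Subgroup.mem_sup_left ?_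
      refine (le_iSup₂ (f := fun v (_ : v ∈ s₀) => MulAction.stabilizer G v) u hu) ?_
      rw [MulAction.mem_stabilizer_iff, mul_smul, inv_smul_eq_iff, hτ u _ ⟨g, rfl⟩]
    simpa using L.mul_mem h1 h2
  have step : ∀ (g : G) x y, γ (g • x) ∈ L → γ (g • y) ∈ L → (∃ l ∈ L, l • x ∈ s₀) →
      ∃ l ∈ L, l • y ∈ s₀ := by
    rintro g x y hx hy ⟨l, hl, hlx⟩
    have h3 : γ (g • x) * g * l⁻¹ ∈ L := key _ _ hlx (by
      rw [mul_smul, inv_smul_smul, mul_smul]; exact hγ _)
    have h4 : g ∈ L := by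
      simpa [mul_assoc] using L.mul_mem (L.mul_mem (L.inv_mem hx) h3) hl
    exact ⟨γ (g • y) * g, L.mul_mem hy h4, by rw [mul_smul]; exact hγ _⟩
  have hP : ∀ x y, Relation.EqvGen r x y → ((∃ l ∈ L, l • x ∈ s₀) ↔ ∃ l ∈ L, l • y ∈ s₀) := by
    intro x y h
    induction h with
    | rel x y h =>
      obtain ⟨g, hg⟩ := h1 x y h
      have hx : γ (g • x) ∈ L := hAL _ (Or.inl (Or.inl ⟨_, hg, rfl⟩))
      have hy : γ (g • y) ∈ L := hAL _ (Or.inl (Or.inr ⟨_, hg, rfl⟩))
      exact ⟨step g x y hx hy, step g y x hy hx⟩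
    | refl x => exact Iff.rfl
    | symm x y _ ih => exact ih.symm
    | trans x y z _ _ ih ih' => exact ih.trans ih'
  obtain ⟨⟨x₀⟩, hc⟩ := hc
  have htop : L = ⊤ := by
    rw [eq_top_iff]
    intro g _
    obtain ⟨l, hl, hlx⟩ := (hP _ (g • γ x₀ • x₀) (hc _ _)).1 ⟨1, L.one_mem, by
      rw [one_smul]; exact hγ x₀⟩
    have h5 : l * g ∈ L := key _ _ (hγ x₀) (by rw [mul_smul]; exact hlx)
    simpa using L.mul_mem (L.inv_mem hl) h5
  exact ⟨htop ▸ hLfg⟩

/-- A principal bundle with a flat connection over a simply connected relation has an invariant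
flat section up to the structure group: the core of Brown's criterion.  `E` is a `G'`-set over `V`
on which `K = ker p` acts simply transitively on the fibres, `t` is an invariant relation over `r`
that is a bijection of fibres along each edge and is flat on triangles.  Choose base points `e x`
in the fibres, `c x y ∈ K` with `t (e x) (c x y • e y)` is a cocycle, so `s x = (b x)⁻¹ • e x` (or
the like) is a flat section; for `g : G'` the section `g • s (p g⁻¹ • ·)` is flat too, hence equal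
to `k • s` for one `k ∈ K` (connectedness), so the stabiliser of `s` maps bijectively onto `G`. -/
theorem exists_section {V E G' : Type} [Group G'] [MulAction G V] [MulAction G' E]
    (p : G' →* G) (hp : Surjective p) (π : E → V) (hπ : Surjective π)
    (hπe : ∀ (g : G') e, π (g • e) = p g • π e)
    (htr : ∀ e e', π e = π e' → ∃ k ∈ p.ker, k • e = e')
    (hfree : ∀ k ∈ p.ker, ∀ e : E, k • e = e → k = 1)
    (r : V → V → Prop) (hr : ∀ (g : G) x y, r x y → r (g • x) (g • y))
    (hc : RelConn r) (hs : SimplyConn r) (t : E → E → Prop)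
    (ht : ∀ (g : G') e e', t e e' → t (g • e) (g • e'))
    (htr' : ∀ e e', t e e' → r (π e) (π e'))
    (hex : ∀ e y, r (π e) y → ∃ e', π e' = y ∧ t e e')
    (huniq : ∀ e e' e'', t e e' → t e e'' → π e' = π e'' → e' = e'')
    (hflat : ∀ e e' e'', t e e' → t e' e'' → r (π e) (π e'') → t e e'') :
    ∃ σ : G →* G', ∀ g, p (σ g) = g := by
  classical
  have hker : ∀ k ∈ p.ker, ∀ e, π (k • e) = π e := by
    intro k hk e
    rw [hπe, (MonoidHom.mem_ker).1 hk, one_smul]
  have hcanc : ∀ k ∈ p.ker, ∀ k' ∈ p.ker, ∀ e : E, k • e = k' • e → k = k' := by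
    intro k hk k' hk' e h
    have := hfree (k'⁻¹ * k) (p.ker.mul_mem (p.ker.inv_mem hk') hk) e (by
      rw [mul_smul, h, inv_smul_smul])
    exact (inv_mul_eq_one.1 this).symm
  choose e he using hπ
  have hcex : ∀ x y, ∃ c : p.ker, r x y → t (e x) ((c : G') • e y) := by
    intro x y
    by_cases h : r x y
    · obtain ⟨e', he', hte⟩ := hex (e x) y (by rw [he]; exact h)
      obtain ⟨k, hk, hke⟩ := htr (e y) e' (by rw [he, he'])
      exact ⟨⟨k, hk⟩, fun _ => by simpa [hke] using hte⟩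
    · exact ⟨1, fun h' => absurd h' h⟩
  choose c hcx using hcex
  have hcoc : IsCoc r c := by
    intro x y z hxy hyz hxz
    have h1 := ht (c x y : G') _ _ (hcx y z hyz)
    have h2 := hflat _ _ _ (hcx x y hxy) h1 (by
      rw [hker _ (c x y).2, hker _ (c y z).2, he, he]; exact hxz)
    have h3 := huniq _ _ _ (hcx x z hxz) h2 (by
      rw [hker _ (c x y).2, hker _ (c y z).2, hker _ (c x z).2])
    rw [← mul_smul] at h3
    exact Subtype.ext (hcanc _ (c x z).2 _ (c x y * c y z).2 _ h3)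
  obtain ⟨b, hb⟩ := hs _ c hcoc
  set s : V → E := fun x => (b x : G') • e x with hsdef
  have hsπ : ∀ x, π (s x) = x := fun x => by
    simp only [hsdef]; rw [hker _ (b x).2, he]
  have hst : ∀ x y, r x y → t (s x) (s y) := by
    intro x y h
    have h1 := ht (b x : G') _ _ (hcx x y h)
    rw [hb x y h, ← mul_smul] at h1
    simpa [hsdef] using h1
  obtain ⟨⟨x₀⟩, hc⟩ := hc
  -- two flat sections differ by a constant
  have huniqs : ∀ s' : V → E, (∀ x, π (s' x) = x) → (∀ x y, r x y → t (s' x) (s' y)) →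
      ∃ k ∈ p.ker, ∀ x, k • s x = s' x := by
    intro s' hs'π hs't
    have fw : ∀ k ∈ p.ker, ∀ x y, r x y → k • s x = s' x → k • s y = s' y := by
      intro k hk x y h hx
      have h1 := ht k _ _ (hst x y h)
      rw [hx] at h1
      exact huniq _ _ _ h1 (hs't x y h) (by rw [hker _ hk, hsπ, hs'π])
    obtain ⟨k, hk, hk0⟩ := htr (s x₀) (s' x₀) (by rw [hsπ, hs'π])
    have hP : ∀ x y, Relation.EqvGen r x y → (k • s x = s' x ↔ k • s y = s' y) := by
      intro x y h
      induction h with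
      | rel x y h =>
        refine ⟨fw k hk x y h, fun hy => ?_⟩
        obtain ⟨k', hk', hk'x⟩ := htr (s x) (s' x) (by rw [hsπ, hs'π])
        have h2 := fw k' hk' x y h hk'x
        rw [hcanc k hk k' hk' (s y) (hy.trans h2.symm)]
        exact hk'x
      | refl x => exact Iff.rfl
      | symm x y _ ih => exact ih.symm
      | trans x y z _ _ ih ih' => exact ih.trans ih'
    exact ⟨k, hk, fun x => (hP x₀ x (hc _ _)).1 hk0⟩
  let S : Subgroup G' :=
    { carrier := {g | ∀ x, g • s x = s (p g • x)}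
      one_mem' := fun x => by simp
      mul_mem' := by
        intro g h hg hh x
        rw [mul_smul, hh x, hg, map_mul, mul_smul]
      inv_mem' := by
        intro g hg x
        rw [inv_smul_eq_iff, hg, map_inv, smul_inv_smul] }
  have hbij : Bijective (p.comp S.subtype) := by
    constructor
    · rw [← MonoidHom.ker_eq_bot_iff, eq_bot_iff]
      rintro ⟨g, hg⟩ hg1
      have hg2 : p g = 1 := hg1
      have : g = 1 := hfree g hg2 (s x₀) (by rw [hg x₀, hg2, one_smul])
      simpa using this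
    · intro h
      obtain ⟨g, rfl⟩ := hp h
      obtain ⟨k, hk, hks⟩ := huniqs (fun x => g • s ((p g)⁻¹ • x))
        (fun x => by rw [hπe, hsπ, smul_inv_smul])
        (fun x y h => ht _ _ _ (hst _ _ (hr _ _ _ h)))
      have hk1 : p k = 1 := hk
      refine ⟨⟨k⁻¹ * g, fun x => ?_⟩, by simp [hk1]⟩
      have := hks (p g • x)
      simp only [inv_smul_smul] at this
      rw [mul_smul, ← this, inv_smul_smul, map_mul, map_inv, hk1, inv_one, one_mul]
  refine ⟨S.subtype.comp (MulEquiv.ofBijective _ hbij).symm.toMonoidHom, fun g => ?_⟩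
  exact (MulEquiv.ofBijective _ hbij).apply_symm_apply g

/-- the orbit space of a normal subgroup `M` carries an action of `F ⧸ M` -/
theorem Brown_quot {F E : Type} [Group F] [MulAction F E] (M : Subgroup F) [hM : M.Normal] :
    ∃ (E' : Type) (_ : MulAction (F ⧸ M) E') (ρ : E → E'), Surjective ρ ∧
      (∀ (f : F) e, ρ (f • e) = (QuotientGroup.mk f : F ⧸ M) • ρ e) ∧
      ∀ e e', ρ e = ρ e' ↔ ∃ m ∈ M, m • e = e' := by
  let s : Setoid E :=
    { r := fun e e' => ∃ m ∈ M, m • e = e'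
      iseqv :=
        { refl := fun e => ⟨1, M.one_mem, one_smul _ _⟩
          symm := by
            rintro e e' ⟨m, hm, rfl⟩
            exact ⟨m⁻¹, M.inv_mem hm, inv_smul_smul _ _⟩
          trans := by
            rintro e e' e'' ⟨m, hm, rfl⟩ ⟨m', hm', rfl⟩
            exact ⟨m' * m, M.mul_mem hm' hm, mul_smul _ _ _⟩ } }
  let act : F → Quotient s → Quotient s := fun f => Quotient.map (f • ·) (by
    rintro e e' ⟨m, hm, rfl⟩
    exact ⟨f * m * f⁻¹, hM.conj_mem _ hm f, by simp [mul_smul]⟩)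
  have hact : ∀ f e, act f (Quotient.mk s e) = Quotient.mk s (f • e) := fun _ _ => rfl
  let act' : F ⧸ M → Quotient s → Quotient s := Quotient.lift act (by
    intro f f' h
    have h' : f⁻¹ * f' ∈ M := QuotientGroup.leftRel_apply.1 h
    funext a
    induction a using Quotient.inductionOn with
    | h e =>
      rw [hact, hact]
      exact Quotient.sound ⟨f * (f⁻¹ * f') * f⁻¹, hM.conj_mem _ h' f, by simp [mul_smul]⟩)
  have hact' : ∀ (f : F) e, act' (QuotientGroup.mk f) (Quotient.mk s e) = Quotient.mk s (f • e) :=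
    fun _ _ => rfl
  refine ⟨Quotient s,
    { smul := act'
      one_smul := ?h1
      mul_smul := ?h2 }, Quotient.mk s, Quotient.mk_surjective, fun f e => rfl,
    fun e e' => Quotient.eq⟩
  case h1 =>
    intro a
    induction a using Quotient.inductionOn with
    | h e =>
      change act' (QuotientGroup.mk 1) _ = _
      rw [hact', one_smul]
  case h2 =>
    intro f g a
    induction f using QuotientGroup.induction_on with
    | H f =>
      induction g using QuotientGroup.induction_on with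
      | H g =>
        induction a using Quotient.inductionOn with
        | h e =>
          change act' (QuotientGroup.mk (f * g)) _ = act' _ (act' _ _)
          rw [hact', hact', hact', mul_smul]

/-- `exists_section` with all hypotheses modulo a normal subgroup `M ≤ ker φ` -/
theorem Brown_section_mod {V E F : Type} [Group F] [MulAction G V] [MulAction F E]
    (φ : F →* G) (hφ : Surjective φ) (π : E → V) (hπ : Surjective π)
    (hπe : ∀ (g : F) e, π (g • e) = φ g • π e)
    (htr : ∀ e e', π e = π e' → ∃ k ∈ φ.ker, k • e = e')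
    (M : Subgroup F) [hMn : M.Normal] (hM : M ≤ φ.ker)
    (hfree : ∀ k ∈ φ.ker, ∀ e : E, k • e = e → k ∈ M)
    (r : V → V → Prop) (hr : ∀ (g : G) x y, r x y → r (g • x) (g • y))
    (hc : RelConn r) (hs : SimplyConn r) (t : E → E → Prop)
    (ht : ∀ (g : F) e e', t e e' → t (g • e) (g • e'))
    (htr' : ∀ e e', t e e' → r (π e) (π e'))
    (hex : ∀ e y, r (π e) y → ∃ e', π e' = y ∧ t e e')
    (huniq : ∀ e e' e'', t e e' → t e e'' → π e' = π e'' → ∃ m ∈ M, m • e' = e'')
    (hflat : ∀ e e' e'', t e e' → t e' e'' → r (π e) (π e'') → ∃ m ∈ M, t e (m • e'')) :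
    ∃ σ : G →* F ⧸ M, ∀ g, QuotientGroup.lift M φ hM (σ g) = g := by
  obtain ⟨E', inst, ρ, hρ, hρe, hρk⟩ := Brown_quot (E := E) M
  have hker : ∀ k ∈ M, ∀ e, π (k • e) = π e := by
    intro k hk e
    rw [hπe, (MonoidHom.mem_ker).1 (hM hk), one_smul]
  have hρm : ∀ m ∈ M, ∀ e, ρ (m • e) = ρ e := fun m hm e =>
    ((hρk _ _).2 ⟨m, hm, rfl⟩).symm
  let π' : E' → V := fun a => π (surjInv hρ a)
  have hπ' : ∀ e, π' (ρ e) = π e := by
    intro e
    obtain ⟨m, hm, h⟩ := (hρk (surjInv hρ (ρ e)) e).1 (surjInv_eq hρ _)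
    conv_rhs => rw [← h, hker m hm]
  let t' : E' → E' → Prop := fun a b => ∃ e e', ρ e = a ∧ ρ e' = b ∧ t e e'
  have ht' : ∀ e b, t' (ρ e) b → ∃ e', ρ e' = b ∧ t e e' := by
    rintro e b ⟨e₁, e₂, h1, rfl, h⟩
    obtain ⟨m, hm, rfl⟩ := (hρk _ _).1 h1
    exact ⟨m • e₂, hρm m hm _, ht _ _ _ h⟩
  refine exists_section (QuotientGroup.lift M φ hM) ?_ π' ?_ ?_ ?_ ?_ r hr hc hs t' ?_ ?_ ?_ ?_ ?_
  · intro g
    obtain ⟨f, rfl⟩ := hφ g
    exact ⟨QuotientGroup.mk f, rfl⟩
  · intro x
    obtain ⟨e, rfl⟩ := hπ x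
    exact ⟨ρ e, hπ' e⟩
  · intro g a
    obtain ⟨e, rfl⟩ := hρ a
    induction g using QuotientGroup.induction_on with
    | H f => rw [← hρe, hπ', hπ', hπe]; rfl
  · intro a b h
    obtain ⟨e, rfl⟩ := hρ a
    obtain ⟨e', rfl⟩ := hρ b
    rw [hπ', hπ'] at h
    obtain ⟨k, hk, rfl⟩ := htr e e' h
    exact ⟨QuotientGroup.mk k, hk, (hρe _ _).symm⟩
  · intro k hk a h
    obtain ⟨e, rfl⟩ := hρ a
    induction k using QuotientGroup.induction_on with
    | H f =>
      rw [← hρe] at h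
      obtain ⟨m, hm, h'⟩ := (hρk _ _).1 h
      have hf : f ∈ φ.ker := hk
      have h1 : m * f ∈ M := hfree _ (φ.ker.mul_mem (hM hm) hf) e (by rw [mul_smul, h'])
      rw [QuotientGroup.eq_one_iff]
      simpa using M.mul_mem (M.inv_mem hm) h1
  · rintro g _ _ ⟨e, e', rfl, rfl, h⟩
    induction g using QuotientGroup.induction_on with
    | H f => exact ⟨f • e, f • e', hρe _ _, hρe _ _, ht _ _ _ h⟩
  · rintro _ _ ⟨e, e', rfl, rfl, h⟩
    rw [hπ', hπ']
    exact htr' _ _ h
  · intro a y h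
    obtain ⟨e, rfl⟩ := hρ a
    rw [hπ'] at h
    obtain ⟨e', h1, h2⟩ := hex e y h
    exact ⟨ρ e', by rw [hπ', h1], e, e', rfl, rfl, h2⟩
  · intro a b b' h h' hb
    obtain ⟨e, rfl⟩ := hρ a
    obtain ⟨e', rfl, h1⟩ := ht' _ _ h
    obtain ⟨e'', rfl, h2⟩ := ht' _ _ h'
    rw [hπ', hπ'] at hb
    exact (hρk _ _).2 (huniq _ _ _ h1 h2 hb)
  · intro a b b' h h' hb
    obtain ⟨e, rfl⟩ := hρ a
    obtain ⟨e', rfl, h1⟩ := ht' _ _ h
    obtain ⟨e'', rfl, h2⟩ := ht' _ _ h'
    rw [hπ', hπ'] at hb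
    obtain ⟨m, hm, h3⟩ := hflat _ _ _ h1 h2 hb
    exact ⟨e, m • e'', rfl, hρm m hm _, h3⟩

/-- a finitely presented subgroup lifts to a subgroup meeting the kernel in a finitely normally
generated part -/
theorem Brown_lift {F : Type} [Group F] (φ : F →* G) (hφ : Surjective φ) (K : Subgroup G)
    (hK : Group.IsFinitelyPresented K) :
    ∃ (H : Subgroup F) (T : Set F), H.map φ = K ∧ T.Finite ∧ T ⊆ φ.ker ∧
      ∀ k ∈ φ.ker, k ∈ H → k ∈ Subgroup.normalClosure T := by
  have hfg : Group.FG K := Crest.Agent.R176.fg_of_fp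
  obtain ⟨S, hS, hSf⟩ := (Subgroup.fg_iff K).1 ((Group.fg_iff_subgroup_fg K).1 hfg)
  set H := Subgroup.closure (surjInv hφ '' S) with hH
  have hmap : H.map φ = K := by
    rw [hH, MonoidHom.map_closure, ← Set.image_comp, comp_surjInv, Set.image_id, hS]
  have : Group.FG H :=
    (Group.fg_iff_subgroup_fg H).2 ((Subgroup.fg_iff H).2 ⟨_, rfl, hSf.image _⟩)
  let ψ : H →* K := (φ.comp H.subtype).codRestrict K fun x => by
    rw [← hmap]; exact ⟨x, x.2, rfl⟩
  have hψ : Surjective ψ := by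
    rintro ⟨g, hg⟩
    rw [← hmap] at hg
    obtain ⟨x, hx, rfl⟩ := hg
    exact ⟨⟨x, hx⟩, rfl⟩
  obtain ⟨T, hT, hTk⟩ := ker_fng_of_fp ψ hψ
  refine ⟨H, H.subtype '' T, hmap, hT.image _, ?_, ?_⟩
  · rintro _ ⟨x, hx, rfl⟩
    have h1 : x ∈ ψ.ker := hTk ▸ Subgroup.subset_normalClosure hx
    exact congrArg Subtype.val ((MonoidHom.mem_ker).1 h1)
  · intro k hk hkH
    have h1 : (⟨k, hkH⟩ : H) ∈ ψ.ker := Subtype.ext hk
    rw [← hTk] at h1
    exact Subgroup.comap_normalClosure_image_ge T H.subtype h1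

/-- the bundle `Σ q, F ⧸ H q` over the orbits -/
theorem Brown_bundle {V F : Type} [Group F] [MulAction G V] (φ : F →* G) (hφ : Surjective φ)
    (h0 : ∃ s : Set V, s.Finite ∧ ∀ x, ∃ (g : G), g • x ∈ s)
    (hv : ∀ x : V, Group.IsFinitelyPresented (MulAction.stabilizer G x)) :
    ∃ (E : Type) (_ : MulAction F E) (π : E → V) (T : Set F), Surjective π ∧
      (∀ (g : F) e, π (g • e) = φ g • π e) ∧
      (∀ e e', π e = π e' → ∃ k ∈ φ.ker, k • e = e') ∧ T.Finite ∧ T ⊆ φ.ker ∧
      ∀ k ∈ φ.ker, ∀ e : E, k • e = e → k ∈ Subgroup.normalClosure T := by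
  obtain ⟨s, hs, h0⟩ := h0
  let Q := MulAction.orbitRel.Quotient G V
  have : Finite Q := by
    have := hs.to_subtype
    refine Finite.of_surjective (fun x : s => (Quotient.mk _ x.1 : Q)) fun q => ?_
    induction q using Quotient.inductionOn with
    | h x =>
      obtain ⟨g, hg⟩ := h0 x
      exact ⟨⟨_, hg⟩, Quotient.sound ⟨g, rfl⟩⟩
  choose H T hH hT hTk hHT using fun q : Q => Brown_lift φ hφ _ (hv (Quotient.out q))
  have hHs : ∀ q, ∀ h ∈ H q, φ h • Quotient.out q = Quotient.out q := by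
    intro q h hh
    have : φ h ∈ MulAction.stabilizer G (Quotient.out q) := by
      rw [← hH]; exact ⟨h, hh, rfl⟩
    exact this
  let π₀ : ∀ q : Q, F ⧸ H q → V := fun q => Quotient.lift (fun a => φ a • Quotient.out q) (by
    intro a b h
    have h' : a⁻¹ * b ∈ H q := QuotientGroup.leftRel_apply.1 h
    have := hHs q _ h'
    rw [map_mul, map_inv, mul_smul, inv_smul_eq_iff] at this
    exact this.symm)
  have hπ₀ : ∀ q (a : F), π₀ q (QuotientGroup.mk a) = φ a • Quotient.out q := fun _ _ => rfl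
  refine ⟨Σ q : Q, F ⧸ H q, inferInstance, fun e => π₀ e.1 e.2, ⋃ q, T q, ?_, ?_, ?_,
    Set.finite_iUnion hT, Set.iUnion_subset hTk, ?_⟩
  · intro x
    have h : (MulAction.orbitRel G V).r x (Quotient.out (Quotient.mk _ x : Q)) :=
      Quotient.exact (Quotient.out_eq _).symm
    obtain ⟨g, hg⟩ := h
    obtain ⟨a, rfl⟩ := hφ g
    exact ⟨⟨Quotient.mk _ x, QuotientGroup.mk a⟩, hg⟩
  · rintro g ⟨q, a⟩
    induction a using QuotientGroup.induction_on with
    | H a =>
      change π₀ q (QuotientGroup.mk (g * a)) = φ g • π₀ q (QuotientGroup.mk a)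
      rw [hπ₀, hπ₀, map_mul, mul_smul]
  · rintro ⟨q, a⟩ ⟨q', b⟩ h
    induction a using QuotientGroup.induction_on with
    | H a =>
      induction b using QuotientGroup.induction_on with
      | H b =>
        change φ a • Quotient.out q = φ b • Quotient.out q' at h
        have hq : q = q' := by
          rw [← Quotient.out_eq q, ← Quotient.out_eq q']
          exact Quotient.sound ⟨(φ a)⁻¹ * φ b, by
            change ((φ a)⁻¹ * φ b) • Quotient.out q' = Quotient.out q
            rw [mul_smul, ← h, inv_smul_smul]⟩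
        subst hq
        have h1 : φ (a⁻¹ * b) ∈ (H q).map φ := by
          rw [hH, MulAction.mem_stabilizer_iff, map_mul, map_inv, mul_smul, ← h, inv_smul_smul]
        obtain ⟨c, hc, hc'⟩ := h1
        refine ⟨b * c⁻¹ * a⁻¹, ?_, ?_⟩
        · rw [MonoidHom.mem_ker, map_mul, map_mul, map_inv, map_inv, hc', map_mul, map_inv]
          group
        · change (⟨q, QuotientGroup.mk (b * c⁻¹ * a⁻¹ * a)⟩ : Σ q : Q, F ⧸ H q) = _
          congr 1
          rw [QuotientGroup.eq]
          simpa using hc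
  · rintro k hk ⟨q, a⟩ h
    induction a using QuotientGroup.induction_on with
    | H a =>
      change (⟨q, QuotientGroup.mk (k * a)⟩ : Σ q : Q, F ⧸ H q) = _ at h
      have h1 : (QuotientGroup.mk a : F ⧸ H q) = QuotientGroup.mk (k * a) :=
        (eq_of_heq (Sigma.mk.inj h).2).symm
      rw [QuotientGroup.eq] at h1
      have h2 : a⁻¹ * (k * a) ∈ φ.ker := by
        have := (MonoidHom.normal_ker φ).conj_mem' k hk a
        rwa [mul_assoc] at this
      have h3 := Subgroup.normalClosure_mono (Set.subset_iUnion T q) (hHT q _ h2 h1)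
      have h4 := Subgroup.normalClosure_normal.conj_mem _ h3 a
      simpa [mul_assoc] using h4

/-- a group with a section into a finitely presented group -/
theorem Brown_retract {G' : Type} [Group G'] [Group.IsFinitelyPresented G'] (p : G' →* G)
    (σ : G →* G') (hσ : ∀ g, p (σ g) = g) : Group.IsFinitelyPresented G := by
  have hfg : Group.FG G' := Crest.Agent.R176.fg_of_fp
  obtain ⟨S, hS, hSf⟩ := Group.fg_iff.1 hfg
  refine Group.IsFinitelyPresented.of_surjective p (fun g => ⟨σ g, hσ g⟩)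
    ⟨(fun x => x⁻¹ * σ (p x)) '' S, hSf.image _, le_antisymm ?_ ?_⟩
  · refine Subgroup.normalClosure_le_normal ?_
    rintro _ ⟨x, -, rfl⟩
    simp [hσ]
  · set M := Subgroup.normalClosure ((fun x => x⁻¹ * σ (p x)) '' S) with hM
    have h : QuotientGroup.mk' M = (QuotientGroup.mk' M).comp (σ.comp p) := by
      refine MonoidHom.eq_of_eqOn_dense hS fun x hx => ?_
      exact QuotientGroup.eq.2 (Subgroup.subset_normalClosure ⟨x, hx, rfl⟩)
    intro k hk
    have h1 : QuotientGroup.mk' M k = QuotientGroup.mk' M (σ (p k)) := DFunLike.congr_fun h k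
    rw [(MonoidHom.mem_ker).1 hk, map_one, map_one] at h1
    exact (QuotientGroup.eq_one_iff k).1 h1

/-- Brown's criterion for finite presentability.  `F` free of finite rank onto `G`
(`fg_of_action`), `N` the kernel.  For a finite `T ⊆ N` put `G' = F ⧸ normalClosure T`.  Choose `T`
containing: the lifted relators of the stabilisers `G_v` of representatives `v` (so that the
subgroup `G'_v` generated by the lifted generators maps isomorphically onto `G_v`,
`ker_fng_of_fp`), for each edge representative `(x, y)` and each generator `h` of its stabiliser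
the element comparing the lifts of `h` in the stabilisers of the chosen points over `x` and `y`,
and one element for each triangle representative.  `E = Σ v, G' ⧸ G'_v`, `t` = the `G'`-orbits
of the chosen lifts of the edge representatives (take exactly one representative per orbit).
`exists_section` gives `σ`; add the finitely many `x⁻¹ σ (π x)` (generators `x` of `F`) to `T`:
the normal closure is then `N`.  (It is convenient to fix the lifts in `F` first and to phrase
every requirement as "a given element of `N` lies in `normalClosure T`".) -/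
theorem fp_of_action {V : Type} [MulAction G V] (r : V → V → Prop)
    (hr : ∀ (g : G) x y, r x y → r (g • x) (g • y)) (hc : RelConn r) (hs : SimplyConn r)
    (h0 : ∃ s : Set V, s.Finite ∧ ∀ x, ∃ (g : G), g • x ∈ s)
    (h1 : ∃ s : Set (V × V), s.Finite ∧ ∀ x y, r x y → ∃ (g : G), (g • x, g • y) ∈ s)
    (h2 : ∃ s : Set (V × V × V), s.Finite ∧
      ∀ x y z, r x y → r y z → r x z → ∃ (g : G), (g • x, g • y, g • z) ∈ s)
    (hv : ∀ x : V, Group.IsFinitelyPresented (MulAction.stabilizer G x))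
    (he : ∀ x y : V, r x y →
      Group.FG (MulAction.stabilizer G x ⊓ MulAction.stabilizer G y : Subgroup G)) :
    Group.IsFinitelyPresented G := by
  classical
  have hfg : Group.FG G := fg_of_action r hr hc h0 h1 fun x =>
    have := hv x; Crest.Agent.R176.fg_of_fp
  obtain ⟨S, hSf, φ, hφ⟩ := Group.fg_iff_exists_freeGroup_hom_surjective.1 hfg
  have := hSf.to_subtype
  obtain ⟨E, inst, π, T₁, hπ, hπe, htr, hT₁, hT₁k, hfree⟩ := Brown_bundle φ hφ h0 hv
  choose ε hε using id hπ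
  have hker : ∀ k ∈ φ.ker, ∀ e, π (k • e) = π e := by
    intro k hk e
    rw [hπe, (MonoidHom.mem_ker).1 hk, one_smul]
  -- lifting a group element with a prescribed effect on a point
  have hlift : ∀ (g : G) (e e' : E), g • π e = π e' → ∃ f, φ f = g ∧ f • e = e' := by
    intro g e e' h
    obtain ⟨f, rfl⟩ := hφ g
    obtain ⟨k, hk, hke⟩ := htr (f • e) e' (by rw [hπe, h])
    exact ⟨k * f, by rw [map_mul, (MonoidHom.mem_ker).1 hk, one_mul], by rw [mul_smul, hke]⟩
  -- edge representatives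
  obtain ⟨R, hRf, hRr, hRex, hRu⟩ : ∃ R : Set (V × V), R.Finite ∧ (∀ a ∈ R, r a.1 a.2) ∧
      (∀ x y, r x y → ∃ a ∈ R, ∃ g : G, g • a.1 = x ∧ g • a.2 = y) ∧
      ∀ a ∈ R, ∀ b ∈ R, ∀ g : G, g • a.1 = b.1 → g • a.2 = b.2 → a = b := by
    obtain ⟨s, hs, h1⟩ := h1
    let o : V × V → V × V := fun a =>
      Quotient.out (Quotient.mk (MulAction.orbitRel G (V × V)) a)
    have ho : ∀ a, ∃ g : G, g • o a = a := fun a =>
      (Quotient.exact (Quotient.out_eq (Quotient.mk (MulAction.orbitRel G (V × V)) a)).symm :)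
    have ho' : ∀ a (g : G), o (g • a) = o a := fun a g => by
      have : Quotient.mk (MulAction.orbitRel G (V × V)) (g • a) = Quotient.mk _ a :=
        Quotient.sound ⟨g, rfl⟩
      simp only [o, this]
    have hoo : ∀ a, o (o a) = o a := fun a => by simp only [o, Quotient.out_eq]
    refine ⟨o '' {a ∈ s | r a.1 a.2}, (hs.subset fun a ha => ha.1).image _, ?_, ?_, ?_⟩
    · rintro _ ⟨a, ha, rfl⟩
      obtain ⟨g, hg⟩ := ho a
      have h2 := hr g⁻¹ _ _ ha.2
      rw [← hg] at h2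
      simpa using h2
    · intro x y h
      obtain ⟨g, hg⟩ := h1 x y h
      obtain ⟨g', hg'⟩ := ho (x, y)
      refine ⟨o (x, y), ⟨(g • x, g • y), ⟨hg, hr g _ _ h⟩, ho' (x, y) g⟩, g',
        congrArg Prod.fst hg', congrArg Prod.snd hg'⟩
    · rintro _ ⟨a, -, rfl⟩ _ ⟨b, -, rfl⟩ g h h'
      have h3 : g • o a = o b := Prod.ext h h'
      rw [← hoo a, ← ho' (o a) g, h3, hoo]
  let t : E → E → Prop := fun e e' => ∃ a ∈ R, ∃ f : FreeGroup S, f • ε a.1 = e ∧ f • ε a.2 = e'
  have ht : ∀ (g : FreeGroup S) e e', t e e' → t (g • e) (g • e') := by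
    rintro g _ _ ⟨a, ha, f, rfl, rfl⟩
    exact ⟨a, ha, g * f, mul_smul _ _ _, mul_smul _ _ _⟩
  have htr' : ∀ e e', t e e' → r (π e) (π e') := by
    rintro _ _ ⟨a, ha, f, rfl, rfl⟩
    rw [hπe, hπe, hε, hε]
    exact hr _ _ _ (hRr a ha)
  have hex : ∀ e y, r (π e) y → ∃ e', π e' = y ∧ t e e' := by
    intro e y h
    obtain ⟨a, ha, g, h1, h2⟩ := hRex _ _ h
    obtain ⟨f, rfl, hf⟩ := hlift g (ε a.1) e (by rw [hε, h1])
    exact ⟨f • ε a.2, by rw [hπe, hε, h2], a, ha, f, hf, rfl⟩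
  -- the requirement for an edge
  have hedge : ∀ a : V × V, ∃ T : Set (FreeGroup S), T.Finite ∧ T ⊆ φ.ker ∧
      ∀ M : Subgroup (FreeGroup S), M.Normal → T₁ ⊆ M → T ⊆ M → r a.1 a.2 →
        ∀ u : FreeGroup S, u • ε a.1 = ε a.1 → φ u • a.2 = a.2 → ∃ m ∈ M, m • ε a.2 = u • ε a.2 := by
    rintro ⟨x, y⟩
    by_cases hxy : r x y
    swap
    · exact ⟨∅, Set.finite_empty, Set.empty_subset _, fun _ _ _ _ h => absurd h hxy⟩
    obtain ⟨A, hA, hAf⟩ := (Subgroup.fg_iff _).1 ((Group.fg_iff_subgroup_fg _).1 (he x y hxy))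
    have hgen : ∀ g : A, ∃ f n : FreeGroup S, φ f = g ∧ f • ε x = ε x ∧ n ∈ φ.ker ∧
        n • ε y = f • ε y := by
      rintro ⟨g, hg⟩
      have hg' : g ∈ MulAction.stabilizer G x ⊓ MulAction.stabilizer G y :=
        hA ▸ Subgroup.subset_closure hg
      obtain ⟨f, hf, hfx⟩ := hlift g (ε x) (ε x) (by rw [hε]; exact hg'.1)
      obtain ⟨n, hn, hny⟩ := htr (ε y) (f • ε y) (by rw [hπe, hε, hf]; exact hg'.2.symm)
      exact ⟨f, n, hf, hfx, hn, hny⟩
    choose f n hf hfx hn hny using hgen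
    have := hAf.to_subtype
    refine ⟨Set.range n, Set.finite_range n, Set.range_subset_iff.2 hn, ?_⟩
    intro M hMn hT₁M hTM _ u hux huy
    let B : Subgroup (FreeGroup S) :=
      { carrier := {u | u • ε x = ε x ∧ ∃ m ∈ M, m • ε y = u • ε y}
        one_mem' := ⟨one_smul _ _, 1, M.one_mem, rfl⟩
        mul_mem' := by
          rintro u v ⟨hu, m, hm, hmu⟩ ⟨hv, m', hm', hmv⟩
          refine ⟨by rw [mul_smul, hv, hu], u * m' * u⁻¹ * m,
            M.mul_mem (hMn.conj_mem _ hm' u) hm, ?_⟩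
          rw [mul_smul, hmu, mul_smul, inv_smul_smul, mul_smul, hmv, mul_smul]
        inv_mem' := by
          rintro u ⟨hu, m, hm, hmu⟩
          refine ⟨by rw [inv_smul_eq_iff, hu], u⁻¹ * m⁻¹ * u,
            hMn.conj_mem' _ (M.inv_mem hm) u, ?_⟩
          rw [mul_smul, ← hmu, mul_smul, inv_smul_smul] }
    have hB : MulAction.stabilizer G x ⊓ MulAction.stabilizer G y ≤ B.map φ := by
      rw [← hA, Subgroup.closure_le]
      intro g hg
      exact ⟨f ⟨g, hg⟩, ⟨hfx _, n ⟨g, hg⟩, hTM ⟨_, rfl⟩, hny _⟩, hf _⟩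
    have hu : φ u ∈ MulAction.stabilizer G x ⊓ MulAction.stabilizer G y := by
      refine ⟨?_, huy⟩
      have := congrArg π hux
      rw [hπe, hε] at this
      exact this
    obtain ⟨b, hb, hbu⟩ := hB hu
    have h3 : b⁻¹ * u ∈ φ.ker := by
      rw [MonoidHom.mem_ker, map_mul, map_inv, hbu, inv_mul_cancel]
    have h4 : (b⁻¹ * u) • ε x = ε x := by
      rw [mul_smul, hux, inv_smul_eq_iff, hb.1]
    have h5 : b⁻¹ * u ∈ M := Subgroup.normalClosure_le_normal hT₁M (hfree _ h3 _ h4)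
    have h6 : b * (b⁻¹ * u) ∈ B := B.mul_mem hb ⟨h4, _, h5, rfl⟩
    rw [mul_inv_cancel_left] at h6
    exact h6.2
  choose T₂ hT₂ hT₂k hT₂M using hedge
  -- the requirement for a triangle
  have htri : ∀ a : V × V × V, ∃ n ∈ φ.ker, r a.1 a.2.1 → r a.2.1 a.2.2 → r a.1 a.2.2 →
      ∃ e₁ e₂, π e₁ = a.2.1 ∧ π e₂ = a.2.2 ∧ t (ε a.1) e₁ ∧ t e₁ e₂ ∧ t (ε a.1) (n • e₂) := by
    rintro ⟨x, y, z⟩
    by_cases h : r x y ∧ r y z ∧ r x z
    swap
    · exact ⟨1, φ.ker.one_mem, fun a b c => absurd ⟨a, b, c⟩ h⟩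
    obtain ⟨e₁, h1, h1'⟩ := hex (ε x) y (by rw [hε]; exact h.1)
    obtain ⟨e₂, h2, h2'⟩ := hex e₁ z (by rw [h1]; exact h.2.1)
    obtain ⟨e₃, h3, h3'⟩ := hex (ε x) z (by rw [hε]; exact h.2.2)
    obtain ⟨n, hn, rfl⟩ := htr e₂ e₃ (by rw [h2, h3])
    exact ⟨n, hn, fun _ _ _ => ⟨e₁, e₂, h1, h2, h1', h2', h3'⟩⟩
  choose n₃ hn₃k hn₃ using htri
  obtain ⟨s₂, hs₂, h2⟩ := h2
  set T : Set (FreeGroup S) := T₁ ∪ (⋃ a ∈ R, T₂ a) ∪ n₃ '' s₂ with hT
  have hTf : T.Finite := (hT₁.union (hRf.biUnion fun a _ => hT₂ a)).union (hs₂.image _)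
  have hTk : T ⊆ φ.ker := by
    refine Set.union_subset (Set.union_subset hT₁k (Set.iUnion₂_subset fun a _ => hT₂k a)) ?_
    rintro _ ⟨a, -, rfl⟩
    exact hn₃k a
  set M := Subgroup.normalClosure T with hMdef
  have hMn : M.Normal := inferInstance
  have hM : M ≤ φ.ker := Subgroup.normalClosure_le_normal hTk
  have hTM : T ⊆ M := Subgroup.subset_normalClosure
  have hT₁M : T₁ ⊆ M := fun x hx => hTM (Or.inl (Or.inl hx))
  have huniq : ∀ e e' e'', t e e' → t e e'' → π e' = π e'' → ∃ m ∈ M, m • e' = e'' := by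
    rintro _ _ _ ⟨a, ha, f, rfl, rfl⟩ ⟨b, hb, g, h1, rfl⟩ h2
    have h1' := congrArg π h1
    rw [hπe, hπe, hε, hε] at h1' h2
    have hab : a = b := hRu a ha b hb ((φ g)⁻¹ * φ f)
      (by rw [mul_smul, ← h1', inv_smul_smul]) (by rw [mul_smul, h2, inv_smul_smul])
    subst hab
    obtain ⟨m, hm, hmu⟩ := hT₂M a M hMn hT₁M
      (fun x hx => hTM (Or.inl (Or.inr (Set.mem_biUnion ha hx)))) (hRr a ha) (f⁻¹ * g)
      (by rw [mul_smul, h1, inv_smul_smul])
      (by rw [map_mul, map_inv, mul_smul, ← h2, inv_smul_smul])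
    refine ⟨f * m * f⁻¹, hMn.conj_mem _ hm f, ?_⟩
    rw [mul_smul, inv_smul_smul, mul_smul, hmu, mul_smul, smul_inv_smul]
  have hflat : ∀ e e' e'', t e e' → t e' e'' → r (π e) (π e'') → ∃ m ∈ M, t e (m • e'') := by
    intro e e' e'' h h' h''
    obtain ⟨g, hg⟩ := h2 _ _ _ (htr' _ _ h) (htr' _ _ h') h''
    obtain ⟨e₁, e₂, p1, p2, q1, q2, q3⟩ := hn₃ (g • π e, g • π e', g • π e'')
      (hr _ _ _ (htr' _ _ h)) (hr _ _ _ (htr' _ _ h')) (hr _ _ _ h'')
    have hn : n₃ (g • π e, g • π e', g • π e'') ∈ M := hTM (Or.inr ⟨_, hg, rfl⟩)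
    generalize n₃ (g • π e, g • π e', g • π e'') = n at q3 hn
    dsimp only at p1 p2 q1 q3
    obtain ⟨f, rfl, hf⟩ := hlift g e (ε (g • π e)) (by rw [hε])
    rw [← hf] at q1 q3
    obtain ⟨m₁, hm₁, rfl⟩ := huniq _ _ _ (ht f _ _ h) q1 (by rw [hπe, p1])
    obtain ⟨m₂, hm₂, rfl⟩ := huniq _ _ _ (ht m₁ _ _ (ht f _ _ h')) q2 (by
      rw [hker _ (hM hm₁), hπe, p2])
    refine ⟨f⁻¹ * (n * m₂ * m₁) * f, hMn.conj_mem' _ (M.mul_mem (M.mul_mem hn hm₂) hm₁) f, ?_⟩
    have := ht f⁻¹ _ _ q3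
    rw [inv_smul_smul] at this
    simpa only [mul_smul] using this
  obtain ⟨σ, hσ⟩ := Brown_section_mod φ hφ π hπ hπe htr M hM
    (fun k hk e h => Subgroup.normalClosure_le_normal hT₁M (hfree k hk e h)) r hr hc hs t ht htr'
    hex huniq hflat
  have : Group.IsFinitelyPresented (FreeGroup S ⧸ M) :=
    Group.IsFinitelyPresented.quotient M ⟨T, hTf, rfl⟩
  exact Brown_retract _ σ hσ

end Crest.Agent.R185
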