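import Crest.Agent.R185.CRep

/-!
# Row 185, core: the layer `X ↦ A(X) = ⟨X, u, β, τ | [u, X], [τ, H]⟩`
-/

set_option autoImplicit false
set_option linter.unusedSectionVars false

namespace Crest.Agent.R185

open Function

/-- the alphabet: `Y`, `u`, `β`, `τ` -/
abbrev YA (Y : Type) : Type := ((Y ⊕ Unit) ⊕ Unit) ⊕ Unit

variable {Y : Type}

/-- words of `X` -/
def aX : FreeGroup Y →* FreeGroup (YA Y) := FreeGroup.map fun y => .inl (.inl (.inl y))

/-- `u` -/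
def aU : FreeGroup (YA Y) := .of (.inl (.inl (.inr ())))

/-- `β` -/
def aB : FreeGroup (YA Y) := .of (.inl (.inr ()))

/-- `τ` -/
def aT : FreeGroup (YA Y) := .of (.inr ())

/-- the relators `[y, u]` -/
def relA (Y : Type) : Set (FreeGroup (YA Y)) :=
  {w | ∃ y, w = aX (.of y) * aU * (aU * aX (.of y))⁻¹}

/-- `τ u⁻ⁱ g uⁱ τ⁻¹` -/
def starw (g : FreeGroup (YA Y)) (i : ℤ) : FreeGroup (YA Y) := aT * aU ^ (-i) * g * aU ^ i * aT⁻¹

/-- the generators `u`, `τ y τ⁻¹`, `τ u⁻ⁱ β uⁱ τ⁻¹`, `τ u⁻ⁱ τ uⁱ τ⁻¹` (`i ≠ 0`) with `|i| ≤ n` -/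
def famA (Y : Type) (n : ℕ) : Set (FreeGroup (YA Y)) :=
  {w | w = aU ∨ (∃ y, w = aT * aX (.of y) * aT⁻¹) ∨ (∃ i : ℤ, i.natAbs ≤ n ∧ w = starw aB i) ∨
    ∃ i : ℤ, i ≠ 0 ∧ i.natAbs ≤ n ∧ w = starw aT i}

/-- the guarded word `x̃ = x β ^ N δ β ^ (-N)` -/
def guard (x : FreeGroup Y) (N : ℕ) (δ : FreeGroup Y) : FreeGroup (YA Y) :=
  aX x * aB ^ N * aX δ * (aB ^ N)⁻¹

/-- `x̃⁻¹ τ x̃` -/
def claimw (z : FreeGroup Y × ℕ × FreeGroup Y) : FreeGroup (YA Y) :=
  (guard z.1 z.2.1 z.2.2)⁻¹ * aT * guard z.1 z.2.1 z.2.2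

/-- the subgroup `J` -/
def subJ {X A : Type} [Group X] [Group A] (πA : FreeGroup (YA Y) →* A) (j : X →* A)
    (H : Subgroup X) (Cl : Set (FreeGroup Y × ℕ × FreeGroup Y)) : Subgroup A :=
  Subgroup.closure (j '' H ∪ πA '' (⋃ n, famA Y n) ∪ πA '' (claimw '' Cl))

/-- every claim is active and true, or inactive with `m < N` -/
def ClaimsOK {X : Type} [Group X] (π : FreeGroup Y →* X) (H : Subgroup X)
    (Cl : Set (FreeGroup Y × ℕ × FreeGroup Y)) (m : ℕ) : Prop :=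
  ∀ z ∈ Cl, (π z.2.2 = 1 ∧ π z.1 ∉ H) ∨ (π z.2.2 ≠ 1 ∧ m < z.2.1)

variable [DecidableEq Y]

/-- the properties of `A(X)` -/
structure ALayer {X A : Type} [Group X] [Group A] (π : FreeGroup Y →* X) (H : Subgroup X)
    (πA : FreeGroup (YA Y) →* A) (j : X →* A) : Prop where
  surj : Surjective πA
  inj : Injective j
  π_aX : ∀ w, πA (aX w) = j (π w)
  rel : ∀ r ∈ relA Y, πA r = 1
  comm : ∀ h ∈ H, Commute (πA aT) (j h)
  KT : ∀ (θ : LT (YA Y)) (L m : ℕ), θ.Closed L → 1000 * (m + 1) ^ 2 ≤ L → relA Y ⊆ θ.T →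
    (θ.comap aX).KT π m →
    (∀ w : FreeGroup Y, w.norm ≤ m → π w ∈ H → aX w * aT * (aT * aX w)⁻¹ ∈ θ.T) → θ.KT πA m
  inter : ∀ Cl, ClaimsOK π H Cl 0 → ∀ x, j x ∈ subJ πA j H Cl ↔ x ∈ H
  τ_not : ∀ Cl, ClaimsOK π H Cl 0 → πA aT ∉ subJ πA j H Cl
  KM : ∀ Cl (m : ℕ), ClaimsOK π H Cl m → ∀ (θ : LT (YA Y)) (L : ℕ), θ.Closed L →
    1000 * (m + 1) ^ 2 ≤ L → relA Y ⊆ θ.T → (θ.comap aX).KT π (2 * m) →
    (∀ w : FreeGroup Y, w.norm ≤ m → π w ∈ H → aX w * aT * (aT * aX w)⁻¹ ∈ θ.T) →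
    (θ.comap aX).KM π H (2 * m) → famA Y (2 * m) ⊆ θ.M →
    (∀ w : FreeGroup Y, w.norm ≤ 2 * m → π w ∉ H → (aX w)⁻¹ * aT * aX w ∈ θ.M) →
    θ.KM πA (subJ πA j H Cl) m

section Model

variable {X : Type} [Group X]

/-- the exponent of `u` -/
def πU : FreeGroup Unit →* Multiplicative ℤ := FreeGroup.lift fun _ => Multiplicative.ofAdd 1

/-- `X₃ = (X × ⟨u⟩) * ⟨β⟩` -/
abbrev D3 (X : Type) [Group X] : MHD (X × Multiplicative ℤ) (Unit × Bool) :=
  MHD.cent fun _ : Unit => ⊥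

/-- the marking of `X₃` -/
def π3 (π : FreeGroup Y →* X) : FreeGroup ((Y ⊕ Unit) ⊕ Unit) →* (D3 X).G :=
  centMark (fun _ : Unit => ⊥) (prodMark π πU)

/-- `H` in `X₃` -/
def H3 (H : Subgroup X) : Subgroup (D3 X).G := (H.prod ⊥).map (D3 X).of

/-- `H × ⟨u⟩` in `X₃` -/
def S3 (H : Subgroup X) : Subgroup (D3 X).G := (H.prod ⊤).map (D3 X).of

/-- `A(X)` -/
abbrev DA (H : Subgroup X) : MHD (D3 X).G (Unit × Bool) := MHD.cent fun _ : Unit => H3 H

/-- the marking of `A(X)` -/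
def πA (π : FreeGroup Y →* X) (H : Subgroup X) : FreeGroup (YA Y) →* (DA H).G :=
  centMark (fun _ : Unit => H3 H) (π3 π)

/-- the embedding of `X` -/
def jA (H : Subgroup X) : X →* (DA H).G :=
  (DA H).of.comp ((D3 X).of.comp (MonoidHom.inl X (Multiplicative ℤ)))

/-- the exponent of `u` on `X₃` -/
def eps3 (X : Type) [Group X] : (D3 X).G →* Multiplicative ℤ :=
  (D3 X).lift (MonoidHom.snd _ _) (fun _ => 1) (fun _ => by simp) fun _ _ _ => by simp [MHD.cent]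

/-- the value of the guarded word in `X₃` -/
def gd3 (π : FreeGroup Y →* X) (z : FreeGroup Y × ℕ × FreeGroup Y) : (D3 X).G :=
  (D3 X).of (π z.1, 1) * (D3 X).t ((), true) ^ z.2.1 * (D3 X).of (π z.2.2, 1) *
    ((D3 X).t ((), true) ^ z.2.1)⁻¹

/-- points: the coset `g S` stands for the right coset `S g⁻¹`; and the stars -/
abbrev Pt (H : Subgroup X) : Type := ((D3 X).G ⧸ S3 H) ⊕ ℤ

/-- the base point -/
def pt0 (H : Subgroup X) : Pt H := .inl ((1 : (D3 X).G) : (D3 X).G ⧸ S3 H)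

/-- the points fixed by `τ` -/
def Fx (π : FreeGroup Y →* X) (H : Subgroup X) (Cl : Set (FreeGroup Y × ℕ × FreeGroup Y)) :
    Pt H → Prop
  | .inl p => ∃ h ∈ H3 H, ∃ z ∈ Cl, p = ((h * gd3 π z : (D3 X).G) : (D3 X).G ⧸ S3 H)
  | .inr i => i ≠ 0

/-- the partial bijection `τ` -/
def stτ (π : FreeGroup Y →* X) (H : Subgroup X) (Cl : Set (FreeGroup Y × ℕ × FreeGroup Y))
    (p q : Pt H) : Prop := (p = pt0 H ∧ q = .inr 0) ∨ (p = q ∧ Fx π H Cl p)

/-- the right action of `X₃` -/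
def actA (H : Subgroup X) : Pt H → (D3 X).G → Pt H
  | .inl p, a => .inl (a⁻¹ • p)
  | .inr i, a => .inr (i + (eps3 X a).toAdd)

variable {π : FreeGroup Y →* X} {H : Subgroup X} {Cl : Set (FreeGroup Y × ℕ × FreeGroup Y)}

theorem CAa_ev_rep {M E : Type} [Group M] (D : MHD M E) (e : E) (a : M) (l : List (E × M)) (n : ℕ)
    (g : M) : D.ev g (List.replicate n (e, 1) ++ (e, a) :: l) = D.of g * D.t e ^ (n + 1) * D.ev a l := by
  induction n generalizing g with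
  | zero => simp
  | succ n ih =>
    rw [List.replicate_succ, List.cons_append, MHD.ev_cons, ih, map_one, one_mul, pow_succ' _ (n + 1)]
    simp only [mul_assoc]

theorem CAa_red_rep {M E : Type} [Group M] {D : MHD M E} {e : E} (he : e ≠ D.bar e) {a : M}
    {l : List (E × M)} (h : D.Red ((e, a) :: l)) (n : ℕ) :
    D.Red (List.replicate n (e, 1) ++ (e, a) :: l) := by
  induction n with
  | zero => exact h
  | succ n ih =>
    rw [List.replicate_succ, List.cons_append, MHD.red_cons_iff]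
    refine ⟨fun hp => ?_, ih⟩
    cases n with
    | zero => exact he hp.1
    | succ n => exact he hp.1

theorem CAa_eps_of (x : X × Multiplicative ℤ) : eps3 X ((D3 X).of x) = x.2 :=
  MHD.lift_of _ _ _ _ _ x

theorem CAa_eps_t (e : Unit × Bool) : eps3 X ((D3 X).t e) = 1 :=
  MHD.lift_t _ _ _ _ _ e

theorem CAa_mem_S3 {x : X × Multiplicative ℤ} : (D3 X).of x ∈ S3 H ↔ x.1 ∈ H := by
  rw [S3, Subgroup.mem_map_iff_mem (MHD.of_injective _), Subgroup.mem_prod]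
  simp

theorem CAa_mem_H3 {x : X × Multiplicative ℤ} : (D3 X).of x ∈ H3 H ↔ x.1 ∈ H ∧ x.2 = 1 := by
  rw [H3, Subgroup.mem_map_iff_mem (MHD.of_injective _), Subgroup.mem_prod, Subgroup.mem_bot]

theorem CAa_H3_le : H3 H ≤ S3 H := Subgroup.map_mono (Subgroup.prod_mono le_rfl bot_le)

theorem CAa_eps_H3 {g : (D3 X).G} (hg : g ∈ H3 H) : eps3 X g = 1 := by
  obtain ⟨x, hx, rfl⟩ := hg
  rw [CAa_eps_of]
  exact (Subgroup.mem_prod.1 hx).2

theorem CAa_act_pt0 {g : (D3 X).G} : actA H (pt0 H) g = pt0 H ↔ g ∈ S3 H := by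
  simp only [actA, pt0, Sum.inl.injEq, MulAction.Quotient.smul_mk, smul_eq_mul, mul_one]
  rw [QuotientGroup.eq, inv_inv, mul_one]

/-- an inactive guard is far away: `a * gd3 π z * b` (`a, b` in the base) is the value of the REDUCED
list `(β, 1) ^ (N-1), (β, δ), (β⁻¹, 1) ^ (N-1), (β⁻¹, b)` of length `2 N`; use `MHD.length_le` -/
theorem gd3_length (z : FreeGroup Y × ℕ × FreeGroup Y) (hz : π z.2.2 ≠ 1)
    (a b g : X × Multiplicative ℤ) (l : List ((Unit × Bool) × (X × Multiplicative ℤ)))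
    (h : (D3 X).of a * gd3 π z * (D3 X).of b = (D3 X).ev g l) : 2 * z.2.1 ≤ l.length := by
  obtain ⟨x, N, δ⟩ := z
  cases N with
  | zero => simp
  | succ n =>
    have hr : (D3 X).Red (List.replicate n (((), true), 1) ++ (((), true), (π δ, 1)) ::
        (List.replicate n (((), false), 1) ++ [(((), false), b)])) := by
      refine CAa_red_rep (by simp [MHD.cent]) (MHD.red_cons_iff.2 ⟨fun hp => ?_, ?_⟩) n
      · obtain ⟨_, _, -, h2⟩ := hp.elim
        exact hz (congrArg Prod.fst (Subgroup.mem_bot.1 h2))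
      · exact CAa_red_rep (by simp [MHD.cent]) (List.IsChain.singleton _) n
    have ht : (D3 X).t ((), false) = ((D3 X).t ((), true))⁻¹ := (D3 X).t_bar ((), true)
    have := MHD.length_le (g := a * (π x, 1)) (g' := g) (l' := l) hr (by
      rw [← h, CAa_ev_rep, CAa_ev_rep, MHD.ev_nil, ht, inv_pow, map_mul]
      simp only [gd3, mul_assoc])
    simp only [List.length_append, List.length_replicate, List.length_cons, List.length_nil] at this
    show 2 * (n + 1) ≤ _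
    omega

theorem not_Fx_pt0 (h : ClaimsOK π H Cl 0) : ¬Fx π H Cl (pt0 H) := by
  rintro ⟨_, ⟨a, ha, rfl⟩, z, hz, e⟩
  rw [QuotientGroup.eq, inv_one, one_mul] at e
  rcases h z hz with ⟨h1, h2⟩ | ⟨h1, h2⟩
  · have : gd3 π z = (D3 X).of (π z.1, 1) := by
      rw [gd3, h1, Prod.mk_one_one, map_one, mul_one, mul_inv_cancel_right]
    rw [this, ← map_mul, CAa_mem_S3] at e
    exact h2 ((H.mul_mem_cancel_left (Subgroup.mem_prod.1 ha).1).1 e)
  · obtain ⟨s, -, hs⟩ := e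
    have := gd3_length z h1 a 1 s [] (by rw [map_one, mul_one, MHD.ev_nil, hs])
    simp only [List.length_nil] at this
    omega

theorem CAa_st_act {p q : Pt H} {g : (D3 X).G} (hg : g ∈ H3 H) (h : stτ π H Cl p q) :
    stτ π H Cl (actA H p g) (actA H q g) := by
  rcases h with ⟨rfl, rfl⟩ | ⟨rfl, h⟩
  · exact Or.inl ⟨CAa_act_pt0.2 (CAa_H3_le hg), by simp [actA, CAa_eps_H3 hg]⟩
  · refine Or.inr ⟨rfl, ?_⟩
    rcases p with p | i
    · obtain ⟨g', hg', z, hz, rfl⟩ := h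
      refine ⟨g⁻¹ * g', mul_mem (inv_mem hg) hg', z, hz, ?_⟩
      rw [MulAction.Quotient.smul_mk, smul_eq_mul, mul_assoc]
    · simpa [actA, CAa_eps_H3 hg, Fx] using h

/-- the core -/
def coreA (h : ClaimsOK π H Cl 0) : (DA H).Core (Pt H) where
  act := actA H
  act_one := by rintro (p | i) <;> simp [actA]
  act_mul := by rintro (p | i) a b <;> simp [actA, mul_smul, add_assoc]
  st e p q := if e.2 then stτ π H Cl p q else stτ π H Cl q p
  st_bar := by rintro ⟨u, _ | _⟩ p q h <;> simpa [MHD.cent] using h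
  st_fun := by
    rintro ⟨u, _ | _⟩ p q q' h1 h2
    · rcases h1 with ⟨rfl, rfl⟩ | ⟨rfl, h1⟩ <;> rcases h2 with ⟨h3, h4⟩ | ⟨h3, h4⟩
      · exact h3.symm
      · subst h3; exact (h4 rfl).elim
      · subst h4; exact (h1 rfl).elim
      · exact h3.symm
    · rcases h1 with ⟨rfl, rfl⟩ | ⟨rfl, h1⟩ <;> rcases h2 with ⟨h3, h4⟩ | ⟨h3, h4⟩
      · exact h4.symm
      · exact (not_Fx_pt0 h h4).elim
      · subst h3; exact (not_Fx_pt0 h h1).elim
      · exact h3
  st_act := by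
    rintro ⟨u, _ | _⟩ p q g hg h1
    · exact CAa_st_act hg h1
    · exact CAa_st_act hg h1

theorem πA_aX (w : FreeGroup Y) : πA π H (aX w) = jA H (π w) := by
  have : (πA π H).comp aX = (jA H).comp π := by
    ext y
    simp [πA, aX, centMark, π3, prodMark, prL, prR, jA]
  exact DFunLike.congr_fun this w

theorem CAa_πA_aU : πA π H aU = (DA H).of ((D3 X).of (1, Multiplicative.ofAdd 1)) := by
  simp [πA, aU, centMark, π3, prodMark, prL, prR, πU]

theorem CAa_πA_aB : πA π H aB = (DA H).of ((D3 X).t ((), true)) := by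
  simp [πA, aB, centMark, π3]

theorem CAa_πA_aT : πA π H aT = (DA H).t ((), true) := by
  simp [πA, aT, centMark]

theorem CAa_πA_guard (z : FreeGroup Y × ℕ × FreeGroup Y) :
    πA π H (guard z.1 z.2.1 z.2.2) = (DA H).of (gd3 π z) := by
  simp only [guard, gd3, map_mul, map_inv, map_pow, πA_aX, CAa_πA_aB]
  rfl

theorem CAa_conn_τ (h : ClaimsOK π H Cl 0) : (coreA h).Conn (pt0 H) (πA π H aT) (.inr 0) := by
  rw [CAa_πA_aT]
  exact MHD.Core.Conn.t (Or.inl ⟨rfl, rfl⟩)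

theorem CAa_conn_fix (h : ClaimsOK π H Cl 0) {p : Pt H} (hp : Fx π H Cl p) :
    (coreA h).Conn p (πA π H aT) p := by
  rw [CAa_πA_aT]
  exact MHD.Core.Conn.t (Or.inr ⟨rfl, hp⟩)

theorem CAa_conn_star (h : ClaimsOK π H Cl 0) (i : ℤ) {g : (D3 X).G} {j : ℤ}
    (hj : i + (eps3 X g).toAdd = j) : (coreA h).Conn (.inr i) ((DA H).of g) (.inr j) := by
  subst hj
  exact MHD.Core.Conn.of (c := coreA h) (.inr i) g

theorem CAa_conn_u (h : ClaimsOK π H Cl 0) (i k : ℤ) {j : ℤ} (hj : i + k = j) :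
    (coreA h).Conn (.inr i) (πA π H (aU ^ k)) (.inr j) := by
  rw [map_zpow, CAa_πA_aU, ← map_zpow]
  refine CAa_conn_star h i ?_
  rw [map_zpow, CAa_eps_of]
  simpa using hj

theorem CAa_starw (h : ClaimsOK π H Cl 0) (g : FreeGroup (YA Y)) (i : ℤ)
    (hg : (coreA h).Conn (.inr (-i)) (πA π H g) (.inr (-i))) :
    πA π H (starw g i) ∈ (coreA h).stab (pt0 H) := by
  rw [starw, map_mul, map_mul, map_mul, map_mul, map_inv]
  exact ((((CAa_conn_τ h).trans (CAa_conn_u h 0 (-i) (zero_add _))).trans hg).trans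
    (CAa_conn_u h (-i) i (neg_add_cancel _))).trans (CAa_conn_τ h).symm

/-- check the generators with `Conn.of`, `Conn.t`, `Conn.trans`, `Conn.symm` -/
theorem subJ_le_stab (h : ClaimsOK π H Cl 0) :
    subJ (πA π H) (jA H) H Cl ≤ (coreA h).stab (pt0 H) := by
  refine (Subgroup.closure_le _).2 ?_
  rintro _ ((⟨x, hx, rfl⟩ | ⟨w, hw, rfl⟩) | ⟨_, ⟨z, hz, rfl⟩, rfl⟩)
  · exact MHD.Core.of_mem_stab.2 (CAa_act_pt0.2 (CAa_mem_S3.2 hx))
  · obtain ⟨n, rfl | ⟨y, rfl⟩ | ⟨i, -, rfl⟩ | ⟨i, hi, -, rfl⟩⟩ := Set.mem_iUnion.1 hw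
    · rw [CAa_πA_aU]
      exact MHD.Core.of_mem_stab.2 (CAa_act_pt0.2 (CAa_mem_S3.2 (one_mem H)))
    · rw [map_mul, map_mul, map_inv, πA_aX]
      exact ((CAa_conn_τ h).trans (CAa_conn_star h 0 (g := (D3 X).of (π (.of y), 1)) (j := 0)
        (by simp [CAa_eps_of]))).trans (CAa_conn_τ h).symm
    · refine CAa_starw h _ i ?_
      rw [CAa_πA_aB]
      exact CAa_conn_star h _ (by simp [CAa_eps_t])
    · exact CAa_starw h _ i (CAa_conn_fix h (neg_ne_zero.2 hi))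
  · rw [claimw, map_mul, map_mul, map_inv, CAa_πA_guard]
    have h1 : (coreA h).Conn (.inl (gd3 π z : (D3 X).G ⧸ S3 H)) ((DA H).of (gd3 π z)) (pt0 H) := by
      have := MHD.Core.Conn.of (c := coreA h) (.inl (gd3 π z : (D3 X).G ⧸ S3 H)) (gd3 π z)
      simpa [coreA, actA, pt0] using this
    exact (h1.symm.trans (CAa_conn_fix h ⟨1, one_mem _, z, hz, by rw [one_mul]⟩)).trans h1

theorem unit_eq_zpow (v : FreeGroup Unit) : v = FreeGroup.of () ^ (πU v).toAdd := by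
  have : (zpowersHom (FreeGroup Unit) (FreeGroup.of ())).comp πU = MonoidHom.id _ :=
    FreeGroup.ext_hom _ _ fun _ => by simp [πU]
  exact (DFunLike.congr_fun this v).symm

theorem natAbs_πU_le (v : FreeGroup Unit) : (πU v).toAdd.natAbs ≤ v.norm := by
  have key : ∀ l : List (Unit × Bool), (πU (FreeGroup.mk l)).toAdd.natAbs ≤ l.length := by
    intro l
    induction l with
    | nil => simp [← FreeGroup.one_eq_mk]
    | cons x l ih =>
      have h1 : (πU (FreeGroup.mk [x])).toAdd.natAbs = 1 := by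
        obtain ⟨z, _ | _⟩ := x <;> simp [πU]
      rw [show x :: l = [x] ++ l from rfl, ← FreeGroup.mul_mk, map_mul, toAdd_mul]
      refine (Int.natAbs_add_le _ _).trans ?_
      simp only [List.length_append, List.length_singleton]
      omega
  have := key v.toWord
  rwa [FreeGroup.mk_toWord] at this

/-- locality of `X × ⟨u⟩` -/
theorem split3_KT {θ : LT ((Y ⊕ Unit) ⊕ Unit)} {L m : ℕ} (h : θ.Closed L)
    (hL : 100 * (m + 1) ^ 2 ≤ L) (hR : FreeGroup.map Sum.inl '' prodRel Y Unit ⊆ θ.T)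
    (hT : (θ.comap (FreeGroup.map fun y : Y => .inl (.inl y))).KT π m) :
    (θ.comap (FreeGroup.map Sum.inl)).KT (prodMark π πU) m := by
  have h' : (θ.comap (FreeGroup.map Sum.inl)).Closed L := h.comap (lip_map _) (one_mul L).le
  refine h'.prod_KT (fun w hw => hR ⟨w, hw, rfl⟩) (by nlinarith) (fun w hw h1 => ?_)
    fun w _ h1 => ?_
  · have := hT w hw h1
    simp only [LT.mem_comap_T, FreeGroup.map.comp] at this ⊢
    exact this
  · have : w = 1 := by rw [unit_eq_zpow w, h1, toAdd_one, zpow_zero]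
    rw [this, LT.mem_comap_T, map_one]
    exact h'.one

theorem split3_KC {θ : LT ((Y ⊕ Unit) ⊕ Unit)} {L m : ℕ} (h : θ.Closed L)
    (hL : 100 * (m + 1) ^ 2 ≤ L) (hR : FreeGroup.map Sum.inl '' prodRel Y Unit ⊆ θ.T)
    (hT : (θ.comap (FreeGroup.map fun y : Y => .inl (.inl y))).KT π m) :
    θ.KC (fun _ : Unit => ⊥) (prodMark π πU) m := by
  intro i w hw h1
  have ha : FreeGroup.map Sum.inl w ∈ θ.T := split3_KT h hL hR hT w hw (Subgroup.mem_bot.1 h1)
  have n1 : (FreeGroup.map (Sum.inl : Y ⊕ Unit → (Y ⊕ Unit) ⊕ Unit) w).norm ≤ m :=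
    (norm_map_le _ w).trans hw
  have n2 : (FreeGroup.of (Sum.inr i : (Y ⊕ Unit) ⊕ Unit)).norm = 1 := FreeGroup.norm_of _
  have hm : 2 * (m + 1) ≤ L := by nlinarith
  have e : θ.E (FreeGroup.map Sum.inl w) 1 := LT.E_one.2 ha
  have e1 := e.mul_right (FreeGroup.of (Sum.inr i))
  have e2 := h.mul_left (B := m) (g := FreeGroup.of (Sum.inr i)) (by omega) (by omega) (by simp) n1
    (h.symm (B := m) (by omega) n1 (by simp) e)
  rw [one_mul] at e1
  rw [mul_one] at e2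
  exact h.trans (B := m + 1) hm ((nmul _ _).trans (by omega)) (by omega)
    ((nmul _ _).trans (by omega)) e1 e2

theorem relA_comap {θ : LT (YA Y)} (hR : relA Y ⊆ θ.T) :
    FreeGroup.map Sum.inl '' prodRel Y Unit ⊆ (θ.comap (FreeGroup.map Sum.inl)).T := by
  rintro _ ⟨_, ⟨y, z, rfl⟩, rfl⟩
  exact hR ⟨y, by simp [aX, aU]⟩

theorem map_inl_aX (w : FreeGroup Y) :
    FreeGroup.map Sum.inl (FreeGroup.map (fun y : Y => (.inl (.inl y) : (Y ⊕ Unit) ⊕ Unit)) w) =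
      aX w := FreeGroup.map.comp _ _ w

theorem KT_comap_aX {θ : LT (YA Y)} {m : ℕ} (hT : (θ.comap aX).KT π m) :
    ((θ.comap (FreeGroup.map Sum.inl)).comap
      (FreeGroup.map fun y : Y => .inl (.inl y))).KT π m := fun w hw h1 => by
  simp only [LT.mem_comap_T, map_inl_aX]
  exact hT w hw h1

/-- a short word of `X₃` with value in the base is `≈ y uᵏ` (`cent_base`, `prod_split`; every
element of `F(Unit)` is a power of the generator) -/
theorem split3 {θ : LT ((Y ⊕ Unit) ⊕ Unit)} {L m : ℕ} (h : θ.Closed L)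
    (hL : 100 * (m + 1) ^ 2 ≤ L) (hR : FreeGroup.map Sum.inl '' prodRel Y Unit ⊆ θ.T)
    (hT : (θ.comap (FreeGroup.map fun y : Y => .inl (.inl y))).KT π m)
    (w : FreeGroup ((Y ⊕ Unit) ⊕ Unit)) (hw : w.norm ≤ m) {x : X × Multiplicative ℤ}
    (hx : π3 π w = (D3 X).of x) :
    ∃ y : FreeGroup Y, y.norm ≤ w.norm ∧ π y = x.1 ∧ x.2.toAdd.natAbs ≤ w.norm ∧
      θ.E w (FreeGroup.map (fun y : Y => .inl (.inl y)) y *
        (FreeGroup.of (.inl (.inr ())) : FreeGroup ((Y ⊕ Unit) ⊕ Unit)) ^ x.2.toAdd) := by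
  have h' : (θ.comap (FreeGroup.map Sum.inl)).Closed L := h.comap (lip_map _) (one_mul L).le
  obtain ⟨w₀, n0, h0, e⟩ := h.cent_base (by nlinarith) (split3_KC h hL hR hT) w hw hx
  have e1 := h'.prod_split (fun w hw => hR ⟨w, hw, rfl⟩) (n := m) (by nlinarith) w₀ (n0.trans hw)
  have h2 : πU (prR w₀) = x.2 := congrArg Prod.snd h0
  have e2 : θ.E (FreeGroup.map Sum.inl w₀) (FreeGroup.map Sum.inl
      (FreeGroup.map Sum.inl (prL w₀) * FreeGroup.map Sum.inr (prR w₀))) := by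
    simpa only [LT.E, LT.mem_comap_T, map_mul, map_inv] using e1
  have n1 := (norm_map_le (Sum.inl : Y → Y ⊕ Unit) _).trans (norm_prL_le w₀)
  have n2 := (norm_map_le (Sum.inr : Unit → Y ⊕ Unit) _).trans (norm_prR_le w₀)
  have e3 := h.trans (B := 2 * m) (by nlinarith) (by omega) ((norm_map_le _ _).trans (by omega))
    ((norm_map_le _ _).trans ((nmul _ _).trans (by omega))) e e2
  refine ⟨prL w₀, (norm_prL_le w₀).trans n0, congrArg Prod.fst h0,
    h2 ▸ (natAbs_πU_le _).trans ((norm_prR_le w₀).trans n0), ?_⟩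
  rw [unit_eq_zpow (prR w₀), h2, map_mul, FreeGroup.map.comp, map_zpow, map_zpow, FreeGroup.map.of,
    FreeGroup.map.of] at e3
  exact e3

/-- `θ` knows that `τ` commutes with the short words of `X₃` in `H₃` (`split3`) -/
theorem A_KC {θ : LT (YA Y)} {L m : ℕ} (h : θ.Closed L) (hL : 200 * (m + 1) ^ 2 ≤ L)
    (hR : relA Y ⊆ θ.T) (hT : (θ.comap aX).KT π m)
    (hc : ∀ w : FreeGroup Y, w.norm ≤ m → π w ∈ H → aX w * aT * (aT * aX w)⁻¹ ∈ θ.T) :
    θ.KC (fun _ : Unit => H3 H) (π3 π) m := by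
  rintro ⟨⟩ w hw ⟨x, hx, h1⟩
  show θ.E (FreeGroup.map Sum.inl w * aT) (aT * FreeGroup.map Sum.inl w)
  have h' : (θ.comap (FreeGroup.map Sum.inl)).Closed L := h.comap (lip_map _) (one_mul L).le
  obtain ⟨y, ny, hy, -, e⟩ := split3 h' (by omega) (relA_comap hR) (KT_comap_aX hT) w hw h1.symm
  have h2 : x.2 = 1 := Subgroup.mem_bot.1 hx.2
  rw [h2, toAdd_one, zpow_zero, mul_one] at e
  have e1 : θ.E (FreeGroup.map Sum.inl w) (aX y) := by
    simpa only [LT.E, LT.mem_comap_T, map_mul, map_inv, map_inl_aX] using e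
  have e2 : θ.E (aX y * aT) (aT * aX y) := hc y (ny.trans hw) (hy ▸ hx.1)
  have n1 : (FreeGroup.map (Sum.inl : _ → YA Y) w).norm ≤ m := (norm_map_le _ w).trans hw
  have n2 : (aX y).norm ≤ m := (norm_map_le _ y).trans (ny.trans hw)
  have n3 : (aT : FreeGroup (YA Y)).norm = 1 := FreeGroup.norm_of _
  have hm : 2 * (m + 1) ≤ L := by nlinarith
  have e3 := h.mul_left (B := m) (g := aT) (by omega) (by omega) n2 n1
    (h.symm (B := m) (by omega) n1 n2 e1)
  exact h.trans (B := m + 1) hm ((nmul _ aT).trans (by omega)) ((nmul _ _).trans (by omega))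
    ((nmul aT _).trans (by omega)) (e1.mul_right aT)
    (h.trans (B := m + 1) hm ((nmul _ _).trans (by omega)) ((nmul _ _).trans (by omega))
      ((nmul _ _).trans (by omega)) e2 e3)

/-- `cent_KT` twice and `prod_KT` -/
theorem A_KT {θ : LT (YA Y)} {L m : ℕ} (h : θ.Closed L) (hL : 1000 * (m + 1) ^ 2 ≤ L)
    (hR : relA Y ⊆ θ.T) (hT : (θ.comap aX).KT π m)
    (hc : ∀ w : FreeGroup Y, w.norm ≤ m → π w ∈ H → aX w * aT * (aT * aX w)⁻¹ ∈ θ.T) :
    θ.KT (πA π H) m := by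
  have h' : (θ.comap (FreeGroup.map Sum.inl)).Closed L := h.comap (lip_map _) (one_mul L).le
  exact h.cent_KT (by nlinarith) (A_KC h (by omega) hR hT hc)
    (h'.cent_KT (by nlinarith) (split3_KC h' (by omega) (relA_comap hR) (KT_comap_aX hT))
      (split3_KT h' (by omega) (relA_comap hR) (KT_comap_aX hT)))

theorem cac_zpow_mem {Z : Type} [DecidableEq Z] {θ : LT Z} {L : ℕ} (h : θ.Closed L)
    {a : FreeGroup Z} (ha : a.norm ≤ 1) (hM : a ∈ θ.M) (k : ℤ) (hk : k.natAbs + 1 ≤ L) :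
    a ^ k ∈ θ.M := by
  have key : ∀ n : ℕ, n ≤ L → a ^ n ∈ θ.M := fun n hn => by
    have := h.prodM (B := 1) (List.replicate n a)
      (fun b hb => (List.eq_of_mem_replicate hb) ▸ ha) (by simpa using hn)
      (fun b hb => (List.eq_of_mem_replicate hb) ▸ hM)
    simpa using this
  cases k with
  | ofNat n => simpa using key n (by simp at hk; omega)
  | negSucc n =>
    rw [zpow_negSucc]
    have h1 := norm_zpow_le a ((n + 1 : ℕ) : ℤ)
    rw [zpow_natCast, Int.natAbs_natCast] at h1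
    rw [Int.natAbs_negSucc] at hk
    exact h.invM _ (h1.trans (by nlinarith)) (key _ (by omega))

theorem cac_len {M I Z : Type} [Group M] [DecidableEq Z] [DecidableEq I] (H : I → Subgroup M)
    (π : FreeGroup Z →* M) (w : FreeGroup (Z ⊕ I)) :
    ∃ g l, (MHD.cent H).ev g l = centMark H π w ∧ l.length ≤ w.norm := by
  have key : ∀ xs : List ((Z ⊕ I) × Bool),
      ∃ g l, (MHD.cent H).ev g l = centMark H π (.mk xs) ∧ l.length ≤ xs.length := by
    intro xs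
    induction xs with
    | nil => exact ⟨1, [], by simp [← FreeGroup.one_eq_mk], le_rfl⟩
    | cons x xs ih =>
      obtain ⟨g, l, h1, h2⟩ := ih
      rw [show x :: xs = [x] ++ xs from rfl, ← FreeGroup.mul_mk, map_mul, ← h1]
      obtain ⟨y | i, b⟩ := x
      · refine ⟨π (.mk [(y, b)]) * g, l, ?_, by simp; omega⟩
        rw [← MHD.of_mul_ev, ← centMark_inl]
        rfl
      · refine ⟨1, ((i, b), g) :: l, ?_, by simp; omega⟩
        rw [MHD.ev_cons, map_one, one_mul, ← (centRep H π).π_tw]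
        cases b
        · rw [mk_false]; rfl
        · rfl
  have := key w.toWord
  rwa [FreeGroup.mk_toWord] at this

theorem cac_aX (w : FreeGroup Y) : FreeGroup.map (Sum.inl : _ → YA Y)
    (FreeGroup.map (fun y : Y => (.inl (.inl y) : (Y ⊕ Unit) ⊕ Unit)) w) = aX w := by
  rw [FreeGroup.map.comp]; rfl

theorem cac_norm_aX (w : FreeGroup Y) : (aX w).norm ≤ w.norm := norm_map_le _ w

theorem cac_norm_U (k : ℤ) : ((aU : FreeGroup (YA Y)) ^ k).norm ≤ k.natAbs := by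
  simpa [aU] using norm_zpow_le (aU : FreeGroup (YA Y)) k

theorem cac_norm_T : (aT : FreeGroup (YA Y)).norm = 1 := FreeGroup.norm_of _

theorem cac_comm {θ : LT (YA Y)} {L n : ℕ} (h : θ.Closed L) (hL : 32 * (n + 1) ^ 2 ≤ L)
    (hR : relA Y ⊆ θ.T) (w : FreeGroup Y) (hw : w.norm ≤ n) (k : ℤ) (hk : k.natAbs ≤ n) :
    θ.E (aX w * aU ^ k) (aU ^ k * aX w) := by
  have := h.comm (a := aX) (b := FreeGroup.lift fun _ : Unit => (aU : FreeGroup (YA Y))) (Λ := 1)
    (n := n) (lip_map _) (fun _ => by simp [aU]) (fun z _ => hR ⟨z, by simp⟩) (by nlinarith) w hw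
    (FreeGroup.of () ^ k) ((norm_zpow_le _ k).trans (by simpa using hk))
  simpa using this

theorem cac_split {θ : LT (YA Y)} {L n : ℕ} (h : θ.Closed L) (hL : 100 * (n + 1) ^ 2 ≤ L)
    (hR : relA Y ⊆ θ.T) (hT : (θ.comap aX).KT π n) (w : FreeGroup ((Y ⊕ Unit) ⊕ Unit))
    (hw : w.norm ≤ n) {x : X × Multiplicative ℤ} (hx : π3 π w = (D3 X).of x) :
    ∃ y : FreeGroup Y, y.norm ≤ n ∧ π y = x.1 ∧ x.2.toAdd.natAbs ≤ n ∧
      θ.E (FreeGroup.map Sum.inl w) (aX y * aU ^ x.2.toAdd) := by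
  obtain ⟨y, h1, h2, h3, h4⟩ := split3 (θ := θ.comap (FreeGroup.map Sum.inl)) (L := L) (m := n)
    (h.comap (lip_map _) (by omega)) hL (by
      rintro _ ⟨_, ⟨y, z, rfl⟩, rfl⟩
      exact hR ⟨y, by simp [aX, aU]⟩)
    (fun u hu h1 => by
      rw [LT.mem_comap_T, LT.mem_comap_T, cac_aX]
      exact hT u hu h1) w hw hx
  refine ⟨y, h1.trans hw, h2, h3.trans hw, ?_⟩
  have h5 : FreeGroup.map Sum.inl _ ∈ θ.T := h4
  rw [map_mul, map_inv, map_mul, map_zpow, cac_aX] at h5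
  exact h5

/-- the exponent of `u` of a word -/
def cacE (π : FreeGroup Y →* X) (w : FreeGroup ((Y ⊕ Unit) ⊕ Unit)) : ℤ := (eps3 X (π3 π w)).toAdd

theorem cacE_mul (a b : FreeGroup ((Y ⊕ Unit) ⊕ Unit)) : cacE π (a * b) = cacE π a + cacE π b := by
  simp [cacE]

theorem cacE_inv (a : FreeGroup ((Y ⊕ Unit) ⊕ Unit)) : cacE π a⁻¹ = -cacE π a := by
  simp [cacE]

theorem cacE_y (y : Y) : cacE π (.of (.inl (.inl y))) = 0 := by
  simp [cacE, π3, centMark, eps3, prodMark, prR]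

theorem cacE_u (z : Unit) : cacE π (.of (.inl (.inr z))) = 1 := by
  simp [cacE, π3, centMark, eps3, prodMark, prR, πU]

theorem cacE_b (z : Unit) : cacE π (.of (.inr z)) = 0 := by
  simp [cacE, π3, centMark, eps3]

theorem cacE_of (z : (Y ⊕ Unit) ⊕ Unit) : (cacE π (.of z)).natAbs ≤ 1 := by
  obtain (y | z) | z := z
  · simp [cacE_y]
  · simp [cacE_u]
  · simp [cacE_b]

theorem cac_norm_star (i j : ℤ) (g : FreeGroup (YA Y)) :
    (aT * aU ^ i * g * (aT * aU ^ j)⁻¹).norm ≤ i.natAbs + j.natAbs + g.norm + 2 := by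
  have h1 := nmul (aT * aU ^ i * g) (aT * aU ^ j)⁻¹
  have h2 := nmul (aT * aU ^ i) g
  have h3 := nmul (aT : FreeGroup (YA Y)) (aU ^ i)
  have h4 := nmul (aT : FreeGroup (YA Y)) (aU ^ j)
  have h5 := cac_norm_U (Y := Y) i
  have h6 := cac_norm_U (Y := Y) j
  have h7 := cac_norm_T (Y := Y)
  rw [FreeGroup.norm_inv_eq] at h1
  omega

theorem cac_letter {θ : LT (YA Y)} {L n : ℕ} (h : θ.Closed L) (hL : 32 * (n + 1) ^ 2 ≤ L)
    (hR : relA Y ⊆ θ.T) (hf : famA Y n ⊆ θ.M) (hn : 1 ≤ n) (z : (Y ⊕ Unit) ⊕ Unit) (i : ℤ)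
    (hi : i.natAbs ≤ n) :
    aT * aU ^ i * .of (.inl z) * (aT * aU ^ (i + cacE π (.of z)))⁻¹ ∈ θ.M := by
  have hL' : 32 * n + 32 ≤ L := le_trans (by nlinarith) hL
  obtain (y | z) | z := z
  · rw [cacE_y, add_zero]
    have e1 := cac_comm h hL hR (.of y) (by simpa using hn) i hi
    have n1 := cac_norm_aX (FreeGroup.of y)
    have n2 := cac_norm_U (Y := Y) i
    have n3 := cac_norm_T (Y := Y)
    rw [FreeGroup.norm_of] at n1
    have n4 := nmul (aX (.of y)) (aU ^ i)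
    have n5 := nmul (aU ^ i) (aX (.of y))
    have e2 := h.mid (B := n + 1) (g := aT) (by omega) (by omega) (by omega) (by omega)
      (h.symm (B := n + 1) (by omega) (by omega) (by omega) e1) (aT * aU ^ i)⁻¹
    have n6 := cac_norm_star i i (aX (.of y))
    have n7 := cac_norm_star 0 0 (aX (.of y))
    have q1 : aT * (aX (.of y) * aU ^ i) * (aT * aU ^ i)⁻¹ = aT * aX (.of y) * aT⁻¹ := by group
    rw [q1, ← mul_assoc] at e2
    simp only [zpow_zero, mul_one, Int.natAbs_zero] at n7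
    exact h.memM (B := 2 * n + 3) (by omega) (n6.trans (by omega)) (n7.trans (by omega)) e2
      (hf (Or.inr (Or.inl ⟨y, rfl⟩)))
  · rw [cacE_u]
    have : aT * aU ^ i * .of (.inl (.inl (.inr z))) * (aT * aU ^ (i + 1))⁻¹ =
        (1 : FreeGroup (YA Y)) := by
      change aT * aU ^ i * aU * _ = _
      group
    rw [this]
    exact h.oneM
  · rw [cacE_b, add_zero]
    refine hf (Or.inr (Or.inr (Or.inl ⟨-i, by simpa using hi, ?_⟩)))
    change aT * aU ^ i * aB * _ = _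
    unfold starw
    group

theorem cac_star {θ : LT (YA Y)} {L n : ℕ} (h : θ.Closed L) (hL : 32 * (n + 1) ^ 2 ≤ L)
    (hR : relA Y ⊆ θ.T) (hf : famA Y n ⊆ θ.M) (r : FreeGroup ((Y ⊕ Unit) ⊕ Unit)) (i : ℤ)
    (hi : i.natAbs + r.norm ≤ n) : (cacE π r).natAbs ≤ r.norm ∧
    aT * aU ^ i * FreeGroup.map Sum.inl r * (aT * aU ^ (i + cacE π r))⁻¹ ∈ θ.M := by
  have hL' : 32 * n + 32 ≤ L := le_trans (by nlinarith) hL
  have key : ∀ (xs : List (((Y ⊕ Unit) ⊕ Unit) × Bool)) (i : ℤ), i.natAbs + xs.length ≤ n →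
      (cacE π (.mk xs)).natAbs ≤ xs.length ∧ aT * aU ^ i * FreeGroup.map Sum.inl (.mk xs) *
        (aT * aU ^ (i + cacE π (.mk xs)))⁻¹ ∈ θ.M := by
    intro xs
    induction xs with
    | nil =>
      intro i _
      simpa [← FreeGroup.one_eq_mk, cacE] using h.oneM
    | cons x xs ih =>
      intro i hi
      rw [List.length_cons] at hi
      have h1 : (cacE π (.mk [x])).natAbs ≤ 1 ∧ aT * aU ^ i * FreeGroup.map Sum.inl (.mk [x]) *
          (aT * aU ^ (i + cacE π (.mk [x])))⁻¹ ∈ θ.M := by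
        obtain ⟨z, _ | _⟩ := x
        · have h2 := cacE_of (π := π) z
          rw [mk_false, cacE_inv, map_inv, FreeGroup.map.of]
          refine ⟨by simpa using h2, ?_⟩
          have h3 := cac_letter (π := π) h hL hR hf (by omega) z (i + -cacE π (.of z)) (by omega)
          have h4 := h.invM _ ((cac_norm_star _ _ _).trans (by
            rw [FreeGroup.norm_of]; omega)) h3
          rw [neg_add_cancel_right] at h4
          simpa only [mul_inv_rev, inv_inv, mul_assoc] using h4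
        · exact ⟨cacE_of z, cac_letter h hL hR hf (by omega) z i (by omega)⟩
      obtain ⟨h2, h3⟩ := ih (i + cacE π (.mk [x])) (by omega)
      have n0 : (FreeGroup.map (Sum.inl : _ → YA Y) (FreeGroup.mk xs)).norm ≤ xs.length :=
        (norm_map_le _ _).trans FreeGroup.norm_mk_le
      have n1 : (FreeGroup.map (Sum.inl : _ → YA Y) (FreeGroup.mk [x])).norm ≤ 1 :=
        (norm_map_le _ _).trans FreeGroup.norm_mk_le
      have h4 := h.mulM _ _ ((cac_norm_star _ _ _).trans (by omega))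
        ((cac_norm_star _ _ _).trans (by omega)) h1.2 h3
      rw [show x :: xs = [x] ++ xs from rfl, ← FreeGroup.mul_mk, cacE_mul, map_mul, ← add_assoc]
      refine ⟨by simp only [List.length_append, List.length_singleton]; omega, ?_⟩
      simpa only [mul_inv_rev, mul_assoc, inv_mul_cancel_left] using h4
  have := key r.toWord i hi
  rwa [FreeGroup.mk_toWord] at this

theorem cac_S3 {θ : LT (YA Y)} {L n : ℕ} (h : θ.Closed L) (hL : 100 * (n + 1) ^ 2 ≤ L)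
    (hR : relA Y ⊆ θ.T) (hT : (θ.comap aX).KT π n) (hM : (θ.comap aX).KM π H n)
    (hf : famA Y n ⊆ θ.M) (y : FreeGroup ((Y ⊕ Unit) ⊕ Unit)) (hy : y.norm ≤ n)
    (hS : π3 π y ∈ S3 H) : FreeGroup.map Sum.inl y ∈ θ.M := by
  have hL' : 100 * n + 100 ≤ L := le_trans (by nlinarith) hL
  obtain ⟨x, hx, e⟩ := hS
  obtain ⟨y₁, h1, h2, h3, h4⟩ := cac_split h hL hR hT y hy e.symm
  have n1 := cac_norm_aX y₁
  have n2 := cac_norm_U (Y := Y) x.2.toAdd
  exact h.memM (B := 2 * n) (by omega) ((norm_map_le _ _).trans (by omega))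
    ((nmul _ _).trans (by omega)) h4 (h.mulM _ _ (by omega) (by omega) (hM y₁ h1 (h2 ▸ hx.1))
      (cac_zpow_mem h (by simp [aU]) (hf (Or.inl rfl)) _ (by omega)))

theorem cac_fix {m : ℕ} (hCl : ClaimsOK π H Cl m) {θ : LT (YA Y)} {L : ℕ} (h : θ.Closed L)
    (hL : 100 * (2 * m + 1) ^ 2 ≤ L) (hR : relA Y ⊆ θ.T) (hT : (θ.comap aX).KT π (2 * m))
    (hf : famA Y (2 * m) ⊆ θ.M)
    (hn : ∀ w : FreeGroup Y, w.norm ≤ 2 * m → π w ∉ H → (aX w)⁻¹ * aT * aX w ∈ θ.M)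
    (y : FreeGroup ((Y ⊕ Unit) ⊕ Unit)) (hy : y.norm ≤ 2 * m)
    (hF : Fx π H Cl (.inl (((π3 π y)⁻¹ : (D3 X).G) : (D3 X).G ⧸ S3 H))) :
    FreeGroup.map Sum.inl y * aT * (FreeGroup.map Sum.inl y)⁻¹ ∈ θ.M := by
  have hL' : 200 * m + 100 ≤ L := le_trans (by nlinarith) hL
  obtain ⟨_, ⟨a, ha, rfl⟩, z, hz, e⟩ := hF
  obtain ⟨s, hs, e'⟩ := QuotientGroup.eq.1 e
  rw [inv_inv] at e'
  rcases hCl z hz with ⟨h1, h2⟩ | ⟨h1, h2⟩
  · have e1 : π3 π y = (D3 X).of (s * (π z.1, 1)⁻¹ * a⁻¹) := by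
      have : gd3 π z = (D3 X).of (π z.1, 1) := by
        rw [gd3, h1, show ((1, 1) : X × Multiplicative ℤ) = 1 from rfl, map_one]
        group
      rw [map_mul, map_mul, map_inv, map_inv, e', this]
      group
    obtain ⟨y₁, h3, h4, h5, e2⟩ := cac_split h hL hR hT y hy e1
    generalize (s * (π z.1, 1)⁻¹ * a⁻¹).2.toAdd = k at h5 e2
    have h6 : π y₁⁻¹ ∉ H := fun h6 => h2 (by
      rw [map_inv, inv_mem_iff, h4] at h6
      have h7 : s.1 * (π z.1)⁻¹ * a.1⁻¹ ∈ H := h6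
      rwa [H.mul_mem_cancel_right (inv_mem ha.1), H.mul_mem_cancel_left hs.1, inv_mem_iff] at h7)
    have m1 := hn y₁⁻¹ (by rwa [FreeGroup.norm_inv_eq]) h6
    rw [map_inv, inv_inv] at m1
    have m2 := cac_zpow_mem h (by simp [aU]) (hf (Or.inl rfl)) k (by omega)
    have n0 : (FreeGroup.map (Sum.inl : _ → YA Y) y).norm ≤ 2 * m := (norm_map_le _ _).trans hy
    have n1 := cac_norm_aX y₁
    have n2 := cac_norm_U (Y := Y) k
    have n3 := cac_norm_T (Y := Y)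
    have n4 := nmul (aX y₁) (aU ^ k)
    have n5 := nmul (aU ^ k) (aX y₁)
    have e3 := h.trans (B := 4 * m) (by omega) (by omega) (by omega) (by omega) e2
      (cac_comm h (by omega) hR y₁ h3 k h5)
    generalize FreeGroup.map (Sum.inl : _ → YA Y) y = v at n0 e3 ⊢
    have nn : ∀ x : FreeGroup (YA Y), (x * aT * x⁻¹).norm ≤ 2 * x.norm + 1 := fun x => by
      have := nmul (x * aT) x⁻¹
      have := nmul x aT
      rw [FreeGroup.norm_inv_eq] at *
      omega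
    have n6 := nmul v aT
    have n7 := nmul (aU ^ k * aX y₁) aT
    have e4 := h.mulE (B := 4 * m + 1) (by omega) (by omega) (by omega)
      (by rw [FreeGroup.norm_inv_eq]; omega) (by rw [FreeGroup.norm_inv_eq]; omega)
      (e3.mul_right aT) (h.invE (B := 4 * m) (by omega) (by omega) (by omega) e3)
    refine h.memM (B := 8 * m + 1) (by omega) ((nn _).trans (by omega)) ((nn _).trans (by omega))
      e4 ?_
    have n8 := nn (aX y₁)
    have := h.mulM _ _ ((nmul _ _).trans (by omega)) (by rw [FreeGroup.norm_inv_eq]; omega)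
      (h.mulM _ _ (by omega) (by omega) m2 m1) (h.invM _ (by omega) m2)
    simpa only [mul_inv_rev, mul_assoc] using this
  · obtain ⟨g, l, e1, h3⟩ := cac_len (fun _ : Unit => ⊥) (prodMark π πU) y⁻¹
    have h4 := gd3_length z h1 a s⁻¹ g l (by
      rw [e1, map_inv, map_inv, e']
      change _ = (π3 π y)⁻¹
      group)
    rw [FreeGroup.norm_inv_eq] at h3
    omega

/-- Pass to `θ.sound`; `cent_rep`, `subJ_le_stab`, `Conn.path`, then `RepSys.scan` with
`P n p v := (∃ y, ‖y‖ ≤ n ∧ p = inl ↑(π3 y)⁻¹ ∧ v = map inl y) ∨ ∃ i, |i| ≤ n ∧ p = inr i ∧ v = τ uⁱ`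
(`F = m`, `F' = 2 m + 1`).  `p1`, coset: `v' = v * wd r`.  `p1`, star: `τ uⁱ g u^(-(i + ε g)) τ⁻¹` is
a product over the letters of `g` of `τ uʲ y^± u⁻ʲ τ⁻¹ ≈ (τ y τ⁻¹)^±`, `(starw aB (-j))^±`, `1`.
`p2`: at `pt0` the word `y` has value in `S3`, so `y ≈ y₁ uᵏ ∈ θ.M` (`split3`, radius `2 m`); at a
fixed coset an inactive claim is impossible (`gd3_length`: `π3 y` is the value of a list of length
`≤ ‖y‖ ≤ 2 m < 2 N`, e.g. by `cent_rep` for the honest theory), for an active one `y ≈ y₁ uᵏ` with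
`π y₁ ∉ H` and `y τ y⁻¹ ≈ uᵏ (y₁ τ y₁⁻¹) u⁻ᵏ`; at a star use `starw aT (-i)`. -/
theorem A_KM {m : ℕ} (hCl : ClaimsOK π H Cl m) {θ : LT (YA Y)} {L : ℕ} (h : θ.Closed L)
    (hL : 1000 * (m + 1) ^ 2 ≤ L) (hR : relA Y ⊆ θ.T) (hT : (θ.comap aX).KT π (2 * m))
    (hc : ∀ w : FreeGroup Y, w.norm ≤ m → π w ∈ H → aX w * aT * (aT * aX w)⁻¹ ∈ θ.T)
    (hM : (θ.comap aX).KM π H (2 * m)) (hf : famA Y (2 * m) ⊆ θ.M)
    (hn : ∀ w : FreeGroup Y, w.norm ≤ 2 * m → π w ∉ H → (aX w)⁻¹ * aT * aX w ∈ θ.M) :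
    θ.KM (πA π H) (subJ (πA π H) (jA H) H Cl) m := by
  intro w hw hJ
  have hCl0 : ClaimsOK π H Cl 0 := fun z hz => (hCl z hz).imp id fun h => ⟨h.1, by omega⟩
  have hL1 : 100 * (2 * m + 1) ^ 2 ≤ L := le_trans (by nlinarith) hL
  have hL2 : 1000 * m + 1000 ≤ L := le_trans (by nlinarith) hL
  have hc0 : θ.KC (fun _ : Unit => H3 H) (π3 π) m :=
    A_KC h (by omega) hR (hT.mono (by omega)) hc
  have hc' : (θ.sound (πA π H)).KC (fun _ : Unit => H3 H) (π3 π) m := fun i u hu hH =>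
    ⟨hc0 i u hu hH, by
      rw [map_mul, map_inv, map_mul, map_mul, πA, centMark_inl, centMark_inr, mul_inv_eq_one]
      exact (cent_comm _ i hH).symm⟩
  obtain ⟨r, l, hr, hs, e⟩ := (h.sound (πA π H)).cent_rep (by nlinarith) hc' w hw
  have e1 : πA π H w = πA π H ((centRep (fun _ : Unit => H3 H) (π3 π)).wl r l) :=
    LT.E.eq (θ := θ.sound (πA π H)) (fun _ hw => hw.2) e
  have hconn : (coreA hCl0).Conn (pt0 H) (πA π H w) (pt0 H) := subJ_le_stab hCl0 hJ
  rw [e1, πA, RepSys.π_wl] at hconn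
  have hF : ∀ r, (centRep (fun _ : Unit => H3 H) (π3 π)).sz r ≤ m →
      ((centRep (fun _ : Unit => H3 H) (π3 π)).wd r).norm ≤ m :=
    fun r hr => (norm_map_le _ r).trans hr
  have hS : ∀ y : FreeGroup ((Y ⊕ Unit) ⊕ Unit), y.norm ≤ 2 * m →
      pt0 H = .inl (((π3 π y)⁻¹ : (D3 X).G) : (D3 X).G ⧸ S3 H) →
      FreeGroup.map Sum.inl y ∈ θ.M := fun y hy e => by
    refine cac_S3 h hL1 hR hT hM hf y hy ?_
    simpa using QuotientGroup.eq.1 (Sum.inl.inj e).symm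
  let P : ℕ → Pt H → FreeGroup (YA Y) → Prop := fun n p v =>
    (∃ y : FreeGroup ((Y ⊕ Unit) ⊕ Unit), y.norm ≤ n ∧
      p = .inl (((π3 π y)⁻¹ : (D3 X).G) : (D3 X).G ⧸ S3 H) ∧ v = FreeGroup.map Sum.inl y) ∨
    ∃ i : ℤ, i.natAbs ≤ n ∧ p = .inr i ∧ v = aT * aU ^ i
  have hP : ∀ n p v, n ≤ 2 * m → P n p v → v.norm ≤ 2 * m + 1 := by
    rintro n p v hn (⟨y, h1, -, rfl⟩ | ⟨i, h1, -, rfl⟩)
    · exact (norm_map_le _ _).trans (by omega)
    · have := cac_norm_U (Y := Y) i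
      have := cac_norm_T (Y := Y)
      exact (nmul _ _).trans (by omega)
  have hmono : ∀ n p v, P n p v → P (n + 2) p v := by
    rintro n p v (⟨y, h1, h2⟩ | ⟨i, h1, h2⟩)
    · exact Or.inl ⟨y, by omega, h2⟩
    · exact Or.inr ⟨i, by omega, h2⟩
  have hP0 : ∀ n, P n (pt0 H) 1 := fun n => Or.inl ⟨1, by simp, by simp [pt0], by simp⟩
  have hfix : ∀ n p v, n ≤ 2 * m → P n p v → Fx π H Cl p → v * aT * v⁻¹ ∈ θ.M := by
    rintro n p v hn' (⟨y, h1, rfl, rfl⟩ | ⟨i, h1, rfl, rfl⟩) hF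
    · exact cac_fix hCl h hL1 hR hT hf hn y (by omega) hF
    · refine hf (Or.inr (Or.inr (Or.inr ⟨-i, by simpa [Fx] using hF, by simp; omega, ?_⟩)))
      unfold starw
      group
  obtain ⟨n, v, hn', hv, m1⟩ := (centRep (fun _ : Unit => H3 H) (π3 π)).scan (coreA hCl0) h
    (m := m) (F := m) (F' := 2 * m + 1) (by nlinarith) hF P hP (by
      rintro n p v (r : FreeGroup ((Y ⊕ Unit) ⊕ Unit)) (⟨y, h1, rfl, rfl⟩ | ⟨i, h1, rfl, rfl⟩)
        (h2 : n + r.norm ≤ 2 * m) -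
      · refine ⟨_, Or.inl ⟨y * r, (nmul _ _).trans (Nat.add_le_add_right h1 _), ?_, rfl⟩, ?_⟩
        · rw [map_mul, mul_inv_rev]
          rfl
        · have : FreeGroup.map (Sum.inl : _ → YA Y) y * FreeGroup.map Sum.inl r *
              (FreeGroup.map Sum.inl (y * r))⁻¹ = 1 := by rw [← map_mul, mul_inv_cancel]
          exact this ▸ h.oneM
      · obtain ⟨h3, h4⟩ := cac_star (π := π) h (n := 2 * m) (by omega) hR hf r i (by omega)
        refine ⟨_, Or.inr ⟨i + cacE π r, ?_, rfl, rfl⟩, h4⟩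
        change _ ≤ n + r.norm
        omega) (by
      rintro n p v ⟨_, _ | _⟩ q hv h2 hst
      · have hst' : stτ π H Cl q p := hst
        change ∃ v', _ ∧ v * aT⁻¹ * v'⁻¹ ∈ θ.M
        rcases hst' with ⟨rfl, rfl⟩ | ⟨rfl, hF⟩
        · refine ⟨1, hP0 _, ?_⟩
          rcases hv with ⟨y, -, h3, -⟩ | ⟨i, -, h3, rfl⟩
          · exact absurd h3 (by simp)
          · obtain rfl : 0 = i := Sum.inr.inj h3
            simpa using h.oneM
        · refine ⟨v, hmono _ _ _ hv, ?_⟩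
          have n1 := hP n q v (by omega) hv
          have n2 := nmul (v * aT) v⁻¹
          have n3 := nmul v aT
          have n4 := cac_norm_T (Y := Y)
          rw [FreeGroup.norm_inv_eq] at n2
          have := h.invM _ (by omega) (hfix n q v (by omega) hv hF)
          simpa only [mul_inv_rev, inv_inv, mul_assoc] using this
      · have hst' : stτ π H Cl p q := hst
        change ∃ v', _ ∧ v * aT * v'⁻¹ ∈ θ.M
        rcases hst' with ⟨rfl, rfl⟩ | ⟨rfl, hF⟩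
        · refine ⟨aT, Or.inr ⟨0, by simp, rfl, by simp⟩, ?_⟩
          rcases hv with ⟨y, h3, h4, rfl⟩ | ⟨i, -, h3, -⟩
          · simpa using hS y (by omega) h4
          · exact absurd h3 (by simp [pt0])
        · exact ⟨v, hmono _ _ _ hv, hfix n p v (by omega) hv hF⟩)
    (hP0 0) r l (hs.trans hw) (hconn.path hr)
  have n1 := hP n _ v hn' hv
  have m2 : v ∈ θ.M := by
    rcases hv with ⟨y, h3, h4, rfl⟩ | ⟨i, -, h3, -⟩
    · exact hS y (by omega) h4
    · exact absurd h3 (by simp [pt0])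
  have n2 := (centRep (fun _ : Unit => H3 H) (π3 π)).norm_wl_le hF r l (hs.trans hw)
  generalize (centRep (fun _ : Unit => H3 H) (π3 π)).wl r l = u at *
  have n3 := nmul u v⁻¹
  rw [FreeGroup.norm_inv_eq] at n3
  have n4 : (m + 1) * (m + 1) = (m + 1) ^ 2 := by ring
  have n5 : m ≤ (m + 1) ^ 2 := by nlinarith
  have m3 := h.mulM _ _ (by omega) (by omega) m1 m2
  rw [inv_mul_cancel_right] at m3
  exact h.memM (B := (m + 1) ^ 2) (by omega) (by omega) (by omega) e.1 m3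

end Model

/-- the model above -/
theorem exists_Alayer {X : Type} [Group X] (π : FreeGroup Y →* X) (hπ : Surjective π)
    (H : Subgroup X) : ∃ (A : Type) (_ : Group A) (πA : FreeGroup (YA Y) →* A) (j : X →* A),
      ALayer π H πA j := by
  refine ⟨(DA H).G, inferInstance, πA π H, jA H, ?_, ?_, πA_aX, ?_, ?_, ?_, ?_, ?_, ?_⟩
  · refine centMark_surjective _ _ (centMark_surjective _ _ (prodMark_surjective hπ fun k => ?_))
    exact ⟨FreeGroup.of () ^ k.toAdd, by simp [πU, ← ofAdd_zsmul]⟩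
  · exact (MHD.of_injective _).comp ((MHD.of_injective _).comp (Prod.mk_left_injective _))
  · rintro _ ⟨y, rfl⟩
    rw [map_mul, map_inv, mul_inv_eq_one, map_mul, map_mul, πA_aX, CAa_πA_aU]
    simp only [jA, MonoidHom.comp_apply, ← map_mul, MonoidHom.inl_apply, Prod.mk_mul_mk, mul_one,
      one_mul]
  · intro x hx
    rw [CAa_πA_aT]
    exact cent_comm (fun _ : Unit => H3 H) () (CAa_mem_H3.2 ⟨hx, rfl⟩)
  · exact fun θ L m h hL hR hT hc => A_KT h hL hR hT hc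
  · exact fun Cl h x => ⟨fun hx => CAa_mem_S3.1 (CAa_act_pt0.1
      (MHD.Core.of_mem_stab.1 (subJ_le_stab h hx))),
      fun hx => Subgroup.subset_closure (Or.inl (Or.inl ⟨x, hx, rfl⟩))⟩
  · intro Cl h hτ
    have := MHD.Core.Conn.unique (subJ_le_stab h hτ) (CAa_conn_τ h)
    simp [pt0] at this
  · exact fun Cl m hCl θ L h hL hR hT hc hM hf hn => A_KM hCl h hL hR hT hc hM hf hn

end Crest.Agent.R185
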