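import Crest.Agent.R185.CMH

/-!
# Row 185, core: Britton's lemma, good subgroups, core paths
-/

set_option autoImplicit false

namespace Crest.Agent.R185.MHD

open Function

variable {M E : Type} [Group M] {D : MHD M E}

theorem ev_append (g a : M) (e : E) (l l' : List (E × M)) :
    D.ev g (l ++ (e, a) :: l') = D.ev g l * D.t e * D.ev a l' := by
  simp [ev_eq_prod, mul_assoc]

theorem Sl.refl (g : M) (l : List (E × M)) : D.Sl g l g l := by
  induction l generalizing g with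
  | nil => exact Sl.nil g
  | cons x l ih =>
    obtain ⟨e, a⟩ := x
    have := Sl.cons (D := D) (g := g) (e := e) (a := a) (one_mem (D.H e)) (ih _)
    rwa [mul_one, φ_one, one_mul] at this

theorem Sl.mul_left {g g' : M} {l l' : List (E × M)} (h : D.Sl g l g' l') (x : M) :
    D.Sl (x * g) l (x * g') l' := by
  cases h with
  | nil => exact Sl.nil _
  | cons hh hs =>
    rw [← mul_assoc]
    exact Sl.cons hh hs

theorem Sl.cons' {g g' h a a' : M} {e : E} {l l' : List (E × M)} (hh : h ∈ D.H e)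
    (hg : g' = g * h) (hs : D.Sl (D.φ e h * a) l a' l') : D.Sl g' ((e, a) :: l) g ((e, a') :: l') :=
  hg ▸ Sl.cons hh hs

theorem Sl.cons_inv {g g' a : M} {e : E} {l l₂ : List (E × M)} (hs : D.Sl g ((e, a) :: l) g' l₂) :
    ∃ h a' l', h ∈ D.H e ∧ g = g' * h ∧ l₂ = (e, a') :: l' ∧ D.Sl (D.φ e h * a) l a' l' := by
  cases hs with
  | cons hh hs => exact ⟨_, _, _, hh, rfl, rfl, hs⟩

theorem Sl.nil_inv {g g' : M} {l₂ : List (E × M)} (hs : D.Sl g [] g' l₂) : g' = g ∧ l₂ = [] := by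
  cases hs with
  | nil => exact ⟨rfl, rfl⟩

theorem Sl.cons_one {g a a' : M} {e : E} {l l' : List (E × M)} (hs : D.Sl a l a' l') :
    D.Sl g ((e, a) :: l) g ((e, a') :: l') :=
  Sl.cons' (one_mem _) (mul_one g).symm (by rwa [φ_one, one_mul])

theorem Sl.symm {g g' : M} {l l' : List (E × M)} (h : D.Sl g l g' l') : D.Sl g' l' g l := by
  induction h with
  | nil => exact Sl.nil _
  | @cons g h a a' e l l' hh _ ih =>
    refine Sl.cons' (inv_mem hh) (by group) ?_
    have := ih.mul_left (D.φ e h⁻¹)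
    rwa [← mul_assoc, ← D.φ_mul e _ (inv_mem hh) _ hh, inv_mul_cancel, φ_one, one_mul] at this

theorem Sl.trans {g g' g'' : M} {l l' l'' : List (E × M)} (h : D.Sl g l g' l')
    (h' : D.Sl g' l' g'' l'') : D.Sl g l g'' l'' := by
  induction h generalizing g'' l'' with
  | nil => exact h'
  | @cons g h a a' e l l' hh hs ih =>
    obtain ⟨k, b, m, hk, rfl, rfl, hs'⟩ := h'.cons_inv
    refine Sl.cons' (mul_mem hk hh) (mul_assoc _ _ _) ?_
    have h1 := hs'.mul_left (D.φ e k)⁻¹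
    rw [inv_mul_cancel_left] at h1
    have h2 := (ih h1).mul_left (D.φ e k)
    rwa [mul_inv_cancel_left, ← mul_assoc, ← D.φ_mul e _ hk _ hh] at h2

theorem Sl.ev_eq {g g' : M} {l l' : List (E × M)} (h : D.Sl g l g' l') :
    D.ev g l = D.ev g' l' := by
  induction h with
  | nil => rfl
  | @cons g h a a' e l l' hh _ ih =>
    rw [ev_cons, ev_cons, ← ih, ← of_mul_ev, map_mul, mul_assoc (D.of g), D.of_mul_t e hh]
    simp only [mul_assoc]

theorem Sl.map_fst {g g' : M} {l l' : List (E × M)} (h : D.Sl g l g' l') :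
    l.map Prod.fst = l'.map Prod.fst := by
  induction h with
  | nil => rfl
  | cons _ _ ih => simp [ih]

theorem red_tail {x : E × M} {l : List (E × M)} (h : D.Red (x :: l)) : D.Red l :=
  List.IsChain.tail h

theorem red_nil : D.Red [] := List.isChain_nil

theorem Sl.red {g g' : M} {l l' : List (E × M)} (h : D.Sl g l g' l') (hl : D.Red l) :
    D.Red l' := by
  induction h with
  | nil => exact hl
  | @cons g h a a' e l l' hh hs ih =>
    have h1 := ih (red_tail hl)
    cases l with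
    | nil =>
      obtain ⟨-, rfl⟩ := hs.nil_inv
      exact List.isChain_singleton _
    | cons y l =>
      obtain ⟨e₁, b⟩ := y
      obtain ⟨k, b', m, hk, he, rfl, -⟩ := hs.cons_inv
      refine List.IsChain.cons_cons ?_ h1
      rintro ⟨h2, h3⟩
      refine (List.isChain_cons_cons.1 hl).1 ⟨h2, ?_⟩
      have h4 : D.φ e h ∈ D.H e₁ := by
        have h5 : e₁ = D.bar e := h2
        rw [h5]
        exact D.φ_mem e h hh
      have h6 : D.φ e h * a ∈ D.H e₁ := he ▸ mul_mem h3 hk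
      exact (Subgroup.mul_mem_cancel_left _ h4).1 h6

/-- `t e * g * l` starts with a pinch -/
def Pin (D : MHD M E) (e : E) (g : M) : List (E × M) → Prop
  | [] => False
  | x :: _ => x.1 = D.bar e ∧ g ∈ D.H x.1

theorem red_cons_iff {e : E} {g : M} {l : List (E × M)} :
    D.Red ((e, g) :: l) ↔ ¬D.Pin e g l ∧ D.Red l := by
  cases l with
  | nil => simp [Red, Pin]
  | cons y l => exact List.isChain_cons_cons

theorem Pin.elim {e : E} {g : M} {l : List (E × M)} (h : D.Pin e g l) :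
    ∃ a l', l = (D.bar e, a) :: l' ∧ g ∈ D.H (D.bar e) := by
  cases l with
  | nil => exact False.elim h
  | cons y l =>
    obtain ⟨e₁, a⟩ := y
    obtain ⟨h1, h2⟩ := h
    dsimp only at h1 h2
    subst h1
    exact ⟨a, l, rfl, h2⟩

open Classical in
/-- left multiplication of a word by `t e` -/
noncomputable def brT (D : MHD M E) (e : E) (w : M × List (E × M)) : M × List (E × M) :=
  if D.Pin e w.1 w.2 then (D.φ (D.bar e) w.1 * (w.2.map Prod.snd).headD 1, w.2.tail)
  else (1, (e, w.1) :: w.2)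

theorem brT_pin {e : E} {g a : M} {l : List (E × M)} (h : g ∈ D.H (D.bar e)) :
    D.brT e (g, (D.bar e, a) :: l) = (D.φ (D.bar e) g * a, l) := by
  rw [brT, if_pos (show D.Pin e g ((D.bar e, a) :: l) from ⟨rfl, h⟩)]
  rfl

theorem brT_not {e : E} {g : M} {l : List (E × M)} (h : ¬D.Pin e g l) :
    D.brT e (g, l) = (1, (e, g) :: l) := by
  rw [brT, if_neg h]

theorem brT_red (e : E) {g : M} {l : List (E × M)} (hl : D.Red l) : D.Red (D.brT e (g, l)).2 := by
  by_cases h : D.Pin e g l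
  · obtain ⟨a, l', rfl, hg⟩ := h.elim
    rw [brT_pin hg]
    exact red_tail hl
  · rw [brT_not h]
    exact red_cons_iff.2 ⟨h, hl⟩

theorem brT_ev (e : E) (g : M) (l : List (E × M)) :
    D.ev (D.brT e (g, l)).1 (D.brT e (g, l)).2 = D.t e * D.ev g l := by
  by_cases h : D.Pin e g l
  · obtain ⟨a, l', rfl, hg⟩ := h.elim
    rw [brT_pin hg, ev_cons, ← of_mul_ev, ← D.t_conj _ hg, D.t_bar, inv_inv]
    simp only [mul_assoc]
  · rw [brT_not h, ev_cons, map_one, one_mul]

theorem Sl.pin {e : E} {g g' : M} {l l' : List (E × M)} (h : D.Sl g l g' l') (hp : D.Pin e g l) :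
    D.Pin e g' l' := by
  obtain ⟨a, m, rfl, hg⟩ := hp.elim
  obtain ⟨k, b, m', hk, rfl, rfl, -⟩ := h.cons_inv
  exact ⟨rfl, (Subgroup.mul_mem_cancel_right _ hk).1 hg⟩

theorem Sl.brT (e : E) {g g' : M} {l l' : List (E × M)} (h : D.Sl g l g' l') :
    D.Sl (D.brT e (g, l)).1 (D.brT e (g, l)).2 (D.brT e (g', l')).1 (D.brT e (g', l')).2 := by
  by_cases hp : D.Pin e g l
  · obtain ⟨a, m, rfl, hg⟩ := hp.elim
    obtain ⟨k, b, m', hk, rfl, rfl, hs⟩ := h.cons_inv
    have hg' := (Subgroup.mul_mem_cancel_right _ hk).1 hg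
    rw [brT_pin hg, brT_pin hg', D.φ_mul _ _ hg' _ hk, mul_assoc]
    exact hs.mul_left _
  · rw [brT_not hp, brT_not fun h' => hp (h.symm.pin h')]
    exact h.cons_one

theorem brT_brT (e : E) {g : M} {l : List (E × M)} (hl : D.Red l) :
    D.Sl (D.brT (D.bar e) (D.brT e (g, l))).1 (D.brT (D.bar e) (D.brT e (g, l))).2 g l := by
  by_cases hp : D.Pin e g l
  · obtain ⟨a, m, rfl, hg⟩ := hp.elim
    have h1 : ¬D.Pin (D.bar e) (D.φ (D.bar e) g * a) m := fun h => by
      obtain ⟨b, m', rfl, hb⟩ := h.elim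
      exact (red_cons_iff.1 hl).1
        ⟨rfl, (Subgroup.mul_mem_cancel_left _ (D.φ_mem _ _ hg)).1 hb⟩
    rw [brT_pin hg, brT_not h1]
    exact (Sl.cons' hg (one_mul g).symm (Sl.refl _ _)).symm
  · have h1 := brT_pin (D := D) (e := D.bar e) (g := 1) (a := g) (l := l) (one_mem _)
    rw [D.bar_bar, φ_one, one_mul] at h1
    rw [brT_not hp, h1]
    exact Sl.refl _ _

theorem brT_rel (e : E) {h : M} (hh : h ∈ D.H e) (g : M) (l : List (E × M)) :
    D.Sl (h * (D.brT e (g, l)).1) (D.brT e (g, l)).2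
      (D.brT e (D.φ e h * g, l)).1 (D.brT e (D.φ e h * g, l)).2 := by
  have h0 := D.φ_mem e h hh
  by_cases hp : D.Pin e g l
  · obtain ⟨a, m, rfl, hg⟩ := hp.elim
    rw [brT_pin hg, brT_pin (mul_mem h0 hg), D.φ_mul _ _ h0 _ hg, D.φ_φ e h hh, mul_assoc]
    exact Sl.refl _ _
  · have hp' : ¬D.Pin e (D.φ e h * g) l := fun h' => by
      obtain ⟨a, m, rfl, hg⟩ := h'.elim
      exact hp ⟨rfl, (Subgroup.mul_mem_cancel_left _ h0).1 hg⟩
    rw [brT_not hp, brT_not hp']
    exact Sl.cons' hh (by simp) (Sl.refl _ _)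

/-- reduced words -/
def BrW (D : MHD M E) : Type := {w : M × List (E × M) // D.Red w.2}

instance brSetoid (D : MHD M E) : Setoid D.BrW where
  r w w' := D.Sl w.1.1 w.1.2 w'.1.1 w'.1.2
  iseqv := ⟨fun _ => Sl.refl _ _, Sl.symm, Sl.trans⟩

/-- left multiplication by `M` on classes of reduced words -/
def brL (D : MHD M E) (x : M) : Quotient D.brSetoid → Quotient D.brSetoid :=
  Quotient.map (fun w => ⟨(x * w.1.1, w.1.2), w.2⟩) fun _ _ h => Sl.mul_left h x

/-- left multiplication by `t e` on classes of reduced words -/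
noncomputable def brQ (D : MHD M E) (e : E) : Quotient D.brSetoid → Quotient D.brSetoid :=
  Quotient.map (fun w => ⟨D.brT e w.1, brT_red e w.2⟩) fun _ _ h => Sl.brT e h

theorem brL_one (q : Quotient D.brSetoid) : D.brL 1 q = q := by
  induction q using Quotient.inductionOn with
  | h w => exact Quotient.sound (show D.Sl (1 * w.1.1) _ _ _ by rw [one_mul]; exact Sl.refl _ _)

theorem brL_mul (x y : M) (q : Quotient D.brSetoid) : D.brL (x * y) q = D.brL x (D.brL y q) := by
  induction q using Quotient.inductionOn with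
  | h w =>
    exact Quotient.sound
      (show D.Sl (x * y * w.1.1) _ (x * (y * w.1.1)) _ by rw [mul_assoc]; exact Sl.refl _ _)

theorem brQ_bar (e : E) (q : Quotient D.brSetoid) : D.brQ (D.bar e) (D.brQ e q) = q := by
  induction q using Quotient.inductionOn with
  | h w => exact Quotient.sound (brT_brT e w.2)

theorem brQ_rel (e : E) {h : M} (hh : h ∈ D.H e) (q : Quotient D.brSetoid) :
    D.brL h (D.brQ e q) = D.brQ e (D.brL (D.φ e h) q) := by
  induction q using Quotient.inductionOn with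
  | h w => exact Quotient.sound (brT_rel e hh w.1.1 w.1.2)

/-- the action of `M` -/
def brPL (D : MHD M E) : M →* Equiv.Perm (Quotient D.brSetoid) :=
  MonoidHom.mk' (fun x => ⟨D.brL x, D.brL x⁻¹,
    fun q => by rw [← brL_mul, inv_mul_cancel, brL_one],
    fun q => by rw [← brL_mul, mul_inv_cancel, brL_one]⟩)
    fun x y => Equiv.ext fun q => brL_mul x y q

/-- the action of the letters -/
noncomputable def brPQ (D : MHD M E) (e : E) : Equiv.Perm (Quotient D.brSetoid) :=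
  ⟨D.brQ e, D.brQ (D.bar e), brQ_bar e, fun q => by
    have := brQ_bar (D.bar e) q
    rwa [D.bar_bar] at this⟩

/-- the action of `D.G` -/
noncomputable def brAct (D : MHD M E) : D.G →* Equiv.Perm (Quotient D.brSetoid) :=
  D.lift D.brPL D.brPQ (fun _ => Equiv.ext fun _ => rfl)
    fun e _ hh => Equiv.ext fun q => brQ_rel e hh q

theorem brAct_ev {g : M} {l : List (E × M)} (hl : D.Red l) :
    D.brAct (D.ev g l) (Quotient.mk _ ⟨(1, []), red_nil⟩) = Quotient.mk _ ⟨(g, l), hl⟩ := by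
  induction l generalizing g with
  | nil =>
    rw [ev_nil, brAct, lift_of]
    exact Quotient.sound (show D.Sl (g * 1) [] g [] by rw [mul_one]; exact Sl.nil g)
  | cons x l ih =>
    obtain ⟨e, a⟩ := x
    rw [ev_cons, map_mul, map_mul, Equiv.Perm.mul_apply, Equiv.Perm.mul_apply, ih (red_tail hl),
      brAct, lift_of, lift_t]
    refine Quotient.sound (show D.Sl (g * (D.brT e (a, l)).1) (D.brT e (a, l)).2 g _ from ?_)
    rw [brT_not (red_cons_iff.1 hl).1, mul_one]
    exact Sl.refl _ _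

/-- **Britton's lemma.**  Let `Ω` be the set of reduced words modulo `Sl`.  `M` acts on the first
entry; `t e` maps `(g, (e₁, a) :: l)` to `(φ e₁ g * a, l)` if `e₁ = bar e` and `g ∈ H e₁`, and
otherwise `(g, l)` to `(1, (e, g) :: l)`.  This is well defined, `t (bar e)` is the inverse, the
relations hold (`lift` into `Equiv.Perm Ω`), and `ev g l` maps `[(1, [])]` to `[(g, l)]`. -/
theorem sl_of_ev_eq {g g' : M} {l l' : List (E × M)} (hl : D.Red l) (hl' : D.Red l')
    (h : D.ev g l = D.ev g' l') : D.Sl g l g' l' := by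
  have h1 := brAct_ev (g := g) hl
  rw [h, brAct_ev hl'] at h1
  exact Quotient.exact h1.symm

theorem eq_nil_of_ev_eq {g x : M} {l : List (E × M)} (hl : D.Red l) (h : D.ev g l = D.of x) :
    l = [] ∧ g = x := by
  obtain ⟨h1, h2⟩ := (sl_of_ev_eq hl red_nil (g' := x) h).symm.nil_inv
  exact ⟨h2, h1⟩

theorem of_injective (D : MHD M E) : Injective D.of :=
  fun _ _ h => (eq_nil_of_ev_eq (l := []) red_nil h).2

/-- every word can be reduced; syllables stay in a good subgroup `S`, no new letters appear -/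
theorem exists_red_of_good (S : Subgroup M) (E' : Set E)
    (good : ∀ e ∈ E', ∀ h ∈ D.H e, h ∈ S → D.φ e h ∈ S) (g : M) (l : List (E × M)) (hg : g ∈ S)
    (hl : ∀ x ∈ l, x.1 ∈ E' ∧ x.2 ∈ S) :
    ∃ g' l', D.Red l' ∧ D.ev g' l' = D.ev g l ∧ l'.length ≤ l.length ∧ g' ∈ S ∧
      ∀ x ∈ l', x.1 ∈ E' ∧ x.2 ∈ S := by
  induction l generalizing g with
  | nil => exact ⟨g, [], red_nil, rfl, le_rfl, hg, hl⟩
  | cons x l ih =>
    obtain ⟨e, a⟩ := x
    obtain ⟨he, ha⟩ := hl _ List.mem_cons_self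
    obtain ⟨a', l', h1, h2, h3, h4, h5⟩ := ih a ha fun x hx => hl x (List.mem_cons_of_mem _ hx)
    refine ⟨g * (D.brT e (a', l')).1, (D.brT e (a', l')).2, brT_red e h1, ?_, ?_⟩
    · rw [← of_mul_ev, brT_ev, h2, ev_cons, mul_assoc]
    · by_cases hp : D.Pin e a' l'
      · obtain ⟨b, m, rfl, hb⟩ := hp.elim
        obtain ⟨h6, h7⟩ := h5 _ List.mem_cons_self
        rw [brT_pin hb]
        refine ⟨?_, mul_mem hg (mul_mem (good _ h6 _ hb h4) h7),
          fun x hx => h5 x (List.mem_cons_of_mem _ hx)⟩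
        simp only [List.length_cons] at h3 ⊢
        omega
      · rw [brT_not hp]
        refine ⟨by simpa using h3, by simpa using hg, fun x hx => ?_⟩
        rcases List.mem_cons.1 hx with rfl | hx
        · exact ⟨he, h4⟩
        · exact h5 x hx

theorem exists_red (x : D.G) : ∃ g l, D.Red l ∧ D.ev g l = x := by
  have hT : ∀ e, ∀ y : D.G, (∃ g l, D.Red l ∧ D.ev g l = y) →
      ∃ g l, D.Red l ∧ D.ev g l = D.t e * y := by
    rintro e _ ⟨g, l, hl, rfl⟩
    exact ⟨_, _, brT_red e hl, brT_ev e g l⟩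
  have hL : ∀ a, ∀ y : D.G, (∃ g l, D.Red l ∧ D.ev g l = y) →
      ∃ g l, D.Red l ∧ D.ev g l = D.of a * y := by
    rintro a _ ⟨g, l, hl, rfl⟩
    exact ⟨a * g, l, hl, (D.of_mul_ev a g l).symm⟩
  have hx : x ∈ Subgroup.closure (Set.range D.of ∪ Set.range D.t) := by
    rw [closure_eq_top]; trivial
  induction hx using Subgroup.closure_induction_left with
  | one => exact ⟨1, [], red_nil, map_one _⟩
  | mul_left x hx y _ ih =>
    rcases hx with ⟨a, rfl⟩ | ⟨e, rfl⟩
    · exact hL a y ih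
    · exact hT e y ih
  | inv_mul_cancel x hx y _ ih =>
    rcases hx with ⟨a, rfl⟩ | ⟨e, rfl⟩
    · rw [← map_inv]; exact hL _ y ih
    · rw [← D.t_bar]; exact hT _ y ih

/-- reduced words are shortest -/
theorem length_le {g g' : M} {l l' : List (E × M)} (hl : D.Red l) (h : D.ev g l = D.ev g' l') :
    l.length ≤ l'.length := by
  obtain ⟨g₁, l₁, h1, h2, h3, -⟩ := exists_red_of_good (D := D) ⊤ Set.univ
    (fun _ _ _ _ _ => trivial) g' l' trivial fun _ _ => ⟨trivial, trivial⟩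
  have h4 := congrArg List.length (sl_of_ev_eq hl h1 (h.trans h2.symm)).map_fst
  simp only [List.length_map] at h4
  omega

/-- the subgroup generated by `S` and some of the letters -/
def sub (D : MHD M E) (S : Subgroup M) (E' : Set E) : Subgroup D.G :=
  Subgroup.closure (D.of '' S ∪ D.t '' E')

private theorem word_mul (S : Subgroup M) (E' : Set E) (l : List (E × M)) :
    ∀ (g : M), g ∈ S → (∀ y ∈ l, y.1 ∈ E' ∧ y.2 ∈ S) → ∀ (a : M) (l' : List (E × M)), a ∈ S →
      (∀ y ∈ l', y.1 ∈ E' ∧ y.2 ∈ S) →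
      ∃ g'' l'', D.ev g'' l'' = D.ev g l * D.ev a l' ∧ g'' ∈ S ∧
        ∀ y ∈ l'', y.1 ∈ E' ∧ y.2 ∈ S := by
  induction l with
  | nil =>
    intro g hg _ a l' ha hl'
    exact ⟨g * a, l', by rw [ev_nil, of_mul_ev], S.mul_mem hg ha, hl'⟩
  | cons x l ih =>
    obtain ⟨e, b⟩ := x
    intro g hg hl a l' ha hl'
    have hx := hl (e, b) (List.mem_cons_self ..)
    obtain ⟨g'', l'', h1, h2, h3⟩ :=
      ih b hx.2 (fun y hy => hl y (List.mem_cons_of_mem _ hy)) a l' ha hl'
    refine ⟨g, (e, g'') :: l'', ?_, hg, ?_⟩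
    · rw [ev_cons, ev_cons, h1]; simp only [mul_assoc]
    · intro y hy
      rcases List.mem_cons.1 hy with rfl | hy
      · exact ⟨hx.1, h2⟩
      · exact h3 y hy

private theorem ev_mem_sub (S : Subgroup M) (E' : Set E) (l : List (E × M)) :
    ∀ (g : M), g ∈ S → (∀ y ∈ l, y.1 ∈ E' ∧ y.2 ∈ S) → D.ev g l ∈ D.sub S E' := by
  induction l with
  | nil =>
    intro g hg _
    exact Subgroup.subset_closure (Or.inl ⟨g, hg, rfl⟩)
  | cons x l ih =>
    obtain ⟨e, b⟩ := x
    intro g hg hl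
    have hx := hl (e, b) (List.mem_cons_self ..)
    rw [ev_cons]
    refine mul_mem (mul_mem ?_ ?_) (ih b hx.2 fun y hy => hl y (List.mem_cons_of_mem _ hy))
    · exact Subgroup.subset_closure (Or.inl ⟨g, hg, rfl⟩)
    · exact Subgroup.subset_closure (Or.inr ⟨e, hx.1, rfl⟩)

private theorem exists_word_of_mem_sub (S : Subgroup M) (E' : Set E)
    (hbar : ∀ e ∈ E', D.bar e ∈ E') (x : D.G) (hx : x ∈ D.sub S E') :
    ∃ g l, D.ev g l = x ∧ g ∈ S ∧ ∀ y ∈ l, y.1 ∈ E' ∧ y.2 ∈ S := by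
  have hone : ∃ g l, D.ev g l = 1 ∧ g ∈ S ∧ ∀ y ∈ l, y.1 ∈ E' ∧ y.2 ∈ S :=
    ⟨1, [], by simp, S.one_mem, by simp⟩
  have hof : ∀ a ∈ S, ∃ g l, D.ev g l = D.of a ∧ g ∈ S ∧ ∀ y ∈ l, y.1 ∈ E' ∧ y.2 ∈ S :=
    fun a ha => ⟨a, [], rfl, ha, by simp⟩
  have ht : ∀ e ∈ E', ∃ g l, D.ev g l = D.t e ∧ g ∈ S ∧ ∀ y ∈ l, y.1 ∈ E' ∧ y.2 ∈ S :=
    fun e he => ⟨1, [(e, 1)], by simp, S.one_mem, by simpa using he⟩
  refine Subgroup.closure_induction'' (p := fun x _ =>
    ∃ g l, D.ev g l = x ∧ g ∈ S ∧ ∀ y ∈ l, y.1 ∈ E' ∧ y.2 ∈ S) ?_ ?_ hone ?_ hx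
  · rintro _ (⟨a, ha, rfl⟩ | ⟨e, he, rfl⟩)
    · exact hof a ha
    · exact ht e he
  · rintro _ (⟨a, ha, rfl⟩ | ⟨e, he, rfl⟩)
    · rw [← map_inv]; exact hof _ (S.inv_mem ha)
    · rw [← t_bar]; exact ht _ (hbar e he)
  · rintro _ _ _ _ ⟨g, l, rfl, hg, hl⟩ ⟨a, l', rfl, ha, hl'⟩
    exact word_mul S E' l g hg hl a l' ha hl'

theorem mem_sub_iff (S : Subgroup M) (E' : Set E) (hbar : ∀ e ∈ E', D.bar e ∈ E')
    (good : ∀ e ∈ E', ∀ h ∈ D.H e, h ∈ S → D.φ e h ∈ S) (x : D.G) :
    x ∈ D.sub S E' ↔ ∃ g l, D.Red l ∧ D.ev g l = x ∧ g ∈ S ∧ ∀ y ∈ l, y.1 ∈ E' ∧ y.2 ∈ S := by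
  constructor
  · intro hx
    obtain ⟨g, l, rfl, hg, hl⟩ := exists_word_of_mem_sub S E' hbar x hx
    obtain ⟨g', l', h1, h2, -, h4, h5⟩ := exists_red_of_good S E' good g l hg hl
    exact ⟨g', l', h1, h2, h4, h5⟩
  · rintro ⟨g, l, -, rfl, hg, hl⟩
    exact ev_mem_sub S E' l g hg hl

theorem of_mem_sub_iff (S : Subgroup M) (E' : Set E) (hbar : ∀ e ∈ E', D.bar e ∈ E')
    (good : ∀ e ∈ E', ∀ h ∈ D.H e, h ∈ S → D.φ e h ∈ S) (a : M) :
    D.of a ∈ D.sub S E' ↔ a ∈ S := by
  constructor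
  · intro h
    obtain ⟨g, l, h1, h2, h3, -⟩ := (mem_sub_iff S E' hbar good _).1 h
    rw [← (eq_nil_of_ev_eq h1 h2).2]
    exact h3
  · intro h
    exact Subgroup.subset_closure (Or.inl ⟨a, h, rfl⟩)

open Classical in
/-- the restriction of `D` to a good subgroup and a set of letters -/
private noncomputable def restr (D : MHD M E) (S : Subgroup M) (E' : Set E)
    (hbar : ∀ e ∈ E', D.bar e ∈ E')
    (good : ∀ e ∈ E', ∀ h ∈ D.H e, h ∈ S → D.φ e h ∈ S) : MHD S E' where
  bar e := ⟨D.bar e, hbar e e.2⟩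
  bar_bar e := Subtype.ext (D.bar_bar e)
  H e := (D.H e).subgroupOf S
  φ e h := if hh : (h : M) ∈ D.H e then ⟨D.φ e h, good e e.2 h hh h.2⟩ else 1
  φ_mem e h hh := by
    have hh' : (h : M) ∈ D.H e := hh
    rw [dif_pos hh']
    exact D.φ_mem e h hh'
  φ_mul e a ha b hb := by
    have ha' : (a : M) ∈ D.H e := ha
    have hb' : (b : M) ∈ D.H e := hb
    have hab : ((a * b : S) : M) ∈ D.H e := mul_mem ha' hb'
    rw [dif_pos ha', dif_pos hb', dif_pos hab]
    exact Subtype.ext (D.φ_mul e a ha' b hb')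
  φ_φ e h hh := by
    have hh' : (h : M) ∈ D.H e := hh
    rw [dif_pos hh', dif_pos (D.φ_mem e h hh')]
    exact Subtype.ext (D.φ_φ e h hh')

private theorem restr_φ (S : Subgroup M) (E' : Set E) (hbar : ∀ e ∈ E', D.bar e ∈ E')
    (good : ∀ e ∈ E', ∀ h ∈ D.H e, h ∈ S → D.φ e h ∈ S) (e : E') (h : S)
    (hh : (h : M) ∈ D.H e) :
    (D.restr S E' hbar good).φ e h = ⟨D.φ e h, good e e.2 h hh h.2⟩ := dif_pos hh

/-- universal property of `D.sub S E'`: it is the multiple HNN extension of `S` (restrict `D` to an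
`MHD S E'`; the natural map sends reduced words to reduced words, so it is injective). -/
theorem sub_lift (S : Subgroup M) (E' : Set E) (hbar : ∀ e ∈ E', D.bar e ∈ E')
    (good : ∀ e ∈ E', ∀ h ∈ D.H e, h ∈ S → D.φ e h ∈ S) {Q : Type} [Group Q] (f : S →* Q)
    (q : E → Q) (hq : ∀ e ∈ E', q (D.bar e) = (q e)⁻¹)
    (hr : ∀ e (he : e ∈ E') (h : S) (hh : (h : M) ∈ D.H e),
      f h * q e = q e * f ⟨D.φ e h, good e he h hh h.2⟩) :
    ∃ F : D.sub S E' →* Q, (∀ (s : S) (hs : D.of s ∈ D.sub S E'), F ⟨D.of s, hs⟩ = f s) ∧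
      ∀ e ∈ E', ∀ he : D.t e ∈ D.sub S E', F ⟨D.t e, he⟩ = q e := by
  set D' := D.restr S E' hbar good with hD'
  let ι : D'.G →* D.G := D'.lift (D.of.comp S.subtype) (fun e => D.t e) (fun e => D.t_bar e)
    (fun e h hh => by
      have hh' : (h : M) ∈ D.H e := hh
      rw [hD', restr_φ S E' hbar good e h hh']
      exact D.of_mul_t e hh')
  have ι_of : ∀ s : S, ι (D'.of s) = D.of s := fun s => D'.lift_of _ _ _ _ s
  have ι_t : ∀ e : E', ι (D'.t e) = D.t e := fun e => D'.lift_t _ _ _ _ e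
  let F' : D'.G →* Q := D'.lift f (fun e => q e) (fun e => hq e e.2)
    (fun e h hh => by
      have hh' : (h : M) ∈ D.H e := hh
      rw [hD', restr_φ S E' hbar good e h hh']
      exact hr e e.2 h hh')
  have F_of : ∀ s : S, F' (D'.of s) = f s := fun s => D'.lift_of _ _ _ _ s
  have F_t : ∀ e : E', F' (D'.t e) = q e := fun e => D'.lift_t _ _ _ _ e
  have ι_ev : ∀ (l : List (E' × S)) (g : S),
      ι (D'.ev g l) = D.ev g (l.map fun x => ((x.1 : E), (x.2 : M))) := by
    intro l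
    induction l with
    | nil => intro g; exact ι_of g
    | cons x l ih =>
      obtain ⟨e, a⟩ := x
      intro g
      rw [ev_cons, List.map_cons, ev_cons, map_mul, map_mul, ι_of, ι_t, ih]
  have hinj : Injective ι := by
    rw [injective_iff_map_eq_one]
    intro x hx
    obtain ⟨g, l, hl, rfl⟩ := exists_red (D := D') x
    have hl' : D.Red (l.map fun x => ((x.1 : E), (x.2 : M))) := by
      unfold Red at hl ⊢
      rw [List.isChain_map]
      refine hl.imp ?_
      intro x y hxy h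
      exact hxy ⟨Subtype.ext h.1, h.2⟩
    rw [ι_ev, ← map_one D.of] at hx
    obtain ⟨h1, h2⟩ := eq_nil_of_ev_eq hl' hx
    have h3 : l = [] := List.map_eq_nil_iff.1 h1
    have h4 : g = 1 := Subtype.ext h2
    rw [h3, h4, ev_nil, map_one]
  have hle : D.sub S E' ≤ ι.range := by
    refine (Subgroup.closure_le _).2 ?_
    rintro _ (⟨a, ha, rfl⟩ | ⟨e, he, rfl⟩)
    · exact ⟨D'.of ⟨a, ha⟩, ι_of _⟩
    · exact ⟨D'.t ⟨e, he⟩, ι_t _⟩
  let ε : D'.G ≃* ι.range := MonoidHom.ofInjective hinj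
  refine ⟨F'.comp (ε.symm.toMonoidHom.comp (Subgroup.inclusion hle)), ?_, ?_⟩
  · intro s hs
    have : ε.symm (Subgroup.inclusion hle ⟨D.of s, hs⟩) = D'.of s := by
      rw [MulEquiv.symm_apply_eq]
      exact Subtype.ext (ι_of s).symm
    show F' (ε.symm (Subgroup.inclusion hle ⟨D.of s, hs⟩)) = f s
    rw [this, F_of]
  · intro e he' he
    have : ε.symm (Subgroup.inclusion hle ⟨D.t e, he⟩) = D'.t ⟨e, he'⟩ := by
      rw [MulEquiv.symm_apply_eq]
      exact Subtype.ext (ι_t ⟨e, he'⟩).symm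
    show F' (ε.symm (Subgroup.inclusion hle ⟨D.t e, he⟩)) = q e
    rw [this, F_t]

/-- when all associated subgroups are trivial, reduced words are unique -/
theorem eq_of_sl_bot (hH : ∀ e, D.H e = ⊥) {g g' : M} {l l' : List (E × M)}
    (h : D.Sl g l g' l') : g = g' ∧ l = l' := by
  induction h with
  | nil => exact ⟨rfl, rfl⟩
  | @cons g h a a' e l l' hh _ ih =>
    rw [hH, Subgroup.mem_bot] at hh
    subst hh
    rw [φ_one, one_mul] at ih
    exact ⟨mul_one g, by rw [ih.1, ih.2]⟩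

namespace Core

variable {C : Type} {c : D.Core C}

private theorem path_mul {p q : C} {g a : M} {l : List (E × M)} :
    c.Path p (g * a) l q ↔ c.Path (c.act p g) a l q := by
  cases l with
  | nil => simp only [Path, c.act_mul]
  | cons x l => obtain ⟨e, b⟩ := x; simp only [Path, c.act_mul]

private theorem act_act_inv (p : C) (a : M) : c.act (c.act p a) a⁻¹ = p := by
  rw [← c.act_mul, mul_inv_cancel, c.act_one]

private theorem act_inv_act (p : C) (a : M) : c.act (c.act p a⁻¹) a = p := by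
  rw [← c.act_mul, inv_mul_cancel, c.act_one]

theorem Conn.of (p : C) (a : M) : c.Conn p (D.of a) (c.act p a) :=
  ⟨a, [], rfl, rfl⟩

theorem Conn.t {e : E} {p q : C} (h : c.st e p q) : c.Conn p (D.t e) q :=
  ⟨1, [(e, 1)], by simp, q, by rwa [c.act_one], c.act_one q⟩

theorem Conn.trans {p q r : C} {x y : D.G} (h : c.Conn p x q) (h' : c.Conn q y r) :
    c.Conn p (x * y) r := by
  obtain ⟨g, l, rfl, h⟩ := h
  obtain ⟨a, l', rfl, h'⟩ := h'
  induction l generalizing p g with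
  | nil =>
    have h0 : c.act p g = q := h
    exact ⟨g * a, l', by rw [ev_nil, of_mul_ev], path_mul.2 (h0.symm ▸ h')⟩
  | cons x l ih =>
    obtain ⟨e, b⟩ := x
    obtain ⟨p', h1, h2⟩ := h
    obtain ⟨g'', l'', h3, h4⟩ := ih b h2
    refine ⟨g, (e, g'') :: l'', ?_, p', h1, h4⟩
    rw [ev_cons, ev_cons, h3]; simp only [mul_assoc]

theorem Conn.symm {p q : C} {x : D.G} (h : c.Conn p x q) : c.Conn q x⁻¹ p := by
  obtain ⟨g, l, rfl, h⟩ := h
  have hof : ∀ (p : C) (g : M), c.Conn (c.act p g) (D.of g)⁻¹ p := fun p g => by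
    have := Conn.of (c := c) (c.act p g) g⁻¹
    rwa [act_act_inv, map_inv] at this
  induction l generalizing p g with
  | nil =>
    have h0 : c.act p g = q := h
    rw [← h0]
    exact hof p g
  | cons x l ih =>
    obtain ⟨e, b⟩ := x
    obtain ⟨p', h1, h2⟩ := h
    rw [ev_cons, mul_inv_rev, mul_inv_rev, ← t_bar]
    exact (ih b h2).trans ((Conn.t (c.st_bar _ _ _ h1)).trans (hof p g))

private theorem path_red {q : C} (l : List (E × M)) : ∀ (p : C) (g : M), c.Path p g l q →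
    ∃ g' l', D.Red l' ∧ D.ev g' l' = D.ev g l ∧ c.Path p g' l' q := by
  induction l with
  | nil => intro p g h; exact ⟨g, [], List.IsChain.nil, rfl, h⟩
  | cons x l ih =>
    obtain ⟨e, a⟩ := x
    rintro p g ⟨p', h1, h2⟩
    obtain ⟨a₁, l₁, hr, hev, hp⟩ := ih p' a h2
    cases l₁ with
    | nil =>
      exact ⟨g, [(e, a₁)], List.IsChain.singleton _, by rw [ev_cons, ev_cons, hev], p', h1, hp⟩
    | cons y l₂ =>
      obtain ⟨e₁, b⟩ := y
      by_cases hc : e₁ = D.bar e ∧ a₁ ∈ D.H e₁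
      · obtain ⟨rfl, ha₁⟩ := hc
        obtain ⟨p'', h3, h4⟩ := hp
        have h5 := c.st_act _ _ _ a₁ ha₁ (c.st_bar _ _ _ h1)
        have h6 := c.st_fun _ _ _ _ h3 h5
        refine ⟨g * D.φ (D.bar e) a₁ * b, l₂, hr.tail, ?_, ?_⟩
        · rw [ev_cons, ← hev, ev_cons, ← of_mul_ev, map_mul, ← D.t_conj _ ha₁, t_bar, inv_inv]
          simp only [mul_assoc]
        · rw [path_mul, c.act_mul, ← h6]
          exact h4
      · refine ⟨g, (e, a₁) :: (e₁, b) :: l₂, ?_, by rw [ev_cons, hev, ev_cons], p', h1, hp⟩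
        exact List.IsChain.cons_cons hc hr

private theorem path_sl {q : C} {g g' : M} {l l' : List (E × M)} (h : D.Sl g l g' l') :
    ∀ p : C, c.Path p g l q → c.Path p g' l' q := by
  induction h with
  | nil g => exact fun p h => h
  | @cons g h a a' e l l' hh _ ih =>
    rintro p ⟨p', h1, h2⟩
    have h3 := c.st_act _ _ _ h⁻¹ (inv_mem hh) h1
    rw [c.act_mul, act_act_inv, D.φ_inv e hh] at h3
    refine ⟨_, h3, ih _ ?_⟩
    rw [path_mul, act_inv_act]
    exact h2

private theorem path_unique {q q' : C} (l : List (E × M)) :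
    ∀ (p : C) (g : M), c.Path p g l q → c.Path p g l q' → q = q' := by
  induction l with
  | nil =>
    intro p g h h'
    exact (Eq.symm h).trans h'
  | cons x l ih =>
    obtain ⟨e, a⟩ := x
    rintro p g ⟨p', h1, h2⟩ ⟨p'', h3, h4⟩
    rw [c.st_fun _ _ _ _ h3 h1] at h4
    exact ih p' a h2 h4

/-- **core path lemma**: paths are stable under removing pinches (`st_bar`, `st_act`, `st_fun`) and
under `Sl`; so every reduced word with the value of a path is a path -/
theorem Conn.path {p q : C} {g : M} {l : List (E × M)} (hl : D.Red l)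
    (h : c.Conn p (D.ev g l) q) : c.Path p g l q := by
  obtain ⟨g', l', h1, h2⟩ := h
  obtain ⟨g'', l'', h3, h4, h5⟩ := path_red l' p g' h2
  exact path_sl (sl_of_ev_eq h3 hl (h4.trans h1)) p h5

theorem Conn.unique {p q q' : C} {x : D.G} (h : c.Conn p x q) (h' : c.Conn p x q') : q = q' := by
  obtain ⟨g, l, hl, rfl⟩ := exists_red x
  exact path_unique l p g (h.path hl) (h'.path hl)

/-- the loops at `p` -/
def stab (c : D.Core C) (p : C) : Subgroup D.G where
  carrier := {x | c.Conn p x p}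
  one_mem' := by simpa [c.act_one] using Conn.of (c := c) p 1
  mul_mem' := Conn.trans
  inv_mem' := Conn.symm

theorem of_mem_stab {p : C} {a : M} : D.of a ∈ c.stab p ↔ c.act p a = p :=
  ⟨fun h => (Conn.of p a).unique h, fun h => by
    have := Conn.of (c := c) p a
    rwa [h] at this⟩

end Core

end Crest.Agent.R185.MHD
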