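import Crest.Agent.R185.CLoc

/-!
# Row 185, core: the least closed theory is computable; computable families of words; the tables
-/

set_option autoImplicit false
set_option linter.unusedSectionVars false

namespace Crest.Agent.R185

open Function

variable {Y Z : Type} [DecidableEq Y] [DecidableEq Z]

/-- words -/
abbrev Wd (Y : Type) : Type := List (Y × Bool)

/-- the least theory closed at scale `L` containing `RT`, `RM` -/
def LT.least (L : ℕ) (RT RM : Set (FreeGroup Y)) : LT Y where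
  T := {w | ∀ θ : LT Y, θ.Closed L → RT ⊆ θ.T → RM ⊆ θ.M → w ∈ θ.T}
  M := {w | ∀ θ : LT Y, θ.Closed L → RT ⊆ θ.T → RM ⊆ θ.M → w ∈ θ.M}

theorem LT.least_closed (L : ℕ) (RT RM : Set (FreeGroup Y)) : (LT.least L RT RM).Closed L where
  one := fun _ h _ _ => h.one
  mul a b ha hb h1 h2 := fun θ h x y => h.mul a b ha hb (h1 θ h x y) (h2 θ h x y)
  inv a ha h1 := fun θ h x y => h.inv a ha (h1 θ h x y)
  conj g a hg ha h1 := fun θ h x y => h.conj g a hg ha (h1 θ h x y)
  sub a ha h1 := fun θ h x y => h.sub a ha (h1 θ h x y)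
  mulM a b ha hb h1 h2 := fun θ h x y => h.mulM a b ha hb (h1 θ h x y) (h2 θ h x y)
  invM a ha h1 := fun θ h x y => h.invM a ha (h1 θ h x y)

theorem LT.subset_least_T (L : ℕ) (RT RM : Set (FreeGroup Y)) : RT ⊆ (LT.least L RT RM).T :=
  fun _ hw _ _ h _ => h hw

theorem LT.subset_least_M (L : ℕ) (RT RM : Set (FreeGroup Y)) : RM ⊆ (LT.least L RT RM).M :=
  fun _ hw _ _ _ h => h hw

/-- the elements represented by a list of words -/
def wset (l : List (Wd Y)) : Set (FreeGroup Y) := {w | ∃ d ∈ l, FreeGroup.mk d = w}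

/-! ### the data of the recursion on the radius -/

/-- scale, fixed relators, fixed members, the substitution `ψ` and the word `τ` -/
structure RecData (Y : Type) where
  f : ℕ → ℕ
  GT : ℕ → Set (FreeGroup Y)
  GM : ℕ → Set (FreeGroup Y)
  ψ : FreeGroup Y →* FreeGroup Y
  τ : FreeGroup Y

/-- the table that is meant to be right for words of norm `≤ M` -/
def RecData.W (r : RecData Y) : ℕ → LT Y
  | 0 => LT.least (r.f 0) (r.GT 0) (r.GM 0)
  | M + 1 => LT.least (r.f (M + 1))
      (r.GT (M + 1) ∪ {v | ∃ w : FreeGroup Y, w.norm ≤ M ∧ w ∈ (RecData.W r M).T ∧ v = r.ψ w} ∪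
        {v | ∃ w : FreeGroup Y, w.norm ≤ M ∧ w ∈ (RecData.W r M).M ∧
          v = r.ψ w * r.τ * (r.τ * r.ψ w)⁻¹})
      (r.GM (M + 1) ∪ {v | ∃ w : FreeGroup Y, w.norm ≤ M ∧ w ∈ (RecData.W r M).M ∧ v = r.ψ w} ∪
        {v | ∃ w : FreeGroup Y, w.norm ≤ M ∧ w ∉ (RecData.W r M).M ∧
          v = (r.ψ w)⁻¹ * r.τ * r.ψ w})

/-- the table `M` claims that `x` is not in the subgroup -/
def RecData.Claim (r : RecData Y) (M : ℕ) (x : FreeGroup Y) : Prop :=
  x.norm ≤ M ∧ x ∉ (r.W M).M

section Comp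

variable [Fintype Y] [Primcodable Y] [Fintype Z] [Primcodable Z] {α β : Type} [Primcodable α]
  [Primcodable β]

theorem primrec_reduce : Primrec (FreeGroup.reduce : Wd Y → Wd Y) := by
  have hc : PrimrecPred fun x : (Y × Bool) × (Y × Bool) => x.1.1 = x.2.1 ∧ x.1.2 = !x.2.2 :=
    Primrec.primrecPred (Primrec.dom_finite _)
  have hs : Primrec fun x : (Y × Bool) × Wd Y => (List.casesOn x.2 [x.1] fun hd tl =>
      if x.1.1 = hd.1 ∧ x.1.2 = !hd.2 then tl else x.1 :: hd :: tl : Wd Y) := by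
    refine Primrec.list_casesOn (h := fun (x : (Y × Bool) × Wd Y) (p : (Y × Bool) × Wd Y) =>
      if x.1.1 = p.1.1 ∧ x.1.2 = !p.1.2 then p.2 else x.1 :: p.1 :: p.2) Primrec.snd
      (Primrec.list_cons.comp Primrec.fst (Primrec.const [])) ?_
    refine Primrec.ite (hc.comp ((Primrec.fst.comp Primrec.fst).pair (Primrec.fst.comp Primrec.snd)))
      (Primrec.snd.comp Primrec.snd) ?_
    exact Primrec.list_cons.comp (Primrec.fst.comp Primrec.fst)
      (Primrec.list_cons.comp (Primrec.fst.comp Primrec.snd) (Primrec.snd.comp Primrec.snd))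
  refine (Primrec.list_foldr Primrec.id (Primrec.const []) (hs.comp Primrec.snd).to₂).of_eq
    fun d => ?_
  induction d with
  | nil => rfl
  | cons x d ih =>
    rw [FreeGroup.reduce.cons, ← ih]
    rfl

theorem primrec_invRev : Primrec (FreeGroup.invRev : Wd Y → Wd Y) := by
  exact Primrec.list_reverse.comp (Primrec.list_map Primrec.id
    ((Primrec.dom_finite fun g : Y × Bool => (g.1, !g.2)).comp Primrec.snd).to₂)

/-- substitution on words (`List.flatMap`, `Primrec.dom_finite`) -/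
theorem exists_primrec_hom (ι : FreeGroup Z →* FreeGroup Y) :
    ∃ g : Wd Z → Wd Y, Primrec g ∧ ∀ d, FreeGroup.mk (g d) = ι (FreeGroup.mk d) := by
  refine ⟨fun d => d.flatMap fun x => (ι (FreeGroup.mk [x])).toWord,
    Primrec.list_flatMap Primrec.id ((Primrec.dom_finite
      fun x : Z × Bool => (ι (FreeGroup.mk [x])).toWord).comp Primrec.snd).to₂, fun d => ?_⟩
  induction d with
  | nil => exact (map_one ι).symm
  | cons x d ih =>
    simp only [List.flatMap_cons] at ih ⊢
    rw [← FreeGroup.mul_mk, ih, FreeGroup.mk_toWord, ← map_mul, FreeGroup.mul_mk]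
    rfl

/-- all words of length `≤ n` -/
theorem exists_primrec_ball :
    ∃ b : ℕ → List (Wd Y), Primrec b ∧ ∀ n d, d ∈ b n ↔ d.length ≤ n := by
  refine ⟨Nat.rec [[]] fun _ ih => [] :: (Finset.univ : Finset (Y × Bool)).toList.flatMap
    fun y => ih.map (y :: ·), Primrec.nat_rec₁ _ ?_, fun n => ?_⟩
  · refine Primrec.list_cons.comp (Primrec.const []) (Primrec.list_flatMap (Primrec.const _) ?_)
    exact Primrec.list_map (Primrec.snd.comp Primrec.fst)
      (Primrec.list_cons.comp (Primrec.snd.comp Primrec.fst) Primrec.snd).to₂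
  · induction n with
    | zero => intro d; simp
    | succ n ih =>
      intro d
      cases d with
      | nil => simp
      | cons x d =>
        simp only [List.mem_cons, reduceCtorEq, List.mem_flatMap, Finset.mem_toList,
          Finset.mem_univ, List.mem_map, List.cons.injEq, true_and, false_or, List.length_cons,
          Nat.add_le_add_iff_right]
        constructor
        · rintro ⟨y, a, ha, -, rfl⟩
          exact (ih _).1 ha
        · intro h
          exact ⟨x, d, (ih _).2 h, rfl, rfl⟩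

theorem cca_stab {X : Type} (x : ℕ → X) (hstep : ∀ k, x (k + 1) = x k → x (k + 2) = x (k + 1))
    (μ : X → ℕ) (hμ : ∀ k, x (k + 1) ≠ x k → μ (x k) < μ (x (k + 1))) {N : ℕ}
    (hN : ∀ k, μ (x k) ≤ N) : x (N + 1) = x N := by
  by_contra h
  have h1 : ∀ k, k ≤ N → x (k + 1) ≠ x k := fun k hk he => by
    refine h ?_
    induction N, hk using Nat.le_induction with
    | base => exact he
    | succ n _ ih =>
      clear ih
      have : ∀ j, x (k + j + 1) = x (k + j) := fun j => by
        induction j with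
        | zero => exact he
        | succ j ih => exact hstep _ ih
      obtain ⟨j, hj⟩ : ∃ j, n + 1 = k + j := ⟨n + 1 - k, by omega⟩
      rw [hj]
      exact this j
  have h2 : ∀ k, k ≤ N + 1 → k ≤ μ (x k) := fun k => by
    induction k with
    | zero => exact fun _ => Nat.zero_le _
    | succ k ih =>
      intro hk
      have := hμ k (h1 k (by omega))
      have := ih (by omega)
      omega
  have := h2 (N + 1) le_rfl
  have := hN (N + 1)
  omega

/-- generators and conclusions of the rules for `T` -/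
def ccaT (L : ℕ) (RT A : Set (FreeGroup Y)) : Set (FreeGroup Y) :=
  {w | w ∈ RT ∨ w = 1 ∨ (∃ a ∈ A, ∃ b ∈ A, w = a * b) ∨ (∃ a ∈ A, w = a⁻¹) ∨
    ∃ g : FreeGroup Y, g.norm ≤ L ∧ ∃ a ∈ A, w = g * a * g⁻¹}

/-- generators and conclusions of the rules for `M` -/
def ccaM (RM A B : Set (FreeGroup Y)) : Set (FreeGroup Y) :=
  {w | w ∈ RM ∨ w ∈ A ∨ (∃ a ∈ B, ∃ b ∈ B, w = a * b) ∨ ∃ a ∈ B, w = a⁻¹}

/-- the monotone operator -/
def ccaF (L : ℕ) (RT RM : Set (FreeGroup Y)) (p : Set (FreeGroup Y) × Set (FreeGroup Y)) :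
    Set (FreeGroup Y) × Set (FreeGroup Y) :=
  ({w | w.norm ≤ L ∧ w ∈ ccaT L RT p.1}, {w | w.norm ≤ L ∧ w ∈ ccaM RM p.1 p.2})

theorem ccaF_mono (L : ℕ) (RT RM : Set (FreeGroup Y)) : Monotone (ccaF L RT RM) := by
  rintro p q ⟨h1, h2⟩
  refine ⟨fun w hw => ⟨hw.1, ?_⟩, fun w hw => ⟨hw.1, ?_⟩⟩
  · rcases hw.2 with h | h | ⟨a, ha, b, hb, h⟩ | ⟨a, ha, h⟩ | ⟨g, hg, a, ha, h⟩
    · exact Or.inl h
    · exact Or.inr (Or.inl h)
    · exact Or.inr (Or.inr (Or.inl ⟨a, h1 ha, b, h1 hb, h⟩))
    · exact Or.inr (Or.inr (Or.inr (Or.inl ⟨a, h1 ha, h⟩)))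
    · exact Or.inr (Or.inr (Or.inr (Or.inr ⟨g, hg, a, h1 ha, h⟩)))
  · rcases hw.2 with h | h | ⟨a, ha, b, hb, h⟩ | ⟨a, ha, h⟩
    · exact Or.inl h
    · exact Or.inr (Or.inl (h1 h))
    · exact Or.inr (Or.inr (Or.inl ⟨a, h2 ha, b, h2 hb, h⟩))
    · exact Or.inr (Or.inr (Or.inr ⟨a, h2 ha, h⟩))

theorem ccaF_sound (L : ℕ) (RT RM : Set (FreeGroup Y)) (k : ℕ) :
    (∀ w ∈ ((ccaF L RT RM)^[k] ⊥).1, w.norm ≤ L ∧ w ∈ (LT.least L RT RM).T) ∧
      ∀ w ∈ ((ccaF L RT RM)^[k] ⊥).2, w.norm ≤ L ∧ w ∈ (LT.least L RT RM).M := by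
  have hc := LT.least_closed L RT RM
  induction k with
  | zero => exact ⟨fun _ h => h.elim, fun _ h => h.elim⟩
  | succ k ih =>
    rw [Function.iterate_succ_apply']
    refine ⟨fun w hw => ⟨hw.1, ?_⟩, fun w hw => ⟨hw.1, ?_⟩⟩
    · rcases hw.2 with h | rfl | ⟨a, ha, b, hb, rfl⟩ | ⟨a, ha, rfl⟩ | ⟨g, hg, a, ha, rfl⟩
      · exact LT.subset_least_T L RT RM h
      · exact hc.one
      · exact hc.mul a b (ih.1 a ha).1 (ih.1 b hb).1 (ih.1 a ha).2 (ih.1 b hb).2
      · exact hc.inv a (ih.1 a ha).1 (ih.1 a ha).2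
      · exact hc.conj g a hg (ih.1 a ha).1 (ih.1 a ha).2
    · rcases hw.2 with h | h | ⟨a, ha, b, hb, rfl⟩ | ⟨a, ha, rfl⟩
      · exact LT.subset_least_M L RT RM h
      · exact hc.sub w hw.1 (ih.1 w h).2
      · exact hc.mulM a b (ih.2 a ha).1 (ih.2 b hb).1 (ih.2 a ha).2 (ih.2 b hb).2
      · exact hc.invM a (ih.2 a ha).1 (ih.2 a ha).2

theorem ccaF_complete {L : ℕ} {RT RM : Set (FreeGroup Y)}
    {p : Set (FreeGroup Y) × Set (FreeGroup Y)} (hp : ccaF L RT RM p = p) (w : FreeGroup Y)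
    (hw : w.norm ≤ L) :
    (w ∈ (LT.least L RT RM).T → w ∈ p.1) ∧ (w ∈ (LT.least L RT RM).M → w ∈ p.2) := by
  have h1 : ∀ a : FreeGroup Y, a.norm ≤ L → a ∈ ccaT L RT p.1 → a ∈ p.1 := fun a ha h => by
    rw [← hp]; exact ⟨ha, h⟩
  have h2 : ∀ a : FreeGroup Y, a.norm ≤ L → a ∈ ccaM RM p.1 p.2 → a ∈ p.2 := fun a ha h => by
    rw [← hp]; exact ⟨ha, h⟩
  have hc : (LT.mk (ccaT L RT p.1) (ccaM RM p.1 p.2)).Closed L :=
    { one := Or.inr (Or.inl rfl)
      mul := fun a b ha hb x y => Or.inr (Or.inr (Or.inl ⟨a, h1 a ha x, b, h1 b hb y, rfl⟩))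
      inv := fun a ha x => Or.inr (Or.inr (Or.inr (Or.inl ⟨a, h1 a ha x, rfl⟩)))
      conj := fun g a hg ha x => Or.inr (Or.inr (Or.inr (Or.inr ⟨g, hg, a, h1 a ha x, rfl⟩)))
      sub := fun a ha x => Or.inr (Or.inl (h1 a ha x))
      mulM := fun a b ha hb x y => Or.inr (Or.inr (Or.inl ⟨a, h2 a ha x, b, h2 b hb y, rfl⟩))
      invM := fun a ha x => Or.inr (Or.inr (Or.inr ⟨a, h2 a ha x, rfl⟩)) }
  exact ⟨fun h => h1 w hw (h _ hc (fun _ x => Or.inl x) fun _ x => Or.inl x),
    fun h => h2 w hw (h _ hc (fun _ x => Or.inl x) fun _ x => Or.inl x)⟩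

theorem ccaF_fix (L : ℕ) (RT RM : Set (FreeGroup Y)) {B : List (Wd Y)}
    (hB : ∀ d : Wd Y, d.length ≤ L → d ∈ B) :
    ccaF L RT RM ((ccaF L RT RM)^[B.length + B.length] ⊥) =
      (ccaF L RT RM)^[B.length + B.length] ⊥ := by
  have hK : ∀ A : Set (FreeGroup Y), (∀ w ∈ A, w.norm ≤ L) → A.Finite ∧ A.ncard ≤ B.length := by
    intro A hA
    have h1 : A ⊆ ((B.map FreeGroup.mk).toFinset : Set (FreeGroup Y)) := fun w hw => by
      simp only [List.coe_toFinset, List.mem_map, Set.mem_ofPred_eq]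
      exact ⟨w.toWord, hB _ (hA w hw), FreeGroup.mk_toWord⟩
    refine ⟨(Finset.finite_toSet _).subset h1, (Set.ncard_le_ncard h1 (Finset.finite_toSet _)).trans ?_⟩
    rw [Set.ncard_coe_finset]
    exact (List.toFinset_card_le _).trans (List.length_map _).le
  have h1 := fun k => hK _ fun w hw => ((ccaF_sound L RT RM k).1 w hw).1
  have h2 := fun k => hK _ fun w hw => ((ccaF_sound L RT RM k).2 w hw).1
  have hm : ∀ k, (ccaF L RT RM)^[k] ⊥ ≤ (ccaF L RT RM)^[k + 1] ⊥ := fun k =>
    (ccaF_mono L RT RM).monotone_iterate_of_le_map bot_le (Nat.le_succ k)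
  rw [← Function.iterate_succ_apply' (ccaF L RT RM)]
  refine cca_stab (fun k => (ccaF L RT RM)^[k] ⊥) (fun k hk => ?_)
    (fun p => p.1.ncard + p.2.ncard) (fun k hk => ?_) fun k => add_le_add (h1 k).2 (h2 k).2
  · rw [Function.iterate_succ_apply' (ccaF L RT RM) (k + 1), hk,
      ← Function.iterate_succ_apply' (ccaF L RT RM), hk]
  · have e1 := Set.ncard_le_ncard (hm k).1 (h1 (k + 1)).1
    have e2 := Set.ncard_le_ncard (hm k).2 (h2 (k + 1)).1
    by_contra hlt
    refine hk (Prod.ext ?_ ?_)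
    · exact (Set.eq_of_subset_of_ncard_le (hm k).1 (by omega) (h1 (k + 1)).1).symm
    · exact (Set.eq_of_subset_of_ncard_le (hm k).2 (by omega) (h2 (k + 1)).1).symm

/-- the operator on lists of words -/
def ccaS (L : ℕ) (GT GM B : List (Wd Y)) (S : List (Wd Y) × List (Wd Y)) :
    List (Wd Y) × List (Wd Y) :=
  ((GT ++ ([] :: ((S.1.flatMap fun a => S.1.map fun b => a ++ b) ++ (S.1.map FreeGroup.invRev ++
      B.flatMap fun g => S.1.map fun a => g ++ a ++ FreeGroup.invRev g)))).filter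
      fun d => (FreeGroup.reduce d).length ≤ L,
    (GM ++ (S.1 ++ ((S.2.flatMap fun a => S.2.map fun b => a ++ b) ++
      S.2.map FreeGroup.invRev))).filter fun d => (FreeGroup.reduce d).length ≤ L)

theorem cca_filter (L : ℕ) (l : List (Wd Y)) :
    wset (l.filter fun d => (FreeGroup.reduce d).length ≤ L) = {w | w.norm ≤ L ∧ w ∈ wset l} := by
  ext w
  simp only [wset, List.mem_filter, decide_eq_true_eq, Set.mem_ofPred_eq]
  constructor
  · rintro ⟨d, ⟨h1, h2⟩, rfl⟩
    exact ⟨h2, d, h1, rfl⟩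
  · rintro ⟨h2, d, h1, rfl⟩
    exact ⟨d, ⟨h1, h2⟩, rfl⟩

theorem cca_append (l l' : List (Wd Y)) (w : FreeGroup Y) :
    w ∈ wset (l ++ l') ↔ w ∈ wset l ∨ w ∈ wset l' := by
  simp only [wset, List.mem_append, Set.mem_ofPred_eq, or_and_right, exists_or]

theorem cca_nil (l : List (Wd Y)) (w : FreeGroup Y) : w ∈ wset ([] :: l) ↔ w = 1 ∨ w ∈ wset l := by
  simp only [wset, List.mem_cons, Set.mem_ofPred_eq, or_and_right, exists_or, exists_eq_left,
    FreeGroup.one_eq_mk, eq_comm (a := w)]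

theorem cca_mul (l : List (Wd Y)) (w : FreeGroup Y) :
    w ∈ wset (l.flatMap fun a => l.map fun b => a ++ b) ↔
      ∃ a ∈ wset l, ∃ b ∈ wset l, w = a * b := by
  simp only [wset, List.mem_flatMap, List.mem_map, Set.mem_ofPred_eq]
  constructor
  · rintro ⟨_, ⟨a, ha, b, hb, rfl⟩, rfl⟩
    exact ⟨_, ⟨a, ha, rfl⟩, _, ⟨b, hb, rfl⟩, rfl⟩
  · rintro ⟨_, ⟨a, ha, rfl⟩, _, ⟨b, hb, rfl⟩, rfl⟩
    exact ⟨_, ⟨a, ha, b, hb, rfl⟩, rfl⟩

theorem cca_inv (l : List (Wd Y)) (w : FreeGroup Y) :
    w ∈ wset (l.map FreeGroup.invRev) ↔ ∃ a ∈ wset l, w = a⁻¹ := by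
  simp only [wset, List.mem_map, Set.mem_ofPred_eq]
  constructor
  · rintro ⟨_, ⟨a, ha, rfl⟩, rfl⟩
    exact ⟨_, ⟨a, ha, rfl⟩, rfl⟩
  · rintro ⟨_, ⟨a, ha, rfl⟩, rfl⟩
    exact ⟨_, ⟨a, ha, rfl⟩, rfl⟩

theorem cca_conj {L : ℕ} {B : List (Wd Y)} (hB : ∀ d : Wd Y, d ∈ B ↔ d.length ≤ L)
    (l : List (Wd Y)) (w : FreeGroup Y) :
    w ∈ wset (B.flatMap fun g => l.map fun a => g ++ a ++ FreeGroup.invRev g) ↔
      ∃ g : FreeGroup Y, g.norm ≤ L ∧ ∃ a ∈ wset l, w = g * a * g⁻¹ := by
  simp only [wset, List.mem_flatMap, List.mem_map, Set.mem_ofPred_eq]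
  constructor
  · rintro ⟨_, ⟨g, hg, a, ha, rfl⟩, rfl⟩
    exact ⟨FreeGroup.mk g, FreeGroup.norm_mk_le.trans ((hB g).1 hg), _, ⟨a, ha, rfl⟩, rfl⟩
  · rintro ⟨g, hg, _, ⟨a, ha, rfl⟩, rfl⟩
    refine ⟨_, ⟨g.toWord, (hB _).2 hg, a, ha, rfl⟩, ?_⟩
    rw [← FreeGroup.mul_mk, ← FreeGroup.mul_mk, ← FreeGroup.inv_mk, FreeGroup.mk_toWord]

theorem ccaS_sem {L : ℕ} (GT GM : List (Wd Y)) {B : List (Wd Y)}
    (hB : ∀ d : Wd Y, d ∈ B ↔ d.length ≤ L) (S : List (Wd Y) × List (Wd Y)) :
    (wset (ccaS L GT GM B S).1, wset (ccaS L GT GM B S).2) =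
      ccaF L (wset GT) (wset GM) (wset S.1, wset S.2) := by
  unfold ccaS ccaF ccaT ccaM
  simp only [cca_filter, cca_append, cca_nil, cca_mul, cca_inv, cca_conj hB, Set.mem_ofPred_eq]

theorem cca_primrec_mul : Primrec fun l : List (Wd Y) => l.flatMap fun a => l.map fun b => a ++ b :=
  Primrec.list_flatMap Primrec.id (Primrec.list_map Primrec.fst
    (Primrec.list_append.comp (Primrec.snd.comp Primrec.fst) Primrec.snd).to₂).to₂

theorem cca_primrec_inv : Primrec fun l : List (Wd Y) => l.map FreeGroup.invRev :=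
  Primrec.list_map Primrec.id (primrec_invRev.comp Primrec.snd).to₂

theorem cca_primrec_conj : Primrec₂ fun B l : List (Wd Y) =>
    B.flatMap fun g => l.map fun a => g ++ a ++ FreeGroup.invRev g :=
  Primrec.list_flatMap Primrec.fst (Primrec.list_map (Primrec.snd.comp Primrec.fst)
    (Primrec.list_append.comp
      (Primrec.list_append.comp (Primrec.snd.comp Primrec.fst) Primrec.snd)
      (primrec_invRev.comp (Primrec.snd.comp Primrec.fst))).to₂).to₂

theorem cca_primrec_filter : Primrec₂ fun (l : List (Wd Y)) (L : ℕ) =>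
    l.filter fun d => (FreeGroup.reduce d).length ≤ L :=
  PrimrecRel.listFilter (R := fun (d : Wd Y) (L : ℕ) => (FreeGroup.reduce d).length ≤ L)
    (Primrec.nat_le.comp (Primrec.list_length.comp (primrec_reduce.comp Primrec.fst)) Primrec.snd)

theorem ccaS_primrec {L : α → ℕ} {GT GM B S₁ S₂ : α → List (Wd Y)} (hL : Primrec L)
    (hT : Primrec GT) (hM : Primrec GM) (hB : Primrec B) (h₁ : Primrec S₁) (h₂ : Primrec S₂) :
    Primrec fun a => ccaS (L a) (GT a) (GM a) (B a) (S₁ a, S₂ a) :=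
  (cca_primrec_filter.comp (Primrec.list_append.comp hT (Primrec.list_cons.comp (Primrec.const [])
      (Primrec.list_append.comp (cca_primrec_mul.comp h₁)
        (Primrec.list_append.comp (cca_primrec_inv.comp h₁) (cca_primrec_conj.comp hB h₁))))) hL).pair
    (cca_primrec_filter.comp (Primrec.list_append.comp hM (Primrec.list_append.comp h₁
      (Primrec.list_append.comp (cca_primrec_mul.comp h₂) (cca_primrec_inv.comp h₂)))) hL)

/-- **The trace of the least closed theory on the ball is primitive recursive.**  All rules have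
their premises in the ball `B_L`; iterate the monotone operator "add all elements of the ball that
are generators or conclusions of a rule" on pairs of sublists of the ball `2 * |ball| + 1` times;
if `(ST, SM)` is the fixed point, then `ST ∪ RT ∪ conclusions outside of the ball` is closed. -/
theorem exists_primrec_least :
    ∃ cl : ℕ × List (Wd Y) × List (Wd Y) → List (Wd Y) × List (Wd Y), Primrec cl ∧
      ∀ L GT GM (w : FreeGroup Y),
        (w ∈ wset (cl (L, GT, GM)).1 ↔ w.norm ≤ L ∧ w ∈ (LT.least L (wset GT) (wset GM)).T) ∧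
        (w ∈ wset (cl (L, GT, GM)).2 ↔ w.norm ≤ L ∧ w ∈ (LT.least L (wset GT) (wset GM)).M) := by
  obtain ⟨b, hb, hb'⟩ := exists_primrec_ball (Y := Y)
  refine ⟨fun c => (ccaS c.1 c.2.1 c.2.2 (b c.1))^[(b c.1).length + (b c.1).length] ([], []),
    ?_, fun L GT GM w => ?_⟩
  · have h1 : Primrec fun c : ℕ × List (Wd Y) × List (Wd Y) => (b c.1).length :=
      Primrec.list_length.comp (hb.comp Primrec.fst)
    refine Primrec.nat_iterate (Primrec.nat_add.comp h1 h1) (Primrec.const _) ?_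
    exact ccaS_primrec (Primrec.fst.comp Primrec.fst)
      (Primrec.fst.comp (Primrec.snd.comp Primrec.fst))
      (Primrec.snd.comp (Primrec.snd.comp Primrec.fst)) (hb.comp (Primrec.fst.comp Primrec.fst))
      (Primrec.fst.comp Primrec.snd) (Primrec.snd.comp Primrec.snd)
  · have h0 : wset ([] : List (Wd Y)) = ⊥ := by
      ext w; simp [wset]
    have h1 : ∀ k, (wset ((ccaS L GT GM (b L))^[k] ([], [])).1,
        wset ((ccaS L GT GM (b L))^[k] ([], [])).2) = (ccaF L (wset GT) (wset GM))^[k] ⊥ := by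
      intro k
      induction k with
      | zero => exact Prod.ext h0 h0
      | succ k ih =>
        rw [Function.iterate_succ_apply', Function.iterate_succ_apply', ccaS_sem GT GM (hb' L), ih]
    have h2 := ccaF_fix L (wset GT) (wset GM) fun d hd => (hb' L d).2 hd
    have h3 := ccaF_sound L (wset GT) (wset GM) ((b L).length + (b L).length)
    have h4 := ccaF_complete h2 w
    rw [← h1] at h3 h4
    exact ⟨⟨h3.1 w, fun h => (h4 h.1).1 h.2⟩, h3.2 w, fun h => (h4 h.1).2 h.2⟩

/-- computable families of elements -/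
def CF (f : α → FreeGroup Y) : Prop :=
  ∃ g : α → Wd Y, Computable g ∧ ∀ a, FreeGroup.mk (g a) = f a

/-- computable families of finite sets -/
def CL (F : α → Set (FreeGroup Y)) : Prop :=
  ∃ g : α → List (Wd Y), Computable g ∧ ∀ a, wset (g a) = F a

/-- uniformly recursively enumerable families of sets -/
def RF (V : α → Set (FreeGroup Y)) : Prop :=
  ∃ p : α → Wd Y → Prop, REPred (fun x : α × Wd Y => p x.1 x.2) ∧
    ∀ a, {w | ∃ d, p a d ∧ FreeGroup.mk d = w} = V a

theorem rePred_iff {q : α → Prop} :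
    REPred q ↔ ∃ r : α → ℕ → Bool, Computable₂ r ∧ ∀ x, q x ↔ ∃ k, r x k = true := by
  constructor
  · intro hq
    obtain ⟨c, hc⟩ := Nat.Partrec.Code.exists_code.1 hq
    refine ⟨fun x k => (Nat.Partrec.Code.evaln k c (Encodable.encode x)).isSome, ?_, fun x => ?_⟩
    · exact (Primrec.option_isSome.comp (Nat.Partrec.Code.primrec_evaln.comp
        ((Primrec.snd.pair (Primrec.const c)).pair (Primrec.encode.comp Primrec.fst)))).to_comp
    · have h1 : q x ↔ ∃ y, y ∈ Nat.Partrec.Code.eval c (Encodable.encode x) := by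
        rw [hc]
        simp [Part.mem_assert_iff]
      rw [h1]
      simp only [Nat.Partrec.Code.evaln_complete, Option.isSome_iff_exists]
      exact ⟨fun ⟨y, k, h⟩ => ⟨k, y, h⟩, fun ⟨k, y, h⟩ => ⟨y, k, h⟩⟩
  · rintro ⟨r, hr, h⟩
    refine (Partrec.rfind hr.partrec₂).dom_re.of_eq fun x => ?_
    rw [h, Nat.rfind_dom]
    simp

theorem rePred_comp {q : α → Prop} (hq : REPred q) {g : β → α} (hg : Computable g) :
    REPred fun b => q (g b) :=
  Partrec.comp hq hg

theorem rePred_or {p q : α → Prop} (hp : REPred p) (hq : REPred q) :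
    REPred fun a => p a ∨ q a := by
  obtain ⟨k, hk, h⟩ := Partrec.merge' hp hq
  exact hk.dom_re.of_eq fun a => by simpa [Part.assert] using (h a).2

theorem rePred_and {p q : α → Prop} (hp : REPred p) (hq : REPred q) :
    REPred fun a => p a ∧ q a := by
  have h := Partrec.bind hp (Partrec.comp hq (Computable.fst (β := Unit))).to₂
  exact h.dom_re.of_eq fun a => by simp [Part.assert]

theorem rePred_exists {q : α × β → Prop} (hq : REPred q) : REPred fun a => ∃ b, q (a, b) := by
  obtain ⟨r, hr, h⟩ := rePred_iff.1 hq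
  refine rePred_iff.2 ⟨fun a n => (Encodable.decode (α := β) n.unpair.1).casesOn false
    fun b => r (a, b) n.unpair.2, ?_, fun a => ?_⟩
  · refine Computable.option_casesOn (Computable.decode.comp
      ((Primrec.fst.comp (Primrec.unpair.comp Primrec.snd)).to_comp)) (Computable.const false) ?_
    exact hr.comp ((Computable.fst.comp Computable.fst).pair Computable.snd)
      ((Primrec.snd.comp (Primrec.unpair.comp (Primrec.snd.comp Primrec.fst))).to_comp)
  · simp only [h]
    constructor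
    · rintro ⟨b, k, hk⟩
      exact ⟨Nat.pair (Encodable.encode b) k, by simpa using hk⟩
    · rintro ⟨n, hn⟩
      cases hd : Encodable.decode (α := β) n.unpair.1 with
      | none => simp [hd] at hn
      | some b => exact ⟨b, n.unpair.2, by simpa [hd] using hn⟩

theorem wset_nil : wset ([] : List (Wd Y)) = ∅ := by
  ext w; simp [wset]

theorem wset_append (l l' : List (Wd Y)) : wset (l ++ l') = wset l ∪ wset l' := by
  ext w; simp [wset, or_and_right, exists_or]

theorem wset_singleton (d : Wd Y) : wset [d] = {FreeGroup.mk d} := by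
  ext w; simp [wset, eq_comm]

theorem exists_wset {F : Set (FreeGroup Y)} (hF : F.Finite) : ∃ l : List (Wd Y), wset l = F := by
  refine ⟨hF.toFinset.toList.map FreeGroup.toWord, ?_⟩
  ext w
  simp [wset, FreeGroup.mk_toWord]

/-- finite unions with a computable bound -/
theorem CL.iUnion_lt {F : α × ℕ → Set (FreeGroup Y)} (h : CL F) {n : α → ℕ} (hn : Computable n) :
    CL fun a => {w | ∃ i < n a, w ∈ F (a, i)} := by
  obtain ⟨g, hg, h⟩ := h
  refine ⟨fun a => Nat.rec (motive := fun _ => List (Wd Y)) [] (fun i l => l ++ g (a, i)) (n a),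
    ?_, fun a => ?_⟩
  · exact Computable.nat_rec hn (Computable.const []) (h := fun a p => p.2 ++ g (a, p.1))
      (Computable.list_append.comp (Computable.snd.comp Computable.snd)
        (hg.comp (Computable.fst.pair (Computable.fst.comp Computable.snd)))).to₂
  · dsimp only
    induction n a with
    | zero => simp [wset_nil]
    | succ k ih =>
      simp only [wset_append, ih, h]
      ext w
      simp only [Set.mem_union, Set.mem_ofPred_eq, Nat.lt_succ_iff_lt_or_eq, or_and_right, exists_or,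
        exists_eq_left]

theorem CF.const (w : FreeGroup Y) : CF fun _ : α => w := by
  exact ⟨fun _ => w.toWord, Computable.const _, fun _ => FreeGroup.mk_toWord⟩

theorem CF.mk {g : α → Wd Y} (hg : Computable g) : CF fun a => FreeGroup.mk (g a) :=
  ⟨g, hg, fun _ => rfl⟩

theorem CF.comp {f : α → FreeGroup Y} (hf : CF f) {g : β → α} (hg : Computable g) :
    CF fun b => f (g b) := by
  obtain ⟨k, hk, h⟩ := hf
  exact ⟨fun b => k (g b), hk.comp hg, fun b => h _⟩

theorem CF.mul {f g : α → FreeGroup Y} (hf : CF f) (hg : CF g) : CF fun a => f a * g a := by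
  obtain ⟨k, hk, h⟩ := hf
  obtain ⟨k', hk', h'⟩ := hg
  exact ⟨fun a => k a ++ k' a, Computable.list_append.comp hk hk', fun a => by
    rw [← FreeGroup.mul_mk, h, h']⟩

theorem CF.inv {f : α → FreeGroup Y} (hf : CF f) : CF fun a => (f a)⁻¹ := by
  obtain ⟨k, hk, h⟩ := hf
  exact ⟨fun a => FreeGroup.invRev (k a), primrec_invRev.to_comp.comp hk, fun a => by
    rw [← FreeGroup.inv_mk, h]⟩

theorem CF.pow {f : α → FreeGroup Y} (hf : CF f) {n : α → ℕ} (hn : Computable n) :
    CF fun a => f a ^ n a := by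
  obtain ⟨k, hk, h⟩ := hf
  refine ⟨fun a => Nat.rec (motive := fun _ => Wd Y) [] (fun _ l => l ++ k a) (n a), ?_, fun a => ?_⟩
  · exact Computable.nat_rec hn (Computable.const []) (h := fun a p => p.2 ++ k a)
      (Computable.list_append.comp (Computable.snd.comp Computable.snd)
        (hk.comp Computable.fst)).to₂
  · dsimp only
    induction n a with
    | zero => simp [FreeGroup.one_eq_mk]
    | succ m ih => rw [pow_succ, ← ih, ← h, FreeGroup.mul_mk]

theorem CF.hom {f : α → FreeGroup Z} (hf : CF f) (ι : FreeGroup Z →* FreeGroup Y) :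
    CF fun a => ι (f a) := by
  obtain ⟨k, hk, h⟩ := hf
  obtain ⟨g, hg, hι⟩ := exists_primrec_hom ι
  exact ⟨fun a => g (k a), hg.to_comp.comp hk, fun a => by rw [hι, h]⟩

theorem CF.iterate {f : α → FreeGroup Y} (hf : CF f) (ψ : FreeGroup Y →* FreeGroup Y) {n : α → ℕ}
    (hn : Computable n) : CF fun a => ψ^[n a] (f a) := by
  obtain ⟨k, hk, h⟩ := hf
  obtain ⟨g, hg, hι⟩ := exists_primrec_hom ψ
  refine ⟨fun a => Nat.rec (motive := fun _ => Wd Y) (k a) (fun _ l => g l) (n a), ?_, fun a => ?_⟩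
  · exact Computable.nat_rec hn hk (h := fun _ p => g p.2)
      (hg.to_comp.comp (Computable.snd.comp Computable.snd)).to₂
  · dsimp only
    induction n a with
    | zero => simpa using h a
    | succ m ih => rw [Function.iterate_succ_apply', ← ih, ← hι]

theorem CF.norm {f : α → FreeGroup Y} (hf : CF f) : Computable fun a => (f a).norm := by
  obtain ⟨k, hk, h⟩ := hf
  refine (Computable.list_length.comp (primrec_reduce.to_comp.comp hk)).of_eq fun a => ?_
  rw [← h, FreeGroup.norm, FreeGroup.toWord_mk]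

theorem CL.const {F : Set (FreeGroup Y)} (hF : F.Finite) : CL fun _ : α => F := by
  obtain ⟨l, hl⟩ := exists_wset hF
  exact ⟨fun _ => l, Computable.const _, fun _ => hl⟩

theorem CL.singleton {f : α → FreeGroup Y} (hf : CF f) : CL fun a => {f a} := by
  obtain ⟨k, hk, h⟩ := hf
  exact ⟨fun a => [k a], Computable.list_cons.comp hk (Computable.const []), fun a => by
    rw [wset_singleton, h]⟩

theorem CL.union {F F' : α → Set (FreeGroup Y)} (h : CL F) (h' : CL F') :
    CL fun a => F a ∪ F' a := by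
  obtain ⟨k, hk, h⟩ := h
  obtain ⟨k', hk', h'⟩ := h'
  exact ⟨fun a => k a ++ k' a, Computable.list_append.comp hk hk', fun a => by
    rw [wset_append, h, h']⟩

theorem CL.image {F : α → Set (FreeGroup Z)} (h : CL F) (ι : FreeGroup Z →* FreeGroup Y) :
    CL fun a => ι '' F a := by
  obtain ⟨k, hk, h⟩ := h
  obtain ⟨g, hg, hι⟩ := exists_primrec_hom ι
  refine ⟨fun a => (k a).map g, (Primrec.list_map Primrec.id
    (hg.comp Primrec.snd).to₂).to_comp.comp hk, fun a => ?_⟩
  dsimp only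
  rw [← h]
  ext w
  simp only [wset, List.mem_map, Set.mem_ofPred_eq, Set.mem_image]
  constructor
  · rintro ⟨_, ⟨d, hd, rfl⟩, rfl⟩
    exact ⟨_, ⟨d, hd, rfl⟩, (hι d).symm⟩
  · rintro ⟨_, ⟨d, hd, rfl⟩, rfl⟩
    exact ⟨_, ⟨d, hd, rfl⟩, hι d⟩

theorem CL.comp {F : α → Set (FreeGroup Y)} (h : CL F) {g : β → α} (hg : Computable g) :
    CL fun b => F (g b) := by
  obtain ⟨k, hk, h⟩ := h
  exact ⟨fun b => k (g b), hk.comp hg, fun b => h _⟩

theorem CL.range {f : α × ℕ → FreeGroup Y} (hf : CF f) {n : α → ℕ} (hn : Computable n) :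
    CL fun a => {w | ∃ i ≤ n a, w = f (a, i)} := by
  have := (CL.singleton hf).iUnion_lt (Computable.succ.comp hn)
  simpa only [Nat.succ_eq_add_one, Nat.lt_add_one_iff, Set.mem_singleton_iff] using this

/-- the short words with a decidable property -/
theorem CL.ball {q : FreeGroup Y → Prop} (hq : ComputablePred fun d : Wd Y => q (.mk d))
    {n : α → ℕ} (hn : Computable n) : CL fun a => {w | w.norm ≤ n a ∧ q w} := by
  obtain ⟨b, hb, hmem⟩ := exists_primrec_ball (Y := Y)
  obtain ⟨r, hr, hqr⟩ := ComputablePred.computable_iff.1 hq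
  have hqr' : ∀ d, q (.mk d) ↔ r d = true := fun d => by rw [congrFun hqr d]
  have hd : Computable fun x : α × ℕ => (b (n x.1)).getD x.2 [] :=
    (Primrec.list_getD []).to_comp.comp (hb.to_comp.comp (hn.comp Computable.fst)) Computable.snd
  have h1 : CL fun x : α × ℕ => {w : FreeGroup Y | w = .mk ((b (n x.1)).getD x.2 []) ∧ q w} := by
    refine ⟨fun x => bif r ((b (n x.1)).getD x.2 []) then [(b (n x.1)).getD x.2 []] else [],
      Computable.cond (hr.comp hd) (Computable.list_cons.comp hd (Computable.const []))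
        (Computable.const []), fun x => ?_⟩
    dsimp only
    cases hx : r ((b (n x.1)).getD x.2 []) with
    | false =>
      rw [cond_false, wset_nil]
      ext w
      simp only [Set.mem_empty_iff_false, Set.mem_ofPred_eq, false_iff]
      rintro ⟨rfl, h⟩
      rw [hqr', hx] at h
      exact Bool.false_ne_true h
    | true =>
      rw [cond_true, wset_singleton]
      ext w
      simp only [Set.mem_singleton_iff, Set.mem_ofPred_eq]
      exact ⟨fun h => ⟨h, h ▸ (hqr' _).2 hx⟩, fun h => h.1⟩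
  have h2 := h1.iUnion_lt (Computable.list_length.comp (hb.to_comp.comp hn))
  convert h2 using 2 with a
  ext w
  simp only [Set.mem_ofPred_eq]
  constructor
  · rintro ⟨h3, h4⟩
    obtain ⟨i, hi, e⟩ := List.getElem_of_mem ((hmem (n a) w.toWord).2 h3)
    exact ⟨i, hi, by rw [List.getD_eq_getElem _ _ hi, e, FreeGroup.mk_toWord], h4⟩
  · rintro ⟨i, hi, h3, h4⟩
    refine ⟨?_, h4⟩
    rw [h3, List.getD_eq_getElem _ _ hi]
    exact FreeGroup.norm_mk_le.trans ((hmem _ _).1 (List.getElem_mem hi))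

theorem RF.const {F : Set (FreeGroup Y)} (hF : F.Finite) : RF fun _ : α => F := by
  classical
  obtain ⟨l, hl⟩ := exists_wset hF
  refine ⟨fun _ d => d ∈ l, ?_, fun _ => hl⟩
  have h := Primrec.nat_lt.comp (Primrec.list_idxOf.comp (Primrec.snd (α := α)) (Primrec.const l))
    (Primrec.const l.length)
  exact h.computablePred.to_re.of_eq fun x =>
    @List.idxOf_lt_length_iff _ instBEqOfDecidableEq _ _ _

theorem RF.union {V V' : α → Set (FreeGroup Y)} (h : RF V) (h' : RF V') :
    RF fun a => V a ∪ V' a := by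
  obtain ⟨p, hp, h⟩ := h
  obtain ⟨p', hp', h'⟩ := h'
  refine ⟨fun a d => p a d ∨ p' a d, rePred_or hp hp', fun a => ?_⟩
  dsimp only
  rw [← h, ← h']
  ext w
  simp only [Set.mem_ofPred_eq, Set.mem_union, or_and_right, exists_or]

theorem RF.range {f : α × β → FreeGroup Y} (hf : CF f) {q : α × β → Prop} (hq : REPred q) :
    RF fun a => {w | ∃ b, q (a, b) ∧ w = f (a, b)} := by
  classical
  obtain ⟨k, hk, h⟩ := hf
  have hp : Computable fun x : (α × Wd Y) × β => (x.1.1, x.2) :=
    (Computable.fst.comp Computable.fst).pair Computable.snd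
  have he : ComputablePred fun x : (α × Wd Y) × β => x.1.2 = k (x.1.1, x.2) :=
    Computable.computablePred
      ((Primrec.eq (α := Wd Y)).decide.to_comp.comp (Computable.snd.comp Computable.fst)
        (hk.comp hp))
  refine ⟨fun a d => ∃ b, q (a, b) ∧ d = k (a, b),
    rePred_exists (q := fun x : (α × Wd Y) × β => q (x.1.1, x.2) ∧ x.1.2 = k (x.1.1, x.2))
      (rePred_and (rePred_comp hq hp) he.to_re), fun a => ?_⟩
  ext w
  simp only [Set.mem_ofPred_eq]
  constructor
  · rintro ⟨_, ⟨b, hb, rfl⟩, rfl⟩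
    exact ⟨b, hb, h _⟩
  · rintro ⟨b, hb, rfl⟩
    exact ⟨_, ⟨b, hb, rfl⟩, h _⟩

theorem cc_mem_primrec :
    PrimrecRel fun (l : List (Wd Y)) (d : Wd Y) => FreeGroup.mk d ∈ wset l := by
  have h : PrimrecRel fun (d' d : Wd Y) => FreeGroup.reduce d' = FreeGroup.reduce d :=
    Primrec.eq.comp₂ (primrec_reduce.comp₂ Primrec₂.left) (primrec_reduce.comp₂ Primrec₂.right)
  refine (PrimrecRel.exists_mem_list h).of_eq fun l d => ?_
  refine exists_congr fun d' => and_congr_right fun _ => ?_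
  exact ⟨fun h => FreeGroup.reduce.exact h, fun h => FreeGroup.reduce.sound h⟩

theorem cc_mem_computable {l : α → List (Wd Y)} (hl : Computable l) {d : α → Wd Y}
    (hd : Computable d) : ComputablePred fun a => FreeGroup.mk (d a) ∈ wset (l a) := by
  classical
  have h := (cc_mem_primrec (Y := Y)).decide.to_comp
  exact Computable.computablePred (h.comp hl hd)

theorem cc_wset_append (l l' : List (Wd Y)) : wset (l ++ l') = wset l ∪ wset l' := by
  ext w
  simp only [wset, List.mem_append, Set.mem_ofPred_eq, Set.mem_union, or_and_right, exists_or]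

/-- the images of the short words with a property -/
theorem cc_wset_map {b : List (Wd Y)} {M : ℕ} (hb : ∀ d, d ∈ b ↔ d.length ≤ M)
    (q : FreeGroup Y → Prop) [DecidablePred fun d : Wd Y => q (.mk d)] (g : Wd Y → Wd Y)
    (φ : FreeGroup Y → FreeGroup Y) (hg : ∀ d, FreeGroup.mk (g d) = φ (.mk d)) :
    wset ((b.filter fun d => q (.mk d)).map g) =
      {v | ∃ w : FreeGroup Y, w.norm ≤ M ∧ q w ∧ v = φ w} := by
  ext v
  simp only [wset, List.mem_map, List.mem_filter, Set.mem_ofPred_eq, decide_eq_true_eq, hb]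
  constructor
  · rintro ⟨_, ⟨d, ⟨h1, h2⟩, rfl⟩, rfl⟩
    exact ⟨.mk d, FreeGroup.norm_mk_le.trans h1, h2, hg d⟩
  · rintro ⟨w, h1, h2, rfl⟩
    refine ⟨_, ⟨w.toWord, ⟨h1, by rwa [FreeGroup.mk_toWord]⟩, rfl⟩, ?_⟩
    rw [hg, FreeGroup.mk_toWord]

/-- locality at a computable scale gives a solution of the word problem -/
theorem decide_of_local {G : Type} [Group G] (π : FreeGroup Y →* G) {f : ℕ → ℕ}
    (hf : Computable f) {GT : ℕ → Set (FreeGroup Y)} (hGT : CL GT) (htrue : ∀ m, ∀ w ∈ GT m, π w = 1)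
    (hloc : ∀ m (θ : LT Y), θ.Closed (f m) → GT m ⊆ θ.T → θ.KT π m) :
    ComputablePred fun d : Wd Y => π (.mk d) = 1 := by
  classical
  obtain ⟨cl, hcl, hspec⟩ := exists_primrec_least (Y := Y)
  obtain ⟨g, hg, hgs⟩ := hGT
  have hlen : Computable fun d : Wd Y => d.length := Computable.list_length
  have h1 : Computable fun d : Wd Y =>
      (cl (max (f d.length) d.length, g d.length, ([] : List (Wd Y)))).1 :=
    Computable.fst.comp (hcl.to_comp.comp
      ((Primrec.nat_max.to_comp.comp (hf.comp hlen) hlen).pair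
        ((hg.comp hlen).pair (Computable.const []))))
  refine (cc_mem_computable h1 Computable.id).of_eq fun d => ?_
  have hn : (FreeGroup.mk d).norm ≤ d.length := FreeGroup.norm_mk_le
  rw [(hspec _ _ _ _).1, hgs]
  constructor
  · rintro ⟨-, h⟩
    refine h (LT.hon π.ker ⊤) (LT.hon_closed _ _ le_top _) (fun w hw => htrue _ w hw) ?_
    intro w _
    exact Subgroup.mem_top w
  · intro h
    exact ⟨hn.trans (le_max_right _ _),
      hloc d.length _ ((LT.least_closed _ _ _).mono (le_max_left _ _)) (LT.subset_least_T _ _ _)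
        _ hn h⟩

/-- **The claims are decidable, uniformly in the parameter `e`** (`Computable.nat_rec` with the
state "traces of `W M` on the ball of radius `M`"). -/
theorem claim_computable {f : ℕ → ℕ → ℕ} (hf : Computable₂ f) (hfM : ∀ e M, M ≤ f e M)
    {GT GM : ℕ → ℕ → Set (FreeGroup Y)} (hGT : CL fun x : ℕ × ℕ => GT x.1 x.2)
    (hGM : CL fun x : ℕ × ℕ => GM x.1 x.2) (ψ : FreeGroup Y →* FreeGroup Y) (τ : FreeGroup Y) :
    ComputablePred fun x : ℕ × ℕ × Wd Y =>
      (RecData.mk (f x.1) (GT x.1) (GM x.1) ψ τ).Claim x.2.1 (.mk x.2.2) := by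
  classical
  obtain ⟨cl, hcl, hspec⟩ := exists_primrec_least (Y := Y)
  obtain ⟨b, hb, hbs⟩ := exists_primrec_ball (Y := Y)
  obtain ⟨g, hg, hgs⟩ := exists_primrec_hom ψ
  obtain ⟨gT, hgT, hgTs⟩ := hGT
  obtain ⟨gM, hgM, hgMs⟩ := hGM
  set t : Wd Y := τ.toWord with ht
  have htm : FreeGroup.mk t = τ := FreeGroup.mk_toWord
  -- the new relators and members, primitive recursive in `(M, state)`
  set AT : ℕ × List (Wd Y) × List (Wd Y) → List (Wd Y) := fun s =>
    ((b s.1).filter fun d => FreeGroup.mk d ∈ wset s.2.1).map g ++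
      ((b s.1).filter fun d => FreeGroup.mk d ∈ wset s.2.2).map
        fun d => g d ++ t ++ FreeGroup.invRev (t ++ g d) with hAT
  set AM : ℕ × List (Wd Y) × List (Wd Y) → List (Wd Y) := fun s =>
    ((b s.1).filter fun d => FreeGroup.mk d ∈ wset s.2.2).map g ++
      ((b s.1).filter fun d => FreeGroup.mk d ∉ wset s.2.2).map
        fun d => FreeGroup.invRev (g d) ++ t ++ g d with hAM
  have hrel : PrimrecRel fun (d : Wd Y) (l : List (Wd Y)) => FreeGroup.mk d ∈ wset l :=
    (cc_mem_primrec (Y := Y)).swap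
  have hfil : Primrec₂ fun (L l : List (Wd Y)) => L.filter fun d => FreeGroup.mk d ∈ wset l :=
    PrimrecRel.listFilter hrel
  have hfil' : Primrec₂ fun (L l : List (Wd Y)) => L.filter fun d => FreeGroup.mk d ∉ wset l :=
    PrimrecRel.listFilter (R := fun (d : Wd Y) (l : List (Wd Y)) => FreeGroup.mk d ∉ wset l)
      (PrimrecPred.not hrel)
  have hb1 : Primrec fun s : ℕ × List (Wd Y) × List (Wd Y) => b s.1 := hb.comp Primrec.fst
  have hs1 : Primrec fun s : ℕ × List (Wd Y) × List (Wd Y) => s.2.1 := Primrec.fst.comp Primrec.snd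
  have hs2 : Primrec fun s : ℕ × List (Wd Y) × List (Wd Y) => s.2.2 := Primrec.snd.comp Primrec.snd
  have hg2 : Primrec fun d : Wd Y => g d ++ t ++ FreeGroup.invRev (t ++ g d) :=
    Primrec.list_append.comp (Primrec.list_append.comp hg (Primrec.const t))
      (primrec_invRev.comp (Primrec.list_append.comp (Primrec.const t) hg))
  have hg3 : Primrec fun d : Wd Y => FreeGroup.invRev (g d) ++ t ++ g d :=
    Primrec.list_append.comp (Primrec.list_append.comp (primrec_invRev.comp hg) (Primrec.const t)) hg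
  have hATp : Primrec AT :=
    Primrec.list_append.comp
      (Primrec.list_map (hfil.comp hb1 hs1) (hg.comp₂ Primrec₂.right))
      (Primrec.list_map (hfil.comp hb1 hs2) (hg2.comp₂ Primrec₂.right))
  have hAMp : Primrec AM :=
    Primrec.list_append.comp
      (Primrec.list_map (hfil.comp hb1 hs2) (hg.comp₂ Primrec₂.right))
      (Primrec.list_map (hfil'.comp hb1 hs2) (hg3.comp₂ Primrec₂.right))
  -- the state
  set S : ℕ × ℕ → List (Wd Y) × List (Wd Y) := fun x =>
    Nat.rec (motive := fun _ => List (Wd Y) × List (Wd Y))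
      (cl (f x.1 0, gT (x.1, 0), gM (x.1, 0)))
      (fun M s => cl (f x.1 (M + 1), gT (x.1, M + 1) ++ AT (M, s), gM (x.1, M + 1) ++ AM (M, s)))
      x.2 with hS
  have hSc : Computable S := by
    have e0 : Computable fun x : ℕ × ℕ => (x.1, 0) := Computable.fst.pair (Computable.const 0)
    have e1 : Computable fun y : (ℕ × ℕ) × ℕ × List (Wd Y) × List (Wd Y) => (y.1.1, y.2.1 + 1) :=
      (Computable.fst.comp Computable.fst).pair
        (Computable.succ.comp (Computable.fst.comp Computable.snd))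
    have hf' : Computable fun x : ℕ × ℕ => f x.1 x.2 := hf
    refine Computable.nat_rec (f := fun x : ℕ × ℕ => x.2)
      (g := fun x => cl (f x.1 0, gT (x.1, 0), gM (x.1, 0)))
      (h := fun x s => cl (f x.1 (s.1 + 1), gT (x.1, s.1 + 1) ++ AT s, gM (x.1, s.1 + 1) ++ AM s))
      Computable.snd
      (hcl.to_comp.comp ((hf'.comp e0).pair ((hgT.comp e0).pair (hgM.comp e0)))) ?_
    exact hcl.to_comp.comp ((hf'.comp e1).pair
      ((Computable.list_append.comp (hgT.comp e1) (hATp.to_comp.comp Computable.snd)).pair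
        (Computable.list_append.comp (hgM.comp e1) (hAMp.to_comp.comp Computable.snd))))
  have hinv : ∀ e M (w : FreeGroup Y),
      (w ∈ wset (S (e, M)).1 ↔
        w.norm ≤ f e M ∧ w ∈ ((RecData.mk (f e) (GT e) (GM e) ψ τ).W M).T) ∧
      (w ∈ wset (S (e, M)).2 ↔
        w.norm ≤ f e M ∧ w ∈ ((RecData.mk (f e) (GT e) (GM e) ψ τ).W M).M) := by
    intro e M
    induction M with
    | zero =>
      intro w
      have := hspec (f e 0) (gT (e, 0)) (gM (e, 0)) w
      rw [hgTs, hgMs] at this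
      exact this
    | succ M ih =>
      intro w
      have := hspec (f e (M + 1)) (gT (e, M + 1) ++ AT (M, S (e, M)))
        (gM (e, M + 1) ++ AM (M, S (e, M))) w
      have k1 : ∀ w : FreeGroup Y, w.norm ≤ M → (w ∈ wset (S (e, M)).1 ↔
          w ∈ ((RecData.mk (f e) (GT e) (GM e) ψ τ).W M).T) := fun w hw => by
        rw [(ih w).1]; exact and_iff_right (hw.trans (hfM e M))
      have k2 : ∀ w : FreeGroup Y, w.norm ≤ M → (w ∈ wset (S (e, M)).2 ↔
          w ∈ ((RecData.mk (f e) (GT e) (GM e) ψ τ).W M).M) := fun w hw => by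
        rw [(ih w).2]; exact and_iff_right (hw.trans (hfM e M))
      have eT : wset (gT (e, M + 1) ++ AT (M, S (e, M))) =
          GT e (M + 1) ∪ {v | ∃ w : FreeGroup Y, w.norm ≤ M ∧
              w ∈ ((RecData.mk (f e) (GT e) (GM e) ψ τ).W M).T ∧ v = ψ w} ∪
            {v | ∃ w : FreeGroup Y, w.norm ≤ M ∧
              w ∈ ((RecData.mk (f e) (GT e) (GM e) ψ τ).W M).M ∧ v = ψ w * τ * (τ * ψ w)⁻¹} := by
        simp only [hAT]
        rw [cc_wset_append, cc_wset_append, hgTs,
          cc_wset_map (hbs M) (fun w => w ∈ wset (S (e, M)).1) g ψ hgs,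
          cc_wset_map (hbs M) (fun w => w ∈ wset (S (e, M)).2) _
            (fun w => ψ w * τ * (τ * ψ w)⁻¹) (fun d => by
              rw [← FreeGroup.mul_mk, ← FreeGroup.mul_mk, ← FreeGroup.inv_mk, ← FreeGroup.mul_mk,
                hgs, htm]), Set.union_assoc]
        congr 2 <;> ext v <;> refine exists_congr fun w => and_congr_right fun hw => ?_
        · rw [k1 w hw]
        · rw [k2 w hw]
      have eM : wset (gM (e, M + 1) ++ AM (M, S (e, M))) =
          GM e (M + 1) ∪ {v | ∃ w : FreeGroup Y, w.norm ≤ M ∧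
              w ∈ ((RecData.mk (f e) (GT e) (GM e) ψ τ).W M).M ∧ v = ψ w} ∪
            {v | ∃ w : FreeGroup Y, w.norm ≤ M ∧
              w ∉ ((RecData.mk (f e) (GT e) (GM e) ψ τ).W M).M ∧ v = (ψ w)⁻¹ * τ * ψ w} := by
        simp only [hAM]
        rw [cc_wset_append, cc_wset_append, hgMs,
          cc_wset_map (hbs M) (fun w => w ∈ wset (S (e, M)).2) g ψ hgs,
          cc_wset_map (hbs M) (fun w => w ∉ wset (S (e, M)).2) _
            (fun w => (ψ w)⁻¹ * τ * ψ w) (fun d => by
              rw [← FreeGroup.mul_mk, ← FreeGroup.mul_mk, ← FreeGroup.inv_mk, hgs, htm]),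
          Set.union_assoc]
        congr 2 <;> ext v <;> refine exists_congr fun w => and_congr_right fun hw => ?_
        · rw [k2 w hw]
        · rw [k2 w hw]
      rw [eT, eM] at this
      exact this
  have hd : Computable fun x : ℕ × ℕ × Wd Y => x.2.2 := Computable.snd.comp Computable.snd
  have hM : Computable fun x : ℕ × ℕ × Wd Y => x.2.1 := Computable.fst.comp Computable.snd
  have h1 : Computable fun x : ℕ × ℕ × Wd Y => decide ((FreeGroup.mk x.2.2).norm ≤ x.2.1) := by
    have := (Primrec.nat_le.decide.to_comp).comp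
      (Computable.list_length.comp (primrec_reduce.to_comp.comp hd)) hM
    exact this
  have h2 := (cc_mem_computable (Computable.snd.comp (hSc.comp (Computable.fst.pair hM))) hd).not.decide
  refine (Computable.computablePred (p := fun x : ℕ × ℕ × Wd Y =>
    (FreeGroup.mk x.2.2).norm ≤ x.2.1 ∧ FreeGroup.mk x.2.2 ∉ wset (S (x.1, x.2.1)).2)
    ((Primrec.and.to_comp.comp h1 h2).of_eq fun x => by simp)).of_eq fun x => ?_
  refine and_congr_right fun hx => not_congr ?_
  rw [(hinv _ _ _).2]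
  exact and_iff_right (hx.trans (hfM _ _))

theorem primrec_ex : Primrec₂ ex := by
  have hp : Primrec₂ ((· ^ ·) : ℕ → ℕ → ℕ) := Primrec₂.unpaired'.1 Nat.Primrec.pow
  refine (Primrec.nat_iterate Primrec.fst Primrec.snd
    (hp.comp (Primrec.const 2) Primrec.snd).to₂).of_eq fun x => ?_
  obtain ⟨k, m⟩ := x
  induction k with
  | zero => rfl
  | succ k ih =>
    rw [Function.iterate_succ_apply', ih]
    rfl

end Comp

end Crest.Agent.R185
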