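import Crest.Agent.R185.FPDefs

/-!
# Row 185, the swindle: chains on lists (definitions and basic lemmas)

`C B` is the free abelian group on all lists in `B` (the augmented standard complex, graded by
the length), `d (g :: l) = l - g :: d l`.  `S P` is the subgroup spanned by the lists with `P`.
-/

set_option autoImplicit false

namespace Crest.Agent.R185

/-- `D` vanishes in every "homology-like" invariant of homomorphisms: additive on products of
commuting homomorphisms and equivariant for conjugation. -/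
def Killed {A' A : Type} [Group A'] [Group A] (D : A' →* A) : Prop :=
  ∀ (V : Type) [AddCommGroup V] (ρ : Representation ℤ A V) (x : (A' →* A) → V),
    (∀ a b c : A' →* A, (∀ u v, Commute (b u) (c v)) → (∀ u, a u = b u * c u) →
      x a = x b + x c) →
    (∀ (t : A) (a b : A' →* A), (∀ u, b u = t * a u * t⁻¹) → x b = ρ t (x a)) → x D = 0

theorem Killed.comp_right {A'' A' A : Type} [Group A''] [Group A'] [Group A] {D : A' →* A}
    (h : Killed D) (α : A'' →* A') : Killed (D.comp α) := fun V _ ρ x hx ht =>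
  h V ρ (fun a => x (a.comp α))
    (fun _ _ _ h1 h2 => hx _ _ _ (fun u v => h1 (α u) (α v)) fun u => h2 (α u))
    fun t _ _ h1 => ht t _ _ fun u => h1 (α u)

theorem Killed.comp_left {A' A B : Type} [Group A'] [Group A] [Group B] {D : A' →* A}
    (h : Killed D) (j : A →* B) : Killed (j.comp D) := fun V _ ρ x hx ht =>
  h V (ρ.comp j) (fun a => x (j.comp a))
    (fun _ _ _ h1 h2 => hx _ _ _ (fun u v => (h1 u v).map j) fun u => by simp [h2])
    fun t _ _ h1 => ht (j t) _ _ fun u => by simp [h1]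

namespace Sw

/-- chains on lists -/
abbrev C (B : Type) : Type := List B →₀ ℤ

section Basic

variable {A B D : Type} {W : Type} [AddCommGroup W] [Module ℤ W]

/-- the basis element of a list -/
noncomputable def bs (l : List B) : C B := Finsupp.single l 1

/-- the linear map with given values on the basis -/
noncomputable def lin (f : List B → W) : C B →ₗ[ℤ] W := Finsupp.linearCombination ℤ f

@[simp] theorem lin_bs (f : List B → W) (l : List B) : lin f (bs l) = f l := by
  rw [lin, bs, Finsupp.linearCombination_single]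
  exact (inferInstance : Module ℤ W).one_smul _

theorem lin_ext {F G : C B →ₗ[ℤ] W} (h : ∀ l, F (bs l) = G (bs l)) : F = G :=
  Finsupp.lhom_ext' fun l => LinearMap.ext_ring (h l)

theorem lin_ext' {F G : C B →ₗ[ℤ] W} (h : ∀ l, F (bs l) = G (bs l)) (σ : C B) : F σ = G σ :=
  LinearMap.congr_fun (lin_ext h) σ

/-- the cone with apex `g` -/
noncomputable def cons (g : B) : C B →ₗ[ℤ] C B := lin fun l => bs (g :: l)

@[simp] theorem cons_bs (g : B) (l : List B) : cons g (bs l) = bs (g :: l) := lin_bs _ _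

/-- the chain map induced by a map of the vertices -/
noncomputable def push (f : A → B) : C A →ₗ[ℤ] C B := lin fun l => bs (l.map f)

@[simp] theorem push_bs (f : A → B) (l : List A) : push f (bs l) = bs (l.map f) := lin_bs _ _

theorem push_cons (f : A → B) (g : A) (σ : C A) : push f (cons g σ) = cons (f g) (push f σ) :=
  lin_ext' (F := push f ∘ₗ cons g) (G := cons (f g) ∘ₗ push f) (fun l => by simp) σ

theorem push_push (f : A → B) (g : B → D) (σ : C A) :
    push g (push f σ) = push (fun a => g (f a)) σ :=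
  lin_ext' (F := push g ∘ₗ push f) (fun l => by simp [Function.comp_def]) σ

theorem push_id (σ : C A) : push (fun a => a) σ = σ :=
  lin_ext' (G := LinearMap.id) (fun l => by simp) σ

/-- the boundary of a list -/
noncomputable def dL : List B → C B
  | [] => 0
  | g :: l => bs l - cons g (dL l)

/-- the differential -/
noncomputable def d : C B →ₗ[ℤ] C B := lin dL

@[simp] theorem d_nil : d (bs ([] : List B)) = 0 := by simp [d, dL]

theorem d_cons (g : B) (σ : C B) : d (cons g σ) = σ - cons g (d σ) :=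
  lin_ext' (F := d ∘ₗ cons g) (G := LinearMap.id - cons g ∘ₗ d) (fun l => by simp [d, dL]) σ

theorem d_bs_cons (g : B) (l : List B) : d (bs (g :: l)) = bs l - cons g (d (bs l)) := by
  rw [← cons_bs, d_cons]

@[simp] theorem d_one (g : B) : d (bs [g]) = bs [] := by simp [d_bs_cons]

theorem d_two (g h : B) : d (bs [g, h]) = bs [h] - bs [g] := by simp [d_bs_cons]

@[simp] theorem d_d (σ : C B) : d (d σ) = 0 := by
  refine lin_ext' (F := d ∘ₗ d) (G := 0) (fun l => ?_) σ
  induction l with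
  | nil => simp
  | cons g l ih =>
    simp only [LinearMap.comp_apply, LinearMap.zero_apply] at ih ⊢
    rw [d_bs_cons, map_sub, d_cons, ih, map_zero, sub_zero, sub_self]

theorem d_push (f : A → B) (σ : C A) : d (push f σ) = push f (d σ) := by
  refine lin_ext' (F := d ∘ₗ push f) (G := push f ∘ₗ d) (fun l => ?_) σ
  induction l with
  | nil => simp
  | cons g l ih =>
    simp only [LinearMap.comp_apply] at ih ⊢
    rw [← cons_bs, push_cons, d_cons, d_cons, map_sub, push_cons, ih]

/-- a cycle is the boundary of its cone -/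
theorem d_cons_of_cycle (g : B) {σ : C B} (h : d σ = 0) : d (cons g σ) = σ := by
  rw [d_cons, h, map_zero, sub_zero]

/-- the coefficient of the empty list -/
noncomputable def e : C B →ₗ[ℤ] ℤ := Finsupp.lapply []

@[simp] theorem e_nil : e (bs ([] : List B)) = 1 := by simp [e, bs]

@[simp] theorem e_bs_cons (g : B) (l : List B) : e (bs (g :: l)) = 0 := by simp [e, bs]

@[simp] theorem e_cons (g : B) (σ : C B) : e (cons g σ) = 0 :=
  lin_ext' (F := e ∘ₗ cons g) (G := 0) (fun l => by simp) σ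

@[simp] theorem e_push (f : A → B) (σ : C A) : e (push f σ) = e σ :=
  lin_ext' (F := e ∘ₗ push f) (G := e) (fun l => by cases l <;> simp) σ

/-- the sign `(-1) ^ degree` -/
noncomputable def eps : C B →ₗ[ℤ] C B := lin fun l => (-1 : ℤ) ^ (l.length + 1) • bs l

theorem eps_bs (l : List B) : eps (bs l) = (-1 : ℤ) ^ (l.length + 1) • bs l := lin_bs _ _

@[simp] theorem eps_nil : eps (bs ([] : List B)) = -bs [] := by simp [eps_bs]

@[simp] theorem eps_one (g : B) : eps (bs [g]) = bs [g] := by simp [eps_bs]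

theorem eps_cons (g : B) (σ : C B) : eps (cons g σ) = -cons g (eps σ) :=
  lin_ext' (F := eps ∘ₗ cons g) (G := -(cons g ∘ₗ eps))
    (fun l => by simp [eps_bs, pow_succ]) σ

@[simp] theorem eps_eps (σ : C B) : eps (eps σ) = σ :=
  lin_ext' (F := eps ∘ₗ eps) (G := LinearMap.id)
    (fun l => by simp [eps_bs, smul_smul, ← mul_pow]) σ

theorem d_eps (σ : C B) : d (eps σ) = -eps (d σ) := by
  refine lin_ext' (F := d ∘ₗ eps) (G := -(eps ∘ₗ d)) (fun l => ?_) σ
  induction l with
  | nil => simp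
  | cons g l ih =>
    simp only [LinearMap.comp_apply, LinearMap.neg_apply] at ih ⊢
    rw [← cons_bs, eps_cons, map_neg, d_cons, d_cons, map_sub, eps_cons, ih, map_neg]

theorem eps_push (f : A → B) (σ : C A) : eps (push f σ) = push f (eps σ) :=
  lin_ext' (F := eps ∘ₗ push f) (G := push f ∘ₗ eps) (fun l => by simp [eps_bs]) σ

theorem e_eps (σ : C B) : e (eps σ) = -e σ :=
  lin_ext' (F := e ∘ₗ eps) (G := -e) (fun l => by cases l <;> simp [eps_bs]) σ

/-! ### supports -/

/-- the chains spanned by the lists with the property `P` -/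
def S (P : List B → Prop) : Submodule ℤ (C B) := Finsupp.supported ℤ ℤ {l | P l}

theorem mem_S {P : List B → Prop} {σ : C B} : σ ∈ S P ↔ ∀ l, σ l ≠ 0 → P l := by
  simp [S, Finsupp.mem_supported, Set.subset_def]

theorem bs_mem {P : List B → Prop} {l : List B} (h : P l) : bs l ∈ S P :=
  Finsupp.single_mem_supported ℤ _ h

theorem of_bs_mem {P : List B → Prop} {l : List B} (h : bs l ∈ S P) : P l :=
  mem_S.1 h l (by simp [bs])

theorem S_mono {P Q : List B → Prop} (h : ∀ l, P l → Q l) {σ : C B} (hσ : σ ∈ S P) : σ ∈ S Q :=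
  mem_S.2 fun l hl => h l (mem_S.1 hσ l hl)

theorem mem_S_and {P Q : List B → Prop} {σ : C B} :
    σ ∈ S (fun l => P l ∧ Q l) ↔ σ ∈ S P ∧ σ ∈ S Q := by
  simp only [mem_S]
  exact ⟨fun h => ⟨fun l hl => (h l hl).1, fun l hl => (h l hl).2⟩,
    fun h l hl => ⟨h.1 l hl, h.2 l hl⟩⟩

theorem mem_S_true (σ : C B) : σ ∈ S (fun _ => True) := mem_S.2 fun _ _ => trivial

/-- the induction principle for `S P` -/
theorem map_mem {P : List B → Prop} (F : C B →ₗ[ℤ] W) (M : Submodule ℤ W)
    (h : ∀ l, P l → F (bs l) ∈ M) {σ : C B} (hσ : σ ∈ S P) : F σ ∈ M := by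
  have : S P ≤ M.comap F := by
    rw [S, Finsupp.supported_eq_span_single, Submodule.span_le]
    rintro _ ⟨l, hl, rfl⟩
    exact h l hl
  exact this hσ

theorem eq_on {P : List B → Prop} (F G : C B →ₗ[ℤ] W) (h : ∀ l, P l → F (bs l) = G (bs l))
    {σ : C B} (hσ : σ ∈ S P) : F σ = G σ := by
  have := map_mem (F - G) ⊥ (fun l hl => by simp [h l hl]) hσ
  rwa [Submodule.mem_bot, LinearMap.sub_apply, sub_eq_zero] at this

theorem cons_mem {P Q : List B → Prop} {g : B} (h : ∀ l, P l → Q (g :: l)) {σ : C B}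
    (hσ : σ ∈ S P) : cons g σ ∈ S Q :=
  map_mem _ _ (fun l hl => by rw [cons_bs]; exact bs_mem (h l hl)) hσ

theorem push_mem {P : List A → Prop} {Q : List B → Prop} {f : A → B}
    (h : ∀ l, P l → Q (l.map f)) {σ : C A} (hσ : σ ∈ S P) : push f σ ∈ S Q :=
  map_mem _ _ (fun l hl => by rw [push_bs]; exact bs_mem (h l hl)) hσ

theorem eps_mem {P : List B → Prop} {σ : C B} (hσ : σ ∈ S P) : eps σ ∈ S P :=
  map_mem _ _ (fun l hl => by rw [eps_bs]; exact Submodule.smul_mem _ _ (bs_mem hl)) hσ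

/-- the boundary of a list consists of sublists that are shorter by one -/
theorem d_bs_mem (l : List B) :
    d (bs l) ∈ S (fun m => m.Sublist l ∧ m.length + 1 = l.length) := by
  induction l with
  | nil => simp
  | cons g l ih =>
    rw [d_bs_cons]
    refine Submodule.sub_mem _ (bs_mem ⟨List.sublist_cons_self _ _, rfl⟩) (cons_mem ?_ ih)
    rintro m ⟨h1, h2⟩
    exact ⟨h1.cons_cons g, by simp [h2]⟩

theorem d_mem {P Q : List B → Prop}
    (h : ∀ l m, P l → m.Sublist l → m.length + 1 = l.length → Q m) {σ : C B} (hσ : σ ∈ S P) :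
    d σ ∈ S Q :=
  map_mem _ _ (fun l hl => S_mono (fun m hm => h l m hl hm.1 hm.2) (d_bs_mem l)) hσ

/-- lists of length `k` -/
def Len (k : ℕ) (l : List B) : Prop := l.length = k

/-- lists with entries in `X` -/
def En (X : Set B) (l : List B) : Prop := ∀ a ∈ l, a ∈ X

theorem d_mem_len {k : ℕ} {σ : C B} (hσ : σ ∈ S (Len (k + 1))) : d σ ∈ S (Len k) :=
  d_mem (fun _ _ h _ h2 => by unfold Len at *; omega) hσ

theorem d_mem_en {X : Set B} {σ : C B} (hσ : σ ∈ S (En X)) : d σ ∈ S (En X) :=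
  d_mem (fun _ _ h h1 _ a ha => h a (h1.subset ha)) hσ

theorem cons_mem_len {k : ℕ} (g : B) {σ : C B} (hσ : σ ∈ S (Len k)) :
    cons g σ ∈ S (Len (k + 1)) :=
  cons_mem (fun _ h => by unfold Len at *; simp [h]) hσ

theorem cons_mem_en {X : Set B} {g : B} (hg : g ∈ X) {σ : C B} (hσ : σ ∈ S (En X)) :
    cons g σ ∈ S (En X) :=
  cons_mem (fun _ h a ha => (List.mem_cons.1 ha).elim (fun h' => h' ▸ hg) (h a)) hσ

theorem push_mem_len {k : ℕ} (f : A → B) {σ : C A} (hσ : σ ∈ S (Len k)) :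
    push f σ ∈ S (Len k) :=
  push_mem (fun _ h => by unfold Len at *; simp [h]) hσ

theorem push_mem_en {X : Set A} {Y : Set B} {f : A → B} (h : ∀ a ∈ X, f a ∈ Y) {σ : C A}
    (hσ : σ ∈ S (En X)) : push f σ ∈ S (En Y) :=
  push_mem (fun l hl b hb => by
    obtain ⟨a, ha, rfl⟩ := List.mem_map.1 hb
    exact h a (hl a ha)) hσ

theorem en_mono {X Y : Set B} (h : X ⊆ Y) {σ : C B} (hσ : σ ∈ S (En X)) : σ ∈ S (En Y) :=
  S_mono (fun _ hl a ha => h (hl a ha)) hσ

theorem bs_mem_en (l : List B) : bs l ∈ S (En {a | a ∈ l}) := bs_mem fun _ h => h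

theorem eps_of_len {k : ℕ} {σ : C B} (hσ : σ ∈ S (Len k)) : eps σ = (-1 : ℤ) ^ (k + 1) • σ :=
  eq_on eps ((-1 : ℤ) ^ (k + 1) • LinearMap.id)
    (fun l hl => by rw [eps_bs, show l.length = k from hl]; rfl) hσ

theorem e_of_len {k : ℕ} {σ : C B} (hσ : σ ∈ S (Len (k + 1))) : e σ = 0 :=
  eq_on e 0 (fun l hl => by
    cases l with
    | nil => exact absurd hl (by simp [Len])
    | cons g l => simp) hσ

/-- the homogeneous part of length `k` -/
noncomputable def proj (k : ℕ) : C B →ₗ[ℤ] C B := lin fun l => if l.length = k then bs l else 0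

theorem proj_bs (k : ℕ) (l : List B) : proj k (bs l) = if l.length = k then bs l else 0 :=
  lin_bs _ _

theorem proj_mem_len (k : ℕ) (σ : C B) : proj k σ ∈ S (Len k) :=
  map_mem _ _ (fun l _ => by
    rw [proj_bs]
    split_ifs with h
    · exact bs_mem h
    · exact Submodule.zero_mem _) (mem_S_true σ)

theorem proj_mem {P : List B → Prop} (k : ℕ) {σ : C B} (hσ : σ ∈ S P) : proj k σ ∈ S P :=
  map_mem _ _ (fun l hl => by
    rw [proj_bs]
    split_ifs with h
    · exact bs_mem hl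
    · exact Submodule.zero_mem _) hσ

theorem proj_of_len {k : ℕ} {σ : C B} (hσ : σ ∈ S (Len k)) : proj k σ = σ :=
  eq_on (proj k) LinearMap.id (fun l hl => by rw [proj_bs, if_pos (show l.length = k from hl)]; rfl) hσ

theorem proj_of_ne {k j : ℕ} (h : j ≠ k) {σ : C B} (hσ : σ ∈ S (Len j)) : proj k σ = 0 :=
  eq_on (proj k) 0 (fun l hl => by
    rw [proj_bs, if_neg (by rw [show l.length = j from hl]; exact h)]; rfl) hσ

theorem d_proj (k : ℕ) (σ : C B) : d (proj (k + 1) σ) = proj k (d σ) := by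
  refine lin_ext' (F := d ∘ₗ proj (k + 1)) (G := proj k ∘ₗ d) (fun l => ?_) σ
  simp only [LinearMap.comp_apply, proj_bs]
  cases l with
  | nil => simp
  | cons g l =>
    have hd : d (bs (g :: l)) ∈ S (Len l.length) := d_mem_len (bs_mem rfl)
    split_ifs with h
    · rw [proj_of_len (by simpa [← Nat.succ.inj h] using hd)]
    · rw [proj_of_ne (fun h' => h (by simp [h'])) hd, map_zero]

end Basic

section Grp

variable {A B : Type} [Group A] [Group B]

/-- lists of type `T`: all differences lie in `T` -/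
def Ty (T : Set B) (l : List B) : Prop := ∀ a ∈ l, ∀ b ∈ l, a⁻¹ * b ∈ T

theorem Ty.sublist {T : Set B} {l m : List B} (h : Ty T l) (hm : m.Sublist l) : Ty T m :=
  fun a ha b hb => h a (hm.subset ha) b (hm.subset hb)

theorem d_mem_ty {T : Set B} {σ : C B} (hσ : σ ∈ S (Ty T)) : d σ ∈ S (Ty T) :=
  d_mem (fun _ _ h h1 _ => h.sublist h1) hσ

theorem ty_mono {T T' : Set B} (h : T ⊆ T') {σ : C B} (hσ : σ ∈ S (Ty T)) : σ ∈ S (Ty T') :=
  S_mono (fun _ hl a ha b hb => h (hl a ha b hb)) hσ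

theorem ty_of_en {X T : Set B} (h : ∀ a ∈ X, ∀ b ∈ X, a⁻¹ * b ∈ T) {σ : C B}
    (hσ : σ ∈ S (En X)) : σ ∈ S (Ty T) :=
  S_mono (fun _ hl a ha b hb => h a (hl a ha) b (hl b hb)) hσ

/-- push forward along any map that respects differences -/
theorem push_mem_ty' {T : Set A} {T' : Set B} {f : A → B}
    (h : ∀ a b, a⁻¹ * b ∈ T → (f a)⁻¹ * f b ∈ T') {σ : C A} (hσ : σ ∈ S (Ty T)) :
    push f σ ∈ S (Ty T') :=
  push_mem (fun l hl a ha b hb => by
    obtain ⟨a, ha', rfl⟩ := List.mem_map.1 ha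
    obtain ⟨b, hb', rfl⟩ := List.mem_map.1 hb
    exact h a b (hl a ha' b hb')) hσ

theorem push_mem_ty {T : Set A} (f : A →* B) {σ : C A} (hσ : σ ∈ S (Ty T)) :
    push f σ ∈ S (Ty (f '' T)) :=
  push_mem_ty' (T' := f '' T) (fun a b h => ⟨a⁻¹ * b, h, by simp⟩) hσ

theorem push_mul_mem_ty {T : Set B} (g : B) {σ : C B} (hσ : σ ∈ S (Ty T)) :
    push (g * ·) σ ∈ S (Ty T) :=
  push_mem_ty' (fun a b h => by simpa [mul_assoc] using h) hσ

theorem push_one_mem_ty {A : Type} (σ : C A) : push (fun _ => (1 : B)) σ ∈ S (Ty {1}) :=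
  push_mem (fun l _ a ha b hb => by
    obtain ⟨a, -, rfl⟩ := List.mem_map.1 ha
    obtain ⟨b, -, rfl⟩ := List.mem_map.1 hb
    simp) (mem_S_true σ)

/-- left multiplication on chains -/
noncomputable def lrep (B : Type) [Group B] : Representation ℤ B (C B) where
  toFun g := push (g * ·)
  map_one' := lin_ext fun l => by simp
  map_mul' a b := lin_ext fun l => by simp [Function.comp_def, mul_assoc]

theorem lrep_apply (g : B) (σ : C B) : lrep B g σ = push (g * ·) σ := rfl

/-- the maps that send cycles of length `n + 1` to boundaries, with bounded type -/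
def U (A B : Type) [Group A] [Group B] (n : ℕ) : Submodule ℤ (C A →ₗ[ℤ] C B) where
  carrier := {F | ∀ T : Set A, T.Finite → ∃ T' : Set B, T'.Finite ∧
    ∀ z ∈ S (Ty T), z ∈ S (Len (n + 1)) → d z = 0 → ∃ w ∈ S (Ty T'), F z = d w}
  zero_mem' := fun _ _ => ⟨∅, Set.finite_empty, fun _ _ _ _ => ⟨0, Submodule.zero_mem _, by simp⟩⟩
  add_mem' := by
    intro F G hF hG T hT
    obtain ⟨T1, h1, hF⟩ := hF T hT
    obtain ⟨T2, h2, hG⟩ := hG T hT
    refine ⟨T1 ∪ T2, h1.union h2, fun z hz hl hd => ?_⟩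
    obtain ⟨w1, hw1, e1⟩ := hF z hz hl hd
    obtain ⟨w2, hw2, e2⟩ := hG z hz hl hd
    exact ⟨w1 + w2, Submodule.add_mem _ (ty_mono Set.subset_union_left hw1)
      (ty_mono Set.subset_union_right hw2), by simp [e1, e2]⟩
  smul_mem' := by
    intro k F hF T hT
    obtain ⟨T1, h1, hF⟩ := hF T hT
    refine ⟨T1, h1, fun z hz hl hd => ?_⟩
    obtain ⟨w1, hw1, e1⟩ := hF z hz hl hd
    exact ⟨k • w1, Submodule.smul_mem _ _ hw1, by simp [e1]⟩

theorem mem_U {n : ℕ} {F : C A →ₗ[ℤ] C B} : F ∈ U A B n ↔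
    ∀ T : Set A, T.Finite → ∃ T' : Set B, T'.Finite ∧
      ∀ z ∈ S (Ty T), z ∈ S (Len (n + 1)) → d z = 0 → ∃ w ∈ S (Ty T'), F z = d w := Iff.rfl

/-- `f` is null-homotopic on the lists of length `≤ n`, with bounded type -/
def Null (n : ℕ) (f : A →* B) : Prop :=
  ∀ T : Set A, T.Finite → ∃ T' : Set B, T'.Finite ∧ ∃ h : C A →ₗ[ℤ] C B,
    h (bs []) = 0 ∧ (∀ l, h (bs l) ∈ S (Len (l.length + 1))) ∧
    (∀ l, Ty T l → h (bs l) ∈ S (Ty T')) ∧
    ∀ l, Ty T l → l.length ≤ n →
      d (h (bs l)) + h (d (bs l)) = push f (bs l) - push (fun _ => 1) (bs l)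

/-- an `f`-equivariant chain map (on the lists of length `≤ n + 1`) with values of bounded type -/
def Tame (n : ℕ) (f : A →* B) : Prop :=
  ∃ T : Set B, T.Finite ∧ ∃ θ : C A →ₗ[ℤ] C B,
    θ (bs []) = bs [] ∧ (∀ a, θ (bs [a]) = bs [f a]) ∧
    (∀ a σ, θ (push (a * ·) σ) = push (f a * ·) (θ σ)) ∧
    (∀ l, θ (bs l) ∈ S (Len l.length)) ∧ (∀ l, θ (bs l) ∈ S (Ty T)) ∧
    ∀ l, l.length ≤ n + 1 → d (θ (bs l)) = θ (d (bs l))

end Grp

end Sw

end Crest.Agent.R185
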