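import Crest.Agent.R185.MModel
import Crest.Agent.R185.SwDefs

/-!
# R185/MKilled: the base homomorphism of any representation of `MT` is `Killed` (helper79)
-/

set_option autoImplicit false

namespace Crest.Agent.R185

variable {A B : Type} [Group A] [Group B]

theorem MRep.killed {k : MJ → A →* B} (h : MRep MT k) : Killed (k mj0) := fun _ _ _ x hx _ =>
  MT_kills (fun j => x (k j)) fun a b c t => hx _ _ _ (h.comm a b c t) (h.mul a b c t)

theorem killed_delta : Killed (delta A) := (Mg.rep MT).killed

theorem killed_gk : Killed (gk mj0 : A →* GB A) := gk_rep.killed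

end Crest.Agent.R185
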