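import Crest.Agent.R185.CPkg
import Crest.Agent.R185.MKilled
import Crest.Agent.R185.BRMain

/-!
# R185/CGlue: the three statements of row 185 from the core theorems (helper79)
-/

set_option autoImplicit false

namespace Crest.Agent.R185

open Function

theorem fg_of_fp' (G : Type) [Group G] [h : Group.IsFinitelyPresented G] : Group.FG G := by
  obtain ⟨n, π, hπ, -⟩ := h.out
  exact Group.fg_of_surjective hπ

/-- S0279 from a universal finitely presented group -/
theorem finiteType_of_universal (U : Type) [Group U] [Group.IsFinitelyPresented U]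
    (hU : ∀ (G : Type) [Group G], Group.IsFinitelyPresented G → ∃ f : G →* U, Injective f) :
    ∃ (H : Type) (_ : Group H), Crest.Topology.HasFiniteTypeClassifyingComplex H ∧
      ∀ (G : Type) [Group G], Group.IsFinitelyPresented G → ∃ f : G →* H, Injective f := by
  obtain ⟨j, hj⟩ := hU (MA U) inferInstance
  have hφ : Injective (j.comp (delta U)) := hj.comp delta_injective
  have h := asc_AscG _ hφ
  have := fp_AscG_of_fp _ hφ
  have := fg_of_fp' U
  refine ⟨AscG _ hφ, inferInstance,
    bridge (h.swindle (killed_delta.comp_left j) ⟨⊤, Group.fg_def.1 inferInstance, le_top⟩),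
    fun G _ hG => ?_⟩
  obtain ⟨f, hf⟩ := hU G hG
  exact ⟨(ascι _ hφ).comp f, h.inj.comp hf⟩

/-- S0277 and S0278 from the version for groups in `Type` of the core theorem -/
theorem simple_of_core
    (core : ∀ (G : Type) [Group G] (k : ℕ) (s : Fin k → G),
      Subgroup.closure (Set.range s) = ⊤ →
      (ComputablePred fun w : List (Fin k × Bool) => FreeGroup.lift s (FreeGroup.mk w) = 1) →
      ∃ (P : Type) (_ : Group P) (f : G →* P), Injective f ∧ Nonempty (Pkg P))
    (G : Type*) [Group G] (k : ℕ) (s : Fin k → G) (hgen : Subgroup.closure (Set.range s) = ⊤)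
    (hdec : ComputablePred fun w : List (Fin k × Bool) => FreeGroup.lift s (FreeGroup.mk w) = 1) :
    ∃ (S : Type) (_ : Group S) (f : G →* S), Injective f ∧ IsSimpleGroup S ∧
      Group.IsFinitelyPresented S ∧ Crest.Topology.HasFiniteTypeClassifyingComplex S := by
  have hs : Surjective (FreeGroup.lift s) := by
    rw [← MonoidHom.range_eq_top, FreeGroup.range_lift_eq_closure, hgen]
  let e := QuotientGroup.quotientKerEquivOfSurjective _ hs
  have he : ∀ w, e (FreeGroup.lift (fun i => e.symm (s i)) w) = FreeGroup.lift s w := by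
    have : e.toMonoidHom.comp (FreeGroup.lift fun i => e.symm (s i)) = FreeGroup.lift s := by
      ext i; simp
    exact DFunLike.congr_fun this
  obtain ⟨P, _, f, hf, ⟨pk⟩⟩ := core _ k (fun i => e.symm (s i)) (by
      rw [← FreeGroup.range_lift_eq_closure, MonoidHom.range_eq_top]
      intro x
      obtain ⟨w, hw⟩ := hs (e x)
      exact ⟨w, e.injective (by rw [he, hw])⟩)
    (by
      convert hdec using 2 with w
      rw [← he, map_eq_one_iff _ e.injective])
  obtain ⟨S, _, g, hg, h1, h2, h3⟩ := pk.exists_simple
  exact ⟨S, inferInstance, (g.comp f).comp e.symm.toMonoidHom, (hg.comp hf).comp e.symm.injective,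
    h1, h2, bridge h3⟩

end Crest.Agent.R185
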