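import Crest.Agent.R185.CRep

/-!
# Row 185, core: one twisted stable letter (helper79)

`⟨K, k | k⁻¹ (b true z) k = b false z⟩` for two homomorphisms `b e` with the same kernel.
-/

set_option autoImplicit false
set_option linter.unusedSectionVars false

namespace Crest.Agent.R185

open Function

section Group

variable {A K : Type} [Group A] [Group K] (b : Bool → A →* K)
  (hb : ∀ e z, b e z = 1 → b (!e) z = 1)

open Classical in
/-- the associated isomorphisms -/
noncomputable def twφ (e : Bool) (x : K) : K :=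
  if h : x ∈ (b e).range then b (!e) h.choose else 1

include hb in
theorem twφ_apply (e : Bool) (z : A) : twφ b e (b e z) = b (!e) z := by
  have h : b e z ∈ (b e).range := ⟨z, rfl⟩
  rw [twφ, dif_pos h, ← mul_inv_eq_one, ← map_inv, ← map_mul]
  apply hb
  rw [map_mul, map_inv, h.choose_spec, mul_inv_cancel]

/-- the data -/
noncomputable def twD : MHD K Bool where
  bar e := !e
  bar_bar := Bool.not_not
  H e := (b e).range
  φ := twφ b
  φ_mem := by
    rintro e _ ⟨z, rfl⟩
    exact ⟨z, (twφ_apply b hb e z).symm⟩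
  φ_mul := by
    rintro e _ ⟨z, rfl⟩ _ ⟨z', rfl⟩
    rw [← map_mul, twφ_apply b hb, twφ_apply b hb, twφ_apply b hb, map_mul]
  φ_φ := by
    rintro e _ ⟨z, rfl⟩
    rw [twφ_apply b hb, twφ_apply b hb, Bool.not_not]

variable {Y : Type} (π : FreeGroup Y →* K)

/-- the marking -/
noncomputable def twMark : FreeGroup (Y ⊕ Unit) →* (twD b hb).G :=
  FreeGroup.lift (Sum.elim (fun y => (twD b hb).of (π (.of y))) fun _ => (twD b hb).t true)

theorem twMark_inl (w : FreeGroup Y) :
    twMark b hb π (FreeGroup.map Sum.inl w) = (twD b hb).of (π w) := by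
  have : (twMark b hb π).comp (FreeGroup.map Sum.inl) = (twD b hb).of.comp π := by
    ext y
    simp [twMark]
  exact DFunLike.congr_fun this w

theorem twMark_inr : twMark b hb π (.of (.inr ())) = (twD b hb).t true := by simp [twMark]

theorem twMark_surjective (h : Surjective π) : Surjective (twMark b hb π) := by
  rw [← MonoidHom.range_eq_top, eq_top_iff, ← (twD b hb).closure_eq_top, Subgroup.closure_le]
  rintro _ (⟨a, rfl⟩ | ⟨_ | _, rfl⟩)
  · obtain ⟨w, rfl⟩ := h a
    exact ⟨_, twMark_inl b hb π w⟩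
  · refine ⟨(FreeGroup.of (.inr ()))⁻¹, ?_⟩
    rw [map_inv, twMark_inr]
    exact ((twD b hb).t_bar true).symm
  · exact ⟨_, twMark_inr b hb π⟩

theorem twD_conj (z : A) :
    ((twD b hb).t true)⁻¹ * (twD b hb).of (b true z) * (twD b hb).t true =
      (twD b hb).of (b false z) := by
  rw [(twD b hb).t_conj true (h := b true z) ⟨z, rfl⟩]
  exact congrArg _ (twφ_apply b hb true z)

end Group

section Loc

variable {Y Z K : Type} [DecidableEq Y] [DecidableEq Z] [Group K] {π : FreeGroup Y →* K}
  {a : Bool → FreeGroup Z →* FreeGroup Y}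

/-- the stable letter and its inverse -/
def twk (Y : Type) (e : Bool) : FreeGroup (Y ⊕ Unit) :=
  if e then .of (.inr ()) else (FreeGroup.of (.inr ()))⁻¹

theorem twk_not (e : Bool) : twk Y (!e) = (twk Y e)⁻¹ := by cases e <;> simp [twk]

theorem norm_twk (e : Bool) : (twk Y e).norm = 1 := by cases e <;> simp [twk]

/-- words with a size -/
noncomputable def twRep (hb : ∀ e z, (π.comp (a e)) z = 1 → (π.comp (a (!e))) z = 1) (F : ℕ → ℕ) :
    RepSys (twD (fun e => π.comp (a e)) hb) (twMark (fun e => π.comp (a e)) hb π) where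
  Rp := {p : FreeGroup Y × ℕ // p.1.norm ≤ F p.2}
  val p := π p.1.1
  wd p := FreeGroup.map Sum.inl p.1.1
  sz p := p.1.2
  tw := twk Y
  π_wd p := twMark_inl _ hb π _
  π_tw := by
    rintro (_ | _)
    · have : ((twD (fun e => π.comp (a e)) hb).t true)⁻¹ = (twD (fun e => π.comp (a e)) hb).t false :=
        ((twD (fun e => π.comp (a e)) hb).t_bar true).symm
      simpa [twk, twMark_inr] using this
    · simp [twk, twMark_inr]
  tw_le e := (norm_twk e).le

theorem tw_KT (hb : ∀ e z, (π.comp (a e)) z = 1 → (π.comp (a (!e))) z = 1) {Λ : ℕ}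
    (ha : ∀ e, Lip (a e) Λ) {δ F : ℕ → ℕ}
    (hδ : ∀ e n (w : FreeGroup Y), w.norm ≤ n → π w ∈ (π.comp (a e)).range →
      ∃ z : FreeGroup Z, z.norm ≤ δ n ∧ π (a e z) = π w)
    (hF0 : F 0 = 0) (hF : ∀ n, 2 * F n + (Λ + 1) * δ (F n) + 1 ≤ F (n + 1))
    {θ : LT (Y ⊕ Unit)} {L m : ℕ} (h : θ.Closed L) (hL : 16 * (F m + 1) * (F m + Λ + 2) ≤ L)
    (hrel : ∀ z, θ.E ((twk Y true)⁻¹ * FreeGroup.map Sum.inl (a true (.of z)) * twk Y true)
      (FreeGroup.map Sum.inl (a false (.of z))))
    (hT : (θ.comap (FreeGroup.map Sum.inl)).KT π (F m)) :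
    θ.KT (twMark (fun e => π.comp (a e)) hb π) m := by
  intro w hw h1
  have hmono : Monotone F := monotone_nat_of_le_succ fun n => by have := hF n; omega
  have hle : ∀ n, n ≤ F n := fun n => by
    induction n with
    | zero => exact Nat.zero_le _
    | succ n ih => have := hF n; omega
  have hadd : ∀ i j, F i + F j ≤ F (i + j) := fun i j => by
    rcases i with _ | i
    · simp [hF0]
    rcases j with _ | j
    · simp [hF0]
    have h1 := hF (i + j + 1)
    have h2 : F (i + 1) ≤ F (i + j + 1) := hmono (by omega)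
    have h3 : F (j + 1) ≤ F (i + j + 1) := hmono (by omega)
    rw [show i + 1 + (j + 1) = i + j + 1 + 1 by omega]
    omega
  set π' := twMark (fun e => π.comp (a e)) hb π with hπ'
  have hs := h.sound π'
  have hm := hle m
  have hL1 : 16 * (F m + Λ + 2) ≤ L := le_trans (by nlinarith) hL
  have lipa : ∀ e, Lip ((FreeGroup.map (Sum.inl : Y → Y ⊕ Unit)).comp (a e)) (Λ + 1) :=
    fun e z => (norm_map_le _ _).trans ((ha e z).trans (Nat.le_succ _))
  have hrel' : ∀ e z, (θ.sound π').E
      ((twk Y e)⁻¹ * FreeGroup.map Sum.inl (a e (.of z)) * twk Y e)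
      (FreeGroup.map Sum.inl (a (!e) (.of z))) := by
    have h0 : ∀ z, (θ.sound π').E
        ((twk Y true)⁻¹ * FreeGroup.map Sum.inl (a true (.of z)) * twk Y true)
        (FreeGroup.map Sum.inl (a false (.of z))) := fun z => ⟨hrel z, by
      have := twD_conj (fun e => π.comp (a e)) hb (.of z)
      simp only [map_mul, map_inv, hπ', twMark_inl, twk, if_true, twMark_inr, mul_inv_eq_one]
      exact this⟩
    rintro (_ | _) z
    · have n1 := lipa true z
      have n2 := lipa false z
      have n3 := norm_twk (Y := Y) true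
      have n4 := norm_twk (Y := Y) false
      rw [MonoidHom.comp_apply] at n1 n2
      have e1 := hs.symm (B := Λ + 3) (by omega) ((norm_conj_le n3.le n1).trans (by omega))
        (by omega) (h0 z)
      have e2 := hs.mid (B := Λ + 3) (g := (twk Y false)⁻¹) (by omega)
        (by rw [FreeGroup.norm_inv_eq]; omega) (by omega)
        ((norm_conj_le n3.le n1).trans (by omega)) e1 (twk Y false)
      have e3 : twk Y false = (twk Y true)⁻¹ := twk_not true
      convert e2 using 1
      rw [e3]; simp [mul_assoc]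
    · exact h0 z
  obtain ⟨r, l, hr, hsz, e⟩ := (twRep hb F).rep (θ := θ.sound π') hs (m := m) (F := F m)
    (le_trans (by nlinarith) hL) (fun r hr => (norm_map_le _ _).trans (r.2.trans (hmono hr)))
    ⟨⟨(1, 0), by simp⟩, rfl, map_one _⟩ (by
      rintro ⟨y | _, c⟩
      · exact Or.inl ⟨⟨(.mk [(y, c)], 1), FreeGroup.norm_mk_le.trans (hle 1)⟩, le_rfl, hs.of_eq rfl⟩
      · refine Or.inr ⟨c, ?_⟩
        cases c
        · simp [twRep, twk, FreeGroup.of, FreeGroup.invRev]
        · rfl)
    (fun r r' _ => ⟨⟨(r.1.1 * r'.1.1, r.1.2 + r'.1.2),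
      (nmul _ _).trans ((Nat.add_le_add r.2 r'.2).trans (hadd _ _))⟩, le_rfl,
      hs.of_eq (map_mul (FreeGroup.map Sum.inl) _ _).symm⟩)
    (by
      rintro e ⟨⟨u, n⟩, hu⟩ hH hn
      change n + 2 ≤ m at hn
      change u.norm ≤ F n at hu
      obtain ⟨z, hz, hz'⟩ := hδ e _ u hu hH
      have k1 := hF n
      have k2 : F (n + 1) ≤ F m := hmono (by omega)
      have k3 : F (n + 1) ≤ F (n + 2) := hmono (by omega)
      have k4 : ∀ e, (a e z).norm ≤ Λ * δ (F n) := fun e =>
        ((ha e).norm_le z).trans (Nat.mul_le_mul_left _ hz)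
      have k5 := k4 e
      have k6 := k4 (!e)
      rw [add_mul, one_mul] at k1
      refine ⟨⟨(a (!e) z, n + 2), k6.trans (show _ ≤ F (n + 2) by omega)⟩, le_rfl, ?_⟩
      change (θ.sound π').E (twk Y (!e) * FreeGroup.map Sum.inl u * twk Y e)
        (FreeGroup.map Sum.inl (a (!e) z))
      have e1 : (θ.sound π').E (FreeGroup.map Sum.inl u) (FreeGroup.map Sum.inl (a e z)) := by
        have h2 : π (u * (a e z)⁻¹) = 1 := by rw [map_mul, map_inv, hz', mul_inv_cancel]
        refine ⟨?_, ?_⟩
        · have := hT (u * (a e z)⁻¹) ((nmul _ _).trans (by rw [FreeGroup.norm_inv_eq]; omega)) h2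
          rwa [LT.mem_comap_T, map_mul, map_inv] at this
        · rw [← map_inv, ← map_mul, hπ', twMark_inl, h2, map_one]
      have n1 := (norm_map_le (Sum.inl : Y → Y ⊕ Unit) u).trans hu
      have n2 := (norm_map_le (Sum.inl : Y → Y ⊕ Unit) _).trans k5
      have n3 := (norm_map_le (Sum.inl : Y → Y ⊕ Unit) _).trans k6
      have n4 := norm_twk (Y := Y) e
      have e2 := hs.mid (B := F m) (g := (twk Y e)⁻¹) (by omega)
        (by rw [FreeGroup.norm_inv_eq]; omega) (by omega) (by omega) e1 (twk Y e)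
      have e3 := hs.transfer (lipa e) (lipa (!e)) (g := twk Y e) (by omega) (hrel' e) (n := F m)
        (le_trans (by nlinarith) hL) z (by omega)
      rw [twk_not]
      exact hs.trans (B := F m + 2) (by omega) ((norm_conj_le n4.le n1).trans (by omega))
        ((norm_conj_le n4.le n2).trans (by omega)) (by omega) e2 e3)
    w hw
  have e1 : π' w = π' ((twRep hb F).wl r l) := LT.E.eq (θ := θ.sound π') (fun _ hw => hw.2) e
  rw [h1, RepSys.π_wl, ← map_one (twD (fun e => π.comp (a e)) hb).of] at e1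
  obtain ⟨hl, hv⟩ := MHD.eq_nil_of_ev_eq hr e1.symm
  obtain rfl : l = [] := List.map_eq_nil_iff.1 hl
  rw [RepSys.szl_nil] at hsz
  rw [RepSys.wl_nil] at e
  have n1 : r.1.1.norm ≤ F m := r.2.trans (hmono (hsz.trans hw))
  exact h.memT (B := F m) (by omega) (by omega) ((norm_map_le _ _).trans n1) e.1 (hT _ n1 hv)

end Loc

end Crest.Agent.R185
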