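import Crest.Agent.R185.CRMa

/-!
# Row 185, core: existence of a universal machine (with the recursion theorem inside)
-/

set_option autoImplicit false

namespace Crest.Agent.R185

/-- **Block CRM.**  Suggested design (free to change).  Registers: state (always `zero`-type: exact
values), history (register `1`, see `Good.root_hist`, `Good.dep_le`), the four stacks of `Turing.PartrecToTM2` (base `m`, digits `1 … 4`, empty `= 0`).
EVERY tree edge pushes the (nonzero) number of the rule on the history, so ranges are disjoint, the
only predecessor of a configuration of the tree is the true one, and `m ^ (dep - 1) ≤ history`.
* `root e`: state `start`, history `0`, the binary code of `e` on a stack.  Two rules (colours 0, 1)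
  lead to the copies `b = false / true` of one program; both push the SAME history digit (their
  ranges differ in the state), corresponding rules of the two copies push the same digit.
* writing phase (a tree of degree `≤ 4`, one colour per branch): choose a letter `s : S × Bool` by
  walking along states `(choose, j) → (choose, j+1)`; accepting it pushes a block of bits coding
  `s` on `main` and (copy `true` only) emits the voltage `mk [s]` on one of these steps; or stop.
  After writing the letters `s₁, s₂, …, s_k` in this order `γ = mk [s_k, …, s₁]` in the copy `true`,
  `γ = 1` in the copy `false`.
* run phase: simulate the `TM2` program of a code `c` with `c.eval [e, n]` defined iff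
  `(Nat.Partrec.Code.eval (ofNat e) n).Dom` (micro-steps: state = sub-statement + variable; finitely
  many states by `tr_supports` / `codeSupp`); no voltage.
* link: `(halt, false) → (halt, true)`, all other registers `keep`, no history push.
* `n ↦ d` is a computable decoding of the written number; Kleene (`Nat.Partrec.Code.fixed_point₂`)
  gives `e` with `(eval (ofNat e) n).Dom ↔ p e (decode n)`.
* `C` = configurations reachable from `root e` along tree edges, `dep` = number of steps;
  `out`: a configuration with negative state. -/
theorem exists_RM (S : Type) [Fintype S] [DecidableEq S] [Primcodable S] :
    ∃ (M : RM S) (root : ℕ → Reg → ℕ), Computable root ∧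
      ∀ p : ℕ → List (S × Bool) → Prop, REPred (fun x : ℕ × List (S × Bool) => p x.1 x.2) →
        ∃ e C γ dep, M.Good {w | ∃ d, p e d ∧ FreeGroup.mk d = w} (fun i => (root e i : ℤ))
          C γ dep :=
  exists_RM_aux S

end Crest.Agent.R185
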