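import Crest.Agent.R185.CK
import Crest.Agent.R185.CRM
import Crest.Agent.R185.CComp
import Crest.Agent.R185.CHigA

/-!
# Row 185, core: the Higman–Clapham embedding theorem
-/

set_option autoImplicit false

namespace Crest.Agent.R185

open Function

namespace Hig

set_option linter.unusedSectionVars false

variable {S : Type} [DecidableEq S]

/-- the first factor and the diagonal -/
def dg (S : Type) : Bool → FreeGroup S →* FreeGroup (S ⊕ S)
  | true => FreeGroup.map Sum.inl
  | false => FreeGroup.lift fun b => .of (.inl b) * .of (.inr b)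

/-- the words of `genA` -/
def gA : Option Ty → FreeGroup YK
  | none => .of (.inr (.inr 2))
  | some ty => .of (.inr (.inl ty))

theorem gA_mem (o : Option Ty) : gA o ∈ genA := by
  cases o with
  | none => exact Or.inr rfl
  | some ty => exact Or.inl ⟨ty, rfl⟩

theorem exists_gA {w : FreeGroup YK} (h : w ∈ genA) : ∃ o, gA o = w := by
  rcases h with ⟨ty, rfl⟩ | rfl
  · exact ⟨some ty, rfl⟩
  · exact ⟨none, rfl⟩

/-- the parametrisations of the associated subgroups -/
def aa (ι : FreeGroup (S ⊕ S) →* FreeGroup YK) (e : Bool) :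
    FreeGroup (Option Ty ⊕ S) →* FreeGroup YK :=
  FreeGroup.lift (Sum.elim gA fun b => ι (dg S e (.of b)))

theorem aa_inl (ι : FreeGroup (S ⊕ S) →* FreeGroup YK) (e : Bool) (o : Option Ty) :
    aa ι e (.of (.inl o)) = gA o := by simp [aa]

theorem aa_inr (ι : FreeGroup (S ⊕ S) →* FreeGroup YK) (e : Bool) (u : FreeGroup S) :
    aa ι e (FreeGroup.map Sum.inr u) = ι (dg S e u) := by
  have : (aa ι e).comp (FreeGroup.map Sum.inr) = ι.comp (dg S e) := by ext b; simp [aa]
  exact DFunLike.congr_fun this u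

variable {G : Type} [Group G] (π : FreeGroup S →* G)

/-- the marking of `F(S) × G` -/
abbrev πD : FreeGroup (S ⊕ S) →* FreeGroup S × G := prodMark (MonoidHom.id _) π

theorem πD_dg_true (u : FreeGroup S) : πD π (dg S true u) = (u, 1) := prodMark_inl _ _ u

theorem πD_dg_false (u : FreeGroup S) : πD π (dg S false u) = (u, π u) := by
  have : (πD π).comp (dg S false) = (MonoidHom.id _).prod π := by
    refine FreeGroup.ext_hom _ _ fun b => ?_
    have h1 := prodMark_inl (MonoidHom.id (FreeGroup S)) π (.of b)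
    have h2 := prodMark_inr (MonoidHom.id (FreeGroup S)) π (.of b)
    rw [FreeGroup.map.of] at h1 h2
    simp [dg, h1, h2]
  exact DFunLike.congr_fun this u

theorem πD_dg_fst (e : Bool) (u : FreeGroup S) : (πD π (dg S e u)).1 = u := by
  cases e
  · rw [πD_dg_false]
  · rw [πD_dg_true]

theorem πD_dg_of_ker (e : Bool) {u : FreeGroup S} (h : π u = 1) :
    πD π (dg S e u) = πD π (FreeGroup.map Sum.inl u) := by
  cases e
  · rw [πD_dg_false, h, prodMark_inl]; rfl
  · rfl

/-- the subgroups `F(S) × 1` and the graph of `π` -/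
def JJ (e : Bool) : Subgroup (FreeGroup S × G) := ((πD π).comp (dg S e)).range

variable {π} {V : Set (FreeGroup S)} {c k : ℕ} {M : RM (S ⊕ S)}
  {ι : FreeGroup (S ⊕ S) →* FreeGroup YK} {R : Set (FreeGroup YK)} {root : Reg → ℤ}
  {C : Set (Reg → ℤ)} {γ : (Reg → ℤ) → FreeGroup (S ⊕ S)} {dep : (Reg → ℤ) → ℕ}
  {K : Type} [Group K] {πK : FreeGroup YK →* K} {j : FreeGroup S × G →* K}

theorem V_mem (hV : ∀ v ∈ V, π v = 1) (e : Bool) :
    ∀ v ∈ FreeGroup.map (Sum.inl : S → S ⊕ S) '' V, πD π v ∈ JJ π e := by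
  rintro _ ⟨v, hv, rfl⟩
  exact ⟨v, πD_dg_of_ker π e (hV v hv)⟩

theorem aa_mem (hK : KLayer c k M ι R (πD π) root πK j) (e : Bool) (z : FreeGroup (Option Ty ⊕ S)) :
    πK (aa ι e z) ∈ subA πK j (JJ π e) := by
  have : (πK.comp (aa ι e)).range ≤ subA πK j (JJ π e) := by
    rw [MonoidHom.range_eq_map, ← FreeGroup.closure_range_of, MonoidHom.map_closure,
      Subgroup.closure_le]
    rintro _ ⟨_, ⟨o | b, rfl⟩, rfl⟩
    · exact Subgroup.subset_closure (Or.inl ⟨_, gA_mem o, by simp [aa]⟩)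
    · exact Subgroup.subset_closure (Or.inr ⟨_, ⟨.of b, rfl⟩, by simp [aa, hK.π_ι]⟩)
  exact this ⟨z, rfl⟩

theorem ker_eq (hK : KLayer c k M ι R (πD π) root πK j)
    (hG : M.Good (FreeGroup.map Sum.inl '' V) root C γ dep) (hV : ∀ v ∈ V, π v = 1) (e : Bool)
    (z : FreeGroup (Option Ty ⊕ S)) (hz : (πK.comp (aa ι e)) z = 1) :
    (πK.comp (aa ι (!e))) z = 1 := by
  obtain ⟨F, h1, h2⟩ := hK.transport _ C γ dep hG (JJ π e)
    (((πD π).comp (dg S (!e))).comp ((MonoidHom.fst _ _).comp (JJ π e).subtype)) (V_mem hV e) (by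
      rintro _ ⟨v, hv, rfl⟩
      change πD π (dg S (!e) (πD π (FreeGroup.map Sum.inl v)).1) = _
      rw [prodMark_inl, MonoidHom.id_apply, πD_dg_of_ker π _ (hV v hv), prodMark_inl,
        MonoidHom.id_apply])
  have h3 : F.comp ((πK.comp (aa ι e)).codRestrict _ (aa_mem hK e)) = πK.comp (aa ι (!e)) := by
    refine FreeGroup.ext_hom _ _ ?_
    rintro (o | b)
    · have := h1 _ (gA_mem o) (by rw [← aa_inl ι e]; exact aa_mem hK e _)
      rw [MonoidHom.comp_apply, MonoidHom.comp_apply, aa_inl, ← this]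
      congr 1
      exact Subtype.ext (congrArg πK (aa_inl ι e o))
    · have h4 : ∀ e, πK (aa ι e (.of (.inr b))) = j (πD π (dg S e (.of b))) := fun e => by
        rw [← hK.π_ι, ← aa_inr, FreeGroup.map.of]
      have := h2 ⟨πD π (dg S e (.of b)), .of b, rfl⟩ (by rw [← h4]; exact aa_mem hK e _)
      rw [MonoidHom.comp_apply, MonoidHom.comp_apply, h4]
      refine Eq.trans ?_ (this.trans ?_)
      · congr 1
        exact Subtype.ext (h4 e)
      · change j (πD π (dg S (!e) (πD π (dg S e (.of b))).1)) = _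
        rw [πD_dg_fst]
  rw [← h3, MonoidHom.comp_apply, ← map_one F]
  congr 1
  exact Subtype.ext hz

/-- the distortion bound -/
def dist (c k t n : ℕ) : ℕ := (c * (n + 1) + 1) * 2 ^ ((2 * Fintype.card YK + 1) ^ ex k (n + t) + 1)

theorem elem_dist (c k t : ℕ) : Elem (dist c k t) :=
  (((Elem.const c).mul (Elem.id.add (Elem.const 1))).add (Elem.const 1)).mul
    (((Elem.const _).pow ((Elem.id.add (Elem.const t)).ex k)).add (Elem.const 1)).two_pow

theorem distortion (hK : KLayer c k M ι R (πD π) root πK j)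
    (hG : M.Good (FreeGroup.map Sum.inl '' V) root C γ dep) (hV : ∀ v ∈ V, π v = 1) (e : Bool)
    (n : ℕ) (w : FreeGroup YK) (hw : w.norm ≤ n) (h : πK w ∈ (πK.comp (aa ι e)).range) :
    ∃ z : FreeGroup (Option Ty ⊕ S), z.norm ≤ dist c k (tw root).norm n ∧ πK (aa ι e z) = πK w := by
  refine witness πK (subA πK j (JJ π e)) (aa ι e) _ _ n (fun θ h1 h2 h3 => ?_) w hw ?_
  · refine hK.KM _ C γ dep hG _ (V_mem hV e) θ _ n h1 le_rfl (fun r hr => h2 r (hK.rel r hr))
      (h2 _ hK.root_rel) (fun u _ hu => h2 _ (by rw [hK.π_ι, hu, map_one])) (fun u hu => ?_)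
      fun u hu hJ => ?_
    · obtain ⟨o, rfl⟩ := exists_gA hu
      exact h3 _ ⟨.of (.inl o), by simp, by rw [aa_inl]⟩
    · obtain ⟨v, hv⟩ := hJ
      have h4 : v = prL u := (πD_dg_fst π e v).symm.trans (congrArg Prod.fst hv)
      refine h3 _ ⟨FreeGroup.map Sum.inr (prL u),
        (norm_map_le _ _).trans ((norm_prL_le u).trans (by omega)), ?_⟩
      rw [aa_inr, hK.π_ι, hK.π_ι, ← h4, ← hv]
      rfl
  · obtain ⟨z, hz⟩ := h
    rw [← hz]
    exact aa_mem hK e z

/-- the relators -/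
def rels (ι : FreeGroup (S ⊕ S) →* FreeGroup YK) (R : Set (FreeGroup YK)) (root : Reg → ℤ) :
    Set (FreeGroup (YK ⊕ Unit)) :=
  FreeGroup.map Sum.inl '' (R ∪ {rootRel root} ∪ ι '' prodRel S S) ∪
    Set.range fun z => (twk YK true)⁻¹ * FreeGroup.map Sum.inl (aa ι true (.of z)) * twk YK true *
      (FreeGroup.map Sum.inl (aa ι false (.of z)))⁻¹

theorem rels_finite [Finite S] (hR : R.Finite) : (rels ι R root).Finite :=
  (((hR.union (Set.finite_singleton _)).union (prodRel_finite.image _)).image _).union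
    (Set.finite_range _)

theorem base_KT (hK : KLayer c k M ι R (πD π) root πK j) {Λ : ℕ} (hι : Lip ι Λ)
    {θ : LT (YK ⊕ Unit)} {L n : ℕ} (h : θ.Closed L) (hR : rels ι R root ⊆ θ.T)
    (hL1 : ex k (n + (tw root).norm) ≤ L)
    (hL2 : Λ * (64 * (c * (n + 1) + 1) * (c * (n + 1) + 1)) ≤ L)
    (hT : ∀ w : FreeGroup S, w.norm ≤ c * (n + 1) → π w = 1 →
      FreeGroup.map Sum.inl (ι (FreeGroup.map Sum.inr w)) ∈ θ.T) :
    (θ.comap (FreeGroup.map Sum.inl)).KT πK n := by
  have h1 : (θ.comap (FreeGroup.map Sum.inl)).Closed L := h.comap (lip_map _) (one_mul L).le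
  have h2 := h1.comap hι hL2
  refine hK.KT _ L n h1 hL1 (fun r hr => hR (Or.inl ⟨r, Or.inl (Or.inl hr), rfl⟩))
    (hR (Or.inl ⟨_, Or.inl (Or.inr rfl), rfl⟩)) ?_
  refine h2.prod_KT (fun r hr => hR (Or.inl ⟨_, Or.inr ⟨r, hr, rfl⟩, rfl⟩)) le_rfl ?_ hT
  rintro w - rfl
  simpa using h.one

theorem inr_mem {K₀ : Type} [Group K₀] {πK₀ : FreeGroup YK →* K₀}
    {j₀ : FreeGroup S × FreeGroup S →* K₀} [Finite S]
    (hK : KLayer c k M ι R (πD (MonoidHom.id _)) root πK₀ j₀)
    (hG : M.Good (FreeGroup.map Sum.inl '' V) root C γ dep) {v : FreeGroup S} (hv : v ∈ V) :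
    FreeGroup.map Sum.inl (ι (FreeGroup.map Sum.inr v)) ∈
      Subgroup.normalClosure (rels ι R root) := by
  obtain ⟨Λ, hι⟩ := exists_lip ι
  set N := Subgroup.normalClosure (rels ι R root)
  let q : FreeGroup (YK ⊕ Unit) →* FreeGroup (YK ⊕ Unit) ⧸ N := QuotientGroup.mk' N
  let p : FreeGroup YK →* FreeGroup (YK ⊕ Unit) ⧸ N := q.comp (FreeGroup.map Sum.inl)
  have hp : ∀ w w', πK₀ w = πK₀ w' → p w = p w' := fun w w' e => by
    rw [← mul_inv_eq_one, ← map_inv, ← map_mul]
    refine (QuotientGroup.eq_one_iff _).2 (base_KT hK hι (LT.hon_closed N ⊤ le_top _)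
      Subgroup.subset_normalClosure (le_max_left _ _) (le_max_right _ _) ?_ (w * w'⁻¹) le_rfl ?_)
    · rintro w - rfl
      rw [map_one, map_one, map_one]
      exact N.one_mem
    · rw [map_mul, map_inv, e, mul_inv_cancel]
  have hk : ∀ z, (q (twk YK true))⁻¹ * p (aa ι true z) * q (twk YK true) = p (aa ι false z) := by
    have : (MulAut.conj (q (twk YK true))⁻¹).toMonoidHom.comp (p.comp (aa ι true)) =
        p.comp (aa ι false) := by
      refine FreeGroup.ext_hom _ _ fun z => ?_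
      simp only [MonoidHom.comp_apply, MulEquiv.coe_toMonoidHom, MulAut.conj_apply, p]
      have h0 : q _ = 1 :=
        (QuotientGroup.eq_one_iff _).2 (Subgroup.subset_normalClosure (Or.inr ⟨z, rfl⟩))
      rwa [map_mul q, map_mul q, map_mul q, map_inv q, map_inv q, mul_inv_eq_one] at h0
    intro z
    simpa using DFunLike.congr_fun this z
  have h1 := hK.link _ C γ dep hG _ ⟨v, hv, rfl⟩
  rw [← MonoidHom.map_closure] at h1
  obtain ⟨z, hz, h2⟩ := h1
  have h3 : (q (twk YK true))⁻¹ * p z * q (twk YK true) = p z := by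
    clear h2
    induction hz using Subgroup.closure_induction with
    | mem w hw =>
      obtain ⟨o, rfl⟩ := exists_gA hw
      have := hk (.of (.inl o))
      rwa [aa_inl, aa_inl] at this
    | one => simp
    | mul x y _ _ hx hy =>
      rw [map_mul]
      conv_rhs => rw [← hx, ← hy]
      group
    | inv x _ hx =>
      rw [map_inv]
      conv_rhs => rw [← hx]
      group
  have h4 : p z = p (ι (FreeGroup.map Sum.inl v)) := hp _ _ (by rw [h2, hK.π_ι])
  have h5 := hk (FreeGroup.map Sum.inr v)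
  rw [aa_inr, aa_inr] at h5
  have h6 : p (ι (dg S false v)) = p (ι (FreeGroup.map Sum.inl v) * ι (FreeGroup.map Sum.inr v)) :=
    hp _ _ (by
      rw [← map_mul, hK.π_ι, hK.π_ι, πD_dg_false, map_mul, prodMark_inl, prodMark_inr]; simp)
  rw [h4] at h3
  have h7 := h3.symm.trans (h5.trans h6)
  rw [map_mul, left_eq_mul] at h7
  exact (QuotientGroup.eq_one_iff _).1 h7

end Hig

theorem RF.image {Y Z α : Type} [DecidableEq Y] [DecidableEq Z] [Fintype Y] [Primcodable Y]
    [Fintype Z] [Primcodable Z] [Primcodable α] {V : α → Set (FreeGroup Z)} (h : RF V)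
    (ι : FreeGroup Z →* FreeGroup Y) : RF fun a => ι '' V a := by
  obtain ⟨p, hp, h⟩ := h
  have h1 := RF.range ((CF.mk (Computable.snd (α := α) (β := Wd Z))).hom ι) hp
  convert h1 using 2 with a
  rw [← h a]
  ext w
  constructor
  · rintro ⟨_, ⟨d, hd, rfl⟩, rfl⟩
    exact ⟨d, hd, rfl⟩
  · rintro ⟨d, hd, rfl⟩
    exact ⟨_, ⟨d, hd, rfl⟩, rfl⟩

/-- **Block HIG.**  Alphabet `S ⊕ S`, `D = F(S) × G` marked by `prodMark (id) π`, machine `M` for
`S ⊕ S` and `V' = map inl '' V` (`exists_RM` with `p` independent of `e`), `K`, `πK`, `j` from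
`exists_Klayer`.  `J₁ = ⊤.prod ⊥`, `J₂ = graph π`, `α₁ (b, 1) = (b, π b)`, `α₂` its inverse; both fix
`V'`.  `transport` gives `F₁ : subA J₁ → K`, `F₂ : subA J₂ → K`, mutually inverse (check on
generators).  `G⁺ = MHD` over `K` with letters `Bool`, `bar = not`, `H true = subA J₁`, `φ true = F₁`,
…; marking on `YK ⊕ Unit`; `f = of ∘ j ∘ inr`.  Relators: `R`, `rootRel`, `ι (prodRel)`,
`k⁻¹ y k = y` (`y ∈ genA`), `k⁻¹ ι(inl b) k = ι(inl b) ι(inr b)`.
* LOCALITY: put `a₁, a₂ : F(genA ⊕ S) → F(YK)`, `a₁ (inr b) = ι (inl b)`, `a₂ (inr b) = ι (inl b) ι (inr b)`.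
  `witness` + `KLayer.KM` (honest `T`; a word of `F(S ⊕ S)` with value in `Jᵢ` has the witness
  `map inr (prL w)`) bound the distortion of `subA Jᵢ` by an elementary `δ`.  `RepSys`: pairs
  `(w, n)` with `‖w‖ ≤ F n`, `F 0 = 0`, `F (n+1) = 2 F n + Λ δ(F n) + 1` (computable, superadditive);
  pinch: `w ≈ a₁ z` by `KLayer.KT`, `k⁻¹ a₁(z) k ≈ a₂ z` by `Closed.transfer`.  So every `θ` closed at
  a computable scale that contains the relators and `ι (map inr w)` for the short `w` with `π w = 1`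
  knows the trivial words (`prod_KT`; the first factor is free: `KT` is trivial).
* PRESENTATION: let `N` be the normal closure of the relators.  Apply `exists_Klayer` also to
  `D₀ = F(S) × F(S)` (same `ι`, `R`): `KT` for the honest theory gives `ker πK₀ ≤ N`, `link` gives
  `ι (inl v) ≡ z(genA) mod N` for `v ∈ V`, so `k` commutes with `ι (inl v)` and
  `k⁻¹ ι(inl v) k ≡ ι(inl v) ι(inr v)`, hence `ι (inr v) ∈ N`; then locality for `LT.hon N ⊤`.
* DECIDABILITY: `decide_of_local`, `CL.ball`. -/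
theorem higman {S : Type} [Fintype S] [DecidableEq S] [Primcodable S] {G : Type} [Group G]
    (π : FreeGroup S →* G) (hπ : Surjective π) (V : Set (FreeGroup S)) (hV : RF fun _ : ℕ => V)
    (hker : Subgroup.closure V = π.ker) :
    ∃ (Y : Type) (_ : Fintype Y) (_ : DecidableEq Y) (_ : Primcodable Y) (G' : Type) (_ : Group G')
      (π' : FreeGroup Y →* G') (f : G →* G') (R : Set (FreeGroup Y)),
      Surjective π' ∧ Injective f ∧ R.Finite ∧ Subgroup.normalClosure R = π'.ker ∧
      (ComputablePred (fun d : Wd S => π (.mk d) = 1) →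
        ComputablePred fun d : Wd Y => π' (.mk d) = 1) := by
  obtain ⟨M, root, -, hM⟩ := exists_RM (S ⊕ S)
  obtain ⟨p, hp, hpV⟩ := hV.image (FreeGroup.map (Sum.inl : S → S ⊕ S))
  obtain ⟨e, C, γ, dep, hG⟩ := hM p hp
  rw [hpV e] at hG
  obtain ⟨c, hc⟩ := exists_Klayer
  obtain ⟨ι, R, k, hR, hK⟩ := hc (S ⊕ S) M
  set rt : Reg → ℤ := fun i => (root e i : ℤ)
  obtain ⟨K₀, _, πK₀, j₀, hK₀⟩ := hK _ (Hig.πD (MonoidHom.id _))
    (prodMark_surjective surjective_id surjective_id) rt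
  obtain ⟨K, _, πK, j, hK⟩ := hK _ (Hig.πD π) (prodMark_surjective surjective_id hπ) rt
  have hV1 : ∀ v ∈ V, π v = 1 := fun v hv => (hker ▸ Subgroup.subset_closure hv : v ∈ π.ker)
  have hb := Hig.ker_eq hK hG hV1
  obtain ⟨Λι, hι⟩ := exists_lip ι
  obtain ⟨Λ₁, h₁⟩ := exists_lip (Hig.aa ι true)
  obtain ⟨Λ₂, h₂⟩ := exists_lip (Hig.aa ι false)
  have ha : ∀ e, Lip (Hig.aa ι e) (Λ₁ + Λ₂) := by
    rintro (_ | _) z
    · exact (h₂ z).trans (Nat.le_add_left _ _)
    · exact (h₁ z).trans (Nat.le_add_right _ _)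
  obtain ⟨k₁, hk₁⟩ := ((((Elem.const 2).mul Elem.id).add ((Elem.const (Λ₁ + Λ₂ + 1)).mul
    (Hig.elem_dist c k (tw rt).norm))).add (Elem.const 1))
  have hlin : Elem fun n => c * (n + 1) + 1 :=
    ((Elem.const c).mul (Elem.id.add (Elem.const 1))).add (Elem.const 1)
  obtain ⟨k₂, hk₂⟩ := ((((Elem.const 16).mul (Elem.id.add (Elem.const 1))).mul
    ((Elem.id.add (Elem.const (Λ₁ + Λ₂))).add (Elem.const 2))).add
    ((Elem.id.add (Elem.const (tw rt).norm)).ex k)).add
    ((Elem.const Λι).mul (((Elem.const 64).mul hlin).mul hlin))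
  let F : ℕ → ℕ := fun n => ex (n * k₁) 0
  let π' := twMark (fun e => πK.comp (Hig.aa ι e)) hb πK
  have hloc : ∀ m (θ : LT (YK ⊕ Unit)), θ.Closed (ex k₂ (F m)) → Hig.rels ι R rt ⊆ θ.T →
      (∀ w : FreeGroup S, w.norm ≤ c * (F m + 1) → π w = 1 →
        FreeGroup.map Sum.inl (ι (FreeGroup.map Sum.inr w)) ∈ θ.T) → θ.KT π' m := by
    intro m θ h hR' hT
    have h2 := hk₂ (F m)
    dsimp only at h2
    refine tw_KT hb ha (Hig.distortion hK hG hV1) (F := F) (by simp [F, ex]) (fun n => ?_) h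
      (by omega) (fun z => hR' (Or.inr ⟨z, rfl⟩)) (Hig.base_KT hK hι h hR' (by omega) (by omega) hT)
    have := hk₁ (F n)
    simp only [F] at this ⊢
    rwa [Nat.succ_mul n, add_comm (n * k₁), ex_add]
  have htrue : ∀ w ∈ Hig.rels ι R rt, π' w = 1 := by
    rintro _ (⟨w, hw, rfl⟩ | ⟨z, rfl⟩)
    · have : πK w = 1 := by
        rcases hw with (hw | rfl) | ⟨r, hr, rfl⟩
        · exact hK.rel w hw
        · exact hK.root_rel
        · rw [hK.π_ι, prodMark_rel _ _ r hr, map_one]
      rw [twMark_inl, this, map_one]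
    · have := twD_conj (fun e => πK.comp (Hig.aa ι e)) hb (.of z)
      simp only [map_mul, map_inv, π', twMark_inl, twk, if_true, twMark_inr, mul_inv_eq_one]
      exact this
  let _ : Primcodable (YK ⊕ Unit) := Primcodable.ofEquiv _ (Fintype.equivFin _)
  refine ⟨YK ⊕ Unit, inferInstance, inferInstance, inferInstance, _, inferInstance, π',
    ((twD _ hb).of.comp j).comp (MonoidHom.inr _ _), Hig.rels ι R rt,
    twMark_surjective _ hb πK hK.surj,
    ((twD _ hb).of_injective.comp hK.inj).comp (Prod.mk_right_injective 1), Hig.rels_finite hR,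
    le_antisymm (Subgroup.normalClosure_le_normal htrue) fun w hw => ?_, fun hdec => ?_⟩
  · refine hloc w.norm _ (LT.hon_closed _ ⊤ le_top _) Subgroup.subset_normalClosure
      (fun u _ hu => ?_) w le_rfl hw
    have : π.ker ≤ (Subgroup.normalClosure (Hig.rels ι R rt)).comap
        (((FreeGroup.map Sum.inl).comp ι).comp (FreeGroup.map Sum.inr)) := by
      rw [← hker, Subgroup.closure_le]
      exact fun v hv => Hig.inr_mem hK₀ hG hv
    exact this hu
  · have hF : Primrec F :=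
      primrec_ex.comp (Primrec.nat_mul.comp Primrec.id (Primrec.const k₁)) (Primrec.const 0)
    refine decide_of_local π' (primrec_ex.comp (Primrec.const k₂) hF).to_comp
      ((CL.const (Hig.rels_finite (ι := ι) (root := rt) hR)).union
        ((CL.ball (q := fun w => π w = 1) hdec (Primrec.nat_mul.comp (Primrec.const c)
          (Primrec.succ.comp hF)).to_comp).image
          (((FreeGroup.map Sum.inl).comp ι).comp (FreeGroup.map Sum.inr)))) ?_ ?_
    · rintro m _ (hw | ⟨w, hw, rfl⟩)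
      · exact htrue _ hw
      · simp only [MonoidHom.comp_apply, π', twMark_inl, hK.π_ι, prodMark_inr, hw.2]
        rw [← Prod.one_eq_mk, map_one, map_one]
    · exact fun m θ h hT => hloc m θ h (fun w hw => hT (Or.inl hw))
        fun w h1 h2 => hT (Or.inr ⟨w, ⟨h1, h2⟩, rfl⟩)

end Crest.Agent.R185
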