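import Crest.Agent.R185.KKM

/-!
# Row 185, core: the machine layer (interface theorem)
-/

set_option autoImplicit false

namespace Crest.Agent.R185

open Function

/-- **Block K.**  `c` is ABSOLUTE.  Plan.
* `B° = D * F(t_ω : ω ∈ ℤ⁸)` = `(MHD.cent fun _ : Reg → ℤ => ⊥).G` (reduced words are unique:
  `sl_of_ev_eq`, `eq_of_sl_bot`); `𝔅 = B° ⋊ ℤ⁸` (translations of the index, trivial on `D`);
  `K` = `MHD` over `𝔅` with letters `(Ty ⊕ Unit) × Bool`.  For a type `ty`:
  `H = {(b, λ) | b ∈ sub D (dom ty), λ ∈ ⊕ domᵢ ℤ}`, `dom ty` = union of the domains of the rules of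
  this type, `φ` fixes `D`, `t_ω ↦ t_ω' π(volt)`, `dom • z ↦ ran • z` (note `domᵢ = 0 ↔ ranᵢ = 0`;
  `sub_lift` or a global endomorphism of `B°` that is junk outside of the domain); the inverse
  letter uses ranges, `t_ω' ↦ t_ω π(volt)⁻¹`.  The letter `f` is the same with the "rules"
  `t_{q s} ↦ t_{q s} π(s)` of type `zero⁸`, `q : S ↪ ℤ⁸`; `ι s = (tw (q s))⁻¹ f⁻¹ tw (q s) f`.
  `R`: `[aᵢ, aⱼ]`, `[aᵢ, ι s]`, `[r, ι s]`, `[f, ι s]`, `r⁻¹ aᵢ ^ domᵢ r = aᵢ ^ ranᵢ`,
  `r⁻¹ tw a r = tw a' * ι volt` (one per rule).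
* `KT`: pass to `θ.sound`, pull `θ` back to the alphabet `S ⊕ YK` along `Sum.elim ι of` (Tietze),
  so that the letters of `S` have norm 1.  `RepSys` of `𝔅`: `(d₀, [(ω, ±, d)], λ)`, a REDUCED list
  for `B°` with words `d ∈ F(S)`; size `≤ n` means: every syllable has norm `≤ n`, length `≤ n`,
  history coordinates `|ω 1|, |λ 1| ≤ (m + 1) ^ n - 1` (`root 1 = 0`, choose `q s 1 = 0`; for `KT`,
  where `Good` is not available, this clause is not needed: make it conditional on `root 1 = 0` or
  bound `|ω 1|` by `((m + 1) ^ n - 1) (|root 1| + 1)`), all coordinates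
  `≤ ((m + 1) ^ n - 1) (‖root‖ + |S| + 1)`.
  Product: translate, cancel at the junction (`d d' = 1` is a `T`-fact of radius `n + n'`; the
  surviving merged syllable is a product of ONE syllable of each factor).  Pinch: every syllable
  gets at most two new voltage letters, reducedness is preserved.
* gauge: `Θ : t_ω ↦ s_ω = t_ω π(γ ω)` (`ω ∈ C`), identity on `D` and on the other `t_ω`;
  `A₀(J) = Θ(sub J C)` (embedded with `λ = 0`) is good for all rule letters (`step_mem`, `step_γ`;
  `A₀ ∩ H` is generated by `J` and the `s_ω`, `ω ∈ C ∩ dom`), so `subA = sub A₀ {rule letters}`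
  (`pred`: `s_ω ∈ closure genA` by induction on `dep`; `link` follows), `inter` by
  `of_mem_sub_iff` twice, `faith` with `g = t_ω`, `ω ∉ C`, `transport` by `sub_lift` twice
  (`s_ω ↦ s_ω`, `J ∋ d ↦ α d`, rule letters fixed).
* `KM`: core = right cosets `A₀ \ 𝔅`, `st e (A₀ h) (A₀ φ_e h)` for rule letters only; `subA ≤ stab`;
  `RepSys.scan` with point representatives = representatives of `𝔅` of size `≤ n`.  Step: if
  `b ∈ A₀ H_e`, cut the reduced list of `b` after its last letter outside of `dom e`; in the gauge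
  coordinates the first part is a prefix of the reduced word of an element of `sub J C`, so its
  letters are in `C` and its gauge syllables `γ^∓ d γ^±` are in `J`: `M`-facts of radius
  `n + 2 dep`, where `‖γ ω‖ ≤ dep ω ≤ 2 n + 1` since `|ω 1| < (m + 1) ^ n ≤ m ^ (2 n)`: LINEAR in
  `n` with an absolute constant; `tw ω * ι (γ ω) ∈ θ.M` by induction on `dep` (the predecessors
  have elementary size). -/
theorem exists_Klayer : ∃ c : ℕ, ∀ (S : Type) [Fintype S] [DecidableEq S] (M : RM S),
    ∃ (ι : FreeGroup S →* FreeGroup YK) (R : Set (FreeGroup YK)) (k : ℕ), R.Finite ∧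
      ∀ (D : Type) [Group D] (π : FreeGroup S →* D), Surjective π → ∀ root : Reg → ℤ,
        ∃ (K : Type) (_ : Group K) (πK : FreeGroup YK →* K) (j : D →* K),
          KLayer c k M ι R π root πK j := by
  refine ⟨10, fun S _ _ M => ?_⟩
  obtain ⟨Λ, hΛ⟩ := exists_lip (KL.io S)
  let f : ℕ → ℕ := fun ν =>
    Λ + (M.m + Fintype.card S) + 10 * (ν + 1) + (M.m + 1) ^ (10 * (ν + 1)) * (ν + 1)
  have e1 : Elem fun ν => ν + 1 := Elem.id.add (Elem.const 1)
  have e2 : Elem fun ν => 10 * (ν + 1) := (Elem.const 10).mul e1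
  obtain ⟨k, hk⟩ := KL.elem_lev (f := f)
    (((Elem.const _).add e2).add (((Elem.const _).pow e2).mul e1)) 40
  refine ⟨KL.io S, KL.RK M, k, KL.RK_finite M, fun D _ π hπ root =>
    ⟨KL.KG M π, inferInstance, KL.πK M π root, KL.jK M π, ?_⟩⟩
  have ctx : ∀ (θ : LT YK) (L m : ℕ), θ.Closed L → ex k (m + (tw root).norm) ≤ L →
      KL.RK M ⊆ θ.T → rootRel root ∈ θ.T → (θ.comap (KL.io S)).KT π (10 * (m + 1)) →
      KL.Ctx M π root (θ.sound (KL.πK M π root)) L (f (m + (tw root).norm)) (10 * (m + 1)) := by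
    intro θ L m h1 h2 h3 h4 h5
    refine
      { cl := h1.sound _
        le := (hk _).trans h2
        rel := fun w hw => ⟨h3 hw, KL.πK_rel M π root w hw⟩
        lip := fun s => (hΛ s).trans (by simp only [f]; omega)
        cst := by simp only [f]; omega
        snd := fun w hw => hw.2
        rho := ⟨h4, KL.πK_root M π root⟩
        kt := fun w hw hw' => ⟨h5 w hw hw', by rw [KL.πK_io, hw', map_one]⟩
        N_le := by simp only [f]; omega
        box := fun i => ?_ }
    have a1 := KL.abs_le_norm_tw root i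
    have a2 : ((M.m : ℤ) + 1) ^ (10 * (m + 1)) ≤
        ((M.m : ℤ) + 1) ^ (10 * (m + (tw root).norm + 1)) :=
      pow_le_pow_right₀ (by omega) (by omega)
    have a3 : ((M.m : ℤ) + 1) ^ (10 * (m + 1)) * (|root i| + 1) ≤
        ((M.m : ℤ) + 1) ^ (10 * (m + (tw root).norm + 1)) * (m + (tw root).norm + 1) :=
      mul_le_mul a2 (by omega) (by positivity) (by positivity)
    refine a3.trans ?_
    simp only [f]
    push_cast
    omega
  exact
    { surj := KL.πK_surjective M π root hπ
      inj := KL.jK_injective M π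
      π_ι := KL.πK_io M π root
      rel := KL.πK_rel M π root
      root_rel := KL.πK_root M π root
      rho := KL.πK_rho0 M π root
      KT := fun θ L m h1 h2 h3 h4 h5 w hw hw' =>
        ((ctx θ L m h1 h2 h3 h4 h5).KT w (by omega) hw').1
      link := fun _ _ _ _ hG => KL.K_link hG
      inter := fun _ _ _ _ hG _ hJ => KL.K_inter hG hJ
      faith := fun _ _ _ _ hG _ hJ => KL.K_faith hG hJ
      KM := fun _ _ _ _ hG _ hJ θ L m h1 h2 h3 h4 h5 h6 h7 =>
        (ctx θ L m h1 h2 h3 h4 h5).KM hG h6 h7 hJ (by omega)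
      transport := fun _ _ _ _ hG J α hV hα => KL.K_transport hG J α hV hα }

end Crest.Agent.R185
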