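import Mathlib

/-!
# Row 185, core: reversible register machines with voltages (definitions)

A configuration is `ω : Reg → ℤ`.  A rule `ρ` of type `ty` maps `a + dom • z ↦ a' + ran • z`
(coordinatewise, the moduli `dom`, `ran ∈ {0, 1, m}` depend only on the type) and emits the
voltage `ρ.volt`.  Rules of the same type have disjoint domains and disjoint ranges.
The numbers of registers and of types are ABSOLUTE constants.
-/

set_option autoImplicit false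

namespace Crest.Agent.R185

/-- the operations on one register -/
inductive Op
  | keep | push | pop | test | zero
  deriving DecidableEq, Fintype

/-- modulus of the domain -/
def Op.dom (m : ℕ) : Op → ℤ
  | .keep => 1 | .push => 1 | .pop => m | .test => m | .zero => 0

/-- modulus of the range -/
def Op.ran (m : ℕ) : Op → ℤ
  | .keep => 1 | .push => m | .pop => 1 | .test => m | .zero => 0

/-- registers (e.g. state, history, four stacks, two spare ones) -/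
abbrev Reg : Type := Fin 8

/-- types of rules: the operations and a colour -/
abbrev Ty : Type := (Reg → Op) × Fin 4

/-- a rule -/
structure Rule (S : Type) where
  ty : Ty
  a : Reg → ℤ
  a' : Reg → ℤ
  volt : FreeGroup S

/-- `ρ` maps `ω` to `ω'` -/
def Rule.Step {S : Type} (m : ℕ) (ρ : Rule S) (ω ω' : Reg → ℤ) : Prop :=
  ∃ z : Reg → ℤ, (∀ i, ω i = ρ.a i + (ρ.ty.1 i).dom m * z i) ∧
    ∀ i, ω' i = ρ.a' i + (ρ.ty.1 i).ran m * z i

/-- a machine -/
structure RM (S : Type) [DecidableEq S] where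
  m : ℕ
  two_le : 2 ≤ m
  rules : Set (Rule S)
  fin : rules.Finite
  volt_le : ∀ ρ ∈ rules, ρ.volt.norm ≤ 1
  a_le : ∀ ρ ∈ rules, ∀ i, |ρ.a i| ≤ m ∧ |ρ.a' i| ≤ m
  dom_disj : ∀ ρ ∈ rules, ∀ ρ' ∈ rules, ρ.ty = ρ'.ty → ∀ ω ω₁ ω₂,
    ρ.Step m ω ω₁ → ρ'.Step m ω ω₂ → ρ = ρ'
  ran_disj : ∀ ρ ∈ rules, ∀ ρ' ∈ rules, ρ.ty = ρ'.ty → ∀ ω₁ ω₂ ω,
    ρ.Step m ω₁ ω → ρ'.Step m ω₂ ω → ρ = ρ'

/-- The component `C` of `root`, a gauge `γ` on it and a depth function: the configuration graph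
on `C` is a tree (edges with `γ ω' = volt * γ ω`) plus *links* (edges without voltage with
`γ ω = 1`, `γ ω' ∈ V`), and every element of `V` is realised by a link.  The depth is bounded by
the length of the register `1` (the history), which is `0` at the root. -/
structure RM.Good {S : Type} [DecidableEq S] (M : RM S) (V : Set (FreeGroup S)) (root : Reg → ℤ)
    (C : Set (Reg → ℤ)) (γ : (Reg → ℤ) → FreeGroup S) (dep : (Reg → ℤ) → ℕ) : Prop where
  root_mem : root ∈ C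
  γ_root : γ root = 1
  root_hist : root 1 = 0
  step_mem : ∀ ρ ∈ M.rules, ∀ ω ω', ρ.Step M.m ω ω' → (ω ∈ C ↔ ω' ∈ C)
  step_γ : ∀ ρ ∈ M.rules, ∀ ω ω', ρ.Step M.m ω ω' → ω ∈ C →
    γ ω' = ρ.volt * γ ω ∨ (ρ.volt = 1 ∧ γ ω = 1 ∧ γ ω' ∈ V)
  link : ∀ d ∈ V, ∃ ρ ∈ M.rules, ∃ ω ω', ρ.Step M.m ω ω' ∧ ω ∈ C ∧ ρ.volt = 1 ∧ γ ω = 1 ∧ γ ω' = d
  pred : ∀ ω' ∈ C, ω' = root ∨ ∃ ρ ∈ M.rules, ∃ ω, ρ.Step M.m ω ω' ∧ γ ω' = ρ.volt * γ ω ∧
    dep ω < dep ω'
  dep_le : ∀ ω ∈ C, ∀ n : ℕ, |ω 1| < (M.m : ℤ) ^ n → dep ω ≤ n + 1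
  out : ∃ ω, ω ∉ C

end Crest.Agent.R185
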