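import Crest.Agent.R185.CRep
import Crest.Agent.R185.CRMDefs

/-!
# Row 185, core: the machine layer `D ↦ K` (interface definitions)
-/

set_option autoImplicit false

namespace Crest.Agent.R185

open Function

/-- the ABSOLUTE alphabet of the machine group: translations `aᵢ`, one letter per type of rules,
and `t = 0`, `f = 1`, `ρ = 2` -/
abbrev YK : Type := Reg ⊕ Ty ⊕ Fin 3

/-- `a ^ ω` -/
def latw (ω : Reg → ℤ) : FreeGroup YK :=
  ((List.finRange 8).map fun i : Reg => (FreeGroup.of (Sum.inl i) : FreeGroup YK) ^ ω i).prod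

/-- `t_ω = a ^ ω t a ^ (-ω)` -/
def tw (ω : Reg → ℤ) : FreeGroup YK := latw ω * .of (.inr (.inr 0)) * (latw ω)⁻¹

/-- `ρ = t_root` -/
def rootRel (ω : Reg → ℤ) : FreeGroup YK := .of (.inr (.inr 2)) * (tw ω)⁻¹

/-- the rule letters and `ρ` -/
def genA : Set (FreeGroup YK) :=
  {w | (∃ ty : Ty, w = .of (.inr (.inl ty))) ∨ w = .of (.inr (.inr 2))}

/-- `[a₀, a₁]` -/
def rho0 : FreeGroup YK :=
  .of (.inl 0) * .of (.inl 1) * (FreeGroup.of (.inl 1) * FreeGroup.of (.inl 0))⁻¹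

/-- `A(J) = ⟨rules, root, J⟩` -/
def subA {D K : Type} [Group D] [Group K] (πK : FreeGroup YK →* K) (j : D →* K) (J : Subgroup D) :
    Subgroup K := Subgroup.closure (πK '' genA ∪ j '' J)

/-- the properties of the machine group `K` over `D` -/
structure KLayer {S D K : Type} [DecidableEq S] [Group D] [Group K] (c k : ℕ) (M : RM S)
    (ι : FreeGroup S →* FreeGroup YK) (R : Set (FreeGroup YK)) (π : FreeGroup S →* D)
    (root : Reg → ℤ) (πK : FreeGroup YK →* K) (j : D →* K) : Prop where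
  surj : Surjective πK
  inj : Injective j
  π_ι : ∀ w, πK (ι w) = j (π w)
  rel : ∀ r ∈ R, πK r = 1
  root_rel : πK (rootRel root) = 1
  rho : πK rho0 = 1
  KT : ∀ (θ : LT YK) (L m : ℕ), θ.Closed L → ex k (m + (tw root).norm) ≤ L → R ⊆ θ.T →
    rootRel root ∈ θ.T → (θ.comap ι).KT π (c * (m + 1)) → θ.KT πK m
  link : ∀ V C γ dep, M.Good V root C γ dep → ∀ v ∈ V, j (π v) ∈ Subgroup.closure (πK '' genA)
  inter : ∀ V C γ dep, M.Good V root C γ dep → ∀ J : Subgroup D, (∀ v ∈ V, π v ∈ J) →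
    ∀ d, j d ∈ subA πK j J ↔ d ∈ J
  faith : ∀ V C γ dep, M.Good V root C γ dep → ∀ J : Subgroup D, (∀ v ∈ V, π v ∈ J) →
    ∃ g : K, ∀ d, d ≠ 1 → g⁻¹ * j d * g ∉ subA πK j J
  KM : ∀ V C γ dep, M.Good V root C γ dep → ∀ J : Subgroup D, (∀ v ∈ V, π v ∈ J) →
    ∀ (θ : LT YK) (L m : ℕ), θ.Closed L → ex k (m + (tw root).norm) ≤ L → R ⊆ θ.T →
      rootRel root ∈ θ.T → (θ.comap ι).KT π (c * (m + 1)) → genA ⊆ θ.M →
      (θ.comap ι).KM π J (c * (m + 1)) → θ.KM πK (subA πK j J) m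
  transport : ∀ V C γ dep, M.Good V root C γ dep → ∀ (J : Subgroup D) (α : J →* D)
    (hV : ∀ v ∈ V, π v ∈ J), (∀ v (hv : v ∈ V), α ⟨π v, hV v hv⟩ = π v) →
    ∃ F : subA πK j J →* K, (∀ w ∈ genA, ∀ h, F ⟨πK w, h⟩ = πK w) ∧
      ∀ (d : J) h, F ⟨j d, h⟩ = j (α d)

end Crest.Agent.R185
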