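import Crest.Agent.R185.CMag

/-!
# Row 185, core: the layer `A ↦ M(A)` (interface)
-/

set_option autoImplicit false

namespace Crest.Agent.R185

open Function

/-- **Block M (helper4).**  `c` is ABSOLUTE (independent of `Y`), `k`, `Z`, `d`, `R` depend on `Y`
only.  Suggested model: ONE `MHD` layer over `GP9(A) × A` (product layer `prodMark`), `Δ` = last
factor, letters `t` (`W × 1 → graph χ`) and `s_ij` (`1 × A → x_ij(A) × 1`, so that the relators of
all the copies follow from those of the `Δ`-copy by `Closed.transfer`).  Representatives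
`(piling w, word a)` with size `max (total A-length of w) (norm a)`: products are subadditive and
no pinch increases the size (`|χ w| ≤` total `A`-length of the normal form of `w ∈ W`), so
`RepSys.rep` applies with a linear radius.  Membership in `J.map Δ`: the reduced list is empty,
the piling is trivial, `a ∈ J`. -/
theorem exists_Mlayer : ∃ c : ℕ, ∀ (Y : Type) [Fintype Y] [DecidableEq Y],
    ∃ (Z : Type) (_ : Fintype Z) (_ : DecidableEq Z) (d : FreeGroup Y →* FreeGroup Z)
      (R : Set (FreeGroup Z)) (k : ℕ), R.Finite ∧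
      ∀ (A : Type) [Group A] (π : FreeGroup Y →* A), Surjective π →
        ∃ (M : Type) (_ : Group M) (π' : FreeGroup Z →* M) (Δ : A →* M),
          Surjective π' ∧ Injective Δ ∧ Killed Δ ∧ (∀ w, π' (d w) = Δ (π w)) ∧
          (∀ r ∈ R, π' r = 1) ∧
          ∀ (θ : LT Z) (L m : ℕ), θ.Closed L → ex k m ≤ L → R ⊆ θ.T →
            (θ.comap d).KT π (c * (m + 1)) → θ.KT π' m ∧
              ∀ J : Subgroup A, (θ.comap d).KM π J (c * (m + 1)) → θ.KM π' (J.map Δ) m := by
  obtain ⟨k, hk⟩ : Elem fun m => 4000 * (m + 1) * (m + 1) :=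
    ((Elem.const _).mul (Elem.id.add (Elem.const 1))).mul (Elem.id.add (Elem.const 1))
  refine ⟨6, fun Y _ _ => ⟨YM Y, inferInstance, inferInstance, magIota, magRel Y, k, magRel_finite,
    fun A _ π hπ => ⟨Mag A, inferInstance, magMark π, magDelta, magMark_surjective hπ,
      magDelta_injective, killed_magDelta, magMark_iota π, magMark_rel π,
      fun θ L m h hL hR hT => ⟨h.mag_KT hπ hR ((hk m).trans hL) hT, fun J hJ =>
        h.mag_KM hπ hR ((hk m).trans hL) hT (hJ.mono (by omega))⟩⟩⟩⟩

end Crest.Agent.R185
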