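import Mathlib

/-!
# Row 185, core: local theories

A *local theory* on the free group `F(Y)` is a pair of sets `T` ("trivial words") and `M` ("words in
the subgroup").  It is *closed at scale `L`* when the rules of a normal subgroup contained in a
subgroup can be applied to words of norm `≤ L`.  A *locality lemma* for a marked group
`π : F(Y) → G` with subgroup `H` says: every theory closed at scale `ex k m` that contains finitely
many relators and the true facts of a lower group of radius `c (m+1)` contains the true facts of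
radius `m`.  Applied to the honest theory (`LT.hon`) it gives a presentation, applied to the least
closed theory it gives an algorithm.
-/

set_option autoImplicit false

namespace Crest.Agent.R185

open FreeGroup hiding map_mul map_inv map_one

set_option linter.unusedSectionVars false

theorem nmul {Y : Type} [DecidableEq Y] (a b : FreeGroup Y) : (a * b).norm ≤ a.norm + b.norm :=
  FreeGroup.norm_mul_le a b

/-! ### elementary bounds -/

/-- towers of exponentials -/
def ex : ℕ → ℕ → ℕ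
  | 0, m => m
  | k + 1, m => 2 ^ ex k m

theorem ex_succ (k m : ℕ) : ex (k + 1) m = 2 ^ ex k m := rfl

theorem ex_add (j k m : ℕ) : ex (j + k) m = ex j (ex k m) := by
  induction j with
  | zero => simp [ex]
  | succ j ih => rw [Nat.succ_add, ex_succ, ex_succ, ih]

theorem ex_mono (k : ℕ) {m n : ℕ} (h : m ≤ n) : ex k m ≤ ex k n := by
  induction k with
  | zero => exact h
  | succ k ih => exact Nat.pow_le_pow_right two_pos ih

theorem ex_lt_succ (k m : ℕ) : ex k m < ex (k + 1) m := Nat.lt_two_pow_self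

theorem ex_mono_left {j k : ℕ} (h : j ≤ k) (m : ℕ) : ex j m ≤ ex k m :=
  monotone_nat_of_le_succ (f := fun k => ex k m) (fun k => (ex_lt_succ k m).le) h

theorem le_ex (k m : ℕ) : m ≤ ex k m := ex_mono_left (Nat.zero_le k) m

theorem add_le_ex (k m : ℕ) : m + k ≤ ex k m := by
  induction k with
  | zero => exact le_rfl
  | succ k ih => exact Nat.succ_le_of_lt (lt_of_le_of_lt ih (ex_lt_succ k m))

/-- bounded by a tower of fixed height -/
def Elem (f : ℕ → ℕ) : Prop := ∃ k, ∀ m, f m ≤ ex k m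

theorem Elem.of_le {f g : ℕ → ℕ} (hg : Elem g) (h : ∀ m, f m ≤ g m) : Elem f :=
  hg.imp fun _ hk m => (h m).trans (hk m)

theorem Elem.id : Elem fun m => m := ⟨0, fun _ => le_rfl⟩

theorem Elem.const (c : ℕ) : Elem fun _ => c := ⟨c, fun m => le_of_add_le_right (add_le_ex c m)⟩

theorem Elem.ex (k : ℕ) {f : ℕ → ℕ} (hf : Elem f) : Elem fun m => ex k (f m) := by
  obtain ⟨j, hj⟩ := hf
  exact ⟨k + j, fun m => by rw [ex_add]; exact ex_mono k (hj m)⟩

theorem Elem.two_pow {f : ℕ → ℕ} (hf : Elem f) : Elem fun m => 2 ^ f m := hf.ex 1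

theorem Elem.add {f g : ℕ → ℕ} (hf : Elem f) (hg : Elem g) : Elem fun m => f m + g m := by
  obtain ⟨j, hj⟩ := hf
  obtain ⟨k, hk⟩ := hg
  refine ⟨max j k + 1, fun m => ?_⟩
  have h1 := (hj m).trans (ex_mono_left (le_max_left j k) m)
  have h2 := (hk m).trans (ex_mono_left (le_max_right j k) m)
  have h3 : ∀ x : ℕ, 2 * x ≤ 2 ^ x := fun x => by
    cases x with
    | zero => simp
    | succ x => rw [pow_succ, mul_comm]; exact Nat.mul_le_mul_right 2 Nat.lt_two_pow_self
  have := h3 (R185.ex (max j k) m)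
  rw [ex_succ]
  show f m + g m ≤ _
  omega

theorem Elem.mul {f g : ℕ → ℕ} (hf : Elem f) (hg : Elem g) : Elem fun m => f m * g m :=
  (hf.add hg).two_pow.of_le fun m => by
    rw [pow_add]; exact Nat.mul_le_mul Nat.lt_two_pow_self.le Nat.lt_two_pow_self.le

theorem Elem.pow {f g : ℕ → ℕ} (hf : Elem f) (hg : Elem g) : Elem fun m => f m ^ g m :=
  (hf.mul hg).two_pow.of_le fun m => by
    rw [pow_mul]; exact Nat.pow_le_pow_left Nat.lt_two_pow_self.le _

theorem Elem.comp {f g : ℕ → ℕ} (hf : Elem f) (hg : Elem g) : Elem fun m => f (g m) := by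
  obtain ⟨k, hk⟩ := hf
  exact (hg.ex k).of_le fun m => hk _

/-! ### Lipschitz constants -/

section Lip

variable {Y Z : Type} [DecidableEq Y] [DecidableEq Z]

/-- the images of the letters have norm `≤ Λ` -/
def Lip (ι : FreeGroup Z →* FreeGroup Y) (Λ : ℕ) : Prop := ∀ z, (ι (of z)).norm ≤ Λ

theorem norm_mk_hom_le {ι : FreeGroup Z →* FreeGroup Y} {Λ : ℕ} (h : Lip ι Λ)
    (l : List (Z × Bool)) : (ι (mk l)).norm ≤ Λ * l.length := by
  induction l with
  | nil => simp [← one_eq_mk]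
  | cons x l ih =>
    have h1 : (ι (mk [x])).norm ≤ Λ := by
      obtain ⟨z, b⟩ := x
      cases b
      · have : (mk [(z, false)] : FreeGroup Z) = (of z)⁻¹ := by simp [of, invRev]
        rw [this, map_inv, norm_inv_eq]; exact h z
      · exact h z
    rw [show x :: l = [x] ++ l from rfl, ← mul_mk, map_mul]
    refine (nmul _ _).trans ?_
    simp only [List.length_append, List.length_singleton]
    nlinarith

theorem Lip.norm_le {ι : FreeGroup Z →* FreeGroup Y} {Λ : ℕ} (h : Lip ι Λ) (w : FreeGroup Z) :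
    (ι w).norm ≤ Λ * w.norm := by
  conv_lhs => rw [← mk_toWord (x := w)]
  exact norm_mk_hom_le h _

theorem exists_lip [Finite Z] (ι : FreeGroup Z →* FreeGroup Y) : ∃ Λ, Lip ι Λ := by
  obtain ⟨Λ, h⟩ := (Set.finite_range fun z => (ι (of z)).norm).bddAbove
  exact ⟨Λ, fun z => h ⟨z, rfl⟩⟩

theorem lip_map (f : Z → Y) : Lip (map f) 1 := fun z => by simp

theorem norm_map_le (f : Z → Y) (w : FreeGroup Z) : (map f w).norm ≤ w.norm := by
  simpa using (lip_map f).norm_le w

theorem norm_zpow_le (a : FreeGroup Y) (i : ℤ) : (a ^ i).norm ≤ i.natAbs * a.norm := by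
  have h : ∀ n : ℕ, (a ^ n).norm ≤ n * a.norm := fun n => by
    induction n with
    | zero => simp
    | succ n ih => rw [pow_succ, Nat.succ_mul]; exact (nmul _ _).trans (by omega)
  cases i with
  | ofNat n => simpa using h n
  | negSucc n => rw [zpow_negSucc, norm_inv_eq]; simpa using h (n + 1)

theorem norm_prod_le {B : ℕ} (l : List (FreeGroup Y)) (h : ∀ a ∈ l, a.norm ≤ B) :
    l.prod.norm ≤ l.length * B := by
  induction l with
  | nil => simp
  | cons a l ih =>
    rw [List.prod_cons, List.length_cons, Nat.succ_mul]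
    have := ih fun b hb => h b (List.mem_cons_of_mem _ hb)
    have := h a List.mem_cons_self
    exact (nmul _ _).trans (by omega)

end Lip

/-! ### local theories -/

/-- a local theory -/
structure LT (Y : Type) where
  T : Set (FreeGroup Y)
  M : Set (FreeGroup Y)

namespace LT

variable {Y Z : Type} [DecidableEq Y] [DecidableEq Z] {G : Type} [Group G]

/-- closed at scale `L` -/
structure Closed (θ : LT Y) (L : ℕ) : Prop where
  one : 1 ∈ θ.T
  mul : ∀ a b : FreeGroup Y, a.norm ≤ L → b.norm ≤ L → a ∈ θ.T → b ∈ θ.T → a * b ∈ θ.T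
  inv : ∀ a : FreeGroup Y, a.norm ≤ L → a ∈ θ.T → a⁻¹ ∈ θ.T
  conj : ∀ g a : FreeGroup Y, g.norm ≤ L → a.norm ≤ L → a ∈ θ.T → g * a * g⁻¹ ∈ θ.T
  sub : ∀ a : FreeGroup Y, a.norm ≤ L → a ∈ θ.T → a ∈ θ.M
  mulM : ∀ a b : FreeGroup Y, a.norm ≤ L → b.norm ≤ L → a ∈ θ.M → b ∈ θ.M → a * b ∈ θ.M
  invM : ∀ a : FreeGroup Y, a.norm ≤ L → a ∈ θ.M → a⁻¹ ∈ θ.M

/-- `θ` knows the trivial words of norm `≤ m` -/
def KT (θ : LT Y) (π : FreeGroup Y →* G) (m : ℕ) : Prop :=
  ∀ w : FreeGroup Y, w.norm ≤ m → π w = 1 → w ∈ θ.T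

/-- `θ` knows the words in `H` of norm `≤ m` -/
def KM (θ : LT Y) (π : FreeGroup Y →* G) (H : Subgroup G) (m : ℕ) : Prop :=
  ∀ w : FreeGroup Y, w.norm ≤ m → π w ∈ H → w ∈ θ.M

theorem KT.mono {θ : LT Y} {π : FreeGroup Y →* G} {m n : ℕ} (h : θ.KT π n) (hm : m ≤ n) :
    θ.KT π m := fun w hw => h w (hw.trans hm)

theorem KM.mono {θ : LT Y} {π : FreeGroup Y →* G} {H : Subgroup G} {m n : ℕ} (h : θ.KM π H n)
    (hm : m ≤ n) : θ.KM π H m := fun w hw => h w (hw.trans hm)

theorem Closed.mono {θ : LT Y} {L L' : ℕ} (h : θ.Closed L) (hL : L' ≤ L) : θ.Closed L' where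
  one := h.one
  mul a b ha hb := h.mul a b (ha.trans hL) (hb.trans hL)
  inv a ha := h.inv a (ha.trans hL)
  conj g a hg ha := h.conj g a (hg.trans hL) (ha.trans hL)
  sub a ha := h.sub a (ha.trans hL)
  mulM a b ha hb := h.mulM a b (ha.trans hL) (hb.trans hL)
  invM a ha := h.invM a (ha.trans hL)

theorem Closed.oneM {θ : LT Y} {L : ℕ} (h : θ.Closed L) : 1 ∈ θ.M := h.sub 1 (by simp) h.one

/-- pull back along a substitution -/
def comap (θ : LT Y) (ι : FreeGroup Z →* FreeGroup Y) : LT Z := ⟨ι ⁻¹' θ.T, ι ⁻¹' θ.M⟩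

omit [DecidableEq Y] [DecidableEq Z] in
@[simp] theorem mem_comap_T {θ : LT Y} {ι : FreeGroup Z →* FreeGroup Y} {w : FreeGroup Z} :
    w ∈ (θ.comap ι).T ↔ ι w ∈ θ.T := Iff.rfl

omit [DecidableEq Y] [DecidableEq Z] in
@[simp] theorem mem_comap_M {θ : LT Y} {ι : FreeGroup Z →* FreeGroup Y} {w : FreeGroup Z} :
    w ∈ (θ.comap ι).M ↔ ι w ∈ θ.M := Iff.rfl

theorem Closed.comap {θ : LT Y} {L L' Λ : ℕ} (h : θ.Closed L) {ι : FreeGroup Z →* FreeGroup Y}
    (hι : Lip ι Λ) (hL : Λ * L' ≤ L) : (θ.comap ι).Closed L' := by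
  have k : ∀ a : FreeGroup Z, a.norm ≤ L' → (ι a).norm ≤ L := fun a ha =>
    (hι.norm_le a).trans ((Nat.mul_le_mul_left _ ha).trans hL)
  exact
    { one := by simpa using h.one
      mul := fun a b ha hb h1 h2 => by simpa using h.mul _ _ (k a ha) (k b hb) h1 h2
      inv := fun a ha h1 => by simpa using h.inv _ (k a ha) h1
      conj := fun g a hg ha h1 => by simpa using h.conj _ _ (k g hg) (k a ha) h1
      sub := fun a ha h1 => h.sub _ (k a ha) h1
      mulM := fun a b ha hb h1 h2 => by simpa using h.mulM _ _ (k a ha) (k b hb) h1 h2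
      invM := fun a ha h1 => by simpa using h.invM _ (k a ha) h1 }

/-- the honest theory of a normal subgroup contained in a subgroup -/
def hon (N H : Subgroup (FreeGroup Y)) : LT Y := ⟨N, H⟩

theorem hon_closed (N H : Subgroup (FreeGroup Y)) [hN : N.Normal] (h : N ≤ H) (L : ℕ) :
    (hon N H).Closed L where
  one := N.one_mem
  mul _ _ _ _ := N.mul_mem
  inv _ _ := N.inv_mem
  conj g a _ _ ha := hN.conj_mem a ha g
  sub _ _ ha := h ha
  mulM _ _ _ _ := H.mul_mem
  invM _ _ := H.inv_mem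

/-- forget the false statements of `θ.T`: layer lemmas may assume that `θ.T ⊆ ker π` -/
def sound (θ : LT Y) (π : FreeGroup Y →* G) : LT Y := ⟨{w | w ∈ θ.T ∧ π w = 1}, θ.M⟩

theorem Closed.sound {θ : LT Y} {L : ℕ} (h : θ.Closed L) (π : FreeGroup Y →* G) :
    (θ.sound π).Closed L where
  one := ⟨h.one, map_one π⟩
  mul a b ha hb h1 h2 := ⟨h.mul a b ha hb h1.1 h2.1, by rw [map_mul, h1.2, h2.2, one_mul]⟩
  inv a ha h1 := ⟨h.inv a ha h1.1, by rw [map_inv, h1.2, inv_one]⟩
  conj g a hg ha h1 := ⟨h.conj g a hg ha h1.1, by simp [h1.2]⟩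
  sub a ha h1 := h.sub a ha h1.1
  mulM := h.mulM
  invM := h.invM

/-! ### the congruence `a ≈ b` -/

/-- `a ≈ b` -/
def E (θ : LT Y) (a b : FreeGroup Y) : Prop := a * b⁻¹ ∈ θ.T

section E

variable {θ : LT Y} {L B : ℕ} {a b c d g : FreeGroup Y}

theorem norm_div_le (ha : a.norm ≤ B) (hb : b.norm ≤ B) : (a * b⁻¹).norm ≤ 2 * B :=
  (nmul _ _).trans (by rw [norm_inv_eq]; omega)

theorem Closed.refl (h : θ.Closed L) (a : FreeGroup Y) : θ.E a a := by simpa [E] using h.one

theorem Closed.of_eq (h : θ.Closed L) (e : a = b) : θ.E a b := e ▸ h.refl a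

omit [DecidableEq Y] in
theorem E_one : θ.E a 1 ↔ a ∈ θ.T := by simp [E]

omit [DecidableEq Y] in
theorem E.mul_right (h : θ.E a b) (c : FreeGroup Y) : θ.E (a * c) (b * c) := by
  simpa [E, mul_assoc] using h

omit [DecidableEq Y] in
theorem E.eq {π : FreeGroup Y →* G} (hs : ∀ w ∈ θ.T, π w = 1) (h : θ.E a b) : π a = π b := by
  simpa [mul_inv_eq_one] using hs _ h

theorem Closed.symm (h : θ.Closed L) (hL : 2 * B ≤ L) (ha : a.norm ≤ B) (hb : b.norm ≤ B)
    (e : θ.E a b) : θ.E b a := by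
  simpa [E] using h.inv _ ((norm_div_le ha hb).trans hL) e

theorem Closed.trans (h : θ.Closed L) (hL : 2 * B ≤ L) (ha : a.norm ≤ B) (hb : b.norm ≤ B)
    (hc : c.norm ≤ B) (e : θ.E a b) (e' : θ.E b c) : θ.E a c := by
  simpa [E, mul_assoc] using
    h.mul _ _ ((norm_div_le ha hb).trans hL) ((norm_div_le hb hc).trans hL) e e'

theorem Closed.mul_left (h : θ.Closed L) (hL : 2 * B ≤ L) (hg : g.norm ≤ L) (ha : a.norm ≤ B)
    (hb : b.norm ≤ B) (e : θ.E a b) : θ.E (g * a) (g * b) := by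
  simpa [E, mul_assoc] using h.conj g _ hg ((norm_div_le ha hb).trans hL) e

/-- replace `a` by `b` in the middle of a word -/
theorem Closed.mid (h : θ.Closed L) (hL : 2 * B ≤ L) (hg : g.norm ≤ L) (ha : a.norm ≤ B)
    (hb : b.norm ≤ B) (e : θ.E a b) (c : FreeGroup Y) : θ.E (g * a * c) (g * b * c) :=
  (h.mul_left hL hg ha hb e).mul_right c

theorem Closed.mulE (h : θ.Closed L) (hL : 4 * B ≤ L) (ha : a.norm ≤ B) (hb : b.norm ≤ B)
    (hc : c.norm ≤ B) (hd : d.norm ≤ B) (e : θ.E a b) (e' : θ.E c d) : θ.E (a * c) (b * d) :=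
  h.trans (B := 2 * B) (by omega) ((nmul _ _).trans (by omega))
    ((nmul _ _).trans (by omega)) ((nmul _ _).trans (by omega)) (e.mul_right c)
    (h.mul_left (B := B) (by omega) (by omega) hc hd e')

theorem Closed.invE (h : θ.Closed L) (hL : 2 * B ≤ L) (ha : a.norm ≤ B) (hb : b.norm ≤ B)
    (e : θ.E a b) : θ.E a⁻¹ b⁻¹ := by
  have := h.conj a⁻¹ _ (by rw [norm_inv_eq]; omega) ((norm_div_le hb ha).trans hL)
    (h.symm hL ha hb e)
  simpa [E, mul_assoc] using this

theorem Closed.memT (h : θ.Closed L) (hL : 2 * B ≤ L) (ha : a.norm ≤ B) (hb : b.norm ≤ B)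
    (e : θ.E a b) (hbT : b ∈ θ.T) : a ∈ θ.T := by
  simpa using h.mul _ b ((norm_div_le ha hb).trans hL) (by omega) e hbT

theorem Closed.memM (h : θ.Closed L) (hL : 2 * B ≤ L) (ha : a.norm ≤ B) (hb : b.norm ≤ B)
    (e : θ.E a b) (hbM : b ∈ θ.M) : a ∈ θ.M := by
  simpa using h.mulM _ b ((norm_div_le ha hb).trans hL) (by omega)
    (h.sub _ ((norm_div_le ha hb).trans hL) e) hbM

theorem Closed.prodT (h : θ.Closed L) (l : List (FreeGroup Y)) (hl : ∀ a ∈ l, a.norm ≤ B)
    (hL : l.length * B ≤ L) (hT : ∀ a ∈ l, a ∈ θ.T) : l.prod ∈ θ.T := by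
  induction l with
  | nil => exact h.one
  | cons a l ih =>
    rw [List.length_cons, Nat.succ_mul] at hL
    have h1 := norm_prod_le l fun b hb => hl b (List.mem_cons_of_mem _ hb)
    have h2 := hl a List.mem_cons_self
    exact h.mul a l.prod (by omega) (by omega) (hT a List.mem_cons_self)
      (ih (fun b hb => hl b (List.mem_cons_of_mem _ hb)) (by omega)
        fun b hb => hT b (List.mem_cons_of_mem _ hb))

theorem Closed.prodM (h : θ.Closed L) (l : List (FreeGroup Y)) (hl : ∀ a ∈ l, a.norm ≤ B)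
    (hL : l.length * B ≤ L) (hM : ∀ a ∈ l, a ∈ θ.M) : l.prod ∈ θ.M := by
  induction l with
  | nil => exact h.oneM
  | cons a l ih =>
    rw [List.length_cons, Nat.succ_mul] at hL
    have h1 := norm_prod_le l fun b hb => hl b (List.mem_cons_of_mem _ hb)
    have h2 := hl a List.mem_cons_self
    exact h.mulM a l.prod (by omega) (by omega) (hM a List.mem_cons_self)
      (ih (fun b hb => hl b (List.mem_cons_of_mem _ hb)) (by omega)
        fun b hb => hM b (List.mem_cons_of_mem _ hb))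

end E

end LT

end Crest.Agent.R185
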