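import Mathlib

/-!
# Row 185, core: multiple HNN extensions (definition, Britton's lemma, core paths)

`D.G = ⟨M, t_e (e : E) | t (bar e) = (t e)⁻¹, h t_e = t_e φ_e(h) (h ∈ H e)⟩`.  A word is
`g₀ t_{e₁} g₁ ⋯ t_{e_k} g_k`, given as `g₀` and the list of the `(eᵢ, gᵢ)`.
-/

set_option autoImplicit false

namespace Crest.Agent.R185

open Function

/-- data of a multiple HNN extension -/
structure MHD (M E : Type) [Group M] where
  bar : E → E
  bar_bar : ∀ e, bar (bar e) = e
  H : E → Subgroup M
  φ : E → M → M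
  φ_mem : ∀ e, ∀ h ∈ H e, φ e h ∈ H (bar e)
  φ_mul : ∀ e, ∀ a ∈ H e, ∀ b ∈ H e, φ e (a * b) = φ e a * φ e b
  φ_φ : ∀ e, ∀ h ∈ H e, φ (bar e) (φ e h) = h

namespace MHD

variable {M E : Type} [Group M] (D : MHD M E)

/-- the relators -/
def rels : Set (FreeGroup (M ⊕ E)) :=
  {w | (∃ a b : M, w = .of (.inl a) * .of (.inl b) * (FreeGroup.of (.inl (a * b)))⁻¹) ∨
    (∃ e, w = .of (.inr e) * .of (.inr (D.bar e))) ∨
    ∃ e, ∃ h ∈ D.H e, w = .of (.inl h) * .of (.inr e) * (.of (.inr e) * .of (.inl (D.φ e h)))⁻¹}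

/-- the group -/
def G : Type := PresentedGroup D.rels

instance : Group D.G := inferInstanceAs (Group (PresentedGroup _))

theorem rel_one {w : FreeGroup (M ⊕ E)} (h : w ∈ D.rels) : PresentedGroup.mk D.rels w = 1 :=
  PresentedGroup.one_of_mem h

/-- the base group -/
def of : M →* D.G :=
  MonoidHom.mk' (fun a => PresentedGroup.of (rels := D.rels) (.inl a)) fun a b => by
    have := D.rel_one (Or.inl ⟨a, b, rfl⟩)
    rw [map_mul, map_mul, map_inv, mul_inv_eq_one] at this
    exact this.symm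

/-- the stable letters -/
def t (e : E) : D.G := PresentedGroup.of (rels := D.rels) (.inr e)

theorem t_bar (e : E) : D.t (D.bar e) = (D.t e)⁻¹ := by
  have := D.rel_one (Or.inr (Or.inl ⟨e, rfl⟩))
  rw [map_mul] at this
  exact eq_inv_of_mul_eq_one_right this

theorem of_mul_t (e : E) {h : M} (hh : h ∈ D.H e) : D.of h * D.t e = D.t e * D.of (D.φ e h) := by
  have := D.rel_one (Or.inr (Or.inr ⟨e, h, hh, rfl⟩))
  rw [map_mul, map_mul, map_inv, map_mul, mul_inv_eq_one] at this
  exact this

theorem t_conj (e : E) {h : M} (hh : h ∈ D.H e) :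
    (D.t e)⁻¹ * D.of h * D.t e = D.of (D.φ e h) := by
  rw [mul_assoc, of_mul_t D e hh, inv_mul_cancel_left]

theorem φ_one (e : E) : D.φ e 1 = 1 := by
  have := D.φ_mul e 1 (one_mem _) 1 (one_mem _)
  simpa using this

theorem φ_inv (e : E) {h : M} (hh : h ∈ D.H e) : D.φ e h⁻¹ = (D.φ e h)⁻¹ := by
  have := D.φ_mul e h hh h⁻¹ (inv_mem hh)
  rw [mul_inv_cancel, φ_one] at this
  exact eq_inv_of_mul_eq_one_right this.symm

section Lift

variable {Q : Type} [Group Q]

/-- the universal property -/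
def lift (f : M →* Q) (q : E → Q) (hq : ∀ e, q (D.bar e) = (q e)⁻¹)
    (hr : ∀ e, ∀ h ∈ D.H e, f h * q e = q e * f (D.φ e h)) : D.G →* Q :=
  PresentedGroup.toGroup (f := Sum.elim f q) (rels := D.rels) (by
    rintro _ (⟨a, b, rfl⟩ | ⟨e, rfl⟩ | ⟨e, h, hh, rfl⟩)
    · simp
    · simp [hq]
    · simp [hr e h hh])

@[simp] theorem lift_of (f : M →* Q) (q : E → Q) (hq hr) (a : M) :
    D.lift f q hq hr (D.of a) = f a := PresentedGroup.toGroup.of _

@[simp] theorem lift_t (f : M →* Q) (q : E → Q) (hq hr) (e : E) :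
    D.lift f q hq hr (D.t e) = q e := PresentedGroup.toGroup.of _

theorem hom_ext {f g : D.G →* Q} (h1 : ∀ a, f (D.of a) = g (D.of a))
    (h2 : ∀ e, f (D.t e) = g (D.t e)) : f = g :=
  PresentedGroup.ext fun x => by
    cases x with
    | inl a => exact h1 a
    | inr e => exact h2 e

end Lift

theorem closure_eq_top : Subgroup.closure (Set.range D.of ∪ Set.range D.t) = ⊤ := by
  refine top_unique ((PresentedGroup.closure_range_of D.rels).symm.le.trans
    (Subgroup.closure_mono ?_))
  rintro _ ⟨a | e, rfl⟩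
  · exact Or.inl ⟨a, rfl⟩
  · exact Or.inr ⟨e, rfl⟩

/-- the value of a word -/
def ev : M → List (E × M) → D.G
  | g, [] => D.of g
  | g, (e, a) :: l => D.of g * D.t e * ev a l

@[simp] theorem ev_nil (g : M) : D.ev g [] = D.of g := rfl

@[simp] theorem ev_cons (g a : M) (e : E) (l : List (E × M)) :
    D.ev g ((e, a) :: l) = D.of g * D.t e * D.ev a l := rfl

theorem ev_eq_prod (g : M) (l : List (E × M)) :
    D.ev g l = D.of g * (l.map fun x => D.t x.1 * D.of x.2).prod := by
  induction l generalizing g with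
  | nil => simp
  | cons x l ih => obtain ⟨e, a⟩ := x; simp [ih, mul_assoc]

theorem of_mul_ev (x g : M) (l : List (E × M)) : D.of x * D.ev g l = D.ev (x * g) l := by
  simp [ev_eq_prod, mul_assoc]

/-- no pinch `t_e g t_{bar e}` with `g ∈ H (bar e)` -/
def Red (l : List (E × M)) : Prop :=
  l.IsChain fun x y => ¬(y.1 = D.bar x.1 ∧ x.2 ∈ D.H y.1)

/-- the words differ by sliding elements of the associated subgroups -/
inductive Sl : M → List (E × M) → M → List (E × M) → Prop
  | nil (g : M) : Sl g [] g []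
  | cons {g h a a' : M} {e : E} {l l' : List (E × M)} : h ∈ D.H e → Sl (D.φ e h * a) l a' l' →
      Sl (g * h) ((e, a) :: l) g ((e, a') :: l')

/-- a partial action: a right `M`-set with equivariant partial bijections -/
structure Core (C : Type) where
  act : C → M → C
  act_one : ∀ p, act p 1 = p
  act_mul : ∀ p a b, act p (a * b) = act (act p a) b
  st : E → C → C → Prop
  st_bar : ∀ e p q, st e p q → st (D.bar e) q p
  st_fun : ∀ e p q q', st e p q → st e p q' → q = q'
  st_act : ∀ e p q, ∀ h ∈ D.H e, st e p q → st e (act p h) (act q (D.φ e h))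

variable {D}

/-- reading the word from `p` stays in the core and ends in `q` -/
def Core.Path {C : Type} (c : D.Core C) : C → M → List (E × M) → C → Prop
  | p, g, [], q => c.act p g = q
  | p, g, (e, a) :: l, q => ∃ p', c.st e (c.act p g) p' ∧ Core.Path c p' a l q

/-- `x` is the value of a path from `p` to `q` -/
def Core.Conn {C : Type} (c : D.Core C) (p : C) (x : D.G) (q : C) : Prop :=
  ∃ g l, D.ev g l = x ∧ c.Path p g l q

/-- all associated isomorphisms are the identity: `t (i, true)` centralises `H i` -/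
def cent {I : Type} (H : I → Subgroup M) : MHD M (I × Bool) where
  bar e := (e.1, !e.2)
  bar_bar e := by simp
  H e := H e.1
  φ _ h := h
  φ_mem _ _ h := h
  φ_mul _ _ _ _ _ := rfl
  φ_φ _ _ _ := rfl

end MHD

end Crest.Agent.R185
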