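import Crest.Agent.R185.GP
import Crest.Agent.R185.SwDefs

/-!
# Row 185: the magic square

`G9 A` is the graph product of nine copies of `A` on a `3 × 3` grid, copies in one row or column
commute.  `y ℓ` is the product of the copies along the line `ℓ`.  The six lines generate their free
product `W`; `chi : W →* A` is the identity on row `0` and trivial on the other lines.
-/

set_option autoImplicit false

namespace Crest.Agent.R185.GPr

open Function

/-- cells of the grid -/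
abbrev Ce : Type := Fin 3 × Fin 3

/-- lines of the grid: `(false, i)` is row `i`, `(true, j)` is column `j` -/
abbrev Li : Type := Bool × Fin 3

/-- the `k`-th cell of a line -/
def cell (ℓ : Li) (k : Fin 3) : Ce := if ℓ.1 then (k, ℓ.2) else (ℓ.2, k)

/-- the rook's graph -/
def rook : Gr Ce where
  adj c d := decide (c ≠ d ∧ (c.1 = d.1 ∨ c.2 = d.2))
  symm := by decide
  irrefl := by decide

/-- the graph without edges -/
def empty (V : Type) : Gr V where
  adj _ _ := false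
  symm _ _ := rfl
  irrefl _ := rfl

theorem adj_cell : ∀ (ℓ : Li) (i j : Fin 3), i ≠ j → rook.adj (cell ℓ i) (cell ℓ j) = true := by
  decide

theorem common_adj : ∀ (ℓ : Li) (i j : Fin 3) (c : Ce), i ≠ j → rook.adj c (cell ℓ i) = true →
    rook.adj c (cell ℓ j) = true → ∃ k, c = cell ℓ k := by decide

theorem exists_free : ∀ ℓ ℓ' : Li, ℓ ≠ ℓ' → ∃ i j k : Fin 3, i ≠ j ∧ i ≠ k ∧ j ≠ k ∧
    (∀ m, cell ℓ i ≠ cell ℓ' m) ∧ ∀ m, cell ℓ j ≠ cell ℓ' m := by decide

theorem exists_third : ∀ i j : Fin 3, i ≠ j → ∃ k, i ≠ k ∧ j ≠ k := by decide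

variable {A : Type} [Group A]

/-- the graph product on the grid -/
abbrev G9 (A : Type) [Group A] : Type := GP rook A

/-- the free product of six copies -/
abbrev F6 (A : Type) [Group A] : Type := GP (empty Li) A

/-- product of two commuting homomorphisms -/
def mulHom {X : Type*} [Group X] (f g : A →* X) (h : ∀ a b, Commute (f a) (g b)) : A →* X where
  toFun a := f a * g a
  map_one' := by simp
  map_mul' a b := by rw [map_mul, map_mul, (h b a).mul_mul_mul_comm]

/-- the product along a line, for any family of homomorphisms -/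
def line {X : Type*} [Group X] (f : Ce → A →* X)
    (h : ∀ c d, rook.adj c d = true → ∀ a b, Commute (f c a) (f d b)) (ℓ : Li) : A →* X :=
  mulHom (f (cell ℓ 0)) (mulHom (f (cell ℓ 1)) (f (cell ℓ 2)) (h _ _ (adj_cell ℓ 1 2 (by decide))))
    fun a b => (h _ _ (adj_cell ℓ 0 1 (by decide)) a b).mul_right
      (h _ _ (adj_cell ℓ 0 2 (by decide)) a b)

theorem line_apply {X : Type*} [Group X] (f : Ce → A →* X)
    (h : ∀ c d, rook.adj c d = true → ∀ a b, Commute (f c a) (f d b)) (ℓ : Li) (a : A) :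
    line f h ℓ a = f (cell ℓ 0) a * (f (cell ℓ 1) a * f (cell ℓ 2) a) := rfl

/-- the product along a line -/
def y (ℓ : Li) : A →* G9 A := line (x rook) (fun _ _ h => x_comm h) ℓ

theorem y_apply (ℓ : Li) (a : A) :
    y ℓ a = x rook (cell ℓ 0) a * (x rook (cell ℓ 1) a * x rook (cell ℓ 2) a) := rfl

theorem y_eq (ℓ : Li) {i j k : Fin 3} (h1 : i ≠ j) (h2 : i ≠ k) (h3 : j ≠ k) (a : A) :
    y ℓ a = x rook (cell ℓ i) a * (x rook (cell ℓ j) a * x rook (cell ℓ k) a) := by
  have c01 := x_comm (adj_cell ℓ 0 1 (by decide)) a a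
  have c02 := x_comm (adj_cell ℓ 0 2 (by decide)) a a
  have c12 := x_comm (adj_cell ℓ 1 2 (by decide)) a a
  rw [y_apply]
  fin_cases i <;> fin_cases j <;> fin_cases k <;> simp at h1 h2 h3 <;>
    simp only [Fin.zero_eta, Fin.mk_one, Fin.reduceFinMk, c12.eq, c02.left_comm,
      c12.left_comm, c01.eq, c02.eq]

/-- the map from the free product of the lines -/
def phi : F6 A →* G9 A := lift y fun _ _ h => absurd h (by simp [empty])

@[simp] theorem phi_x (ℓ : Li) (a : A) : phi (x (empty Li) ℓ a) = y ℓ a := lift_x _ _ ℓ a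

theorem phi_ev_cons (ℓ : Li) (a : A) (ω : List (Li × A)) :
    phi (ev (empty Li) ((ℓ, a) :: ω)) = y ℓ a * phi (ev (empty Li) ω) := by
  rw [ev_cons, map_mul, phi_x]

/-- the front of `l` looks like `y ℓ a` -/
def Fr (ℓ : Li) (a : A) (l : List (Ce × A)) : Prop :=
  (∀ c, hd? rook c l ≠ none → ∃ k, c = cell ℓ k) ∧
    ∃ i j, i ≠ j ∧ hd? rook (cell ℓ i) l = some a ∧ hd? rook (cell ℓ j) l = some a

theorem fr_step {ℓ : Li} {a : A} (ha : a ≠ 1) {l : List (Ce × A)} (hl : Red rook l) {i j k : Fin 3}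
    (h1 : i ≠ j) (h2 : i ≠ k) (h3 : j ≠ k) (hi : hd? rook (cell ℓ i) l = none)
    (hj : hd? rook (cell ℓ j) l = none) :
    ∃ m, Red rook m ∧ ev rook m = y ℓ a * ev rook l ∧ Fr ℓ a m := by
  refine ⟨(cell ℓ i, a) :: (cell ℓ j, a) :: ins rook (cell ℓ k) a l, ?_, ?_, ?_, i, j, h1,
    hd?_self _ _ _ _, ?_⟩
  · refine red_cons.2 ⟨ha, ?_, red_cons.2 ⟨ha, ?_, hl.ins _ _⟩⟩
    · rw [hd?_adj (adj_cell ℓ i j h1), hd?_ins_adj (adj_cell ℓ i k h2), hi]
    · rw [hd?_ins_adj (adj_cell ℓ j k h3), hj]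
  · rw [ev_cons, ev_cons, ev_ins, y_eq ℓ h1 h2 h3]
    simp only [mul_assoc]
  · intro c hc
    rcases of_hd?_cons hc with h | ⟨h, hc⟩
    · exact ⟨i, h.symm⟩
    · rcases of_hd?_cons hc with h' | ⟨h', -⟩
      · exact ⟨j, h'.symm⟩
      · exact common_adj ℓ i j c h1 h h'
  · rw [hd?_adj (adj_cell ℓ j i h1.symm), hd?_self]

theorem exists_fr {ℓ : Li} {a : A} {ω : List (Li × A)} (h : Red (empty Li) ((ℓ, a) :: ω)) :
    ∃ m, Red rook m ∧ ev rook m = phi (ev (empty Li) ((ℓ, a) :: ω)) ∧ Fr ℓ a m := by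
  induction ω generalizing ℓ a with
  | nil =>
    simpa using fr_step (ℓ := ℓ) h.1 red_nil (i := 0) (j := 1) (k := 2) (by decide) (by decide)
      (by decide) rfl rfl
  | cons p ω ih =>
    obtain ⟨ℓ', b⟩ := p
    obtain ⟨h1, h2, h3⟩ := red_cons.1 h
    obtain ⟨m, hm, he, hf⟩ := ih h3
    have hne : ℓ ≠ ℓ' := by
      rintro rfl
      simp at h2
    obtain ⟨i, j, k, c1, c2, c3, c4, c5⟩ := exists_free ℓ ℓ' hne
    rw [phi_ev_cons, ← he]
    refine fr_step h1 hm c1 c2 c3 ?_ ?_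
    · by_contra hc
      obtain ⟨n, hn⟩ := hf.1 _ hc
      exact c4 n hn
    · by_contra hc
      obtain ⟨n, hn⟩ := hf.1 _ hc
      exact c5 n hn

/-- the lines generate their free product -/
theorem phi_injective : Injective (phi : F6 A →* G9 A) := by
  refine (injective_iff_map_eq_one _).2 fun g hg => ?_
  obtain ⟨l, rfl⟩ := exists_ev _ g
  obtain ⟨ω, h1, h2, -⟩ := exists_red (Γ := empty Li) (ν := fun _ => 0) (fun _ _ => le_rfl) l
  rw [← h2] at hg ⊢
  cases ω with
  | nil => rfl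
  | cons p ω =>
    obtain ⟨m, hm, he, -, i, -, -, hi, -⟩ := exists_fr (ℓ := p.1) (a := p.2) h1
    rw [hm.eq_nil (he.trans hg)] at hi
    simp at hi

/-- an element of the subgroup generated by the lines has an expression in the lines that is not
larger than any given expression in the cells -/
theorem exists_expr {ν : A → ℕ} (hν : ∀ a b, ν (a * b) ≤ ν a + ν b) (hi : ∀ a, ν a⁻¹ = ν a)
    (l : List (Ce × A)) (h : ev rook l ∈ (phi : F6 A →* G9 A).range) :
    ∃ ω, phi (ev (empty Li) ω) = ev rook l ∧ size ν ω ≤ size ν l := by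
  obtain ⟨g, hg⟩ := h
  obtain ⟨ω₀, rfl⟩ := exists_ev _ g
  obtain ⟨ω, h1, h2, -⟩ := exists_red (Γ := empty Li) (ν := fun _ => 0) (fun _ _ => le_rfl) ω₀
  obtain ⟨m, h3, h4, h5⟩ := exists_red (Γ := rook) hν l
  rw [← h2, ← h4] at hg
  refine ⟨ω, hg.trans h4, le_trans ?_ h5⟩
  clear h2 h4 h5 l ω₀
  induction ω generalizing m with
  | nil => simp
  | cons p ω ih =>
    obtain ⟨ℓ, a⟩ := p
    obtain ⟨m', hm', he, -, i, j, hij, hi', hj'⟩ := exists_fr h1
    rw [hd?_eq hm' h3 (he.trans hg)] at hi' hj'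
    obtain ⟨k, hik, hjk⟩ := exists_third i j hij
    rw [← hd?_tl (adj_cell ℓ j i hij.symm)] at hj'
    have e1 := ev_tl hi'
    have e2 := ev_tl hj'
    have s1 := size_tl ν hi'
    have s2 := size_tl ν hj'
    have s3 := size_ins (Γ := rook) hν (cell ℓ k) a⁻¹
      (tl rook (cell ℓ j) (tl rook (cell ℓ i) m))
    rw [phi_ev_cons, e1, e2, y_eq ℓ hij hik hjk, mul_assoc, mul_assoc, mul_right_inj,
      mul_right_inj] at hg
    have := ih h1.2.2 _ (by rw [ev_ins, ← hg, map_inv, inv_mul_cancel_left])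
      ((((h3.tl (cell ℓ i)).1.tl (cell ℓ j)).1).ins (cell ℓ k) a⁻¹)
    rw [hi] at s3
    rw [size_cons]
    omega

variable (A) in
/-- the subgroup generated by the lines -/
def W : Subgroup (G9 A) := (phi : F6 A →* G9 A).range

theorem y_mem (ℓ : Li) (a : A) : y ℓ a ∈ W A := ⟨x _ ℓ a, phi_x ℓ a⟩

theorem W_eq_closure {s : Set A} (hs : Subgroup.closure s = ⊤) :
    W A = Subgroup.closure {g | ∃ ℓ, ∃ a ∈ s, g = y ℓ a} := by
  refine le_antisymm ?_ ((Subgroup.closure_le _).2 ?_)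
  · rintro _ ⟨g, rfl⟩
    obtain ⟨ω, rfl⟩ := exists_ev _ g
    induction ω with
    | nil => simp
    | cons p ω ih =>
      obtain ⟨ℓ, a⟩ := p
      rw [phi_ev_cons]
      refine Subgroup.mul_mem _ ?_ ih
      have ha : a ∈ Subgroup.closure s := hs ▸ Subgroup.mem_top a
      induction ha using Subgroup.closure_induction with
      | mem a ha => exact Subgroup.subset_closure ⟨ℓ, a, ha, rfl⟩
      | one => simp
      | mul a b _ _ ia ib => rw [map_mul]; exact Subgroup.mul_mem _ ia ib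
      | inv a _ ia => rw [map_inv]; exact Subgroup.inv_mem _ ia
  · rintro _ ⟨ℓ, a, -, rfl⟩
    exact y_mem ℓ a

/-- the distinguished line: row `0` -/
def l0 : Li := (false, 0)

/-- the character on the free product of the lines -/
def chi0 : F6 A →* A :=
  lift (fun ℓ => if ℓ = l0 then MonoidHom.id A else 1) fun _ _ h => absurd h (by simp [empty])

theorem chi0_x (ℓ : Li) (a : A) : chi0 (x (empty Li) ℓ a) = if ℓ = l0 then a else 1 := by
  rw [chi0, lift_x]
  split_ifs <;> rfl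

/-- the character on `W` -/
noncomputable def chi : W A →* A := chi0.comp (MonoidHom.ofInjective phi_injective).symm.toMonoidHom

theorem chi_phi (g : F6 A) (h : phi g ∈ W A) : chi ⟨phi g, h⟩ = chi0 g :=
  congrArg chi0 ((MonoidHom.ofInjective phi_injective).symm_apply_apply g)

theorem chi_y (ℓ : Li) (a : A) : chi ⟨y ℓ a, y_mem ℓ a⟩ = if ℓ = l0 then a else 1 := by
  rw [← chi0_x, ← chi_phi _ ⟨_, rfl⟩]
  simp only [phi_x]

theorem chi0_ev_le {ν : A → ℕ} (h1 : ν 1 = 0) (hν : ∀ a b, ν (a * b) ≤ ν a + ν b)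
    (ω : List (Li × A)) : ν (chi0 (ev (empty Li) ω)) ≤ size ν ω := by
  induction ω with
  | nil => simp [h1]
  | cons p ω ih =>
    obtain ⟨ℓ, a⟩ := p
    rw [ev_cons, map_mul, size_cons, chi0_x]
    refine (hν _ _).trans (Nat.add_le_add ?_ ih)
    split_ifs
    · exact le_rfl
    · simp [h1]

/-- `chi` does not increase the size -/
theorem chi_le {ν : A → ℕ} (h1 : ν 1 = 0) (hν : ∀ a b, ν (a * b) ≤ ν a + ν b)
    (hi : ∀ a, ν a⁻¹ = ν a) (l : List (Ce × A)) (h : ev rook l ∈ W A) :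
    ν (chi ⟨ev rook l, h⟩) ≤ size ν l := by
  obtain ⟨ω, h2, h3⟩ := exists_expr hν hi l h
  have : (⟨ev rook l, h⟩ : W A) = ⟨phi (ev (empty Li) ω), h2 ▸ h⟩ := Subtype.ext h2.symm
  rw [this, chi_phi]
  exact (chi0_ev_le h1 hν ω).trans h3

/-- **The magic square kills `Δ`.** -/
theorem killed_of_square {X : Type} [Group X] (f : Ce → A →* X)
    (h : ∀ c d, rook.adj c d = true → ∀ a b, Commute (f c a) (f d b)) (Δ : A →* X)
    (hΔ : ∀ a b, Commute (line f h l0 a) (Δ b)) (t : X)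
    (ht0 : ∀ a, t * line f h l0 a * t⁻¹ = line f h l0 a * Δ a)
    (ht : ∀ ℓ, ℓ ≠ l0 → ∀ a, t * line f h ℓ a * t⁻¹ = line f h ℓ a) : Killed Δ := by
  intro V _ ρ z hadd hconj
  have hl : ∀ ℓ, z (line f h ℓ) = z (f (cell ℓ 0)) + (z (f (cell ℓ 1)) + z (f (cell ℓ 2))) := by
    intro ℓ
    rw [← hadd (mulHom (f (cell ℓ 1)) (f (cell ℓ 2)) (h _ _ (adj_cell ℓ 1 2 (by decide)))) _ _
      (h _ _ (adj_cell ℓ 1 2 (by decide))) fun _ => rfl]
    exact hadd _ _ _ (fun a b => (h _ _ (adj_cell ℓ 0 1 (by decide)) a b).mul_right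
      (h _ _ (adj_cell ℓ 0 2 (by decide)) a b)) fun _ => rfl
  have hs : z (line f h l0) = z (line f h (true, 0)) + z (line f h (true, 1)) +
      z (line f h (true, 2)) - z (line f h (false, 1)) - z (line f h (false, 2)) := by
    simp only [hl, cell, l0, if_true, Bool.false_eq_true, if_false]
    abel
  have hi : ∀ ℓ, ℓ ≠ l0 → ρ t (z (line f h ℓ)) = z (line f h ℓ) := fun ℓ hℓ =>
    (hconj t _ _ fun a => (ht ℓ hℓ a).symm).symm
  have h0 : ρ t (z (line f h l0)) = z (line f h l0) := by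
    rw [hs]
    simp only [map_sub, map_add]
    rw [hi _ (by decide), hi _ (by decide), hi _ (by decide), hi _ (by decide), hi _ (by decide)]
  have h1 := hconj t (line f h l0) (mulHom _ Δ hΔ) fun a => (ht0 a).symm
  rw [h0, hadd (mulHom _ Δ hΔ) _ Δ hΔ fun _ => rfl] at h1
  exact add_eq_left.1 h1

end Crest.Agent.R185.GPr
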