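import Crest.Agent.R185.CRep
import Crest.Agent.R185.GP9

/-!
# Row 185, core: the magic layer

`Mag A` is the multiple HNN extension of `G9 A × A` with letters `t`, `s_c` (`c` a cell):
`t⁻¹ (w, 1) t = (w, χ w)` for `w ∈ W`, `s_c⁻¹ (1, a) s_c = (x_c a, 1)`.  `Δ a = (1, a)`.
-/

set_option autoImplicit false
set_option linter.unusedSectionVars false

namespace Crest.Agent.R185

open Function GPr

variable {Y : Type} [DecidableEq Y] {A : Type} [Group A]

/-! ### locality for graph products -/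

section GPLoc

variable {V : Type} [DecidableEq V] (Γ : Gr V)

/-- the marking of a graph product -/
def gpMark (π : FreeGroup Y →* A) : FreeGroup (V × Y) →* GP Γ A :=
  FreeGroup.lift fun p => x Γ p.1 (π (.of p.2))

theorem gpMark_map (π : FreeGroup Y →* A) (c : V) (w : FreeGroup Y) :
    gpMark Γ π (FreeGroup.map (Prod.mk c) w) = x Γ c (π w) :=
  DFunLike.congr_fun (FreeGroup.ext_hom ((gpMark Γ π).comp (FreeGroup.map (Prod.mk c)))
    ((x Γ c).comp π) fun y => by simp [gpMark]) w

/-- the word of a syllable list -/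
def gw (l : List (V × FreeGroup Y)) : FreeGroup (V × Y) :=
  (l.map fun p => FreeGroup.map (Prod.mk p.1) p.2).prod

@[simp] theorem gw_nil : gw ([] : List (V × FreeGroup Y)) = 1 := rfl

@[simp] theorem gw_cons (c : V) (u : FreeGroup Y) (l : List (V × FreeGroup Y)) :
    gw ((c, u) :: l) = FreeGroup.map (Prod.mk c) u * gw l := by simp [gw]

theorem gw_append (l m : List (V × FreeGroup Y)) : gw (l ++ m) = gw l * gw m := by simp [gw]

theorem norm_gw_le (l : List (V × FreeGroup Y)) : (gw l).norm ≤ size FreeGroup.norm l := by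
  induction l with
  | nil => simp
  | cons p l ih =>
    obtain ⟨c, u⟩ := p
    rw [gw_cons, size_cons]
    exact (nmul _ _).trans (Nat.add_le_add (norm_map_le _ _) ih)

theorem gpMark_gw (π : FreeGroup Y →* A) (l : List (V × FreeGroup Y)) :
    gpMark Γ π (gw l) = ev Γ (l.map (Prod.map id π)) := by
  induction l with
  | nil => simp
  | cons p l ih => obtain ⟨c, u⟩ := p; simp [gpMark_map, ih]

theorem exists_gw (g : FreeGroup (V × Y)) : ∃ l, gw l = g ∧ size FreeGroup.norm l ≤ g.norm := by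
  have : ∀ d : List ((V × Y) × Bool), ∃ l, gw l = FreeGroup.mk d ∧
      size FreeGroup.norm l ≤ d.length := by
    intro d
    induction d with
    | nil => exact ⟨[], rfl, le_rfl⟩
    | cons p d ih =>
      obtain ⟨l, h1, h2⟩ := ih
      obtain ⟨⟨c, z⟩, b⟩ := p
      refine ⟨(c, FreeGroup.mk [(z, b)]) :: l, ?_, ?_⟩
      · rw [gw_cons, h1, FreeGroup.map.mk, FreeGroup.mul_mk]
        rfl
      · have : (FreeGroup.mk [(z, b)]).norm ≤ 1 := FreeGroup.norm_mk_le
        rw [size_cons, List.length_cons]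
        omega
  obtain ⟨l, h1, h2⟩ := this g.toWord
  exact ⟨l, h1.trans FreeGroup.mk_toWord, h2⟩

theorem gpMark_surjective {π : FreeGroup Y →* A} (h : Surjective π) : Surjective (gpMark Γ π) := by
  intro g
  obtain ⟨l, rfl⟩ := exists_ev Γ g
  refine ⟨gw (l.map (Prod.map id (surjInv h))), ?_⟩
  rw [gpMark_gw, List.map_map]
  congr 1
  exact List.map_id'' (fun p => by simp [Prod.map, surjInv_eq]) l

/-- the commutators of letters at adjacent vertices -/
def gpRel (Y : Type) : Set (FreeGroup (V × Y)) :=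
  {w | ∃ c d y z, Γ.adj c d = true ∧ w = .of (c, y) * .of (d, z) * (.of (d, z) * .of (c, y))⁻¹}

theorem gpRel_finite [Finite V] [Finite Y] : (gpRel Γ Y).Finite :=
  (Set.finite_range fun p : (V × Y) × V × Y =>
    (.of p.1 * .of p.2 * (.of p.2 * .of p.1)⁻¹ : FreeGroup (V × Y))).subset (by
      rintro _ ⟨c, d, y, z, -, rfl⟩
      exact ⟨((c, y), d, z), rfl⟩)

theorem gpMark_rel (π : FreeGroup Y →* A) : ∀ w ∈ gpRel Γ Y, gpMark Γ π w = 1 := by
  rintro _ ⟨c, d, y, z, h, rfl⟩
  simp only [gpMark, map_mul, map_inv, FreeGroup.lift_apply_of]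
  rw [(x_comm h _ _).eq, mul_inv_cancel]

variable {Γ} {θ : LT (V × Y)} {L n : ℕ} {π : FreeGroup Y →* A}

theorem LT.Closed.gp_step (h : θ.Closed L) (hR : gpRel Γ Y ⊆ θ.T)
    (hL : 32 * (n + 1) * (n + 1) ≤ L)
    (hT : ∀ c, (θ.comap (FreeGroup.map (Prod.mk c))).KT π n) {l m : List (V × FreeGroup Y)}
    (hs : St Γ π l m) (hl : size FreeGroup.norm l ≤ n) : θ.E (gw l) (gw m) := by
  have hn : 2 * n ≤ L := by nlinarith
  induction hs with
  | @swap c d hcd u v k l =>
    simp only [size_append, size_cons] at hl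
    have h1 := norm_map_le (Prod.mk c) u
    have h2 := norm_map_le (Prod.mk d) v
    have h3 := norm_gw_le k
    rw [gw_append, gw_append, gw_cons, gw_cons, gw_cons, gw_cons, ← mul_assoc _ _ (gw l),
      ← mul_assoc _ _ (gw l), ← mul_assoc _ _ (gw l), ← mul_assoc _ _ (gw l)]
    refine h.mid hn (by omega) ((nmul _ _).trans (by omega)) ((nmul _ _).trans (by omega)) ?_ _
    exact h.comm (lip_map _) (lip_map _) (fun y z => hR ⟨c, d, y, z, hcd, rfl⟩) (n := n)
      (by nlinarith) u (by omega) v (by omega)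
  | merge c u v l => exact h.of_eq (by simp [mul_assoc])
  | @del c u hu l =>
    rw [size_cons] at hl
    have h' : FreeGroup.map (Prod.mk c) u ∈ θ.T := hT c u (by omega) hu
    have := (LT.E_one.2 h').mul_right (gw l)
    rwa [one_mul, ← gw_cons] at this
  | @there p l m hs ih =>
    obtain ⟨c, u⟩ := p
    rw [size_cons] at hl
    have h1 := norm_map_le (Prod.mk c) u
    have h2 := norm_gw_le l
    have h3 := norm_gw_le m
    have h4 := hs.size nmul
    rw [gw_cons, gw_cons]
    exact h.mul_left hn (by omega) (by omega) (by omega) (ih (by omega))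

/-- locality of the word problem of a graph product -/
theorem LT.Closed.gp_KT (h : θ.Closed L) (hR : gpRel Γ Y ⊆ θ.T) (hL : 32 * (n + 1) * (n + 1) ≤ L)
    (hT : ∀ c, (θ.comap (FreeGroup.map (Prod.mk c))).KT π n) : θ.KT (gpMark Γ π) n := by
  intro g hg h1
  have hn : 2 * n ≤ L := by nlinarith
  obtain ⟨l, rfl, hl⟩ := exists_gw g
  rw [gpMark_gw] at h1
  have h2 := st_nil (Γ := Γ) (map_mul π) h1
  replace hl := hl.trans hg
  clear h1 hg
  induction h2 using Relation.ReflTransGen.head_induction_on with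
  | refl => exact h.one
  | head hs _ ih =>
    have h4 := hs.size nmul
    exact h.memT hn ((norm_gw_le _).trans hl) ((norm_gw_le _).trans (h4.trans hl))
      (h.gp_step hR hL hT hs hl) (ih (h4.trans hl))

end GPLoc

/-! ### the word norm -/

/-- the word norm of a marked group -/
noncomputable def wn (π : FreeGroup Y →* A) (a : A) : ℕ := sInf {n | ∃ w, π w = a ∧ w.norm = n}

theorem wn_le (π : FreeGroup Y →* A) (w : FreeGroup Y) : wn π (π w) ≤ w.norm :=
  Nat.sInf_le ⟨w, rfl, rfl⟩

theorem exists_wn {π : FreeGroup Y →* A} (h : Surjective π) (a : A) :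
    ∃ w, π w = a ∧ w.norm = wn π a := by
  obtain ⟨w, hw⟩ := h a
  exact Nat.sInf_mem (s := {n | ∃ w, π w = a ∧ w.norm = n}) ⟨_, w, hw, rfl⟩

theorem wn_mul {π : FreeGroup Y →* A} (h : Surjective π) (a b : A) :
    wn π (a * b) ≤ wn π a + wn π b := by
  obtain ⟨u, rfl, hu⟩ := exists_wn h a
  obtain ⟨v, rfl, hv⟩ := exists_wn h b
  rw [← map_mul, ← hu, ← hv]
  exact (wn_le π _).trans (nmul _ _)

theorem wn_inv {π : FreeGroup Y →* A} (h : Surjective π) (a : A) : wn π a⁻¹ = wn π a := by
  have : ∀ a, wn π a⁻¹ ≤ wn π a := fun a => by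
    obtain ⟨u, rfl, hu⟩ := exists_wn h a
    rw [← map_inv, ← hu, ← FreeGroup.norm_inv_eq]
    exact wn_le π _
  exact le_antisymm (this a) (by simpa using this a⁻¹)

theorem size_wn_le {V : Type} (π : FreeGroup Y →* A) (l : List (V × FreeGroup Y)) :
    size (wn π) (l.map (Prod.map id π)) ≤ size FreeGroup.norm l := by
  induction l with
  | nil => simp
  | cons p l ih =>
    obtain ⟨c, u⟩ := p
    simp only [List.map_cons, Prod.map_apply, size_cons]
    exact Nat.add_le_add (wn_le π u) ih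

theorem exists_lift_list {V : Type} {π : FreeGroup Y →* A} (h : Surjective π) (l : List (V × A)) :
    ∃ m : List (V × FreeGroup Y), m.map (Prod.map id π) = l ∧
      size FreeGroup.norm m = size (wn π) l := by
  induction l with
  | nil => exact ⟨[], rfl, rfl⟩
  | cons p l ih =>
    obtain ⟨c, a⟩ := p
    obtain ⟨m, h1, h2⟩ := ih
    obtain ⟨u, rfl, hu⟩ := exists_wn h a
    exact ⟨(c, u) :: m, by simp [h1], by simp [h2, hu]⟩

/-- a short word with value in `W` is equal to a short word in the lines -/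
theorem exists_line_word {π : FreeGroup Y →* A} (h : Surjective π) (g : FreeGroup (Ce × Y))
    (hg : gpMark rook π g ∈ W A) :
    ∃ v : FreeGroup (Li × Y), v.norm ≤ g.norm ∧ phi (gpMark (empty Li) π v) = gpMark rook π g := by
  obtain ⟨l, rfl, hl⟩ := exists_gw g
  rw [gpMark_gw] at hg ⊢
  obtain ⟨ω, h1, h2⟩ := exists_expr (wn_mul h) (wn_inv h) _ hg
  obtain ⟨m, rfl, h3⟩ := exists_lift_list h ω
  exact ⟨gw m, (norm_gw_le m).trans (h3.le.trans (h2.trans ((size_wn_le π l).trans hl))),
    by rw [gpMark_gw, h1]⟩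

/-- a short word with value in the copy at `c` is equal to a short word in that copy -/
theorem exists_cell_word {V : Type} [DecidableEq V] (Γ : Gr V) {π : FreeGroup Y →* A}
    (h : Surjective π) (g : FreeGroup (V × Y)) {c : V} {a : A} (hg : gpMark Γ π g = x Γ c a) :
    ∃ v : FreeGroup Y, v.norm ≤ g.norm ∧ π v = a := by
  by_cases ha : a = 1
  · exact ⟨1, by simp, by simp [ha]⟩
  obtain ⟨l, rfl, hl⟩ := exists_gw g
  rw [gpMark_gw] at hg
  obtain ⟨m, h1, h2, h3⟩ := exists_red (Γ := Γ) (wn_mul h) (l.map (Prod.map id π))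
  have h4 : Red Γ [(c, a)] := ⟨ha, rfl, red_nil⟩
  have h5 := hd?_eq h1 h4 (by simpa [h2] using hg) c
  rw [hd?_self] at h5
  have h6 := size_tl (wn π) h5
  have h7 := size_wn_le π l
  obtain ⟨v, hv, hv'⟩ := exists_wn h a
  exact ⟨v, by omega, hv⟩

/-! ### the group -/

open Classical in
/-- `chi` as a total function -/
noncomputable def chi' (g : G9 A) : A := if h : g ∈ W A then chi ⟨g, h⟩ else 1

theorem chi'_of_mem {g : G9 A} (h : g ∈ W A) : chi' g = chi ⟨g, h⟩ := dif_pos h

theorem chi'_mul {g h : G9 A} (hg : g ∈ W A) (hh : h ∈ W A) : chi' (g * h) = chi' g * chi' h := by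
  rw [chi'_of_mem hg, chi'_of_mem hh, chi'_of_mem (mul_mem hg hh), ← map_mul]
  rfl

theorem chi'_phi (g : F6 A) : chi' (phi g) = chi0 g :=
  (chi'_of_mem (show phi g ∈ W A from ⟨g, rfl⟩)).trans (chi_phi g _)

variable (A) in
/-- the graph of `chi` -/
def chiGraph : Subgroup (G9 A × A) where
  carrier := {p | p.1 ∈ W A ∧ p.2 = chi' p.1}
  one_mem' := ⟨one_mem _, by simpa using (chi'_phi (1 : F6 A)).symm⟩
  mul_mem' := by
    rintro p q ⟨h1, h2⟩ ⟨h3, h4⟩
    exact ⟨mul_mem h1 h3, by rw [Prod.snd_mul, Prod.fst_mul, chi'_mul h1 h3, h2, h4]⟩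
  inv_mem' := by
    rintro p ⟨⟨g, h1⟩, h2⟩
    refine ⟨inv_mem ⟨g, h1⟩, ?_⟩
    rw [Prod.snd_inv, Prod.fst_inv, h2, ← h1, ← map_inv, chi'_phi, chi'_phi, map_inv]

variable (A) in
/-- the data of the magic layer -/
noncomputable def magD : MHD (G9 A × A) (Option Ce × Bool) where
  bar e := (e.1, !e.2)
  bar_bar e := by simp
  H
    | (none, true) => (W A).prod ⊥
    | (none, false) => chiGraph A
    | (some _, true) => (⊥ : Subgroup (G9 A)).prod ⊤
    | (some c, false) => (x rook c).range.prod ⊥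
  φ
    | (none, true) => fun p => (p.1, chi' p.1)
    | (none, false) => fun p => (p.1, 1)
    | (some c, true) => fun p => (x rook c p.2, 1)
    | (some c, false) => fun p => (1, invFun (x rook c) p.1)
  φ_mem := by
    rintro ⟨_ | c, _ | _⟩ p hp
    · exact ⟨hp.1, rfl⟩
    · exact ⟨hp.1, rfl⟩
    · exact ⟨rfl, trivial⟩
    · exact ⟨⟨_, rfl⟩, rfl⟩
  φ_mul := by
    rintro ⟨_ | c, _ | _⟩ p hp q hq
    · simp
    · exact Prod.ext rfl (chi'_mul hp.1 hq.1)
    · obtain ⟨a, ha⟩ := hp.1
      obtain ⟨b, hb⟩ := hq.1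
      have := leftInverse_invFun (x_injective (Γ := rook) (A := A) c)
      simp only [Prod.fst_mul, Prod.mk_mul_mk, mul_one, ← ha, ← hb, ← map_mul, this _]
    · simp
  φ_φ := by
    rintro ⟨_ | c, _ | _⟩ p hp
    · exact Prod.ext rfl hp.2.symm
    · exact Prod.ext rfl (Subgroup.mem_bot.1 hp.2).symm
    · exact Prod.ext (invFun_eq hp.1) (Subgroup.mem_bot.1 hp.2).symm
    · exact Prod.ext (Subgroup.mem_bot.1 hp.1).symm
        (leftInverse_invFun (x_injective (Γ := rook) (A := A) c) _)

variable (A) in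
/-- the magic group -/
abbrev Mag : Type := (magD A).G

/-- the embedding -/
noncomputable def magDelta : A →* Mag A := (magD A).of.comp (MonoidHom.inr _ _)

theorem magDelta_apply (a : A) : magDelta a = (magD A).of (1, a) := rfl

theorem magDelta_injective : Injective (magDelta : A →* Mag A) := fun _ _ h =>
  congrArg Prod.snd ((magD A).of_injective h)

theorem mag_t (g : F6 A) : ((magD A).t (none, true))⁻¹ * (magD A).of (phi g, 1) *
    (magD A).t (none, true) = (magD A).of (phi g, chi0 g) := by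
  rw [← chi'_phi]
  exact (magD A).t_conj (none, true) (h := (phi g, 1)) ⟨⟨g, rfl⟩, rfl⟩

theorem mag_s (c : Ce) (a : A) : ((magD A).t (some c, true))⁻¹ * (magD A).of (1, a) *
    (magD A).t (some c, true) = (magD A).of (x rook c a, 1) :=
  (magD A).t_conj (some c, true) (h := (1, a)) ⟨rfl, trivial⟩

theorem killed_magDelta : Killed (magDelta : A →* Mag A) := by
  let F : G9 A →* Mag A := (magD A).of.comp (MonoidHom.inl _ _)
  have hc : ∀ c d, rook.adj c d = true → ∀ a b : A,
      Commute ((F.comp (x rook c)) a) ((F.comp (x rook d)) b) := fun c d h a b => (x_comm h a b).map F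
  have hl : ∀ ℓ a, line (fun c => F.comp (x rook c)) hc ℓ a = (magD A).of (phi (x _ ℓ a), 1) := by
    intro ℓ a
    rw [line_apply, phi_x]
    simp only [MonoidHom.comp_apply, ← map_mul, ← y_apply]
    rfl
  refine killed_of_square _ hc _ (fun a b => ?_) ((magD A).t (none, true))⁻¹ (fun a => ?_)
    fun ℓ hℓ a => ?_
  · rw [hl, magDelta_apply]
    exact Commute.map (by simp [Commute, SemiconjBy]) _
  · rw [hl, inv_inv, mag_t, chi0_x, if_pos rfl, magDelta_apply, ← map_mul]
    simp
  · rw [hl, inv_inv, mag_t, chi0_x, if_neg hℓ]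

/-! ### the marking -/

/-- the alphabet of the magic layer -/
abbrev YM (Y : Type) : Type := ((Ce × Y) ⊕ Y) ⊕ Option Ce

/-- the marking of the base group -/
def magBase (π : FreeGroup Y →* A) : FreeGroup ((Ce × Y) ⊕ Y) →* G9 A × A :=
  prodMark (gpMark rook π) π

/-- the marking of the magic group -/
noncomputable def magMark (π : FreeGroup Y →* A) : FreeGroup (YM Y) →* Mag A :=
  FreeGroup.lift (Sum.elim (fun z => (magD A).of (magBase π (.of z))) fun o => (magD A).t (o, true))

/-- the substitution that describes `magDelta` -/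
def magIota : FreeGroup Y →* FreeGroup (YM Y) := FreeGroup.map fun y => .inl (.inr y)

theorem lip_magIota : Lip (magIota : FreeGroup Y →* FreeGroup (YM Y)) 1 := lip_map _

theorem magIota_eq (w : FreeGroup Y) :
    magIota w = FreeGroup.map Sum.inl (FreeGroup.map Sum.inr w) := by
  rw [FreeGroup.map.comp]
  rfl

theorem magMark_inl (π : FreeGroup Y →* A) (w : FreeGroup ((Ce × Y) ⊕ Y)) :
    magMark π (FreeGroup.map Sum.inl w) = (magD A).of (magBase π w) :=
  DFunLike.congr_fun (FreeGroup.ext_hom ((magMark π).comp (FreeGroup.map Sum.inl))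
    ((magD A).of.comp (magBase π)) fun y => by simp [magMark]) w

theorem magMark_inr (π : FreeGroup Y →* A) (o : Option Ce) :
    magMark π (.of (.inr o)) = (magD A).t (o, true) := by simp [magMark]

theorem magMark_iota (π : FreeGroup Y →* A) (w : FreeGroup Y) :
    magMark π (magIota w) = magDelta (π w) := by
  rw [magIota_eq, magMark_inl, magBase, prodMark_inr, magDelta_apply]

theorem magMark_surjective {π : FreeGroup Y →* A} (h : Surjective π) : Surjective (magMark π) := by
  rw [← MonoidHom.range_eq_top, eq_top_iff, ← (magD A).closure_eq_top, Subgroup.closure_le]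
  rintro _ (⟨p, rfl⟩ | ⟨⟨o, _ | _⟩, rfl⟩)
  · obtain ⟨w, rfl⟩ := prodMark_surjective (gpMark_surjective rook h) h p
    exact ⟨_, magMark_inl π w⟩
  · exact ⟨(FreeGroup.of (.inr o))⁻¹, by
      rw [map_inv, magMark_inr]; exact ((magD A).t_bar (o, true)).symm⟩
  · exact ⟨_, magMark_inr π o⟩

/-- the words of the lines -/
def lineW : FreeGroup (Li × Y) →* FreeGroup (Ce × Y) :=
  FreeGroup.lift fun p => .of (cell p.1 0, p.2) * (.of (cell p.1 1, p.2) * .of (cell p.1 2, p.2))

/-- the character on words -/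
def chiW : FreeGroup (Li × Y) →* FreeGroup Y :=
  FreeGroup.lift fun p => if p.1 = l0 then .of p.2 else 1

/-- the generators of the two associated subgroups of each letter (indexed by `Li × Y`; for the
letters `s_c` the line is ignored) -/
def magW : Option Ce × Bool → FreeGroup (Li × Y) →* FreeGroup ((Ce × Y) ⊕ Y)
  | (none, true) => (FreeGroup.map Sum.inl).comp lineW
  | (none, false) => FreeGroup.lift fun p =>
      FreeGroup.map Sum.inl (lineW (.of p)) * FreeGroup.map Sum.inr (chiW (.of p))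
  | (some _, true) => FreeGroup.map fun p => .inr p.2
  | (some c, false) => FreeGroup.map fun p => .inl (c, p.2)

theorem lip_lineW : Lip (lineW : FreeGroup (Li × Y) →* FreeGroup (Ce × Y)) 3 := fun p => by
  simp only [lineW, FreeGroup.lift_apply_of]
  refine (nmul _ _).trans (Nat.add_le_add (by simp) ((nmul _ _).trans ?_) : _ ≤ 1 + 2)
  simp

theorem lip_chiW : Lip (chiW : FreeGroup (Li × Y) →* FreeGroup Y) 1 := fun p => by
  simp only [chiW, FreeGroup.lift_apply_of]
  split_ifs <;> simp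

theorem lip_magW (e : Option Ce × Bool) : Lip (magW (Y := Y) e) 4 := by
  intro p
  have h1 := (norm_map_le (Sum.inl : _ → (Ce × Y) ⊕ Y) _).trans (lip_lineW p)
  have h2 := (norm_map_le (Sum.inr : _ → (Ce × Y) ⊕ Y) _).trans (lip_chiW p)
  obtain ⟨_ | c, _ | _⟩ := e
  · simp only [magW, FreeGroup.lift_apply_of]
    exact (nmul _ _).trans (by omega)
  · exact h1.trans (by omega)
  · simp [magW]
  · simp [magW]

theorem gpMark_lineW (π : FreeGroup Y →* A) (v : FreeGroup (Li × Y)) :
    gpMark rook π (lineW v) = phi (gpMark (empty Li) π v) :=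
  DFunLike.congr_fun (FreeGroup.ext_hom ((gpMark rook π).comp lineW)
    (phi.comp (gpMark (empty Li) π)) fun p => by simp [gpMark, lineW, y_apply]) v

theorem map_chiW (π : FreeGroup Y →* A) (v : FreeGroup (Li × Y)) :
    π (chiW v) = chi0 (gpMark (empty Li) π v) :=
  DFunLike.congr_fun (FreeGroup.ext_hom (π.comp chiW) (chi0.comp (gpMark (empty Li) π))
    fun p => by
      simp only [MonoidHom.comp_apply, chiW, gpMark, FreeGroup.lift_apply_of, chi0_x]
      split_ifs <;> simp) v

theorem magBase_W (π : FreeGroup Y →* A) (v : FreeGroup (Li × Y)) :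
    magBase π (magW (none, true) v) = (phi (gpMark (empty Li) π v), 1) ∧
    magBase π (magW (none, false) v) =
      (phi (gpMark (empty Li) π v), chi0 (gpMark (empty Li) π v)) ∧
    ∀ c, magBase π (magW (some c, true) v) = (1, π (FreeGroup.map Prod.snd v)) ∧
      magBase π (magW (some c, false) v) = (x rook c (π (FreeGroup.map Prod.snd v)), 1) := by
  refine ⟨?_, ?_, fun c => ⟨?_, ?_⟩⟩
  · rw [← gpMark_lineW]
    exact prodMark_inl _ _ _
  · exact DFunLike.congr_fun (FreeGroup.ext_hom ((magBase π).comp (magW (none, false)))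
      ((phi.comp (gpMark (empty Li) π)).prod (chi0.comp (gpMark (empty Li) π))) fun p => by
        simp only [MonoidHom.comp_apply, magW, FreeGroup.lift_apply_of, map_mul, magBase,
          prodMark_inl, prodMark_inr, MonoidHom.prod_apply, Prod.mk_mul_mk, mul_one, one_mul]
        rw [gpMark_lineW, map_chiW]) v
  · rw [magBase, ← prodMark_inr (gpMark rook π) π, FreeGroup.map.comp]
    rfl
  · rw [magBase, ← gpMark_map, ← prodMark_inl (gpMark rook π) π, FreeGroup.map.comp,
      FreeGroup.map.comp]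
    rfl

theorem magBase_W_mem (π : FreeGroup Y →* A) (e : Option Ce × Bool) (v : FreeGroup (Li × Y)) :
    magBase π (magW e v) ∈ (magD A).H e ∧
      (magD A).φ e (magBase π (magW e v)) = magBase π (magW ((magD A).bar e) v) := by
  obtain ⟨h1, h2, h3⟩ := magBase_W π v
  have k1 : magBase π (magW (none, true) v) ∈ (magD A).H (none, true) ∧
      (magD A).φ (none, true) (magBase π (magW (none, true) v)) =
        magBase π (magW (none, false) v) := by
    rw [h1, h2, ← chi'_phi]
    exact ⟨⟨⟨_, rfl⟩, rfl⟩, rfl⟩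
  have k2 : ∀ c, magBase π (magW (some c, true) v) ∈ (magD A).H (some c, true) ∧
      (magD A).φ (some c, true) (magBase π (magW (some c, true) v)) =
        magBase π (magW (some c, false) v) := fun c => by
    rw [(h3 c).1, (h3 c).2]
    exact ⟨⟨rfl, trivial⟩, rfl⟩
  obtain ⟨_ | c, _ | _⟩ := e
  · rw [← k1.2]
    exact ⟨(magD A).φ_mem _ _ k1.1, (magD A).φ_φ (none, true) _ k1.1⟩
  · exact k1
  · rw [← (k2 c).2]
    exact ⟨(magD A).φ_mem _ _ (k2 c).1, (magD A).φ_φ (some c, true) _ (k2 c).1⟩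
  · exact k2 c

/-- the words of the stable letters -/
def magT (Y : Type) (e : Option Ce × Bool) : FreeGroup (YM Y) :=
  if e.2 then .of (.inr e.1) else (FreeGroup.of (.inr e.1))⁻¹

theorem magMark_T (π : FreeGroup Y →* A) (e : Option Ce × Bool) :
    magMark π (magT Y e) = (magD A).t e := by
  obtain ⟨o, _ | _⟩ := e
  · have : ((magD A).t (o, true))⁻¹ = (magD A).t (o, false) := ((magD A).t_bar (o, true)).symm
    simpa [magT, magMark_inr] using this
  · simp [magT, magMark_inr]

theorem norm_magT (e : Option Ce × Bool) : (magT Y e).norm ≤ 1 := by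
  obtain ⟨o, _ | _⟩ := e <;> simp [magT]

theorem magT_bar (e : Option Ce × Bool) : magT Y (e.1, !e.2) = (magT Y e)⁻¹ := by
  obtain ⟨o, _ | _⟩ := e <;> simp [magT]

/-- the relators of the magic layer -/
def magRel (Y : Type) : Set (FreeGroup (YM Y)) :=
  FreeGroup.map Sum.inl '' (FreeGroup.map Sum.inl '' gpRel rook Y ∪ prodRel (Ce × Y) Y) ∪
    Set.range fun q : (Option Ce × Bool) × Li × Y =>
      (magT Y q.1)⁻¹ * FreeGroup.map Sum.inl (magW q.1 (.of q.2)) * magT Y q.1 *
        (FreeGroup.map Sum.inl (magW (q.1.1, !q.1.2) (.of q.2)))⁻¹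

theorem magRel_finite [Finite Y] : (magRel Y).Finite :=
  ((((gpRel_finite rook).image _).union prodRel_finite).image _).union (Set.finite_range _)

theorem magMark_rel (π : FreeGroup Y →* A) : ∀ w ∈ magRel Y, magMark π w = 1 := by
  rintro _ (⟨w, ⟨v, hv, rfl⟩ | hw, rfl⟩ | ⟨⟨e, p⟩, rfl⟩)
  · rw [magMark_inl, magBase, prodMark_inl, gpMark_rel _ _ v hv]
    exact map_one _
  · rw [magMark_inl, magBase, prodMark_rel _ _ w hw, map_one]
  · obtain ⟨h1, h2⟩ := magBase_W_mem π e (.of p)
    simp only [map_mul, map_inv, magMark_inl, magMark_T]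
    rw [(magD A).t_conj e h1, h2]
    exact mul_inv_cancel _

/-! ### locality -/

/-- pairs of words represent the elements of the base group -/
noncomputable def magRep (π : FreeGroup Y →* A) : RepSys (magD A) (magMark π) where
  Rp := FreeGroup (Ce × Y) × FreeGroup Y
  val r := (gpMark rook π r.1, π r.2)
  wd r := FreeGroup.map Sum.inl (FreeGroup.map Sum.inl r.1 * FreeGroup.map Sum.inr r.2)
  sz r := max r.1.norm r.2.norm
  tw := magT Y
  π_wd r := by
    rw [magMark_inl, map_mul, magBase, prodMark_inl, prodMark_inr]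
    simp
  π_tw := magMark_T π
  tw_le := norm_magT

/-- every element of an associated subgroup has a short expression, and so has its image -/
theorem exists_magW {π : FreeGroup Y →* A} (hπ : Surjective π) (e : Option Ce × Bool)
    (g : FreeGroup (Ce × Y)) (a : FreeGroup Y) (h : (gpMark rook π g, π a) ∈ (magD A).H e) :
    ∃ v : FreeGroup (Li × Y), v.norm ≤ max g.norm a.norm ∧
      magBase π (magW e v) = (gpMark rook π g, π a) ∧
      ∃ (g' : FreeGroup (Ce × Y)) (a' : FreeGroup Y), max g'.norm a'.norm ≤ max g.norm a.norm ∧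
        magBase π (magW (e.1, !e.2) v) = (gpMark rook π g', π a') := by
  have hs : ∀ u : FreeGroup Y, FreeGroup.map Prod.snd (FreeGroup.map (Prod.mk l0) u) = u :=
    fun u => by rw [FreeGroup.map.comp]; exact FreeGroup.map.id u
  obtain ⟨_ | c, _ | _⟩ := e
  · obtain ⟨v, h1, h2⟩ := exists_line_word hπ g h.1
    obtain ⟨k1, k2, -⟩ := magBase_W π v
    refine ⟨v, h1.trans (le_max_left _ _), ?_, g, 1, by simp, ?_⟩
    · rw [k2, ← chi'_phi, h2]
      exact Prod.ext rfl h.2.symm
    · rw [map_one, ← h2]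
      exact k1
  · obtain ⟨v, h1, h2⟩ := exists_line_word hπ g h.1
    obtain ⟨k1, k2, -⟩ := magBase_W π v
    have h3 := lip_chiW.norm_le v
    refine ⟨v, h1.trans (le_max_left _ _), ?_, g, chiW v, by omega, ?_⟩
    · rw [k1, h2]
      exact Prod.ext rfl (Subgroup.mem_bot.1 h.2).symm
    · rw [map_chiW, ← h2]
      exact k2
  · obtain ⟨b, hb⟩ := h.1
    obtain ⟨u, h1, h2⟩ := exists_cell_word rook hπ g hb.symm
    obtain ⟨-, -, k⟩ := magBase_W π (FreeGroup.map (Prod.mk l0) u)
    refine ⟨FreeGroup.map (Prod.mk l0) u, (norm_map_le _ u).trans (h1.trans (le_max_left _ _)), ?_,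
      1, u, by simp [h1], ?_⟩
    · rw [(k c).2, hs, h2]
      exact Prod.ext hb (Subgroup.mem_bot.1 h.2).symm
    · exact (k c).1.trans (by rw [map_one, hs])
  · obtain ⟨-, -, k⟩ := magBase_W π (FreeGroup.map (Prod.mk l0) a)
    have h1 := norm_map_le (Prod.mk c) a
    refine ⟨FreeGroup.map (Prod.mk l0) a, (norm_map_le _ a).trans (le_max_right _ _), ?_,
      FreeGroup.map (Prod.mk c) a, 1, by simp [h1], ?_⟩
    · rw [(k c).1, hs]
      exact Prod.ext (Subgroup.mem_bot.1 h.1).symm rfl
    · exact (k c).2.trans (by rw [map_one, gpMark_map, hs])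

section Loc

variable {θ : LT (YM Y)} {L m : ℕ} {π : FreeGroup Y →* A}

theorem LT.Closed.mag_transfer (h : θ.Closed L) (hR : magRel Y ⊆ θ.T) {n : ℕ}
    (hL : 40 * (n + 1) ≤ L) (e : Option Ce × Bool) (v : FreeGroup (Li × Y)) (hv : v.norm ≤ n) :
    θ.E ((magT Y e)⁻¹ * FreeGroup.map Sum.inl (magW e v) * magT Y e)
      (FreeGroup.map Sum.inl (magW (e.1, !e.2) v)) :=
  h.transfer (a := (FreeGroup.map Sum.inl).comp (magW e))
    (b := (FreeGroup.map Sum.inl).comp (magW (e.1, !e.2))) (Λ := 4)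
    (fun p => (norm_map_le _ _).trans (lip_magW e p))
    (fun p => (norm_map_le _ _).trans (lip_magW _ p)) ((norm_magT e).trans (by omega))
    (fun p => hR (Or.inr ⟨(e, p), rfl⟩)) (by omega) v hv

theorem LT.Closed.mag_base_KT (h : θ.Closed L) (hR : magRel Y ⊆ θ.T) {n : ℕ}
    (hL : 64 * (n + 1) * (n + 1) ≤ L) (hT : (θ.comap magIota).KT π n) :
    (θ.comap (FreeGroup.map Sum.inl)).KT (magBase π) n := by
  have h1 : (θ.comap (FreeGroup.map Sum.inl)).Closed L := h.comap (lip_map _) (by omega)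
  have h2 := h1.comap (lip_map (Sum.inl : Ce × Y → _)) (L' := L) (by omega)
  refine h1.prod_KT (fun w hw => hR (Or.inl ⟨w, Or.inr hw, rfl⟩)) hL ?_ fun w hw h3 => ?_
  · refine h2.gp_KT (fun w hw => hR (Or.inl ⟨_, Or.inl ⟨w, hw, rfl⟩, rfl⟩)) (by nlinarith)
      fun c w hw h3 => ?_
    have h4 := h.mag_transfer hR (n := n) (by nlinarith) (some c, true)
      (FreeGroup.map (Prod.mk l0) w) ((norm_map_le _ _).trans hw)
    have e1 : FreeGroup.map Sum.inl (magW (some c, true) (FreeGroup.map (Prod.mk l0) w)) =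
        magIota w := by
      simp only [magW, FreeGroup.map.comp]
      rfl
    have e2 : FreeGroup.map (Sum.inl : _ → YM Y)
        (magW (some c, false) (FreeGroup.map (Prod.mk l0) w)) =
        FreeGroup.map Sum.inl (FreeGroup.map Sum.inl (FreeGroup.map (Prod.mk c) w)) := by
      simp only [magW, FreeGroup.map.comp]
      rfl
    rw [e1, Bool.not_true, e2] at h4
    have h5 := norm_magT (Y := Y) (some c, true)
    have h6 := lip_magIota.norm_le w
    have h7 : ((magT Y (some c, true))⁻¹ * magIota w * magT Y (some c, true)).norm ≤ n + 2 := by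
      have k2 := nmul (magT Y (some c, true))⁻¹ (magIota w)
      have k3 := nmul ((magT Y (some c, true))⁻¹ * magIota w) (magT Y (some c, true))
      rw [FreeGroup.norm_inv_eq] at k2
      omega
    have h8 : (FreeGroup.map (Sum.inl : _ → YM Y) (FreeGroup.map Sum.inl
        (FreeGroup.map (Prod.mk c) w))).norm ≤ n + 2 :=
      (norm_map_le _ _).trans ((norm_map_le _ _).trans ((norm_map_le _ _).trans (by omega)))
    have h9 := h.conj (magT Y (some c, true))⁻¹ _ (by rw [FreeGroup.norm_inv_eq]; nlinarith)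
      (by nlinarith) (hT w hw h3)
    rw [inv_inv] at h9
    exact h.memT (B := n + 2) (by nlinarith) h8 h7 (h.symm (by nlinarith) h7 h8 h4) h9
  · rw [LT.mem_comap_T, LT.mem_comap_T, ← magIota_eq]
    exact hT w hw h3

theorem LT.Closed.mag_rep (hπ : Surjective π) (h : θ.Closed L) (hR : magRel Y ⊆ θ.T)
    (hL : 4000 * (m + 1) * (m + 1) ≤ L) (hT : (θ.comap magIota).KT π (6 * (m + 1)))
    (w : FreeGroup (YM Y)) (hw : w.norm ≤ m) :
    ∃ r l, (magD A).Red ((magRep π).vl l) ∧ (magRep π).szl r l ≤ w.norm ∧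
      θ.E w ((magRep π).wl r l) := by
  have hB := h.mag_base_KT hR (by nlinarith) hT
  have hE : ∀ u v : FreeGroup ((Ce × Y) ⊕ Y), u.norm + v.norm ≤ 6 * (m + 1) →
      magBase π u = magBase π v → θ.E (FreeGroup.map Sum.inl u) (FreeGroup.map Sum.inl v) := by
    intro u v h1 h2
    have := hB (u * v⁻¹) ((nmul _ _).trans (by rwa [FreeGroup.norm_inv_eq])) (by simp [h2])
    simpa [LT.E] using this
  have hn : ∀ (g : FreeGroup (Ce × Y)) (a : FreeGroup Y),
      (FreeGroup.map Sum.inl g * FreeGroup.map Sum.inr a).norm ≤ 2 * max g.norm a.norm := by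
    intro g a
    have h1 := norm_map_le (Sum.inl : _ → (Ce × Y) ⊕ Y) g
    have h2 := norm_map_le (Sum.inr : _ → (Ce × Y) ⊕ Y) a
    exact (nmul _ _).trans (by omega)
  have hv : ∀ (g : FreeGroup (Ce × Y)) (a : FreeGroup Y),
      magBase π (FreeGroup.map Sum.inl g * FreeGroup.map Sum.inr a) = (gpMark rook π g, π a) := by
    intro g a
    simp [magBase, prodMark_inl, prodMark_inr]
  refine (magRep π).rep h (F := 2 * m) (by nlinarith) ?_ ⟨(1, 1), by simp [magRep], by simp [magRep]⟩
    ?_ ?_ ?_ w hw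
  · rintro ⟨g, a⟩ hr
    exact (norm_map_le _ _).trans ((hn g a).trans (Nat.mul_le_mul_left 2 hr))
  · rintro ⟨(z | z) | o, b⟩
    · refine Or.inl ⟨(FreeGroup.mk [(z, b)], 1), ?_, h.of_eq ?_⟩
      · exact max_le FreeGroup.norm_mk_le (by simp)
      · simp [magRep, FreeGroup.map.mk]
    · refine Or.inl ⟨(1, FreeGroup.mk [(z, b)]), ?_, h.of_eq ?_⟩
      · exact max_le (by simp) FreeGroup.norm_mk_le
      · simp [magRep, FreeGroup.map.mk]
    · refine Or.inr ⟨(o, b), ?_⟩
      cases b <;> rfl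
  · rintro ⟨g, a⟩ ⟨g', a'⟩ hr
    change max g.norm a.norm + max g'.norm a'.norm ≤ m at hr
    have h1 := nmul g g'
    have h2 := nmul a a'
    refine ⟨(g * g', a * a'), ?_, ?_⟩
    · change max (g * g').norm (a * a').norm ≤ max g.norm a.norm + max g'.norm a'.norm
      omega
    · simp only [magRep]
      rw [← map_mul]
      refine hE _ _ ?_ (by rw [map_mul, hv, hv, hv]; simp)
      have h3 := hn g a
      have h4 := hn g' a'
      have h5 := hn (g * g') (a * a')
      have h6 := nmul (FreeGroup.map Sum.inl g * FreeGroup.map Sum.inr a)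
        (FreeGroup.map Sum.inl g' * FreeGroup.map Sum.inr a')
      omega
  · rintro e ⟨g, a⟩ he hr
    change max g.norm a.norm + 2 ≤ m at hr
    obtain ⟨v, h1, h2, g', a', h3, h4⟩ := exists_magW hπ e g a he
    refine ⟨(g', a'), h3.trans (Nat.le_add_right _ _), ?_⟩
    change θ.E (magT Y (e.1, !e.2) * FreeGroup.map Sum.inl
      (FreeGroup.map Sum.inl g * FreeGroup.map Sum.inr a) * magT Y e)
      (FreeGroup.map Sum.inl (FreeGroup.map Sum.inl g' * FreeGroup.map Sum.inr a'))
    rw [magT_bar]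
    have n1 := hn g a
    have n2 := hn g' a'
    have n3 := (lip_magW e).norm_le v
    have n4 := (lip_magW (e.1, !e.2)).norm_le v
    have n5 := norm_magT (Y := Y) e
    have n6 : ∀ u : FreeGroup ((Ce × Y) ⊕ Y), u.norm ≤ 4 * m →
        (FreeGroup.map (Sum.inl : _ → YM Y) u).norm ≤ 4 * m + 2 ∧
        ((magT Y e)⁻¹ * FreeGroup.map Sum.inl u * magT Y e).norm ≤ 4 * m + 2 := by
      intro u hu
      have k1 := norm_map_le (Sum.inl : _ → YM Y) u
      have k2 := nmul (magT Y e)⁻¹ (FreeGroup.map Sum.inl u)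
      have k3 := nmul ((magT Y e)⁻¹ * FreeGroup.map Sum.inl u) (magT Y e)
      rw [FreeGroup.norm_inv_eq] at k2
      omega
    have hL' : 2 * (4 * m + 2) ≤ L := by nlinarith
    refine h.trans hL' (n6 _ (by omega)).2 (n6 (magW e v) (by omega)).2 (n6 _ (by omega)).1
      (h.mid hL' (by rw [FreeGroup.norm_inv_eq]; omega) (n6 _ (by omega)).1 (n6 _ (by omega)).1
        (hE _ _ (by omega) (by rw [hv, h2])) _) ?_
    exact h.trans hL' (n6 _ (by omega)).2 (n6 _ (by omega)).1 (n6 _ (by omega)).1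
      (h.mag_transfer hR (n := m) (by nlinarith) e v (by omega))
      (hE _ _ (by omega) (by rw [hv, h4]))

/-- **a short word with value in `Δ A` is equivalent to a short word in `Δ`** -/
theorem LT.Closed.mag_base (hπ : Surjective π) (h : θ.Closed L) (hR : magRel Y ⊆ θ.T)
    (hL : 4000 * (m + 1) * (m + 1) ≤ L) (hT : (θ.comap magIota).KT π (6 * (m + 1)))
    (w : FreeGroup (YM Y)) (hw : w.norm ≤ m) {a : A} (ha : magMark π w = magDelta a) :
    ∃ w₀ : FreeGroup Y, w₀.norm ≤ w.norm ∧ π w₀ = a ∧ θ.E w (magIota w₀) := by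
  obtain ⟨⟨g, u⟩, l, h1, h2, h3⟩ := (h.sound (magMark π)).mag_rep hπ
    (fun v hv => ⟨hR hv, magMark_rel π v hv⟩) hL
    (fun v hv h1 => ⟨hT v hv h1, by rw [magMark_iota, h1, map_one]⟩) w hw
  have h4 := (h3.eq (θ := θ.sound (magMark π)) (π := magMark π) fun _ hv => hv.2).trans
    ((magRep π).π_wl (g, u) l)
  rw [ha, magDelta_apply] at h4
  obtain ⟨h5, h6⟩ := MHD.eq_nil_of_ev_eq h1 h4.symm
  obtain rfl : l = [] := List.map_eq_nil_iff.1 h5
  have h7 : max g.norm u.norm ≤ w.norm := by simpa [RepSys.szl, magRep] using h2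
  have h8 : θ.E w (FreeGroup.map Sum.inl (FreeGroup.map Sum.inl g) * magIota u) := by
    simpa [RepSys.wl, magRep, magIota_eq, LT.E] using h3.1
  have h9 : FreeGroup.map Sum.inl (FreeGroup.map Sum.inl g) ∈ θ.T :=
    h.mag_base_KT hR (by nlinarith) hT _ ((norm_map_le _ _).trans (by omega))
      (by rw [magBase, prodMark_inl, show gpMark rook π g = 1 from congrArg Prod.fst h6]; rfl)
  have n1 := lip_magIota.norm_le u
  have n2 : (FreeGroup.map (Sum.inl : _ → YM Y) (FreeGroup.map Sum.inl g)).norm ≤ g.norm :=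
    (norm_map_le _ _).trans (norm_map_le _ _)
  refine ⟨u, by omega, congrArg Prod.snd h6, h.trans (B := 2 * m) (by nlinarith) (by omega)
    ((nmul _ _).trans (by omega)) (by omega) h8 ?_⟩
  simpa using (LT.E_one.2 h9).mul_right (magIota u)

theorem LT.Closed.mag_KT (hπ : Surjective π) (h : θ.Closed L) (hR : magRel Y ⊆ θ.T)
    (hL : 4000 * (m + 1) * (m + 1) ≤ L) (hT : (θ.comap magIota).KT π (6 * (m + 1))) :
    θ.KT (magMark π) m := by
  intro w hw h1
  obtain ⟨u, h2, h3, h4⟩ := h.mag_base hπ hR hL hT w hw (h1.trans (map_one _).symm)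
  have n1 := lip_magIota.norm_le u
  exact h.memT (B := m) (by nlinarith) hw (by omega) h4 (hT u (by omega) h3)

theorem LT.Closed.mag_KM (hπ : Surjective π) (h : θ.Closed L) (hR : magRel Y ⊆ θ.T)
    (hL : 4000 * (m + 1) * (m + 1) ≤ L) (hT : (θ.comap magIota).KT π (6 * (m + 1)))
    {J : Subgroup A} (hM : (θ.comap magIota).KM π J m) :
    θ.KM (magMark π) (J.map magDelta) m := by
  rintro w hw ⟨a, ha, h1⟩
  obtain ⟨u, h2, h3, h4⟩ := h.mag_base hπ hR hL hT w hw h1.symm
  have n1 := lip_magIota.norm_le u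
  exact h.memM (B := m) (by nlinarith) hw (by omega) h4 (hM u (by omega) (h3 ▸ ha))

end Loc

end Crest.Agent.R185
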