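import Crest.Agent.R185.CT
import Crest.Agent.R185.CHig
import Crest.Agent.R185.CGlue

/-!
# Row 185, core: the package
-/

set_option autoImplicit false

namespace Crest.Agent.R185

open Function

section Comp

variable {Y Z : Type} [DecidableEq Y] [Fintype Y] [Primcodable Y] [DecidableEq Z] [Fintype Z]
  [Primcodable Z] {α β : Type} [Primcodable α] [Primcodable β]

theorem cm_RF_iUnion {F : β → Set (FreeGroup Y)} (h : CL F) : RF fun _ : α => ⋃ b, F b := by
  obtain ⟨g, hg, h⟩ := h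
  refine ⟨fun _ d => ∃ b, FreeGroup.mk d ∈ wset (g b),
    rePred_exists (q := fun x : (α × Wd Y) × β => FreeGroup.mk x.1.2 ∈ wset (g x.2))
      (cc_mem_computable (hg.comp Computable.snd) (Computable.snd.comp Computable.fst)).to_re,
    fun _ => ?_⟩
  ext w
  simp only [Set.mem_ofPred_eq, Set.mem_iUnion, h]
  constructor
  · rintro ⟨d, hb, rfl⟩
    exact hb
  · intro hb
    exact ⟨w.toWord, by rwa [FreeGroup.mk_toWord], FreeGroup.mk_toWord⟩

theorem cm_CF_star (g : FreeGroup (YA Y)) {n : α → ℕ} (hn : Computable n) :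
    CF (fun a => starw g (n a)) ∧ CF fun a => starw g (-(n a : ℤ)) := by
  have h1 : CF fun a => (aU : FreeGroup (YA Y)) ^ n a := (CF.const _).pow hn
  constructor
  · have := ((((CF.const aT).mul h1.inv).mul (CF.const g)).mul h1).mul (CF.const aT⁻¹)
    simpa only [starw, zpow_neg, zpow_natCast] using this
  · have := ((((CF.const aT).mul h1).mul (CF.const g)).mul h1.inv).mul (CF.const aT⁻¹)
    simpa only [starw, zpow_neg, zpow_natCast, inv_inv] using this

theorem cm_CL_famA : CL fun n : ℕ => famA Y n := by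
  have h0 : CL fun _ : ℕ => ({aU} ∪ Set.range fun y : Y => aT * aX (.of y) * aT⁻¹) :=
    CL.const ((Set.finite_singleton _).union (Set.finite_range _))
  have hs : Computable fun x : ℕ × ℕ => x.2 := Computable.snd
  have hs' : Computable fun x : ℕ × ℕ => x.2 + 1 := Computable.succ.comp Computable.snd
  have h1 := ((CL.singleton (cm_CF_star (Y := Y) aB hs).1).union
    (CL.singleton (cm_CF_star aB hs).2)).iUnion_lt (n := fun n => n + 1) Computable.succ
  have h2 := ((CL.singleton (cm_CF_star (Y := Y) aT hs').1).union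
    (CL.singleton (cm_CF_star aT hs').2)).iUnion_lt (n := fun n => n) Computable.id
  convert (h0.union h1).union h2 using 2 with n
  ext w
  simp only [famA, Set.mem_ofPred_eq, Set.mem_union, Set.mem_singleton_iff, Set.mem_range]
  constructor
  · rintro (h | ⟨y, h⟩ | ⟨i, hi, h⟩ | ⟨i, h0, hi, h⟩)
    · exact Or.inl (Or.inl (Or.inl h))
    · exact Or.inl (Or.inl (Or.inr ⟨y, h.symm⟩))
    · refine Or.inl (Or.inr ⟨i.natAbs, by omega, ?_⟩)
      rcases Int.natAbs_eq i with e | e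
      · exact Or.inl (by rw [← e]; exact h)
      · exact Or.inr (by rw [← e]; exact h)
    · refine Or.inr ⟨i.natAbs - 1, by omega, ?_⟩
      have e' : i.natAbs - 1 + 1 = i.natAbs := by omega
      rw [e']
      rcases Int.natAbs_eq i with e | e
      · exact Or.inl (by rw [← e]; exact h)
      · exact Or.inr (by rw [← e]; exact h)
  · rintro (((h | ⟨y, h⟩) | ⟨i, hi, h | h⟩) | ⟨i, hi, h | h⟩)
    · exact Or.inl h
    · exact Or.inr (Or.inl ⟨y, h.symm⟩)
    · exact Or.inr (Or.inr (Or.inl ⟨_, by omega, h⟩))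
    · exact Or.inr (Or.inr (Or.inl ⟨_, by omega, h⟩))
    · exact Or.inr (Or.inr (Or.inr ⟨_, by omega, by omega, h⟩))
    · exact Or.inr (Or.inr (Or.inr ⟨_, by omega, by omega, h⟩))

theorem cm_CF_claimw {x δ : α → FreeGroup Y} (hx : CF x) (hδ : CF δ) {n : α → ℕ}
    (hn : Computable n) : CF fun a => claimw (x a, n a, δ a) := by
  have h1 : CF fun a => (aB : FreeGroup (YA Y)) ^ n a := (CF.const _).pow hn
  have h2 : CF fun a => guard (x a) (n a) (δ a) :=
    (((hx.hom aX).mul h1).mul (hδ.hom aX)).mul h1.inv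
  exact (h2.inv.mul (CF.const aT)).mul h2

theorem cm_CF_tw [Primcodable YK] {root : ℕ → Reg → ℕ} (h : Computable root) :
    CF fun e => tw fun i => (root e i : ℤ) := by
  have key : ∀ l : List Reg, CF fun e =>
      (l.map fun i : Reg => (FreeGroup.of (Sum.inl i) : FreeGroup YK) ^ (root e i : ℤ)).prod := by
    intro l
    induction l with
    | nil => exact CF.const 1
    | cons i l ih =>
      have h1 : Computable fun e => root e i := Computable.fin_app.comp h (Computable.const i)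
      have := ((CF.const (FreeGroup.of (Sum.inl i) : FreeGroup YK)).pow h1).mul ih
      simpa only [List.map_cons, List.prod_cons, zpow_natCast] using this
  exact ((key _).mul (CF.const _)).mul (key _).inv

end Comp

theorem cm_genA_finite : genA.Finite := by
  refine ((Set.finite_range fun ty : Ty => (FreeGroup.of (.inr (.inl ty)) : FreeGroup YK)).union
    (Set.finite_singleton (FreeGroup.of (.inr (.inr 2))))).subset ?_
  rintro w (⟨ty, h⟩ | h)
  · exact Or.inl ⟨ty, h.symm⟩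
  · exact Or.inr h

theorem cm_rho0_ne : rho0 ≠ 1 := by
  intro h
  have h1 := congrArg (FreeGroup.lift (Sum.elim
    (fun i : Reg => if i = 0 then Equiv.swap (0 : Fin 3) 1 else Equiv.swap 1 2) fun _ => 1)) h
  simp only [rho0, map_mul, map_inv, FreeGroup.lift_apply_of, Sum.elim_inl, map_one] at h1
  revert h1
  decide

namespace TData

variable {s : ℕ} {S Y' : Type} (t : TData s S Y')

theorem cm_lam_claimw (r : RecData (YT s)) (hψ : r.ψ = t.ψ) (hτ : r.τ = t.lam aT)
    (ρ₀ : FreeGroup (YT s)) (M : ℕ) (x : FreeGroup (YT s)) :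
    t.lam (claimw (x, M + 1, r.ψ^[M] ρ₀)) =
      (r.gd (t.lam aB) ρ₀ M x)⁻¹ * r.τ * r.gd (t.lam aB) ρ₀ M x := by
  simp only [claimw, guard, map_mul, map_inv, map_pow, RecData.gd, hψ, hτ]
  rfl

theorem cm_mem_V_η (Cl : Set (FreeGroup (YT s) × ℕ × FreeGroup (YT s))) {v : FreeGroup (YT s)}
    (hv : v ∈ η s) : t.eA (aX v) ∈ t.V Cl := ⟨_, Or.inl (Or.inl ⟨v, hv, rfl⟩), rfl⟩

theorem cm_mem_V_fam (Cl : Set (FreeGroup (YT s) × ℕ × FreeGroup (YT s))) {n : ℕ}
    {v : FreeGroup (YA (YT s))} (hv : v ∈ famA (YT s) n) : t.eA v ∈ t.V Cl :=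
  ⟨_, Or.inl (Or.inr (Set.mem_iUnion.2 ⟨n, hv⟩)), rfl⟩

theorem cm_mem_V_claim {Cl : Set (FreeGroup (YT s) × ℕ × FreeGroup (YT s))}
    {z : FreeGroup (YT s) × ℕ × FreeGroup (YT s)} (hz : z ∈ Cl) : t.eA (claimw z) ∈ t.V Cl :=
  ⟨_, Or.inr ⟨z, hz, rfl⟩, rfl⟩

/-- the data of the recursion -/
def cmR {G' : Type} [Group G'] [DecidableEq Y'] (π' : FreeGroup Y' →* G') (root : Reg → ℤ) :
    RecData (YT s) where
  f M := ex t.k (M + (tw root).norm)
  GT M := t.R root ∪ t.κ '' (t.eG '' {w | w.norm ≤ t.cG * (M + 1) ∧ π' w = 1})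
  GM M := η s ∪ t.lam '' famA (YT s) M
  ψ := t.ψ
  τ := t.lam aT

/-- the claims -/
def cmCl {G' : Type} [Group G'] [DecidableEq Y'] (π' : FreeGroup Y' →* G') (root : Reg → ℤ) :
    Set (FreeGroup (YT s) × ℕ × FreeGroup (YT s)) :=
  {z | ∃ M x, (t.cmR π' root).Claim M x ∧ z = (x, M + 1, t.ψ^[M] (mu YK s rho0))}

variable [DecidableEq S] [DecidableEq Y'] {G' : Type} [Group G'] {π' : FreeGroup Y' →* G'}
  {M : RM S} {root : Reg → ℤ} {C : Set (Reg → ℤ)} {γ : (Reg → ℤ) → FreeGroup S}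
  {dep : (Reg → ℤ) → ℕ}

theorem cm_recHyp (hs : 0 < s)
    (h : ∀ (N : Subgroup (FreeGroup (YT s))) [N.Normal], t.Step π' M root N)
    (hg : M.Good (t.V (t.cmCl π' root)) root C γ dep) :
    RecHyp (t.cmR π' root) (t.R root) (η s) (t.lam aB) (mu YK s rho0) where
  comap N _ := (h N).comap
  ρ_ne e := cm_rho0_ne (mu_injective hs (e.trans (map_one _).symm))
  ρ_mem := (h ⊥).rho
  ψ_mem N _ x hx := by
    refine ⟨?_, (h N).τ_comm x hx⟩
    have : HH (η s) N ≤ (t.HN root N).comap t.ψ := by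
      refine sup_le ((Subgroup.closure_le _).2 fun v hv => ?_) fun v hv => ?_
      · exact (h N).link _ _ _ _ hg _ (t.cm_mem_V_η _ hv)
      · exact Subgroup.mem_sup_right (((h N).comap v).2 hv)
    exact this hx
  gd_mem N _ m x hx := by
    rw [← t.cm_lam_claimw (t.cmR π' root) rfl rfl]
    exact (h N).link _ _ _ _ hg _ (t.cm_mem_V_claim ⟨m, x, hx, rfl⟩)
  GT_mem m := by
    rintro _ (hv | ⟨_, ⟨w, hw, rfl⟩, rfl⟩)
    · exact Subgroup.subset_normalClosure (Or.inl hv)
    · exact ((h ⊥).G_iff w).2 hw.2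
  GM_mem m := by
    rintro _ (hv | ⟨v, hv, rfl⟩)
    · exact Subgroup.mem_sup_left (Subgroup.subset_closure hv)
    · exact (h ⊥).link _ _ _ _ hg _ (t.cm_mem_V_fam _ hv)
  loc N _ m hcl θ hθ hT hM := by
    refine (h N).loc _ _ _ _ hg m ?_ θ _ hθ le_rfl (fun v hv => hT (Or.inl hv))
      (fun w hw h1 => hT (Or.inr ⟨_, ⟨w, ⟨hw, h1⟩, rfl⟩, rfl⟩)) (fun v hv => hM (Or.inl hv))
      fun v hv => hM (Or.inr hv)
    rintro _ ⟨m', x, hx, rfl⟩
    exact (hcl m' x hx).imp id fun h1 => ⟨h1.1, Nat.lt_succ_of_le h1.2⟩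

theorem cm_RF [Fintype S] [Primcodable S] [Fintype Y'] [Primcodable Y']
    (hdec : ComputablePred fun d : Wd Y' => π' (.mk d) = 1) {rt : ℕ → Reg → ℕ}
    (hrt : Computable rt) : RF fun e => t.V (t.cmCl π' fun i => (rt e i : ℤ)) := by
  letI : Primcodable YK := Primcodable.ofEquiv (Fin _) (Fintype.equivFin _)
  letI : Primcodable (YT s) := Primcodable.ofEquiv (Fin _) (Fintype.equivFin _)
  letI : DecidableEq (YA (YT s)) := Classical.decEq _
  have htw := cm_CF_tw hrt
  have hη : (η s).Finite := cm_genA_finite.image _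
  have hf : Computable₂ fun e m => ex t.k (m + (tw fun i => (rt e i : ℤ)).norm) :=
    primrec_ex.to_comp.comp (Computable.const _)
      (Primrec.nat_add.to_comp.comp Computable.snd (htw.norm.comp Computable.fst))
  have hR : CL fun e => t.R fun i => (rt e i : ℤ) :=
    (CL.const t.fin).union (CL.singleton (((CF.const _).mul htw.inv).hom (mu YK s)))
  have hn : Computable fun x : ℕ × ℕ => t.cG * (x.2 + 1) :=
    Primrec.nat_mul.to_comp.comp (Computable.const _) (Computable.succ.comp Computable.snd)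
  have hc := claim_computable hf (fun e m => (Nat.le_add_right _ _).trans (le_ex _ _))
    (GT := fun e => (t.cmR π' fun i => (rt e i : ℤ)).GT)
    (GM := fun e => (t.cmR π' fun i => (rt e i : ℤ)).GM)
    ((hR.comp Computable.fst).union
      (((CL.ball (q := fun w => π' w = 1) hdec hn).image t.eG).image t.κ))
    ((CL.const hη).union ((cm_CL_famA.comp Computable.snd).image t.lam)) t.ψ (t.lam aT)
  have hm : Computable fun x : ℕ × ℕ × Wd (YT s) => x.2.1 := Computable.fst.comp Computable.snd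
  have h1 : RF fun _ : ℕ => t.eA '' (aX '' η s) := RF.const ((hη.image _).image _)
  have h2 : RF fun _ : ℕ => ⋃ n, t.eA '' famA (YT s) n := cm_RF_iUnion (cm_CL_famA.image t.eA)
  have h3 := RF.range ((cm_CF_claimw (CF.mk (Computable.snd.comp Computable.snd))
    ((CF.const (mu YK s rho0)).iterate t.ψ hm) (Computable.succ.comp hm)).hom t.eA) hc.to_re
  convert (h1.union h2).union h3 using 2 with e
  rw [V, Set.image_union, Set.image_union, Set.image_iUnion]
  congr 1
  ext w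
  constructor
  · rintro ⟨_, ⟨_, ⟨m, x, hx, rfl⟩, rfl⟩, rfl⟩
    refine ⟨(m, x.toWord), ?_, ?_⟩
    · dsimp only
      rw [FreeGroup.mk_toWord]
      exact hx
    · dsimp only
      rw [FreeGroup.mk_toWord]
  · rintro ⟨b, hb, rfl⟩
    exact ⟨_, ⟨_, ⟨b.1, .mk b.2, hb, rfl⟩, rfl⟩, rfl⟩

theorem cm_pkg (hπ' : Surjective π') {N : Subgroup (FreeGroup (YT s))} [N.Normal]
    (h : t.Step π' M root N) (hN : t.TN root N = N)
    {Cl : Set (FreeGroup (YT s) × ℕ × FreeGroup (YT s))} (hg : M.Good (t.V Cl) root C γ dep)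
    (hok : OK N Cl 0) (hall : ∀ x, x ∉ HH (η s) N → ∃ n δ, δ ∈ N ∧ (x, n, δ) ∈ Cl)
    (hmin : ∀ N' : Subgroup (FreeGroup (YT s)), N'.Normal → t.R root ⊆ N' →
      (∀ w ∈ N', t.ψ w ∈ N') → N ≤ N') :
    ∃ (P : Type) (_ : Group P) (f : G' →* P), Injective f ∧ Nonempty (Pkg P) := by
  have hH : t.HN root N = HH (η s) N := congrArg (HH (η s)) hN
  have hcomap : ∀ w, t.ψ w ∈ N ↔ w ∈ N := fun w => by
    have := h.comap w
    rwa [hN] at this
  have hlink : ∀ v, t.eA v ∈ t.V Cl → t.lam v ∈ HH (η s) N := fun v hv =>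
    hH ▸ h.link _ _ _ _ hg _ hv
  obtain ⟨hψ, hτ, g, hfaith⟩ := h.inter _ _ _ _ hg hok
  rw [hH] at hψ hτ hfaith
  let p : FreeGroup (YT s) →* FreeGroup (YT s) ⧸ N := QuotientGroup.mk' N
  have hp : Surjective p := QuotientGroup.mk'_surjective N
  have hp1 : ∀ w, p w = 1 ↔ w ∈ N := fun w => QuotientGroup.eq_one_iff w
  have hpH : ∀ w, p w ∈ (HH (η s) N).map p ↔ w ∈ HH (η s) N := fun w => by
    rw [← Subgroup.mem_comap, Subgroup.comap_map_eq_self]
    rw [QuotientGroup.ker_mk']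
    exact le_sup_right
  let ψP : FreeGroup (YT s) ⧸ N →* FreeGroup (YT s) ⧸ N :=
    QuotientGroup.map N N t.ψ fun w hw => (hcomap w).2 hw
  have hψP : ∀ w, ψP (p w) = p (t.ψ w) := fun _ => rfl
  have hcomm : ∀ a b, a * b * (b * a)⁻¹ ∈ t.TN root N → Commute (p b) (p a) := fun a b hab => by
    rw [hN, ← hp1, map_mul, map_inv, mul_inv_eq_one, map_mul, map_mul] at hab
    exact hab.symm
  have hG : ∀ w, p (t.κ (t.eG w)) = 1 ↔ π' w = 1 := fun w => by rw [hp1, ← h.G_iff, hN]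
  let f : G' →* FreeGroup (YT s) ⧸ N :=
    π'.liftOfSurjective hπ' ⟨p.comp (t.κ.comp t.eG), fun w hw => (hG w).2 hw⟩
  have hf : ∀ w, f (π' w) = p (t.κ (t.eG w)) := fun w =>
    π'.liftOfRightInverse_comp_apply _ _ _ w
  refine ⟨FreeGroup (YT s) ⧸ N, inferInstance, f, (injective_iff_map_eq_one f).2 fun x hx => ?_, ⟨
    { H := (HH (η s) N).map p
      ψ := ψP
      u := p (t.lam aU)
      τ := p (t.lam aT)
      ts := p g
      ψ_mem := fun x => ?_
      killed := h.killed _ p ψP (fun w hw => (hp1 w).2 (hN ▸ hw)) fun _ => rfl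
      u_mem := (hpH _).2 (hlink _ (t.cm_mem_V_fam Cl (n := 0) (Or.inl rfl)))
      u_comm := fun x => ?_
      τ_comm := fun x hx => ?_
      τ_star := fun x => ?_
      τ_fix := fun x hx => ?_
      τ_u := fun i hi => ?_
      faith := fun x hx => ?_
      ne_top := fun e => hτ ((hpH _).1 (e ▸ Subgroup.mem_top _))
      pres := ⟨YT s, inferInstance, p, t.ψ, t.R root, hp, fun _ => rfl,
        t.fin.union (Set.finite_singleton _),
        fun r hr => (hp1 r).2 (hN ▸ Subgroup.subset_normalClosure (Or.inl hr)),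
        fun N' h1 h2 h3 w hw => hmin N' h1 h2 h3 ((hp1 w).1 hw)⟩ }⟩⟩
  · obtain ⟨w, rfl⟩ := hπ' x
    rw [hf] at hx
    exact (hG w).1 hx
  · obtain ⟨w, rfl⟩ := hp x
    rw [hψP, hpH, hpH, hψ]
  · obtain ⟨w, rfl⟩ := hp x
    exact hcomm _ _ (h.u_comm w)
  · obtain ⟨w, rfl⟩ := hp x
    exact hcomm _ _ (h.τ_comm w ((hpH w).1 hx))
  · obtain ⟨w, rfl⟩ := hp x
    rw [hψP, ← map_inv, ← map_mul, ← map_mul, hpH]
    have : (⊤ : Subgroup (FreeGroup (YT s))) ≤
        (HH (η s) N).comap ((MulAut.conj (t.lam aT)).toMonoidHom.comp t.ψ) := by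
      rw [← FreeGroup.closure_range_of, Subgroup.closure_le]
      rintro _ ⟨y, rfl⟩
      have h1 := hlink _ (t.cm_mem_V_fam Cl (n := 0) (Or.inr (Or.inl ⟨y, rfl⟩)))
      rw [map_mul, map_mul, map_inv] at h1
      exact h1
    exact this (Subgroup.mem_top w)
  · obtain ⟨w, rfl⟩ := hp x
    obtain ⟨n, δ, hδ, hz⟩ := hall w fun h1 => hx ((hpH w).2 h1)
    have h1 := (hpH _).2 (hlink _ (t.cm_mem_V_claim hz))
    have h2 : p (t.lam (guard w n δ)) = p (t.ψ w) := by
      have h3 : p (t.lam (aX δ)) = 1 := (hp1 _).2 ((hcomap δ).2 hδ)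
      simp only [guard, map_mul, map_inv, h3, mul_one, mul_inv_cancel_right]
      rfl
    simp only [claimw, map_mul, map_inv, h2] at h1
    exact h1
  · have h1 := (hpH _).2 (hlink _ (t.cm_mem_V_fam Cl (n := i.natAbs)
      (Or.inr (Or.inr (Or.inr ⟨i, hi, le_rfl, rfl⟩)))))
    simp only [starw, map_mul, map_inv, map_zpow] at h1
    exact h1
  · obtain ⟨w, rfl⟩ := hp x
    rw [hψP, ← map_inv, ← map_mul, ← map_mul, hpH]
    exact hfaith w fun h1 => hx ((hp1 w).2 h1)

end TData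

/-- **Task CMain-a.**  Take `s, S` from `exists_Tlayer`, `Primcodable` instances on `S` and `YT s`
(`Primcodable.ofEquiv (Fin _) (Fintype.equivFin _)`), `M, root` from `exists_RM S`, `t`.
For `e : ℕ` let `rt e = fun i => (root e i : ℤ)` and
`r e : RecData (YT s) := ⟨f e, GT e, GM e, t.ψ, t.lam aT⟩` with
`f e M = ex t.k (M + (tw (rt e)).norm)` (`primrec_ex`, `CF.norm`, `le_ex`; `CF` of `tw (rt e)` by
`CF.pow`, `CF.mul`), `GT e M = t.R (rt e) ∪ t.κ '' (t.eG '' {w | ‖w‖ ≤ cG (M+1) ∧ π' w = 1})`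
(`CL.ball`), `GM e M = η s ∪ t.lam '' famA _ M` (`CL.range`, `i = ± n`).
`Cl e = {(x, M + 1, t.ψ^[M] ρ₀) | (r e).Claim M x}`, `ρ₀ = mu YK s rho0` (`≠ 1`: `mu_injective`, and
`rho0 ≠ 1` by a map to `Equiv.Perm (Fin 3)`); `RF (fun e => t.V (Cl e))` (`claim_computable`,
`RF.range`, `CF.iterate`) gives `e, C, γ, dep` with `M.Good (t.V (Cl e)) (rt e) C γ dep`.
`RecHyp (r e) (t.R (rt e)) (η s) (t.lam aB) ρ₀` from `Step` (`ψ_mem`: `link` for `aX '' η`, then
closure induction in `HH`; `t.lam (guard x (M+1) δ) = (r e).gd …`).  `RecHyp.limit`, `TT_Ninf`: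
at `N = Ninf` all claims are active and true and every non-member is claimed.
`P = F ⧸ N`, `H = (HH η N).map mk'`, `ψ` induced, `u, τ` the classes of `t.lam aU`, `t.lam aT`,
`ts` from `inter`; `τ_star` for generators by `link`, then for all `x` by closure induction;
`τ_fix` from the claim `(x, ‖x‖)`; `pres` by `Ninf_le`; `f` from `G_iff`
(`QuotientGroup.lift`/`MonoidHom.liftOfSurjective`-type argument with `hπ'`). -/
theorem exists_pkg {Y' G' : Type} [Fintype Y'] [DecidableEq Y'] [Primcodable Y'] [Group G']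
    (π' : FreeGroup Y' →* G') (hπ' : Surjective π') (R' : Set (FreeGroup Y')) (hR' : R'.Finite)
    (hker : Subgroup.normalClosure R' = π'.ker)
    (hdec : ComputablePred fun d : Wd Y' => π' (.mk d) = 1) :
    ∃ (P : Type) (_ : Group P) (f : G' →* P), Injective f ∧ Nonempty (Pkg P) := by
  obtain ⟨s, hs, S, _, _, hS⟩ := exists_Tlayer π' hπ' R' hR' hker
  letI : Primcodable S := Primcodable.ofEquiv (Fin _) (Fintype.equivFin _)
  obtain ⟨M, rt, hrt, hM⟩ := exists_RM S
  obtain ⟨t, ht⟩ := hS M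
  obtain ⟨p, hp, hpV⟩ := t.cm_RF hdec hrt
  obtain ⟨e, C, γ, dep, hg⟩ := hM p hp
  rw [hpV e] at hg
  obtain ⟨h1, h2, h3⟩ := (t.cm_recHyp hs (ht _) hg).limit
  have := Ninf_normal (t.R fun i => (rt e i : ℤ)) t.ψ
  refine t.cm_pkg hπ' (ht _ (Ninf (t.R fun i => (rt e i : ℤ)) t.ψ)) (TT_Ninf _ _) hg ?_
    (fun x hx => ⟨_, _, h1 _, _, x, h3 x hx, rfl⟩) (Ninf_le _ _)
  rintro _ ⟨m, x, hx, rfl⟩
  exact Or.inl ⟨h1 m, h2 m x hx⟩

/-- `higman` with `V = ker`, then `exists_pkg` -/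
theorem core (G : Type) [Group G] (k : ℕ) (s : Fin k → G)
    (hgen : Subgroup.closure (Set.range s) = ⊤)
    (hdec : ComputablePred fun w : List (Fin k × Bool) => FreeGroup.lift s (FreeGroup.mk w) = 1) :
    ∃ (P : Type) (_ : Group P) (f : G →* P), Injective f ∧ Nonempty (Pkg P) := by
  have hs : Surjective (FreeGroup.lift s) := by
    rw [← MonoidHom.range_eq_top, FreeGroup.range_lift_eq_closure, hgen]
  have hV : RF fun _ : ℕ => ((FreeGroup.lift s).ker : Set (FreeGroup (Fin k))) := by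
    refine ⟨fun _ d => FreeGroup.lift s (FreeGroup.mk d) = 1, ?_, fun _ => ?_⟩
    · obtain ⟨_, h⟩ := hdec
      exact ComputablePred.to_re ⟨_, h.comp Computable.snd⟩
    · ext w
      constructor
      · rintro ⟨d, h, rfl⟩; exact h
      · intro h
        exact ⟨w.toWord, by beta_reduce; rwa [FreeGroup.mk_toWord], FreeGroup.mk_toWord⟩
  obtain ⟨Y, _, _, _, G', _, π', f, R, h1, h2, h3, h4, h5⟩ :=
    higman (FreeGroup.lift s) hs _ hV (Subgroup.closure_eq _)
  obtain ⟨P, _, g, hg, hP⟩ := exists_pkg π' h1 R h3 h4 (h5 hdec)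
  exact ⟨P, inferInstance, g.comp f, hg.comp h2, hP⟩

end Crest.Agent.R185
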