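import Crest.Agent.R185.TGroup

/-! # Row 185: the twisted Brin–Thompson group is simple -/

set_option autoImplicit false

open scoped Classical commutatorElement

namespace Crest.Agent.R185.TB

variable {Ω Γ : Type} [Group Γ] [MulAction Γ Ω]

variable (Γ) in
/-- a chart whose piece belongs to a vertex with at least two pieces -/
def Prp (φ : Chart Ω) : Prop := Adm Γ fun _ : Unit => φ

variable (Γ) in
/-- a chart whose piece belongs to a vertex -/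
def InV (φ : Chart Ω) : Prop := ∃ w ∈ PP Ω Γ, pm Γ φ ∈ w.s

theorem InV.mul_hs {φ : Chart Ω} (h : InV Γ φ) (s : Ω) (b : Bool) : InV Γ (φ * hs s b) := by
  obtain ⟨w, hw, hφ⟩ := h
  refine ⟨⟨spl w.s φ s⟩, PP_upper hw (lt_spl (disj_of_PP hw) hφ s).1.le, ?_⟩
  cases b <;> simp [spl]

theorem InV.mul_hL {φ : Chart Ω} (h : InV Γ φ) (L : List (Ω × Bool)) : InV Γ (φ * hL L) := by
  induction L generalizing φ with
  | nil => simpa using h
  | cons e L ih => rw [hL_cons, ← mul_assoc]; exact ih (h.mul_hs _ _)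

theorem inV_one : InV Γ (1 : Chart Ω) := ⟨_, v0_mem, by simp [v0]⟩

theorem inV_hL (L : List (Ω × Bool)) : InV Γ (hL L) := by simpa using inV_one.mul_hL (Γ := Γ) L

theorem InV.smul {φ : Chart Ω} (h : InV Γ φ) {g : Equiv.Perm (Cs Ω)} (hg : g ∈ SV Ω Γ) :
    InV Γ (pc g * φ) := by
  obtain ⟨w, hw, hφ⟩ := h
  exact ⟨g • w, smul_mem_PP hg hw, Finset.mem_image.2 ⟨_, hφ, rfl⟩⟩

theorem InV.loc_mem {φ : Chart Ω} (h : InV Γ φ) {g : Equiv.Perm (Cs Ω)} (hg : g ∈ SV Ω Γ) :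
    loc φ g ∈ SV Ω Γ := by
  obtain ⟨w, hw, hφ⟩ := h
  exact TB.loc_mem hw hφ hg

theorem exists_piece {w : Vx Ω Γ} (hw : w ∈ PP Ω Γ) (κ : Cs Ω) : ∃ q ∈ w.s, κ ∈ rng q := by
  have : κ ∈ supp w.s := by rw [supp_of_PP hw]; trivial
  exact this

theorem prp_iff {φ : Chart Ω} : Prp Γ φ ↔ InV Γ φ ∧ ∃ κ, κ ∉ φ.rg := by
  constructor
  · rintro ⟨-, w, hw, h1, q, hq, h2⟩
    obtain ⟨κ, hκ⟩ := rng_nonempty q
    exact ⟨⟨w, hw, h1 ()⟩, κ, fun h =>
      Set.disjoint_left.1 (disj_of_PP hw _ (h1 ()) _ hq (h2 ())) h hκ⟩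
  · rintro ⟨⟨w, hw, h1⟩, κ, hκ⟩
    obtain ⟨q, hq, hκq⟩ := exists_piece hw κ
    refine ⟨fun _ _ _ => rfl, w, hw, fun _ => h1, q, hq, fun _ e => hκ ?_⟩
    rwa [← e] at hκq

theorem Prp.inV {φ : Chart Ω} (h : Prp Γ φ) : InV Γ φ := (prp_iff.1 h).1

theorem mem_rg_pc {g : Equiv.Perm (Cs Ω)} {φ : Chart Ω} {κ : Cs Ω} :
    κ ∈ (pc g * φ).rg ↔ g⁻¹ κ ∈ φ.rg := by
  constructor
  · rintro ⟨κ', rfl⟩
    exact ⟨κ', by simp⟩
  · rintro ⟨κ', h⟩
    exact ⟨κ', by simp [h]⟩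

theorem Prp.smul {φ : Chart Ω} (h : Prp Γ φ) {g : Equiv.Perm (Cs Ω)} (hg : g ∈ SV Ω Γ) :
    Prp Γ (pc g * φ) := by
  obtain ⟨h1, κ, hκ⟩ := prp_iff.1 h
  exact prp_iff.2 ⟨h1.smul hg, g κ, by simpa [mem_rg_pc] using hκ⟩

theorem disjoint_of_not_subset {u y : Vx Ω Γ} (hu : u ∈ PP Ω Γ) (h : u ≤ y) {p q : Piece Ω Γ}
    (hp : p ∈ u.s) (hq : q ∈ y.s) (hn : ¬ rng q ⊆ rng p) : Disjoint (rng q) (rng p) := by
  obtain ⟨r, hr, hqr⟩ := refines_of_le h q hq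
  exact (disj_of_PP hu r hr p hp (fun e => hn (e ▸ hqr))).mono_left hqr

theorem exists_vertex_pair {φ ψ : Chart Ω} (hφ : InV Γ φ) (hψ : InV Γ ψ)
    (hd : Disjoint φ.rg ψ.rg) : ∃ z ∈ PP Ω Γ, pm Γ φ ∈ z.s ∧ pm Γ ψ ∈ z.s := by
  obtain ⟨u, hu, hφ⟩ := hφ
  obtain ⟨v, hv, hψ⟩ := hψ
  obtain ⟨y, hy, huy, hvy⟩ := PP_directed u hu v hv
  set z : Finset (Piece Ω Γ) := insert (pm Γ φ) (insert (pm Γ ψ)
    (y.s.filter fun q => ¬ rng q ⊆ φ.rg ∧ ¬ rng q ⊆ ψ.rg)) with hz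
  have hmem : ∀ p, p ∈ z ↔ p = pm Γ φ ∨ p = pm Γ ψ ∨
      (p ∈ y.s ∧ ¬ rng p ⊆ φ.rg ∧ ¬ rng p ⊆ ψ.rg) := by
    intro p; simp [hz]
  have hD : Disj z := by
    intro p hp q hq hne
    rcases (hmem p).1 hp with rfl | rfl | ⟨hp1, hp2, hp3⟩ <;>
      rcases (hmem q).1 hq with rfl | rfl | ⟨hq1, hq2, hq3⟩
    · exact absurd rfl hne
    · exact hd
    · exact (disjoint_of_not_subset hu huy hφ hq1 hq2).symm
    · exact hd.symm
    · exact absurd rfl hne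
    · exact (disjoint_of_not_subset hv hvy hψ hq1 hq3).symm
    · exact disjoint_of_not_subset hu huy hφ hp1 hp2
    · exact disjoint_of_not_subset hv hvy hψ hp1 hp3
    · exact disj_of_PP hy p hp1 q hq1 hne
  have hle : (⟨z⟩ : Vx Ω Γ) ≤ y := by
    refine Or.inr ⟨hD, fun p => res y.s (rng p), fun p hp => ?_, ?_⟩
    · rcases (hmem p).1 hp with rfl | rfl | ⟨hp1, -⟩
      · exact ex_res_of_le huy (disj_of_PP hu) hφ
      · exact ex_res_of_le hvy (disj_of_PP hv) hψ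
      · exact ex_res_of_le le_rfl (disj_of_PP hy) hp1
    · ext q
      simp only [Finset.mem_biUnion, res, Finset.mem_filter]
      constructor
      · intro hq
        by_cases h1 : rng q ⊆ φ.rg
        · exact ⟨pm Γ φ, (hmem _).2 (Or.inl rfl), hq, h1⟩
        by_cases h2 : rng q ⊆ ψ.rg
        · exact ⟨pm Γ ψ, (hmem _).2 (Or.inr (Or.inl rfl)), hq, h2⟩
        exact ⟨q, (hmem _).2 (Or.inr (Or.inr ⟨hq, h1, h2⟩)), hq, subset_rfl⟩
      · rintro ⟨p, -, hq, -⟩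
        exact hq
  exact ⟨⟨z⟩, PP_lower hy hle, (hmem _).2 (Or.inl rfl), (hmem _).2 (Or.inr (Or.inl rfl))⟩

theorem adm_pair {φ ψ : Chart Ω} (hφ : InV Γ φ) (hψ : InV Γ ψ) (hd : Disjoint φ.rg ψ.rg)
    {κ : Cs Ω} (h1 : κ ∉ φ.rg) (h2 : κ ∉ ψ.rg) :
    Adm Γ fun b : Bool => cond b φ ψ := by
  obtain ⟨z, hz, hφz, hψz⟩ := exists_vertex_pair hφ hψ hd
  have hne : pm Γ φ ≠ pm Γ ψ := by
    intro e
    have e' : φ.rg = ψ.rg := congrArg rng e
    obtain ⟨κ', hκ'⟩ := rng_nonempty (pm Γ φ)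
    exact Set.disjoint_left.1 hd hκ' (e' ▸ hκ')
  obtain ⟨q, hq, hκq⟩ := exists_piece hz κ
  refine ⟨?_, z, hz, ?_, q, hq, ?_⟩
  · intro a b e
    cases a <;> cases b
    · rfl
    · exact absurd e.symm hne
    · exact absurd e hne
    · rfl
  · intro b; cases b
    · exact hψz
    · exact hφz
  · intro b e
    cases b
    · rw [← e] at hκq; exact h2 hκq
    · rw [← e] at hκq; exact h1 hκq

theorem exists_third [Nonempty Ω] {φ ψ : Chart Ω} (hφ : InV Γ φ) (hψ : InV Γ ψ)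
    {κ : Cs Ω} (h1 : κ ∉ φ.rg) (h2 : κ ∉ ψ.rg) :
    ∃ χ, InV Γ χ ∧ Disjoint φ.rg χ.rg ∧ Disjoint ψ.rg χ.rg ∧
      ∃ κ', κ' ∉ φ.rg ∧ κ' ∉ ψ.rg ∧ κ' ∉ χ.rg := by
  obtain ⟨s⟩ := ‹Nonempty Ω›
  obtain ⟨u, hu, hφ⟩ := hφ
  obtain ⟨v, hv, hψ⟩ := hψ
  obtain ⟨y, hy, huy, hvy⟩ := PP_directed u hu v hv
  obtain ⟨r, hr, hκ⟩ := exists_piece hy κ
  obtain ⟨ρ, rfl⟩ := exists_pm r
  have d1 : Disjoint ρ.rg φ.rg := disjoint_of_not_subset hu huy hφ hr fun h => h1 (h hκ)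
  have d2 : Disjoint ρ.rg ψ.rg := disjoint_of_not_subset hv hvy hψ hr fun h => h2 (h hκ)
  obtain ⟨κ', hκ'⟩ := rng_nonempty (pm Γ (ρ * hs s true))
  have hκ'' : κ' ∈ ρ.rg := rg_mul_subset _ _ hκ'
  exact ⟨ρ * hs s false, InV.mul_hs ⟨y, hy, hr⟩ _ _, d1.symm.mono_right (rg_mul_subset _ _),
    d2.symm.mono_right (rg_mul_subset _ _), κ', Set.disjoint_left.1 d1 hκ'',
    Set.disjoint_left.1 d2 hκ'', Set.disjoint_right.1 (disjoint_halves ρ s) hκ'⟩

theorem Prp.mul_hL {φ : Chart Ω} (h : Prp Γ φ) (L : List (Ω × Bool)) : Prp Γ (φ * hL L) := by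
  obtain ⟨h1, κ, hκ⟩ := prp_iff.1 h
  exact prp_iff.2 ⟨h1.mul_hL L, κ, fun h' => hκ (rg_mul_subset _ _ h')⟩

theorem prp_hs (s : Ω) (b : Bool) : Prp Γ (hs s b) := by
  refine prp_iff.2 ⟨by simpa using inV_one.mul_hs (Γ := Γ) s b, fun _ => Stream'.const (!b), ?_⟩
  rw [mem_rg_hs]
  cases b <;> simp [Stream'.head, Stream'.const, Stream'.get]

theorem Prp.loc_mem {φ : Chart Ω} (h : Prp Γ φ) {g : Equiv.Perm (Cs Ω)} (hg : g ∈ SV Ω Γ) :
    loc φ g ∈ SV Ω Γ := by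
  exact h.inV.loc_mem hg

theorem Prp.exists_conj [Nonempty Ω] {φ ψ : Chart Ω} (hφ : Prp Γ φ) (hψ : Prp Γ ψ) :
    ∃ k ∈ SV Ω Γ, pc k * φ = ψ := by
  obtain ⟨k, hk, h⟩ := exists_SV_of_adm hφ hψ
  exact ⟨k, hk, h ()⟩

/-- an element fixing the range of a proper chart pointwise is a copy on a proper chart: conjugate
`χ` to `hs s false` (`exists_SV_of_adm`), use `ψ = a * hs s true`, `exists_loc`, `mem_of_loc_mem` -/
theorem exists_loc_of_fix [Nonempty Ω] {χ : Chart Ω} (hχ : Prp Γ χ) {k : Equiv.Perm (Cs Ω)}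
    (hk : k ∈ SV Ω Γ) (h : pc k * χ = χ) : ∃ ψ, Prp Γ ψ ∧ ∃ g ∈ SV Ω Γ, loc ψ g = k := by
  obtain ⟨s⟩ := ‹Nonempty Ω›
  have : Nonempty Ω := ⟨s⟩
  obtain ⟨a, ha, e⟩ := (prp_hs (Γ := Γ) s false).exists_conj hχ
  have hψ : Prp Γ (pc a * hs s true) := (prp_hs s true).smul ha
  have hfix : ∀ κ, κ ∉ (pc a * hs s true).rg → k κ = κ := by
    intro κ hκ
    have h1 : κ ∈ χ.rg := by
      rw [← e]
      rw [mem_rg_pc, mem_rg_hs] at hκ ⊢
      simpa using hκ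
    obtain ⟨κ', rfl⟩ := h1
    exact congrArg (fun φ : Chart Ω => φ κ') h
  obtain ⟨g, hg⟩ := exists_loc hfix
  obtain ⟨w, hw, hψw⟩ := hψ.inV
  exact ⟨_, hψ, g, mem_of_loc_mem hw hψw (hg ▸ hk), hg⟩

/-- Fragmentation.  Take `z ∈ PP` with three pieces; one of two pieces `q` has
`rng q ∪ g '' rng q ≠ univ`.  With `y ≥ z, g • z` and a piece `r` of `y` containing a point outside,
halve `r` to get `χ`; `(φ, χ)` and `(g φ, χ)` are admissible (vertices `insert q (res y' (rng q)ᶜ)`,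
`le_res_compl`, `union_le_union`, `PP_upper`).  `h` with `h φ = g φ`, `h χ = χ`; `g = h * (h⁻¹ g)`. -/
theorem fragment [Nonempty Ω] {g : Equiv.Perm (Cs Ω)} (hg : g ∈ SV Ω Γ) :
    ∃ φ ψ, Prp Γ φ ∧ Prp Γ ψ ∧ ∃ a ∈ SV Ω Γ, ∃ b ∈ SV Ω Γ, g = loc φ a * loc ψ b := by
  obtain ⟨s⟩ := ‹Nonempty Ω›
  have : Nonempty Ω := ⟨s⟩
  obtain ⟨φ, hφ, κ, h1, h2⟩ : ∃ φ, InV Γ φ ∧ ∃ κ, κ ∉ φ.rg ∧ κ ∉ (pc g * φ).rg := by
    by_contra hcon
    push Not at hcon
    obtain ⟨κ, hκ⟩ := rng_nonempty (pm Γ (hs s true))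
    have hκ' : κ ∉ (hs s false).rg := by
      rw [rng_pm, mem_rg_hs] at hκ
      rw [mem_rg_hs, hκ]; simp
    have a1 := hcon _ ((prp_hs s false).inV.mul_hs s false) κ fun h => hκ' (rg_mul_subset _ _ h)
    have a2 := hcon _ ((prp_hs s false).inV.mul_hs s true) κ fun h => hκ' (rg_mul_subset _ _ h)
    rw [mem_rg_pc] at a1 a2
    exact Set.disjoint_left.1 (disjoint_halves _ s) a1 a2
  obtain ⟨χ, hχ, d1, d2, κ', k1, k2, k3⟩ := exists_third hφ (hφ.smul hg) h1 h2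
  obtain ⟨h, hh, e⟩ := exists_SV_of_adm (adm_pair hφ hχ d1 k1 k3)
    (adm_pair (hφ.smul hg) hχ d2 k2 k3)
  have e1 : pc h * φ = pc g * φ := e true
  have e2 : pc h * χ = χ := e false
  obtain ⟨ψ₁, hψ₁, a, ha, ea⟩ := exists_loc_of_fix (prp_iff.2 ⟨hχ, κ', k3⟩) hh e2
  obtain ⟨ψ₂, hψ₂, b, hb, eb⟩ := exists_loc_of_fix (prp_iff.2 ⟨hφ, κ', k1⟩)
    (mul_mem (inv_mem hh) hg) (by
      rw [map_mul, mul_assoc, ← e1, ← mul_assoc, ← map_mul]; simp)
  exact ⟨ψ₁, ψ₂, hψ₁, hψ₂, a, ha, b, hb, by rw [ea, eb]; simp⟩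

theorem eq_loc_mul_loc {g : Equiv.Perm (Cs Ω)} {s : Ω}
    (h : ∀ b, pc g * hs s b = hs s b * pc g) : g = loc (hs s false) g * loc (hs s true) g := by
  ext κ : 1
  have hκ : κ ∈ (hs s (κ s).head).rg := mem_rg_hs.2 rfl
  generalize (κ s).head = b at hκ
  obtain ⟨κ', rfl⟩ := hκ
  have e : g (hs s b κ') = hs s b (g κ') := congrArg (fun ψ : Chart Ω => ψ κ') (h b)
  have hn : ∀ x, hs s b x ∉ (hs s (!b)).rg := by
    intro x hx
    have h1 : hs s b x ∈ (hs s b).rg := ⟨x, rfl⟩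
    rw [mem_rg_hs] at hx h1
    rw [h1] at hx
    cases b <;> simp at hx
  rw [e, Equiv.Perm.mul_apply]
  cases b
  · rw [loc_of_notMem (hs s true) g (hn _), loc_apply]
  · rw [loc_apply, loc_of_notMem (hs s false) g (hn _)]

/-- the copy on a chart as an endomorphism of `SV` -/
noncomputable def locSV {φ : Chart Ω} (h : InV Γ φ) : SV Ω Γ →* SV Ω Γ :=
  ((loc φ).comp (SV Ω Γ).subtype).codRestrict _ fun g => h.loc_mem g.2

@[simp] theorem coe_locSV {φ : Chart Ω} (h : InV Γ φ) (g : SV Ω Γ) :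
    (locSV h g : Equiv.Perm (Cs Ω)) = loc φ g := rfl

theorem locSV_conj [Nonempty Ω] {φ ψ : Chart Ω} (hφ : Prp Γ φ) (hψ : Prp Γ ψ) :
    ∃ k : SV Ω Γ, ∀ g, locSV hψ.inV g = k * locSV hφ.inV g * k⁻¹ := by
  obtain ⟨k, hk, e⟩ := hφ.exists_conj hψ
  refine ⟨⟨k, hk⟩, fun g => Subtype.ext ?_⟩
  simp [conj_loc, e]

/-- the twists as elements of `SV` -/
def twSV : Γ →* SV Ω Γ := (tw Γ).codRestrict _ tw_mem

@[simp] theorem coe_twSV (γ : Γ) : ((twSV γ : SV Ω Γ) : Equiv.Perm (Cs Ω)) = tw Γ γ := rfl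

/-- Perfectness.  Let `α' g = α (loc φ g)` for a proper chart `φ` (independent of `φ` by
`exists_SV_of_adm`, `conj_loc`).  If `g` commutes with both `hs s b` then `α' g = α' g * α' g`
(`eq_loc_mul_loc`, `loc_loc`).  This applies to `tw γ` with `γ • s = s`, hence (`hgen`) `α'` kills all
`tw γ` and all `loc (hL L) (tw γ)`; and to untwisted elements (`g * hL (L i) = hL (L' i)`, `s` a colour
that occurs in no `L i`, `L' i`; `hL_comm`, the ranges of the `hL (L i)` cover).  By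
`exists_normal_form`, `g` times finitely many local twists is untwisted (induction on a finset of
indices).  `fragment` finishes. -/
theorem hom_trivial [Infinite Ω] (hgen : (⨆ s : Ω, MulAction.stabilizer Γ s) = ⊤) {A : Type}
    [CommGroup A] (α : SV Ω Γ →* A) (g : SV Ω Γ) : α g = 1 := by
  obtain ⟨s₀⟩ : Nonempty Ω := inferInstance
  have h₀ : Prp Γ (hs s₀ false) := prp_hs s₀ false
  set α' : SV Ω Γ →* A := α.comp (locSV h₀.inV) with hα'
  have hI : ∀ {φ} (hφ : Prp Γ φ) (g : SV Ω Γ), α (locSV hφ.inV g) = α' g := by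
    intro φ hφ g
    obtain ⟨k, hk⟩ := locSV_conj h₀ hφ
    rw [hk, map_mul, map_mul, map_inv, mul_inv_cancel_comm]; rfl
  have hIV : ∀ (L : List (Ω × Bool)) (g : SV Ω Γ), α' (locSV (inV_hL L) g) = α' g := by
    intro L g
    rw [← hI (h₀.mul_hL L) g, hα', MonoidHom.comp_apply]
    congr 1
    exact Subtype.ext (loc_loc _ _ _)
  have hII : ∀ (g : SV Ω Γ) (s : Ω), (∀ b, pc g * hs s b = hs s b * pc g) → α' g = 1 := by
    intro g s h
    have e : g = locSV (inV_hL [(s, false)]) g * locSV (inV_hL [(s, true)]) g :=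
      Subtype.ext (by simpa using eq_loc_mul_loc h)
    have e' := congrArg α' e
    rw [map_mul, hIV, hIV] at e'
    exact left_eq_mul.1 e'
  have hIII : ∀ γ : Γ, α' (twSV γ) = 1 := by
    have : (⨆ s : Ω, MulAction.stabilizer Γ s) ≤ (α'.comp twSV).ker := by
      refine iSup_le fun s γ hγ => hII _ s fun b => ?_
      rw [coe_twSV, tw_hs, MulAction.mem_stabilizer_iff.1 hγ]
    intro γ
    exact this (by rw [hgen]; trivial)
  have hall : ∀ g : SV Ω Γ, α' g = 1 := by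
    intro g
    obtain ⟨n, L, L', γ, x, hx, hF, hg⟩ := exists_normal_form g.2
    have key : ∀ (S : Finset (Fin n)) (g : SV Ω Γ) (γ : Fin n → Γ), (∀ i, i ∉ S → γ i = 1) →
        (∀ i, pc g * hL (L i) = hL (L' i) * pc (tw Γ (γ i))) → α' g = 1 := by
      intro S
      induction S using Finset.induction_on with
      | empty =>
        intro g γ h1 hg
        obtain ⟨s, hsn⟩ := Infinite.exists_notMem_finset
          (Finset.univ.biUnion fun i => ((L i ++ L' i).map Prod.fst).toFinset)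
        simp only [Finset.mem_biUnion, Finset.mem_univ, true_and, List.mem_toFinset, List.mem_map,
          List.mem_append, not_exists, not_and] at hsn
        refine hII g s fun b => Chart.ext (funext fun κ => ?_)
        obtain ⟨q, hq, hκ⟩ := exists_piece hx κ
        obtain ⟨i, rfl⟩ := (hF.2 q).1 hq
        obtain ⟨κ', rfl⟩ := hκ
        have e : pc g * hL (L i) = hL (L' i) := by
          rw [hg i, h1 i (by simp)]; simp
        have e2 : pc g * hs s b * hL (L i) = hs s b * pc g * hL (L i) := by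
          rw [mul_assoc, ← hL_comm (fun e he => hsn i e (Or.inl he)), ← mul_assoc, e,
            hL_comm (fun e he => hsn i e (Or.inr he)), mul_assoc, e]
        exact congrArg (fun ψ : Chart Ω => ψ κ') e2
      | insert j S hj ih =>
        intro g γ h1 hg
        have h2 := ih (g * locSV (inV_hL (L j)) (twSV (γ j)⁻¹)) (Function.update γ j 1)
          (fun i hi => by
            by_cases e : i = j
            · subst e; simp
            · rw [Function.update_of_ne e]; exact h1 i (by simp [e, hi]))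
          (fun i => by
            rw [Subgroup.coe_mul, map_mul, mul_assoc, coe_locSV, coe_twSV]
            by_cases e : i = j
            · subst e
              rw [loc_mul, ← mul_assoc, hg, mul_assoc, ← map_mul, ← map_mul]; simp
            · rw [Function.update_of_ne e, loc_mul_of_disjoint, hg]
              exact disj_of_PP hx _ ((hF.2 _).2 ⟨j, rfl⟩) _ ((hF.2 _).2 ⟨i, rfl⟩)
                fun e' => e (hF.1 e').symm)
        rwa [map_mul, hIV, hIII, mul_one] at h2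
    exact key Finset.univ g γ (by simp) hg
  obtain ⟨φ, ψ, hφ, hψ, a, ha, b, hb, e⟩ := fragment g.2
  have e' : g = locSV hφ.inV ⟨a, ha⟩ * locSV hψ.inV ⟨b, hb⟩ := Subtype.ext e
  rw [e', map_mul, hI hφ, hI hψ, hall, hall, mul_one]

/-- a nontrivial element moves the range of a proper chart off itself (`exists_sep` for `κ`, `g κ`;
take `z ≥ w, g⁻¹ • w` and the piece of `z` containing `κ`) -/
theorem exists_displace {g : Equiv.Perm (Cs Ω)} (hg : g ∈ SV Ω Γ) (h1 : g ≠ 1) :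
    ∃ φ, Prp Γ φ ∧ Disjoint φ.rg (pc g * φ).rg := by
  obtain ⟨κ, hκ⟩ : ∃ κ, κ ≠ g κ := by
    by_contra hcon
    push Not at hcon
    exact h1 (Equiv.ext fun κ => (hcon κ).symm)
  obtain ⟨w, hw, r, hr, hκr, hgκ⟩ := exists_sep (Γ := Γ) hκ
  have hw' := smul_mem_PP (inv_mem hg) hw
  obtain ⟨z, hz, h2, h3⟩ := PP_directed w hw _ hw'
  obtain ⟨q, hq, hκq⟩ := exists_piece hz κ
  obtain ⟨φ, rfl⟩ := exists_pm q
  have hqr : φ.rg ⊆ rng r := by
    by_contra hn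
    exact Set.disjoint_left.1 (disjoint_of_not_subset hw h2 hr hq hn) hκq hκr
  obtain ⟨r', hr', hqr'⟩ := refines_of_le h3 _ hq
  obtain ⟨r'', hr'', rfl⟩ := Finset.mem_image.1 hr'
  have hsub : (pc g * φ).rg ⊆ rng r'' := by
    intro x hx
    have := hqr' (mem_rg_pc.1 hx)
    rw [perm_smul_piece, rng_smul] at this
    obtain ⟨x', hx', e⟩ := this
    rwa [← (g⁻¹).injective e]
  have hne : r ≠ r'' := by
    rintro rfl
    exact hgκ (hsub (mem_rg_pc.2 (by simpa using hκq)))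
  exact ⟨φ, prp_iff.2 ⟨⟨z, hz, hq⟩, g κ, fun h => hgκ (hqr h)⟩,
    (disj_of_PP hw r hr r'' hr'' hne).mono hqr hsub⟩

/-- `⁅⁅loc φ a, g⁆, loc φ b⁆ = loc φ ⁅a, b⁆ ∈ N`; so `N.comap (loc φ)` contains the commutator
subgroup, which is everything (`hom_trivial` for `Abelianization.of`); all proper charts are
conjugate; `fragment`. -/
theorem isSimpleGroup_SV [Infinite Ω] (hgen : (⨆ s : Ω, MulAction.stabilizer Γ s) = ⊤) :
    IsSimpleGroup (SV Ω Γ) := by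
  obtain ⟨s⟩ : Nonempty Ω := inferInstance
  have hnt : Nontrivial (SV Ω Γ) := by
    obtain ⟨k, hk, e⟩ := (prp_hs (Γ := Γ) s false).exists_conj (prp_hs s true)
    refine ⟨⟨⟨k, hk⟩, 1, fun h => ?_⟩⟩
    have hk1 : k = 1 := congrArg Subtype.val h
    rw [hk1, map_one, one_mul] at e
    obtain ⟨κ, hκ⟩ := rng_nonempty (pm Γ (hs s true))
    have h1 : κ ∈ (hs s false).rg := by rw [e]; exact hκ
    rw [rng_pm, mem_rg_hs] at hκ
    rw [mem_rg_hs, hκ] at h1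
    simp at h1
  refine ⟨fun N hN => ?_⟩
  by_cases hb : N = ⊥
  · exact Or.inl hb
  right
  obtain ⟨⟨g, hgN⟩, hg1⟩ := Subgroup.ne_bot_iff_exists_ne_one.1 hb
  obtain ⟨φ, hφ, hd⟩ := exists_displace g.2 (fun h => hg1 (Subtype.ext (Subtype.ext h)))
  have hcomm : ∀ a b : SV Ω Γ, locSV hφ.inV ⁅a, b⁆ ∈ N := by
    intro a b
    set A := locSV hφ.inV a with hA
    set B := locSV hφ.inV b with hB
    set A' := g * A⁻¹ * g⁻¹ with hA'
    have hc : ∀ c : SV Ω Γ, Commute (locSV hφ.inV c) A' := by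
      intro c
      apply Subtype.ext
      have e : (A' : Equiv.Perm (Cs Ω)) = loc (pc g * φ) (a⁻¹ : SV Ω Γ) := by
        rw [← conj_loc, hA', hA, ← map_inv]; rfl
      have := commute_loc hd (c : Equiv.Perm (Cs Ω)) (a⁻¹ : SV Ω Γ)
      rw [← e] at this
      exact this
    have h1 : A * A' ∈ N := by
      have := N.mul_mem (hN.conj_mem g hgN A) (N.inv_mem hgN)
      rwa [show A * g * A⁻¹ * g⁻¹ = A * A' by rw [hA']; group] at this
    have h2 := N.mul_mem h1 (hN.conj_mem _ (N.inv_mem h1) B)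
    have e : A * A' * (B * (A * A')⁻¹ * B⁻¹) = locSV hφ.inV ⁅a, b⁆ := by
      rw [map_commutatorElement, commutatorElement_def, ← hA, ← hB]
      have c2 : A' * B = B * A' := (hc b).eq.symm
      calc A * A' * (B * (A * A')⁻¹ * B⁻¹) = A * (A' * B) * A'⁻¹ * A⁻¹ * B⁻¹ := by group
        _ = _ := by rw [c2]; group
    rwa [e] at h2
  have hall : ∀ a : SV Ω Γ, locSV hφ.inV a ∈ N := by
    intro a
    have h1 : a ∈ commutator (SV Ω Γ) :=
      (QuotientGroup.eq_one_iff a).1 (hom_trivial hgen Abelianization.of a)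
    have h2 : commutator (SV Ω Γ) ≤ N.comap (locSV hφ.inV) :=
      Subgroup.commutator_le.2 fun a _ b _ => hcomm a b
    exact h2 h1
  have hall' : ∀ {ψ} (hψ : Prp Γ ψ) (a : SV Ω Γ), locSV hψ.inV a ∈ N := by
    intro ψ hψ a
    obtain ⟨k, hk⟩ := locSV_conj hφ hψ
    rw [hk]; exact hN.conj_mem _ (hall a) k
  rw [eq_top_iff]
  intro x _
  obtain ⟨ψ₁, ψ₂, hψ₁, hψ₂, a, ha, b, hb, e⟩ := fragment x.2
  have e' : x = locSV hψ₁.inV ⟨a, ha⟩ * locSV hψ₂.inV ⟨b, hb⟩ := Subtype.ext e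
  rw [e']
  exact N.mul_mem (hall' hψ₁ _) (hall' hψ₂ _)

end Crest.Agent.R185.TB
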