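import Crest.Agent.R185.TPosA
import Crest.Agent.R185.Brown
import Crest.Agent.R185.FPGroup

/-!
# Row 185, twisted Brin–Thompson groups: non-abelian cocycles on posets; Brown's criteria for posets
-/

set_option autoImplicit false

namespace Crest.Agent.R185.TB

variable {α : Type} [PartialOrder α]

/-- a cocycle on `X` -/
def Coc {K : Type} [Group K] (X : Set α) (c : α → α → K) : Prop :=
  ∀ x ∈ X, ∀ y ∈ X, ∀ z ∈ X, x < y → y < z → c x z = c x y * c y z

/-- `c` is the coboundary of `b` on `X` -/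
def Cob {K : Type} [Group K] (X : Set α) (c : α → α → K) (b : α → K) : Prop :=
  ∀ x ∈ X, ∀ y ∈ X, x < y → c x y = (b x)⁻¹ * b y

/-- every cocycle on `X` is a coboundary -/
def SCon (X : Set α) : Prop :=
  ∀ (K : Type) [Group K] (c : α → α → K), Coc X c → ∃ b, Cob X c b

/-- `[x] - [y]` is a boundary; apply the functional "sum of the coefficients of the `[t]` with `t` in
the class of `x`", which vanishes on boundaries of chains of length two -/
theorem conn_of_acyc {X : Set α} (h : Acyc X 1) {x y : α} (hx : x ∈ X) (hy : y ∈ X) :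
    Relation.EqvGen (fun a b => a ∈ X ∧ b ∈ X ∧ a < b) x y := by
  classical
  let φ : (List α →₀ ℤ) →ₗ[ℤ] ℤ := Finsupp.linearCombination ℤ fun l =>
    if ∃ t, l = [t] ∧ Relation.EqvGen (fun a b => a ∈ X ∧ b ∈ X ∧ a < b) x t then 1 else 0
  have hφ : ∀ t, φ (Finsupp.single [t] 1) =
      if Relation.EqvGen (fun a b => a ∈ X ∧ b ∈ X ∧ a < b) x t then 1 else 0 := by
    intro t
    simp [φ]
  have h1 : ∀ t ∈ X, Finsupp.single [t] (1 : ℤ) ∈ Ch X 1 := fun t ht =>
    Finsupp.single_mem_supported ℤ 1 ⟨by simp, by simpa using ht, rfl⟩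
  obtain ⟨w, hw, hbw⟩ := h (Finsupp.single [x] 1 - Finsupp.single [y] 1)
    (Submodule.sub_mem _ (h1 x hx) (h1 y hy)) (by simp [bdL])
  have h2 : Ch X 2 ≤ LinearMap.ker (φ ∘ₗ bd) := by
    rw [Ch, Finsupp.supported_eq_span_single, Submodule.span_le]
    rintro _ ⟨l, ⟨hl1, hl2, hl3⟩, rfl⟩
    obtain ⟨a, b, rfl⟩ := List.length_eq_two.1 hl3
    have hab : Relation.EqvGen (fun a b => a ∈ X ∧ b ∈ X ∧ a < b) a b :=
      Relation.EqvGen.rel _ _ ⟨hl2 a (by simp), hl2 b (by simp), by simpa using hl1⟩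
    have e : bd (Finsupp.single [a, b] (1 : ℤ)) = Finsupp.single [b] 1 - Finsupp.single [a] 1 := by
      simp [bdL]
    change φ (bd (Finsupp.single [a, b] (1 : ℤ))) = 0
    rw [e, map_sub, hφ, hφ, sub_eq_zero]
    exact if_congr ⟨fun h => h.trans _ _ _ (hab.symm _ _), fun h => h.trans _ _ _ hab⟩ rfl rfl
  have h3 : φ (bd w) = 0 := h2 hw
  rw [hbw, map_sub, hφ, hφ, if_pos (Relation.EqvGen.refl x)] at h3
  by_contra hn
  rw [if_neg hn] at h3
  simp at h3

/-- the part of `X` built before level `N` -/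
def tpc_X (X Y : Set α) (h : α → ℕ) (N : ℕ) : Set α := Y ∪ {y | y ∈ X ∧ h y < N}

omit [PartialOrder α] in
theorem tpc_zero (X Y : Set α) (h : α → ℕ) : tpc_X X Y h 0 = Y := by
  simp [tpc_X]

omit [PartialOrder α] in
theorem tpc_mono {X Y : Set α} {h : α → ℕ} {N M : ℕ} (hNM : N ≤ M) :
    tpc_X X Y h N ⊆ tpc_X X Y h M := by
  rintro y (hy | hy)
  · exact Or.inl hy
  · exact Or.inr ⟨hy.1, hy.2.trans_le hNM⟩

theorem tpc_sub {X Y : Set α} {h : α → ℕ} (hL : Lev X Y h) (N : ℕ) : tpc_X X Y h N ⊆ X := by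
  rintro y (hy | hy)
  · exact hL.1 hy
  · exact hy.1

omit [PartialOrder α] in
theorem tpc_new {X Y : Set α} {h : α → ℕ} {N : ℕ} {x : α} (h1 : x ∈ tpc_X X Y h (N + 1))
    (h2 : x ∉ tpc_X X Y h N) : x ∈ X ∧ x ∉ Y ∧ h x = N := by
  have hY : x ∉ Y := fun h => h2 (Or.inl h)
  rcases h1 with h1 | h1
  · exact absurd h1 hY
  · refine ⟨h1.1, hY, ?_⟩
    have h3 : ¬ h x < N := fun h => h2 (Or.inr ⟨h1.1, h⟩)
    have h4 : h x < N + 1 := h1.2
    omega

theorem tpc_incomp {X Y : Set α} {h : α → ℕ} (hL : Lev X Y h) {N : ℕ} {x y : α}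
    (h1 : x ∈ tpc_X X Y h (N + 1)) (h2 : x ∉ tpc_X X Y h N) (h3 : y ∈ tpc_X X Y h (N + 1))
    (h4 : y ∉ tpc_X X Y h N) : ¬ x < y := by
  obtain ⟨x1, x2, x3⟩ := tpc_new h1 h2
  obtain ⟨y1, y2, y3⟩ := tpc_new h3 h4
  exact hL.2 x x1 x2 y y1 y2 (x3.trans y3.symm)

theorem tpc_seq {T : Type} (P : ℕ → T → Prop) (R : ℕ → T → T → Prop) (t : T) (h0 : P 0 t)
    (step : ∀ N t, P N t → ∃ t', P (N + 1) t' ∧ R N t t') :
    ∃ B : ℕ → T, B 0 = t ∧ (∀ N, P N (B N)) ∧ ∀ N, R N (B N) (B (N + 1)) := by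
  choose f hf using step
  let B : ∀ N, {t // P N t} := fun N =>
    Nat.rec (motive := fun N => {t // P N t}) ⟨t, h0⟩ (fun N b => ⟨f N b.1 b.2, (hf N b.1 b.2).1⟩) N
  exact ⟨fun N => (B N).1, rfl, fun N => (B N).2, fun N => (hf N (B N).1 (B N).2).2⟩

/-- A trivialisation on `Y` extends over attachments with nonempty connected links:
`b x = b y * c y x` (`y < x`) or `b y * (c x y)⁻¹` (`x < y`) does not depend on `y` in the link.
Build `b` on `Y ∪ {h < N}` by recursion on `N` (compatible extensions) and pass to the limit. -/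
theorem cob_up {X Y : Set α} {h : α → ℕ} (hL : Lev X Y h)
    (hl : ∀ x ∈ X, x ∉ Y → AcycLE (plink X Y h x) 1) {K : Type} [Group K] {c : α → α → K}
    (hc : Coc X c) {b : α → K} (hb : Cob Y c b) : ∃ b', Cob X c b' := by
  classical
  have step : ∀ N (b : α → K), Cob (tpc_X X Y h N) c b →
      ∃ b', Cob (tpc_X X Y h (N + 1)) c b' ∧ ∀ y ∈ tpc_X X Y h N, b' y = b y := by
    intro N b hb
    have hval : ∀ x, ∃ v : K, x ∈ tpc_X X Y h (N + 1) → x ∉ tpc_X X Y h N →
        ∀ y ∈ link x (tpc_X X Y h N), v = if y < x then b y * c y x else b y * (c x y)⁻¹ := by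
      intro x
      by_cases hx : x ∈ tpc_X X Y h (N + 1) ∧ x ∉ tpc_X X Y h N
      swap
      · exact ⟨1, fun h1 h2 => absurd ⟨h1, h2⟩ hx⟩
      obtain ⟨x1, x2, x3⟩ := tpc_new hx.1 hx.2
      have hac := hl x x1 x2
      rw [plink, x3] at hac
      obtain ⟨y₀, hy₀⟩ := acyc_zero_iff.1 (hac 0 (Nat.zero_le _))
      refine ⟨if y₀ < x then b y₀ * c y₀ x else b y₀ * (c x y₀)⁻¹, fun _ _ y hy => ?_⟩
      have hc' := conn_of_acyc (hac 1 le_rfl) hy₀ hy
      clear hy hy₀
      induction hc' with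
      | refl => rfl
      | symm _ _ _ ih => exact ih.symm
      | trans _ _ _ _ _ ih ih' => exact ih.trans ih'
      | rel u v huv =>
        obtain ⟨⟨hu, hux⟩, ⟨hv, hvx⟩, huv⟩ := huv
        have e := hb u hu v hv huv
        have hu' := tpc_sub hL N hu
        have hv' := tpc_sub hL N hv
        rcases hux with hux | hux
        · rcases hvx with hvx | hvx
          · rw [if_pos hux, if_pos hvx, hc u hu' v hv' x x1 huv hvx, e]
            group
          · rw [hc u hu' x x1 v hv' hux hvx] at e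
            rw [if_pos hux, if_neg hvx.not_gt, eq_mul_inv_iff_mul_eq, mul_assoc, e]
            group
        · rw [if_neg hux.not_gt, if_neg (hux.trans huv).not_gt, hc x x1 u hu' v hv' hux huv, e]
          group
    choose v hv using hval
    refine ⟨fun x => if x ∈ tpc_X X Y h N then b x else v x, fun x hx y hy hxy => ?_,
      fun y hy => if_pos hy⟩
    by_cases hx' : x ∈ tpc_X X Y h N
    · by_cases hy' : y ∈ tpc_X X Y h N
      · simpa only [if_pos hx', if_pos hy'] using hb x hx' y hy' hxy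
      · simp only [if_pos hx', if_neg hy']
        rw [hv y hy hy' x ⟨hx', Or.inl hxy⟩, if_pos hxy]
        group
    · by_cases hy' : y ∈ tpc_X X Y h N
      · simp only [if_neg hx', if_pos hy']
        rw [hv x hx hx' y ⟨hy', Or.inr hxy⟩, if_neg hxy.not_gt]
        group
      · exact absurd hxy (tpc_incomp hL hx hx' hy hy')
  obtain ⟨B, -, hB, hB'⟩ := tpc_seq (fun N b => Cob (tpc_X X Y h N) c b)
    (fun N b b' => ∀ y ∈ tpc_X X Y h N, b' y = b y) b (by rwa [tpc_zero]) step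
  have hM : ∀ N M, N ≤ M → ∀ y ∈ tpc_X X Y h N, B M y = B N y := by
    intro N M hNM y hy
    induction hNM with
    | refl => rfl
    | step hm ih => rw [hB' _ y (tpc_mono hm hy), ih]
  refine ⟨fun x => B (h x + 1) x, fun x hx y hy hxy => ?_⟩
  have hx' : x ∈ tpc_X X Y h (h x + 1) := Or.inr ⟨hx, Nat.lt_succ_self _⟩
  have hy' : y ∈ tpc_X X Y h (h y + 1) := Or.inr ⟨hy, Nat.lt_succ_self _⟩
  have e := hB (h x + 1 + (h y + 1)) x (tpc_mono (by omega) hx') y (tpc_mono (by omega) hy') hxy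
  rwa [hM _ _ (by omega) x hx', hM _ _ (by omega) y hy'] at e

/-- A cocycle on `Y` extends over attachments with simply connected links: if `c = δ b` on the link
of `x` put `c y x = (b y)⁻¹`, `c x y = b y`.  Recursion on the level as in `cob_up`. -/
theorem scon_down {X Y : Set α} {h : α → ℕ} (hL : Lev X Y h)
    (hl : ∀ x ∈ X, x ∉ Y → SCon (plink X Y h x)) (hX : SCon X) : SCon Y := by
  classical
  intro K _ c hc
  have step : ∀ N (c : α → α → K), Coc (tpc_X X Y h N) c →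
      ∃ c', Coc (tpc_X X Y h (N + 1)) c' ∧
        ∀ u ∈ tpc_X X Y h N, ∀ v ∈ tpc_X X Y h N, c' u v = c u v := by
    intro N c hc
    have hval : ∀ x, ∃ b : α → K, x ∈ tpc_X X Y h (N + 1) → x ∉ tpc_X X Y h N →
        Cob (link x (tpc_X X Y h N)) c b := by
      intro x
      by_cases hx : x ∈ tpc_X X Y h (N + 1) ∧ x ∉ tpc_X X Y h N
      swap
      · exact ⟨1, fun h1 h2 => absurd ⟨h1, h2⟩ hx⟩
      obtain ⟨x1, x2, x3⟩ := tpc_new hx.1 hx.2
      have hac := hl x x1 x2
      rw [plink, x3] at hac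
      obtain ⟨b, hb⟩ := hac K c fun u hu v hv w hw => hc u hu.1 v hv.1 w hw.1
      exact ⟨b, fun _ _ => hb⟩
    choose b hb using hval
    refine ⟨fun u v => if u ∈ tpc_X X Y h N then
      (if v ∈ tpc_X X Y h N then c u v else (b v u)⁻¹) else b u v,
      fun u hu v hv w hw huv hvw => ?_, fun u hu v hv => by simp only [if_pos hu, if_pos hv]⟩
    have huw := huv.trans hvw
    by_cases hu' : u ∈ tpc_X X Y h N
    · by_cases hv' : v ∈ tpc_X X Y h N
      · by_cases hw' : w ∈ tpc_X X Y h N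
        · simpa only [if_pos hu', if_pos hv', if_pos hw'] using hc u hu' v hv' w hw' huv hvw
        · simp only [if_pos hu', if_pos hv', if_neg hw']
          rw [hb w hw hw' u ⟨hu', Or.inl huw⟩ v ⟨hv', Or.inl hvw⟩ huv]
          group
      · have hw' : w ∈ tpc_X X Y h N := by
          by_contra hw'
          exact tpc_incomp hL hv hv' hw hw' hvw
        simp only [if_pos hu', if_neg hv', if_pos hw']
        exact hb v hv hv' u ⟨hu', Or.inl huv⟩ w ⟨hw', Or.inr hvw⟩ huw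
    · have hv' : v ∈ tpc_X X Y h N := by
        by_contra hv'
        exact tpc_incomp hL hu hu' hv hv' huv
      have hw' : w ∈ tpc_X X Y h N := by
        by_contra hw'
        exact tpc_incomp hL hu hu' hw hw' huw
      simp only [if_neg hu', if_pos hv', if_pos hw']
      rw [hb u hu hu' v ⟨hv', Or.inr huv⟩ w ⟨hw', Or.inr huw⟩ hvw]
      group
  obtain ⟨B, hB0, hB, hB'⟩ := tpc_seq (fun N c => Coc (tpc_X X Y h N) c)
    (fun N c c' => ∀ u ∈ tpc_X X Y h N, ∀ v ∈ tpc_X X Y h N, c' u v = c u v) c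
    (by rwa [tpc_zero]) step
  have hM : ∀ N M, N ≤ M → ∀ u ∈ tpc_X X Y h N, ∀ v ∈ tpc_X X Y h N, B M u v = B N u v := by
    intro N M hNM u hu v hv
    induction hNM with
    | refl => rfl
    | step hm ih => rw [hB' _ u (tpc_mono hm hu) v (tpc_mono hm hv), ih]
  have hmem : ∀ x ∈ X, ∀ N, h x < N → x ∈ tpc_X X Y h N := fun x hx N hN => Or.inr ⟨hx, hN⟩
  obtain ⟨b, hb⟩ := hX K (fun u v => B (h u + h v + 1) u v) (fun u hu v hv w hw huv hvw => by
    have e := hB (h u + h v + h w + 1) u (hmem u hu _ (by omega)) v (hmem v hv _ (by omega))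
      w (hmem w hw _ (by omega)) huv hvw
    rwa [hM (h u + h w + 1) _ (by omega) u (hmem u hu _ (by omega)) w (hmem w hw _ (by omega)),
      hM (h u + h v + 1) _ (by omega) u (hmem u hu _ (by omega)) v (hmem v hv _ (by omega)),
      hM (h v + h w + 1) _ (by omega) v (hmem v hv _ (by omega)) w (hmem w hw _ (by omega))] at e)
  refine ⟨b, fun u hu v hv huv => ?_⟩
  have e := hb u (hL.1 hu) v (hL.1 hv) huv
  simp only at e
  rwa [hM 0 _ (Nat.zero_le _) u (Or.inl hu) v (Or.inl hv), hB0] at e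

/-- Directed sets.  Put `c' x y = if x = y then 1 else c x y` (a cocycle for `≤`), fix `x₀`; the value
`c' x₀ m * (c' x m)⁻¹` does not depend on the upper bound `m ∈ X` of `x₀` and `x`; this is `b x`. -/
theorem scon_of_directed {X : Set α} (hd : DirectedOn (· ≤ ·) X) : SCon X := by
  classical
  intro K _ c hc
  rcases X.eq_empty_or_nonempty with rfl | ⟨x₀, hx₀⟩
  · exact ⟨1, fun x hx => hx.elim⟩
  let c' : α → α → K := fun x y => if x = y then 1 else c x y
  have hc' : ∀ x ∈ X, ∀ y ∈ X, ∀ z ∈ X, x ≤ y → y ≤ z → c' x z = c' x y * c' y z := by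
    intro x hx y hy z hz hxy hyz
    rcases hxy.eq_or_lt with rfl | hxy
    · simp [c']
    rcases hyz.eq_or_lt with rfl | hyz
    · simp [c']
    simp only [c', if_neg hxy.ne, if_neg hyz.ne, if_neg (hxy.trans hyz).ne]
    exact hc x hx y hy z hz hxy hyz
  have hm : ∀ x, ∃ m, x ∈ X → m ∈ X ∧ x₀ ≤ m ∧ x ≤ m := by
    intro x
    by_cases hx : x ∈ X
    · obtain ⟨m, h1, h2, h3⟩ := hd x₀ hx₀ x hx
      exact ⟨m, fun _ => ⟨h1, h2, h3⟩⟩
    · exact ⟨x, fun h => absurd h hx⟩
  choose m hm using hm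
  have key : ∀ x ∈ X, ∀ M ∈ X, m x ≤ M →
      c' x₀ (m x) * (c' x (m x))⁻¹ = c' x₀ M * (c' x M)⁻¹ := by
    intro x hx M hM hle
    obtain ⟨h1, h2, h3⟩ := hm x hx
    rw [hc' x₀ hx₀ _ h1 M hM h2 hle, hc' x hx _ h1 M hM h3 hle]
    group
  refine ⟨fun x => c' x₀ (m x) * (c' x (m x))⁻¹, fun x hx y hy hxy => ?_⟩
  obtain ⟨M, hM, h1, h2⟩ := hd _ (hm x hx).1 _ (hm y hy).1
  have e : c' x y = c x y := if_neg hxy.ne
  simp only
  rw [key x hx M hM h1, key y hy M hM h2, hc' x hx y hy M hM hxy.le ((hm y hy).2.2.trans h2), e]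
  group

variable {G : Type} [Group G] [MulAction G α]

/-- Brown's homological criterion for a poset.  `Xs j = {l // l ∈ Chn X (j + 1)}` with the action
`List.map (g • ·)`; `d j` is `bd` transported along `Finsupp.supportedEquivFinsupp` (or
`lcomapDomain`/`lmapDomain Subtype.val`); `bd (single [x] 1) = single [] 1` gives the augmentation;
`isFP_of_complex`. -/
theorem isFP_of_poset (hG : ∀ (g : G) (x y : α), x < y → g • x < g • y) {X : Set α}
    (hX : ∀ (g : G), ∀ x ∈ X, g • x ∈ X) (n : ℕ) (hac : AcycLE X n)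
    (hfin : ∀ j, ∃ s : Set (List α), s.Finite ∧
      ∀ l ∈ Chn X (j + 1), ∃ g : G, l.map (fun x => g • x) ∈ s)
    (hst : ∀ j, ∀ l ∈ Chn X (j + 1),
      IsFPinf (⨅ x ∈ l, MulAction.stabilizer G x : Subgroup G)) : IsFP G n := by
  classical
  let Xs : ℕ → Type := fun j => {l : List α // l ∈ Chn X (j + 1)}
  letI inst : ∀ j, MulAction G (Xs j) := fun j =>
    { smul := fun g l => ⟨l.1.map fun x => g • x, List.Pairwise.map _ (hG g) l.2.1, fun y hy => by
        obtain ⟨x, hx, rfl⟩ := List.mem_map.1 hy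
        exact hX g x (l.2.2.1 x hx), (List.length_map _).trans l.2.2.2⟩
      one_smul := fun l => Subtype.ext (by
        change l.1.map (fun x => (1 : G) • x) = l.1
        simp)
      mul_smul := fun a b l => Subtype.ext (by
        change l.1.map (fun x => (a * b) • x) = (l.1.map fun x => b • x).map fun x => a • x
        simp [mul_smul]) }
  have hsm : ∀ j (g : G) (l : Xs j), (g • l).1 = l.1.map fun x => g • x := fun _ _ _ => rfl
  let e : ∀ j, (Xs j →₀ ℤ) →ₗ[ℤ] (List α →₀ ℤ) := fun j => Finsupp.lmapDomain ℤ ℤ Subtype.val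
  let r : ∀ j, (List α →₀ ℤ) →ₗ[ℤ] (Xs j →₀ ℤ) := fun j =>
    Finsupp.lcomapDomain Subtype.val Subtype.val_injective
  have einj : ∀ j, Function.Injective (e j) := fun j =>
    Finsupp.mapDomain_injective Subtype.val_injective
  have er : ∀ j, ∀ z ∈ Ch X (j + 1), e j (r j z) = z := fun j z hz =>
    Finsupp.mapDomain_comapDomain _ Subtype.val_injective z fun l hl => ⟨⟨l, hz hl⟩, rfl⟩
  have emem : ∀ j z, e j z ∈ Ch X (j + 1) := fun j z =>
    Finsupp.supported_comap_lmapDomain ℤ ℤ (Subtype.val : Xs j → List α) (Chn X (j + 1))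
      fun l _ => l.2
  have eeq : ∀ j (g : G) z, e j (permRep G (Xs j) g z) =
      Finsupp.mapDomain (List.map fun x => g • x) (e j z) := by
    intro j g z
    change Finsupp.mapDomain _ (Finsupp.mapDomain _ z) = Finsupp.mapDomain _ (Finsupp.mapDomain _ z)
    rw [← Finsupp.mapDomain_comp, ← Finsupp.mapDomain_comp]
    rfl
  let d : ∀ j, (Xs (j + 1) →₀ ℤ) →ₗ[ℤ] (Xs j →₀ ℤ) := fun j => r j ∘ₗ bd ∘ₗ e (j + 1)
  have ed : ∀ j z, e j (d j z) = bd (e (j + 1) z) := fun j z => er j _ (bd_mem (emem _ z))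
  have hex : ∀ j, j + 1 ≤ n → ∀ y, bd (e j y) = 0 ↔ y ∈ Set.range (d j) := by
    intro j hj y
    constructor
    · intro hy
      obtain ⟨w, hw, hbw⟩ := hac (j + 1) hj _ (emem j y) hy
      exact ⟨r (j + 1) w, einj j (by rw [ed, er _ w hw, hbw])⟩
    · rintro ⟨w, rfl⟩
      rw [ed, bd_bd]
  have haug : ∀ y, bd (e 0 y) = Finsupp.single [] (aug (Xs 0) y) := by
    intro y
    have : bd ∘ₗ e 0 = Finsupp.lsingle [] ∘ₗ aug (Xs 0) := by
      refine Finsupp.lhom_ext' fun l => LinearMap.ext_ring ?_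
      obtain ⟨l, hl⟩ := l
      obtain ⟨a, rfl⟩ := List.length_eq_one_iff.1 hl.2.2
      simp [e, bdL]
    exact LinearMap.congr_fun this y
  refine isFP_of_complex n Xs (fun j _ => ⟨?_, fun l => ?_⟩) d (fun j g z => einj j ?_) ?_
    (fun hn y => ?_) (fun j hj y => ?_)
  · obtain ⟨s, hs, hs'⟩ := hfin j
    haveI := (hs.preimage (f := (Subtype.val : Xs j → List α))
      Subtype.val_injective.injOn).to_subtype
    refine Finite.of_surjective (fun l : (Subtype.val : Xs j → List α) ⁻¹' s =>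
      (Quotient.mk'' l.1 : MulAction.orbitRel.Quotient G (Xs j))) fun q => ?_
    induction q using Quotient.inductionOn' with
    | h l =>
      obtain ⟨g, hg⟩ := hs' l.1 l.2
      exact ⟨⟨g • l, hg⟩, Quotient.sound' (MulAction.orbitRel_apply.2 ⟨g, rfl⟩)⟩
  · have : MulAction.stabilizer G l = ⨅ x ∈ l.1, MulAction.stabilizer G x := by
      ext g
      simp only [MulAction.mem_stabilizer_iff, Subgroup.mem_iInf]
      rw [Subtype.ext_iff, hsm]
      conv_lhs => rhs; rw [← List.map_id l.1]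
      exact List.map_inj_left
    rw [this]
    exact hst j l.1 l.2
  · rw [ed, eeq, eeq, ed, bd_map]
  · obtain ⟨x, hx⟩ := acyc_zero_iff.1 (hac 0 (Nat.zero_le _))
    exact ⟨⟨[x], by simp, by simpa using hx, rfl⟩⟩
  · rw [← hex 0 hn, haug, Finsupp.single_eq_zero]
  · rw [← hex (j + 1) hj, ← ed, map_eq_zero_iff _ (einj j)]

/-- Brown's criterion for finite presentability for a poset (`fp_of_action` on the subtype `X`,
`r = (· < ·)`) -/
theorem fp_of_poset (hG : ∀ (g : G) (x y : α), x < y → g • x < g • y) {X : Set α}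
    (hX : ∀ (g : G), ∀ x ∈ X, g • x ∈ X) (hac : AcycLE X 1) (hs : SCon X)
    (hfin : ∀ j, ∃ s : Set (List α), s.Finite ∧
      ∀ l ∈ Chn X (j + 1), ∃ g : G, l.map (fun x => g • x) ∈ s)
    (hv : ∀ x ∈ X, Group.IsFinitelyPresented (MulAction.stabilizer G x))
    (he : ∀ x ∈ X, ∀ y ∈ X, x < y →
      Group.FG (MulAction.stabilizer G x ⊓ MulAction.stabilizer G y : Subgroup G)) :
    Group.IsFinitelyPresented G := by
  classical
  letI inst : MulAction G X :=
    { smul := fun g x => ⟨g • x.1, hX g x.1 x.2⟩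
      one_smul := fun x => Subtype.ext (one_smul G x.1)
      mul_smul := fun a b x => Subtype.ext (mul_smul a b x.1) }
  have hst : ∀ x : X, MulAction.stabilizer G x = MulAction.stabilizer G x.1 := by
    intro x
    ext g
    rw [MulAction.mem_stabilizer_iff, MulAction.mem_stabilizer_iff, Subtype.ext_iff]
    rfl
  refine fp_of_action (G := G) (V := X) (fun x y => x.1 < y.1) (fun g x y h => hG g _ _ h)
    ⟨?_, fun x y => ?_⟩ (fun K _ c hc => ?_) ?_ ?_ ?_ (fun x => ?_) (fun x y hxy => ?_)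
  · exact (acyc_zero_iff.1 (hac 0 (Nat.zero_le _))).to_subtype
  · have key : ∀ a b, Relation.EqvGen (fun a b => a ∈ X ∧ b ∈ X ∧ a < b) a b →
        (a ∈ X ↔ b ∈ X) ∧ ∀ (ha : a ∈ X) (hb : b ∈ X),
          Relation.EqvGen (fun x y : X => x.1 < y.1) ⟨a, ha⟩ ⟨b, hb⟩ := by
      intro a b hab
      induction hab with
      | rel u v h => exact ⟨iff_of_true h.1 h.2.1, fun _ _ => Relation.EqvGen.rel _ _ h.2.2⟩
      | refl u => exact ⟨Iff.rfl, fun _ _ => Relation.EqvGen.refl _⟩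
      | symm u v _ ih => exact ⟨ih.1.symm, fun ha hb => (ih.2 hb ha).symm _ _⟩
      | trans u v w _ _ ih ih' =>
        exact ⟨ih.1.trans ih'.1, fun ha hb => (ih.2 ha (ih.1.1 ha)).trans _ _ _ (ih'.2 _ hb)⟩
    exact (key _ _ (conn_of_acyc (hac 1 le_rfl) x.2 y.2)).2 x.2 y.2
  · obtain ⟨b, hb⟩ := hs K (fun x y => if h : x ∈ X ∧ y ∈ X then c ⟨x, h.1⟩ ⟨y, h.2⟩ else 1)
      (fun x hx y hy z hz hxy hyz => by
        simp only [dif_pos (And.intro hx hy), dif_pos (And.intro hx hz), dif_pos (And.intro hy hz)]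
        exact hc _ _ _ hxy hyz (hxy.trans hyz))
    refine ⟨fun x => b x.1, fun x y hxy => ?_⟩
    have := hb x.1 x.2 y.1 y.2 hxy
    simpa only [dif_pos (And.intro x.2 y.2)] using this
  · obtain ⟨s, hs, hs'⟩ := hfin 0
    refine ⟨(fun x : X => [x.1]) ⁻¹' s, hs.preimage fun a _ b _ h => ?_, fun x => ?_⟩
    · exact Subtype.ext (by simpa using h)
    · exact hs' [x.1] ⟨by simp, by simp, rfl⟩
  · obtain ⟨s, hs, hs'⟩ := hfin 1
    refine ⟨(fun x : X × X => [x.1.1, x.2.1]) ⁻¹' s, hs.preimage fun a _ b _ h => ?_,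
      fun x y hxy => ?_⟩
    · simp only [List.cons.injEq, and_true] at h
      exact Prod.ext (Subtype.ext h.1) (Subtype.ext h.2)
    · exact hs' [x.1, y.1] ⟨by simpa using hxy, by simp, rfl⟩
  · obtain ⟨s, hs, hs'⟩ := hfin 2
    refine ⟨(fun x : X × X × X => [x.1.1, x.2.1.1, x.2.2.1]) ⁻¹' s,
      hs.preimage fun a _ b _ h => ?_, fun x y z hxy hyz hxz => ?_⟩
    · simp only [List.cons.injEq, and_true] at h
      exact Prod.ext (Subtype.ext h.1) (Prod.ext (Subtype.ext h.2.1) (Subtype.ext h.2.2))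
    · refine hs' [x.1, y.1, z.1] ⟨?_, by simp, rfl⟩
      simp only [List.pairwise_cons, List.mem_cons, List.not_mem_nil, or_false, forall_eq_or_imp,
        forall_eq, List.Pairwise.nil, and_true, IsEmpty.forall_iff, implies_true]
      exact ⟨⟨hxy, hxz⟩, hyz⟩
  · rw [hst]
    exact hv x.1 x.2
  · rw [hst, hst]
    exact he x.1 x.2 y.1 y.2 hxy

end Crest.Agent.R185.TB
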