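import Crest.Agent.R185.TGroup
import Crest.Agent.R185.TPosC

/-! # Row 185, twisted Brin–Thompson groups: orbits and stabilisers of chains -/

set_option autoImplicit false

open scoped Classical

namespace Crest.Agent.R185.TB

variable {Ω Γ : Type} [Group Γ] [MulAction Γ Ω]

/-- the colours used by `w` inside the chart `φ` -/
def cols (φ : Chart Ω) (w : Finset (Piece Ω Γ)) : Set Ω :=
  {s | ∃ q ∈ w, ∃ b, rng q ⊆ (φ * hs s b).rg}

theorem tstab_rg_tw (φ : Chart Ω) (γ : Γ) : (φ * pc (tw Γ γ)).rg = φ.rg := by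
  have := congrArg rng (pm_tw φ γ)
  simpa using this

theorem tstab_rg_tw_hs (φ : Chart Ω) (γ : Γ) (s : Ω) (b : Bool) :
    (φ * pc (tw Γ γ) * hs s b).rg = (φ * hs (γ • s) b).rg := by
  rw [mul_assoc, tw_hs, ← mul_assoc, tstab_rg_tw]

theorem tstab_mem_res {u : Finset (Piece Ω Γ)} {Z : Set (Cs Ω)} {q : Piece Ω Γ} :
    q ∈ res u Z ↔ q ∈ u ∧ rng q ⊆ Z := Finset.mem_filter

theorem tstab_card_res (u : Finset (Piece Ω Γ)) (Z : Set (Cs Ω)) : (res u Z).card ≤ u.card :=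
  Finset.card_filter_le _ _

theorem tstab_not_half (φ : Chart Ω) (s : Ω) (b : Bool) : ¬ φ.rg ⊆ (φ * hs s b).rg := by
  intro h
  have hd := disjoint_halves φ s
  cases b
  · obtain ⟨κ, hκ⟩ : (φ * hs s true).rg.Nonempty := Set.range_nonempty _
    exact Set.disjoint_left.1 hd (h (rg_mul_subset _ _ hκ)) hκ
  · obtain ⟨κ, hκ⟩ : (φ * hs s false).rg.Nonempty := Set.range_nonempty _
    exact Set.disjoint_left.1 hd hκ (h (rg_mul_subset _ _ hκ))

theorem tstab_frame_tw {ι : Type} {φ : ι → Chart Ω} {u : Finset (Piece Ω Γ)} (h : Frame φ u)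
    (γ : ι → Γ) : Frame (fun i => φ i * pc (tw Γ (γ i))) u := by
  unfold Frame at h ⊢
  simpa only [pm_tw] using h

theorem tstab_finite_lists {α : Type} {S : Set α} (hS : S.Finite) (n : ℕ) :
    {L : List α | L.length ≤ n ∧ ∀ e ∈ L, e ∈ S}.Finite := by
  have : Finite S := hS.to_subtype
  refine ((List.finite_length_le S n).image (List.map Subtype.val)).subset ?_
  rintro l ⟨hl, hmem⟩
  lift l to List S using hmem
  exact ⟨l, show l.length ≤ n by simpa using hl, rfl⟩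

theorem tstab_chain {α : Type} [PartialOrder α] {l : List α} (hl : l.Pairwise (· < ·))
    (hne : l ≠ []) : ∃ u ∈ l, ∃ w ∈ l, ∀ x ∈ l, u ≤ x ∧ x ≤ w := by
  induction l with
  | nil => exact (hne rfl).elim
  | cons a t ih =>
    rw [List.pairwise_cons] at hl
    by_cases ht : t = []
    · subst ht
      exact ⟨a, by simp, a, by simp, by simp⟩
    · obtain ⟨u, hu, w, hw, h⟩ := ih hl.2 ht
      refine ⟨a, by simp, w, by simp [hw], fun x hx => ?_⟩
      rcases List.mem_cons.1 hx with rfl | hx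
      · exact ⟨le_rfl, (hl.1 w hw).le⟩
      · exact ⟨(hl.1 x hx).le, (h x hx).2⟩

theorem tstab_colours [Nonempty Ω] {k : ℕ}
    (horb : Finite (MulAction.orbitRel.Quotient Γ (Fin k → Ω))) :
    ∃ F₀ : Set Ω, F₀.Finite ∧ ∀ F : Finset Ω, F.card ≤ k → ∃ γ : Γ, ∀ s ∈ F, γ • s ∈ F₀ := by
  refine ⟨⋃ o : MulAction.orbitRel.Quotient Γ (Fin k → Ω), Set.range (Quotient.out o),
    Set.finite_iUnion fun o => Set.finite_range _, fun F hF => ?_⟩
  let f : Fin k → Ω := fun i => F.toList.getD i (Classical.arbitrary Ω)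
  have h1 : (MulAction.orbitRel Γ (Fin k → Ω)) (Quotient.out (Quotient.mk _ f)) f :=
    Quotient.mk_out (s := MulAction.orbitRel Γ (Fin k → Ω)) f
  rw [MulAction.orbitRel_apply] at h1
  obtain ⟨γ, hγ⟩ := h1
  refine ⟨γ, fun s hs => ?_⟩
  obtain ⟨j, hj, rfl⟩ := List.getElem_of_mem (Finset.mem_toList.2 hs)
  have hjk : j < k := by
    rw [Finset.length_toList] at hj
    omega
  refine Set.mem_iUnion.2 ⟨Quotient.mk _ f, ⟨j, hjk⟩, ?_⟩
  rw [← hγ]
  simp only [Pi.smul_apply, f]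
  rw [List.getD_eq_getElem _ _ hj]

theorem tstab_relIndex {G X : Type} [Group G] [MulAction G X] (K S : Subgroup G) {E : Set X}
    (hE : E.Finite) (hinv : ∀ g ∈ S, ∀ x ∈ E, g • x ∈ E)
    (hK : ∀ g ∈ S, (∀ x ∈ E, g • x = x) → g ∈ K) : K.relIndex S ≠ 0 := by
  have : Finite E := hE.to_subtype
  have h1 : ∀ x : E, (MulAction.stabilizer S (x : X)).FiniteIndex := by
    intro x
    refine ⟨?_⟩
    rw [MulAction.index_stabilizer]
    refine Set.ncard_ne_zero_of_mem (MulAction.mem_orbit_self _) (hE.subset ?_)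
    rintro _ ⟨g, rfl⟩
    exact hinv g g.2 x x.2
  have h2 := Subgroup.finiteIndex_iInf h1
  have h3 : (⨅ x : E, MulAction.stabilizer S (x : X)) ≤ K.subgroupOf S := by
    intro g hg
    rw [Subgroup.mem_iInf] at hg
    exact hK g g.2 fun x hx => hg ⟨x, hx⟩
  exact (Subgroup.finiteIndex_of_le h3).index_ne_zero

theorem tstab_smul_pm (g : SV Ω Γ) (φ : Chart Ω) :
    g • pm Γ φ = pm Γ (pc (g : Equiv.Perm (Cs Ω)) * φ) := rfl

theorem tstab_mem_smul {g : SV Ω Γ} {x : Vx Ω Γ} {q : Piece Ω Γ} :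
    q ∈ (g • x).s ↔ ∃ p ∈ x.s, g • p = q := by
  change q ∈ ((g : Equiv.Perm (Cs Ω)) • x).s ↔ _
  rw [Vx.smul_s, Finset.mem_image]
  rfl

theorem tstab_ext {u : Vx Ω Γ} (hu : u ∈ PP Ω Γ) {ι : Type} {φ : ι → Chart Ω} (hφ : Frame φ u.s)
    {g g' : Equiv.Perm (Cs Ω)} (h : ∀ i, pc g * φ i = pc g' * φ i) : g = g' := by
  ext κ : 1
  have : κ ∈ supp u.s := by rw [supp_of_PP hu]; trivial
  obtain ⟨p, hp, hκ⟩ := this
  obtain ⟨i, rfl⟩ := (hφ.2 p).1 hp
  obtain ⟨κ', rfl⟩ := hκ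
  exact congrArg (fun ψ : Chart Ω => ψ κ') (h i)

/-- at most `card w * card w` colours (`Ex.addr`, `mem_of_rg_hL_subset`) -/
theorem exists_cols {u w : Vx Ω Γ} (hu : Disj u.s) (h : u ≤ w) {φ : Chart Ω}
    (hφ : pm Γ φ ∈ u.s) : ∃ F : Finset Ω, (F : Set Ω) = cols φ w.s ∧ F.card ≤ rk w * rk w := by
  have hex := ex_res_of_le h hu hφ
  have had := Ex.addr hex
  choose! L hL using had
  set T := res w.s (rng (pm Γ φ)) with hT
  have hTc : T.card ≤ rk w := tstab_card_res _ _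
  let F' : Finset Ω := T.biUnion fun q => ((L q).map Prod.fst).toFinset
  have hsub : cols φ w.s ⊆ F' := by
    rintro s ⟨q, hq, b, hb⟩
    have hqT : q ∈ T := tstab_mem_res.2 ⟨hq, hb.trans (rg_mul_subset _ _)⟩
    obtain ⟨e1, _⟩ := hL q hqT
    rw [e1, rng_pm, rg_mul_subset_iff] at hb
    obtain ⟨e, he, rfl⟩ := mem_of_rg_hL_subset hb
    simp only [F', Finset.coe_biUnion, Set.mem_iUnion, Finset.mem_coe, List.mem_toFinset]
    exact ⟨q, hqT, List.mem_map_of_mem he⟩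
  refine ⟨F'.filter (· ∈ cols φ w.s), ?_, (Finset.card_filter_le _ _).trans ?_⟩
  · ext s
    simp only [Finset.coe_filter, Set.mem_ofPred_eq]
    exact ⟨fun h => h.2, fun h => ⟨hsub h, h⟩⟩
  · refine (Finset.card_biUnion_le_card_mul _ _ (rk w) fun q hq => ?_).trans
      (Nat.mul_le_mul_right _ hTc)
    refine (List.toFinset_card_le _).trans ?_
    rw [List.length_map]
    exact (hL q hq).2.le.trans hTc

/-- addresses of intermediate vertices use only these colours (`rg_hL_subset`, `exists_under`) -/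
theorem exists_addr {u x w : Vx Ω Γ} (hu : Disj u.s) (h : u ≤ x) (h' : x ≤ w) {q : Piece Ω Γ}
    (hq : q ∈ x.s) {ι : Type} {φ : ι → Chart Ω} (hφ : Frame φ u.s) :
    ∃ i L, q = pm Γ (φ i * hL L) ∧ L.length < rk w ∧ ∀ e ∈ L, e.1 ∈ cols (φ i) w.s := by
  obtain ⟨r, hr, hqr⟩ := refines_of_le h q hq
  obtain ⟨i, rfl⟩ := (hφ.2 r).1 hr
  obtain ⟨L, e1, e2⟩ := Ex.addr (ex_res_of_le h hu hr) q (tstab_mem_res.2 ⟨hq, hqr⟩)
  refine ⟨i, L, e1, ?_, fun e he => ?_⟩
  · exact e2.trans_le ((tstab_card_res _ _).trans (rk_strictMono.monotone h'))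
  · obtain ⟨b, hb⟩ := rg_hL_subset he
    obtain ⟨q', hq', hs⟩ := exists_under h' hq
    refine ⟨q', hq', b, hs.trans ?_⟩
    rw [e1, rng_pm, rg_mul_subset_iff]
    exact hb

/-- Finitely many types of intervals.  Let `F₀` be the finite set of all values of orbit
representatives of `Fin (n * n) → Ω`; for each `m ≤ n` fix a vertex of rank `m` in `PP` (if any) with
a frame `φ m`; `Q = {pm (φ m i * hL L) | L.length < n, colours in F₀}`.  Given `u ≤ w`, twist a frame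
of `u` so that `cols` lies in `F₀` (`cols (φ * tw γ) = γ⁻¹ • cols φ`, `tw_hs`) and move it to `φ m`
with `exists_SV_of_frame`. -/
theorem exists_finite_pieces [Nonempty Ω]
    (horb : ∀ k, Finite (MulAction.orbitRel.Quotient Γ (Fin k → Ω))) (n : ℕ) :
    ∃ Q : Set (Piece Ω Γ), Q.Finite ∧ ∀ u w : Vx Ω Γ, w ∈ PP Ω Γ → u ≤ w → rk w ≤ n →
      ∃ g : SV Ω Γ, ∀ x, u ≤ x → x ≤ w → ∀ q ∈ (g • x).s, q ∈ Q := by
  obtain ⟨F₀, hF₀, hcol⟩ := tstab_colours (horb (n * n))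
  have hch : ∀ m : ℕ, ∃ φ : Fin m → Chart Ω,
      (∃ (u : Vx Ω Γ) (φ' : Fin m → Chart Ω), u ∈ PP Ω Γ ∧ Frame φ' u.s) →
        ∃ u ∈ PP Ω Γ, Frame φ u.s := by
    intro m
    by_cases c : ∃ (u : Vx Ω Γ) (φ' : Fin m → Chart Ω), u ∈ PP Ω Γ ∧ Frame φ' u.s
    · obtain ⟨u, φ', h1, h2⟩ := c
      exact ⟨φ', fun _ => ⟨u, h1, h2⟩⟩
    · exact ⟨fun _ => 1, fun h => (c h).elim⟩
  choose Φ hΦ using hch
  have hfin : {L : List (Ω × Bool) | L.length ≤ n ∧ ∀ e ∈ L, e ∈ F₀ ×ˢ (Set.univ : Set Bool)}.Finite :=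
    tstab_finite_lists (hF₀.prod Set.finite_univ) n
  refine ⟨⋃ m ∈ {m | m ≤ n}, ⋃ i : Fin m, (fun L => pm Γ (Φ m i * hL L)) ''
    {L : List (Ω × Bool) | L.length ≤ n ∧ ∀ e ∈ L, e ∈ F₀ ×ˢ (Set.univ : Set Bool)},
    (Set.finite_le_nat n).biUnion fun m _ => Set.finite_iUnion fun i => hfin.image _, ?_⟩
  intro u w hw huw hn
  have hu := PP_lower hw huw
  have hd := disj_of_PP hu
  obtain ⟨ψ, hψ⟩ := exists_frame u.s
  have h1 : ∀ i, ∃ γ : Γ, ∀ s ∈ cols (ψ i) w.s, γ • s ∈ F₀ := by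
    intro i
    obtain ⟨F, e, hc⟩ := exists_cols hd huw ((hψ.2 _).2 ⟨i, rfl⟩)
    obtain ⟨γ, hγ⟩ := hcol F (hc.trans (Nat.mul_le_mul hn hn))
    exact ⟨γ, fun s hs => hγ s (by rw [← Finset.mem_coe, e]; exact hs)⟩
  choose γ hγ using h1
  have hψ' := tstab_frame_tw hψ fun i => (γ i)⁻¹
  obtain ⟨u', hu', hf⟩ := hΦ u.s.card ⟨u, ψ, hu, hψ⟩
  obtain ⟨g, hg, e1, _⟩ := exists_SV_of_frame hu hu' hψ' hf
  refine ⟨⟨g, hg⟩, fun x h1 h2 q hq => ?_⟩
  obtain ⟨p, hp, rfl⟩ := tstab_mem_smul.1 hq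
  obtain ⟨i, L, rfl, a1, a2⟩ := exists_addr hd h1 h2 hp hψ'
  simp only [Set.mem_iUnion, Set.mem_image, Set.mem_ofPred_eq]
  refine ⟨u.s.card, (rk_strictMono.monotone huw).trans hn, i, L, ⟨a1.le.trans hn, fun e he => ?_⟩, ?_⟩
  · refine ⟨?_, trivial⟩
    obtain ⟨q, hq, b, hb⟩ := a2 e he
    rw [tstab_rg_tw_hs] at hb
    have := hγ i _ ⟨q, hq, b, hb⟩
    simpa using this
  · rw [tstab_smul_pm, ← mul_assoc, ← e1 i]

/-- a chain lies between its first and its last element -/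
theorem finite_orbits_chn [Nonempty Ω]
    (horb : ∀ k, Finite (MulAction.orbitRel.Quotient Γ (Fin k → Ω))) (n j : ℕ) :
    ∃ s : Set (List (Vx Ω Γ)), s.Finite ∧ ∀ l ∈ Chn {u | u ∈ PP Ω Γ ∧ rk u ≤ n} (j + 1),
      ∃ g : SV Ω Γ, l.map (fun x => g • x) ∈ s := by
  obtain ⟨Q, hQ, h⟩ := exists_finite_pieces horb n
  have hV : {x : Vx Ω Γ | ∀ q ∈ x.s, q ∈ Q}.Finite := by
    refine Set.Finite.of_finite_image (f := fun x : Vx Ω Γ => (x.s : Set (Piece Ω Γ)))
      (hQ.finite_subsets.subset ?_) ?_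
    · rintro _ ⟨x, hx, rfl⟩
      exact fun q hq => hx q hq
    · intro x _ y _ hxy
      exact Vx.ext (Finset.coe_injective hxy)
  refine ⟨_, tstab_finite_lists hV (j + 1), ?_⟩
  rintro l ⟨h1, h2, h3⟩
  obtain ⟨u, _, w, hw, hb⟩ := tstab_chain h1 (by rintro rfl; simp at h3)
  obtain ⟨g, hg⟩ := h u w (h2 w hw).1 (hb w hw).1 (h2 w hw).2
  refine ⟨g, by simp [h3], fun y hy => ?_⟩
  obtain ⟨x, hx, rfl⟩ := List.mem_map.1 hy
  exact hg x (hb x hx).1 (hb x hx).2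

/-- the twists along a frame: `θ γ` is the element of `exists_SV_of_frame` for `φ` and
`φ i * tw (γ i)`, determined by these equations because the ranges cover -/
theorem exists_twist_hom [FaithfulSMul Γ Ω] {u : Vx Ω Γ} (hu : u ∈ PP Ω Γ) {ι : Type}
    {φ : ι → Chart Ω} (hφ : Frame φ u.s) : ∃ θ : (ι → Γ) →* SV Ω Γ, Function.Injective θ ∧
      (∀ γ i, pc (θ γ : Equiv.Perm (Cs Ω)) * φ i = φ i * pc (tw Γ (γ i))) ∧
      ∀ g : SV Ω Γ, (∀ p ∈ u.s, g • p = p) → g ∈ θ.range := by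
  have h1 : ∀ γ : ι → Γ, ∃ g : SV Ω Γ,
      ∀ i, pc (g : Equiv.Perm (Cs Ω)) * φ i = φ i * pc (tw Γ (γ i)) := by
    intro γ
    obtain ⟨g, hg, e, _⟩ := exists_SV_of_frame hu hu hφ (tstab_frame_tw hφ γ)
    exact ⟨⟨g, hg⟩, e⟩
  choose θ hθ using h1
  have hmul : ∀ a b, θ (a * b) = θ a * θ b := by
    intro a b
    refine Subtype.ext (tstab_ext hu hφ fun i => ?_)
    rw [hθ, Subgroup.coe_mul, map_mul, mul_assoc, hθ, ← mul_assoc, hθ, Pi.mul_apply, map_mul,
      map_mul, mul_assoc]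
  refine ⟨MonoidHom.mk' θ hmul, fun a b hab => ?_, hθ, fun g hg => ?_⟩
  · funext i
    have e : θ a = θ b := hab
    have := hθ a i
    rw [e, hθ] at this
    have h2 := Chart.mul_left_cancel this
    refine tw_injective (Ω := Ω) ?_
    ext κ : 1
    exact (congrArg (fun ψ : Chart Ω => ψ κ) h2).symm
  · have h2 : ∀ i, ∃ γ : Γ, pc (g : Equiv.Perm (Cs Ω)) * φ i = φ i * pc (tw Γ γ) := by
      intro i
      have := hg _ ((hφ.2 _).2 ⟨i, rfl⟩)
      rw [tstab_smul_pm] at this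
      exact pm_eq_iff.1 this.symm
    choose γ hγ using h2
    refine ⟨γ, Subtype.ext (tstab_ext hu hφ fun i => ?_)⟩
    rw [hγ]
    exact hθ γ i

/-- The stabiliser of an interval.  `F i = cols (φ i) w`, `Φ = θ` restricted.  The image fixes all
`pm (φ i * hL L)` with colours in `F i` (`tw_hL`).  An element of the two stabilisers that fixes every
element of the finite invariant set `u ∪ {pm (φ i * hs s b) | s ∈ F i}` lies in the image
(`eq_of_rg_hs_subset`); the pointwise fixer of a finite invariant set has finite index. -/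
theorem exists_stab_hom [FaithfulSMul Γ Ω] {u w : Vx Ω Γ} (hu : u ∈ PP Ω Γ) (h : u ≤ w) :
    ∃ (m : ℕ) (F : Fin m → Finset Ω) (Φ : (∀ i, fixingSubgroup Γ (F i : Set Ω)) →* SV Ω Γ),
      Function.Injective Φ ∧ (u = w → ∀ i, F i = ∅) ∧
      (∀ x, u ≤ x → x ≤ w → Φ.range ≤ MulAction.stabilizer (SV Ω Γ) x) ∧
      Φ.range.relIndex (MulAction.stabilizer (SV Ω Γ) u ⊓ MulAction.stabilizer (SV Ω Γ) w) ≠ 0 := by
  have hd := disj_of_PP hu
  obtain ⟨φ, hφ⟩ := exists_frame u.s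
  have hm : ∀ i, pm Γ (φ i) ∈ u.s := fun i => (hφ.2 _).2 ⟨i, rfl⟩
  choose F hF _ using fun i => exists_cols hd h (hm i)
  obtain ⟨θ, θinj, θeq, θsur⟩ := exists_twist_hom hu hφ
  let ι : (∀ i, fixingSubgroup Γ (F i : Set Ω)) →* (Fin u.s.card → Γ) :=
    MonoidHom.pi fun i => (fixingSubgroup Γ (F i : Set Ω)).subtype.comp
      (Pi.evalMonoidHom (fun i => fixingSubgroup Γ (F i : Set Ω)) i)
  have hι : ∀ a i, ι a i = a i := fun _ _ => rfl
  refine ⟨u.s.card, F, θ.comp ι, θinj.comp fun a b hab => ?_, ?_, ?_, ?_⟩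
  · funext i
    exact Subtype.ext (congrFun hab i)
  · rintro rfl i
    rw [← Finset.coe_eq_empty, hF, Set.eq_empty_iff_forall_notMem]
    rintro s ⟨q, hq, b, hb⟩
    by_cases c : q = pm Γ (φ i)
    · subst c
      exact tstab_not_half _ _ _ hb
    · obtain ⟨κ, hκ⟩ := rng_nonempty q
      exact Set.disjoint_left.1 (hd q hq _ (hm i) c) hκ (rg_mul_subset _ _ (hb hκ))
  · rintro x h1 h2 _ ⟨a, rfl⟩
    have hfix : ∀ q ∈ x.s, (θ.comp ι) a • q = q := by
      intro q hq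
      obtain ⟨i, L, rfl, _, a2⟩ := exists_addr hd h1 h2 hq hφ
      rw [tstab_smul_pm, ← mul_assoc, MonoidHom.comp_apply, θeq, mul_assoc, tw_hL, ← mul_assoc,
        pm_tw]
      congr 3
      conv_rhs => rw [← List.map_id L]
      refine List.map_congr_left fun e he => ?_
      have h3 : e.1 ∈ (F i : Set Ω) := by rw [hF]; exact a2 e he
      have h4 := (mem_fixingSubgroup_iff Γ).1 (a i).2 e.1 h3
      rw [hι, h4]
      rfl
    rw [MulAction.mem_stabilizer_iff]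
    refine Vx.ext (Finset.ext fun q => ?_)
    rw [tstab_mem_smul]
    exact ⟨fun ⟨p, hp, e⟩ => by rw [← e, hfix p hp]; exact hp, fun hq => ⟨q, hq, hfix q hq⟩⟩
  · refine tstab_relIndex (X := Piece Ω Γ) _ _
      (E := (u.s : Set (Piece Ω Γ)) ∪ ⋃ i, ⋃ b : Bool, (fun s => pm Γ (φ i * hs s b)) '' (F i : Set Ω))
      (u.s.finite_toSet.union (Set.finite_iUnion fun i => Set.finite_iUnion fun b =>
        (F i).finite_toSet.image _)) ?_ ?_
    · rintro g ⟨g1, g2⟩ p hp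
      have g1' : g • u = u := g1
      have g2' : g • w = w := g2
      have hu' : ∀ p ∈ u.s, g • p ∈ u.s := fun p hp => by
        have : g • p ∈ (g • u).s := tstab_mem_smul.2 ⟨p, hp, rfl⟩
        rwa [g1'] at this
      have hw' : ∀ p ∈ w.s, g • p ∈ w.s := fun p hp => by
        have : g • p ∈ (g • w).s := tstab_mem_smul.2 ⟨p, hp, rfl⟩
        rwa [g2'] at this
      rcases hp with hp | hp
      · exact Or.inl (hu' p hp)
      · simp only [Set.mem_iUnion, Set.mem_image] at hp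
        obtain ⟨i, b, s, hs', rfl⟩ := hp
        obtain ⟨i', e⟩ := (hφ.2 _).1 (hu' _ (hm i))
        rw [tstab_smul_pm] at e
        obtain ⟨γ, e⟩ := pm_eq_iff.1 e
        right
        simp only [Set.mem_iUnion, Set.mem_image]
        refine ⟨i', b, γ • s, ?_, ?_⟩
        · rw [hF] at hs' ⊢
          obtain ⟨q, hq, b', hb⟩ := hs'
          refine ⟨g • q, hw' q hq, b', ?_⟩
          rw [← tstab_rg_tw_hs, ← e, mul_assoc, rg_mul]
          change rng (pc (g : Equiv.Perm (Cs Ω)) • q) ⊆ _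
          rw [rng_smul]
          exact Set.image_mono hb
        · rw [tstab_smul_pm, ← mul_assoc, e, mul_assoc, tw_hs, ← mul_assoc, pm_tw]
    · intro g _ hg
      obtain ⟨γ, rfl⟩ := θsur g fun p hp => hg p (Or.inl hp)
      have : ∀ i, γ i ∈ fixingSubgroup Γ (F i : Set Ω) := by
        intro i
        rw [mem_fixingSubgroup_iff]
        intro s hs'
        have h1 := hg (pm Γ (φ i * hs s false)) (Or.inr (by
          simp only [Set.mem_iUnion, Set.mem_image]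
          exact ⟨i, false, s, hs', rfl⟩))
        rw [tstab_smul_pm, ← mul_assoc, θeq] at h1
        have h2 := congrArg rng h1
        rw [rng_pm, rng_pm, tstab_rg_tw_hs] at h2
        exact eq_of_rg_hs_subset ((rg_mul_subset_iff _ _ _).1 h2.subset)
      exact ⟨fun i => ⟨γ i, this i⟩, rfl⟩

theorem tstab_range_codRestrict {G H : Type} [Group G] [Group H] (Φ : H →* G) (K : Subgroup G)
    (h : ∀ a, Φ a ∈ K) : (Φ.codRestrict K h).range = Φ.range.subgroupOf K := by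
  ext g
  simp only [MonoidHom.mem_range, Subgroup.mem_subgroupOf]
  exact ⟨fun ⟨a, e⟩ => ⟨a, congrArg Subtype.val e⟩, fun ⟨a, e⟩ => ⟨a, Subtype.ext e⟩⟩

theorem isFPinf_stab [FaithfulSMul Γ Ω]
    (hfix : ∀ F : Finset Ω, IsFPinf (fixingSubgroup Γ (F : Set Ω))) {j : ℕ}
    {l : List (Vx Ω Γ)} (hl : l ∈ Chn (PP Ω Γ) (j + 1)) :
    IsFPinf (⨅ x ∈ l, MulAction.stabilizer (SV Ω Γ) x : Subgroup (SV Ω Γ)) := by
  obtain ⟨h1, h2, h3⟩ := hl
  obtain ⟨u, hu, w, hw, hb⟩ := tstab_chain h1 (by rintro rfl; simp at h3)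
  obtain ⟨m, F, Φ, inj, _, a1, a2⟩ := exists_stab_hom (h2 u hu) (hb w hw).1
  set K : Subgroup (SV Ω Γ) := ⨅ x ∈ l, MulAction.stabilizer (SV Ω Γ) x with hK
  have hle : ∀ a, Φ a ∈ K := by
    intro a
    simp only [hK, Subgroup.mem_iInf]
    exact fun x hx => a1 x (hb x hx).1 (hb x hx).2 ⟨a, rfl⟩
  have hK2 : K ≤ MulAction.stabilizer (SV Ω Γ) u ⊓ MulAction.stabilizer (SV Ω Γ) w :=
    le_inf (iInf₂_le u hu) (iInf₂_le w hw)
  have : (Φ.codRestrict K hle).range.FiniteIndex := by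
    rw [tstab_range_codRestrict]
    exact ⟨fun h0 => a2 (Subgroup.relIndex_eq_zero_of_le_right hK2 h0)⟩
  refine (isFPinf_iff_of_hom (Φ.codRestrict K hle) ?_).1 (IsFPinf.pi fun i => hfix (F i))
  have e : (Φ.codRestrict K hle).ker = ⊥ := by
    rw [MonoidHom.ker_eq_bot_iff]
    exact fun a b hab => inj (congrArg Subtype.val hab)
  rw [e]
  exact isFPinf_of_subsingleton

theorem fp_stab [FaithfulSMul Γ Ω] [Group.IsFinitelyPresented Γ] {u : Vx Ω Γ}
    (hu : u ∈ PP Ω Γ) : Group.IsFinitelyPresented (MulAction.stabilizer (SV Ω Γ) u) := by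
  obtain ⟨m, F, Φ, inj, a0, a1, a2⟩ := exists_stab_hom hu (le_refl u)
  have hle : ∀ a, Φ a ∈ MulAction.stabilizer (SV Ω Γ) u := fun a => a1 u le_rfl le_rfl ⟨a, rfl⟩
  rw [inf_idem] at a2
  have : (Φ.codRestrict _ hle).range.FiniteIndex := by
    rw [tstab_range_codRestrict]
    exact ⟨a2⟩
  have : Group.IsFinitelyPresented (∀ i, fixingSubgroup Γ (F i : Set Ω)) := by
    refine fp_pi fun i => ?_
    have e : fixingSubgroup Γ (F i : Set Ω) = ⊤ := by
      rw [eq_top_iff]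
      intro γ _
      rw [mem_fixingSubgroup_iff, a0 rfl i]
      simp
    rw [e]
    exact Group.IsFinitelyPresented.equiv Subgroup.topEquiv.symm
  have : Group.IsFinitelyPresented (Φ.codRestrict _ hle).range :=
    Group.IsFinitelyPresented.equiv (MonoidHom.ofInjective (f := Φ.codRestrict _ hle)
      fun a b hab => inj (congrArg Subtype.val hab))
  exact fp_of_finiteIndex_subgroup (Φ.codRestrict _ hle).range

end Crest.Agent.R185.TB
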