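import Crest.Agent.R185.TDesc
import Crest.Agent.R185.TSimple
import Crest.Agent.R185.TStab

/-! # Row 185: simple groups of type `FP_∞` from oligomorphic actions -/

set_option autoImplicit false

namespace Crest.Agent.R185.TB

variable {Ω Γ : Type} [Group Γ] [MulAction Γ Ω]

/-- `PP` is built from its sublevel set by increasing rank; the links are the sets `Iio v` -/
theorem plink_PP (n : ℕ) : Lev (PP Ω Γ) {u | u ∈ PP Ω Γ ∧ rk u ≤ n} rk ∧
    ∀ v ∈ PP Ω Γ, v ∉ {u | u ∈ PP Ω Γ ∧ rk u ≤ n} →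
      plink (PP Ω Γ) {u | u ∈ PP Ω Γ ∧ rk u ≤ n} rk v = Set.Iio v := by
  refine ⟨⟨fun u hu => hu.1, fun x _ _ y _ _ e h => (rk_strictMono h).ne e⟩, fun v hv hn => ?_⟩
  have hlt : n < rk v := lt_of_not_ge fun h => hn ⟨hv, h⟩
  ext y
  constructor
  · rintro ⟨hy, h | h⟩
    · exact h
    · have h1 := rk_strictMono h
      rcases hy with hy | hy
      · exact absurd (hlt.trans h1) (not_lt.2 hy.2)
      · exact absurd h1 (not_lt.2 hy.2.le)
  · exact fun h => ⟨Or.inr ⟨PP_lower hv (le_of_lt h), rk_strictMono h⟩, Or.inl h⟩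

theorem acycLE_sublevel [Nonempty Ω] (k : ℕ) :
    ∃ n, ∀ m, n ≤ m → AcycLE {u | u ∈ PP Ω Γ ∧ rk u ≤ m} k := by
  obtain ⟨n, hn⟩ := desc_acyc (Ω := Ω) (Γ := Γ) k
  refine ⟨n, fun m hm j hj => acyc_down (plink_PP m).1 (fun v hv hv' => ?_)
    (acyc_of_directed ⟨_, v0_mem⟩ PP_directed j)⟩
  rw [(plink_PP m).2 v hv hv']
  exact hn v (disj_of_PP hv) (hm.trans (le_of_not_ge fun h => hv' ⟨hv, h⟩)) j hj

theorem scon_sublevel [Nonempty Ω] : ∃ n, ∀ m, n ≤ m → SCon {u | u ∈ PP Ω Γ ∧ rk u ≤ m} := by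
  obtain ⟨n, hn⟩ := desc_scon (Ω := Ω) (Γ := Γ)
  refine ⟨n, fun m hm => scon_down (plink_PP m).1 (fun v hv hv' => ?_)
    (scon_of_directed PP_directed)⟩
  rw [(plink_PP m).2 v hv hv']
  exact hn v (disj_of_PP hv) (hm.trans (le_of_not_ge fun h => hv' ⟨hv, h⟩))

theorem TMain_lt (g : SV Ω Γ) (x y : Vx Ω Γ) (h : x < y) : g • x < g • y :=
  smul_lt_smul (g : Equiv.Perm (Cs Ω)) h

theorem TMain_mem (m : ℕ) (g : SV Ω Γ) (x : Vx Ω Γ) (hx : x ∈ {u | u ∈ PP Ω Γ ∧ rk u ≤ m}) :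
    g • x ∈ {u | u ∈ PP Ω Γ ∧ rk u ≤ m} :=
  ⟨smul_mem_PP g.2 hx.1, (rk_smul (g : Equiv.Perm (Cs Ω)) x).trans_le hx.2⟩

theorem isFPinf_SV [Nonempty Ω] [FaithfulSMul Γ Ω]
    (horb : ∀ k, Finite (MulAction.orbitRel.Quotient Γ (Fin k → Ω)))
    (hfix : ∀ F : Finset Ω, IsFPinf (fixingSubgroup Γ (F : Set Ω))) : IsFPinf (SV Ω Γ) := by
  intro k
  obtain ⟨n, hn⟩ := acycLE_sublevel (Ω := Ω) (Γ := Γ) k
  exact isFP_of_poset TMain_lt (TMain_mem n) k (hn n le_rfl) (finite_orbits_chn horb n)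
    fun j l hl => isFPinf_stab hfix (j := j) ⟨hl.1, fun x hx => (hl.2.1 x hx).1, hl.2.2⟩

theorem fp_SV [Nonempty Ω] [FaithfulSMul Γ Ω] [Group.IsFinitelyPresented Γ]
    (horb : ∀ k, Finite (MulAction.orbitRel.Quotient Γ (Fin k → Ω)))
    (hfix : ∀ F : Finset Ω, IsFPinf (fixingSubgroup Γ (F : Set Ω))) :
    Group.IsFinitelyPresented (SV Ω Γ) := by
  obtain ⟨n, hn⟩ := acycLE_sublevel (Ω := Ω) (Γ := Γ) 1
  obtain ⟨n', hn'⟩ := scon_sublevel (Ω := Ω) (Γ := Γ)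
  refine fp_of_poset TMain_lt (TMain_mem (max n n')) (hn _ (le_max_left _ _))
    (hn' _ (le_max_right _ _)) (finite_orbits_chn horb _) (fun x hx => fp_stab hx.1)
    fun x hx y hy hxy => ?_
  have hl : [x, y] ∈ Chn (PP Ω Γ) (1 + 1) := by
    refine ⟨by simpa using hxy, fun z hz => ?_, rfl⟩
    rcases List.mem_pair.1 hz with rfl | rfl
    · exact hx.1
    · exact hy.1
  have e : (⨅ z ∈ [x, y], MulAction.stabilizer (SV Ω Γ) z : Subgroup (SV Ω Γ)) =
      MulAction.stabilizer (SV Ω Γ) x ⊓ MulAction.stabilizer (SV Ω Γ) y := by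
    ext g
    simp only [Subgroup.mem_iInf, Subgroup.mem_inf, List.mem_pair, forall_eq_or_imp, forall_eq]
  have := (isFPinf_stab hfix hl).fg
  rwa [e] at this

/-- a two-transitive action on an infinite set is generated by its point stabilisers -/
theorem gen_of_two_trans [Infinite Ω]
    (h : ∀ a b c : Ω, b ≠ a → c ≠ a → ∃ γ : Γ, γ • a = a ∧ γ • b = c) :
    (⨆ s : Ω, MulAction.stabilizer Γ s) = ⊤ := by
  classical
  refine eq_top_iff.2 fun g _ => ?_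
  obtain ⟨x⟩ : Nonempty Ω := inferInstance
  obtain ⟨a, ha⟩ := Infinite.exists_notMem_finset ({x, g • x} : Finset Ω)
  simp only [Finset.mem_insert, Finset.mem_singleton, not_or] at ha
  obtain ⟨γ, h1, h2⟩ := h a (g • x) x (Ne.symm ha.2) (Ne.symm ha.1)
  have m1 : γ ∈ ⨆ s : Ω, MulAction.stabilizer Γ s := Subgroup.mem_iSup_of_mem a h1
  have m2 : γ * g ∈ ⨆ s : Ω, MulAction.stabilizer Γ s :=
    Subgroup.mem_iSup_of_mem x (by rw [MulAction.mem_stabilizer_iff, mul_smul, h2])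
  simpa using Subgroup.mul_mem _ (Subgroup.inv_mem _ m1) m2

end Crest.Agent.R185.TB

namespace Crest.Agent.R185

/-- A finitely presented group acting faithfully on an infinite set with finitely many orbits of
tuples and `FP_∞` fixers of finite sets, generated by point stabilisers, embeds in a finitely
presented simple group of type `FP_∞`. -/
theorem exists_simple_overgroup (Γ Ω : Type) [Group Γ] [MulAction Γ Ω] [FaithfulSMul Γ Ω]
    [Infinite Ω] [Group.IsFinitelyPresented Γ]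
    (horb : ∀ k, Finite (MulAction.orbitRel.Quotient Γ (Fin k → Ω)))
    (hfix : ∀ F : Finset Ω, IsFPinf (fixingSubgroup Γ (F : Set Ω)))
    (hgen : (⨆ s : Ω, MulAction.stabilizer Γ s) = ⊤) :
    ∃ (S : Type) (_ : Group S) (f : Γ →* S), Function.Injective f ∧ IsSimpleGroup S ∧
      Group.IsFinitelyPresented S ∧ IsFPinf S :=
  ⟨TB.SV Ω Γ, inferInstance, (TB.tw Γ).codRestrict _ TB.tw_mem,
    fun _ _ h => TB.tw_injective (congrArg Subtype.val h), TB.isSimpleGroup_SV hgen,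
    TB.fp_SV horb hfix, TB.isFPinf_SV horb hfix⟩

end Crest.Agent.R185
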