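import Crest.Agent.R185.AscHNN
import Crest.Agent.R185.TMain

/-!
# Row 185, core: the final package

`P` is a group with an injective endomorphism `ψ` and a subgroup `H`, `ψ⁻¹ H = H`.
`E = P *_ψ = ⟨P, σ | σ x σ⁻¹ = ψ x⟩` acts on `Ω = E ⧸ ⟨H, σ⟩ = ⋃ σ⁻ⁿ (P ⧸ H)`, base point `ω₀`.
-/

set_option autoImplicit false

namespace Crest.Agent.R185

open Function

/-- the data produced by the core construction -/
structure Pkg (P : Type) [Group P] where
  H : Subgroup P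
  ψ : P →* P
  u : P
  τ : P
  ts : P
  ψ_mem : ∀ x, ψ x ∈ H ↔ x ∈ H
  killed : Killed ψ
  u_mem : u ∈ H
  u_comm : ∀ x, Commute u (ψ x)
  τ_comm : ∀ x ∈ H, Commute τ (ψ x)
  τ_star : ∀ x, τ * ψ x * τ⁻¹ ∈ H
  τ_fix : ∀ x, x ∉ H → (ψ x)⁻¹ * τ * ψ x ∈ H
  τ_u : ∀ i : ℤ, i ≠ 0 → τ * u ^ (-i) * τ * u ^ i * τ⁻¹ ∈ H
  faith : ∀ x, x ≠ 1 → ts⁻¹ * ψ x * ts ∉ H
  ne_top : H ≠ ⊤
  /-- an `L`-presentation: `ker π` is the least normal subgroup containing the finite set `R` and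
  stable under the lift `ψ'` of `ψ` -/
  pres : ∃ (Y : Type) (_ : Finite Y) (π : FreeGroup Y →* P) (ψ' : FreeGroup Y →* FreeGroup Y)
    (R : Set (FreeGroup Y)), Surjective π ∧ (∀ w, π (ψ' w) = ψ (π w)) ∧ R.Finite ∧
    (∀ r ∈ R, π r = 1) ∧ ∀ N : Subgroup (FreeGroup Y), N.Normal → R ⊆ N →
      (∀ w ∈ N, ψ' w ∈ N) → π.ker ≤ N

namespace Pkg

variable {P : Type} [Group P] (k : Pkg P)

theorem ψ_injective : Injective k.ψ := by
  refine (injective_iff_map_eq_one _).2 fun x hx => ?_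
  by_contra h
  apply k.faith x h
  rw [hx, mul_one, inv_mul_cancel]
  exact k.H.one_mem

theorem ψ_iterate_mem (n : ℕ) (x : P) : k.ψ^[n] x ∈ k.H ↔ x ∈ k.H := by
  induction n with
  | zero => rfl
  | succ n ih => rw [iterate_succ_apply', k.ψ_mem, ih]

/-- an action of the ascending HNN extension on the union of the `σ⁻ⁿ (P ⧸ H)` -/
structure Act {E : Type} [Group E] (ι : P →* E) (σ : E) {Ω : Type} [MulAction E Ω]
    (pt : P → Ω) : Prop where
  eq_iff : ∀ x y, pt x = pt y ↔ x⁻¹ * y ∈ k.H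
  ι_smul : ∀ z x, ι z • pt x = pt (z * x)
  σ_smul : ∀ x, σ • pt x = pt (k.ψ x)
  cover : ∀ ω, ∃ (p : ℕ) (x : P), σ ^ p • ω = pt x

section Construct

variable {E : Type} [Group E] {ι : P →* E} {σ : E} {χ : E →* Multiplicative ℤ}

/-- the subgroup generated by `H` and `σ` -/
def L (h : Asc k.ψ ι σ χ) : Subgroup E where
  carrier := {g | ∃ (p q : ℕ) (a : P), a ∈ k.H ∧ g = σ⁻¹ ^ p * ι a * σ ^ q}
  one_mem' := ⟨0, 0, 1, k.H.one_mem, by simp⟩
  mul_mem' := by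
    rintro _ _ ⟨p, q, a, ha, rfl⟩ ⟨p', q', a', ha', rfl⟩
    exact ⟨_, _, _, k.H.mul_mem ((k.ψ_iterate_mem _ _).2 ha) ((k.ψ_iterate_mem _ _).2 ha'),
      asc_mul h.conj p q p' q' a a'⟩
  inv_mem' := by
    rintro _ ⟨p, q, a, ha, rfl⟩
    refine ⟨q, p, a⁻¹, k.H.inv_mem ha, ?_⟩
    rw [map_inv]; group

theorem ι_mem_L (h : Asc k.ψ ι σ χ) (x : P) : ι x ∈ k.L h ↔ x ∈ k.H := by
  refine ⟨?_, fun hx => ⟨0, 0, x, hx, by simp⟩⟩
  rintro ⟨p, q, a, ha, e⟩
  have h1 := congrArg (fun g => Multiplicative.toAdd (χ g)) e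
  simp only [h.χι, map_mul, map_pow, map_inv, h.χt, toAdd_one, toAdd_mul, toAdd_pow, toAdd_inv,
    toAdd_ofAdd, smul_neg, nsmul_eq_mul, mul_one] at h1
  obtain rfl : p = q := by omega
  have h2 : ι (k.ψ^[p] x) = ι a := by
    rw [← asc_pow_conj h.conj, e]; group
  rw [← k.ψ_iterate_mem p, h.inj h2]
  exact ha

theorem act_quot (h : Asc k.ψ ι σ χ) :
    k.Act ι σ (fun x => ((ι x : E) : E ⧸ k.L h)) where
  eq_iff x y := by rw [QuotientGroup.eq, ← map_inv, ← map_mul, ι_mem_L]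
  ι_smul z x := by rw [map_mul]; rfl
  σ_smul x := by
    change ((σ * ι x : E) : E ⧸ k.L h) = _
    rw [QuotientGroup.eq, ← h.conj]
    exact ⟨1, 0, 1, k.H.one_mem, by simp [mul_assoc]⟩
  cover ω := by
    obtain ⟨g, rfl⟩ := QuotientGroup.mk_surjective ω
    obtain ⟨p, q, a, rfl⟩ := h.gen g
    refine ⟨p, a, ?_⟩
    change ((σ ^ p * (σ⁻¹ ^ p * ι a * σ ^ q) : E) : E ⧸ k.L h) = _
    rw [QuotientGroup.eq]
    exact ⟨q, 0, 1, k.H.one_mem, by simp [mul_assoc]⟩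

end Construct

/-- representative of the `i`-th star -/
def st (i : ℤ) : P := k.u ^ i * k.τ⁻¹

/-- the element moving the `i`-th star to the point `ψ x` -/
def tau (i : ℤ) (x : P) : P := k.ψ x * k.u ^ i * k.τ * k.u ^ (-i) * (k.ψ x)⁻¹

theorem u_zpow_comm (i : ℤ) (x : P) : k.u ^ i * k.ψ x = k.ψ x * k.u ^ i :=
  ((k.u_comm x).zpow_left i).eq

theorem tau_comm (i : ℤ) (x z : P) (hz : (k.ψ x)⁻¹ * (k.ψ z * k.ψ x) ∈ k.H) :
    Commute (k.tau i x) (k.ψ z) := by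
  rw [← map_inv, ← map_mul, ← map_mul, k.ψ_mem] at hz
  have h1 : Commute (k.u ^ i * k.τ * k.u ^ (-i)) (k.ψ (x⁻¹ * (z * x))) :=
    (((k.u_comm _).zpow_left i).mul_left (k.τ_comm _ hz)).mul_left ((k.u_comm _).zpow_left _)
  have h2 := h1.map (MulAut.conj (k.ψ x)).toMonoidHom
  simp only [MulEquiv.coe_toMonoidHom, MulAut.conj_apply, map_mul, map_inv] at h2
  convert h2 using 1
  · simp only [tau, mul_assoc, inv_mul_cancel_left]
  · group

section Action

variable {k}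
variable {E : Type} [Group E] {ι : P →* E} {σ : E} {Ω : Type} [MulAction E Ω] {pt : P → Ω}
  (a : k.Act ι σ pt)
include a

theorem Act.ψ_star (x : P) (i : ℤ) : ι (k.ψ x) • pt (k.st i) = pt (k.st i) := by
  rw [a.ι_smul, eq_comm, a.eq_iff]
  convert k.τ_star x using 1
  rw [st, ← mul_assoc (k.ψ x), ← u_zpow_comm]; group

theorem Act.u_star (i j : ℤ) : ι (k.u ^ i) • pt (k.st j) = pt (k.st (i + j)) := by
  rw [a.ι_smul, st, st, zpow_add, mul_assoc]

theorem Act.τ_star {i : ℤ} (hi : i ≠ 0) : ι k.τ • pt (k.st i) = pt (k.st i) := by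
  rw [a.ι_smul, eq_comm, a.eq_iff]
  convert k.τ_u i hi using 1
  rw [st]; group

theorem Act.u_pt (i : ℤ) (x : P) : ι (k.u ^ i) • pt (k.ψ x) = pt (k.ψ x) := by
  rw [a.ι_smul, eq_comm, a.eq_iff, u_zpow_comm, inv_mul_cancel_left]
  exact k.H.zpow_mem k.u_mem i

theorem Act.tau_star_self (i : ℤ) (x : P) : ι (k.tau i x) • pt (k.st i) = pt (k.ψ x) := by
  rw [tau, ← map_inv]
  simp only [map_mul, mul_smul]
  rw [a.ψ_star, a.u_star, neg_add_cancel, a.ι_smul k.τ, st, zpow_zero, one_mul, mul_inv_cancel,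
    ← map_one k.ψ, a.u_pt, a.ι_smul, map_one, mul_one]

theorem Act.tau_star_ne {i j : ℤ} (h : j ≠ i) (x : P) :
    ι (k.tau i x) • pt (k.st j) = pt (k.st j) := by
  rw [tau, ← map_inv]
  simp only [map_mul, mul_smul]
  rw [a.ψ_star, a.u_star, a.τ_star (by omega), a.u_star, a.ψ_star, add_neg_cancel_left]

theorem Act.tau_pt (i : ℤ) {x y : P} (h : pt (k.ψ x) ≠ pt (k.ψ y)) :
    ι (k.tau i x) • pt (k.ψ y) = pt (k.ψ y) := by
  rw [Ne, a.eq_iff, ← map_inv, ← map_mul, k.ψ_mem] at h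
  have h1 : ι k.τ • pt (k.ψ (x⁻¹ * y)) = pt (k.ψ (x⁻¹ * y)) := by
    rw [a.ι_smul, eq_comm, a.eq_iff, ← mul_assoc]
    exact k.τ_fix _ h
  rw [tau, ← map_inv]
  simp only [map_mul ι, mul_smul]
  rw [a.ι_smul (k.ψ x⁻¹), ← map_mul, a.u_pt, h1, a.u_pt, a.ι_smul, ← map_mul, mul_inv_cancel_left]

theorem Act.exists_s {J : Type} (I : Finset J) (e : J → ℤ) (he : Injective e) (x : J → P)
    (hx : Injective fun j => pt (k.ψ (x j))) :
    ∃ s : P, (∀ j ∈ I, ι s • pt (k.st (e j)) = pt (k.ψ (x j))) ∧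
      (∀ j ∉ I, ι s • pt (k.st (e j)) = pt (k.st (e j))) ∧
      ∀ z, (∀ j ∈ I, ι (k.ψ z) • pt (k.ψ (x j)) = pt (k.ψ (x j))) → Commute s (k.ψ z) := by
  classical
  induction I using Finset.induction_on with
  | empty => exact ⟨1, by simp, by simp, fun _ _ => Commute.one_left _⟩
  | insert b I hb ih =>
    obtain ⟨s, h1, h2, h3⟩ := ih
    refine ⟨k.tau (e b) (x b) * s, fun j hj => ?_, fun j hj => ?_, fun z hz => ?_⟩
    · rw [map_mul, mul_smul]
      rcases Finset.mem_insert.1 hj with rfl | hj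
      · rw [h2 j hb, a.tau_star_self]
      · rw [h1 j hj, a.tau_pt]
        exact fun h => hb (hx h ▸ hj)
    · rw [Finset.mem_insert, not_or] at hj
      rw [map_mul, mul_smul, h2 j hj.2, a.tau_star_ne (he.ne hj.1)]
    · refine Commute.mul_left (k.tau_comm _ _ _ ?_) (h3 z fun j hj => hz j (by simp [hj]))
      rw [← a.eq_iff, ← a.ι_smul, hz b (by simp)]

theorem Act.star_injective : Injective fun i : ℤ => pt (k.st i) := by
  intro i j hij
  by_contra h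
  have h1 : ∀ x, pt (k.st j) = pt (k.ψ x) := fun x => by
    rw [← a.tau_star_ne (Ne.symm h) x, ← a.tau_star_self i x]
    exact congrArg _ hij.symm
  refine k.ne_top (eq_top_iff.2 fun y _ => ?_)
  have h2 := (h1 1).symm.trans (h1 y)
  rwa [a.eq_iff, map_one, inv_one, one_mul, k.ψ_mem] at h2

theorem Act.σ_pow_smul (n : ℕ) (x : P) : σ ^ n • pt x = pt (k.ψ^[n] x) := by
  induction n with
  | zero => simp
  | succ n ih => rw [pow_succ', mul_smul, ih, a.σ_smul, iterate_succ_apply']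

theorem Act.cover_fin {J : Type} [Finite J] (v : J → Ω) :
    ∃ (n : ℕ) (x : J → P), ∀ j, σ ^ n • v j = pt (k.ψ (x j)) := by
  choose p x hx using fun j => a.cover (v j)
  obtain ⟨n, hn⟩ := (Set.finite_range p).bddAbove
  refine ⟨n + 1, fun j => k.ψ^[n - p j] (x j), fun j => ?_⟩
  have h1 : p j ≤ n := hn ⟨j, rfl⟩
  rw [show n + 1 = (n - p j + 1) + p j by omega, pow_add, mul_smul, hx, a.σ_pow_smul,
    iterate_succ_apply']

theorem Act.from_star {J : Type} [Finite J] (e : J → ℤ) (he : Injective e) (v : J → Ω)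
    (hv : Injective v) : ∃ g : E, ∀ j, g • pt (k.st (e j)) = v j := by
  have := Fintype.ofFinite J
  obtain ⟨n, x, hx⟩ := a.cover_fin v
  obtain ⟨s, hs, -⟩ := a.exists_s Finset.univ e he x fun i j h => by
    simp only [← hx] at h
    exact hv (MulAction.injective _ h)
  refine ⟨(σ ^ n)⁻¹ * ι s, fun j => ?_⟩
  rw [mul_smul, hs j (Finset.mem_univ _), ← hx, inv_smul_smul]

omit a in
theorem exists_inj_int (J : Type) [Finite J] : ∃ e : J → ℤ, Injective e := by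
  obtain ⟨e, he⟩ := Countable.exists_injective_nat J
  exact ⟨fun j => e j, fun i j h => he (Nat.cast_injective h)⟩

theorem Act.trans {J : Type} [Finite J] (v w : J → Ω) (hv : Injective v) (hw : Injective w) :
    ∃ g : E, ∀ j, g • v j = w j := by
  obtain ⟨e, he⟩ := exists_inj_int J
  obtain ⟨g, hg⟩ := a.from_star e he v hv
  obtain ⟨g', hg'⟩ := a.from_star e he w hw
  exact ⟨g' * g⁻¹, fun j => by rw [mul_smul, ← hg, inv_smul_smul, hg']⟩

theorem Act.finite_orbits (n : ℕ) : Finite (MulAction.orbitRel.Quotient E (Fin n → Ω)) := by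
  refine Finite.of_injective
    (fun q : MulAction.orbitRel.Quotient E (Fin n → Ω) => fun i j => q.out i = q.out j) ?_
  intro q q' h
  have h1 : ∀ i j, q.out i = q.out j ↔ q'.out i = q'.out j := fun i j =>
    Iff.of_eq (congrFun (congrFun h i) j)
  have : Finite (Set.range q.out) := (Set.finite_range _).to_subtype
  obtain ⟨g, hg⟩ := a.trans (fun z : Set.range q.out => q'.out z.2.choose) Subtype.val
    (fun z z' hz => Subtype.ext (by
      rw [← z.2.choose_spec, ← z'.2.choose_spec]; exact (h1 _ _).2 hz)) Subtype.val_injective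
  rw [← q.out_eq, ← q'.out_eq]
  refine Quotient.sound (MulAction.orbitRel_apply.2 ⟨g, funext fun i => ?_⟩)
  have h2 := hg ⟨q.out i, i, rfl⟩
  have h3 : q'.out (Exists.choose (⟨i, rfl⟩ : q.out i ∈ Set.range q.out)) = q'.out i :=
    (h1 _ _).1 (Exists.choose_spec (⟨i, rfl⟩ : q.out i ∈ Set.range q.out))
  simp only [h3] at h2
  exact h2

theorem Act.two_trans (b c d : Ω) (hc : c ≠ b) (hd : d ≠ b) : ∃ γ : E, γ • b = b ∧ γ • c = d := by
  have h : ∀ c, c ≠ b → Injective fun t : Bool => cond t b c := by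
    rintro c hc (_ | _) (_ | _) h
    · rfl
    · exact absurd h hc
    · exact absurd h.symm hc
    · rfl
  obtain ⟨g, hg⟩ := a.trans _ _ (h c hc) (h d hd)
  exact ⟨g, hg true, hg false⟩

theorem Act.faithful {χ : E →* Multiplicative ℤ} (h : Asc k.ψ ι σ χ) : FaithfulSMul E Ω := by
  have key : ∀ (n : ℕ) (x : P), (∀ ω : Ω, (σ ^ (n + 1) * ι x) • ω = ω) → False := by
    intro n x hx
    have h1 := hx (pt (k.st 0))
    rw [mul_smul, a.ι_smul, a.σ_pow_smul, iterate_succ_apply'] at h1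
    refine k.ne_top (eq_top_iff.2 fun y _ => ?_)
    set w := k.ψ^[n] (x * k.st 0)
    have h2 := a.ψ_star (w * y * w⁻¹) 0
    rw [← h1, a.ι_smul, ← map_mul, eq_comm, a.eq_iff, ← map_inv, ← map_mul, k.ψ_mem] at h2
    simpa [mul_assoc] using h2
  have key2 : ∀ (p q : ℕ) (x : P), p ≤ q → (∀ ω : Ω, (σ⁻¹ ^ p * ι x * σ ^ q) • ω = ω) →
      σ⁻¹ ^ p * ι x * σ ^ q = 1 := by
    intro p q x hpq hx
    obtain ⟨n, rfl⟩ := Nat.exists_eq_add_of_le hpq
    have h1 : ∀ ω : Ω, (σ ^ n * ι x) • ω = ω := fun ω => by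
      have h2 := hx (((ι x)⁻¹ * σ ^ p)⁻¹ • ω)
      rw [eq_inv_smul_iff, smul_smul, smul_smul] at h2
      convert h2 using 2
      group
    rcases n with _ | n
    · obtain rfl : x = 1 := by
        by_contra hx1
        apply k.faith x hx1
        have h2 := h1 (σ⁻¹ • pt k.ts)
        rw [eq_inv_smul_iff, smul_smul, smul_smul, pow_zero, one_mul, h.conj, a.ι_smul, eq_comm,
          a.eq_iff] at h2
        rwa [mul_assoc]
      simp
    · exact (key n x h1).elim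
  refine faithfulSMul_iff.2 fun g hg => ?_
  obtain ⟨p, q, x, rfl⟩ := h.gen g
  rcases le_total p q with hpq | hpq
  · exact key2 p q x hpq hg
  · have e : (σ⁻¹ ^ p * ι x * σ ^ q)⁻¹ = σ⁻¹ ^ q * ι x⁻¹ * σ ^ p := by rw [map_inv]; group
    rw [← inv_eq_one, e]
    refine key2 q p x⁻¹ hpq fun ω => ?_
    rw [← e, inv_smul_eq_iff, hg]

theorem Act.isFPinf_star {χ : E →* Multiplicative ℤ} (h : Asc k.ψ ι σ χ) [Group.FG P]
    {J : Type} [Finite J] (e : J → ℤ) (he : Injective e) :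
    IsFPinf (fixingSubgroup E (Set.range fun j => pt (k.st (e j)))) := by
  have := Fintype.ofFinite J
  set G := fixingSubgroup E (Set.range fun j => pt (k.st (e j))) with hG
  have mem : ∀ g, g ∈ G ↔ ∀ j, g • pt (k.st (e j)) = pt (k.st (e j)) := fun g => by
    rw [hG, mem_fixingSubgroup_iff, Set.forall_mem_range]
  obtain ⟨s, hs, -, hc⟩ := a.exists_s Finset.univ e he (fun j => k.st (e j)) fun i j hij => by
    simp only [← a.σ_smul] at hij
    exact he (a.star_injective (MulAction.injective _ hij))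
  have ht : (ι s)⁻¹ * σ ∈ G := (mem _).2 fun j => by
    rw [mul_smul, a.σ_smul, inv_smul_eq_iff, hs j (Finset.mem_univ _)]
  let A : Subgroup P := G.comap ι
  let φ : P →* A := k.ψ.codRestrict A fun x => (mem _).2 fun j => a.ψ_star x _
  have hpow : ∀ n : ℕ, ∃ y : P, σ ^ n = ι y * ((ι s)⁻¹ * σ) ^ n := by
    intro n
    induction n with
    | zero => exact ⟨1, by simp⟩
    | succ n ih =>
      obtain ⟨y, hy⟩ := ih
      refine ⟨k.ψ y * s, ?_⟩
      rw [pow_succ', hy, map_mul, ← h.conj, pow_succ']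
      simp only [mul_assoc, mul_inv_cancel_left, inv_mul_cancel_left]
  have hA : Asc (φ.comp A.subtype) (ι.subgroupComap G) (⟨_, ht⟩ : G) (χ.comp G.subtype) := by
    refine ⟨fun x y hxy => Subtype.ext (h.inj (congrArg Subtype.val hxy)), fun z => ?_, ?_, ?_, ?_⟩
    · refine Subtype.ext ?_
      change (ι s)⁻¹ * σ * ι z * ((ι s)⁻¹ * σ)⁻¹ = ι (k.ψ z)
      have h1 : Commute s (k.ψ z) := hc z fun j _ => by
        rw [← a.σ_smul, ← h.conj, mul_smul, inv_smul_smul, mul_smul, (mem _).1 z.2 j]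
      have h2 := (h1.map ι).eq
      rw [← h.conj] at h2 ⊢
      calc (ι s)⁻¹ * σ * ι z * ((ι s)⁻¹ * σ)⁻¹ = (ι s)⁻¹ * (σ * ι z * σ⁻¹ * ι s) := by group
        _ = _ := by rw [← h2]; group
    · change χ ((ι s)⁻¹ * σ) = _
      rw [map_mul, map_inv, h.χι, h.χt, inv_one, one_mul]
    · intro z
      exact h.χι z
    · intro g
      obtain ⟨p, q, x, hx⟩ := h.gen g
      obtain ⟨y, hy⟩ := hpow p
      obtain ⟨y', hy'⟩ := hpow q
      have h1 : (g : E) = ((ι s)⁻¹ * σ)⁻¹ ^ p * ι (y⁻¹ * x * y') * ((ι s)⁻¹ * σ) ^ q := by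
        rw [hx, inv_pow, hy, hy', inv_pow, map_mul, map_mul, map_inv]; group
      have h2 : y⁻¹ * x * y' ∈ A := by
        have h3 : ι (y⁻¹ * x * y') = ((ι s)⁻¹ * σ) ^ p * g * (((ι s)⁻¹ * σ) ^ q)⁻¹ := by
          rw [h1, inv_pow]
          simp only [mul_assoc, mul_inv_cancel_left, mul_inv_cancel, mul_one]
        change ι _ ∈ G
        rw [h3]
        exact G.mul_mem (G.mul_mem (G.pow_mem ht _) g.2) (G.inv_mem (G.pow_mem ht _))
      exact ⟨p, q, ⟨_, h2⟩, Subtype.ext h1⟩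
  refine hA.swindle_sq ((k.killed.comp_left φ).comp_right A.subtype) ⟨φ.range, ?_, ?_⟩
  · exact (Group.fg_iff_subgroup_fg _).1 inferInstance
  · rintro _ ⟨z, rfl⟩
    exact ⟨z, rfl⟩

theorem Act.isFPinf_fix {χ : E →* Multiplicative ℤ} (h : Asc k.ψ ι σ χ) [Group.FG P]
    (F : Finset Ω) : IsFPinf (fixingSubgroup E (F : Set Ω)) := by
  obtain ⟨e, he⟩ := exists_inj_int F
  obtain ⟨g, hg⟩ := a.from_star e he Subtype.val Subtype.val_injective
  refine (a.isFPinf_star h e he).of_equiv (SubMulAction.fixingSubgroupEquivFixingSubgroup (g := g) ?_)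
  ext ω
  constructor
  · rintro ⟨_, ⟨j, rfl⟩, rfl⟩
    change g • pt (k.st (e j)) ∈ (F : Set Ω)
    rw [hg j]
    exact j.2
  · intro hω
    exact ⟨_, ⟨⟨ω, hω⟩, rfl⟩, hg _⟩

end Action

end Pkg

/-- **Task CPkg.**  Recipe.
* `ψ` is injective (`faith`; `ts⁻¹ * 1 * ts = 1 ∈ H`).  `E` = ascending HNN extension (`σ x σ⁻¹ = ψ x`,
  `χ : E → ℤ`, every element is `σ⁻ᵖ x σ^q`), finitely presented: `⟨Y, σ | R, σ y σ⁻¹ = ψ' y⟩`
  (in that group `Q` the kernel `N` of `F(Y) → Q` is normal, contains `R` and is `ψ'`-stable).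
* `L = ⟨H, σ⟩ = {σ⁻ᵖ h σ^q}`, `L ∩ P = H` (by `ψ_mem`), `Ω = E ⧸ L`, `Ω_P = P ω₀ ≅ P ⧸ H`,
  `σ (x ω₀) = ψ x ω₀`, every finite subset of `Ω` is moved into `ψ(P) ω₀` by a power of `σ`.
* stars `⋆ᵢ = uⁱ τ⁻¹ ω₀` (`i : ℤ`) are fixed by `ψ(P)` (`τ_star`, `u_comm`).  For `g = ψ x` put
  `τ(i,g) = g uⁱ τ u⁻ⁱ g⁻¹`: it maps `⋆ᵢ ↦ g ω₀`, fixes `⋆ⱼ` (`j ≠ i`, `τ_u`), fixes `g' ω₀` for
  `g' = ψ x'`, `g' ω₀ ≠ g ω₀` (`τ_fix`), and commutes with every `ψ z` fixing `g ω₀` (`τ_comm`).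
  For distinct points `T = (g₁ ω₀, …, g_k ω₀)` the product `s_T` of the `τ(i, gᵢ)` (any order) maps
  `⋆ᵢ ↦ gᵢ ω₀`.  Hence `E` is transitive on injective `k`-tuples (finitely many orbits on all tuples:
  the orbit is determined by the equality pattern), the stars are distinct (`ne_top` gives two points
  in `ψ(P) ω₀`), `Ω` is infinite, `TB.gen_of_two_trans` applies.
* faithful: `ψ x` moves `ts ω₀`, so `ker χ = ⋃ σ⁻ᵖ P σᵖ` acts faithfully.  If `z = σ⁻ᵖ x σ^q` acts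
  trivially, `p ≠ q`, conjugating / inverting gives `x σⁿ` (`n > 0`) acting trivially, so
  `x⁻¹ ⋆₀ … ∈ σⁿ Ω_P ⊆ ψ(P) ω₀` for all points of `Ω_P`: `σⁿ Ω_P = x⁻¹ Ω_P = Ω_P`, so `⋆₀ = ψ g ω₀`,
  which is fixed by `ψ(P)`, so `ψ(P) ≤ H`, so `H = ⊤`.
* fixers: conjugate `F` into `ψ(P) ω₀`; `t = s_F s_{σF}⁻¹`, `σ' = t σ` fixes `F`; `E_F` is the
  ascending HNN extension of `P_F` along `ψ' = c_t ∘ ψ|P_F`; for `x ∈ P_F`, `ψ x` commutes with
  `s_{σF}`, so `ψ' x = s_F ψ(x) s_F⁻¹ = φ x` with `φ = c_{s_F} ∘ ψ : P → P_F` (defined on all of `P`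
  since `ψ(P)` fixes the stars).  So `ψ'.range ≤ φ.range` is finitely generated and
  `ψ' ∘ ψ' = φ ∘ ((conj s_F) ∘ ψ) ∘ incl` is `Killed` (`comp_left`, `comp_right`).  Use the variant of
  `swindle` with `Killed (φ.comp φ)`: `Sw.exists_tame` for `φ.comp φ` gives `ψ = φ^[2J]`, then
  `isFP_of_tame_pow n (2J)`.
* `exists_simple_overgroup`. -/
theorem Pkg.exists_simple {P : Type} [Group P] (k : Pkg P) :
    ∃ (S : Type) (_ : Group S) (f : P →* S), Injective f ∧ IsSimpleGroup S ∧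
      Group.IsFinitelyPresented S ∧ IsFPinf S := by
  obtain ⟨Y, _, π, ψ', R, hπ, hψ, hR, hR1, hmin⟩ := k.pres
  have h := asc_AscG k.ψ k.ψ_injective
  have a := k.act_quot h
  have := fp_AscG k.ψ k.ψ_injective π ψ' R hπ hψ hR hR1 hmin
  have : Group.FG P := Group.fg_of_surjective hπ
  have := a.faithful h
  have := Infinite.of_injective _ a.star_injective
  obtain ⟨S, _, f, h1, h2⟩ := exists_simple_overgroup (AscG k.ψ k.ψ_injective)
    (AscG k.ψ k.ψ_injective ⧸ k.L h) a.finite_orbits (a.isFPinf_fix h)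
    (TB.gen_of_two_trans a.two_trans)
  exact ⟨S, inferInstance, f.comp (ascι k.ψ k.ψ_injective), h1.comp h.inj, h2⟩

end Crest.Agent.R185
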