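import Crest.Agent.R185.PMach

/-!
# A universal prefix-rewriting machine, with Kleene's recursion theorem built in (helper82)
-/

set_option autoImplicit false

namespace Crest.Agent.R185

open Turing Relation Function Encodable Denumerable

namespace TMs

open PartrecToTM2

/-- `pushU` on natural numbers -/
def pushN (j n : ℕ) : ℕ := 2 * (fun m => 2 * m + 1)^[j] n

theorem cast_pushU (j : ℕ) (p : PosNum) : ((pushU j p : PosNum) : ℕ) = pushN j p := by
  have : ∀ j : ℕ, ((PosNum.bit1^[j] p : PosNum) : ℕ) = (fun m => 2 * m + 1)^[j] (p : ℕ) := by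
    intro j
    induction j with
    | zero => rfl
    | succ j ih =>
      rw [Function.iterate_succ_apply', Function.iterate_succ_apply', PosNum.cast_bit1, ih]; ring
  rw [pushU, PosNum.cast_bit0, this, pushN]; ring

/-- the code of a parameter and a list -/
def encN (x : ℕ × List ℕ) : ℕ := x.2.foldl (fun n j => pushN j n) (pushN x.1 1)

theorem cast_encP {A : Type} (idx : A → ℕ) (p : PosNum) (w : List A) :
    ((encP idx p w : PosNum) : ℕ) = (w.map idx).foldl (fun n j => pushN j n) p := by
  induction w generalizing p with
  | nil => rfl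
  | cons a w ih => simp only [encP, List.foldl_cons, List.map_cons] at ih ⊢; rw [ih, cast_pushU]

theorem primrec_pushN : Primrec₂ pushN := by
  unfold pushN
  refine Primrec.nat_mul.comp (Primrec.const 2) ?_
  exact Primrec.nat_iterate Primrec.fst Primrec.snd
    (Primrec.succ.comp (Primrec.nat_mul.comp (Primrec.const 2) Primrec.snd)).to₂

theorem primrec_encN : Primrec encN := by
  unfold encN
  exact Primrec.list_foldl Primrec.snd (primrec_pushN.comp Primrec.fst (Primrec.const 1))
    (primrec_pushN.comp (Primrec.snd.comp Primrec.snd) (Primrec.fst.comp Primrec.snd)).to₂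

theorem iter_bit1_inj {j j' : ℕ} {p p' : PosNum} (hp : ∀ q, p ≠ PosNum.bit1 q)
    (hp' : ∀ q, p' ≠ PosNum.bit1 q) (h : PosNum.bit1^[j] p = PosNum.bit1^[j'] p') :
    j = j' ∧ p = p' := by
  induction j generalizing j' with
  | zero =>
    cases j' with
    | zero => exact ⟨rfl, h⟩
    | succ j' => rw [Function.iterate_succ_apply'] at h; exact absurd h (hp _)
  | succ j ih =>
    cases j' with
    | zero => rw [Function.iterate_succ_apply'] at h; exact absurd h.symm (hp' _)
    | succ j' =>
      rw [Function.iterate_succ_apply', Function.iterate_succ_apply'] at h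
      obtain ⟨rfl, rfl⟩ := ih (PosNum.bit1.inj h)
      exact ⟨rfl, rfl⟩

theorem encP_bit0 (e : ℕ) (w : List ℕ) : ∃ q, encP id (pushU e 1) w = PosNum.bit0 q := by
  induction w using List.reverseRecOn with
  | nil => exact ⟨_, rfl⟩
  | append_singleton w a _ => simp only [encP, List.foldl_append]; exact ⟨_, rfl⟩

theorem encP_inj {e e' : ℕ} {w w' : List ℕ}
    (h : encP id (pushU e 1) w = encP id (pushU e' 1) w') : e = e' ∧ w = w' := by
  have one : ∀ q, (1 : PosNum) ≠ PosNum.bit1 q := fun q h => by cases h
  have nb : ∀ e w q, encP id (pushU e 1) w ≠ PosNum.bit1 q := fun e w q h => by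
    obtain ⟨r, hr⟩ := encP_bit0 e w; rw [hr] at h; cases h
  have n1 : ∀ e w, encP id (pushU e 1) w ≠ 1 := fun e w h => by
    obtain ⟨r, hr⟩ := encP_bit0 e w; rw [hr] at h; cases h
  have st : ∀ e w a, encP id (pushU e 1) (w ++ [a]) = pushU a (encP id (pushU e 1) w) :=
    fun e w a => by simp [encP, List.foldl_append]
  induction w using List.reverseRecOn generalizing w' with
  | nil =>
    induction w' using List.reverseRecOn with
    | nil => exact ⟨(iter_bit1_inj one one (PosNum.bit0.inj h)).1, rfl⟩
    | append_singleton w' a _ =>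
      rw [st] at h
      exact absurd (iter_bit1_inj one (nb _ _) (PosNum.bit0.inj h)).2.symm (n1 _ _)
  | append_singleton w a ih =>
    induction w' using List.reverseRecOn with
    | nil =>
      rw [st] at h
      exact absurd (iter_bit1_inj (nb _ _) one (PosNum.bit0.inj h)).2 (n1 _ _)
    | append_singleton w' a' _ =>
      rw [st, st] at h
      obtain ⟨rfl, h'⟩ := iter_bit1_inj (nb _ _) (nb _ _) (PosNum.bit0.inj h)
      obtain ⟨rfl, rfl⟩ := ih h'
      exact ⟨rfl, rfl⟩

theorem encN_eq (e : ℕ) (w : List ℕ) : encN (e, w) = (encP id (pushU e 1) w : PosNum) := by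
  rw [cast_encP, cast_pushU]; simp [encN]

theorem encN_injective : Injective encN := by
  rintro ⟨e, w⟩ ⟨e', w'⟩ h
  rw [encN_eq, encN_eq] at h
  obtain ⟨rfl, rfl⟩ := encP_inj (PosNum.to_nat_inj.1 h)
  rfl

/-- the universal partial function on codes of pairs -/
def univ (n : ℕ) : Part ℕ :=
  (Nat.rfind fun m => Part.some (decide (encN (ofNat (ℕ × List ℕ) m) = n))).bind fun m =>
    Nat.Partrec.Code.eval (ofNat _ (ofNat (ℕ × List ℕ) m).1) (encode (ofNat (ℕ × List ℕ) m).2)

theorem partrec_univ : Partrec univ := by
  unfold univ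
  refine Partrec.bind (Partrec.rfind ?_) ?_
  · refine Computable.partrec (Primrec.to_comp ?_)
    exact (Primrec.eq.decide.comp (primrec_encN.comp ((Primrec.ofNat _).comp Primrec.snd))
      Primrec.fst)
  · refine Nat.Partrec.Code.eval_part.comp ?_ ?_
    · exact ((Primrec.ofNat _).comp
        (Primrec.fst.comp ((Primrec.ofNat (ℕ × List ℕ)).comp Primrec.snd))).to_comp
    · exact (Primrec.encode.comp
        (Primrec.snd.comp ((Primrec.ofNat (ℕ × List ℕ)).comp Primrec.snd))).to_comp

theorem univ_encN (x : ℕ × List ℕ) :
    univ (encN x) = Nat.Partrec.Code.eval (ofNat _ x.1) (encode x.2) := by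
  have : encode x ∈ Nat.rfind fun m =>
      Part.some (decide (encN (ofNat (ℕ × List ℕ) m) = encN x)) := by
    rw [Nat.mem_rfind]
    refine ⟨by rw [ofNat_encode]; simp, fun {m} hm => ?_⟩
    have : encN (ofNat (ℕ × List ℕ) m) ≠ encN x := fun h => by
      have := encN_injective h
      rw [← this, encode_ofNat] at hm
      exact lt_irrefl _ hm
    rw [decide_eq_false this]; exact Part.mem_some _
  rw [univ, Part.eq_some_iff.2 this, Part.bind_some, ofNat_encode]

theorem encode_map_encode {A : Type} [Primcodable A] (w : List A) :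
    encode (w.map encode) = encode w := by
  induction w with
  | nil => rfl
  | cons a w ih => simp [Encodable.encode_list_cons, ih]

theorem exists_param {A : Type} [Primcodable A] (p : ℕ → List A → Prop)
    (hp : REPred fun x : ℕ × List A => p x.1 x.2) :
    ∃ e : ℕ, ∀ w : List A,
      (Nat.Partrec.Code.eval (ofNat _ e) (encode (w.map encode))).Dom ↔ p e w := by
  let f : Nat.Partrec.Code → ℕ →. ℕ := fun c n =>
    (Part.ofOption (decode (α := List A) n)).bind fun w =>
      (Part.assert (p (encode c) w) fun _ => Part.some ()).map fun _ => 0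
  have hf : Partrec₂ f := by
    refine Partrec.bind (Computable.ofOption (Computable.decode.comp Computable.snd)) ?_
    refine Partrec.map (g := fun _ _ => 0) ?_ (Computable.const 0).to₂
    exact Partrec.comp hp
      ((Computable.encode.comp (Computable.fst.comp Computable.fst)).pair Computable.snd)
  obtain ⟨c, hc⟩ := Nat.Partrec.Code.fixed_point₂ hf
  refine ⟨encode c, fun w => ?_⟩
  rw [ofNat_encode, hc, encode_map_encode]
  simp [f, Part.assert]

end TMs

open TMs PartrecToTM2 in
/-- **Universal machine.**  One machine `M` with four stacks; every rule reads and writes at most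
one symbol on each stack; rules with the same colour, source and prefix read coincide.  The
parameter `e` is written in unary on the stack `k₀` of the start configuration; every r.e. family
`p e` of sets of words (which may depend on the machine) has a parameter `e` such that the words
printed by the accepting runs from the `e`-th start configuration are exactly the words in `p e`.
No rule leaves the accepting state. -/
theorem exists_pm_univ (A : Type) [Finite A] [Primcodable A] :
    ∃ (M : PfM A) (κ : Fin 4 ≃ M.K) (col : M.J → Fin 4) (q₀ qf : M.Q) (k₀ : M.K) (s : M.G)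
      (a : List M.G) (b : M.K → List M.G) (init : ℕ → M.K → List M.G),
      (∀ j k, (M.pre j k).length ≤ 1) ∧ (∀ j k, (M.post j k).length ≤ 1) ∧
      (∀ j j', col j = col j' → M.src j = M.src j' → M.pre j = M.pre j' → j = j') ∧
      (∀ e, init e k₀ = a ++ List.replicate e s ++ b k₀) ∧ (∀ e k, k ≠ k₀ → init e k = b k) ∧
      q₀ ≠ qf ∧ (∀ j, M.src j ≠ qf) ∧
      ∀ p : ℕ → List A → Prop, REPred (fun x : ℕ × List A => p x.1 x.2) →
        ∃ e, ∀ w, (∃ l T, M.Run l (q₀, init e) (qf, T) ∧ M.outs l = w) ↔ p e w := by
  obtain ⟨c, hc⟩ := ToPartrec.Code.exists_code (Nat.Partrec'.part_iff₁.2 partrec_univ)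
  obtain ⟨N, hN⟩ := (Set.finite_range (encode : A → ℕ)).bddAbove
  let idx : A → Fin (N + 1) := fun a => ⟨encode a, Nat.lt_succ_of_le (hN ⟨a, rfl⟩)⟩
  have hi : Injective idx := fun a b h => encode_injective (congrArg Fin.val h)
  let κ : Fin 4 ≃ K' :=
    { toFun := ![K'.main, K'.rev, K'.aux, K'.stack]
      invFun := fun k => match k with | .main => 0 | .rev => 1 | .aux => 2 | .stack => 3
      left_inv := fun i => by fin_cases i <;> rfl
      right_inv := fun k => by cases k <;> rfl }
  refine ⟨mach c idx, κ, col c idx, .inl 0, .inr none, K'.main, some Γ'.bit1, [some Γ'.bit0],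
    rep (inp 1), fun e => rep (inp (pushU e 1)), pre_le c idx, post_le c idx, col_inj c idx hi,
    fun e => ?_, fun e k hk => ?_, (fun h => by cases h), fun j => ?_, fun p hp => ?_⟩
  · simp only [rep, inp, trPosNum_pushU, K'.elim, blk, List.map_append, List.map_cons,
      List.map_replicate, List.append_assoc, List.cons_append, List.nil_append]
    rfl
  · cases k
    · exact absurd rfl hk
    all_goals rfl
  · rcases j with (a | i) | _ | x <;> exact fun h => by cases h
  · obtain ⟨e, he⟩ := exists_param p hp
    refine ⟨e, fun w => (accept_iff c idx (pushU e 1) w).trans ?_⟩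
    have h₁ := hc ⟨[(encP encode (pushU e 1) w : PosNum)], rfl⟩
    have h₂ : ((encP encode (pushU e 1) w : PosNum) : ℕ) = encN (e, w.map encode) := by
      rw [cast_encP, cast_pushU]; rfl
    rw [← he w, ← univ_encN (e, w.map encode), ← h₂]
    exact (congrArg Part.Dom h₁).to_iff

end Crest.Agent.R185
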