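import Crest.Agent.R185.CRMDefs
import Crest.Agent.R185.PMachU

/-!
# From prefix-rewriting machines to register machines with history (helper82)
-/

set_option autoImplicit false

namespace Crest.Agent.R185

open Function

namespace RMc

/-- base `m` value of a list of digits, least significant first -/
def cd (m : ℕ) (l : List ℕ) : ℕ := l.foldr (fun d n => d + m * n) 0

@[simp] theorem cd_nil (m : ℕ) : cd m [] = 0 := rfl
@[simp] theorem cd_cons (m d : ℕ) (l : List ℕ) : cd m (d :: l) = d + m * cd m l := rfl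

theorem digit_eq {m : ℕ} {d d' : ℕ} {z z' : ℤ} (hd : d < m) (hd' : d' < m)
    (h : (d : ℤ) + m * z = d' + m * z') : d = d' ∧ z = z' := by
  have hm : (0 : ℤ) < m := by exact_mod_cast (Nat.zero_le d).trans_lt hd
  have h₁ := congrArg (· % (m : ℤ)) h
  simp only [Int.add_mul_emod_self_left] at h₁
  rw [Int.emod_eq_of_lt (by positivity) (by exact_mod_cast hd),
    Int.emod_eq_of_lt (by positivity) (by exact_mod_cast hd')] at h₁
  have h₂ : d = d' := by exact_mod_cast h₁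
  subst h₂
  exact ⟨rfl, mul_left_cancel₀ hm.ne' (add_left_cancel h)⟩

/-- a coding of a type by the digits `1 … m-1` -/
structure Dig (m : ℕ) {α : Type} (f : α → ℕ) : Prop where
  inj : Injective f
  pos : ∀ a, 0 < f a
  lt : ∀ a, f a < m

theorem exists_dig (α : Type) [Finite α] : ∃ (f : α → ℕ) (B : ℕ), ∀ m, B ≤ m → Dig m f := by
  obtain ⟨n, ⟨e⟩⟩ := Finite.exists_equiv_fin α
  refine ⟨fun a => e a + 1, n + 1, fun m hm => ⟨fun a b h => ?_, fun a => Nat.succ_pos _,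
    fun a => ?_⟩⟩
  · exact e.injective (Fin.ext (Nat.succ_injective h))
  · have := (e a).2; omega

variable {m : ℕ} {α : Type} {f : α → ℕ}

/-- value of a list of symbols -/
def cz (m : ℕ) (f : α → ℕ) (l : List α) : ℤ := cd m (l.map f)

@[simp] theorem cz_nil : cz m f [] = 0 := rfl
theorem cz_cons (a : α) (l : List α) : cz m f (a :: l) = f a + m * cz m f l := by
  simp [cz]

theorem Dig.cz_eq (h : Dig m f) {l : List α} {a : α} {z : ℤ} (e : cz m f l = f a + m * z) :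
    ∃ u, l = a :: u ∧ z = cz m f u := by
  cases l with
  | nil =>
    have := digit_eq (m := m) (d := 0) (d' := f a) (z := 0) (z' := z)
      ((h.pos a).trans (h.lt a)) (h.lt a) (by simpa using e)
    exact absurd this.1 (h.pos a).ne
  | cons b u =>
    rw [cz_cons] at e
    obtain ⟨e₁, e₂⟩ := digit_eq (h.lt b) (h.lt a) e
    exact ⟨u, by rw [h.inj e₁], e₂.symm⟩

theorem Dig.cz_inj (h : Dig m f) : Injective (cz m f) := by
  intro l l' e
  induction l' generalizing l with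
  | nil =>
    cases l with
    | nil => rfl
    | cons a u =>
      obtain ⟨u', hu, -⟩ := h.cz_eq (l := []) (e.symm.trans (cz_cons a u))
      cases hu
  | cons a u ih =>
    obtain ⟨u', rfl, hu⟩ := h.cz_eq (e.trans (cz_cons a u))
    rw [ih hu.symm]

theorem Dig.pow_le (h : Dig m f) (l : List α) (a : α) :
    (m : ℤ) ^ l.length ≤ cz m f (l ++ [a]) := by
  induction l with
  | nil =>
    have := h.pos a
    simp only [List.length_nil, pow_zero, List.nil_append, cz_cons, cz_nil, mul_zero, add_zero]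
    exact_mod_cast this
  | cons b l ih =>
    rw [List.cons_append, cz_cons, List.length_cons, pow_succ']
    have : (m : ℤ) * m ^ l.length ≤ m * cz m f (l ++ [a]) :=
      mul_le_mul_of_nonneg_left ih (by positivity)
    have : (0 : ℤ) ≤ f b := by positivity
    linarith

/-- the operation that replaces the prefix `p` by the prefix `q` -/
def opOf : List α → List α → Op
  | [], [] => .keep
  | [], _ :: _ => .push
  | _ :: _, [] => .pop
  | _ :: _, _ :: _ => .test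

theorem cz_append_dom {p q : List α} (hp : p.length ≤ 1) (u : List α) :
    cz m f (p ++ u) = cz m f p + (opOf p q).dom m * cz m f u := by
  rcases p with _ | ⟨a, _ | ⟨b, p⟩⟩
  · cases q <;> simp [opOf, Op.dom]
  · cases q <;> simp [opOf, Op.dom, cz_cons]
  · simp at hp

theorem cz_append_ran {p q : List α} (hq : q.length ≤ 1) (u : List α) :
    cz m f (q ++ u) = cz m f q + (opOf p q).ran m * cz m f u := by
  rcases q with _ | ⟨a, _ | ⟨b, q⟩⟩
  · cases p <;> simp [opOf, Op.ran]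
  · cases p <;> simp [opOf, Op.ran, cz_cons]
  · simp at hq

theorem Dig.dom_split (h : Dig m f) {p q l : List α} (hp : p.length ≤ 1) {z : ℤ}
    (e : cz m f l = cz m f p + (opOf p q).dom m * z) : ∃ u, l = p ++ u ∧ z = cz m f u := by
  rcases p with _ | ⟨a, _ | ⟨b, p⟩⟩
  · exact ⟨l, rfl, by cases q <;> simpa [opOf, Op.dom] using e.symm⟩
  · refine h.cz_eq ?_
    cases q <;> simpa [opOf, Op.dom, cz_cons] using e
  · simp at hp

theorem Dig.pre_eq (h : Dig m f) {p q p' q' : List α} (hp : p.length ≤ 1) (hp' : p'.length ≤ 1)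
    (ho : opOf p q = opOf p' q') {z z' : ℤ}
    (e : cz m f p + (opOf p q).dom m * z = cz m f p' + (opOf p' q').dom m * z') : p = p' := by
  rcases p with _ | ⟨a, _ | ⟨b, p⟩⟩ <;> rcases p' with _ | ⟨a', _ | ⟨b', p'⟩⟩
  · rfl
  · cases q <;> cases q' <;> cases ho
  · simp at hp'
  · cases q <;> cases q' <;> cases ho
  · have : (f a : ℤ) + m * z = f a' + m * z' := by
      cases q <;> cases q' <;> simpa [opOf, Op.dom, cz_cons] using e
    rw [h.inj (digit_eq (h.lt _) (h.lt _) this).1]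
  · simp at hp'
  all_goals simp at hp

theorem Dig.abs_le (h : Dig m f) {p : List α} (hp : p.length ≤ 1) : |cz m f p| ≤ m := by
  rcases p with _ | ⟨a, _ | ⟨b, p⟩⟩
  · simp
  · have := h.lt a
    simp only [cz_cons, cz_nil, mul_zero, add_zero, Nat.abs_cast]
    exact_mod_cast this.le
  · simp at hp

/-- the eight registers: state, history, four stacks, two spare ones -/
def reg {β : Type} (s h : β) (f : Fin 4 → β) (d : β) : Reg → β :=
  ![s, h, f 0, f 1, f 2, f 3, d, d]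

theorem forall_reg {P : Reg → Prop} :
    (∀ i, P i) ↔ P 0 ∧ P 1 ∧ (∀ k : Fin 4, P ⟨k + 2, by omega⟩) ∧ P 6 ∧ P 7 := by
  simp only [Fin.forall_fin_succ, Fin.forall_fin_zero]
  constructor
  · rintro ⟨a, b, c, d, e, f, g, h, -⟩; exact ⟨a, b, ⟨c, d, e, f, trivial⟩, g, h⟩
  · rintro ⟨a, b, ⟨c, d, e, f, -⟩, g, h⟩; exact ⟨a, b, c, d, e, f, g, h, trivial⟩

@[simp] theorem reg_0 {β : Type} (s h : β) (f : Fin 4 → β) (d : β) : reg s h f d 0 = s := rfl
@[simp] theorem reg_1 {β : Type} (s h : β) (f : Fin 4 → β) (d : β) : reg s h f d 1 = h := rfl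
@[simp] theorem reg_6 {β : Type} (s h : β) (f : Fin 4 → β) (d : β) : reg s h f d 6 = d := rfl
@[simp] theorem reg_7 {β : Type} (s h : β) (f : Fin 4 → β) (d : β) : reg s h f d 7 = d := rfl
@[simp] theorem reg_k {β : Type} (s h : β) (f : Fin 4 → β) (d : β) (k : Fin 4) (p) :
    reg s h f d ⟨k + 2, p⟩ = f k := by fin_cases k <;> rfl

theorem reg_ext {β : Type} {ω : Reg → β} {s h : β} {f : Fin 4 → β} {d : β} :
    ω = reg s h f d ↔ ω 0 = s ∧ ω 1 = h ∧ (∀ k : Fin 4, ω ⟨k + 2, by omega⟩ = f k) ∧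
      ω 6 = d ∧ ω 7 = d := by
  rw [funext_iff, forall_reg]; simp

/-- a rule given register by register -/
def mkR {S : Type} (oh : Op) (os : Fin 4 → Op) (c : Fin 4) (s s' h' : ℤ) (p p' : Fin 4 → ℤ)
    (v : FreeGroup S) : Rule S :=
  ⟨(reg .zero oh os .keep, c), reg s 0 p 0, reg s' h' p' 0, v⟩

theorem step_mkR {S : Type} {oh : Op} {os : Fin 4 → Op} {c : Fin 4} {s s' h' : ℤ}
    {p p' : Fin 4 → ℤ} {v : FreeGroup S} {ω ω' : Reg → ℤ} :
    (mkR oh os c s s' h' p p' v).Step m ω ω' ↔ ω 0 = s ∧ ω' 0 = s' ∧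
      (∃ z, ω 1 = oh.dom m * z ∧ ω' 1 = h' + oh.ran m * z) ∧
      (∀ k : Fin 4, ∃ z, ω ⟨k + 2, by omega⟩ = p k + (os k).dom m * z ∧
        ω' ⟨k + 2, by omega⟩ = p' k + (os k).ran m * z) ∧ ω' 6 = ω 6 ∧ ω' 7 = ω 7 := by
  constructor
  · rintro ⟨z, h₁, h₂⟩
    rw [forall_reg] at h₁ h₂
    simp only [mkR, reg_0, reg_1, reg_6, reg_7, reg_k, Op.dom, Op.ran, zero_mul, add_zero,
      zero_add, one_mul] at h₁ h₂
    exact ⟨h₁.1, h₂.1, ⟨_, h₁.2.1, h₂.2.1⟩, fun k => ⟨_, h₁.2.2.1 k, h₂.2.2.1 k⟩,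
      h₂.2.2.2.1.trans h₁.2.2.2.1.symm, h₂.2.2.2.2.trans h₁.2.2.2.2.symm⟩
  · rintro ⟨a, b, ⟨z, c, d⟩, e, f, g⟩
    choose y hy using e
    refine ⟨![0, z, y 0, y 1, y 2, y 3, ω 6, ω 7], ?_, ?_⟩ <;> rw [forall_reg] <;>
      simp only [mkR, reg_0, reg_1, reg_6, reg_7, reg_k, Op.dom, Op.ran, zero_mul, add_zero,
        zero_add, one_mul]
    · refine ⟨a, c, fun k => ?_, rfl, rfl⟩
      rw [(hy k).1]; fin_cases k <;> rfl
    · refine ⟨b, d, fun k => ?_, f, g⟩
      rw [(hy k).2]; fin_cases k <;> rfl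

/-- the data of the translation -/
structure Ctx (S : Type) where
  M : PfM (S × Bool)
  κ : Fin 4 ≃ M.K
  col : M.J → Fin 4
  q₀ : M.Q
  qf : M.Q
  m : ℕ
  sc : Option (M.Q × Bool) → ℕ
  hd : Option M.J → ℕ
  gd : M.G → ℕ
  two_le : 2 ≤ m
  dsc : Dig m sc
  dhd : Dig m hd
  dgd : Dig m gd
  pre_le : ∀ j k, (M.pre j k).length ≤ 1
  post_le : ∀ j k, (M.post j k).length ≤ 1
  col_inj : ∀ j j', col j = col j' → M.src j = M.src j' → M.pre j = M.pre j' → j = j'

namespace Ctx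

variable {S : Type} (X : Ctx S)

/-- voltage of a rule in the copy `b` -/
def volt (j : X.M.J) (b : Bool) : FreeGroup S :=
  if b then FreeGroup.mk (X.M.out j).toList else 1

/-- the rules: start rules, copies of the rules of `M`, link -/
def R : Option (Option X.M.J × Bool) → Rule S
  | some (none, b) => mkR .push (fun _ => .keep) (if b then 1 else 0) (X.sc none)
      (X.sc (some (X.q₀, b))) (X.hd none) 0 0 1
  | some (some j, b) => mkR .push (fun k => opOf (X.M.pre j (X.κ k)) (X.M.post j (X.κ k)))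
      (X.col j) (X.sc (some (X.M.src j, b))) (X.sc (some (X.M.tgt j, b))) (X.hd (some j))
      (fun k => cz X.m X.gd (X.M.pre j (X.κ k))) (fun k => cz X.m X.gd (X.M.post j (X.κ k)))
      (X.volt j b)
  | none => mkR .keep (fun _ => .keep) 0 (X.sc (some (X.qf, false))) (X.sc (some (X.qf, true)))
      0 0 0 1

theorem sc_inj {a b : Option (X.M.Q × Bool)} (h : (X.sc a : ℤ) = X.sc b) : a = b :=
  X.dsc.inj (by exact_mod_cast h)

theorem ty_mkR {oh oh' : Op} {os os' : Fin 4 → Op} {c c' : Fin 4} {s s' h' t t' g' : ℤ}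
    {p p' r r' : Fin 4 → ℤ} {v v' : FreeGroup S}
    (h : (mkR oh os c s s' h' p p' v).ty = (mkR oh' os' c' t t' g' r r' v').ty) :
    oh = oh' ∧ os = os' ∧ c = c' := by
  have h₁ : reg Op.zero oh os Op.keep = reg Op.zero oh' os' Op.keep := congrArg Prod.fst h
  rw [reg_ext] at h₁
  exact ⟨h₁.2.1, funext fun k => by simpa using h₁.2.2.1 k, congrArg Prod.snd h⟩

/-- the register machine -/
def rm [DecidableEq S] : RM S where
  m := X.m
  two_le := X.two_le
  rules := Set.range X.R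
  fin := Set.finite_range _
  volt_le := by
    rintro _ ⟨_ | ⟨_ | j, b⟩, rfl⟩
    · simp [R, mkR]
    · simp [R, mkR]
    · simp only [R, mkR, volt]
      split_ifs
      · exact FreeGroup.norm_mk_le.trans (by cases X.M.out j <;> simp)
      · simp
  a_le := by
    have s : ∀ a, |(X.sc a : ℤ)| ≤ X.m := fun a => by
      rw [Nat.abs_cast]; exact_mod_cast (X.dsc.lt a).le
    have h : ∀ a, |(X.hd a : ℤ)| ≤ X.m := fun a => by
      rw [Nat.abs_cast]; exact_mod_cast (X.dhd.lt a).le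
    rintro _ ⟨_ | ⟨_ | j, b⟩, rfl⟩ <;> rw [forall_reg] <;>
      simp only [R, mkR, reg_0, reg_1, reg_6, reg_7, reg_k, s, h, abs_zero, Nat.cast_nonneg,
        and_self, Pi.zero_apply, implies_true, true_and, and_true]
    exact fun k => ⟨X.dgd.abs_le (X.pre_le _ _), X.dgd.abs_le (X.post_le _ _)⟩
  dom_disj := by
    rintro _ ⟨_ | ⟨_ | j, b⟩, rfl⟩ _ ⟨_ | ⟨_ | j', b'⟩, rfl⟩ ht ω ω₁ ω₂ h₁ h₂ <;>
      dsimp only [R] at ht h₁ h₂ <;> obtain ⟨t₁, t₂, t₃⟩ := ty_mkR ht <;>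
      rw [step_mkR] at h₁ h₂ <;> have hs := X.sc_inj (h₁.1.symm.trans h₂.1)
    · cases t₁
    · cases t₁
    · cases t₁
    · have : b = b' := by cases b <;> cases b' <;> simp_all
      rw [this]
    · cases hs
    · cases t₁
    · cases hs
    · obtain ⟨e₁, rfl⟩ := Prod.mk.inj (Option.some.inj hs)
      have : j = j' := by
        refine X.col_inj j j' t₃ e₁ (funext fun k => ?_)
        obtain ⟨k, rfl⟩ := X.κ.surjective k
        obtain ⟨z, hz, -⟩ := h₁.2.2.2.1 k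
        obtain ⟨z', hz', -⟩ := h₂.2.2.2.1 k
        exact X.dgd.pre_eq (X.pre_le _ _) (X.pre_le _ _) (congrFun t₂ k) (hz.symm.trans hz')
      rw [this]
  ran_disj := by
    have key : ∀ {a a' : Option X.M.J} {z z' : ℤ},
        (X.hd a : ℤ) + Op.push.ran X.m * z = X.hd a' + Op.push.ran X.m * z' → a = a' :=
      fun h => X.dhd.inj (digit_eq (X.dhd.lt _) (X.dhd.lt _) h).1
    rintro _ ⟨_ | ⟨_ | j, b⟩, rfl⟩ _ ⟨_ | ⟨_ | j', b'⟩, rfl⟩ ht ω ω₁ ω₂ h₁ h₂ <;>
      dsimp only [R] at ht h₁ h₂ <;> obtain ⟨t₁, t₂, t₃⟩ := ty_mkR ht <;>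
      rw [step_mkR] at h₁ h₂ <;> have hs := X.sc_inj (h₁.2.1.symm.trans h₂.2.1) <;>
      obtain ⟨z, -, hz⟩ := h₁.2.2.1 <;> obtain ⟨z', -, hz'⟩ := h₂.2.2.1
    · cases t₁
    · cases t₁
    · cases t₁
    · rw [(Prod.mk.inj (Option.some.inj hs)).2]
    · cases key (hz.symm.trans hz')
    · cases t₁
    · cases key (hz.symm.trans hz')
    · cases key (hz.symm.trans hz')
      rw [(Prod.mk.inj (Option.some.inj hs)).2]

/-- the history after the rules `l` -/
def hist (l : List X.M.J) : ℤ := cz X.m X.hd (l.reverse.map some ++ [none])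

theorem hist_nil : X.hist [] = X.hd none := by simp [hist, cz_cons]

theorem hist_concat (l : List X.M.J) (j : X.M.J) :
    X.hist (l ++ [j]) = X.hd (some j) + X.m * X.hist l := by simp [hist, cz_cons]

theorem hist_inj : Injective X.hist := fun l l' h => by
  have := List.append_cancel_right (X.dhd.cz_inj h)
  exact List.reverse_injective (List.map_injective_iff.2 (Option.some_injective _) this)

theorem hist_some {l : List X.M.J} {j : X.M.J} {z : ℤ}
    (h : X.hist l = X.hd (some j) + X.m * z) : ∃ l', l = l' ++ [j] ∧ z = X.hist l' := by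
  induction l using List.reverseRecOn with
  | nil =>
    rw [hist_nil] at h
    cases X.dhd.inj (digit_eq (z := 0) (X.dhd.lt _) (X.dhd.lt _) (by simpa using h)).1
  | append_singleton l j' _ =>
    rw [hist_concat] at h
    obtain ⟨e₁, e₂⟩ := digit_eq (X.dhd.lt _) (X.dhd.lt _) h
    cases X.dhd.inj e₁
    exact ⟨l, rfl, e₂.symm⟩

theorem hist_none {l : List X.M.J} {z : ℤ}
    (h : X.hist l = X.hd none + X.m * z) : l = [] ∧ z = 0 := by
  induction l using List.reverseRecOn with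
  | nil =>
    rw [hist_nil] at h
    exact ⟨rfl, (digit_eq (z := 0) (X.dhd.lt none) (X.dhd.lt none)
      (by rw [mul_zero, add_zero]; exact h)).2.symm⟩
  | append_singleton l j' _ =>
    rw [hist_concat] at h
    cases X.dhd.inj (digit_eq (X.dhd.lt _) (X.dhd.lt _) h).1

theorem pow_le_hist (l : List X.M.J) : (X.m : ℤ) ^ l.length ≤ X.hist l := by
  have := X.dhd.pow_le (l.reverse.map some) none
  simpa [hist] using this

/-- codes of the stacks -/
def stk (T : X.M.K → List X.M.G) : Fin 4 → ℤ := fun k => cz X.m X.gd (T (X.κ k))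

/-- the root -/
def rt (T : X.M.K → List X.M.G) : Reg → ℤ := reg (X.sc none) 0 (X.stk T) 0

/-- the configuration of the copy `b` with history `l` -/
def E (b : Bool) (l : List X.M.J) (c : X.M.Cfg) : Reg → ℤ :=
  reg (X.sc (some (c.1, b))) (X.hist l) (X.stk c.2) 0

/-- the component of the root -/
def C (T : X.M.K → List X.M.G) : Set (Reg → ℤ) :=
  {ω | ω = X.rt T ∨ ∃ b l c, X.M.Run l (X.q₀, T) c ∧ ω = X.E b l c}

open Classical in
/-- the gauge -/
noncomputable def γ (ω : Reg → ℤ) : FreeGroup S :=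
  if ∃ q, ω 0 = X.sc (some (q, true)) then
    FreeGroup.mk (X.M.outs (invFun X.hist (ω 1))).reverse else 1

open Classical in
/-- the depth -/
noncomputable def dep (ω : Reg → ℤ) : ℕ :=
  if ω 0 = X.sc none then 0 else (invFun X.hist (ω 1)).length + 1

theorem γ_rt (T : X.M.K → List X.M.G) : X.γ (X.rt T) = 1 := by
  rw [γ, if_neg]
  rintro ⟨q, h⟩
  cases X.sc_inj h

theorem γ_E (b : Bool) (l : List X.M.J) (c : X.M.Cfg) :
    X.γ (X.E b l c) = if b then FreeGroup.mk (X.M.outs l).reverse else 1 := by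
  cases b
  · rw [γ, if_neg]
    · rfl
    · rintro ⟨q, h⟩
      cases X.sc_inj h
  · rw [γ, if_pos ⟨c.1, rfl⟩, E, reg_1, leftInverse_invFun X.hist_inj]; rfl

theorem dep_rt (T : X.M.K → List X.M.G) : X.dep (X.rt T) = 0 := by
  exact if_pos rfl

theorem dep_E (b : Bool) (l : List X.M.J) (c : X.M.Cfg) : X.dep (X.E b l c) = l.length + 1 := by
  rw [dep, if_neg (fun h => by cases X.sc_inj h), E, reg_1, leftInverse_invFun X.hist_inj]

theorem γ_concat (b : Bool) (l : List X.M.J) (j : X.M.J) (c c' : X.M.Cfg) :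
    X.γ (X.E b (l ++ [j]) c') = X.volt j b * X.γ (X.E b l c) := by
  rw [γ_E, γ_E, volt]
  cases b
  · simp
  · simp only [if_true, PfM.outs_append, List.reverse_append, FreeGroup.mul_mk]
    congr 2
    cases h : X.M.out j <;> simp [PfM.outs, h]

theorem step_st (T : X.M.K → List X.M.G) (b : Bool) :
    (X.R (some (none, b))).Step X.m (X.rt T) (X.E b [] (X.q₀, T)) := by
  simp only [R]
  rw [step_mkR]
  refine ⟨rfl, rfl, ⟨0, by simp [rt], by simp [E, hist_nil]⟩, fun k => ⟨X.stk T k, ?_, ?_⟩,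
    rfl, rfl⟩ <;> simp [rt, E, Op.dom, Op.ran]

theorem step_rl {j : X.M.J} {c c' : X.M.Cfg} (h : X.M.Step j c c') (b : Bool) (l : List X.M.J) :
    (X.R (some (some j, b))).Step X.m (X.E b l c) (X.E b (l ++ [j]) c') := by
  obtain ⟨h₁, h₂, u, h₃, h₄⟩ := h
  simp only [R]
  rw [step_mkR]
  refine ⟨by simp [E, h₁], by simp [E, h₂], ⟨X.hist l, by simp [E, Op.dom],
    by simp [E, Op.ran, hist_concat]⟩, fun k => ⟨cz X.m X.gd (u (X.κ k)), ?_, ?_⟩, rfl, rfl⟩
  · simp only [E, reg_k, stk]; rw [h₃, cz_append_dom (X.pre_le _ _)]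
  · simp only [E, reg_k, stk]; rw [h₄, cz_append_ran (X.post_le _ _)]

theorem step_lk (l : List X.M.J) (T : X.M.K → List X.M.G) :
    (X.R none).Step X.m (X.E false l (X.qf, T)) (X.E true l (X.qf, T)) := by
  simp only [R]
  rw [step_mkR]
  refine ⟨rfl, rfl, ⟨X.hist l, ?_, ?_⟩, fun k => ⟨X.stk T k, ?_, ?_⟩, rfl, rfl⟩ <;>
    simp [E, Op.dom, Op.ran]

theorem op_det (o : Op) {a a' x y y' z z' : ℤ} (h₁ : x = a + o.dom X.m * z)
    (h₂ : x = a + o.dom X.m * z') (h₃ : y = a' + o.ran X.m * z) (h₄ : y' = a' + o.ran X.m * z') :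
    y = y' := by
  have hm : (X.m : ℤ) ≠ 0 := by have := X.two_le; omega
  have e := add_left_cancel (h₁.symm.trans h₂)
  rw [h₃, h₄]
  cases o <;> simp_all [Op.dom, Op.ran]

theorem op_codet (o : Op) {a a' x y y' z z' : ℤ} (h₁ : x = a + o.ran X.m * z)
    (h₂ : x = a + o.ran X.m * z') (h₃ : y = a' + o.dom X.m * z) (h₄ : y' = a' + o.dom X.m * z') :
    y = y' := by
  have hm : (X.m : ℤ) ≠ 0 := by have := X.two_le; omega
  have e := add_left_cancel (h₁.symm.trans h₂)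
  rw [h₃, h₄]
  cases o <;> simp_all [Op.dom, Op.ran]

theorem rule_det {ρ : Rule S} {ω ω₁ ω₂ : Reg → ℤ} (h₁ : ρ.Step X.m ω ω₁) (h₂ : ρ.Step X.m ω ω₂) :
    ω₁ = ω₂ := by
  obtain ⟨z, a, b⟩ := h₁
  obtain ⟨z', c, d⟩ := h₂
  exact funext fun i => X.op_det _ (a i) (c i) (b i) (d i)

theorem rule_codet {ρ : Rule S} {ω ω₁ ω₂ : Reg → ℤ} (h₁ : ρ.Step X.m ω₁ ω)
    (h₂ : ρ.Step X.m ω₂ ω) : ω₁ = ω₂ := by
  obtain ⟨z, a, b⟩ := h₁
  obtain ⟨z', c, d⟩ := h₂
  exact funext fun i => X.op_codet _ (b i) (d i) (a i) (c i)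

/-- steps that start in the component -/
theorem fwd {T : X.M.K → List X.M.G} {i : Option (Option X.M.J × Bool)} {ω ω' : Reg → ℤ}
    (h : (X.R i).Step X.m ω ω') (hω : ω ∈ X.C T) :
    (∃ b, i = some (none, b) ∧ ω = X.rt T ∧ ω' = X.E b [] (X.q₀, T)) ∨
    (∃ j b l c c', i = some (some j, b) ∧ X.M.Run l (X.q₀, T) c ∧ X.M.Step j c c' ∧
      ω = X.E b l c ∧ ω' = X.E b (l ++ [j]) c') ∨
    (∃ l U, i = none ∧ X.M.Run l (X.q₀, T) (X.qf, U) ∧ ω = X.E false l (X.qf, U) ∧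
      ω' = X.E true l (X.qf, U)) := by
  have h' := h
  rcases i with _ | ⟨_ | j, b⟩ <;> simp only [R] at h' <;> rw [step_mkR] at h' <;>
    rcases hω with rfl | ⟨b', l, c, hr, rfl⟩ <;> have hs := X.sc_inj h'.1
  · cases hs
  · obtain ⟨e, rfl⟩ := Prod.mk.inj (Option.some.inj hs)
    obtain ⟨q, U⟩ := c
    obtain rfl : q = X.qf := e
    exact .inr (.inr ⟨l, U, rfl, hr, rfl, X.rule_det h (X.step_lk l U)⟩)
  · exact .inl ⟨b, rfl, rfl, X.rule_det h (X.step_st T b)⟩
  · cases hs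
  · cases hs
  · obtain ⟨e, rfl⟩ := Prod.mk.inj (Option.some.inj hs)
    have : ∀ k, ∃ u, c.2 k = X.M.pre j k ++ u := fun k => by
      obtain ⟨k, rfl⟩ := X.κ.surjective k
      obtain ⟨z, hz, -⟩ := h'.2.2.2.1 k
      simp only [E, reg_k, stk] at hz
      obtain ⟨u, hu, -⟩ := X.dgd.dom_split (X.pre_le _ _) hz
      exact ⟨u, hu⟩
    choose u hu using this
    have hs : X.M.Step j c (X.M.tgt j, fun k => X.M.post j k ++ u k) :=
      ⟨e, rfl, u, hu, fun _ => rfl⟩
    exact .inr (.inl ⟨j, b', l, c, _, rfl, hr, hs, rfl, X.rule_det h (X.step_rl hs b' l)⟩)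

/-- steps that end in the component -/
theorem bwd {T : X.M.K → List X.M.G} {i : Option (Option X.M.J × Bool)} {ω ω' : Reg → ℤ}
    (h : (X.R i).Step X.m ω ω') (hω : ω' ∈ X.C T) : ω ∈ X.C T := by
  have h' := h
  rcases i with _ | ⟨_ | j, b⟩ <;> simp only [R] at h' <;> rw [step_mkR] at h' <;>
    rcases hω with rfl | ⟨b', l, c, hr, rfl⟩ <;> have hs := X.sc_inj h'.2.1
  · cases hs
  · obtain ⟨e, rfl⟩ := Prod.mk.inj (Option.some.inj hs)
    obtain ⟨q, U⟩ := c
    obtain rfl : q = X.qf := e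
    exact .inr ⟨false, l, _, hr, X.rule_codet h (X.step_lk l U)⟩
  · cases hs
  · obtain ⟨-, rfl⟩ := Prod.mk.inj (Option.some.inj hs)
    obtain ⟨z, -, hz⟩ := h'.2.2.1
    obtain ⟨rfl, -⟩ := X.hist_none hz
    obtain rfl : (X.q₀, T) = c := hr
    exact .inl (X.rule_codet h (X.step_st T b'))
  · cases hs
  · obtain ⟨-, rfl⟩ := Prod.mk.inj (Option.some.inj hs)
    obtain ⟨z, -, hz⟩ := h'.2.2.1
    obtain ⟨l', rfl, -⟩ := X.hist_some hz
    obtain ⟨c₁, hr₁, hs₁⟩ := PfM.run_concat.1 hr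
    exact .inr ⟨b', l', c₁, hr₁, X.rule_codet h (X.step_rl hs₁ b' l')⟩

theorem good [DecidableEq S] (T : X.M.K → List X.M.G) (V : Set (FreeGroup S))
    (hV : ∀ w, w ∈ V ↔ ∃ l U, X.M.Run l (X.q₀, T) (X.qf, U) ∧
      FreeGroup.mk (X.M.outs l).reverse = w) :
    X.rm.Good V (X.rt T) (X.C T) X.γ X.dep where
  root_mem := .inl rfl
  γ_root := X.γ_rt T
  root_hist := rfl
  step_mem := by
    rintro _ ⟨i, rfl⟩ ω ω' h
    refine ⟨fun hω => ?_, X.bwd h⟩
    rcases X.fwd h hω with ⟨b, -, -, e⟩ | ⟨j, b, l, c, c', -, hr, hs, -, e⟩ | ⟨l, U, -, hr, -, e⟩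
    · exact .inr ⟨b, [], _, rfl, e⟩
    · exact .inr ⟨b, _, _, PfM.run_concat.2 ⟨c, hr, hs⟩, e⟩
    · exact .inr ⟨true, l, _, hr, e⟩
  step_γ := by
    rintro _ ⟨i, rfl⟩ ω ω' h hω
    rcases X.fwd h hω with ⟨b, rfl, rfl, rfl⟩ | ⟨j, b, l, c, c', rfl, hr, hs, rfl, rfl⟩ |
      ⟨l, U, rfl, hr, rfl, rfl⟩
    · left; rw [γ_E, γ_rt]; cases b <;> rfl
    · exact .inl (X.γ_concat b l j c c')
    · refine .inr ⟨rfl, by rw [γ_E]; rfl, (hV _).2 ⟨l, U, hr, ?_⟩⟩
      rw [γ_E]; rfl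
  link := by
    intro d hd
    obtain ⟨l, U, hr, rfl⟩ := (hV d).1 hd
    exact ⟨_, ⟨none, rfl⟩, _, _, X.step_lk l U, .inr ⟨false, l, _, hr, rfl⟩, rfl,
      by rw [γ_E]; rfl, by rw [γ_E]; rfl⟩
  pred := by
    rintro _ (rfl | ⟨b, l, c, hr, rfl⟩)
    · exact .inl rfl
    right
    induction l using List.reverseRecOn with
    | nil =>
      obtain rfl : (X.q₀, T) = c := hr
      refine ⟨_, ⟨_, rfl⟩, _, X.step_st T b, ?_, by rw [dep_rt, dep_E]; omega⟩
      rw [γ_E, γ_rt]; cases b <;> rfl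
    | append_singleton l j _ =>
      obtain ⟨c₁, -, hs₁⟩ := PfM.run_concat.1 hr
      exact ⟨_, ⟨_, rfl⟩, _, X.step_rl hs₁ b l, X.γ_concat b l j c₁ c,
        by rw [dep_E, dep_E]; simp⟩
  dep_le := by
    rintro _ (rfl | ⟨b, l, c, hr, rfl⟩) n hn
    · rw [dep_rt]; omega
    · rw [dep_E]
      have h₁ : (X.m : ℤ) ^ l.length < (X.m : ℤ) ^ n :=
        (X.pow_le_hist l).trans_lt ((le_abs_self _).trans_lt hn)
      have h₂ : (1 : ℤ) < X.m := by have := X.two_le; omega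
      have := (pow_lt_pow_iff_right₀ h₂).1 h₁
      omega
  out := by
    refine ⟨fun _ => -1, ?_⟩
    rintro (h | ⟨b, l, c, -, h⟩) <;>
    · have := congrFun h 0
      simp only [rt, E, reg_0] at this
      omega

end Ctx

theorem cd_init (m : ℕ) (a : List ℕ) (s : ℕ) (b : List ℕ) :
    Primrec fun e : ℕ => cd m (a ++ List.replicate e s ++ b) := by
  induction a with
  | nil =>
    have : ∀ e, cd m ([] ++ List.replicate e s ++ b) = (fun n => s + m * n)^[e] (cd m b) := by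
      intro e
      induction e with
      | zero => rfl
      | succ e ih =>
        rw [Function.iterate_succ_apply', ← ih]; rfl
    refine Primrec.of_eq ?_ fun e => (this e).symm
    exact Primrec.nat_iterate Primrec.id (Primrec.const _)
      (Primrec.nat_add.comp (Primrec.const s)
        (Primrec.nat_mul.comp (Primrec.const m) Primrec.snd)).to₂
  | cons d a ih =>
    exact Primrec.nat_add.comp (Primrec.const d) (Primrec.nat_mul.comp (Primrec.const m) ih)

end RMc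

open RMc in
theorem exists_RM_aux (S : Type) [Fintype S] [DecidableEq S] [Primcodable S] :
    ∃ (M : RM S) (root : ℕ → Reg → ℕ), Computable root ∧
      ∀ p : ℕ → List (S × Bool) → Prop, REPred (fun x : ℕ × List (S × Bool) => p x.1 x.2) →
        ∃ e C γ dep, M.Good {w | ∃ d, p e d ∧ FreeGroup.mk d = w} (fun i => (root e i : ℤ))
          C γ dep := by
  obtain ⟨M, κ, col, q₀, qf, k₀, s, a, b, init, h₁, h₂, h₃, h₄, h₅, -, -, h₈⟩ :=
    exists_pm_univ (S × Bool)
  obtain ⟨sc, B₁, d₁⟩ := exists_dig (Option (M.Q × Bool))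
  obtain ⟨hd, B₂, d₂⟩ := exists_dig (Option M.J)
  obtain ⟨gd, B₃, d₃⟩ := exists_dig M.G
  let X : Ctx S := ⟨M, κ, col, q₀, qf, B₁ + B₂ + B₃ + 2, sc, hd, gd, by omega, d₁ _ (by omega),
    d₂ _ (by omega), d₃ _ (by omega), h₁, h₂, h₃⟩
  refine ⟨X.rm, fun e => reg (sc none) 0 (fun k => cd X.m ((init e (κ k)).map gd)) 0, ?_,
    fun p hp => ?_⟩
  · refine Primrec.to_comp (Primrec.fin_curry.2 (Primrec₂.swap (Primrec.fin_curry₁.2 ?_)))
    refine forall_reg.2 ⟨Primrec.const _, Primrec.const _, fun k => ?_, Primrec.const _,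
      Primrec.const _⟩
    simp only [reg_k]
    by_cases hk : κ k = k₀
    · refine (cd_init X.m (a.map gd) (gd s) ((b k₀).map gd)).of_eq fun e => ?_
      rw [hk, h₄]; simp
    · exact (Primrec.const _).of_eq fun e => by rw [h₅ e _ hk]
  · have hp' : REPred fun x : ℕ × List (S × Bool) => p x.1 x.2.reverse :=
      Partrec.comp hp (Computable.fst.pair
        (Primrec.list_reverse.to_comp.comp Computable.snd))
    obtain ⟨e, he⟩ := h₈ (fun e w => p e w.reverse) hp'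
    refine ⟨e, X.C (init e), X.γ, X.dep, ?_⟩
    have hr : (fun i => ((reg (sc none) 0 (fun k => cd X.m ((init e (κ k)).map gd)) 0 i : ℕ) : ℤ))
        = X.rt (init e) := by
      rw [Ctx.rt, reg_ext]
      refine ⟨rfl, rfl, fun k => ?_, rfl, rfl⟩
      simp only [reg_k]; rfl
    rw [hr]
    refine X.good _ _ fun w => ⟨?_, ?_⟩
    · rintro ⟨d, hd, rfl⟩
      obtain ⟨l, U, hr, ho⟩ := (he d.reverse).2 (by simpa using hd)
      exact ⟨l, U, hr, by rw [show X.M.outs l = d.reverse from ho, List.reverse_reverse]⟩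
    · rintro ⟨l, U, hr, rfl⟩
      exact ⟨_, (he _).1 ⟨l, U, hr, rfl⟩, rfl⟩

end Crest.Agent.R185
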