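import Crest.Agent.R185.CComp

/-!
# Row 185, core: the recursion (the tables are right in the limit group)
-/

set_option autoImplicit false

namespace Crest.Agent.R185

open Function

variable {Y : Type} [DecidableEq Y]

/-- one step of the tower -/
def TT (R : Set (FreeGroup Y)) (ψ : FreeGroup Y →* FreeGroup Y) (N : Subgroup (FreeGroup Y)) :
    Subgroup (FreeGroup Y) := Subgroup.normalClosure (R ∪ ψ '' N)

instance (R : Set (FreeGroup Y)) (ψ : FreeGroup Y →* FreeGroup Y) (N : Subgroup (FreeGroup Y)) :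
    (TT R ψ N).Normal := Subgroup.normalClosure_normal

/-- the marked subgroup -/
def HH (η : Set (FreeGroup Y)) (N : Subgroup (FreeGroup Y)) : Subgroup (FreeGroup Y) :=
  Subgroup.closure η ⊔ N

/-- the limit of the tower -/
def Ninf (R : Set (FreeGroup Y)) (ψ : FreeGroup Y →* FreeGroup Y) : Subgroup (FreeGroup Y) :=
  ⨆ n, (TT R ψ)^[n] ⊥

/-- the guarded claim of the table `M` about `x` -/
def RecData.gd (r : RecData Y) (β ρ₀ : FreeGroup Y) (M : ℕ) (x : FreeGroup Y) : FreeGroup Y :=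
  r.ψ x * β ^ (M + 1) * r.ψ (r.ψ^[M] ρ₀) * (β ^ (M + 1))⁻¹

/-- what the recursion needs to know about one step of the tower -/
structure RecHyp (r : RecData Y) (R η : Set (FreeGroup Y)) (β ρ₀ : FreeGroup Y) : Prop where
  comap : ∀ N : Subgroup (FreeGroup Y), N.Normal → ∀ w, r.ψ w ∈ TT R r.ψ N ↔ w ∈ N
  ρ_ne : ρ₀ ≠ 1
  ρ_mem : ρ₀ ∈ TT R r.ψ ⊥
  ψ_mem : ∀ N : Subgroup (FreeGroup Y), N.Normal → ∀ x ∈ HH η N,
    r.ψ x ∈ HH η (TT R r.ψ N) ∧ r.ψ x * r.τ * (r.τ * r.ψ x)⁻¹ ∈ TT R r.ψ N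
  gd_mem : ∀ N : Subgroup (FreeGroup Y), N.Normal → ∀ M x, r.Claim M x →
    (r.gd β ρ₀ M x)⁻¹ * r.τ * r.gd β ρ₀ M x ∈ HH η (TT R r.ψ N)
  GT_mem : ∀ M, r.GT M ⊆ TT R r.ψ ⊥
  GM_mem : ∀ M, r.GM M ⊆ HH η (TT R r.ψ ⊥)
  loc : ∀ N : Subgroup (FreeGroup Y), N.Normal → ∀ M,
    (∀ M' x, r.Claim M' x →
      (r.ψ^[M'] ρ₀ ∈ N ∧ x ∉ HH η N) ∨ (r.ψ^[M'] ρ₀ ∉ N ∧ M ≤ M')) →
    ∀ θ : LT Y, θ.Closed (r.f (M + 1)) → r.GT (M + 1) ⊆ θ.T → r.GM (M + 1) ⊆ θ.M →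
      (∀ w : FreeGroup Y, w.norm ≤ M → w ∈ N → r.ψ w ∈ θ.T) →
      (∀ w : FreeGroup Y, w.norm ≤ M → w ∈ HH η N →
        r.ψ w * r.τ * (r.τ * r.ψ w)⁻¹ ∈ θ.T ∧ r.ψ w ∈ θ.M) →
      (∀ w : FreeGroup Y, w.norm ≤ M → w ∉ HH η N → (r.ψ w)⁻¹ * r.τ * r.ψ w ∈ θ.M) →
      ∀ w : FreeGroup Y, w.norm ≤ M + 1 →
        (w ∈ TT R r.ψ N → w ∈ θ.T) ∧ (w ∈ HH η (TT R r.ψ N) → w ∈ θ.M)

section Aux

variable (R : Set (FreeGroup Y)) (ψ : FreeGroup Y →* FreeGroup Y)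

/-- the tower -/
def crN (n : ℕ) : Subgroup (FreeGroup Y) := (TT R ψ)^[n] ⊥

omit [DecidableEq Y] in
theorem crN_succ (n : ℕ) : crN R ψ (n + 1) = TT R ψ (crN R ψ n) := iterate_succ_apply' _ _ _

instance crN_normal (n : ℕ) : (crN R ψ n).Normal := by
  cases n with
  | zero => exact Subgroup.normal_bot
  | succ n => rw [crN_succ]; infer_instance

omit [DecidableEq Y] in
theorem cr_TT_mono {N N' : Subgroup (FreeGroup Y)} (h : N ≤ N') : TT R ψ N ≤ TT R ψ N' :=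
  Subgroup.normalClosure_mono (Set.union_subset_union_right _ (Set.image_mono h))

omit [DecidableEq Y] in
theorem crN_mono : Monotone (crN R ψ) := by
  refine monotone_nat_of_le_succ fun n => ?_
  induction n with
  | zero => exact bot_le
  | succ n ih => rw [crN_succ R ψ (n + 1), crN_succ R ψ n]; exact cr_TT_mono R ψ (crN_succ R ψ n ▸ ih)

omit [DecidableEq Y] in
theorem crN_le_Ninf (n : ℕ) : crN R ψ n ≤ Ninf R ψ := le_iSup (crN R ψ) n

omit [DecidableEq Y] in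
theorem cr_mem_Ninf {w : FreeGroup Y} : w ∈ Ninf R ψ ↔ ∃ n, w ∈ crN R ψ n :=
  Subgroup.mem_iSup_of_directed (crN_mono R ψ).directed_le

omit [DecidableEq Y] in
theorem cr_HH_mono (η : Set (FreeGroup Y)) {N N' : Subgroup (FreeGroup Y)} (h : N ≤ N') :
    HH η N ≤ HH η N' := sup_le_sup_left h _

omit [DecidableEq Y] in
theorem cr_mem_HH (η : Set (FreeGroup Y)) {w : FreeGroup Y} (hw : w ∈ HH η (Ninf R ψ)) :
    ∃ n, w ∈ HH η (crN R ψ n) := by
  have hm : Monotone fun n => HH η (crN R ψ n) := fun _ _ h => cr_HH_mono η (crN_mono R ψ h)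
  refine (Subgroup.mem_iSup_of_directed hm.directed_le).1 ((?_ : HH η (Ninf R ψ) ≤ _) hw)
  refine sup_le (le_trans le_sup_left (le_iSup (fun n => HH η (crN R ψ n)) 0)) ?_
  exact iSup_le fun n => le_trans le_sup_right (le_iSup (fun n => HH η (crN R ψ n)) n)

end Aux

theorem Ninf_normal (R : Set (FreeGroup Y)) (ψ : FreeGroup Y →* FreeGroup Y) :
    (Ninf R ψ).Normal := by
  refine ⟨fun w hw g => ?_⟩
  obtain ⟨n, hn⟩ := (cr_mem_Ninf R ψ).1 hw
  exact crN_le_Ninf R ψ n ((crN_normal R ψ n).conj_mem w hn g)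

theorem TT_Ninf (R : Set (FreeGroup Y)) (ψ : FreeGroup Y →* FreeGroup Y) :
    TT R ψ (Ninf R ψ) = Ninf R ψ := by
  have := Ninf_normal R ψ
  refine le_antisymm (Subgroup.normalClosure_le_normal ?_) (iSup_le fun n => ?_)
  · rintro w (hw | ⟨v, hv, rfl⟩)
    · refine crN_le_Ninf R ψ 1 ?_
      rw [crN_succ]
      exact Subgroup.subset_normalClosure (Or.inl hw)
    · obtain ⟨n, hn⟩ := (cr_mem_Ninf R ψ).1 hv
      refine crN_le_Ninf R ψ (n + 1) ?_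
      rw [crN_succ]
      exact Subgroup.subset_normalClosure (Or.inr ⟨v, hn, rfl⟩)
  · refine (crN_mono R ψ n.le_succ).trans ?_
    rw [crN_succ]
    exact cr_TT_mono R ψ (crN_le_Ninf R ψ n)

theorem Ninf_le (R : Set (FreeGroup Y)) (ψ : FreeGroup Y →* FreeGroup Y)
    (N : Subgroup (FreeGroup Y)) (hN : N.Normal) (hR : R ⊆ N) (hψ : ∀ w ∈ N, ψ w ∈ N) :
    Ninf R ψ ≤ N := by
  refine iSup_le fun n => ?_
  change crN R ψ n ≤ N
  induction n with
  | zero => exact bot_le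
  | succ n ih =>
    rw [crN_succ]
    refine Subgroup.normalClosure_le_normal ?_
    rintro w (hw | ⟨v, hv, rfl⟩)
    · exact hR hw
    · exact hψ v (ih hv)

section Rec

variable {r : RecData Y} {R η : Set (FreeGroup Y)} {β ρ₀ : FreeGroup Y}

theorem RecHyp.cr_delta (h : RecHyp r R η β ρ₀) (n M : ℕ) :
    r.ψ^[M] ρ₀ ∈ crN R r.ψ n ↔ M < n := by
  induction n generalizing M with
  | zero =>
    refine iff_of_false ?_ (Nat.not_lt_zero M)
    change r.ψ^[M] ρ₀ ∉ (⊥ : Subgroup (FreeGroup Y))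
    induction M with
    | zero => exact fun e => h.ρ_ne (Subgroup.mem_bot.1 e)
    | succ M ih =>
      intro e
      rw [iterate_succ_apply'] at e
      exact ih ((h.comap ⊥ inferInstance _).1 (bot_le (a := TT R r.ψ ⊥) e))
  | succ n ih =>
    rw [crN_succ]
    cases M with
    | zero => exact iff_of_true (cr_TT_mono R r.ψ bot_le h.ρ_mem) n.succ_pos
    | succ M => rw [iterate_succ_apply', h.comap _ inferInstance, ih, Nat.succ_lt_succ_iff]

theorem RecHyp.cr_sound (h : RecHyp r R η β ρ₀) (M : ℕ) :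
    (∀ w ∈ (r.W M).T, w ∈ crN R r.ψ (M + 1)) ∧ ∀ w ∈ (r.W M).M, w ∈ HH η (crN R r.ψ (M + 1)) := by
  have key : ∀ (L n : ℕ) (RT RM : Set (FreeGroup Y)), RT ⊆ crN R r.ψ n → RM ⊆ HH η (crN R r.ψ n) →
      (∀ w ∈ (LT.least L RT RM).T, w ∈ crN R r.ψ n) ∧
        ∀ w ∈ (LT.least L RT RM).M, w ∈ HH η (crN R r.ψ n) := fun L n RT RM h1 h2 =>
    ⟨fun w hw => hw (LT.hon _ (HH η (crN R r.ψ n))) (LT.hon_closed _ _ le_sup_right L) h1 h2,
      fun w hw => hw (LT.hon (crN R r.ψ n) _) (LT.hon_closed _ _ le_sup_right L) h1 h2⟩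
  induction M with
  | zero => exact key _ 1 _ _ (h.GT_mem 0) (h.GM_mem 0)
  | succ M ih =>
    refine key _ _ _ _ ?_ ?_
    · rw [crN_succ]
      rintro v ((hv | ⟨w, -, hw, rfl⟩) | ⟨w, -, hw, rfl⟩)
      · exact cr_TT_mono R r.ψ bot_le (h.GT_mem _ hv)
      · exact (h.comap _ inferInstance w).2 (ih.1 w hw)
      · exact (h.ψ_mem _ inferInstance w (ih.2 w hw)).2
    · have hδ := (h.cr_delta (M + 1 + 1) (M + 1)).2 (Nat.lt_succ_self _)
      rw [iterate_succ_apply'] at hδ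
      have hc := (crN_normal R r.ψ (M + 1 + 1)).conj_mem _ hδ (β ^ (M + 1))
      rw [crN_succ] at hc ⊢
      rintro v ((hv | ⟨w, -, hw, rfl⟩) | ⟨w, hn, hw, rfl⟩)
      · exact cr_HH_mono η (cr_TT_mono R r.ψ bot_le) (h.GM_mem _ hv)
      · exact (h.ψ_mem _ inferInstance w (ih.2 w hw)).1
      · have h1 := h.gd_mem (crN R r.ψ (M + 1)) inferInstance M w ⟨hn, hw⟩
        have hc' : _ ∈ HH η (TT R r.ψ (crN R r.ψ (M + 1))) := Subgroup.mem_sup_right hc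
        have h2 := Subgroup.mul_mem _ (Subgroup.mul_mem _ hc' h1) (Subgroup.inv_mem _ hc')
        have e : (r.ψ w)⁻¹ * r.τ * r.ψ w = β ^ (M + 1) * r.ψ (r.ψ^[M] ρ₀) * (β ^ (M + 1))⁻¹ *
            ((r.gd β ρ₀ M w)⁻¹ * r.τ * r.gd β ρ₀ M w) *
            (β ^ (M + 1) * r.ψ (r.ψ^[M] ρ₀) * (β ^ (M + 1))⁻¹)⁻¹ := by
          unfold RecData.gd
          group
        rw [SetLike.mem_coe, e]
        exact h2

theorem RecHyp.cr_complete (h : RecHyp r R η β ρ₀) (n : ℕ) : ∀ M, M < n →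
    ∀ w : FreeGroup Y, w.norm ≤ M →
      (w ∈ crN R r.ψ n → w ∈ (r.W M).T) ∧ (w ∈ HH η (crN R r.ψ n) → w ∈ (r.W M).M) := by
  induction n with
  | zero => exact fun M hM => absurd hM (Nat.not_lt_zero M)
  | succ n ih =>
    intro M hM
    cases M with
    | zero =>
      intro w hw
      obtain rfl : w = 1 := FreeGroup.norm_eq_zero.1 (Nat.le_zero.1 hw)
      have hc := LT.least_closed (r.f 0) (r.GT 0) (r.GM 0)
      exact ⟨fun _ => hc.one, fun _ => hc.sub 1 (hw.trans (Nat.zero_le _)) hc.one⟩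
    | succ M =>
      have hM' : M < n := Nat.lt_of_succ_lt_succ hM
      rw [crN_succ]
      refine h.loc (crN R r.ψ n) inferInstance M (fun M' x hx => ?_) (r.W (M + 1))
        (LT.least_closed _ _ _) (fun v hv => ?_) (fun v hv => ?_) (fun w hw hN => ?_)
        (fun w hw hN => ⟨?_, ?_⟩) (fun w hw hN => ?_)
      · rcases lt_or_ge M' n with h1 | h1
        · exact Or.inl ⟨(h.cr_delta n M').2 h1, fun hx' => hx.2 ((ih M' h1 x hx.1).2 hx')⟩
        · exact Or.inr ⟨fun h2 => absurd ((h.cr_delta n M').1 h2) (not_lt.2 h1), hM'.le.trans h1⟩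
      · exact LT.subset_least_T _ _ _ (Or.inl (Or.inl hv))
      · exact LT.subset_least_M _ _ _ (Or.inl (Or.inl hv))
      · exact LT.subset_least_T _ _ _ (Or.inl (Or.inr ⟨w, hw, (ih M hM' w hw).1 hN, rfl⟩))
      · exact LT.subset_least_T _ _ _ (Or.inr ⟨w, hw, (ih M hM' w hw).2 hN, rfl⟩)
      · exact LT.subset_least_M _ _ _ (Or.inl (Or.inr ⟨w, hw, (ih M hM' w hw).2 hN, rfl⟩))
      · exact LT.subset_least_M _ _ _ (Or.inr ⟨w, hw, fun h1 =>
          hN (cr_HH_mono η (crN_mono R r.ψ hM') ((h.cr_sound M).2 w h1)), rfl⟩)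

end Rec

/-- **Task CRec.**  `N n = TT^[n] ⊥` increases, `δ M = ψ^[M] ρ₀ ∈ N n ↔ M < n` (`comap`, `ρ_ne`,
`ρ_mem`; `δ M ≠ 1` because `ψ` is injective by `comap` at `⊥`).
(a) `(W M).T ⊆ N (M+1)`, `(W M).M ⊆ HH (N (M+1))` by induction on `M` (the honest theory
`LT.hon` is closed and contains the generators; for a claimed `w`, `gd M w ≡ ψ w` modulo
`N (M+2)` since `δ M ∈ N (M+1)`).
(b) by strong induction on `n`: `B n`: for all `M < n` and `‖w‖ ≤ M`, `w ∈ N n → w ∈ (W M).T`,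
`w ∈ HH (N n) → w ∈ (W M).M`.  `M = 0` is trivial.  For `M + 1 < n + 1` apply `loc` with `N n`, `M`,
`θ = W (M+1)`: a claim `(M', x)` with `M' < n` is true in `N n` by `B n`, otherwise `M' ≥ n > M`;
positive facts come from `B n`, negative ones from (a) (`M + 1 ≤ n`). -/
theorem RecHyp.limit {r : RecData Y} {R η : Set (FreeGroup Y)} {β ρ₀ : FreeGroup Y}
    (h : RecHyp r R η β ρ₀) :
    (∀ M, r.ψ^[M] ρ₀ ∈ Ninf R r.ψ) ∧ (∀ M x, r.Claim M x → x ∉ HH η (Ninf R r.ψ)) ∧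
      ∀ x, x ∉ HH η (Ninf R r.ψ) → r.Claim x.norm x := by
  refine ⟨fun M => crN_le_Ninf R r.ψ (M + 1) ((h.cr_delta _ _).2 M.lt_succ_self),
    fun M x hx hx' => ?_, fun x hx => ⟨le_rfl, fun h1 => hx ?_⟩⟩
  · obtain ⟨n, hn⟩ := cr_mem_HH R r.ψ η hx'
    exact hx.2 ((h.cr_complete (max n (M + 1)) M (lt_max_of_lt_right M.lt_succ_self) x hx.1).2
      (cr_HH_mono η (crN_mono R r.ψ (le_max_left _ _)) hn))
  · exact cr_HH_mono η (crN_le_Ninf R r.ψ _) ((h.cr_sound _).2 x h1)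

end Crest.Agent.R185
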