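import Crest.Agent.R185.CLoc
import Crest.Agent.R185.CBrit

/-!
# Row 185, core: generic locality lemmas (transfer, products, reduced representatives, scanning,
centralising letters, distortion witnesses)
-/

set_option autoImplicit false
set_option linter.unusedSectionVars false

namespace Crest.Agent.R185

open Function

variable {Y Z : Type} [DecidableEq Y] [DecidableEq Z] {θ : LT Y} {L : ℕ}

/-! ### transfer from generators to short words -/

omit [DecidableEq Z] in
theorem mk_false (z : Z) : (FreeGroup.mk [(z, false)] : FreeGroup Z) = (FreeGroup.of z)⁻¹ := by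
  simp [FreeGroup.of, FreeGroup.invRev]

theorem norm_conj_le {g x : FreeGroup Y} {A B : ℕ} (hg : g.norm ≤ A) (hx : x.norm ≤ B) :
    (g⁻¹ * x * g).norm ≤ B + 2 * A := by
  have h1 := nmul (g⁻¹ * x) g
  have h2 := nmul g⁻¹ x
  rw [FreeGroup.norm_inv_eq] at h2
  omega

theorem LT.Closed.conj_of_comm (h : θ.Closed L) {x y : FreeGroup Y} {B : ℕ} (hL : 4 * B ≤ L)
    (hx : x.norm ≤ B) (hy : y.norm ≤ B) (e : θ.E (x * y) (y * x)) : θ.E (y⁻¹ * x * y) x := by
  have := h.mul_left (B := 2 * B) (g := y⁻¹) (by omega) (by rw [FreeGroup.norm_inv_eq]; omega)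
    ((nmul _ _).trans (by omega)) ((nmul _ _).trans (by omega)) e
  simpa [mul_assoc] using this

theorem LT.Closed.comm_of_conj (h : θ.Closed L) {x y : FreeGroup Y} {B : ℕ} (hL : 6 * B ≤ L)
    (hx : x.norm ≤ B) (hy : y.norm ≤ B) (e : θ.E (y⁻¹ * x * y) x) : θ.E (y * x) (x * y) := by
  have := h.mul_left (B := 3 * B) (g := y) (by omega) (by omega)
    ((norm_conj_le hy hx).trans (by omega)) (hx.trans (by omega)) e
  refine h.symm (B := 2 * B) (by omega) ((nmul _ _).trans (by omega))
    ((nmul _ _).trans (by omega)) ?_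
  simpa [mul_assoc] using this

/-- induction on `w.toWord`; for an inverse letter use `Closed.invE` -/
theorem LT.Closed.transfer (h : θ.Closed L) {a b : FreeGroup Z →* FreeGroup Y} {Λ n : ℕ}
    (ha : Lip a Λ) (hb : Lip b Λ) {g : FreeGroup Y} (hg : g.norm ≤ Λ)
    (hz : ∀ z, θ.E (g⁻¹ * a (.of z) * g) (b (.of z))) (hL : 8 * (n + 1) * (Λ + 1) ≤ L)
    (w : FreeGroup Z) (hw : w.norm ≤ n) : θ.E (g⁻¹ * a w * g) (b w) := by
  have key : ∀ l : List (Z × Bool), l.length ≤ n →
      θ.E (g⁻¹ * a (.mk l) * g) (b (.mk l)) := by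
    intro l
    induction l with
    | nil => intro _; exact h.of_eq (by simp [← FreeGroup.one_eq_mk])
    | cons x l ih =>
      intro hl
      rw [List.length_cons] at hl
      have ih' := ih (by omega)
      have hx : θ.E (g⁻¹ * a (.mk [x]) * g) (b (.mk [x])) := by
        obtain ⟨z, _ | _⟩ := x
        · have h1 := h.invE (B := 3 * Λ) (by nlinarith)
            ((norm_conj_le hg (ha z)).trans (by omega)) ((hb z).trans (by omega)) (hz z)
          rw [mk_false, map_inv, map_inv]
          simpa [mul_assoc] using h1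
        · exact hz z
      have n1 := norm_mk_hom_le ha [x]
      have n2 := norm_mk_hom_le hb [x]
      have n3 := norm_mk_hom_le ha l
      have n4 := norm_mk_hom_le hb l
      rw [List.length_singleton, mul_one] at n1 n2
      have n5 : Λ * l.length + Λ ≤ Λ * n := by nlinarith
      have h1 := h.mulE (B := Λ * n + 2 * Λ) (by nlinarith)
        ((norm_conj_le hg n1).trans (by omega)) (n2.trans (by omega))
        ((norm_conj_le hg n3).trans (by omega)) (n4.trans (by omega)) hx ih'
      rw [show x :: l = [x] ++ l from rfl, ← FreeGroup.mul_mk, map_mul, map_mul]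
      simpa [mul_assoc] using h1
  have := key w.toWord hw
  rwa [FreeGroup.mk_toWord] at this

/-- `transfer` twice -/
theorem LT.Closed.comm {Z' : Type} [DecidableEq Z'] (h : θ.Closed L)
    {a : FreeGroup Z →* FreeGroup Y} {b : FreeGroup Z' →* FreeGroup Y} {Λ n : ℕ} (ha : Lip a Λ)
    (hb : Lip b Λ) (hz : ∀ z z', θ.E (a (.of z) * b (.of z')) (b (.of z') * a (.of z)))
    (hL : 16 * (n + 1) * (n + 1) * (Λ + 1) ≤ L) (w : FreeGroup Z) (hw : w.norm ≤ n)
    (w' : FreeGroup Z') (hw' : w'.norm ≤ n) : θ.E (a w * b w') (b w' * a w) := by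
  have n1 : (a w).norm ≤ Λ * (n + 1) := (ha.norm_le w).trans (Nat.mul_le_mul_left _ (by omega))
  have n2 : (b w').norm ≤ Λ * (n + 1) := (hb.norm_le w').trans (Nat.mul_le_mul_left _ (by omega))
  have hb' : Lip b (Λ * (n + 1)) := fun z => (hb z).trans (by nlinarith)
  have hL1 : 8 * (n + 1) * (Λ + 1) ≤ L := le_trans (by nlinarith [Nat.zero_le (n * n * Λ)]) hL
  have hL2 : 8 * (n + 1) * (Λ * (n + 1) + 1) ≤ L :=
    le_trans (by nlinarith [Nat.zero_le (n * n * Λ)]) hL
  have hL3 : 6 * (Λ * (n + 1)) ≤ L := le_trans (by nlinarith) hL1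
  refine h.comm_of_conj hL3 n2 n1 (h.transfer hb' hb' n1 (fun z' => ?_) hL2 w' hw')
  refine h.conj_of_comm (by omega) (hb' z') n1 (h.comm_of_conj hL3 n1 (hb' z') ?_)
  refine h.transfer ha ha (hb z') (fun z => ?_) hL1 w hw
  exact h.conj_of_comm (by nlinarith) (ha z) (hb z') (hz z z')

/-- short words in elements of `θ.M` -/
theorem LT.Closed.hom_memM (h : θ.Closed L) {a : FreeGroup Z →* FreeGroup Y} {Λ n : ℕ}
    (ha : Lip a Λ) (hL : (n + 1) * Λ ≤ L) (w : FreeGroup Z) (hw : w.norm ≤ n)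
    (hz : ∀ x ∈ w.toWord, a (.of x.1) ∈ θ.M) : a w ∈ θ.M := by
  have key : ∀ l : List (Z × Bool), l.length ≤ n → (∀ x ∈ l, a (.of x.1) ∈ θ.M) →
      a (.mk l) ∈ θ.M := by
    intro l
    induction l with
    | nil => intro _ _; simpa [← FreeGroup.one_eq_mk] using h.oneM
    | cons x l ih =>
      intro hl hx
      rw [List.length_cons] at hl
      have ih' := ih (by omega) fun y hy => hx y (List.mem_cons_of_mem _ hy)
      have h0 := hx x List.mem_cons_self
      have hΛ : Λ ≤ L := le_trans (by nlinarith) hL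
      have h1 : a (.mk [x]) ∈ θ.M := by
        obtain ⟨z, _ | _⟩ := x
        · rw [mk_false, map_inv]; exact h.invM _ ((ha z).trans hΛ) h0
        · exact h0
      have n1 := norm_mk_hom_le ha [x]
      have n3 := norm_mk_hom_le ha l
      rw [List.length_singleton, mul_one] at n1
      rw [show x :: l = [x] ++ l from rfl, ← FreeGroup.mul_mk, map_mul]
      exact h.mulM _ _ (n1.trans hΛ) (n3.trans (le_trans (by nlinarith) hL)) h1 ih'
  have := key w.toWord hw hz
  rwa [FreeGroup.mk_toWord] at this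

/-! ### direct products -/

section Prod

variable {G₁ G₂ : Type} [Group G₁] [Group G₂]

/-- delete the letters of the second kind -/
def prL : FreeGroup (Y ⊕ Z) →* FreeGroup Y := FreeGroup.lift (Sum.elim FreeGroup.of fun _ => 1)

/-- delete the letters of the first kind -/
def prR : FreeGroup (Y ⊕ Z) →* FreeGroup Z := FreeGroup.lift (Sum.elim (fun _ => 1) FreeGroup.of)

theorem lip_prL : Lip (prL : FreeGroup (Y ⊕ Z) →* FreeGroup Y) 1 := by
  rintro (y | z) <;> simp [prL]

theorem lip_prR : Lip (prR : FreeGroup (Y ⊕ Z) →* FreeGroup Z) 1 := by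
  rintro (y | z) <;> simp [prR]

/-- the marking of a direct product -/
def prodMark (π₁ : FreeGroup Y →* G₁) (π₂ : FreeGroup Z →* G₂) : FreeGroup (Y ⊕ Z) →* G₁ × G₂ :=
  (π₁.comp prL).prod (π₂.comp prR)

theorem prL_inl (w : FreeGroup Y) : prL (FreeGroup.map (Sum.inl : Y → Y ⊕ Z) w) = w :=
  DFunLike.congr_fun (show prL.comp (FreeGroup.map (Sum.inl : Y → Y ⊕ Z)) = MonoidHom.id _ from
    FreeGroup.ext_hom _ _ fun y => by simp [prL]) w

theorem prR_inl (w : FreeGroup Y) : prR (FreeGroup.map (Sum.inl : Y → Y ⊕ Z) w) = 1 :=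
  DFunLike.congr_fun (show prR.comp (FreeGroup.map (Sum.inl : Y → Y ⊕ Z)) = 1 from
    FreeGroup.ext_hom _ _ fun y => by simp [prR]) w

theorem prL_inr (w : FreeGroup Z) : prL (FreeGroup.map (Sum.inr : Z → Y ⊕ Z) w) = 1 :=
  DFunLike.congr_fun (show prL.comp (FreeGroup.map (Sum.inr : Z → Y ⊕ Z)) = 1 from
    FreeGroup.ext_hom _ _ fun y => by simp [prL]) w

theorem prR_inr (w : FreeGroup Z) : prR (FreeGroup.map (Sum.inr : Z → Y ⊕ Z) w) = w :=
  DFunLike.congr_fun (show prR.comp (FreeGroup.map (Sum.inr : Z → Y ⊕ Z)) = MonoidHom.id _ from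
    FreeGroup.ext_hom _ _ fun y => by simp [prR]) w

theorem norm_prL_le (w : FreeGroup (Y ⊕ Z)) : (prL w).norm ≤ w.norm := by
  simpa using lip_prL.norm_le w

theorem norm_prR_le (w : FreeGroup (Y ⊕ Z)) : (prR w).norm ≤ w.norm := by
  simpa using lip_prR.norm_le w

theorem prodMark_inl (π₁ : FreeGroup Y →* G₁) (π₂ : FreeGroup Z →* G₂) (w : FreeGroup Y) :
    prodMark π₁ π₂ (FreeGroup.map Sum.inl w) = (π₁ w, 1) := by
  simp [prodMark, prL_inl, prR_inl]

theorem prodMark_inr (π₁ : FreeGroup Y →* G₁) (π₂ : FreeGroup Z →* G₂) (w : FreeGroup Z) :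
    prodMark π₁ π₂ (FreeGroup.map Sum.inr w) = (1, π₂ w) := by
  simp [prodMark, prL_inr, prR_inr]

theorem prodMark_surjective {π₁ : FreeGroup Y →* G₁} {π₂ : FreeGroup Z →* G₂}
    (h₁ : Surjective π₁) (h₂ : Surjective π₂) : Surjective (prodMark π₁ π₂) := by
  rintro ⟨x, y⟩
  obtain ⟨u, rfl⟩ := h₁ x
  obtain ⟨v, rfl⟩ := h₂ y
  exact ⟨FreeGroup.map Sum.inl u * FreeGroup.map Sum.inr v, by
    rw [map_mul, prodMark_inl, prodMark_inr]; simp⟩

/-- the commutators of the letters -/
def prodRel (Y Z : Type) : Set (FreeGroup (Y ⊕ Z)) :=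
  {w | ∃ y z, w = .of (.inl y) * .of (.inr z) * (.of (.inr z) * .of (.inl y))⁻¹}

theorem prodRel_finite [Finite Y] [Finite Z] : (prodRel Y Z).Finite := by
  refine (Set.finite_range fun x : Y × Z => (FreeGroup.of (.inl x.1) * .of (.inr x.2) *
    (.of (.inr x.2) * .of (.inl x.1))⁻¹ : FreeGroup (Y ⊕ Z))).subset ?_
  rintro w ⟨y, z, rfl⟩
  exact ⟨(y, z), rfl⟩

theorem prodMark_rel (π₁ : FreeGroup Y →* G₁) (π₂ : FreeGroup Z →* G₂) :
    ∀ w ∈ prodRel Y Z, prodMark π₁ π₂ w = 1 := by
  rintro w ⟨y, z, rfl⟩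
  have h1 := prodMark_inl π₁ π₂ (.of y)
  have h2 := prodMark_inr π₁ π₂ (.of z)
  rw [FreeGroup.map.of] at h1 h2
  simp [h1, h2]

theorem LT.Closed.prod_split {θ : LT (Y ⊕ Z)} (h : θ.Closed L) (hR : prodRel Y Z ⊆ θ.T) {n : ℕ}
    (hL : 64 * (n + 1) * (n + 1) ≤ L) (w : FreeGroup (Y ⊕ Z)) (hw : w.norm ≤ n) :
    θ.E w (FreeGroup.map Sum.inl (prL w) * FreeGroup.map Sum.inr (prR w)) := by
  have key : ∀ l : List ((Y ⊕ Z) × Bool), l.length ≤ n → θ.E (.mk l)
      (FreeGroup.map Sum.inl (prL (.mk l)) * FreeGroup.map Sum.inr (prR (.mk l))) := by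
    intro l
    induction l with
    | nil => intro _; exact h.of_eq (by simp [← FreeGroup.one_eq_mk])
    | cons x l ih =>
      intro hl
      rw [List.length_cons] at hl
      have ih' := ih (by omega)
      have hx : (FreeGroup.mk [x] : FreeGroup (Y ⊕ Z)) =
          FreeGroup.map Sum.inl (prL (.mk [x])) * FreeGroup.map Sum.inr (prR (.mk [x])) := by
        obtain ⟨y | z, _ | _⟩ := x
        · rw [mk_false]; simp [prL, prR]
        · change FreeGroup.of _ = FreeGroup.map Sum.inl (prL (.of _)) *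
            FreeGroup.map Sum.inr (prR (.of _))
          simp [prL, prR]
        · rw [mk_false]; simp [prL, prR]
        · change FreeGroup.of _ = FreeGroup.map Sum.inl (prL (.of _)) *
            FreeGroup.map Sum.inr (prR (.of _))
          simp [prL, prR]
      have n0 : (FreeGroup.mk [x]).norm ≤ 1 := FreeGroup.norm_mk_le
      have n1 : (FreeGroup.mk l).norm ≤ l.length := FreeGroup.norm_mk_le
      have m1 := (norm_prL_le _).trans n0
      have m2 := (norm_prR_le _).trans n0
      have m3 := (norm_prL_le _).trans n1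
      have m4 := (norm_prR_le _).trans n1
      have k1 := (norm_map_le (Sum.inl : Y → Y ⊕ Z) _).trans m1
      have k2 := (norm_map_le (Sum.inr : Z → Y ⊕ Z) _).trans m2
      have k3 := (norm_map_le (Sum.inl : Y → Y ⊕ Z) _).trans m3
      have k4 := (norm_map_le (Sum.inr : Z → Y ⊕ Z) _).trans m4
      have hL' : 4 * n + 4 ≤ L := le_trans (by nlinarith) hL
      have hc := h.comm (lip_map (Sum.inl : Y → Y ⊕ Z)) (lip_map (Sum.inr : Z → Y ⊕ Z))
        (fun y z => hR ⟨y, z, by simp⟩) (n := n) (le_trans (by nlinarith) hL) (prL (.mk l))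
        (by omega) (prR (.mk [x])) (by omega)
      rw [show x :: l = [x] ++ l from rfl, ← FreeGroup.mul_mk, map_mul, map_mul, map_mul, map_mul]
      generalize FreeGroup.map Sum.inl (prL (FreeGroup.mk [x])) = x₁ at *
      generalize FreeGroup.map Sum.inr (prR (FreeGroup.mk [x])) = x₂ at *
      generalize FreeGroup.map Sum.inl (prL (FreeGroup.mk l)) = u at *
      generalize FreeGroup.map Sum.inr (prR (FreeGroup.mk l)) = v at *
      have p1 := nmul u v
      have p2 := nmul u x₂
      have p3 := nmul x₂ u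
      have e1 := h.mul_left (B := 2 * n) (g := .mk [x]) (by omega) (by omega) (by omega)
        (by omega) ih'
      have e2 := h.mid (B := n + 1) (g := x₁) (by omega) (by omega) (by omega) (by omega)
        (h.symm (B := n + 1) (by omega) (by omega) (by omega) hc) v
      have q1 : FreeGroup.mk [x] * (u * v) = x₁ * (x₂ * u) * v := by rw [hx]; simp [mul_assoc]
      have q2 : x₁ * (u * x₂) * v = x₁ * u * (x₂ * v) := by simp [mul_assoc]
      rw [← q1, q2] at e2
      have p4 := nmul (FreeGroup.mk [x]) (FreeGroup.mk l)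
      have p5 := nmul (FreeGroup.mk [x]) (u * v)
      have p6 := nmul (x₁ * u) (x₂ * v)
      have p7 := nmul x₁ u
      have p8 := nmul x₂ v
      exact h.trans (B := 2 * n + 2) (by omega) (by omega) (by omega) (by omega) e1 e2
  have := key w.toWord hw
  rwa [FreeGroup.mk_toWord] at this

theorem LT.Closed.prod_KT {θ : LT (Y ⊕ Z)} (h : θ.Closed L) (hR : prodRel Y Z ⊆ θ.T) {n : ℕ}
    (hL : 64 * (n + 1) * (n + 1) ≤ L) {π₁ : FreeGroup Y →* G₁} {π₂ : FreeGroup Z →* G₂}
    (h₁ : (θ.comap (FreeGroup.map Sum.inl)).KT π₁ n)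
    (h₂ : (θ.comap (FreeGroup.map Sum.inr)).KT π₂ n) : θ.KT (prodMark π₁ π₂) n := by
  intro w hw h1
  have m1 := (norm_prL_le w).trans hw
  have m2 := (norm_prR_le w).trans hw
  have k1 := (norm_map_le (Sum.inl : Y → Y ⊕ Z) _).trans m1
  have k2 := (norm_map_le (Sum.inr : Z → Y ⊕ Z) _).trans m2
  have hL' : 4 * n + 4 ≤ L := le_trans (by nlinarith) hL
  refine h.memT (B := 2 * n) (by omega) (by omega) ((nmul _ _).trans (by omega))
    (h.prod_split hR hL w hw) (h.mul _ _ (by omega) (by omega) (h₁ _ m1 ?_) (h₂ _ m2 ?_))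
  · exact congrArg Prod.fst h1
  · exact congrArg Prod.snd h1

theorem LT.Closed.prod_KM {θ : LT (Y ⊕ Z)} (h : θ.Closed L) (hR : prodRel Y Z ⊆ θ.T) {n : ℕ}
    (hL : 64 * (n + 1) * (n + 1) ≤ L) {π₁ : FreeGroup Y →* G₁} {π₂ : FreeGroup Z →* G₂}
    {H₁ : Subgroup G₁} {H₂ : Subgroup G₂} (h₁ : (θ.comap (FreeGroup.map Sum.inl)).KM π₁ H₁ n)
    (h₂ : (θ.comap (FreeGroup.map Sum.inr)).KM π₂ H₂ n) :
    θ.KM (prodMark π₁ π₂) (H₁.prod H₂) n := by
  intro w hw h1
  have m1 := (norm_prL_le w).trans hw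
  have m2 := (norm_prR_le w).trans hw
  have k1 := (norm_map_le (Sum.inl : Y → Y ⊕ Z) _).trans m1
  have k2 := (norm_map_le (Sum.inr : Z → Y ⊕ Z) _).trans m2
  have hL' : 4 * n + 4 ≤ L := le_trans (by nlinarith) hL
  exact h.memM (B := 2 * n) (by omega) (by omega) ((nmul _ _).trans (by omega))
    (h.prod_split hR hL w hw) (h.mulM _ _ (by omega) (by omega) (h₁ _ m1 h1.1) (h₂ _ m2 h1.2))

end Prod

/-! ### reduced representatives in a multiple HNN extension -/

section Rep

variable {M E : Type} [Group M] {D : MHD M E} {π : FreeGroup Y →* D.G}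

/-- representatives (with a size) of elements of the base group and words for the letters -/
structure RepSys (D : MHD M E) (π : FreeGroup Y →* D.G) where
  Rp : Type
  val : Rp → M
  wd : Rp → FreeGroup Y
  sz : Rp → ℕ
  tw : E → FreeGroup Y
  π_wd : ∀ r, π (wd r) = D.of (val r)
  π_tw : ∀ e, π (tw e) = D.t e
  tw_le : ∀ e, (tw e).norm ≤ 1

namespace RepSys

variable (R : RepSys D π)

/-- the word of a list -/
def wl (r : R.Rp) (l : List (E × R.Rp)) : FreeGroup Y :=
  R.wd r * (l.map fun x => R.tw x.1 * R.wd x.2).prod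

/-- the size of a list -/
def szl (r : R.Rp) (l : List (E × R.Rp)) : ℕ := R.sz r + (l.map fun x => R.sz x.2 + 1).sum

/-- the values of a list -/
def vl (l : List (E × R.Rp)) : List (E × M) := l.map fun x => (x.1, R.val x.2)

theorem wl_nil (r : R.Rp) : R.wl r [] = R.wd r := by simp [wl]

theorem wl_cons (r a : R.Rp) (e : E) (l : List (E × R.Rp)) :
    R.wl r ((e, a) :: l) = R.wd r * R.tw e * R.wl a l := by simp [wl, mul_assoc]

theorem szl_nil (r : R.Rp) : R.szl r [] = R.sz r := by simp [szl]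

theorem szl_cons (r a : R.Rp) (e : E) (l : List (E × R.Rp)) :
    R.szl r ((e, a) :: l) = R.sz r + 1 + R.szl a l := by
  simp only [szl, List.map_cons, List.sum_cons]; omega

theorem sz_le_szl (r : R.Rp) (l : List (E × R.Rp)) : R.sz r ≤ R.szl r l := Nat.le_add_right _ _

theorem szl_add (r r' : R.Rp) (l : List (E × R.Rp)) :
    R.szl r' l + R.sz r = R.szl r l + R.sz r' := by
  simp only [szl]; omega

theorem π_wl (r : R.Rp) (l : List (E × R.Rp)) : π (R.wl r l) = D.ev (R.val r) (R.vl l) := by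
  rw [wl, D.ev_eq_prod, map_mul, R.π_wd, map_list_prod, vl, List.map_map, List.map_map]
  congr 2
  refine List.map_congr_left fun x _ => ?_
  simp [R.π_wd, R.π_tw]

theorem norm_wl_le {m F : ℕ} (hF : ∀ r, R.sz r ≤ m → (R.wd r).norm ≤ F) (r : R.Rp)
    (l : List (E × R.Rp)) (h : R.szl r l ≤ m) : (R.wl r l).norm ≤ (m + 1) * (F + 1) := by
  have key : ∀ (l : List (E × R.Rp)) (r : R.Rp), R.szl r l ≤ m →
      (R.wl r l).norm ≤ (R.szl r l + 1) * (F + 1) := by
    intro l
    induction l with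
    | nil =>
      intro r hr
      rw [wl_nil]
      have := hF r ((R.sz_le_szl r []).trans hr)
      nlinarith [Nat.zero_le (R.szl r [] * (F + 1))]
    | cons x l ih =>
      obtain ⟨e, a⟩ := x
      intro r hr
      rw [szl_cons] at hr
      rw [wl_cons, szl_cons]
      have h1 := ih a (by omega)
      have h2 := hF r (by omega)
      have h3 := R.tw_le e
      have h4 := nmul (R.wd r * R.tw e) (R.wl a l)
      have h5 := nmul (R.wd r) (R.tw e)
      nlinarith [Nat.zero_le (R.sz r * (F + 1))]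
  exact (key l r h).trans (Nat.mul_le_mul_right _ (by omega))

/-- **Rep lemma.**  Induction on `w.toWord`, prepending a letter: a base letter is multiplied into
`r`; a stable letter `tw e` either pinches with the first letter of `l` (then multiply with the
next syllable) or is consed on: `(one, (e, r) :: l)`. -/
theorem rep (h : θ.Closed L) {m F : ℕ} (hL : 8 * (m + 1) * (F + 1) ≤ L)
    (hF : ∀ r, R.sz r ≤ m → (R.wd r).norm ≤ F) (one : ∃ r, R.sz r = 0 ∧ R.wd r = 1)
    (letter : ∀ x : Y × Bool, (∃ r, R.sz r ≤ 1 ∧ θ.E (.mk [x]) (R.wd r)) ∨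
      ∃ e, FreeGroup.mk [x] = R.tw e)
    (prod : ∀ r r', R.sz r + R.sz r' ≤ m →
      ∃ r'', R.sz r'' ≤ R.sz r + R.sz r' ∧ θ.E (R.wd r * R.wd r') (R.wd r''))
    (pinch : ∀ e r, R.val r ∈ D.H e → R.sz r + 2 ≤ m →
      ∃ r', R.sz r' ≤ R.sz r + 2 ∧ θ.E (R.tw (D.bar e) * R.wd r * R.tw e) (R.wd r'))
    (w : FreeGroup Y) (hw : w.norm ≤ m) :
    ∃ r l, D.Red (R.vl l) ∧ R.szl r l ≤ w.norm ∧ θ.E w (R.wl r l) := by
  obtain ⟨o, ho, ho'⟩ := one
  set B := (m + 1) * (F + 1) with hB
  have hLB : 8 * B ≤ L := by rw [hB, ← mul_assoc]; exact hL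
  have hmB : m + 1 ≤ B := Nat.le_mul_of_pos_right _ (Nat.succ_pos F)
  have hFB : F + 1 ≤ B := Nat.le_mul_of_pos_left _ (Nat.succ_pos m)
  have hwl : ∀ r l, R.szl r l ≤ m → (R.wl r l).norm ≤ B := fun r l => R.norm_wl_le hF r l
  -- multiplying a syllable into the first one
  have absorb : ∀ (u : FreeGroup Y) (r₁ r : R.Rp) (l : List (E × R.Rp)), u.norm ≤ B →
      R.sz r₁ + R.szl r l ≤ m → θ.E u (R.wd r₁) →
      ∃ r'', R.szl r'' l ≤ R.sz r₁ + R.szl r l ∧ θ.E (u * R.wl r l) (R.wl r'' l) := by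
    intro u r₁ r l hu hs e1
    have h0 := R.sz_le_szl r l
    obtain ⟨r'', h1, e2⟩ := prod r₁ r (by omega)
    have h2 := R.szl_add r r'' l
    have h3 := hwl r l (by omega)
    have h4 := hwl r'' l (by omega)
    have h5 := hF r₁ (by omega)
    refine ⟨r'', by omega, h.trans (B := 2 * B) (b := R.wd r₁ * R.wl r l) (by omega)
      ((nmul _ _).trans (by omega)) ((nmul _ _).trans (by omega)) (by omega)
      (e1.mul_right _) ?_⟩
    have := e2.mul_right (l.map fun x => R.tw x.1 * R.wd x.2).prod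
    rwa [mul_assoc] at this
  have key : ∀ xs : List (Y × Bool), xs.length ≤ m →
      ∃ r l, D.Red (R.vl l) ∧ R.szl r l ≤ xs.length ∧ θ.E (.mk xs) (R.wl r l) := by
    intro xs
    induction xs with
    | nil =>
      intro _
      refine ⟨o, [], List.IsChain.nil, by simp [szl_nil, ho], ?_⟩
      rw [wl_nil, ho']
      exact h.refl _
    | cons x xs ih =>
      intro hx
      rw [List.length_cons] at hx
      obtain ⟨r, l, hr, hs, e0⟩ := ih (by omega)
      have n0 : (FreeGroup.mk xs).norm ≤ xs.length := FreeGroup.norm_mk_le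
      have n1 : (FreeGroup.mk [x]).norm ≤ 1 := FreeGroup.norm_mk_le
      have n2 := hwl r l (by omega)
      have e1 : θ.E (.mk [x] * .mk xs) (.mk [x] * R.wl r l) :=
        h.mul_left (B := B) (by omega) (by omega) (by omega) n2 e0
      suffices hh : ∃ r' l', D.Red (R.vl l') ∧ R.szl r' l' ≤ xs.length + 1 ∧
          θ.E (.mk [x] * R.wl r l) (R.wl r' l') by
        obtain ⟨r', l', h1, h2, e2⟩ := hh
        refine ⟨r', l', h1, h2, ?_⟩
        have n3 := hwl r' l' (by omega)
        rw [show x :: xs = [x] ++ xs from rfl, ← FreeGroup.mul_mk]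
        exact h.trans (B := 2 * B) (by omega) ((nmul _ _).trans (by omega))
          ((nmul _ _).trans (by omega)) (by omega) e1 e2
      rcases letter x with ⟨r₁, h1, e2⟩ | ⟨e, he⟩
      · obtain ⟨r'', h2, e3⟩ := absorb _ r₁ r l (by omega) (by omega) e2
        exact ⟨r'', l, hr, by omega, e3⟩
      · rw [he]
        by_cases hp : ∃ a l', l = (D.bar e, a) :: l' ∧ R.val r ∈ D.H (D.bar e)
        · obtain ⟨a, l', rfl, hH⟩ := hp
          rw [szl_cons] at hs
          obtain ⟨r', h1, e2⟩ := pinch _ r hH (by omega)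
          rw [D.bar_bar] at e2
          have n3 := hF r (by omega)
          have n4 := R.tw_le e
          have n5 := R.tw_le (D.bar e)
          have n6 := nmul (R.tw e * R.wd r) (R.tw (D.bar e))
          have n7 := nmul (R.tw e) (R.wd r)
          have n8 : 2 * (F + 1) ≤ B := Nat.mul_le_mul_right _ (by omega)
          obtain ⟨r'', h2, e3⟩ := absorb _ r' a l' (by omega) (by omega) e2
          refine ⟨r'', l', List.IsChain.tail hr, by omega, ?_⟩
          rw [wl_cons]
          simpa only [mul_assoc] using e3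
        · refine ⟨o, (e, r) :: l, ?_, by rw [szl_cons]; omega, ?_⟩
          · cases l with
            | nil => exact List.IsChain.singleton _
            | cons y l' =>
              obtain ⟨e', a⟩ := y
              refine List.IsChain.cons_cons ?_ hr
              rintro ⟨h1, h2⟩
              dsimp only at h1 h2
              subst h1
              exact hp ⟨a, l', rfl, h2⟩
          · rw [wl_cons, ho', one_mul]
            exact h.refl _
  have := key w.toWord hw
  rwa [FreeGroup.mk_toWord] at this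

/-- **Scan lemma.**  `P n p v`: the word `v` represents the point `p`, with size `n`.  Generalise the
start: `P n p v`, `n + 2 * szl r l ≤ 2 * m` gives `v * wl r l * v'⁻¹ ∈ θ.M`. -/
theorem scan {C : Type} (c : D.Core C) (h : θ.Closed L) {m F F' : ℕ}
    (hL : 4 * (m + 1) * (F + F' + 1) ≤ L) (hF : ∀ r, R.sz r ≤ m → (R.wd r).norm ≤ F)
    (P : ℕ → C → FreeGroup Y → Prop) (hP : ∀ n p v, n ≤ 2 * m → P n p v → v.norm ≤ F')
    (p1 : ∀ n p v r, P n p v → n + R.sz r ≤ 2 * m → R.sz r ≤ m →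
      ∃ v', P (n + R.sz r) (c.act p (R.val r)) v' ∧ v * R.wd r * v'⁻¹ ∈ θ.M)
    (p2 : ∀ n p v e q, P n p v → n + 2 ≤ 2 * m → c.st e p q →
      ∃ v', P (n + 2) q v' ∧ v * R.tw e * v'⁻¹ ∈ θ.M)
    {p₀ q : C} (p0 : P 0 p₀ 1) (r : R.Rp) (l : List (E × R.Rp)) (hs : R.szl r l ≤ m)
    (hp : c.Path p₀ (R.val r) (R.vl l) q) :
    ∃ n v, n ≤ 2 * m ∧ P n q v ∧ R.wl r l * v⁻¹ ∈ θ.M := by
  have hL1 : 2 * F' + (m + 1) * (F + 1) ≤ L := by nlinarith [Nat.zero_le (m * F'), Nat.zero_le (m * F)]
  have hFB : F + 1 ≤ (m + 1) * (F + 1) := Nat.le_mul_of_pos_left _ (Nat.succ_pos m)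
  have key : ∀ (l : List (E × R.Rp)) (r : R.Rp) (n : ℕ) (p : C) (v : FreeGroup Y), P n p v →
      n + 2 * R.szl r l ≤ 2 * m → c.Path p (R.val r) (R.vl l) q →
      ∃ n' v', n' ≤ 2 * m ∧ P n' q v' ∧ v * R.wl r l * v'⁻¹ ∈ θ.M := by
    intro l
    induction l with
    | nil =>
      intro r n p v hv hn hq
      rw [szl_nil] at hn
      obtain ⟨v', h1, h2⟩ := p1 n p v r hv (by omega) (by omega)
      have hq' : c.act p (R.val r) = q := hq
      rw [hq'] at h1
      exact ⟨_, v', by omega, h1, by rwa [wl_nil]⟩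
    | cons x l ih =>
      obtain ⟨e, a⟩ := x
      intro r n p v hv hn hq
      rw [szl_cons] at hn
      obtain ⟨p', hst, hq'⟩ : ∃ p', c.st e (c.act p (R.val r)) p' ∧
        c.Path p' (R.val a) (R.vl l) q := hq
      obtain ⟨v₁, h1, m1⟩ := p1 n p v r hv (by omega) (by omega)
      obtain ⟨v₂, h2, m2⟩ := p2 _ _ v₁ e p' h1 (by omega) hst
      obtain ⟨n', v', hn', h3, m3⟩ := ih a _ p' v₂ h2 (by omega) hq'
      refine ⟨n', v', hn', h3, ?_⟩
      have n0 := hP _ _ _ (by omega) hv
      have n1 := hP _ _ _ (by omega) h1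
      have n2 := hP _ _ _ (by omega) h2
      have n3 := hP _ _ _ hn' h3
      have n4 := hF r (by omega)
      have n5 := R.tw_le e
      have n6 := R.norm_wl_le hF a l (by omega)
      have nn : ∀ x y z : FreeGroup Y, (x * y * z⁻¹).norm ≤ x.norm + y.norm + z.norm :=
        fun x y z => (nmul _ _).trans (by
          have := nmul x y
          rw [FreeGroup.norm_inv_eq]; omega)
      have m4 : v * (R.wd r * R.tw e) * v₂⁻¹ ∈ θ.M := by
        have := h.mulM _ _ ((nn _ _ _).trans (by omega)) ((nn _ _ _).trans (by omega)) m1 m2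
        simpa only [mul_assoc, inv_mul_cancel_left] using this
      have n7 := nmul (R.wd r) (R.tw e)
      have := h.mulM _ _ ((nn _ _ _).trans (by omega)) ((nn _ _ _).trans (by omega)) m4 m3
      rw [wl_cons]
      simpa only [mul_assoc, inv_mul_cancel_left] using this
  simpa only [one_mul] using key l r 0 p₀ 1 p0 (by omega) hp

end RepSys

end Rep

/-! ### centralising letters -/

section Cent

variable {M I : Type} [Group M] [DecidableEq I] (H : I → Subgroup M) (π : FreeGroup Y →* M)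

/-- the marking of `⟨M, tᵢ | [tᵢ, H i]⟩` -/
def centMark : FreeGroup (Y ⊕ I) →* (MHD.cent H).G :=
  FreeGroup.lift (Sum.elim (fun y => (MHD.cent H).of (π (.of y))) fun i => (MHD.cent H).t (i, true))

theorem centMark_inl (w : FreeGroup Y) :
    centMark H π (FreeGroup.map Sum.inl w) = (MHD.cent H).of (π w) := by
  have : (centMark H π).comp (FreeGroup.map Sum.inl) = (MHD.cent H).of.comp π := by
    ext y
    simp [centMark]
  exact DFunLike.congr_fun this w

theorem centMark_inr (i : I) : centMark H π (.of (.inr i)) = (MHD.cent H).t (i, true) := by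
  simp [centMark]

theorem centMark_surjective (h : Surjective π) : Surjective (centMark H π) := by
  rw [← MonoidHom.range_eq_top, eq_top_iff, ← (MHD.cent H).closure_eq_top, Subgroup.closure_le]
  rintro _ (⟨a, rfl⟩ | ⟨⟨i, _ | _⟩, rfl⟩)
  · obtain ⟨w, rfl⟩ := h a
    exact ⟨_, centMark_inl H π w⟩
  · refine ⟨(FreeGroup.of (.inr i))⁻¹, ?_⟩
    rw [map_inv, centMark_inr]
    exact ((MHD.cent H).t_bar (i, true)).symm
  · exact ⟨_, centMark_inr H π i⟩

theorem cent_comm (i : I) {h : M} (hh : h ∈ H i) :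
    Commute ((MHD.cent H).t (i, true)) ((MHD.cent H).of h) := by
  exact ((MHD.cent H).of_mul_t (i, true) hh).symm

/-- words of the base group represent themselves -/
def centRep : RepSys (MHD.cent H) (centMark H π) where
  Rp := FreeGroup Y
  val := π
  wd := FreeGroup.map Sum.inl
  sz := FreeGroup.norm
  tw e := if e.2 then .of (.inr e.1) else (FreeGroup.of (.inr e.1))⁻¹
  π_wd := centMark_inl H π
  π_tw := by
    rintro ⟨i, _ | _⟩
    · have : ((MHD.cent H).t (i, true))⁻¹ = (MHD.cent H).t (i, false) :=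
        ((MHD.cent H).t_bar (i, true)).symm
      simpa [centMark_inr] using this
    · simp [centMark_inr]
  tw_le := by rintro ⟨i, _ | _⟩ <;> simp

variable {H π}

/-- `θ` knows that `tᵢ` commutes with the short words in `H i` -/
def LT.KC (θ : LT (Y ⊕ I)) (H : I → Subgroup M) (π : FreeGroup Y →* M) (m : ℕ) : Prop :=
  ∀ i (w : FreeGroup Y), w.norm ≤ m → π w ∈ H i →
    θ.E (FreeGroup.map Sum.inl w * .of (.inr i)) (.of (.inr i) * FreeGroup.map Sum.inl w)

theorem LT.Closed.cent_rep {θ : LT (Y ⊕ I)} (h : θ.Closed L) {m : ℕ}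
    (hL : 8 * (m + 1) * (m + 1) ≤ L) (hc : θ.KC H π m) (w : FreeGroup (Y ⊕ I)) (hw : w.norm ≤ m) :
    ∃ r l, (MHD.cent H).Red ((centRep H π).vl l) ∧ (centRep H π).szl r l ≤ w.norm ∧
      θ.E w ((centRep H π).wl r l) := by
  refine (centRep H π).rep h hL (fun r hr => (norm_map_le _ r).trans hr)
    ⟨(1 : FreeGroup Y), FreeGroup.norm_one (α := Y), map_one (FreeGroup.map Sum.inl)⟩ ?_ ?_ ?_ w hw
  · rintro ⟨y | i, b⟩
    · exact Or.inl ⟨FreeGroup.mk [(y, b)], FreeGroup.norm_mk_le, h.of_eq rfl⟩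
    · refine Or.inr ⟨(i, b), ?_⟩
      cases b
      · simp [centRep, FreeGroup.of, FreeGroup.invRev]
      · rfl
  · intro (r : FreeGroup Y) (r' : FreeGroup Y) _
    exact ⟨r * r', nmul r r', h.of_eq (map_mul (FreeGroup.map Sum.inl) r r').symm⟩
  · rintro ⟨i, b⟩ r hH hr
    have hr' : FreeGroup.norm (α := Y) r + 2 ≤ m := hr
    have e := hc i r (by omega) hH
    have n1 : (FreeGroup.map (Sum.inl : Y → Y ⊕ I) r).norm ≤ FreeGroup.norm (α := Y) r :=
      norm_map_le _ r
    have n2 : (FreeGroup.of (Sum.inr i : Y ⊕ I)).norm = 1 := FreeGroup.norm_of _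
    have n3 := nmul (FreeGroup.map (Sum.inl : Y → Y ⊕ I) r) (FreeGroup.of (Sum.inr i))
    have n4 := nmul (FreeGroup.of (Sum.inr i)) (FreeGroup.map (Sum.inl : Y → Y ⊕ I) r)
    have hmL : 2 * m ≤ L := by nlinarith [Nat.zero_le (m * m)]
    refine ⟨r, Nat.le_add_right _ _, ?_⟩
    cases b
    · have := (h.symm hmL (by omega) (by omega) e).mul_right (FreeGroup.of (Sum.inr i))⁻¹
      rw [mul_inv_cancel_right] at this
      exact this
    · have := h.mul_left (g := (FreeGroup.of (Sum.inr i))⁻¹) hmL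
        (by rw [FreeGroup.norm_inv_eq]; omega) (by omega) (by omega) e
      rw [inv_mul_cancel_left, ← mul_assoc] at this
      exact this

/-- a short word with value in the base group is equivalent to a short word of the base group
(pass to `θ.sound (centMark H π)` first) -/
theorem LT.Closed.cent_base {θ : LT (Y ⊕ I)} (h : θ.Closed L) {m : ℕ}
    (hL : 8 * (m + 1) * (m + 1) ≤ L) (hc : θ.KC H π m) (w : FreeGroup (Y ⊕ I)) (hw : w.norm ≤ m)
    {x : M} (hx : centMark H π w = (MHD.cent H).of x) :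
    ∃ w₀ : FreeGroup Y, w₀.norm ≤ w.norm ∧ π w₀ = x ∧ θ.E w (FreeGroup.map Sum.inl w₀) := by
  have hc' : (θ.sound (centMark H π)).KC H π m := fun i u hu hH => ⟨hc i u hu hH, by
    rw [map_mul, map_inv, map_mul, map_mul, centMark_inl, centMark_inr, mul_inv_eq_one]
    exact (cent_comm H i hH).symm⟩
  obtain ⟨r, l, hr, hs, e⟩ := (h.sound (centMark H π)).cent_rep hL hc' w hw
  have e1 : centMark H π w = centMark H π ((centRep H π).wl r l) :=
    LT.E.eq (θ := θ.sound (centMark H π)) (fun _ hw => hw.2) e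
  rw [hx, RepSys.π_wl] at e1
  obtain ⟨hl, hv⟩ := MHD.eq_nil_of_ev_eq hr e1.symm
  obtain rfl : l = [] := List.map_eq_nil_iff.1 hl
  rw [RepSys.szl_nil] at hs
  rw [RepSys.wl_nil] at e
  exact ⟨r, hs, hv, e.1⟩

theorem LT.Closed.cent_KT {θ : LT (Y ⊕ I)} (h : θ.Closed L) {m : ℕ}
    (hL : 8 * (m + 1) * (m + 1) ≤ L) (hc : θ.KC H π m)
    (hT : (θ.comap (FreeGroup.map Sum.inl)).KT π m) : θ.KT (centMark H π) m := by
  intro w hw h1
  obtain ⟨w₀, n0, h0, e⟩ := h.cent_base hL hc w hw (x := 1) (by rw [h1, map_one])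
  have hmL : 2 * m ≤ L := by nlinarith [Nat.zero_le (m * m)]
  exact h.memT hmL hw ((norm_map_le _ w₀).trans (n0.trans hw)) e (hT w₀ (n0.trans hw) h0)

end Cent

/-! ### locality bounds the distortion -/

theorem exists_ball_finset [Fintype Y] (L : ℕ) : ∃ S : Finset (FreeGroup Y),
    S.card ≤ (2 * Fintype.card Y + 1) ^ L ∧ ∀ w : FreeGroup Y, w.norm ≤ L → w ∈ S := by
  classical
  have key : ∃ S : Finset (FreeGroup Y), S.card ≤ (2 * Fintype.card Y + 1) ^ L ∧
      ∀ l : List (Y × Bool), l.length ≤ L → FreeGroup.mk l ∈ S := by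
    induction L with
    | zero =>
      refine ⟨{1}, by simp, fun l hl => ?_⟩
      rw [List.length_eq_zero_iff.1 (Nat.le_zero.1 hl)]
      simp [← FreeGroup.one_eq_mk]
    | succ L ih =>
      obtain ⟨S, hS, hmem⟩ := ih
      refine ⟨((Finset.univ : Finset (Option (Y × Bool))) ×ˢ S).image fun x =>
        FreeGroup.mk x.1.toList * x.2, Finset.card_image_le.trans ?_, fun l hl => ?_⟩
      · rw [Finset.card_product, Finset.card_univ, Fintype.card_option, Fintype.card_prod,
          Fintype.card_bool, pow_succ', mul_comm (Fintype.card Y) 2]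
        exact Nat.mul_le_mul_left _ hS
      · rw [Finset.mem_image]
        cases l with
        | nil => exact ⟨(none, .mk []), by simpa using hmem [] (by simp), by simp⟩
        | cons x l =>
          exact ⟨(some x, .mk l), by simpa using hmem l (by simpa using hl), by simp⟩
  obtain ⟨S, hS, hmem⟩ := key
  refine ⟨S, hS, fun w hw => ?_⟩
  have := hmem w.toWord hw
  rwa [FreeGroup.mk_toWord] at this

/-- `M_j = {w | ∃ z, ‖z‖ ≤ B * 2 ^ j, π (a z) = π w}` increases; its trace on the ball of radius `L`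
(at most `(2 |Y| + 1) ^ L` elements) is the same for some `j`, `j + 1`; then `(ker π, M_{j+1})` is
closed at scale `L`. -/
theorem witness [Fintype Y] {G : Type} [Group G] (π : FreeGroup Y →* G) (H : Subgroup G)
    (a : FreeGroup Z →* FreeGroup Y) (B L m : ℕ)
    (hloc : ∀ θ : LT Y, θ.Closed L → (∀ w, π w = 1 → w ∈ θ.T) →
      (∀ w, (∃ z : FreeGroup Z, z.norm ≤ B ∧ π (a z) = π w) → w ∈ θ.M) → θ.KM π H m)
    (w : FreeGroup Y) (hw : w.norm ≤ m) (hH : π w ∈ H) :
    ∃ z : FreeGroup Z, z.norm ≤ B * 2 ^ ((2 * Fintype.card Y + 1) ^ L + 1) ∧ π (a z) = π w := by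
  classical
  obtain ⟨S, hS, hmem⟩ := exists_ball_finset (Y := Y) L
  set N := (2 * Fintype.card Y + 1) ^ L with hN
  let Mj : ℕ → Set (FreeGroup Y) := fun j => {w | ∃ z : FreeGroup Z, z.norm ≤ B * 2 ^ j ∧
    π (a z) = π w}
  have hmono : ∀ {i j : ℕ}, i ≤ j → Mj i ⊆ Mj j := fun hij w ⟨z, hz, e⟩ =>
    ⟨z, hz.trans (Nat.mul_le_mul_left _ (Nat.pow_le_pow_right two_pos hij)), e⟩
  obtain ⟨j, hj, hst⟩ : ∃ j ≤ N, ∀ w ∈ S, w ∈ Mj (j + 1) → w ∈ Mj j := by
    by_contra hcon
    push Not at hcon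
    have key : ∀ j ≤ N + 1, j ≤ (S.filter (· ∈ Mj j)).card := by
      intro j
      induction j with
      | zero => intro _; exact Nat.zero_le _
      | succ j ih =>
        intro hj
        obtain ⟨w, hwS, h1, h2⟩ := hcon j (by omega)
        refine Nat.succ_le_of_lt (lt_of_le_of_lt (ih (by omega)) (Finset.card_lt_card ?_))
        refine (Finset.ssubset_iff_of_subset fun x hx => ?_).2 ⟨w, ?_, ?_⟩
        · rw [Finset.mem_filter] at hx ⊢
          exact ⟨hx.1, hmono (Nat.le_succ j) hx.2⟩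
        · exact Finset.mem_filter.2 ⟨hwS, h1⟩
        · exact fun hx => h2 (Finset.mem_filter.1 hx).2
    have := (key (N + 1) le_rfl).trans ((Finset.card_filter_le _ _).trans hS)
    omega
  have hc : (⟨{w | π w = 1}, Mj (j + 1)⟩ : LT Y).Closed L :=
    { one := map_one π
      mul := fun x y _ _ hx hy => by
        change π (x * y) = 1
        rw [map_mul, show π x = 1 from hx, show π y = 1 from hy, one_mul]
      inv := fun x _ hx => by
        change π x⁻¹ = 1
        rw [map_inv, show π x = 1 from hx, inv_one]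
      conj := fun g x _ _ hx => by
        change π (g * x * g⁻¹) = 1
        simp [show π x = 1 from hx]
      sub := fun x _ hx => ⟨1, by simp, by rw [map_one, map_one, show π x = 1 from hx]⟩
      mulM := fun x y hx hy h1 h2 => by
        obtain ⟨z, hz, e⟩ := hst x (hmem x hx) h1
        obtain ⟨z', hz', e'⟩ := hst y (hmem y hy) h2
        refine ⟨z * z', (nmul _ _).trans ?_, by rw [map_mul, map_mul, map_mul, e, e']⟩
        rw [pow_succ, ← mul_assoc]; omega
      invM := fun x _ ⟨z, hz, e⟩ =>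
        ⟨z⁻¹, by rwa [FreeGroup.norm_inv_eq], by rw [map_inv, map_inv, map_inv, e]⟩ }
  refine hmono (show j + 1 ≤ N + 1 by omega) (hloc _ hc (fun w hw => hw) ?_ w hw hH)
  rintro w ⟨z, hz, e⟩
  exact hmono (Nat.zero_le _) ⟨z, by simpa using hz, e⟩

end Crest.Agent.R185
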