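import Crest.Agent.R185.CRep

/-!
# Row 185, core: the stretch `y ↦ c_{y,0} ⋯ c_{y,s-1}`
-/

set_option autoImplicit false
set_option linter.unusedSectionVars false

namespace Crest.Agent.R185

open Function

variable {Y : Type} [DecidableEq Y]

/-- the stretch -/
def mu (Y : Type) (s : ℕ) : FreeGroup Y →* FreeGroup (Y × Fin s) :=
  FreeGroup.lift fun y => ((List.finRange s).map fun i => FreeGroup.of (y, i)).prod

/-- keep the letters with index `i` -/
def muInv (Y : Type) {s : ℕ} (i : Fin s) : FreeGroup (Y × Fin s) →* FreeGroup Y :=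
  FreeGroup.lift fun x => if x.2 = i then FreeGroup.of x.1 else 1

/-- `c_{y,0} ⋯ c_{y,k-1}` -/
def csPre (s : ℕ) (y : Y) (k : ℕ) : FreeGroup (Y × Fin s) :=
  (((List.finRange s).take k).map fun i => FreeGroup.of (y, i)).prod

theorem csPre_zero (s : ℕ) (y : Y) : csPre s y 0 = 1 := by simp [csPre]

theorem csPre_succ {s k : ℕ} (y : Y) (hk : k < s) :
    csPre s y (k + 1) = csPre s y k * FreeGroup.of (y, ⟨k, hk⟩) := by
  unfold csPre
  rw [List.take_succ_eq_append_getElem (by simpa using hk), List.map_append, List.prod_append]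
  simp

theorem csPre_self (s : ℕ) (y : Y) : csPre s y s = mu Y s (.of y) := by
  simp [csPre, mu, List.take_of_length_le]

theorem csPre_norm (s : ℕ) (y : Y) (k : ℕ) : (csPre s y k).norm ≤ s := by
  refine (norm_prod_le (B := 1) _ fun a ha => ?_).trans (by simp)
  obtain ⟨i, -, rfl⟩ := List.mem_map.1 ha
  simp

theorem muInv_csPre {s : ℕ} (i : Fin s) (y : Y) {k : ℕ} (hk : k ≤ s) :
    muInv Y i (csPre s y k) = if i.1 < k then .of y else 1 := by
  induction k with
  | zero => simp [csPre_zero]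
  | succ k ih =>
    rw [csPre_succ y (show k < s by omega), map_mul, ih (by omega)]
    simp only [muInv, FreeGroup.lift_apply_of, Fin.ext_iff]
    split_ifs <;> first | omega | simp

theorem muInv_mu {s : ℕ} (i : Fin s) (w : FreeGroup Y) : muInv Y i (mu Y s w) = w := by
  refine DFunLike.congr_fun (show (muInv Y i).comp (mu Y s) = MonoidHom.id _ from
    FreeGroup.ext_hom _ _ fun y => ?_) w
  rw [MonoidHom.comp_apply, ← csPre_self, muInv_csPre i y le_rfl, if_pos i.2]
  rfl

theorem sum_norm_muInv {s : ℕ} (w : FreeGroup (Y × Fin s)) :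
    ∑ i : Fin s, (muInv Y i w).norm ≤ w.norm := by
  have key : ∀ l : List ((Y × Fin s) × Bool),
      ∑ i : Fin s, (muInv Y i (.mk l)).norm ≤ l.length := by
    intro l
    induction l with
    | nil => simp [← FreeGroup.one_eq_mk]
    | cons x l ih =>
      have h0 : ∀ (z : Y × Fin s) (i : Fin s),
          (muInv Y i (.of z)).norm = if z.2 = i then 1 else 0 := by
        intro z i
        simp only [muInv, FreeGroup.lift_apply_of]
        split_ifs <;> simp
      have h1 : ∀ i, (muInv Y i (.mk [x])).norm = if x.1.2 = i then 1 else 0 := by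
        intro i
        obtain ⟨z, _ | _⟩ := x
        · rw [mk_false, map_inv, FreeGroup.norm_inv_eq, h0]
        · exact h0 z i
      have h2 : ∑ i : Fin s, (muInv Y i (.mk [x])).norm = 1 := by simp [h1]
      rw [show x :: l = [x] ++ l from rfl, ← FreeGroup.mul_mk]
      calc ∑ i : Fin s, (muInv Y i (.mk [x] * .mk l)).norm
          ≤ ∑ i : Fin s, ((muInv Y i (.mk [x])).norm + (muInv Y i (.mk l)).norm) :=
            Finset.sum_le_sum fun i _ => by rw [map_mul]; exact nmul _ _
        _ ≤ _ := by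
            rw [Finset.sum_add_distrib, h2, List.length_append, List.length_singleton]
            omega
  have := key w.toWord
  rwa [FreeGroup.mk_toWord] at this

theorem lip_mu (s : ℕ) : Lip (mu Y s) s := by
  intro y
  rw [← csPre_self]
  exact csPre_norm s y s

theorem mu_injective {s : ℕ} (hs : 0 < s) : Injective (mu Y s) :=
  LeftInverse.injective (muInv_mu ⟨0, hs⟩)

section Blocks

variable {s : ℕ} {K : Type} [Group K]

/-- types -/
abbrev csTp (Y : Type) (s : ℕ) : Type := Option (Y × {i : ℕ // 0 < i ∧ i < s})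

/-- the type of the position `i` in `μ y` -/
def csT (s : ℕ) (y : Y) (i : ℕ) : csTp Y s := if h : 0 < i ∧ i < s then some (y, ⟨i, h⟩) else none

/-- the word of a type -/
def csP : csTp Y s → FreeGroup (Y × Fin s)
  | none => 1
  | some x => csPre s x.1 x.2.1

/-- the free product -/
abbrev csD (Y : Type) (s : ℕ) (K : Type) [Group K] : MHD K (csTp Y s × Bool) :=
  MHD.cent fun _ : csTp Y s => (⊥ : Subgroup K)

/-- blocks -/
abbrev csB (Y : Type) (s : ℕ) : Type := csTp Y s × FreeGroup Y × csTp Y s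

/-- the word of a block -/
def csW (b : csB Y s) : FreeGroup (Y × Fin s) := (csP b.1)⁻¹ * mu Y s b.2.1 * csP b.2.2

/-- the value of a block -/
def csV (π : FreeGroup Y →* K) (b : csB Y s) : (csD Y s K).G :=
  ((csD Y s K).t (b.1, true))⁻¹ * (csD Y s K).of (π b.2.1) * (csD Y s K).t (b.2.2, true)

/-- the block of a letter -/
def csL (x : Y × Fin s) : csB Y s :=
  (csT s x.1 x.2, if x.2.1 + 1 = s then .of x.1 else 1, csT s x.1 (x.2 + 1))

/-- the marking -/
def csM (s : ℕ) (π : FreeGroup Y →* K) : FreeGroup (Y × Fin s) →* (csD Y s K).G :=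
  FreeGroup.lift fun x => csV π (csL x)

/-- the embedding -/
def csJ (Y : Type) (s : ℕ) (K : Type) [Group K] : K →* (csD Y s K).G :=
  (MulAut.conj ((csD Y s K).t (none, true))⁻¹).toMonoidHom.comp (csD Y s K).of

theorem csJ_apply (k : K) : csJ Y s K k =
    ((csD Y s K).t (none, true))⁻¹ * (csD Y s K).of k * (csD Y s K).t (none, true) := by
  simp [csJ]

theorem csP_norm (τ : csTp Y s) : (csP τ).norm ≤ s := by
  cases τ with
  | none => simp [csP]
  | some x => exact csPre_norm _ _ _

theorem muInv_csP (i : Fin s) (τ : csTp Y s) : (muInv Y i (csP τ)).norm ≤ 1 := by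
  cases τ with
  | none => simp [csP]
  | some x =>
    rw [csP, muInv_csPre i x.1 x.2.2.2.le]
    split_ifs <;> simp

theorem csPre_eq (hs : 0 < s) (y : Y) {k : ℕ} (hk : k ≤ s) :
    csPre s y k = mu Y s (if k = s then .of y else 1) * csP (csT s y k) := by
  unfold csT
  by_cases h : 0 < k ∧ k < s
  · rw [dif_pos h, if_neg (by omega), map_one, one_mul, csP]
  · rw [dif_neg h, csP, mul_one]
    by_cases h' : k = s
    · rw [if_pos h', h', csPre_self]
    · obtain rfl : k = 0 := by omega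
      rw [if_neg h', map_one, csPre_zero]

theorem csW_csL (x : Y × Fin s) : csW (csL x) = .of x := by
  obtain ⟨y, i, hi⟩ := x
  have h1 := csPre_eq (Nat.zero_lt_of_lt hi) y hi.le
  have h2 := csPre_eq (Nat.zero_lt_of_lt hi) y (k := i + 1) hi
  rw [if_neg hi.ne, map_one, one_mul] at h1
  simp only [csW, csL]
  rw [mul_assoc, ← h1, ← h2, csPre_succ y hi, inv_mul_cancel_left]

theorem csM_csPre (hs : 0 < s) (π : FreeGroup Y →* K) (y : Y) {k : ℕ} (hk : k ≤ s) :
    csM s π (csPre s y k) = csV π (none, if k = s then .of y else 1, csT s y k) := by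
  induction k with
  | zero => simp [csPre_zero, csV, csT, hs.ne]
  | succ k ih =>
    have hk' : k < s := hk
    rw [csPre_succ y hk', map_mul, ih hk'.le, if_neg hk'.ne]
    simp [csM, csV, csL, mul_assoc]

theorem csM_mu (hs : 0 < s) (π : FreeGroup Y →* K) (w : FreeGroup Y) :
    csM s π (mu Y s w) = csJ Y s K (π w) := by
  refine DFunLike.congr_fun (show (csM s π).comp (mu Y s) = (csJ Y s K).comp π from
    FreeGroup.ext_hom _ _ fun y => ?_) w
  rw [MonoidHom.comp_apply, ← csPre_self, csM_csPre hs π y le_rfl, MonoidHom.comp_apply, csJ_apply]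
  simp [csV, csT]

theorem csM_csP (hs : 0 < s) (π : FreeGroup Y →* K) (τ : csTp Y s) :
    csM s π (csP τ) = ((csD Y s K).t (none, true))⁻¹ * (csD Y s K).t (τ, true) := by
  cases τ with
  | none => simp [csP]
  | some x =>
    obtain ⟨y, i, hi⟩ := x
    rw [csP, csM_csPre hs π y hi.2.le, if_neg hi.2.ne]
    simp [csV, csT, hi]

theorem csM_csW (hs : 0 < s) (π : FreeGroup Y →* K) (b : csB Y s) : csM s π (csW b) = csV π b := by
  rw [csW, map_mul, map_mul, map_inv, csM_csP hs, csM_csP hs, csM_mu hs, csJ_apply, csV]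
  group

/-- closed blocks -/
def csC (π : FreeGroup Y →* K) (b : csB Y s) : Prop := b.1 = b.2.2 ∧ π b.2.1 = 1

/-- normal forms -/
def csN (π : FreeGroup Y →* K) (l : List (csB Y s)) : Prop :=
  (l.IsChain fun a b => a.2.2 ≠ b.1) ∧ ∀ b ∈ l, ¬csC π b

theorem csN.tail {π : FreeGroup Y →* K} {b : csB Y s} {l : List (csB Y s)} (h : csN π (b :: l)) :
    csN π l := ⟨h.1.tail, fun a ha => h.2 a (List.mem_cons_of_mem _ ha)⟩

theorem exists_best (hs : 0 < s) (w : FreeGroup (Y × Fin s)) :
    ∃ i : Fin s, (muInv Y i w).norm * s ≤ w.norm := by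
  obtain ⟨i, -, hi⟩ := Finset.exists_min_image Finset.univ (fun i : Fin s => (muInv Y i w).norm)
    ⟨⟨0, hs⟩, Finset.mem_univ _⟩
  refine ⟨i, le_trans ?_ (sum_norm_muInv w)⟩
  have := Finset.card_nsmul_le_sum Finset.univ _ _ hi
  simpa [mul_comm] using this

theorem csC_mem (hs : 0 < s) {π : FreeGroup Y →* K} {θ : LT (Y × Fin s)} {L m : ℕ}
    (h : θ.Closed L) (hL : m + 2 * s ≤ L) (hT : (θ.comap (mu Y s)).KT π (m / s)) {b : csB Y s}
    (hb : csC π b) (hm : (csW b).norm ≤ m) : csW b ∈ θ.T := by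
  obtain ⟨τ, z, τ'⟩ := b
  obtain ⟨h1, h2⟩ := hb
  dsimp only at h1 h2
  subst h1
  obtain ⟨i, hi⟩ := exists_best hs (csW (τ, z, τ))
  have e : muInv Y i (csW (τ, z, τ)) = (muInv Y i (csP τ))⁻¹ * z * muInv Y i (csP τ) := by
    simp [csW, muInv_mu]
  have n1 := muInv_csP i τ
  have n2 := csP_norm τ
  have h3 : mu Y s (muInv Y i (csW (τ, z, τ))) ∈ θ.T :=
    hT _ ((Nat.le_div_iff_mul_le hs).2 (hi.trans hm)) (by rw [e]; simp [h2])
  have n3 := (lip_mu (Y := Y) s).norm_le (muInv Y i (csW (τ, z, τ)))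
  have n4 := (lip_mu (Y := Y) s).norm_le (muInv Y i (csP τ))
  have n5 := nmul (csP τ)⁻¹ (mu Y s (muInv Y i (csP τ)))
  rw [FreeGroup.norm_inv_eq] at n5
  have n6 : s * (muInv Y i (csP τ)).norm ≤ s := by nlinarith
  have h4 := h.conj ((csP τ)⁻¹ * mu Y s (muInv Y i (csP τ))) _ (by omega)
    (by rw [mul_comm] at n3; omega) h3
  rw [e] at h4
  simpa [csW, mul_assoc] using h4

theorem cs_push {π : FreeGroup Y →* K} {θ : LT (Y × Fin s)} {L m : ℕ} (h : θ.Closed L)
    (hC : ∀ b : csB Y s, csC π b → (csW b).norm ≤ m → csW b ∈ θ.T) (b : csB Y s)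
    (l : List (csB Y s)) (hl : csN π l)
    (hm : (csW b).norm + (l.map fun a => (csW a).norm).sum ≤ m) :
    ∃ l', csN π l' ∧
      (l'.map fun a => (csW a).norm).sum ≤ (csW b).norm + (l.map fun a => (csW a).norm).sum ∧
      θ.E (csW b * (l.map csW).prod) (l'.map csW).prod := by
  have drop : ∀ (b : csB Y s) (u : FreeGroup (Y × Fin s)), csC π b → (csW b).norm ≤ m →
      θ.E (csW b * u) u := fun b u hb hn => by
    simpa using (LT.E_one.2 (hC b hb hn)).mul_right u
  by_cases hb : csC π b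
  · exact ⟨l, hl, Nat.le_add_left _ _, drop b _ hb (by omega)⟩
  cases l with
  | nil => exact ⟨[b], ⟨List.isChain_singleton _, by simpa using hb⟩, by simp, h.refl _⟩
  | cons a l =>
    by_cases hab : b.2.2 = a.1
    · have e : csW (b.1, b.2.1 * a.2.1, a.2.2) = csW b * csW a := by
        simp [csW, hab, mul_assoc]
      have n1 : (csW (b.1, b.2.1 * a.2.1, a.2.2)).norm ≤ (csW b).norm + (csW a).norm :=
        e ▸ nmul _ _
      simp only [List.map_cons, List.sum_cons, List.prod_cons] at hm ⊢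
      rw [← mul_assoc, ← e]
      by_cases hc : csC π (b.1, b.2.1 * a.2.1, a.2.2)
      · exact ⟨l, hl.tail, by omega, drop _ _ hc (by omega)⟩
      · refine ⟨(b.1, b.2.1 * a.2.1, a.2.2) :: l, ⟨?_, ?_⟩, ?_, h.refl _⟩
        · cases l with
          | nil => exact List.isChain_singleton _
          | cons c l => exact List.IsChain.cons_cons (List.isChain_cons_cons.1 hl.1).1 hl.1.tail
        · intro c hc'
          rcases List.mem_cons.1 hc' with rfl | hc'
          · exact hc
          · exact hl.tail.2 c hc'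
        · simp only [List.map_cons, List.sum_cons]
          omega
    · refine ⟨b :: a :: l, ⟨List.IsChain.cons_cons hab hl.1, ?_⟩, by simp, h.refl _⟩
      intro c hc'
      rcases List.mem_cons.1 hc' with rfl | hc'
      · exact hb
      · exact hl.2 c hc'

theorem cs_norm_le (l : List (csB Y s)) :
    (l.map csW).prod.norm ≤ (l.map fun a => (csW a).norm).sum := by
  induction l with
  | nil => simp
  | cons a l ih =>
    simp only [List.map_cons, List.sum_cons, List.prod_cons]
    exact (nmul _ _).trans (by omega)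

theorem cs_nf {π : FreeGroup Y →* K} {θ : LT (Y × Fin s)} {L m : ℕ} (h : θ.Closed L)
    (hL : 2 * m ≤ L) (hC : ∀ b : csB Y s, csC π b → (csW b).norm ≤ m → csW b ∈ θ.T)
    (w : FreeGroup (Y × Fin s)) (hw : w.norm ≤ m) :
    ∃ l, csN π l ∧ (l.map fun a => (csW a).norm).sum ≤ m ∧ θ.E w (l.map csW).prod := by
  have key : ∀ xs : List ((Y × Fin s) × Bool), xs.length ≤ m →
      ∃ l, csN π l ∧ (l.map fun a => (csW a).norm).sum ≤ xs.length ∧
        θ.E (.mk xs) (l.map csW).prod := by
    intro xs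
    induction xs with
    | nil => exact fun _ => ⟨[], ⟨List.isChain_nil, by simp⟩, by simp, h.refl _⟩
    | cons x xs ih =>
      intro hx
      rw [List.length_cons] at hx
      obtain ⟨l, h1, h2, e⟩ := ih (by omega)
      obtain ⟨b, hb⟩ : ∃ b : csB Y s, csW b = .mk [x] := by
        obtain ⟨z, _ | _⟩ := x
        · refine ⟨((csL z).2.2, (csL z).2.1⁻¹, (csL z).1), ?_⟩
          rw [mk_false, ← csW_csL]
          simp [csW, mul_assoc]
        · exact ⟨csL z, csW_csL z⟩
      have n0 : (FreeGroup.mk xs).norm ≤ xs.length := FreeGroup.norm_mk_le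
      have n1 : (csW b).norm ≤ 1 := hb ▸ FreeGroup.norm_mk_le
      obtain ⟨l', h3, h4, e'⟩ := cs_push h hC b l h1 (by omega)
      have n2 := cs_norm_le l
      have n3 := cs_norm_le l'
      refine ⟨l', h3, by rw [List.length_cons]; omega, ?_⟩
      rw [show x :: xs = [x] ++ xs from rfl, ← FreeGroup.mul_mk, ← hb]
      exact h.trans hL ((nmul _ _).trans (by omega)) ((nmul _ _).trans (by omega)) (by omega)
        (h.mul_left hL (by omega) (by omega) (by omega) e) e'
  obtain ⟨l, h1, h2, e⟩ := key w.toWord hw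
  rw [FreeGroup.mk_toWord] at e
  exact ⟨l, h1, h2.trans hw, e⟩

/-- the reduced list of a normal form -/
def csR (π : FreeGroup Y →* K) : List (csB Y s) → List ((csTp Y s × Bool) × K)
  | [] => []
  | b :: l => ((b.1, false), π b.2.1) :: ((b.2.2, true), 1) :: csR π l

theorem cs_t_false (τ : csTp Y s) : (csD Y s K).t (τ, false) = ((csD Y s K).t (τ, true))⁻¹ :=
  (csD Y s K).t_bar (τ, true)

theorem csR_ev (hs : 0 < s) (π : FreeGroup Y →* K) (l : List (csB Y s)) :
    csM s π (l.map csW).prod = (csD Y s K).ev 1 (csR π l) := by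
  induction l with
  | nil => simp [csR]
  | cons b l ih =>
    rw [List.map_cons, List.prod_cons, map_mul, ih, csM_csW hs, csR, MHD.ev_cons, MHD.ev_cons,
      cs_t_false, csV]
    simp [mul_assoc]

theorem csR_red {π : FreeGroup Y →* K} {l : List (csB Y s)} (hl : csN π l) :
    (csD Y s K).Red (csR π l) := by
  induction l with
  | nil => exact MHD.red_nil
  | cons b l ih =>
    refine List.IsChain.cons_cons ?_ ?_
    · rintro ⟨h1, h2⟩
      exact hl.2 b List.mem_cons_self ⟨(congrArg Prod.fst h1).symm, Subgroup.mem_bot.1 h2⟩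
    · cases l with
      | nil => exact List.isChain_singleton _
      | cons c l =>
        refine List.IsChain.cons_cons ?_ (ih hl.tail)
        rintro ⟨h1, -⟩
        exact (List.isChain_cons_cons.1 hl.1).1 (congrArg Prod.fst h1).symm

theorem csR_nil {π : FreeGroup Y →* K} {l : List (csB Y s)} (h : csR π l = []) : l = [] := by
  cases l with
  | nil => rfl
  | cons b l => simp [csR] at h

end Blocks

/-- **Task CS.**  Types `Tp = Option (Y × ℕ)`-like: `tp y 0 = tp y s = ⋆`, `tp y i = (y, i)` for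
`0 < i < s`.  `Q = (MHD.cent fun _ : Tp => ⊥).G = K * F(p_τ)` (including a letter `p_⋆`),
`π' c_{y,i} = p_{tp y i}⁻¹ · [π y if i = s - 1] · p_{tp y (i+1)}`, `j k = p_⋆⁻¹ k p_⋆`.
In `F(Y × Fin s)` put `P_τ = c_{y,0} ⋯ c_{y,i-1}` for `τ = (y, i)`, `P_⋆ = 1`.  A *block* is a word
`b = P_τ⁻¹ μ(z) P_τ'` (equality in the free group), with value `p_τ⁻¹ π(z) p_τ'`; every letter is a
block, and a product of two blocks with matching types is a block.  By induction on `w.toWord`
every `w` of norm `≤ m` is `≈` to a product of blocks `b₁ ⋯ b_n`, `∑ ‖bᵢ‖ ≤ ‖w‖`, consecutive types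
different, no block closed (`τ = τ'` and `π z = 1`): a closed block is in `θ.T`, because for the
best `i` (`sum_norm_muInv`) `z' = muInv i b` has `s ‖z'‖ ≤ ‖b‖`, `z' = g⁻¹ z g`,
`g = muInv i P_τ`, `b = q⁻¹ μ(z') q`, `q = μ(g)⁻¹ P_τ`, `‖q‖ ≤ 2 s`.  The value of such a product
is `ev 1` of the REDUCED list `(p_τ₁⁻¹, π z₁), (p_τ₁', 1), (p_τ₂⁻¹, π z₂), …`; it is `1` only for
`n = 0`, and equal to `p_⋆⁻¹ a p_⋆` only for `n = 0` or (`sl_of_ev_eq`, `eq_of_sl_bot`, `a ≠ 1`)
`n = 1`, `τ = τ' = ⋆`, `π z = a`, `b = μ z`, `s ‖z‖ ≤ ‖b‖`. -/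
theorem exists_Slayer {s : ℕ} (hs : 0 < s) {K : Type} [Group K] (π : FreeGroup Y →* K) :
    ∃ (Q : Type) (_ : Group Q) (π' : FreeGroup (Y × Fin s) →* Q) (j : K →* Q),
      Injective j ∧ (∀ w, π' (mu Y s w) = j (π w)) ∧
      ∀ (θ : LT (Y × Fin s)) (L m : ℕ), θ.Closed L → 16 * (m + s + 1) ≤ L →
        (θ.comap (mu Y s)).KT π (m / s) → θ.KT π' m ∧
          ∀ A : Subgroup K, (θ.comap (mu Y s)).KM π A (m / s) → θ.KM π' (A.map j) m := by
  refine ⟨(csD Y s K).G, inferInstance, csM s π, csJ Y s K,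
    (MulAut.conj _).injective.comp (MHD.of_injective _), csM_mu hs π, fun θ L m h hL hT => ?_⟩
  have nf : ∀ w : FreeGroup (Y × Fin s), w.norm ≤ m → ∃ l : List (csB Y s), csN π l ∧
      (l.map fun a => (csW a).norm).sum ≤ m ∧ θ.E w (l.map csW).prod ∧
      csM s π w = (csD Y s K).ev 1 (csR π l) := by
    intro w hw
    obtain ⟨l, h1, h2, e⟩ := cs_nf (π := π) (h.sound (csM s π)) (m := m) (by omega)
      (fun b hb hn => ⟨csC_mem hs h (by omega) hT hb hn, by
        rw [csM_csW hs, csV, hb.1, hb.2]; simp⟩) w hw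
    refine ⟨l, h1, h2, e.1, ?_⟩
    rw [← csR_ev hs]
    exact LT.E.eq (θ := θ.sound (csM s π)) (fun _ hw => hw.2) e
  have kt : θ.KT (csM s π) m := by
    intro w hw h1
    obtain ⟨l, h2, -, e, h3⟩ := nf w hw
    rw [h1, ← map_one (csD Y s K).of] at h3
    obtain rfl := csR_nil (MHD.eq_nil_of_ev_eq (csR_red h2) h3.symm).1
    exact LT.E_one.1 e
  refine ⟨kt, fun A hA w hw h1 => ?_⟩
  obtain ⟨a, ha, h1⟩ := h1
  by_cases ha1 : a = 1
  · exact h.sub w (by omega) (kt w hw (by rw [← h1, ha1, map_one]))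
  obtain ⟨l, h2, h4, e, h3⟩ := nf w hw
  have hr : (csD Y s K).Red [((none, false), a), ((none, true), 1)] :=
    List.IsChain.cons_cons (fun h => ha1 (Subgroup.mem_bot.1 h.2)) (List.isChain_singleton _)
  have h5 : (csD Y s K).ev 1 (csR π l) =
      (csD Y s K).ev 1 [((none, false), a), ((none, true), 1)] := by
    rw [← h3, ← h1, csJ_apply]
    simp [cs_t_false, mul_assoc]
  have h6 := (MHD.eq_of_sl_bot (fun _ => rfl) (MHD.sl_of_ev_eq (csR_red h2) hr h5)).2
  cases l with
  | nil => simp [csR] at h6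
  | cons b l =>
    obtain ⟨τ, z, τ'⟩ := b
    simp only [csR, List.cons.injEq, Prod.mk.injEq, and_true] at h6
    obtain ⟨⟨rfl, h7⟩, rfl, h8⟩ := h6
    obtain rfl := csR_nil h8
    have e0 : csW ((none, z, none) : csB Y s) = mu Y s z := by simp [csW, csP]
    simp only [List.map_cons, List.map_nil, List.sum_cons, List.sum_nil, List.prod_cons,
      List.prod_nil, mul_one, add_zero, e0] at h4 e
    obtain ⟨i, hi⟩ := exists_best hs (mu Y s z)
    rw [muInv_mu] at hi
    exact h.memM (B := m) (by omega) hw h4 e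
      (hA z ((Nat.le_div_iff_mul_le hs).2 (hi.trans h4)) (h7 ▸ ha))

end Crest.Agent.R185
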