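import Crest.Agent.R185.CA
import Crest.Agent.R185.CS
import Crest.Agent.R185.CK
import Crest.Agent.R185.CLayM
import Crest.Agent.R185.CRec

/-!
# Row 185, core: one step `X ↦ T(X) = Stretch(K(M(A(X)) × G⁺))` of the tower
-/

set_option autoImplicit false
set_option linter.unusedSectionVars false
set_option synthInstance.maxSize 1024

namespace Crest.Agent.R185

open Function

/-- the alphabet of the tower -/
abbrev YT (s : ℕ) : Type := YK × Fin s

/-- the finite data of the tower (independent of the parameter `e`) -/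
structure TData (s : ℕ) (S Y' : Type) where
  eA : FreeGroup (YA (YT s)) →* FreeGroup S
  eG : FreeGroup Y' →* FreeGroup S
  κ : FreeGroup S →* FreeGroup (YT s)
  R₀ : Set (FreeGroup (YT s))
  fin : R₀.Finite
  cG : ℕ
  k : ℕ

namespace TData

variable {s : ℕ} {S Y' : Type} (t : TData s S Y')

/-- words of `A(X)` in the alphabet of the tower -/
def lam : FreeGroup (YA (YT s)) →* FreeGroup (YT s) := t.κ.comp t.eA

/-- the substitution -/
def ψ : FreeGroup (YT s) →* FreeGroup (YT s) := t.lam.comp aX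

/-- the generators of the subgroup -/
def η (s : ℕ) : Set (FreeGroup (YT s)) := mu YK s '' genA

/-- the relators -/
def R (root : Reg → ℤ) : Set (FreeGroup (YT s)) := t.R₀ ∪ {mu YK s (rootRel root)}

/-- the voltages -/
def V (Cl : Set (FreeGroup (YT s) × ℕ × FreeGroup (YT s))) : Set (FreeGroup S) :=
  t.eA '' (aX '' η s ∪ (⋃ n, famA (YT s) n) ∪ claimw '' Cl)

/-- the next normal subgroup -/
abbrev TN (root : Reg → ℤ) (N : Subgroup (FreeGroup (YT s))) := TT (t.R root) t.ψ N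

/-- the next marked subgroup -/
abbrev HN (root : Reg → ℤ) (N : Subgroup (FreeGroup (YT s))) := HH (η s) (t.TN root N)

/-- claims are active and true, or inactive with `m < N` -/
def OK (N : Subgroup (FreeGroup (YT s))) (Cl : Set (FreeGroup (YT s) × ℕ × FreeGroup (YT s)))
    (m : ℕ) : Prop :=
  ∀ z ∈ Cl, (z.2.2 ∈ N ∧ z.1 ∉ HH (η s) N) ∨ (z.2.2 ∉ N ∧ m < z.2.1)

/-- the properties of one step -/
structure Step [DecidableEq S] [DecidableEq Y'] {G' : Type} [Group G'] (π' : FreeGroup Y' →* G')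
    (M : RM S) (root : Reg → ℤ) (N : Subgroup (FreeGroup (YT s))) [N.Normal] : Prop where
  comap : ∀ w, t.ψ w ∈ t.TN root N ↔ w ∈ N
  rho : mu YK s rho0 ∈ t.TN root N
  u_comm : ∀ w, t.ψ w * t.lam aU * (t.lam aU * t.ψ w)⁻¹ ∈ t.TN root N
  τ_comm : ∀ w ∈ HH (η s) N, t.ψ w * t.lam aT * (t.lam aT * t.ψ w)⁻¹ ∈ t.TN root N
  G_iff : ∀ w, t.κ (t.eG w) ∈ t.TN root N ↔ π' w = 1
  killed : ∀ (P : Type) [Group P] (p : FreeGroup (YT s) →* P) (ψP : FreeGroup (YT s) ⧸ N →* P),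
    t.TN root N ≤ p.ker → (∀ w, ψP (QuotientGroup.mk w) = p (t.ψ w)) → Killed ψP
  link : ∀ Cl C γ dep, M.Good (t.V Cl) root C γ dep → ∀ v ∈ t.V Cl, t.κ v ∈ t.HN root N
  inter : ∀ Cl C γ dep, M.Good (t.V Cl) root C γ dep → OK N Cl 0 →
    (∀ w, t.ψ w ∈ t.HN root N ↔ w ∈ HH (η s) N) ∧ t.lam aT ∉ t.HN root N ∧
      ∃ g, ∀ w, w ∉ N → g⁻¹ * t.ψ w * g ∉ t.HN root N
  loc : ∀ Cl C γ dep, M.Good (t.V Cl) root C γ dep → ∀ m, OK N Cl m →
    ∀ (θ : LT (YT s)) (L : ℕ), θ.Closed L → ex t.k (m + 1 + (tw root).norm) ≤ L →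
      t.R root ⊆ θ.T →
      (∀ w : FreeGroup Y', w.norm ≤ t.cG * (m + 2) → π' w = 1 → t.κ (t.eG w) ∈ θ.T) →
      η s ⊆ θ.M → t.lam '' famA (YT s) (m + 1) ⊆ θ.M →
      (∀ w : FreeGroup (YT s), w.norm ≤ m → w ∈ N → t.ψ w ∈ θ.T) →
      (∀ w : FreeGroup (YT s), w.norm ≤ m → w ∈ HH (η s) N →
        t.ψ w * t.lam aT * (t.lam aT * t.ψ w)⁻¹ ∈ θ.T ∧ t.ψ w ∈ θ.M) →
      (∀ w : FreeGroup (YT s), w.norm ≤ m → w ∉ HH (η s) N →
        (t.ψ w)⁻¹ * t.lam aT * t.ψ w ∈ θ.M) →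
      ∀ w : FreeGroup (YT s), w.norm ≤ m + 1 →
        (w ∈ t.TN root N → w ∈ θ.T) ∧ (w ∈ t.HN root N → w ∈ θ.M)

end TData

theorem comm_of_HH {Y P : Type} [Group P] (p : FreeGroup Y →* P) (x : P) {η : Set (FreeGroup Y)}
    {N : Subgroup (FreeGroup Y)} (h1 : ∀ w ∈ η, Commute (p w) x) (h2 : ∀ w ∈ N, p w = 1) :
    ∀ w ∈ HH η N, Commute (p w) x := by
  have : HH η N ≤ (Subgroup.centralizer {x}).comap p := by
    refine sup_le ((Subgroup.closure_le _).2 fun w hw => ?_) fun w hw => ?_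
    · simpa [Subgroup.mem_centralizer_iff] using (h1 w hw).symm.eq
    · simp [Subgroup.mem_comap, h2 w hw]
  intro w hw
  have := this hw
  simp only [Subgroup.mem_comap, Subgroup.mem_centralizer_iff, Set.mem_singleton_iff,
    forall_eq] at this
  exact Commute.symm this

theorem mem_of_HH {Y P : Type} [Group P] (p : FreeGroup Y →* P) (B : Subgroup P)
    {η : Set (FreeGroup Y)} {N : Subgroup (FreeGroup Y)} (h1 : ∀ w ∈ η, p w ∈ B)
    (h2 : ∀ w ∈ N, p w = 1) : ∀ w ∈ HH η N, p w ∈ B := by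
  have : HH η N ≤ B.comap p :=
    sup_le ((Subgroup.closure_le _).2 h1) fun w hw => by simp [Subgroup.mem_comap, h2 w hw]
  exact fun w hw => this hw

theorem mem_HH_iff {Y P : Type} [Group P] (p : FreeGroup Y →* P) (η : Set (FreeGroup Y))
    {N : Subgroup (FreeGroup Y)} (h : ∀ w, p w = 1 ↔ w ∈ N) (w : FreeGroup Y) :
    w ∈ HH η N ↔ p w ∈ Subgroup.closure (p '' η) := by
  have hN : N = p.ker := Subgroup.ext fun w => (h w).symm
  rw [HH, hN, ← Subgroup.comap_map_eq, MonoidHom.map_closure]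
  rfl

theorem genA_finite : genA.Finite := by
  refine ((Set.finite_range fun ty : Ty =>
    (FreeGroup.of (Sum.inr (Sum.inl ty)) : FreeGroup YK)).union
      (Set.finite_singleton (FreeGroup.of (Sum.inr (Sum.inr 2))))).subset ?_
  rintro _ (⟨ty, rfl⟩ | rfl)
  · exact Or.inl ⟨ty, rfl⟩
  · exact Or.inr rfl

theorem relA_finite (Y : Type) [Finite Y] : (relA Y).Finite := by
  refine (Set.finite_range fun y : Y => aX (.of y) * aU * (aU * aX (.of y))⁻¹).subset ?_
  rintro _ ⟨y, rfl⟩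
  exact ⟨y, rfl⟩

theorem famA_mono {Y : Type} {m n : ℕ} (h : m ≤ n) : famA Y m ⊆ famA Y n := by
  rintro w (h1 | h1 | ⟨i, hi, h1⟩ | ⟨i, h0, hi, h1⟩)
  · exact Or.inl h1
  · exact Or.inr (Or.inl h1)
  · exact Or.inr (Or.inr (Or.inl ⟨i, hi.trans h, h1⟩))
  · exact Or.inr (Or.inr (Or.inr ⟨i, h0, hi.trans h, h1⟩))

theorem exists_Tlayer {Y' G' : Type} [Fintype Y'] [DecidableEq Y'] [Group G']
    (π' : FreeGroup Y' →* G') (hπ' : Surjective π') (R' : Set (FreeGroup Y')) (hR' : R'.Finite)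
    (hker : Subgroup.normalClosure R' = π'.ker) :
    ∃ (s : ℕ) (_ : 0 < s) (S : Type) (_ : Fintype S) (_ : DecidableEq S), ∀ M : RM S,
      ∃ t : TData s S Y', ∀ (root : Reg → ℤ) (N : Subgroup (FreeGroup (YT s))) [N.Normal],
        t.Step π' M root N := by
  obtain ⟨cM, hM⟩ := exists_Mlayer
  obtain ⟨cK, hK⟩ := exists_Klayer
  obtain ⟨s, hs⟩ : ∃ s, s = 2 * (cM * (2 * cK + 1)) + 1 := ⟨_, rfl⟩
  have hs0 : 0 < s := by omega
  obtain ⟨Z, _, _, d, RM', kM, finM, hMl⟩ := hM (YA (YT s))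
  refine ⟨s, hs0, Z ⊕ Y', inferInstance, inferInstance, fun M => ?_⟩
  obtain ⟨ι, RK, kK, finK, hKl⟩ := hK (Z ⊕ Y') M
  obtain ⟨Λι, hΛι⟩ := exists_lip ι
  obtain ⟨Λd, hΛd⟩ := exists_lip d
  -- scales
  let L3 : ℕ → ℕ := fun n => 1000 * (cM * (cK * (n + 1) + 1) + 1) ^ 2
  let L2 : ℕ → ℕ := fun n =>
    Λd * L3 n + 64 * (cK * (n + 1) + 1) * (cK * (n + 1) + 1) + ex kM (cK * (n + 1))
  let L1 : ℕ → ℕ := fun n => Λι * L2 n + ex kK n
  have e1 : Elem fun n => cK * (n + 1) := (Elem.const _).mul (Elem.id.add (Elem.const _))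
  have e3 : Elem L3 := (Elem.const _).mul
    ((((Elem.const _).mul (e1.add (Elem.const _))).add (Elem.const _)).pow (Elem.const 2))
  have e2 : Elem L2 := (((Elem.const _).mul e3).add
    (((Elem.const _).mul (e1.add (Elem.const _))).mul (e1.add (Elem.const _)))).add (e1.ex kM)
  have e1' : Elem L1 := ((Elem.const _).mul e2).add (Elem.id.ex kK)
  obtain ⟨k, hk⟩ : Elem fun n => s * L1 n + 16 * (n + s + 1) := ((Elem.const _).mul e1').add
    ((Elem.const _).mul ((Elem.id.add (Elem.const _)).add (Elem.const _)))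
  let κ : FreeGroup (Z ⊕ Y') →* FreeGroup (YT s) := (mu YK s).comp ι
  let eA : FreeGroup (YA (YT s)) →* FreeGroup (Z ⊕ Y') := (FreeGroup.map Sum.inl).comp d
  let R₀ : Set (FreeGroup (YT s)) := mu YK s '' RK ∪
    κ '' (prodRel Z Y' ∪ FreeGroup.map Sum.inl '' RM' ∪ FreeGroup.map Sum.inr '' R') ∪
    (κ.comp eA) '' (relA (YT s) ∪ (fun w => aX w * aT * (aT * aX w)⁻¹) '' TData.η s)
  have hR₀ : R₀.Finite := ((finK.image _).union
    (((prodRel_finite.union (finM.image _)).union (hR'.image _)).image _)).union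
      (((relA_finite _).union ((genA_finite.image _).image _)).image _)
  let t : TData s (Z ⊕ Y') Y' := ⟨eA, FreeGroup.map Sum.inr, κ, R₀, hR₀, cK, k⟩
  refine ⟨t, fun root N _ => ?_⟩
  -- the groups
  let πX : FreeGroup (YT s) →* FreeGroup (YT s) ⧸ N := QuotientGroup.mk' N
  have hπX : ∀ w, πX w = 1 ↔ w ∈ N := fun w => QuotientGroup.eq_one_iff w
  let H : Subgroup (FreeGroup (YT s) ⧸ N) := (HH (TData.η s) N).map πX
  have hH : ∀ w, πX w ∈ H ↔ w ∈ HH (TData.η s) N := fun w => by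
    rw [← Subgroup.mem_comap, Subgroup.comap_map_eq, QuotientGroup.ker_mk', sup_eq_left.2]
    exact le_sup_right
  obtain ⟨A, _, πA, jA, hA⟩ := exists_Alayer πX (QuotientGroup.mk'_surjective N) H
  obtain ⟨M', _, πM, Δ, sM, iΔ, kΔ, hd, rM, lM⟩ := hMl A πA hA.surj
  obtain ⟨K, _, πK, jK, hKK⟩ :=
    hKl (M' × G') (prodMark πM π') (prodMark_surjective sM hπ') root
  obtain ⟨Q, _, πQ, jQ, iQ, hmu, lQ⟩ := exists_Slayer hs0 πK
  have hκ : ∀ w, πQ (κ w) = jQ (jK (prodMark πM π' w)) := fun w => by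
    simp only [κ, MonoidHom.comp_apply, hmu, hKK.π_ι]
  have heA : ∀ w, prodMark πM π' (eA w) = (Δ (πA w), 1) := fun w => by
    simp only [eA, MonoidHom.comp_apply, prodMark_inl, hd]
  have hlam : ∀ w, πQ (t.lam w) = jQ (jK (Δ (πA w), 1)) := fun w => by
    rw [← heA, ← hκ]; rfl
  have hψ : ∀ w, πQ (t.ψ w) = jQ (jK (Δ (jA (πX w)), 1)) := fun w => by
    rw [← hA.π_aX, ← hlam]; rfl
  have hlam1 : ∀ w, πQ (t.lam w) = 1 ↔ πA w = 1 := fun w => by
    rw [hlam, map_eq_one_iff _ iQ, map_eq_one_iff _ hKK.inj, Prod.mk_eq_one,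
      map_eq_one_iff _ iΔ, and_iff_left rfl]
  have hRT : t.R root ⊆ t.TN root N := fun w hw => Subgroup.subset_normalClosure (Or.inl hw)
  have hψT : ∀ w ∈ N, t.ψ w ∈ t.TN root N := fun w hw =>
    Subgroup.subset_normalClosure (Or.inr ⟨w, hw, rfl⟩)
  have hτ : ∀ w ∈ HH (TData.η s) N,
      t.ψ w * t.lam aT * (t.lam aT * t.ψ w)⁻¹ ∈ t.TN root N := fun w hw => by
    have := comm_of_HH ((QuotientGroup.mk' (t.TN root N)).comp t.ψ)
      (QuotientGroup.mk' (t.TN root N) (t.lam aT)) (fun w hw => by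
        have : t.lam (aX w * aT * (aT * aX w)⁻¹) ∈ t.TN root N :=
          hRT (Or.inl (Or.inr ⟨_, Or.inr ⟨w, hw, rfl⟩, rfl⟩))
        rw [← QuotientGroup.eq_one_iff, ← QuotientGroup.mk'_apply] at this
        simp only [map_mul, map_inv, mul_inv_eq_one] at this
        exact this) (fun w hw => (QuotientGroup.eq_one_iff _).2 (hψT w hw)) w hw
    rw [← QuotientGroup.eq_one_iff, ← QuotientGroup.mk'_apply]
    simp only [map_mul, map_inv, mul_inv_eq_one]
    exact this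
  have hG : ∀ w, π' w = 1 → κ (FreeGroup.map Sum.inr w) ∈ t.TN root N := fun w hw => by
    have : Subgroup.normalClosure R' ≤ (t.TN root N).comap (κ.comp (FreeGroup.map Sum.inr)) :=
      Subgroup.normalClosure_le_normal fun r hr =>
        hRT (Or.inl (Or.inl (Or.inr ⟨_, Or.inr ⟨r, hr, rfl⟩, rfl⟩)))
    exact this (hker ▸ hw)
  -- the chain of locality lemmas
  have loc : ∀ (m : ℕ) (θ : LT (YT s)) (L : ℕ), θ.Closed L → ex k (m + 1 + (tw root).norm) ≤ L →
      t.R root ⊆ θ.T →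
      (∀ w : FreeGroup Y', w.norm ≤ cK * (m + 2) → π' w = 1 → κ (FreeGroup.map Sum.inr w) ∈ θ.T) →
      (∀ w : FreeGroup (YT s), w.norm ≤ m → w ∈ N → t.ψ w ∈ θ.T) →
      (∀ w : FreeGroup (YT s), w.norm ≤ m → w ∈ HH (TData.η s) N →
        t.ψ w * t.lam aT * (t.lam aT * t.ψ w)⁻¹ ∈ θ.T) →
      θ.KT πQ (m + 1) ∧ ∀ Cl C γ dep, M.Good (t.V Cl) root C γ dep →
        (∀ v ∈ t.V Cl, prodMark πM π' v ∈ ((subJ πA jA H Cl).map Δ).prod ⊥) →
        ClaimsOK πX H Cl m → TData.η s ⊆ θ.M → t.lam '' famA (YT s) (m + 1) ⊆ θ.M →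
        (∀ w : FreeGroup (YT s), w.norm ≤ m → w ∈ HH (TData.η s) N → t.ψ w ∈ θ.M) →
        (∀ w : FreeGroup (YT s), w.norm ≤ m → w ∉ HH (TData.η s) N →
          (t.ψ w)⁻¹ * t.lam aT * t.ψ w ∈ θ.M) →
        θ.KM πQ ((subA πK jK (((subJ πA jA H Cl).map Δ).prod ⊥)).map jQ) (m + 1) := by
    intro m θ L hθ hL hR hGθ hTθ hCθ
    obtain ⟨n, hn⟩ : ∃ n, n = m + 1 + (tw root).norm := ⟨_, rfl⟩
    have hL0 : s * L1 n + 16 * (n + s + 1) ≤ L := (hk n).trans (hn ▸ hL)
    obtain ⟨r, hr⟩ : ∃ r, r = (m + 1) / s := ⟨_, rfl⟩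
    have hrs : s * r ≤ m + 1 := hr ▸ Nat.mul_div_le _ _
    have hrm : r ≤ m + 1 := hr ▸ Nat.div_le_self _ _
    have hθ1 : (θ.comap (mu YK s)).Closed (L1 n) := hθ.comap (lip_mu s) (by omega)
    have hQ := lQ θ L (m + 1) hθ (by omega)
    rw [← hr] at hQ
    rcases Nat.eq_zero_or_pos r with h0 | h0
    · have z : ∀ w : FreeGroup YK, w.norm ≤ r → w = 1 := fun w hw =>
        FreeGroup.norm_eq_zero.1 (by omega)
      have := hQ fun w hw _ => z w hw ▸ hθ1.one
      exact ⟨this.1, fun _ _ _ _ _ _ _ _ _ _ _ => this.2 _ fun w hw _ => z w hw ▸ hθ1.oneM⟩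
    have hrn : r + (tw root).norm ≤ n := by omega
    have hr2 : cK * (r + 1) ≤ cK * (n + 1) := Nat.mul_le_mul_left _ (by omega)
    have hr2' : cK * (r + 1) ≤ cK * (m + 2) := Nat.mul_le_mul_left _ (by omega)
    have hr3 : cM * (cK * (r + 1) + 1) ≤ cM * (cK * (n + 1) + 1) :=
      Nat.mul_le_mul_left _ (by omega)
    have hr3' : 2 * (cM * (cK * (r + 1) + 1)) ≤ m := by
      have h1 : cK * (r + 1) + 1 ≤ (2 * cK + 1) * r := by nlinarith
      have h2 := Nat.mul_le_mul_left cM h1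
      rw [hs] at hrs
      nlinarith
    have hθ2 : (θ.comap κ).Closed (L2 n) :=
      hθ1.comap (ι := ι) hΛι (Nat.le_add_right _ _)
    have hθ2' : ((θ.comap κ).comap (FreeGroup.map Sum.inl)).Closed (L2 n) :=
      hθ2.comap (lip_map _) (by omega)
    have hθ3 : (θ.comap t.lam).Closed (L3 n) :=
      hθ2'.comap (ι := d) hΛd (by simp only [L2]; omega)
    have hL3 : 1000 * (cM * (cK * (r + 1) + 1) + 1) ^ 2 ≤ L3 n :=
      Nat.mul_le_mul_left _ (Nat.pow_le_pow_left (by omega) _)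
    have hL2 : 64 * (cK * (r + 1) + 1) * (cK * (r + 1) + 1) ≤ L2 n := by
      have := Nat.mul_le_mul (Nat.mul_le_mul_left 64 (Nat.add_le_add_right hr2 1))
        (Nat.add_le_add_right hr2 1)
      simp only [L2]; omega
    have hL2' : ex kM (cK * (r + 1)) ≤ L2 n := (ex_mono _ hr2).trans (Nat.le_add_left _ _)
    have hL1 : ex kK (r + (tw root).norm) ≤ L1 n := (ex_mono _ hrn).trans (Nat.le_add_left _ _)
    have rA : relA (YT s) ⊆ (θ.comap t.lam).T := fun w hw =>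
      hR (Or.inl (Or.inr ⟨w, Or.inl hw, rfl⟩))
    have rM' : RM' ⊆ ((θ.comap κ).comap (FreeGroup.map Sum.inl)).T := fun w hw =>
      hR (Or.inl (Or.inl (Or.inr ⟨_, Or.inl (Or.inr ⟨w, hw, rfl⟩), rfl⟩)))
    have rP : prodRel Z Y' ⊆ (θ.comap κ).T := fun w hw =>
      hR (Or.inl (Or.inl (Or.inr ⟨_, Or.inl (Or.inl hw), rfl⟩)))
    have rK : RK ⊆ (θ.comap (mu YK s)).T := fun w hw => hR (Or.inl (Or.inl (Or.inl ⟨w, hw, rfl⟩)))
    have rR : rootRel root ∈ (θ.comap (mu YK s)).T := hR (Or.inr rfl)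
    have tX : ((θ.comap t.lam).comap aX).KT πX m := fun w hw h => hTθ w hw ((hπX w).1 h)
    have cX : ∀ w : FreeGroup (YT s), w.norm ≤ cM * (cK * (r + 1) + 1) → πX w ∈ H →
        aX w * aT * (aT * aX w)⁻¹ ∈ (θ.comap t.lam).T := fun w hw h => by
      simp only [LT.mem_comap_T, map_mul, map_inv]
      exact hCθ w (by omega) ((hH w).1 h)
    have tA := hA.KT _ _ _ hθ3 hL3 rA (tX.mono (by omega)) cX
    have tM := lM _ _ _ hθ2' hL2' rM' tA
    have tG : ((θ.comap κ).comap (FreeGroup.map Sum.inr)).KT π' (cK * (r + 1)) := fun w hw h =>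
      hGθ w (hw.trans hr2') h
    have tD := hθ2.prod_KT rP hL2 tM.1 tG
    have tK := hKK.KT _ _ _ hθ1 hL1 rK rR tD
    refine ⟨(hQ tK).1, fun Cl C γ dep hg hV hCl hη hf hMθ hNθ => (hQ tK).2 _ ?_⟩
    refine hKK.KM _ C γ dep hg _ hV _ _ _ hθ1 hL1 rK rR tD (fun w hw => hη ⟨w, hw, rfl⟩) ?_
    refine hθ2.prod_KM rP hL2 (tM.2 _ ?_) fun w hw h => ?_
    · refine hA.KM Cl _ (fun z hz => (hCl z hz).imp_right fun h => ⟨h.1, by have := h.2; omega⟩)
        _ _ hθ3 hL3 rA (tX.mono hr3') cX (fun w hw h => hMθ w (hw.trans hr3') ((hH w).1 h))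
        (fun w hw => hf ⟨w, famA_mono (by omega) hw, rfl⟩) fun w hw h => ?_
      simp only [LT.mem_comap_M, map_mul, map_inv]
      exact hNθ w (hw.trans hr3') (mt (hH w).2 h)
    · refine (hθ2.comap (lip_map _) (le_of_eq (one_mul _))).sub w ?_ (tG w hw h)
      nlinarith
  -- the kernel
  have hkerQ : ∀ w, πQ w = 1 ↔ w ∈ t.TN root N := fun w => by
    constructor
    · exact (loc w.norm (LT.hon (t.TN root N) ⊤) _ (LT.hon_closed _ _ le_top _) le_rfl hRT
        (fun w _ => hG w) (fun w _ => hψT w) fun w _ => hτ w).1 w (Nat.le_succ _)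
    · have : t.TN root N ≤ πQ.ker := by
        refine Subgroup.normalClosure_le_normal ?_
        rintro _ ((((⟨w, hw, rfl⟩ | ⟨_, ((hw | ⟨w, hw, rfl⟩) | ⟨w, hw, rfl⟩), rfl⟩) |
          ⟨_, (hw | ⟨w, hw, rfl⟩), rfl⟩) | rfl) | ⟨w, hw, rfl⟩)
        · simp [hmu, hKK.rel w hw]
        · simp [hκ, prodMark_rel _ _ _ hw]
        · simp [hκ, prodMark_inl, rM w hw, Prod.mk_one_one]
        · have : π' w = 1 := by
            have := Subgroup.subset_normalClosure hw
            rwa [hker] at this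
          simp [hκ, prodMark_inr, this, Prod.mk_one_one]
        · exact (hlam1 _).2 (hA.rel _ hw)
        · refine (hlam1 _).2 ?_
          have := hA.comm _ ((hH w).2 (Subgroup.mem_sup_left (Subgroup.subset_closure hw)))
          simp only [map_mul, map_inv, hA.π_aX, mul_inv_eq_one]
          exact this.symm
        · simp [hmu, hKK.root_rel]
        · simp [hψ, (hπX w).2 hw, Prod.mk_one_one]
      exact fun h => this h
  have hHN : ∀ w, w ∈ t.HN root N ↔ πQ w ∈ (Subgroup.closure (πK '' genA)).map jQ := fun w => by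
    rw [mem_HH_iff πQ _ hkerQ, MonoidHom.map_closure, TData.η, Set.image_image, Set.image_image]
    simp only [hmu]
  have hVJ : ∀ Cl, ∀ v ∈ t.V Cl, prodMark πM π' v ∈ ((subJ πA jA H Cl).map Δ).prod ⊥ := by
    rintro Cl _ ⟨w, hw, rfl⟩
    rw [show t.eA = eA from rfl, heA]
    refine ⟨⟨_, Subgroup.subset_closure ?_, rfl⟩, rfl⟩
    rcases hw with (⟨w, hw, rfl⟩ | hw) | hw
    · exact Or.inl (Or.inl ⟨πX w,
        (hH w).2 (Subgroup.mem_sup_left (Subgroup.subset_closure hw)), (hA.π_aX w).symm⟩)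
    · exact Or.inl (Or.inr ⟨w, hw, rfl⟩)
    · exact Or.inr ⟨w, hw, rfl⟩
  have hsub : ∀ Cl C γ dep, M.Good (t.V Cl) root C γ dep →
      subA πK jK (((subJ πA jA H Cl).map Δ).prod ⊥) = Subgroup.closure (πK '' genA) := by
    intro Cl C γ dep hg
    refine le_antisymm ((Subgroup.closure_le _).2 ?_) (Subgroup.closure_mono Set.subset_union_left)
    have l : ∀ w, eA w ∈ t.V Cl → jK (Δ (πA w), 1) ∈ Subgroup.closure (πK '' genA) :=
      fun w hw => heA w ▸ hKK.link _ C γ dep hg _ hw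
    let p : A →* K := jK.comp ((MonoidHom.inl M' G').comp Δ)
    have : subJ πA jA H Cl ≤ (Subgroup.closure (πK '' genA)).comap p := by
      refine (Subgroup.closure_le _).2 ?_
      rintro _ ((⟨_, ⟨w, hw, rfl⟩, rfl⟩ | ⟨w, hw, rfl⟩) | ⟨w, hw, rfl⟩)
      · refine mem_of_HH (p.comp (jA.comp πX)) (Subgroup.closure (πK '' genA)) (fun w hw => ?_) (fun w hw => ?_) w hw
        · have := l (aX w) ⟨_, Or.inl (Or.inl ⟨w, hw, rfl⟩), rfl⟩
          rwa [hA.π_aX] at this
        · simp [(hπX w).2 hw]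
      · exact l w ⟨_, Or.inl (Or.inr hw), rfl⟩
      · exact l w ⟨_, Or.inr hw, rfl⟩
    rintro _ (hw | ⟨⟨_, g⟩, ⟨⟨a, ha, rfl⟩, hg'⟩, rfl⟩)
    · exact Subgroup.subset_closure hw
    · obtain rfl : g = 1 := hg'
      exact this ha
  have hOK : ∀ Cl m, TData.OK N Cl m → ClaimsOK πX H Cl m := fun Cl m h z hz => by
    simpa only [ne_eq, hπX, hH] using h z hz
  exact
    { comap := fun w => by
        rw [← hkerQ, ← hπX, ← map_eq_one_iff _ hA.inj, ← hA.π_aX, ← hlam1]; rfl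
      rho := by rw [← hkerQ, hmu, hKK.rho, map_one]
      u_comm := fun w => by
        have : ∀ w, Commute (πA (aX w)) (πA aU) := fun w => by
          induction w using FreeGroup.induction_on with
          | C1 => simp
          | of y =>
            have := hA.rel _ ⟨y, rfl⟩
            simp only [map_mul, map_inv, mul_inv_eq_one] at this
            exact this
          | inv_of y h => simpa using h
          | mul a b ha hb => simpa only [map_mul] using ha.mul_left hb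
        have h2 : πA (aX w * aU * (aU * aX w)⁻¹) = 1 := by
          simp only [map_mul, map_inv, mul_inv_eq_one]
          exact this w
        have := (hkerQ _).1 ((hlam1 _).2 h2)
        simp only [map_mul, map_inv] at this
        exact this
      τ_comm := hτ
      G_iff := fun w => by
        rw [← hkerQ, show t.κ = κ from rfl, hκ, show t.eG = FreeGroup.map Sum.inr from rfl,
          prodMark_inr, map_eq_one_iff _ iQ, map_eq_one_iff _ hKK.inj, Prod.mk_eq_one,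
          and_iff_right rfl]
      killed := fun P _ p ψP hp hψP => by
        let pK : K →* P := πK.liftOfSurjective hKK.surj ⟨p.comp (mu YK s), fun z hz =>
          hp ((hkerQ _).1 (by rw [hmu, show πK z = 1 from hz, map_one]))⟩
        have hpK : ∀ z, pK (πK z) = p (mu YK s z) := fun z =>
          MonoidHom.liftOfRightInverse_comp_apply _ _ _ _ z
        have : ψP = (pK.comp (jK.comp (MonoidHom.inl M' G'))).comp (Δ.comp jA) := by
          refine QuotientGroup.monoidHom_ext _ (MonoidHom.ext fun w => ?_)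
          change ψP (QuotientGroup.mk w) = pK (jK (Δ (jA (πX w)), 1))
          rw [hψP, ← hA.π_aX, ← heA, ← hKK.π_ι, hpK]
          rfl
        rw [this]
        exact (kΔ.comp_right jA).comp_left _
      link := fun Cl C γ dep hg v hv => by
        rw [hHN, show t.κ = κ from rfl, hκ]
        exact ⟨_, hKK.link _ C γ dep hg v hv, rfl⟩
      inter := fun Cl C γ dep hg hok => by
        have h1 : ∀ w, t.lam w ∈ t.HN root N ↔ πA w ∈ subJ πA jA H Cl := fun w => by
          rw [hHN, hlam, Subgroup.mem_map_iff_mem iQ, ← hsub Cl C γ dep hg,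
            hKK.inter _ C γ dep hg _ (hVJ Cl), Subgroup.mem_prod, Subgroup.mem_map_iff_mem iΔ]
          simp
        refine ⟨fun w => ?_, fun h => hA.τ_not Cl (hOK _ _ hok) ((h1 _).1 h), ?_⟩
        · rw [← hH, ← hA.inter Cl (hOK _ _ hok), ← hA.π_aX, ← h1]; rfl
        · obtain ⟨g, hg'⟩ := hKK.faith _ C γ dep hg _ (hVJ Cl)
          obtain ⟨z, rfl⟩ := hKK.surj g
          refine ⟨mu YK s z, fun w hw h => hg' (Δ (jA (πX w)), 1) ?_ ?_⟩
          · rw [ne_eq, Prod.mk_eq_one, map_eq_one_iff _ iΔ, map_eq_one_iff _ hA.inj, hπX]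
            exact fun h => hw h.1
          · rw [hHN, map_mul, map_mul, map_inv, hmu, hψ, ← map_inv, ← map_mul, ← map_mul,
              Subgroup.mem_map_iff_mem iQ] at h
            rwa [hsub Cl C γ dep hg]
      loc := fun Cl C γ dep hg m hok θ L hθ hL hR hGθ hη hf hTθ hCθ hNθ w hw => by
        obtain ⟨h1, h2⟩ := loc m θ L hθ hL hR hGθ hTθ fun w hw h => (hCθ w hw h).1
        refine ⟨fun h => h1 w hw ((hkerQ w).2 h), fun h => h2 Cl C γ dep hg (hVJ Cl) (hOK _ _ hok)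
          hη hf (fun w hw h => (hCθ w hw h).2) hNθ w hw ?_⟩
        rw [hsub Cl C γ dep hg]
        exact (hHN w).1 h }

end Crest.Agent.R185
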