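import Crest.Agent.R185.CComp

/-!
# R185/CUniv: a recursively presented group on three generators containing every finitely presented
group (helper79)
-/

set_option autoImplicit false

namespace Crest.Agent.R185

open Function

namespace Univ

/-- `[y⁻ⁿ f yⁿ, z]` -/
def uw (n : ℕ) : FreeGroup (Fin 3) :=
  ((FreeGroup.of 1 ^ n)⁻¹ * FreeGroup.of 0 * FreeGroup.of 1 ^ n) *
    (FreeGroup.of 2 * ((FreeGroup.of 1 ^ n)⁻¹ * FreeGroup.of 0 * FreeGroup.of 1 ^ n)⁻¹ *
      (FreeGroup.of 2)⁻¹)

/-- the substitution number `e` -/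
def sub (e : ℕ) : FreeGroup ℕ →* FreeGroup (Fin 3) := FreeGroup.lift fun i => uw (Nat.pair e i)

/-- the conjugates of all relators -/
def V : Set (FreeGroup (Fin 3)) :=
  {w | ∃ b : List (Wd ℕ) × ℕ × Wd (Fin 3), w = .mk b.2.2 *
    sub (Encodable.encode b.1) (.mk (b.1.getD b.2.1 [])) * (FreeGroup.mk b.2.2)⁻¹}

theorem V_conj (g : FreeGroup (Fin 3)) : ∀ v ∈ V, g * v * g⁻¹ ∈ V := by
  rintro _ ⟨⟨E, j, d⟩, rfl⟩
  refine ⟨⟨E, j, g.toWord ++ d⟩, ?_⟩
  simp only [← FreeGroup.mul_mk, FreeGroup.mk_toWord]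
  group

/-- a word for `uw n` -/
def uwd (n : ℕ) : Wd (Fin 3) :=
  let p : Wd (Fin 3) := (List.range n).map fun _ => (1, true)
  let a := FreeGroup.invRev p ++ [(0, true)] ++ p
  a ++ ([(2, true)] ++ FreeGroup.invRev a ++ [(2, false)])

theorem mk_uwd (n : ℕ) : FreeGroup.mk (uwd n) = uw n := by
  have h : FreeGroup.mk ((List.range n).map fun _ => ((1 : Fin 3), true)) = FreeGroup.of 1 ^ n := by
    induction n with
    | zero => rfl
    | succ n ih => rw [List.range_succ, List.map_append, ← FreeGroup.mul_mk, ih, pow_succ]; rfl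
  have h2 : FreeGroup.mk [((2 : Fin 3), false)] = (FreeGroup.of 2)⁻¹ := rfl
  simp only [uwd, ← FreeGroup.mul_mk, ← FreeGroup.inv_mk, h, h2]
  rfl

theorem primrec_uwd : Primrec uwd := by
  have hp : Primrec fun n : ℕ => ((List.range n).map fun _ => ((1 : Fin 3), true) : Wd (Fin 3)) :=
    Primrec.list_map Primrec.list_range (Primrec.const _).to₂
  have ha := Primrec.list_append.comp (Primrec.list_append.comp (primrec_invRev.comp hp)
    (Primrec.const [((0 : Fin 3), true)])) hp
  exact Primrec.list_append.comp ha (Primrec.list_append.comp (Primrec.list_append.comp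
    (Primrec.const [((2 : Fin 3), true)]) (primrec_invRev.comp ha)) (Primrec.const _))

/-- the substitution on words -/
def subd (e : ℕ) (d : Wd ℕ) : Wd (Fin 3) :=
  d.flatMap fun x => cond x.2 (uwd (Nat.pair e x.1)) (FreeGroup.invRev (uwd (Nat.pair e x.1)))

theorem mk_subd (e : ℕ) (d : Wd ℕ) : FreeGroup.mk (subd e d) = sub e (.mk d) := by
  induction d with
  | nil => rfl
  | cons x d ih =>
    rw [subd, List.flatMap_cons, ← FreeGroup.mul_mk, ← subd, ih, ← List.singleton_append,
      ← FreeGroup.mul_mk, map_mul]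
    congr 1
    obtain ⟨i, _ | _⟩ := x
    · have : FreeGroup.mk [(i, false)] = (FreeGroup.of i)⁻¹ := rfl
      rw [this, map_inv, cond_false, ← FreeGroup.inv_mk, mk_uwd, sub, FreeGroup.lift_apply_of]
    · have : FreeGroup.mk [(i, true)] = FreeGroup.of i := rfl
      rw [this, cond_true, mk_uwd, sub, FreeGroup.lift_apply_of]

theorem primrec_subd : Primrec₂ subd := by
  have h : Primrec fun p : (ℕ × Wd ℕ) × ℕ × Bool => uwd (Nat.pair p.1.1 p.2.1) :=
    primrec_uwd.comp (Primrec₂.natPair.comp (Primrec.fst.comp Primrec.fst)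
      (Primrec.fst.comp Primrec.snd))
  exact Primrec.list_flatMap Primrec.snd
    (Primrec.cond (Primrec.snd.comp Primrec.snd) h (primrec_invRev.comp h)).to₂

theorem RF_V : RF fun _ : ℕ => V := by
  have hg : CF fun x : ℕ × List (Wd ℕ) × ℕ × Wd (Fin 3) => FreeGroup.mk x.2.2.2 :=
    CF.mk (Computable.snd.comp (Computable.snd.comp Computable.snd))
  have h1 : Primrec fun x : ℕ × List (Wd ℕ) × ℕ × Wd (Fin 3) => x.2.1 :=
    Primrec.fst.comp Primrec.snd
  have hs : CF fun x : ℕ × List (Wd ℕ) × ℕ × Wd (Fin 3) =>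
      sub (Encodable.encode x.2.1) (.mk (x.2.1.getD x.2.2.1 [])) :=
    ⟨_, (primrec_subd.comp (Primrec.encode.comp h1) ((Primrec.list_getD []).comp h1
      (Primrec.fst.comp (Primrec.snd.comp Primrec.snd)))).to_comp, fun _ => mk_subd _ _⟩
  have h := RF.range ((hg.mul hs).mul hg.inv) (q := fun _ => True)
    (ComputablePred.to_re (Computable.computablePred (Computable.const true |>.of_eq (by simp))))
  simp only [true_and] at h
  exact h

section Model

variable {G : Type} [Group G] (c : ℕ → G)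

/-- the wreath product -/
abbrev Wr (G : Type) [Group G] : Type :=
  (ℤ × ℤ → G) ⋊[mulAutArrow] Equiv.Perm (ℤ × ℤ)

/-- shift of the rows -/
def py : Equiv.Perm (ℤ × ℤ) := Equiv.addRight (1, 0)

/-- shift in the row `0` -/
def pz : Equiv.Perm (ℤ × ℤ) where
  toFun x := (x.1, if x.1 = 0 then x.2 + 1 else x.2)
  invFun x := (x.1, if x.1 = 0 then x.2 - 1 else x.2)
  left_inv x := by by_cases h : x.1 = 0 <;> simp [h, Prod.ext_iff]
  right_inv x := by by_cases h : x.1 = 0 <;> simp [h, Prod.ext_iff]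

/-- the model -/
def model : FreeGroup (Fin 3) →* Wr G :=
  FreeGroup.lift ![.inl fun x => if 0 ≤ x.2 then c x.1.toNat else 1, .inr py, .inr pz]

theorem py_pow (n : ℕ) (x : ℤ × ℤ) : (py ^ n) x = (x.1 + n, x.2) := by
  induction n with
  | zero => simp
  | succ n ih => rw [pow_succ', Equiv.Perm.mul_apply, ih]; simp [py, add_assoc]

theorem model_uw (n : ℕ) : model c (uw n) = .inl (Pi.mulSingle (0, 0) (c n)) := by
  have h0 : model c (.of 0) = .inl fun x => if 0 ≤ x.2 then c x.1.toNat else 1 := by simp [model]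
  have h1 : model c (.of 1) = .inr py := by simp [model]
  have h2 : model c (.of 2) = .inr pz := by simp [model]
  have ha : model c ((FreeGroup.of 1 ^ n)⁻¹ * FreeGroup.of 0 * FreeGroup.of 1 ^ n) =
      .inl fun x => if 0 ≤ x.2 then c (x.1 + n).toNat else 1 := by
    rw [map_mul, map_mul, map_inv, map_pow, h0, h1, ← map_pow, ← map_inv,
      ← inv_inv (py ^ n), inv_inv (py ^ n)⁻¹, ← SemidirectProduct.inl_aut]
    congr 1
    funext x
    change (fun x : ℤ × ℤ => if 0 ≤ x.2 then c x.1.toNat else 1) ((py ^ n)⁻¹⁻¹ x) = _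
    rw [inv_inv, py_pow]
  rw [uw, map_mul, ha, map_mul, map_mul, map_inv, map_inv, ha, h2, ← map_inv, ← map_inv,
    ← SemidirectProduct.inl_aut, ← map_mul]
  congr 1
  funext x
  obtain ⟨a, b⟩ := x
  change (if 0 ≤ b then c (a + n).toNat else 1) *
    (if 0 ≤ (if a = 0 then b - 1 else b) then c (a + n).toNat else 1)⁻¹ = _
  by_cases ha : a = 0
  · subst ha
    rcases lt_trichotomy b 0 with hb | rfl | hb
    · rw [Pi.mulSingle_eq_of_ne (by simp [hb.ne]), if_pos rfl, if_neg (by omega), if_neg (by omega)]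
      simp
    · simp
    · rw [Pi.mulSingle_eq_of_ne (by simp [hb.ne']), if_pos rfl, if_pos (by omega),
        if_pos (by omega)]
      simp
  · rw [Pi.mulSingle_eq_of_ne (by simp [ha]), if_neg ha, mul_inv_cancel]

/-- the embedding of `G` -/
def emb (G : Type) [Group G] : G →* Wr G :=
  SemidirectProduct.inl.comp (MonoidHom.mulSingle (fun _ : ℤ × ℤ => G) (0, 0))

theorem emb_injective : Injective (emb G) :=
  SemidirectProduct.inl_injective.comp (Pi.mulSingle_injective (M := fun _ : ℤ × ℤ => G) (0, 0))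

theorem model_sub (e : ℕ) (w : FreeGroup ℕ) :
    model c (sub e w) = emb G (FreeGroup.lift (fun i => c (Nat.pair e i)) w) := by
  have : (model c).comp (sub e) = (emb G).comp (FreeGroup.lift fun i => c (Nat.pair e i)) := by
    ext i : 1
    simp only [MonoidHom.comp_apply, sub, FreeGroup.lift_apply_of, model_uw]
    rfl
  exact DFunLike.congr_fun this w

end Model

theorem embeds {U : Type} [Group U] (f : FreeGroup (Fin 3) →* U) (hf : f.ker = Subgroup.closure V)
    (G : Type) [Group G] (hG : Group.IsFinitelyPresented G) : ∃ g : G →* U, Injective g := by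
  classical
  obtain ⟨n, π, hπ, R, hRf, hR⟩ := hG.out
  let j : FreeGroup (Fin n) →* FreeGroup ℕ := FreeGroup.map Fin.val
  obtain ⟨E, hE⟩ : ∃ E, wset E = j '' R := ⟨(hRf.image j).toFinset.toList.map FreeGroup.toWord, by
    ext w; simp only [wset, List.mem_map, Finset.mem_toList, Set.Finite.mem_toFinset,
      exists_exists_and_eq_and, FreeGroup.mk_toWord, exists_eq_right, Set.mem_ofPred_eq]⟩
  let e := Encodable.encode E
  let s : ℕ → G := fun i => if h : i < n then π (.of ⟨i, h⟩) else 1
  have hs : ∀ w, FreeGroup.lift s (j w) = π w := by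
    have : (FreeGroup.lift s).comp j = π := by ext i; simp [s, j]
    exact DFunLike.congr_fun this
  let c : ℕ → G := fun m => if m.unpair.1 = e then s m.unpair.2 else 1
  have hc : ∀ w, model c (sub e (j w)) = emb G (π w) := fun w => by
    rw [model_sub, ← hs]; simp [c]
  have hV : Subgroup.closure V ≤ (model c).ker := by
    rw [Subgroup.closure_le]
    rintro _ ⟨⟨E', i, d⟩, rfl⟩
    have : model c (sub (Encodable.encode E') (.mk (E'.getD i []))) = 1 := by
      by_cases h : Encodable.encode E' = e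
      · obtain rfl : E' = E := Encodable.encode_injective h
        by_cases hi : i < E'.length
        · obtain ⟨r, hr, h1⟩ : FreeGroup.mk (E'.getD i []) ∈ j '' R :=
            hE ▸ ⟨_, by rw [List.getD_eq_getElem _ _ hi]; exact List.getElem_mem hi, rfl⟩
          rw [← h1, hc, show π r = 1 from (hR ▸ Subgroup.subset_normalClosure hr : r ∈ π.ker),
            map_one]
        · rw [List.getD_eq_default _ _ (not_lt.1 hi), ← FreeGroup.one_eq_mk, map_one, map_one]
      · rw [model_sub]
        have : (FreeGroup.lift fun i => c (Nat.pair (Encodable.encode E') i)) = 1 := by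
          ext i; simp [c, h]
        rw [this, MonoidHom.one_apply, map_one]
    simp only [SetLike.mem_coe, MonoidHom.mem_ker, map_mul, this, map_inv, mul_one, mul_inv_cancel]
  have hker : π.ker ≤ (f.comp ((sub e).comp j)).ker := by
    rw [← hR]
    refine Subgroup.normalClosure_le_normal fun r hr => ?_
    obtain ⟨d, hd, h1⟩ : j r ∈ wset E := hE ▸ ⟨r, hr, rfl⟩
    obtain ⟨i, hi, rfl⟩ := List.getElem_of_mem hd
    change sub e (j r) ∈ f.ker
    rw [hf]
    refine Subgroup.subset_closure ⟨⟨E, i, []⟩, ?_⟩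
    simp only [← FreeGroup.one_eq_mk, one_mul, inv_one, mul_one]
    rw [List.getD_eq_getElem _ _ hi, h1]
  refine ⟨π.liftOfSurjective hπ ⟨_, hker⟩, (injective_iff_map_eq_one _).2 fun x hx => ?_⟩
  obtain ⟨w, rfl⟩ := hπ x
  have h1 : sub e (j w) ∈ f.ker :=
    (MonoidHom.liftOfRightInverse_comp_apply _ _ _ ⟨_, hker⟩ w).symm.trans hx
  have h2 := hV (hf ▸ h1)
  rw [MonoidHom.mem_ker, hc] at h2
  exact (injective_iff_map_eq_one _).1 emb_injective _ h2

end Univ

/-- a universal finitely presented group from Higman's embedding theorem -/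
theorem universal_of_higman
    (hig : ∀ V : Set (FreeGroup (Fin 3)), (RF fun _ : ℕ => V) → (∀ g, ∀ v ∈ V, g * v * g⁻¹ ∈ V) →
      ∃ (U : Type) (_ : Group U) (f : FreeGroup (Fin 3) →* U),
        Group.IsFinitelyPresented U ∧ f.ker = Subgroup.closure V) :
    ∃ (U : Type) (_ : Group U), Group.IsFinitelyPresented U ∧
      ∀ (G : Type) [Group G], Group.IsFinitelyPresented G → ∃ f : G →* U, Injective f := by
  obtain ⟨U, _, f, h1, h2⟩ := hig Univ.V Univ.RF_V Univ.V_conj
  exact ⟨U, inferInstance, h1, fun G _ hG => Univ.embeds f h2 G hG⟩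

end Crest.Agent.R185
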