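import Crest.Agent.R185.FPDefs

/-!
# Row 185: two-out-of-three for `FP_n`, exact complexes, telescopes

Order of proof.  `FP.of_bij` by induction on `n` (transport `v` along `f`, the kernels are equal
submodules of the same free representation, so `kerRep`s are related by the identity bijection).
`FP.ext` by induction on `n` alone (horseshoe: generators `S_A ⊕ S_C`, lift the generators of `C` to
`B`; the three kernels form again a short exact sequence; the maps between the free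
representations are `Finsupp.lmapDomain` / `orb _ (Sum.elim (single ⟨1,·⟩ 1) 0)`).
`FP.quot` from `FP.ext` (compose the generators of `B` with `g`; `0 → K_B → K_C → A → 0`).
`FP.sub` from `ext`, `quot`, `fp_free`, `mono` (pull back `P = B ×_C F`, a subrepresentation of
`Representation.prod`; `0 → K → P → B → 0` and `0 → F → P → A → 0` using a lift `F → B`).
-/

set_option autoImplicit false

namespace Crest.Agent.R185

open Function

variable {G : Type} [Group G] {A B C : Type} [AddCommGroup A] [AddCommGroup B] [AddCommGroup C]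
  {α : Representation ℤ G A} {β : Representation ℤ G B} {γ : Representation ℤ G C}

theorem FPB_comp_orb {f : A →ₗ[ℤ] B} (h : Eqv α β f) {S : Type} (v : S → A) :
    f ∘ₗ orb α v = orb β fun s => f (v s) := by
  refine Finsupp.lhom_ext' fun c => LinearMap.ext_ring ?_
  simp [h c.g]

theorem FPB_eq_orb {S : Type} {φ : (Cell G S →₀ ℤ) →ₗ[ℤ] A} (h : Eqv (permRep G (Cell G S)) α φ) :
    φ = orb α fun s => φ (Finsupp.single ⟨1, s⟩ 1) := by
  refine Finsupp.lhom_ext' fun c => LinearMap.ext_ring ?_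
  simp [← h c.g]

theorem FPB_congr_sub {n : ℕ} (ρ : Representation ℤ G A) {Z Z' : Submodule ℤ A} (h : Z = Z')
    (hZ : ∀ g, Z ≤ Z.comap (ρ g)) (hZ' : ∀ g, Z' ≤ Z'.comap (ρ g))
    (hF : FP G n (ρ.subrepresentation Z hZ)) : FP G n (ρ.subrepresentation Z' hZ') := by
  subst h; exact hF

theorem FPB_mk0 (S : Type) [hS : Finite S] {φ : (Cell G S →₀ ℤ) →ₗ[ℤ] A}
    (h : Eqv (permRep G (Cell G S)) α φ) (hs : Surjective φ) : FP G 0 α :=
  ⟨S, hS, _, by rw [← FPB_eq_orb h]; exact hs⟩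

theorem FPB_mkS {n : ℕ} (S : Type) [hS : Finite S] {φ : (Cell G S →₀ ℤ) →ₗ[ℤ] A}
    (h : Eqv (permRep G (Cell G S)) α φ) (hs : Surjective φ) (hK : FP G n h.kerRep) :
    FP G (n + 1) α :=
  ⟨S, hS, _, by rw [← FPB_eq_orb h]; exact hs,
    FPB_congr_sub _ (by rw [← FPB_eq_orb h]) _ _ hK⟩

/-- lifting through an injection with prescribed image -/
theorem FPB_lift {X : Type} [AddCommGroup X] {ξ : Representation ℤ G X} {f : A →ₗ[ℤ] B}
    {g : B →ₗ[ℤ] C} (hf : Eqv α β f) (hi : Injective f) (he : Exact f g) {u : X →ₗ[ℤ] B}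
    (hu : Eqv ξ β u) (h0 : ∀ x, g (u x) = 0) :
    ∃ ψ : X →ₗ[ℤ] A, Eqv ξ α ψ ∧ ∀ x, f (ψ x) = u x := by
  choose ψ hψ using fun x => (he (u x)).1 (h0 x)
  refine ⟨{ toFun := ψ, map_add' := fun x y => hi ?_, map_smul' := fun a x => hi ?_ },
    fun t x => hi ?_, hψ⟩
  · rw [map_add, hψ, hψ, hψ, map_add]
  · rw [map_smul, hψ, hψ, map_smul]; rfl
  · show f (ψ (ξ t x)) = f (α t (ψ x))
    rw [hf, hψ, hψ, hu]

theorem FP.of_bij {n : ℕ} {f : A →ₗ[ℤ] B} (h : Eqv α β f) (hf : Bijective f) (hA : FP G n α) :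
    FP G n β := by
  cases n with
  | zero =>
    obtain ⟨S, hS, v, hv⟩ := hA
    exact FPB_mk0 S (h.comp (eqv_orb α v)) (hf.2.comp hv)
  | succ n =>
    obtain ⟨S, hS, v, hv, hK⟩ := hA
    refine ⟨S, hS, fun s => f (v s), ?_, ?_⟩
    · rw [← FPB_comp_orb h]; exact hf.2.comp hv
    · have hk : LinearMap.ker (orb β fun s => f (v s)) = LinearMap.ker (orb α v) := by
        rw [← FPB_comp_orb h]; exact LinearMap.ker_comp_of_ker_eq_bot _ (LinearMap.ker_eq_bot.2 hf.1)
      exact FPB_congr_sub _ hk.symm _ _ hK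

theorem FP.zero_of_surj {f : A →ₗ[ℤ] B} (h : Eqv α β f) (hf : Surjective f) (hA : FP G 0 α) :
    FP G 0 β := by
  obtain ⟨S, hS, v, hv⟩ := hA
  exact FPB_mk0 S (h.comp (eqv_orb α v)) (hf.comp hv)

theorem FP.mono_succ {n : ℕ} (hA : FP G (n + 1) α) : FP G n α := by
  induction n generalizing A with
  | zero =>
    obtain ⟨S, hS, v, hv, -⟩ := hA
    exact ⟨S, hS, v, hv⟩
  | succ n ih =>
    obtain ⟨S, hS, v, hv, hK⟩ := hA
    exact ⟨S, hS, v, hv, ih hK⟩

theorem FP.mono {m n : ℕ} (h : m ≤ n) (hA : FP G n α) : FP G m α := by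
  induction h with
  | refl => exact hA
  | step _ ih => exact ih hA.mono_succ

/-- the zero representation (`S = Empty`) -/
theorem fp_of_subsingleton [Subsingleton A] (n : ℕ) : FP G n α := by
  induction n generalizing A with
  | zero => exact ⟨Empty, inferInstance, Empty.elim, fun x => ⟨0, Subsingleton.elim _ _⟩⟩
  | succ n ih =>
    haveI : IsEmpty (Cell G Empty) := ⟨fun c => c.s.elim⟩
    exact ⟨Empty, inferInstance, Empty.elim, fun x => ⟨0, Subsingleton.elim _ _⟩, ih⟩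

/-- free representations of finite rank (`v s = single ⟨1, s⟩ 1`, `orb` is the identity) -/
theorem fp_free (S : Type) [Finite S] (n : ℕ) : FP G n (permRep G (Cell G S)) := by
  have hid : Eqv (permRep G (Cell G S)) (permRep G (Cell G S)) LinearMap.id := fun _ _ => rfl
  cases n with
  | zero => exact FPB_mk0 S hid surjective_id
  | succ n =>
    haveI : Subsingleton (LinearMap.ker (LinearMap.id : (Cell G S →₀ ℤ) →ₗ[ℤ] _)) :=
      ⟨fun x y => Subtype.ext ((LinearMap.mem_ker.1 x.2).trans (LinearMap.mem_ker.1 y.2).symm)⟩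
    exact FPB_mkS S hid surjective_id (fp_of_subsingleton n)

theorem FPB_horseshoe {f : A →ₗ[ℤ] B} {g : B →ₗ[ℤ] C} (hf : Eqv α β f) (hg : Eqv β γ g)
    (hi : Injective f) (hs : Surjective g) (he : Exact f g) {SA SC : Type} (vA : SA → A)
    (vC : SC → C) (hA : Surjective (orb α vA)) (hC : Surjective (orb γ vC)) :
    ∃ (b : (Cell G (SA ⊕ SC) →₀ ℤ) →ₗ[ℤ] B) (hb : Eqv (permRep G (Cell G (SA ⊕ SC))) β b),
      Surjective b ∧ ∃ (i : LinearMap.ker (orb α vA) →ₗ[ℤ] LinearMap.ker b)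
        (p : LinearMap.ker b →ₗ[ℤ] LinearMap.ker (orb γ vC)),
        Eqv (eqv_orb α vA).kerRep hb.kerRep i ∧ Eqv hb.kerRep (eqv_orb γ vC).kerRep p ∧
        Injective i ∧ Surjective p ∧ Exact i p := by
  choose w hw using fun s => hs (vC s)
  have hgf : ∀ x, g (f x) = 0 := fun x => (he (f x)).2 ⟨x, rfl⟩
  set b := orb β (Sum.elim (fun s => f (vA s)) w) with hbdef
  set i := orb (permRep G (Cell G (SA ⊕ SC)))
    (fun s : SA => Finsupp.single (⟨1, Sum.inl s⟩ : Cell G (SA ⊕ SC)) (1 : ℤ)) with hidef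
  set j := orb (permRep G (Cell G (SA ⊕ SC)))
    (fun s : SC => Finsupp.single (⟨1, Sum.inr s⟩ : Cell G (SA ⊕ SC)) (1 : ℤ)) with hjdef
  set p := orb (permRep G (Cell G SC))
    (Sum.elim (fun _ : SA => 0) fun s : SC => Finsupp.single (⟨1, s⟩ : Cell G SC) (1 : ℤ))
    with hpdef
  set q := orb (permRep G (Cell G SA))
    (Sum.elim (fun s : SA => Finsupp.single (⟨1, s⟩ : Cell G SA) (1 : ℤ)) fun _ : SC => 0)
    with hqdef
  have e1 : ∀ x, q (i x) = x := fun x => LinearMap.congr_fun (show q ∘ₗ i = LinearMap.id from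
    Finsupp.lhom_ext' fun c => LinearMap.ext_ring (by simp [hqdef, hidef])) x
  have e2 : ∀ x, p (j x) = x := fun x => LinearMap.congr_fun (show p ∘ₗ j = LinearMap.id from
    Finsupp.lhom_ext' fun c => LinearMap.ext_ring (by simp [hpdef, hjdef])) x
  have e3 : ∀ x, p (i x) = 0 := fun x => LinearMap.congr_fun (show p ∘ₗ i = 0 from
    Finsupp.lhom_ext' fun c => LinearMap.ext_ring (by simp [hpdef, hidef])) x
  have e4 : ∀ x, i (q x) + j (p x) = x := fun x =>
    LinearMap.congr_fun (show i ∘ₗ q + j ∘ₗ p = LinearMap.id from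
      Finsupp.lhom_ext' fun c => LinearMap.ext_ring (by
        rcases c with ⟨t, s | s⟩ <;> simp [hpdef, hidef, hqdef, hjdef])) x
  have e5 : ∀ x, b (i x) = f (orb α vA x) := fun x =>
    LinearMap.congr_fun (show b ∘ₗ i = f ∘ₗ orb α vA from
      Finsupp.lhom_ext' fun c => LinearMap.ext_ring (by simp [hbdef, hidef, hf c.g])) x
  have e6 : ∀ x, g (b x) = orb γ vC (p x) := fun x =>
    LinearMap.congr_fun (show g ∘ₗ b = orb γ vC ∘ₗ p from
      Finsupp.lhom_ext' fun c => LinearMap.ext_ring (by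
        rcases c with ⟨t, s | s⟩ <;> simp [hpdef, hbdef, hg t, hgf, hw])) x
  have ei : Eqv (permRep G (Cell G SA)) (permRep G (Cell G (SA ⊕ SC))) i := eqv_orb _ _
  have ep : Eqv (permRep G (Cell G (SA ⊕ SC))) (permRep G (Cell G SC)) p := eqv_orb _ _
  refine ⟨b, eqv_orb _ _, fun y => ?_,
    i.restrict (fun x hx => by
      rw [LinearMap.mem_ker, e5, LinearMap.mem_ker.1 hx, map_zero]),
    p.restrict (fun x hx => by
      rw [LinearMap.mem_ker, ← e6, LinearMap.mem_ker.1 hx, map_zero]),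
    fun t x => Subtype.ext (ei t x.1), fun t x => Subtype.ext (ep t x.1),
    fun x y hxy => Subtype.ext ?_, fun z => ?_, fun y => ⟨fun hy => ?_, ?_⟩⟩
  · obtain ⟨z, hz⟩ := hC (g y)
    obtain ⟨a, ha⟩ := (he (y - b (j z))).1 (by rw [map_sub, e6, e2, hz, sub_self])
    obtain ⟨x, rfl⟩ := hA a
    exact ⟨i x + j z, by rw [map_add, e5, ha, sub_add_cancel]⟩
  · have : i x.1 = i y.1 := congrArg Subtype.val hxy
    rw [← e1 x.1, this, e1]
  · obtain ⟨a, ha⟩ := (he (b (j z.1))).1 (by rw [e6, e2]; exact z.2)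
    obtain ⟨x, rfl⟩ := hA a
    refine ⟨⟨j z.1 - i x, by rw [LinearMap.mem_ker, map_sub, e5, ha, sub_self]⟩, Subtype.ext ?_⟩
    show p (j z.1 - i x) = z.1
    rw [map_sub, e2, e3, sub_zero]
  · have h0 : p y.1 = 0 := congrArg Subtype.val hy
    have h1 : i (q y.1) = y.1 := by
      have := e4 y.1
      rwa [h0, map_zero, add_zero] at this
    refine ⟨⟨q y.1, ?_⟩, Subtype.ext h1⟩
    rw [LinearMap.mem_ker]
    apply hi
    rw [← e5, h1, map_zero]; exact y.2
  · rintro ⟨x, rfl⟩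
    exact Subtype.ext (e3 x.1)

/-- extensions -/
theorem FP.ext {n : ℕ} {f : A →ₗ[ℤ] B} {g : B →ₗ[ℤ] C} (hf : Eqv α β f) (hg : Eqv β γ g)
    (hi : Injective f) (hs : Surjective g) (he : Exact f g) (hA : FP G n α) (hC : FP G n γ) :
    FP G n β := by
  induction n generalizing A B C with
  | zero =>
    obtain ⟨SA, hSA, vA, hvA⟩ := hA
    obtain ⟨SC, hSC, vC, hvC⟩ := hC
    obtain ⟨b, hb, hbs, -⟩ := FPB_horseshoe hf hg hi hs he vA vC hvA hvC
    exact FPB_mk0 _ hb hbs
  | succ n ih =>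
    obtain ⟨SA, hSA, vA, hvA, hKA⟩ := hA
    obtain ⟨SC, hSC, vC, hvC, hKC⟩ := hC
    obtain ⟨b, hb, hbs, i, p, h1, h2, h3, h4, h5⟩ := FPB_horseshoe hf hg hi hs he vA vC hvA hvC
    exact FPB_mkS _ hb hbs (ih h1 h2 h3 h4 h5 hKA hKC)

/-- quotients -/
theorem FP.quot {n : ℕ} {f : A →ₗ[ℤ] B} {g : B →ₗ[ℤ] C} (hf : Eqv α β f) (hg : Eqv β γ g)
    (hi : Injective f) (hs : Surjective g) (he : Exact f g) (hA : FP G n α)
    (hB : FP G (n + 1) β) : FP G (n + 1) γ := by
  obtain ⟨S, hS, v, hv, hK⟩ := hB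
  have hφ := hg.comp (eqv_orb β v)
  refine FPB_mkS S hφ (hs.comp hv) ?_
  obtain ⟨ψ, hψ, hfψ⟩ := FPB_lift (ξ := hφ.kerRep) hf hi he
    (u := orb β v ∘ₗ (LinearMap.ker (g ∘ₗ orb β v)).subtype)
    ((eqv_orb β v).comp (eqv_subtype _ _ hφ.ker_le)) (fun x => x.2)
  refine FP.ext (f := Submodule.inclusion (LinearMap.ker_le_ker_comp (orb β v) g)) (g := ψ)
    (fun _ _ => rfl) hψ (Submodule.inclusion_injective _) (fun a => ?_)
    (fun y => ⟨fun hy => ?_, ?_⟩) hK hA
  · obtain ⟨x, hx⟩ := hv (f a)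
    refine ⟨⟨x, ?_⟩, hi ?_⟩
    · rw [LinearMap.mem_ker, LinearMap.comp_apply, hx]; exact (he _).2 ⟨a, rfl⟩
    · rw [hfψ]; exact hx
  · have := hfψ y
    rw [hy, map_zero] at this
    exact ⟨⟨y.1, this.symm⟩, rfl⟩
  · rintro ⟨x, rfl⟩
    apply hi
    rw [hfψ, map_zero]; exact x.2

/-- subrepresentations -/
theorem FP.sub {n : ℕ} {f : A →ₗ[ℤ] B} {g : B →ₗ[ℤ] C} (hf : Eqv α β f) (hg : Eqv β γ g)
    (hi : Injective f) (hs : Surjective g) (he : Exact f g) (hB : FP G n β)
    (hC : FP G (n + 1) γ) : FP G n α := by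
  obtain ⟨S, hS, v, hv, hK⟩ := hC
  choose w hw using fun s => hs (v s)
  have hl : ∀ x, g (orb β w x) = orb γ v x := fun x => by
    have := LinearMap.congr_fun (FPB_comp_orb hg w) x
    simp only [hw] at this
    exact this
  obtain ⟨ψ, hψ, hfψ⟩ := FPB_lift (ξ := (eqv_orb γ v).kerRep) hf hi he
    (u := orb β w ∘ₗ (LinearMap.ker (orb γ v)).subtype)
    ((eqv_orb β w).comp (eqv_subtype _ _ (eqv_orb γ v).ker_le)) (fun x => (hl x.1).trans x.2)
  have hP : FP G n (α.prod (permRep G (Cell G S))) := by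
    refine FP.ext (f := LinearMap.prod (-ψ) (LinearMap.ker (orb γ v)).subtype)
      (g := LinearMap.coprod f (orb β w)) (fun t x => ?_) (fun t x => ?_) (fun x y hxy => ?_)
      (fun y => ?_) (fun y => ⟨fun hy => ?_, ?_⟩) hK hB
    · refine Prod.ext ?_ rfl
      show -ψ _ = α t (-ψ x)
      rw [hψ, map_neg]
    · show f (α t x.1) + orb β w (permRep G _ t x.2) = β t (f x.1 + orb β w x.2)
      rw [hf, eqv_orb, map_add]
    · exact Subtype.ext (congrArg Prod.snd hxy)
    · obtain ⟨x, hx⟩ := hv (g y)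
      obtain ⟨a, ha⟩ := (he (y - orb β w x)).1 (by rw [map_sub, hl, hx, sub_self])
      refine ⟨(a, x), ?_⟩
      show f a + orb β w x = y
      rw [ha, sub_add_cancel]
    · have h0 : f y.1 + orb β w y.2 = 0 := hy
      have h1 : orb γ v y.2 = 0 := by
        have := congrArg g h0
        rwa [map_add, (he _).2 ⟨y.1, rfl⟩, zero_add, hl, map_zero] at this
      refine ⟨⟨y.2, h1⟩, Prod.ext (hi ?_) rfl⟩
      show f (-ψ ⟨y.2, h1⟩) = f y.1
      rw [map_neg, hfψ]
      exact (eq_neg_of_add_eq_zero_left h0).symm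
    · rintro ⟨x, rfl⟩
      show f (-ψ x) + orb β w x.1 = 0
      rw [map_neg, hfψ]
      exact neg_add_cancel _
  have hfst : Eqv (α.prod (permRep G (Cell G S))) α (LinearMap.fst ℤ _ _) := fun _ _ => rfl
  cases n with
  | zero => exact FP.zero_of_surj hfst LinearMap.fst_surjective hP
  | succ n =>
    refine FP.quot (α := permRep G (Cell G S)) (f := LinearMap.inr ℤ _ _) (fun t x => ?_) hfst
      LinearMap.inr_injective LinearMap.fst_surjective Exact.inr_fst (fp_free S n) hP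
    exact Prod.ext (map_zero (α t)).symm rfl

/-- the kernel of a surjection between `FP_∞` representations -/
theorem FPinf.ker {g : B →ₗ[ℤ] C} (hg : Eqv β γ g) (hs : Surjective g) (hB : FPinf G β)
    (hC : FPinf G γ) : FPinf G hg.kerRep := fun n =>
  FP.sub (eqv_subtype β _ hg.ker_le) hg (Submodule.injective_subtype _) hs
    (LinearMap.exact_subtype_ker_map g) (hB n) (hC (n + 1))

end Crest.Agent.R185
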