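import Mathlib

/-!
# Row 185: the finiteness properties `FP_n` (definitions)

Everything is phrased with `Representation ℤ G V` (no group rings, no type synonyms):
restriction along `φ : H →* G` is `ρ.comp φ`, subrepresentations are `ρ.subrepresentation W h`.
-/

set_option autoImplicit false

namespace Crest.Agent.R185

/-- the free `G`-set on `S` -/
@[ext] structure Cell (G S : Type) where
  g : G
  s : S

instance (G S : Type) [Group G] : MulAction G (Cell G S) where
  smul h c := ⟨h * c.g, c.s⟩
  one_smul c := Cell.ext (one_mul c.g) rfl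
  mul_smul a b c := Cell.ext (mul_assoc a b c.g) rfl

@[simp] theorem Cell.smul_g {G S : Type} [Group G] (h : G) (c : Cell G S) : (h • c).g = h * c.g :=
  rfl

@[simp] theorem Cell.smul_s {G S : Type} [Group G] (h : G) (c : Cell G S) : (h • c).s = c.s := rfl

@[simp] theorem Cell.smul_mk {G S : Type} [Group G] (h g : G) (s : S) :
    h • (Cell.mk g s) = Cell.mk (h * g) s := rfl

/-- the permutation representation on `X →₀ ℤ` -/
noncomputable def permRep (G X : Type) [Group G] [MulAction G X] :
    Representation ℤ G (X →₀ ℤ) where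
  toFun g := Finsupp.lmapDomain ℤ ℤ fun x : X => g • x
  map_one' := by ext; simp
  map_mul' a b := by ext; simp [mul_smul]

@[simp] theorem permRep_single {G X : Type} [Group G] [MulAction G X] (g : G) (x : X) (n : ℤ) :
    permRep G X g (Finsupp.single x n) = Finsupp.single (g • x) n := by
  simp [permRep]

theorem permRep_apply {G X : Type} [Group G] [MulAction G X] (g : G) (c : X →₀ ℤ) :
    permRep G X g c = Finsupp.mapDomain (fun x : X => g • x) c := rfl

/-- the augmentation: sum of the coefficients -/
noncomputable def aug (X : Type) : (X →₀ ℤ) →ₗ[ℤ] ℤ := Finsupp.linearCombination ℤ fun _ => 1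

@[simp] theorem aug_single {X : Type} (x : X) (n : ℤ) : aug X (Finsupp.single x n) = n := by
  simp [aug]

section Eqv

variable {G : Type} [Group G] {V W : Type} [AddCommGroup V] [AddCommGroup W]

/-- `f` intertwines `ρ` and `σ` -/
def Eqv (ρ : Representation ℤ G V) (σ : Representation ℤ G W) (f : V →ₗ[ℤ] W) : Prop :=
  ∀ g x, f (ρ g x) = σ g (f x)

theorem Eqv.ker_le {ρ : Representation ℤ G V} {σ : Representation ℤ G W} {f : V →ₗ[ℤ] W}
    (h : Eqv ρ σ f) (g : G) : LinearMap.ker f ≤ (LinearMap.ker f).comap (ρ g) := by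
  intro x hx
  rw [Submodule.mem_comap, LinearMap.mem_ker, h, LinearMap.mem_ker.1 hx, map_zero]

theorem Eqv.range_le {ρ : Representation ℤ G V} {σ : Representation ℤ G W} {f : V →ₗ[ℤ] W}
    (h : Eqv ρ σ f) (g : G) : LinearMap.range f ≤ (LinearMap.range f).comap (σ g) := by
  rintro _ ⟨x, rfl⟩
  exact ⟨ρ g x, h g x⟩

/-- the kernel of an intertwiner as a representation -/
def Eqv.kerRep {ρ : Representation ℤ G V} {σ : Representation ℤ G W} {f : V →ₗ[ℤ] W}
    (h : Eqv ρ σ f) : Representation ℤ G (LinearMap.ker f) :=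
  ρ.subrepresentation _ h.ker_le

theorem Eqv.comp {U : Type} [AddCommGroup U] {τ : Representation ℤ G U}
    {ρ : Representation ℤ G V} {σ : Representation ℤ G W} {f : V →ₗ[ℤ] W} {e : U →ₗ[ℤ] V}
    (hf : Eqv ρ σ f) (he : Eqv τ ρ e) : Eqv τ σ (f ∘ₗ e) := fun g x => by
  rw [LinearMap.comp_apply, he, hf, LinearMap.comp_apply]

theorem eqv_subtype (ρ : Representation ℤ G V) (Z : Submodule ℤ V)
    (hZ : ∀ g, Z ≤ Z.comap (ρ g)) : Eqv (ρ.subrepresentation Z hZ) ρ Z.subtype := fun _ _ => rfl

/-- an additive map out of a permutation representation is an intertwiner as soon as it is one on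
the basis -/
theorem eqv_of_single {X : Type} [MulAction G X] {σ : Representation ℤ G W}
    {f : (X →₀ ℤ) →ₗ[ℤ] W}
    (h : ∀ (g : G) (x : X), f (Finsupp.single (g • x) 1) = σ g (f (Finsupp.single x 1))) :
    Eqv (permRep G X) σ f := by
  intro g c
  have : f ∘ₗ permRep G X g = σ g ∘ₗ f := by
    refine Finsupp.lhom_ext' fun x => LinearMap.ext_ring ?_
    simpa using h g x
  exact LinearMap.congr_fun this c

theorem eqv_aug (X : Type) [MulAction G X] :
    Eqv (permRep G X) (Representation.trivial ℤ G ℤ) (aug X) :=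
  eqv_of_single fun _ _ => by simp

/-- the intertwiner from the free representation on `S` that sends `(g, s)` to `g • v s` -/
noncomputable def orb (ρ : Representation ℤ G V) {S : Type} (v : S → V) :
    (Cell G S →₀ ℤ) →ₗ[ℤ] V :=
  Finsupp.linearCombination ℤ fun c => ρ c.g (v c.s)

@[simp] theorem orb_single (ρ : Representation ℤ G V) {S : Type} (v : S → V) (c : Cell G S)
    (n : ℤ) : orb ρ v (Finsupp.single c n) = n • ρ c.g (v c.s) := by
  simp [orb]

theorem eqv_orb (ρ : Representation ℤ G V) {S : Type} (v : S → V) :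
    Eqv (permRep G (Cell G S)) ρ (orb ρ v) :=
  eqv_of_single fun _ _ => by simp

end Eqv

/-- `FP G n ρ`: the representation `ρ` is of type `FP_n`: it has a partial resolution
`F_n → ⋯ → F_0 → V → 0` by finitely generated free representations. -/
def FP (G : Type) [Group G] :
    ℕ → {V : Type} → [AddCommGroup V] → Representation ℤ G V → Prop
  | 0, V, _, ρ => ∃ (S : Type) (_ : Finite S) (v : S → V), Function.Surjective (orb ρ v)
  | n + 1, V, _, ρ => ∃ (S : Type) (_ : Finite S) (v : S → V), Function.Surjective (orb ρ v) ∧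
      FP G n (eqv_orb ρ v).kerRep

/-- type `FP_∞` for a representation -/
def FPinf (G : Type) [Group G] {V : Type} [AddCommGroup V]
    (ρ : Representation ℤ G V) : Prop := ∀ n, FP G n ρ

/-- the group `G` is of type `FP_n` -/
def IsFP (G : Type) [Group G] (n : ℕ) : Prop := FP G n (Representation.trivial ℤ G ℤ)

/-- the group `G` is of type `FP_∞` -/
def IsFPinf (G : Type) [Group G] : Prop := ∀ n, IsFP G n

/-- finitely many orbits, all stabilisers of type `FP_∞` -/
def Cofin (G X : Type) [Group G] [MulAction G X] : Prop :=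
  Finite (MulAction.orbitRel.Quotient G X) ∧ ∀ x : X, IsFPinf (MulAction.stabilizer G x)

end Crest.Agent.R185
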