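import Crest.Agent.R185.FPBasic

/-!
# Row 185: induction from a subgroup; permutation representations

`indRep H ρ` is the induced representation on `(G ⧸ H) →₀ V`, written with the transversal
`Quotient.out`: `g • single q v = single (g • q) (ρ (coc g q) v)`,
`coc g q = (g • q).out⁻¹ * g * q.out ∈ H`.
-/

set_option autoImplicit false

namespace Crest.Agent.R185

open Function

variable {G : Type} [Group G]

/-- the cocycle of the transversal `Quotient.out` -/
noncomputable def coc (H : Subgroup G) (g : G) (q : G ⧸ H) : H :=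
  ⟨(g • q).out⁻¹ * (g * q.out), by
    rw [← QuotientGroup.eq, QuotientGroup.out_eq', ← smul_eq_mul, ← MulAction.Quotient.smul_mk,
      QuotientGroup.out_eq']⟩

theorem coc_one (H : Subgroup G) (q : G ⧸ H) : coc H 1 q = 1 := by
  ext; simp [coc]

theorem coc_mul (H : Subgroup G) (a b : G) (q : G ⧸ H) :
    coc H (a * b) q = coc H a (b • q) * coc H b q := by
  ext; simp [coc, mul_smul, mul_assoc]

/-- the induced representation -/
noncomputable def indRep (H : Subgroup G) {V : Type} [AddCommGroup V]
    (ρ : Representation ℤ H V) : Representation ℤ G ((G ⧸ H) →₀ V) where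
  toFun g := Finsupp.lsum ℤ fun q => Finsupp.lsingle (g • q) ∘ₗ ρ (coc H g q)
  map_one' := by ext; simp [coc_one]
  map_mul' a b := by ext; simp [coc_mul, mul_smul]

@[simp] theorem indRep_single (H : Subgroup G) {V : Type} [AddCommGroup V]
    (ρ : Representation ℤ H V) (g : G) (q : G ⧸ H) (v : V) :
    indRep H ρ g (Finsupp.single q v) = Finsupp.single (g • q) (ρ (coc H g q) v) := by
  simp [indRep]

theorem ind_eqv_map (H : Subgroup G) {V W : Type} [AddCommGroup V] [AddCommGroup W]
    {ρ : Representation ℤ H V} {σ : Representation ℤ H W} {f : V →ₗ[ℤ] W} (h : Eqv ρ σ f) :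
    Eqv (indRep H ρ) (indRep H σ) (Finsupp.mapRange.linearMap f) := by
  intro g c
  have : Finsupp.mapRange.linearMap f ∘ₗ indRep H ρ g =
      indRep H σ g ∘ₗ Finsupp.mapRange.linearMap f := by
    refine Finsupp.lhom_ext fun q v => ?_
    simp [h _ v]
  exact LinearMap.congr_fun this c

theorem ind_exact_map (I : Type) {U V W : Type} [AddCommGroup U] [AddCommGroup V] [AddCommGroup W]
    {f : U →ₗ[ℤ] V} {g : V →ₗ[ℤ] W} (h : Exact f g) :
    Exact (Finsupp.mapRange.linearMap (α := I) f) (Finsupp.mapRange.linearMap (α := I) g) := by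
  intro c
  have h1 := Finsupp.range_mapRange (α := I) f (map_zero f)
  change _ ↔ c ∈ Set.range (Finsupp.mapRange (α := I) f (map_zero f))
  rw [h1, Finsupp.ext_iff]
  exact forall_congr' fun i => h (c i)

/-- the bijection `G × S ≃ (G ⧸ H) × (H × S)` -/
noncomputable def indCellEquiv (H : Subgroup G) (S : Type) : Cell G S ≃ (G ⧸ H) × Cell H S where
  toFun c := ((c.g : G ⧸ H), ⟨⟨(c.g : G ⧸ H).out⁻¹ * c.g, by
    rw [← QuotientGroup.eq, QuotientGroup.out_eq']⟩, c.s⟩)
  invFun p := ⟨p.1.out * p.2.g, p.2.s⟩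
  left_inv c := by ext <;> simp
  right_inv p := by
    obtain ⟨q, h, s⟩ := p
    have : ((q.out * h : G) : G ⧸ H) = q := by
      rw [QuotientGroup.mk_mul_of_mem _ h.2, QuotientGroup.out_eq']
    refine Prod.ext this (Cell.ext (Subtype.ext ?_) rfl)
    simp [this]

theorem ind_fp_free (H : Subgroup G) (S : Type) [Finite S] (n : ℕ) :
    FP G n (indRep H (permRep H (Cell H S))) := by
  let e : (Cell G S →₀ ℤ) ≃ₗ[ℤ] ((G ⧸ H) →₀ (Cell H S →₀ ℤ)) :=
    (Finsupp.domLCongr (indCellEquiv H S)).trans (Finsupp.curryLinearEquiv ℤ)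
  have he : ∀ c : Cell G S, e (Finsupp.single c 1) =
      Finsupp.single (indCellEquiv H S c).1 (Finsupp.single (indCellEquiv H S c).2 1) := by
    intro c
    rw [← Finsupp.curry_single]
    simp only [e, LinearEquiv.trans_apply, Finsupp.domLCongr_single]
    rfl
  refine FP.of_bij (f := e.toLinearMap) (eqv_of_single fun g c => ?_) e.bijective (fp_free S n)
  rw [LinearEquiv.coe_coe, he, he, indRep_single, permRep_single]
  have h1 : (indCellEquiv H S (g • c)).1 = g • (indCellEquiv H S c).1 := rfl
  have h2 : (indCellEquiv H S (g • c)).2 =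
      coc H g (indCellEquiv H S c).1 • (indCellEquiv H S c).2 := by
    refine Cell.ext (Subtype.ext ?_) rfl
    change ((g * c.g : G) : G ⧸ H).out⁻¹ * (g * c.g) =
      (g • (c.g : G ⧸ H)).out⁻¹ * (g * (c.g : G ⧸ H).out) * ((c.g : G ⧸ H).out⁻¹ * c.g)
    have : g • (c.g : G ⧸ H) = ((g * c.g : G) : G ⧸ H) := rfl
    rw [this]
    group
  rw [h1, h2]

/-- Induction preserves `FP_n`.  Induction on `n`: `Finsupp.mapRange.linearMap f` is an intertwiner
of the induced representations and preserves injective / surjective / exact; the induced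
representation of `permRep H (Cell H S)` is isomorphic to `permRep G (Cell G S)` through
`single q (single ⟨h, s⟩ n) ↦ single ⟨q.out * h, s⟩ n` (bijection `(G ⧸ H) × H ≃ G`); conclude with
`FP.zero_of_surj` / `FP.quot`, `fp_free`, `FP.of_bij`. -/
theorem FP.ind (H : Subgroup G) {n : ℕ} {V : Type} [AddCommGroup V] {ρ : Representation ℤ H V}
    (h : FP H n ρ) : FP G n (indRep H ρ) := by
  induction n generalizing V with
  | zero =>
    obtain ⟨S, hS, v, hv⟩ := h
    exact FP.zero_of_surj (ind_eqv_map H (eqv_orb ρ v)) (Finsupp.mapRange_surjective _ (map_zero _) hv)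
      (ind_fp_free H S 0)
  | succ n ih =>
    obtain ⟨S, hS, v, hv, hk⟩ := h
    exact FP.quot (ind_eqv_map H (eqv_subtype _ _ (eqv_orb ρ v).ker_le)) (ind_eqv_map H (eqv_orb ρ v))
      (Finsupp.mapRange_injective _ (map_zero _) (Submodule.injective_subtype _))
      (Finsupp.mapRange_surjective _ (map_zero _) hv)
      (ind_exact_map _ (LinearMap.exact_subtype_ker_map _)) (ih hk) (ind_fp_free H S _)

/-- a transitive `G`-set: `permRep G X ≅ indRep (stabilizer x) trivial`
(`MulAction.orbitEquivQuotientStabilizer` / `ofQuotientStabilizer`) -/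
theorem fp_perm_of_transitive {X : Type} [MulAction G X] (x : X) (hx : ∀ y, ∃ g : G, g • x = y)
    {n : ℕ} (h : IsFP (MulAction.stabilizer G x) n) : FP G n (permRep G X) := by
  have h1 := FP.ind (MulAction.stabilizer G x) h
  have h2 : indRep (MulAction.stabilizer G x) (Representation.trivial ℤ _ ℤ) =
      permRep G (G ⧸ MulAction.stabilizer G x) := by
    refine MonoidHom.ext fun g => Finsupp.lhom_ext fun q v => ?_
    simp
  rw [h2] at h1
  refine FP.of_bij (f := Finsupp.lmapDomain ℤ ℤ (MulAction.ofQuotientStabilizer G x))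
    (eqv_of_single fun g q => ?_) ⟨Finsupp.mapDomain_injective
      (MulAction.injective_ofQuotientStabilizer G x), Finsupp.mapDomain_surjective fun y => ?_⟩ h1
  · simp [MulAction.ofQuotientStabilizer_smul]
  · obtain ⟨g, hg⟩ := hx y
    exact ⟨QuotientGroup.mk g, hg⟩

theorem fp_perm_split {A B C : Type} [MulAction G A] [MulAction G B] [MulAction G C] (i : A → B)
    (j : C → B) (hi : ∀ (g : G) a, i (g • a) = g • i a) (hj : ∀ (g : G) c, j (g • c) = g • j c)
    (hi' : Injective i) (hj' : Injective j) (hij : ∀ b, b ∈ Set.range i ↔ b ∉ Set.range j) {n : ℕ}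
    (hA : FP G n (permRep G A)) (hC : FP G n (permRep G C)) : FP G n (permRep G B) := by
  refine FP.ext (f := Finsupp.lmapDomain ℤ ℤ i) (g := Finsupp.lcomapDomain j hj')
    (eqv_of_single fun g a => ?_) (fun g c => ?_) (Finsupp.mapDomain_injective hi')
    (Finsupp.leftInverse_lcomapDomain_mapDomain j hj').surjective (fun c => ?_) hA hC
  · simp [hi]
  · ext z
    obtain ⟨z, rfl⟩ := (MulAction.bijective g).2 z
    change permRep G B g c (j (g • z)) = _
    rw [hj, permRep_apply, permRep_apply, Finsupp.mapDomain_apply (MulAction.injective g),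
      Finsupp.mapDomain_apply (MulAction.injective g)]
    rfl
  · constructor
    · intro hc
      refine ⟨Finsupp.comapDomain i c hi'.injOn, Finsupp.mapDomain_comapDomain i hi' c fun b hb => ?_⟩
      refine (hij b).2 ?_
      rintro ⟨z, rfl⟩
      exact Finsupp.mem_support_iff.1 hb (DFunLike.congr_fun hc z)
    · rintro ⟨d, rfl⟩
      ext z
      exact Finsupp.mapDomain_of_notMem_range d (j z) fun hz => (hij _).1 hz ⟨z, rfl⟩

/-- Finitely many orbits: induction on the number of orbits (state it for all `X` with a list or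
finset of points whose orbits cover `X`); split `X` into the orbit `O` of a point and its
complement (both `SubMulAction`s), `0 → (O →₀ ℤ) → (X →₀ ℤ) → (Oᶜ →₀ ℤ) → 0` with
`Finsupp.lmapDomain Subtype.val` and `Finsupp.lsubtypeDomain`/`lcomapDomain`, `FP.ext`; the
stabiliser in a `SubMulAction` is the stabiliser of the underlying point
(`SubMulAction.stabilizer_of_subMul`). -/
theorem Cofin.fpinf {X : Type} [MulAction G X] (h : Cofin G X) : FPinf G (permRep G X) := by
  classical
  intro n
  have key : ∀ (L : List X) (Y : SubMulAction G X), (∀ y ∈ Y, ∃ x ∈ L, ∃ g : G, g • x = y) →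
      FP G n (permRep G Y) := by
    intro L
    induction L with
    | nil =>
      intro Y hY
      have : IsEmpty Y := ⟨fun y => by simpa using hY y.1 y.2⟩
      exact fp_of_subsingleton n
    | cons x L ih =>
      intro Y hY
      let A : SubMulAction G X := ⟨{y | y ∈ Y ∧ ∃ g : G, g • x = y}, by
        rintro a y ⟨hy, g, rfl⟩
        exact ⟨Y.smul_mem a hy, a * g, mul_smul _ _ _⟩⟩
      let C : SubMulAction G X := ⟨{y | y ∈ Y ∧ ¬ ∃ g : G, g • x = y}, by
        rintro a y ⟨hy, hg⟩
        refine ⟨Y.smul_mem a hy, fun ⟨g, hg'⟩ => hg ⟨a⁻¹ * g, ?_⟩⟩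
        rw [mul_smul, hg', inv_smul_smul]⟩
      refine fp_perm_split (A := A) (C := C) (fun a => ⟨a.1, a.2.1⟩) (fun c => ⟨c.1, c.2.1⟩)
        (fun _ _ => rfl) (fun _ _ => rfl) (fun a b hab => Subtype.ext (congrArg (·.1) hab))
        (fun a b hab => Subtype.ext (congrArg (·.1) hab)) (fun y => ?_) ?_ (ih C fun y hy => ?_)
      · constructor
        · rintro ⟨a, rfl⟩ ⟨c, hc⟩
          have hc' : c.1 = a.1 := congrArg (·.1) hc
          exact c.2.2 (hc' ▸ a.2.2)
        · intro hy
          by_cases hg : ∃ g : G, g • x = y.1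
          · exact ⟨⟨y.1, y.2, hg⟩, rfl⟩
          · exact absurd ⟨⟨y.1, y.2, hg⟩, rfl⟩ hy
      · rcases isEmpty_or_nonempty A with hA | ⟨⟨a⟩⟩
        · exact fp_of_subsingleton n
        · refine fp_perm_of_transitive a (fun b => ?_) ?_
          · obtain ⟨g, hg⟩ := a.2.2
            obtain ⟨g', hg'⟩ := b.2.2
            refine ⟨g' * g⁻¹, Subtype.ext ?_⟩
            change (g' * g⁻¹) • a.1 = b.1
            rw [← hg, ← hg', mul_smul, inv_smul_smul]
          · rw [SubMulAction.stabilizer_of_subMul]
            exact h.2 _ n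
      · obtain ⟨z, hz, g, hg⟩ := hY y hy.1
        rcases List.mem_cons.1 hz with rfl | hz
        · exact absurd ⟨g, hg⟩ hy.2
        · exact ⟨z, hz, g, hg⟩
  have hfin := h.1
  have := Fintype.ofFinite (MulAction.orbitRel.Quotient G X)
  have h1 := key ((Finset.univ : Finset (MulAction.orbitRel.Quotient G X)).toList.map Quotient.out)
    ⊤ fun y _ => by
      have h2 : (MulAction.orbitRel G X) y (Quotient.out (Quotient.mk (MulAction.orbitRel G X) y)) :=
        Quotient.exact (Quotient.out_eq _).symm
      obtain ⟨g, hg⟩ := MulAction.orbitRel_apply.1 h2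
      exact ⟨_, List.mem_map.2 ⟨Quotient.mk _ y, by simp, rfl⟩, g, hg⟩
  refine FP.of_bij (f := Finsupp.lmapDomain ℤ ℤ (Subtype.val : (⊤ : SubMulAction G X) → X))
    (eqv_of_single fun g q => ?_) ⟨Finsupp.mapDomain_injective Subtype.val_injective,
      Finsupp.mapDomain_surjective fun y => ⟨⟨y, trivial⟩, rfl⟩⟩ h1
  simp

end Crest.Agent.R185
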