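import Crest.Agent.R176.RS

/-!
# Row 185: finite presentability (B. H. Neumann, P. Hall, Brown's criterion)
-/

set_option autoImplicit false

namespace Crest.Agent.R185

open Function

variable {G H : Type} [Group G] [Group H]

theorem fpres_lift {α : Type} (f : G →* H) (hf : Surjective f) (φ : FreeGroup α →* H) :
    ∃ ψ : FreeGroup α →* G, ∀ a, f (ψ a) = φ a := by
  refine ⟨FreeGroup.lift fun i => surjInv hf (φ (FreeGroup.of i)), fun a => ?_⟩
  have : f.comp (FreeGroup.lift fun i => surjInv hf (φ (FreeGroup.of i))) = φ := by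
    ext i
    simp [surjInv_eq]
  exact DFunLike.congr_fun this a

theorem fpres_map_ncl {F : Type} [Group F] (ψ : F →* G) {R : Set F} {N : Subgroup G} [N.Normal]
    (h : ψ '' R ⊆ N) {a : F} (ha : a ∈ Subgroup.normalClosure R) : ψ a ∈ N := by
  have : Subgroup.normalClosure R ≤ N.comap ψ :=
    Subgroup.normalClosure_le_normal fun r hr => h ⟨r, hr, rfl⟩
  exact this ha

/-- B. H. Neumann: the kernel of any surjection from a finitely generated group onto a finitely
presented group is finitely normally generated.  (`φ : F_n ↠ H` with relators `R`; lift `φ` to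
`ψ : F_n → G`; for generators `x` of `G` choose `w x` with `φ (w x) = f x`; the kernel is the normal
closure of `ψ R ∪ {x⁻¹ ψ (w x)}`.) -/
theorem ker_fng_of_fp [Group.FG G] [Group.IsFinitelyPresented H] (f : G →* H)
    (hf : Surjective f) : f.ker.IsFinitelyNormallyGenerated := by
  obtain ⟨n, φ, hφ, R, hR, hk⟩ := Group.IsFinitelyPresented.out (G := H)
  obtain ⟨S, hS, hSf⟩ := Group.fg_iff.1 (inferInstance : Group.FG G)
  obtain ⟨ψ, hψ⟩ := fpres_lift f hf φ
  let T : Set G := ψ '' R ∪ (fun x => x * (ψ (surjInv hφ (f x)))⁻¹) '' S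
  have hle : Subgroup.normalClosure T ≤ f.ker := by
    refine Subgroup.normalClosure_le_normal ?_
    rintro x (⟨r, hr, rfl⟩ | ⟨s, -, rfl⟩)
    · change f (ψ r) = 1
      rw [hψ]
      have : r ∈ φ.ker := hk ▸ Subgroup.subset_normalClosure hr
      exact this
    · change f (s * (ψ (surjInv hφ (f s)))⁻¹) = 1
      rw [map_mul, map_inv, hψ, surjInv_eq hφ, mul_inv_cancel]
  refine ⟨T, (hR.image _).union (hSf.image _), le_antisymm hle fun g hg => ?_⟩
  have htop : Subgroup.normalClosure T ⊔ ψ.range = ⊤ := by
    rw [eq_top_iff, ← hS, Subgroup.closure_le]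
    intro s hs
    have : s = s * (ψ (surjInv hφ (f s)))⁻¹ * ψ (surjInv hφ (f s)) := by simp
    rw [this]
    exact Subgroup.mul_mem_sup (Subgroup.subset_normalClosure (Or.inr ⟨s, hs, rfl⟩)) ⟨_, rfl⟩
  have hg' : g ∈ Subgroup.normalClosure T ⊔ ψ.range := htop ▸ Subgroup.mem_top g
  obtain ⟨m, hm, z, ⟨a, rfl⟩, rfl⟩ := Subgroup.mem_sup_of_normal_left.1 hg'
  have ha : a ∈ φ.ker := by
    have h1 : f m = 1 := hle hm
    have h2 : f (m * ψ a) = 1 := hg
    rw [map_mul, h1, one_mul, hψ] at h2
    exact h2
  rw [← hk] at ha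
  exact Subgroup.mul_mem _ hm
    (fpres_map_ncl ψ (Set.subset_union_left.trans Subgroup.subset_normalClosure) ha)

theorem fpres_fg_of_ext (f : G →* H) (hf : Surjective f) [h1 : Group.FG f.ker] [h2 : Group.FG H] :
    Group.FG G := by
  obtain ⟨S, hS, hSf⟩ := Group.fg_iff.1 h1
  obtain ⟨T, hT, hTf⟩ := Group.fg_iff.1 h2
  refine Group.fg_iff.2 ⟨f.ker.subtype '' S ∪ surjInv hf '' T, ?_, (hSf.image _).union (hTf.image _)⟩
  set K := Subgroup.closure (f.ker.subtype '' S ∪ surjInv hf '' T) with hK
  have e1 : f.ker ≤ K := by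
    have : Subgroup.closure (f.ker.subtype '' S) = f.ker := by
      rw [← MonoidHom.map_closure, hS, ← MonoidHom.range_eq_map, Subgroup.range_subtype]
    rw [← this]
    exact Subgroup.closure_mono Set.subset_union_left
  have e2 : K.map f = ⊤ := by
    rw [eq_top_iff, ← hT, Subgroup.closure_le]
    intro t ht
    exact ⟨surjInv hf t, Subgroup.subset_closure (Or.inr ⟨t, ht, rfl⟩), surjInv_eq hf t⟩
  have e3 := Subgroup.comap_map_eq f K
  rw [e2, Subgroup.comap_top, sup_eq_left.2 e1] at e3
  exact e3.symm

/-- P. Hall: an extension of a finitely presented group by a finitely presented group.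
(`F` free on generators of `N` and lifts of generators of `G ⧸ N`; relators: those of `N`, the
conjugation action of the lifts and their inverses on the generators of `N`, the relators of
`G ⧸ N` rewritten as words in `N`.  It also follows from `fp_of_action` applied to `G` acting on
`G ⧸ N` with a Rips-type relation; the direct proof is shorter.) -/
theorem fp_of_ext (f : G →* H) (hf : Surjective f) [Group.IsFinitelyPresented f.ker]
    [Group.IsFinitelyPresented H] : Group.IsFinitelyPresented G := by
  have := Crest.Agent.R176.fg_of_fp (G := f.ker)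
  have := Crest.Agent.R176.fg_of_fp (G := H)
  have hG : Group.FG G := fpres_fg_of_ext f hf
  obtain ⟨S, hS, hSf⟩ := Group.fg_iff.1 hG
  have : Finite S := hSf
  let π : FreeGroup S →* G := FreeGroup.lift Subtype.val
  have hπ : Surjective π := by
    rw [← MonoidHom.range_eq_top, FreeGroup.range_lift_eq_closure, Subtype.range_coe, hS]
  refine Group.IsFinitelyPresented.of_surjective π hπ ?_
  have := Crest.Agent.R176.fg_of_fp (G := FreeGroup S)
  obtain ⟨T, hTf, hT⟩ := ker_fng_of_fp (f.comp π) (hf.comp hπ)
  obtain ⟨n, φ, hφ, R, hR, hk⟩ := Group.IsFinitelyPresented.out (G := f.ker)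
  obtain ⟨ι, hι⟩ := fpres_lift π hπ (f.ker.subtype.comp φ)
  have hex : ∀ t : FreeGroup S, ∃ a, t ∈ (f.comp π).ker → π t = π (ι a) := by
    intro t
    by_cases ht : t ∈ (f.comp π).ker
    · obtain ⟨a, ha⟩ := hφ ⟨π t, ht⟩
      exact ⟨a, fun _ => by rw [hι, MonoidHom.comp_apply, ha]; rfl⟩
    · exact ⟨1, fun h => absurd h ht⟩
  choose c hc using hex
  have hιk : ∀ a, ι a ∈ (f.comp π).ker := fun a => by
    change f (π (ι a)) = 1
    rw [hι]
    exact (φ a).2
  let T' : Set (FreeGroup S) := T ∪
    (Set.range (fun p : S × Fin n => FreeGroup.of p.1 * ι (FreeGroup.of p.2) * (FreeGroup.of p.1)⁻¹) ∪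
      Set.range (fun p : S × Fin n => (FreeGroup.of p.1)⁻¹ * ι (FreeGroup.of p.2) * (FreeGroup.of p.1)⁻¹⁻¹))
  have hT'f : T'.Finite := hTf.union ((Set.finite_range _).union (Set.finite_range _))
  have hT'k : T' ⊆ (f.comp π).ker := by
    rintro x (hx | ⟨p, rfl⟩ | ⟨p, rfl⟩)
    · rw [← hT]
      exact Subgroup.subset_normalClosure hx
    · exact Subgroup.Normal.conj_mem inferInstance _ (hιk _) _
    · exact Subgroup.Normal.conj_mem inferInstance _ (hιk _) _
  let U : Set (FreeGroup S) := ι '' R ∪ (fun t => t * (ι (c t))⁻¹) '' T'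
  have hle : Subgroup.normalClosure U ≤ π.ker := by
    refine Subgroup.normalClosure_le_normal ?_
    rintro x (⟨r, hr, rfl⟩ | ⟨t, ht, rfl⟩)
    · change π (ι r) = 1
      have : r ∈ φ.ker := hk ▸ Subgroup.subset_normalClosure hr
      rw [hι, MonoidHom.comp_apply, MonoidHom.mem_ker.1 this, map_one]
    · change π (t * (ι (c t))⁻¹) = 1
      rw [map_mul, map_inv, hc t (hT'k ht), mul_inv_cancel]
  refine ⟨U, (hR.image _).union (hT'f.image _), le_antisymm hle fun g hg => ?_⟩
  let L : Subgroup (FreeGroup S) := Subgroup.normalClosure U ⊔ ι.range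
  have hT'L : T' ⊆ L := by
    intro t ht
    have : t = t * (ι (c t))⁻¹ * ι (c t) := by simp
    rw [this]
    exact Subgroup.mul_mem_sup (Subgroup.subset_normalClosure (Or.inr ⟨t, ht, rfl⟩)) ⟨_, rfl⟩
  have hconj : ∀ y : FreeGroup S, (∀ i, y * ι (FreeGroup.of i) * y⁻¹ ∈ L) → ∀ h ∈ L, y * h * y⁻¹ ∈ L := by
    intro y hy
    have : L ≤ L.comap (MulAut.conj y).toMonoidHom := by
      refine sup_le (fun h hh => ?_) ?_
      · exact Subgroup.mem_sup_left (Subgroup.Normal.conj_mem inferInstance _ hh y)
      · rintro _ ⟨a, rfl⟩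
        induction a using FreeGroup.induction_on with
        | C1 => simp
        | of i => exact hy i
        | inv_of i hi => rw [map_inv]; exact Subgroup.inv_mem _ hi
        | mul a b ha hb => rw [map_mul]; exact Subgroup.mul_mem _ ha hb
    exact fun h hh => this hh
  have hall : ∀ y : FreeGroup S, ∀ h ∈ L, y * h * y⁻¹ ∈ L := by
    intro y
    induction y using FreeGroup.induction_on with
    | C1 => intro h hh; simpa using hh
    | of s => exact hconj _ fun i => hT'L (Or.inr (Or.inl ⟨(s, i), rfl⟩))
    | inv_of s _ => exact hconj _ fun i => hT'L (Or.inr (Or.inr ⟨(s, i), rfl⟩))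
    | mul a b ha hb =>
      intro h hh
      have := ha _ (hb h hh)
      simpa [mul_assoc] using this
  have hN : L.Normal := ⟨fun h hh y => hall y h hh⟩
  have hKL : (f.comp π).ker ≤ L := by
    rw [← hT]
    exact Subgroup.normalClosure_le_normal fun t ht => hT'L (Or.inl ht)
  have hg' : g ∈ L := hKL (by
    change f (π g) = 1
    rw [MonoidHom.mem_ker.1 hg, map_one])
  obtain ⟨m, hm, z, ⟨a, rfl⟩, rfl⟩ := Subgroup.mem_sup_of_normal_left.1 hg'
  have ha : a ∈ φ.ker := by
    have h1 : π m = 1 := hle hm
    have h2 : π (m * ι a) = 1 := hg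
    rw [map_mul, h1, one_mul, hι] at h2
    exact Subtype.ext h2
  rw [← hk] at ha
  exact Subgroup.mul_mem _ hm
    (fpres_map_ncl ι (Set.subset_union_left.trans Subgroup.subset_normalClosure) ha)

theorem fp_prod [Group.IsFinitelyPresented G] [Group.IsFinitelyPresented H] :
    Group.IsFinitelyPresented (G × H) := by
  have e : (MonoidHom.inl G H).range = (MonoidHom.snd G H).ker := by
    ext ⟨a, b⟩
    simp [eq_comm, Subgroup.mem_prod]
  have hi : Injective (MonoidHom.inl G H) := fun a b h => congrArg Prod.fst h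
  have : Group.IsFinitelyPresented (MonoidHom.snd G H).ker :=
    Group.IsFinitelyPresented.equiv ((MonoidHom.ofInjective hi).trans (MulEquiv.subgroupCongr e))
  exact fp_of_ext (MonoidHom.snd G H) Prod.snd_surjective

theorem fp_pi {ι : Type} [Finite ι] {K : ι → Type} [∀ i, Group (K i)]
    (h : ∀ i, Group.IsFinitelyPresented (K i)) : Group.IsFinitelyPresented (∀ i, K i) := by
  have key : ∀ (ι : Type) [Finite ι] (K : ι → Type) [∀ i, Group (K i)],
      (∀ i, Group.IsFinitelyPresented (K i)) → Group.IsFinitelyPresented (∀ i, K i) := by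
    intro ι _
    induction ι using Finite.induction_empty_option with
    | @of_equiv α β e ih =>
      intro K _ h
      have := ih (fun a => K (e.symm.symm a)) fun a => h _
      exact Group.IsFinitelyPresented.equiv
        (MulEquiv.symm { Equiv.piCongrLeft' K e.symm with map_mul' := fun _ _ => rfl })
    | h_empty =>
      intro K _ _
      infer_instance
    | @h_option α _ ih =>
      intro K _ h
      have := ih (fun a => K (some a)) fun a => h _
      have := h none
      have : Group.IsFinitelyPresented (K none × ∀ a, K (some a)) := fp_prod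
      exact Group.IsFinitelyPresented.equiv
        (MulEquiv.symm { Equiv.piOptionEquivProd (β := K) with map_mul' := fun _ _ => rfl })
  exact key ι K h

/-- a finite-index overgroup: pass to `K.normalCore` (`fp_of_finiteIndex` inside `K`), then
`fp_of_ext` with the finite quotient -/
theorem fp_of_finiteIndex_subgroup (K : Subgroup G) [K.FiniteIndex]
    [Group.IsFinitelyPresented K] : Group.IsFinitelyPresented G := by
  have h1 := Crest.Agent.R176.fp_of_finiteIndex (K.normalCore.subgroupOf K)
  have h2 : Group.IsFinitelyPresented K.normalCore :=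
    Group.IsFinitelyPresented.equiv (Subgroup.subgroupOfEquivOfLe K.normalCore_le)
  have h3 : Group.IsFinitelyPresented (QuotientGroup.mk' K.normalCore).ker :=
    Group.IsFinitelyPresented.equiv (MulEquiv.subgroupCongr (QuotientGroup.ker_mk' K.normalCore).symm)
  exact fp_of_ext (QuotientGroup.mk' K.normalCore) (QuotientGroup.mk'_surjective _)

end Crest.Agent.R185
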