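import Mathlib

/-!
# Row 185: graph products of copies of one group, normal forms

`GP adj A` is the graph product of copies `x c : A →* GP adj A` (`c : V`), the copies at adjacent
vertices commute.  Syllable lists `List (V × B)`; `hd? c l` is the `c`-syllable that can be moved
to the front of `l`, `tl c l` is the rest.
-/

set_option autoImplicit false

namespace Crest.Agent.R185.GPr

open Function

/-- a simple graph given by a Boolean function -/
structure Gr (V : Type) where
  adj : V → V → Bool
  symm : ∀ c d, adj c d = adj d c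
  irrefl : ∀ c, adj c c = false

variable {V : Type} (Γ : Gr V)

theorem Gr.ne {c d : V} (h : Γ.adj c d = true) : c ≠ d := by
  rintro rfl
  simp [Γ.irrefl] at h

theorem Gr.symm' {c d : V} (h : Γ.adj c d = true) : Γ.adj d c = true := by rwa [Γ.symm]

/-! ### the group -/

section Group

variable (A : Type) [Group A]

/-- the commutation relators -/
def rels : Set (Monoid.CoprodI fun _ : V => A) :=
  {r | ∃ c d a b, Γ.adj c d = true ∧ r = Monoid.CoprodI.of (i := c) a *
    Monoid.CoprodI.of (i := d) b * (Monoid.CoprodI.of (i := d) b * Monoid.CoprodI.of (i := c) a)⁻¹}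

/-- the graph product -/
def GP : Type := (Monoid.CoprodI fun _ : V => A) ⧸ Subgroup.normalClosure (rels Γ A)

instance : Group (GP Γ A) := inferInstanceAs (Group (_ ⧸ _))

variable {A}

/-- the copy of `A` at the vertex `c` -/
def x (c : V) : A →* GP Γ A :=
  (QuotientGroup.mk' (Subgroup.normalClosure (rels Γ A))).comp
    (Monoid.CoprodI.of (M := fun _ : V => A) (i := c))

variable {Γ}

theorem x_comm {c d : V} (h : Γ.adj c d = true) (a b : A) : Commute (x Γ c a) (x Γ d b) := by
  have : (QuotientGroup.mk' (Subgroup.normalClosure (rels Γ A)))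
      (Monoid.CoprodI.of (i := c) a * Monoid.CoprodI.of (i := d) b *
        (Monoid.CoprodI.of (i := d) b * Monoid.CoprodI.of (i := c) a)⁻¹) = 1 :=
    (QuotientGroup.eq_one_iff _).2 (Subgroup.subset_normalClosure ⟨c, d, a, b, h, rfl⟩)
  rw [map_mul, map_inv, mul_inv_eq_one, map_mul, map_mul] at this
  exact this

variable {X : Type*} [Group X]

/-- the universal property -/
def lift (f : V → A →* X) (h : ∀ c d, Γ.adj c d = true → ∀ a b, Commute (f c a) (f d b)) :
    GP Γ A →* X :=
  QuotientGroup.lift _ (Monoid.CoprodI.lift f) (by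
    refine Subgroup.normalClosure_le_normal ?_
    rintro _ ⟨c, d, a, b, hcd, rfl⟩
    simp [(h c d hcd a b).eq])

@[simp] theorem lift_x (f : V → A →* X)
    (h : ∀ c d, Γ.adj c d = true → ∀ a b, Commute (f c a) (f d b)) (c : V) (a : A) :
    lift f h (x Γ c a) = f c a := by
  change Monoid.CoprodI.lift f (Monoid.CoprodI.of a) = _
  simp

theorem hom_ext {f g : GP Γ A →* X} (h : ∀ c a, f (x Γ c a) = g (x Γ c a)) : f = g :=
  QuotientGroup.monoidHom_ext _ (Monoid.CoprodI.ext_hom _ _ fun c => MonoidHom.ext (h c))

variable (Γ)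

/-- the value of a syllable list -/
def ev (l : List (V × A)) : GP Γ A := (l.map fun p => x Γ p.1 p.2).prod

@[simp] theorem ev_nil : ev Γ ([] : List (V × A)) = 1 := rfl

@[simp] theorem ev_cons (c : V) (a : A) (l : List (V × A)) :
    ev Γ ((c, a) :: l) = x Γ c a * ev Γ l := by simp [ev]

theorem ev_append (l m : List (V × A)) : ev Γ (l ++ m) = ev Γ l * ev Γ m := by simp [ev]

theorem map_ev (F : GP Γ A →* X) (l : List (V × A)) :
    F (ev Γ l) = (l.map fun p => F (x Γ p.1 p.2)).prod := by
  simp [ev, map_list_prod, comp_def]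

theorem closure_x : Subgroup.closure {g : GP Γ A | ∃ c a, g = x Γ c a} = ⊤ := by
  rw [eq_top_iff]
  rintro g -
  induction g using QuotientGroup.induction_on with
  | H g =>
    induction g using Monoid.CoprodI.induction_on with
    | one => exact Subgroup.one_mem _
    | of c a => exact Subgroup.subset_closure ⟨c, a, rfl⟩
    | mul g h ig ih => exact Subgroup.mul_mem _ ig ih

theorem exists_ev (g : GP Γ A) : ∃ l, ev Γ l = g := by
  induction g using QuotientGroup.induction_on with
  | H g =>
    induction g using Monoid.CoprodI.induction_on with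
    | one => exact ⟨[], rfl⟩
    | of c a => exact ⟨[(c, a)], by simp; rfl⟩
    | mul g h ig ih =>
      obtain ⟨l, hl⟩ := ig
      obtain ⟨m, hm⟩ := ih
      exact ⟨l ++ m, by rw [ev_append, hl, hm]; rfl⟩

end Group

/-! ### syllable lists -/

section Lists

variable [DecidableEq V] {B B' : Type}

/-- the `c`-syllable that is available at the front -/
def hd? (c : V) : List (V × B) → Option B
  | [] => none
  | p :: l => if p.1 = c then some p.2 else if Γ.adj c p.1 then hd? c l else none

/-- the list without the available `c`-syllable -/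
def tl (c : V) : List (V × B) → List (V × B)
  | [] => []
  | p :: l => if p.1 = c then l else if Γ.adj c p.1 then p :: tl c l else p :: l

@[simp] theorem hd?_nil (c : V) : hd? Γ c ([] : List (V × B)) = none := rfl

@[simp] theorem tl_nil (c : V) : tl Γ c ([] : List (V × B)) = [] := rfl

@[simp] theorem hd?_self (c : V) (b : B) (l : List (V × B)) : hd? Γ c ((c, b) :: l) = some b := by
  simp [hd?]

@[simp] theorem tl_self (c : V) (b : B) (l : List (V × B)) : tl Γ c ((c, b) :: l) = l := by
  simp [tl]

variable {Γ}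

theorem hd?_adj {c d : V} (h : Γ.adj c d = true) (b : B) (l : List (V × B)) :
    hd? Γ c ((d, b) :: l) = hd? Γ c l := by simp [hd?, h, (Γ.ne h).symm]

theorem tl_adj {c d : V} (h : Γ.adj c d = true) (b : B) (l : List (V × B)) :
    tl Γ c ((d, b) :: l) = (d, b) :: tl Γ c l := by simp [tl, h, (Γ.ne h).symm]

theorem hd?_far {c d : V} (h1 : d ≠ c) (h : ¬Γ.adj c d = true) (b : B) (l : List (V × B)) :
    hd? Γ c ((d, b) :: l) = none := by simp [hd?, h, h1]

theorem tl_far {c d : V} (h1 : d ≠ c) (h : ¬Γ.adj c d = true) (b : B) (l : List (V × B)) :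
    tl Γ c ((d, b) :: l) = (d, b) :: l := by simp [tl, h, h1]

theorem hd?_map (f : B → B') (c : V) (l : List (V × B)) :
    hd? Γ c (l.map (Prod.map id f)) = (hd? Γ c l).map f := by
  induction l with
  | nil => rfl
  | cons p l ih =>
    simp only [List.map_cons, hd?, Prod.map_fst, id_eq, Prod.map_snd]
    split_ifs <;> simp [ih]

theorem tl_map (f : B → B') (c : V) (l : List (V × B)) :
    tl Γ c (l.map (Prod.map id f)) = (tl Γ c l).map (Prod.map id f) := by
  induction l with
  | nil => rfl
  | cons p l ih =>
    simp only [List.map_cons, tl, Prod.map_fst, id_eq]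
    split_ifs <;> simp [ih]

theorem tl_of_none {c : V} {l : List (V × B)} (h : hd? Γ c l = none) : tl Γ c l = l := by
  induction l with
  | nil => rfl
  | cons p l ih =>
    simp only [hd?, tl] at h ⊢
    split_ifs at h ⊢
    · rw [ih h]
    · rfl

theorem hd?_tl {c d : V} (h : Γ.adj c d = true) (l : List (V × B)) :
    hd? Γ c (tl Γ d l) = hd? Γ c l := by
  induction l with
  | nil => rfl
  | cons p l ih =>
    obtain ⟨e, b⟩ := p
    by_cases h1 : e = d
    · subst h1
      rw [tl_self, hd?_adj h]
    · by_cases h2 : Γ.adj d e = true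
      · rw [tl_adj h2]
        simp only [hd?, ih]
      · rw [tl_far h1 h2]

theorem tl_tl {c d : V} (h : Γ.adj c d = true) (l : List (V × B)) :
    tl Γ c (tl Γ d l) = tl Γ d (tl Γ c l) := by
  induction l with
  | nil => rfl
  | cons p l ih =>
    obtain ⟨e, b⟩ := p
    by_cases h1 : e = d
    · subst h1
      rw [tl_self, tl_adj h, tl_self]
    · by_cases h3 : e = c
      · subst h3
        rw [tl_self, tl_adj (Γ.symm' h), tl_self]
      · by_cases h2 : Γ.adj d e = true <;> by_cases h4 : Γ.adj c e = true
        · rw [tl_adj h2, tl_adj h4, tl_adj h4, tl_adj h2, ih]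
        · rw [tl_adj h2, tl_far h3 h4, tl_far h3 h4, tl_adj h2]
        · rw [tl_far h1 h2, tl_adj h4, tl_far h1 h2]
        · rw [tl_far h1 h2, tl_far h3 h4, tl_far h1 h2]

/-- if a syllable is available in a longer list, its vertex is the new one or adjacent to it -/
theorem of_hd?_cons {c d : V} {b : B} {l : List (V × B)} (h : hd? Γ c ((d, b) :: l) ≠ none) :
    d = c ∨ (Γ.adj c d = true ∧ hd? Γ c l ≠ none) := by
  by_cases h1 : d = c
  · exact Or.inl h1
  · by_cases h2 : Γ.adj c d = true
    · exact Or.inr ⟨h2, by rwa [hd?_adj h2] at h⟩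
    · exact absurd (hd?_far h1 h2 b l) h

variable (Γ)

/-- interchange of two neighbouring syllables at adjacent vertices -/
inductive Sw : List (V × B) → List (V × B) → Prop
  | here {c d : V} (h : Γ.adj c d = true) (u v : B) (l : List (V × B)) :
      Sw ((c, u) :: (d, v) :: l) ((d, v) :: (c, u) :: l)
  | there (p : V × B) {l m : List (V × B)} (h : Sw l m) : Sw (p :: l) (p :: m)

variable {Γ}

theorem Sw.hd? {l m : List (V × B)} (h : Sw Γ l m) (e : V) : hd? Γ e l = hd? Γ e m := by
  induction h with
  | @here c d h u v l =>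
    by_cases h1 : c = e
    · subst h1
      rw [hd?_self, hd?_adj h, hd?_self]
    · by_cases h2 : d = e
      · subst h2
        rw [hd?_self, hd?_adj (Γ.symm' h), hd?_self]
      · simp only [GPr.hd?, h1, h2, if_false]
        split_ifs <;> rfl
  | there p _ ih => simp only [GPr.hd?, ih]

theorem Sw.tl {l m : List (V × B)} (h : Sw Γ l m) (e : V) :
    tl Γ e l = tl Γ e m ∨ Sw Γ (tl Γ e l) (tl Γ e m) := by
  induction h with
  | @here c d h u v l =>
    by_cases h1 : c = e
    · subst h1
      rw [tl_self, tl_adj h, tl_self]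
      exact Or.inl rfl
    · by_cases h2 : d = e
      · subst h2
        rw [tl_self, tl_adj (Γ.symm' h), tl_self]
        exact Or.inl rfl
      · simp only [GPr.tl, h1, h2, if_false]
        split_ifs <;> exact Or.inr (Sw.here h _ _ _)
  | @there p l m h ih =>
    simp only [GPr.tl]
    split_ifs
    · exact Or.inr h
    · rcases ih with ih | ih
      · exact Or.inl (by rw [ih])
      · exact Or.inr (Sw.there p ih)
    · exact Or.inr (Sw.there p h)

omit [DecidableEq V] in
theorem sw_cons (p : V × B) {l m : List (V × B)} (h : Relation.ReflTransGen (Sw Γ) l m) :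
    Relation.ReflTransGen (Sw Γ) (p :: l) (p :: m) :=
  Relation.ReflTransGen.lift (p :: ·) (fun _ _ h => Sw.there p h) _ _ h

/-- the available syllable can be moved to the front -/
theorem sw_front {c : V} {b : B} {l : List (V × B)} (h : hd? Γ c l = some b) :
    Relation.ReflTransGen (Sw Γ) l ((c, b) :: tl Γ c l) := by
  induction l with
  | nil => simp at h
  | cons p l ih =>
    obtain ⟨e, b'⟩ := p
    by_cases h1 : e = c
    · subst h1
      rw [hd?_self, Option.some.injEq] at h
      rw [tl_self, h]
    · by_cases h2 : Γ.adj c e = true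
      · rw [hd?_adj h2] at h
        rw [tl_adj h2]
        exact (sw_cons _ (ih h)).tail (Sw.here (Γ.symm' h2) _ _ _)
      · rw [hd?_far h1 h2] at h
        simp at h

/-- the total size of a syllable list -/
def size (ν : B → ℕ) (l : List (V × B)) : ℕ := (l.map fun p => ν p.2).sum

omit [DecidableEq V] in
@[simp] theorem size_nil (ν : B → ℕ) : size ν ([] : List (V × B)) = 0 := rfl

omit [DecidableEq V] in
@[simp] theorem size_cons (ν : B → ℕ) (c : V) (b : B) (l : List (V × B)) :
    size ν ((c, b) :: l) = ν b + size ν l := by simp [size]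

omit [DecidableEq V] in
theorem size_append (ν : B → ℕ) (l m : List (V × B)) : size ν (l ++ m) = size ν l + size ν m := by
  simp [size]

omit [DecidableEq V] in
theorem Sw.size (ν : B → ℕ) {l m : List (V × B)} (h : Sw Γ l m) : size ν l = size ν m := by
  induction h with
  | here h u v l => simp only [size_cons]; omega
  | there p _ ih => obtain ⟨c, b⟩ := p; simp only [size_cons, ih]

theorem size_tl (ν : B → ℕ) {c : V} {b : B} {l : List (V × B)} (h : hd? Γ c l = some b) :
    size ν l = ν b + size ν (tl Γ c l) := by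
  have : ∀ {l m : List (V × B)}, Relation.ReflTransGen (Sw Γ) l m → size ν l = size ν m := by
    intro l m h
    induction h with
    | refl => rfl
    | tail _ h ih => rw [ih, h.size]
  rw [this (sw_front h), size_cons]

end Lists

/-! ### reduced lists and the normal form theorem -/

section Red

variable [DecidableEq V] {A : Type} [Group A]

/-- reduced syllable lists -/
def Red : List (V × A) → Prop
  | [] => True
  | p :: l => p.2 ≠ 1 ∧ hd? Γ p.1 l = none ∧ Red l

variable {Γ}

theorem red_nil : Red Γ ([] : List (V × A)) := trivial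

theorem red_cons {c : V} {a : A} {l : List (V × A)} :
    Red Γ ((c, a) :: l) ↔ a ≠ 1 ∧ hd? Γ c l = none ∧ Red Γ l := Iff.rfl

theorem Red.tl {l : List (V × A)} (h : Red Γ l) (c : V) :
    Red Γ (tl Γ c l) ∧ hd? Γ c (tl Γ c l) = none := by
  induction l with
  | nil => exact ⟨trivial, rfl⟩
  | cons p l ih =>
    obtain ⟨e, b⟩ := p
    obtain ⟨h1, h2, h3⟩ := red_cons.1 h
    by_cases h4 : e = c
    · subst h4
      rw [tl_self]
      exact ⟨h3, h2⟩
    · by_cases h5 : Γ.adj c e = true
      · rw [tl_adj h5, hd?_adj h5]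
        exact ⟨red_cons.2 ⟨h1, by rw [hd?_tl (Γ.symm' h5), h2], (ih h3).1⟩, (ih h3).2⟩
      · rw [tl_far h4 h5]
        exact ⟨h, hd?_far h4 h5 _ _⟩

theorem Sw.red {l m : List (V × A)} (h : Sw Γ l m) (hl : Red Γ l) : Red Γ m := by
  induction h with
  | here h u v l =>
    obtain ⟨h1, h2, h3, h4, h5⟩ := hl
    rw [hd?_adj h] at h2
    exact red_cons.2 ⟨h3, by rw [hd?_adj (Γ.symm' h)]; exact h4, h1, h2, h5⟩
  | there p h ih => exact ⟨hl.1, by rw [← h.hd?]; exact hl.2.1, ih hl.2.2⟩

theorem Red.ne_one {l : List (V × A)} (h : Red Γ l) {c : V} {b : A} (hb : hd? Γ c l = some b) :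
    b ≠ 1 := by
  have : ∀ {l m : List (V × A)}, Relation.ReflTransGen (Sw Γ) l m → Red Γ l → Red Γ m := by
    intro l m h hl
    induction h with
    | refl => exact hl
    | tail _ h ih => exact h.red ih
  exact (this (sw_front hb) h).1

omit [DecidableEq V] in
theorem Sw.ev {l m : List (V × A)} (h : Sw Γ l m) : ev Γ l = ev Γ m := by
  induction h with
  | here h u v l => simp only [ev_cons, ← mul_assoc, (x_comm h u v).eq]
  | there p _ ih => obtain ⟨c, b⟩ := p; simp only [ev_cons, ih]

theorem ev_tl {c : V} {b : A} {l : List (V × A)} (h : hd? Γ c l = some b) :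
    ev Γ l = x Γ c b * ev Γ (tl Γ c l) := by
  have : ∀ {l m : List (V × A)}, Relation.ReflTransGen (Sw Γ) l m → ev Γ l = ev Γ m := by
    intro l m h
    induction h with
    | refl => rfl
    | tail _ h ih => rw [ih, h.ev]
  rw [this (sw_front h), ev_cons]

open Classical in
variable (Γ) in
/-- left multiplication on reduced lists -/
noncomputable def ins (c : V) (a : A) (l : List (V × A)) : List (V × A) :=
  if a * (hd? Γ c l).getD 1 = 1 then tl Γ c l else (c, a * (hd? Γ c l).getD 1) :: tl Γ c l

theorem Red.ins {l : List (V × A)} (h : Red Γ l) (c : V) (a : A) : Red Γ (ins Γ c a l) := by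
  unfold GPr.ins
  split_ifs with h1
  · exact (h.tl c).1
  · exact red_cons.2 ⟨h1, (h.tl c).2, (h.tl c).1⟩

theorem ev_tl' (c : V) (l : List (V × A)) :
    ev Γ l = x Γ c ((hd? Γ c l).getD 1) * ev Γ (tl Γ c l) := by
  cases h : hd? Γ c l with
  | none => simp [tl_of_none h]
  | some b => simpa using ev_tl h

theorem ev_ins (c : V) (a : A) (l : List (V × A)) : ev Γ (ins Γ c a l) = x Γ c a * ev Γ l := by
  rw [ev_tl' c l, ← mul_assoc, ← map_mul, ins]
  split_ifs with h
  · rw [h, map_one, one_mul]
  · rw [ev_cons]

theorem hd?_ins_adj {c d : V} (h : Γ.adj c d = true) (a : A) (l : List (V × A)) :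
    hd? Γ c (ins Γ d a l) = hd? Γ c l := by
  unfold ins
  split_ifs
  · exact hd?_tl h l
  · rw [hd?_adj h, hd?_tl h]

theorem size_ins {ν : A → ℕ} (hν : ∀ a b, ν (a * b) ≤ ν a + ν b) (c : V) (a : A)
    (l : List (V × A)) : size ν (ins Γ c a l) ≤ ν a + size ν l := by
  unfold ins
  cases h : hd? Γ c l with
  | none =>
    rw [tl_of_none h]
    split_ifs <;> simp
  | some b =>
    rw [size_tl ν h]
    have := hν a b
    split_ifs
    · omega
    · simp only [size_cons, Option.getD_some]
      omega

/-- every list has a reduced form that is not larger -/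
theorem exists_red {ν : A → ℕ} (hν : ∀ a b, ν (a * b) ≤ ν a + ν b) (l : List (V × A)) :
    ∃ m, Red Γ m ∧ ev Γ m = ev Γ l ∧ size ν m ≤ size ν l := by
  induction l with
  | nil => exact ⟨[], trivial, rfl, le_rfl⟩
  | cons p l ih =>
    obtain ⟨c, a⟩ := p
    obtain ⟨m, h1, h2, h3⟩ := ih
    exact ⟨ins Γ c a m, h1.ins c a, by rw [ev_ins, h2, ev_cons],
      (size_ins hν c a m).trans (by rw [size_cons]; omega)⟩

variable (Γ A) in
/-- reduced lists up to interchange -/
def Q : Type := Quot fun l m : {l : List (V × A) // Red Γ l} => Sw Γ l.1 m.1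

theorem Q.mk_eq {l m : List (V × A)} (h : Relation.ReflTransGen (Sw Γ) l m) (hl : Red Γ l)
    (hm : Red Γ m) : (Quot.mk _ ⟨l, hl⟩ : Q Γ A) = Quot.mk _ ⟨m, hm⟩ := by
  induction h using Relation.ReflTransGen.head_induction_on with
  | refl => rfl
  | head h _ ih => exact (Quot.sound (b := ⟨_, h.red hl⟩) h).trans (ih _)

theorem Sw.ins {l m : List (V × A)} (h : Sw Γ l m) (c : V) (a : A) :
    Relation.ReflTransGen (Sw Γ) (ins Γ c a l) (ins Γ c a m) := by
  have : Relation.ReflTransGen (Sw Γ) (GPr.tl Γ c l) (GPr.tl Γ c m) := by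
    rcases h.tl c with h | h
    · rw [h]
    · exact Relation.ReflTransGen.single h
  unfold GPr.ins
  rw [h.hd?]
  split_ifs
  · exact this
  · exact sw_cons _ this

/-- the action of the copy at `c` -/
noncomputable def act (c : V) (a : A) : Q Γ A → Q Γ A :=
  Quot.lift (fun l => Quot.mk _ ⟨ins Γ c a l.1, l.2.ins c a⟩)
    fun _ _ h => Q.mk_eq (h.ins c a) _ _

theorem act_mk (c : V) (a : A) (l : List (V × A)) (h : Red Γ l) :
    act c a (Quot.mk _ ⟨l, h⟩) = Quot.mk _ ⟨ins Γ c a l, h.ins c a⟩ := rfl

theorem act_one (c : V) (q : Q Γ A) : act c (1 : A) q = q := by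
  induction q using Quot.ind with
  | mk l =>
    obtain ⟨l, h⟩ := l
    rw [act_mk]
    refine (Q.mk_eq ?_ _ _).symm
    unfold ins
    cases hb : hd? Γ c l with
    | none => simp [tl_of_none hb, Relation.ReflTransGen.refl]
    | some b => simpa [h.ne_one hb] using sw_front hb

theorem ins_ins {l : List (V × A)} (h : Red Γ l) (c : V) (a b : A) :
    ins Γ c a (ins Γ c b l) = ins Γ c (a * b) l := by
  have h1 := (h.tl c).2
  conv_lhs => rw [ins.eq_1 Γ c b l]
  split_ifs with h2
  · rw [ins, ins, h1, tl_of_none h1, mul_assoc, h2]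
    rfl
  · rw [ins, ins, hd?_self, tl_self, mul_assoc]
    rfl

theorem act_mul (c : V) (a b : A) (q : Q Γ A) : act c (a * b) q = act c a (act c b q) := by
  induction q using Quot.ind with
  | mk l =>
    obtain ⟨l, h⟩ := l
    simp only [act_mk]
    exact Q.mk_eq (by rw [ins_ins h]) _ _

theorem tl_ins_adj {c d : V} (h : Γ.adj c d = true) (a : A) (l : List (V × A)) :
    tl Γ c (ins Γ d a l) = ins Γ d a (tl Γ c l) := by
  unfold ins
  rw [hd?_tl (Γ.symm' h)]
  split_ifs
  · exact tl_tl h l
  · rw [tl_adj h, tl_tl h]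

theorem act_comm {c d : V} (hcd : Γ.adj c d = true) (a b : A) (q : Q Γ A) :
    act c a (act d b q) = act d b (act c a q) := by
  induction q using Quot.ind with
  | mk l =>
    obtain ⟨l, h⟩ := l
    simp only [act_mk]
    refine Q.mk_eq ?_ _ _
    rw [ins.eq_1 Γ c a, ins.eq_1 Γ d b (ins Γ c a l), hd?_ins_adj hcd,
      hd?_ins_adj (Γ.symm' hcd), tl_ins_adj hcd, tl_ins_adj (Γ.symm' hcd), ins.eq_1 Γ d b,
      ins.eq_1 Γ c a, hd?_tl hcd, hd?_tl (Γ.symm' hcd), tl_tl hcd]
    split_ifs
    · rfl
    · rfl
    · rfl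
    · exact Relation.ReflTransGen.single (Sw.here hcd _ _ _)

/-- the action of the copy at `c` as a homomorphism -/
noncomputable def actHom (c : V) : A →* Equiv.Perm (Q Γ A) :=
  MonoidHom.toHomPerm
    { toFun := fun a => act c a
      map_one' := funext (act_one c)
      map_mul' := fun a b => funext (act_mul c a b) }

variable (Γ A) in
/-- the action of the graph product on normal forms -/
noncomputable def rho : GP Γ A →* Equiv.Perm (Q Γ A) :=
  lift actHom fun _ _ h a b => Equiv.ext (act_comm h a b)

theorem rho_ev {l : List (V × A)} (h : Red Γ l) :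
    rho Γ A (ev Γ l) (Quot.mk _ ⟨[], red_nil⟩) = Quot.mk _ ⟨l, h⟩ := by
  induction l with
  | nil => rw [ev_nil, map_one]; rfl
  | cons p l ih =>
    obtain ⟨c, a⟩ := p
    obtain ⟨h1, h2, h3⟩ := red_cons.1 h
    rw [ev_cons, map_mul]
    change rho Γ A (x Γ c a) (rho Γ A (ev Γ l) _) = _
    rw [ih h3, show rho Γ A (x Γ c a) = actHom c a from lift_x _ _ c a]
    refine (show _ = act c a (Quot.mk _ ⟨l, h3⟩) from rfl).trans ?_
    rw [act_mk]
    congr 2
    simp [ins, h1, h2, tl_of_none h2]

/-- **Normal form theorem**: the available syllables depend only on the group element. -/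
theorem hd?_eq {l m : List (V × A)} (hl : Red Γ l) (hm : Red Γ m) (h : ev Γ l = ev Γ m) (c : V) :
    hd? Γ c l = hd? Γ c m := by
  have h1 := rho_ev hl
  rw [h, rho_ev hm] at h1
  exact (congrArg (Quot.lift (fun l : {l : List (V × A) // Red Γ l} => hd? Γ c l.1)
    fun _ _ h => h.hd? c) h1).symm

theorem Red.eq_nil {l : List (V × A)} (hl : Red Γ l) (h : ev Γ l = 1) : l = [] := by
  cases l with
  | nil => rfl
  | cons p l =>
    have := hd?_eq hl (m := []) trivial h p.1
    rw [hd?_self] at this
    simp at this

theorem x_injective (c : V) : Injective (x Γ c : A →* GP Γ A) := by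
  refine (injective_iff_map_eq_one _).2 fun a ha => ?_
  by_contra h
  have : Red Γ [(c, a)] := ⟨h, rfl, trivial⟩
  simpa using this.eq_nil (by simpa using ha)

end Red

/-! ### reduction of syllable lists of words -/

section Words

variable [DecidableEq V] {A B : Type} [Group A] [Mul B]

/-- one reduction step on lists of words -/
inductive St (val : B → A) : List (V × B) → List (V × B) → Prop
  | swap {c d : V} (h : Γ.adj c d = true) (u v : B) (k l : List (V × B)) :
      St val (k ++ (c, u) :: (d, v) :: l) (k ++ (d, v) :: (c, u) :: l)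
  | merge (c : V) (u v : B) (l : List (V × B)) : St val ((c, u) :: (c, v) :: l) ((c, u * v) :: l)
  | del (c : V) {u : B} (h : val u = 1) (l : List (V × B)) : St val ((c, u) :: l) l
  | there (p : V × B) {l m : List (V × B)} (h : St val l m) : St val (p :: l) (p :: m)

variable {Γ}

omit [DecidableEq V] in
theorem Sw.st (val : B → A) {l m : List (V × B)} (h : Sw Γ l m) : St Γ val l m := by
  induction h with
  | here h u v l => exact St.swap h u v [] l
  | there p _ ih => exact St.there p ih

omit [DecidableEq V] in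
theorem St.size {val : B → A} {ν : B → ℕ} (hν : ∀ a b, ν (a * b) ≤ ν a + ν b)
    {l m : List (V × B)} (h : St Γ val l m) : size ν m ≤ size ν l := by
  induction h with
  | swap h u v k l => simp only [size_append, size_cons]; omega
  | merge c u v l => have := hν u v; simp only [size_cons]; omega
  | del c h l => simp only [size_cons]; omega
  | there p _ ih => obtain ⟨c, b⟩ := p; simp only [size_cons]; omega

omit [DecidableEq V] in
theorem St.ev {val : B → A} (hval : ∀ u v, val (u * v) = val u * val v)
    {l m : List (V × B)} (h : St Γ val l m) :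
    ev Γ (l.map (Prod.map id val)) = ev Γ (m.map (Prod.map id val)) := by
  induction h with
  | swap h u v k l =>
    simp only [List.map_append, List.map_cons, Prod.map_apply, id_eq, ev_append, ev_cons]
    rw [(x_comm h _ _).left_comm]
  | merge c u v l => simp [hval, mul_assoc]
  | del c h l => simp [h]
  | there p _ ih => obtain ⟨c, b⟩ := p; simp only [List.map_cons, Prod.map_apply, ev_cons, ih]

theorem exists_st (val : B → A) (l : List (V × B)) :
    ∃ m, Relation.ReflTransGen (St Γ val) l m ∧ Red Γ (m.map (Prod.map id val)) := by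
  induction l with
  | nil => exact ⟨[], .refl, trivial⟩
  | cons p l ih =>
    obtain ⟨c, u⟩ := p
    obtain ⟨m, h1, h2⟩ := ih
    have h3 : Relation.ReflTransGen (St Γ val) ((c, u) :: l) ((c, u) :: m) :=
      Relation.ReflTransGen.lift ((c, u) :: ·) (fun _ _ h => St.there _ h) _ _ h1
    have key : ∀ (w : B) (k : List (V × B)), Red Γ (k.map (Prod.map id val)) → hd? Γ c k = none →
        ∃ k', Relation.ReflTransGen (St Γ val) ((c, w) :: k) k' ∧
          Red Γ (k'.map (Prod.map id val)) := by
      intro w k hk hc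
      by_cases hw : val w = 1
      · exact ⟨k, .single (St.del c hw k), hk⟩
      · exact ⟨_, .refl, red_cons.2 ⟨hw, (hd?_map val c k).trans (by rw [hc]; rfl), hk⟩⟩
    cases hb : hd? Γ c m with
    | none =>
      obtain ⟨k', h4, h5⟩ := key u m h2 hb
      exact ⟨k', h3.trans h4, h5⟩
    | some v =>
      have h6 := h2.tl c
      rw [tl_map, hd?_map, Option.map_eq_none_iff] at h6
      obtain ⟨k', h4, h5⟩ := key (u * v) _ h6.1 h6.2
      refine ⟨k', h3.trans ((Relation.ReflTransGen.mono (fun _ _ h => Sw.st val h) _ _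
        (sw_cons _ (sw_front hb))).trans (h4.head (St.merge c u v _))), h5⟩

/-- a list of words with trivial value reduces to the empty list -/
theorem st_nil {val : B → A} (hval : ∀ u v, val (u * v) = val u * val v) {l : List (V × B)}
    (h : ev Γ (l.map (Prod.map id val)) = 1) : Relation.ReflTransGen (St Γ val) l [] := by
  obtain ⟨m, h1, h2⟩ := exists_st (Γ := Γ) val l
  have h3 : ev Γ (m.map (Prod.map id val)) = 1 := by
    rw [← h]
    clear h h2
    induction h1 with
    | refl => rfl
    | tail _ h ih => rw [← ih, h.ev hval]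
  rwa [List.map_eq_nil_iff.1 (h2.eq_nil h3)] at h1

end Words

end Crest.Agent.R185.GPr
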