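import Crest.Agent.R185.CKDefs

/-!
# Row 185, block K: the free product `B D = D * F(t_ω : ω ∈ ℤ⁸)`
-/

set_option autoImplicit false

namespace Crest.Agent.R185.KL

open Function

/-- configurations -/
abbrev Cf : Type := Reg → ℤ

/-- letters `t_ω ^ ±1` -/
abbrev Le : Type := Cf × Bool

/-- the data of `D * F(t_ω)` -/
def BD (D : Type) [Group D] : MHD D Le := MHD.cent fun _ : Cf => (⊥ : Subgroup D)

/-- `D * F(t_ω)` -/
abbrev B (D : Type) [Group D] : Type := (BD D).G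

section Gen

variable {G G' : Type} [Group G] [Group G']

/-- what `t_ω ^ ±1 ↦ (t_{f ω} v ω) ^ ±1` puts to the right of the letter -/
def lv (v : Cf → G) (e : Le) : G := if e.2 then v e.1 else 1

/-- what `t_ω ^ ±1 ↦ (t_{f ω} v ω) ^ ±1` puts to the left of the letter -/
def rv (v : Cf → G) (e : Le) : G := if e.2 then 1 else (v e.1)⁻¹

/-- `rv` of the first letter -/
def rvh (v : Cf → G) : List (Le × G) → G
  | [] => 1
  | x :: _ => rv v x.1

/-- the substitution `t_ω ↦ t_{f ω} v ω` on lists -/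
def trl (f : Cf → Cf) (v : Cf → G) : List (Le × G) → List (Le × G)
  | [] => []
  | x :: l => ((f x.1.1, x.1.2), lv v x.1 * x.2 * rvh v l) :: trl f v l

/-- apply a homomorphism to the syllables -/
def mp (p : G →* G') (l : List (Le × G)) : List (Le × G') := l.map fun x => (x.1, p x.2)

@[simp] theorem mp_nil (p : G →* G') : mp p [] = [] := rfl

@[simp] theorem mp_cons (p : G →* G') (x : Le × G) (l : List (Le × G)) :
    mp p (x :: l) = (x.1, p x.2) :: mp p l := rfl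

theorem map_lv (p : G →* G') (v : Cf → G) (e : Le) : p (lv v e) = lv (fun ω => p (v ω)) e := by
  unfold lv; split_ifs <;> simp

theorem map_rv (p : G →* G') (v : Cf → G) (e : Le) : p (rv v e) = rv (fun ω => p (v ω)) e := by
  unfold rv; split_ifs <;> simp

theorem map_rvh (p : G →* G') (v : Cf → G) (l : List (Le × G)) :
    p (rvh v l) = rvh (fun ω => p (v ω)) (mp p l) := by
  cases l with
  | nil => simp [rvh]
  | cons x l => simp [rvh, map_rv]

theorem mp_trl (p : G →* G') (f : Cf → Cf) (v : Cf → G) (l : List (Le × G)) :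
    mp p (trl f v l) = trl f (fun ω => p (v ω)) (mp p l) := by
  induction l with
  | nil => rfl
  | cons x l ih => simp [trl, ih, map_lv, map_rvh]

theorem length_trl (f : Cf → Cf) (v : Cf → G) (l : List (Le × G)) :
    (trl f v l).length = l.length := by
  induction l with
  | nil => rfl
  | cons x l ih => simp [trl, ih]

theorem mem_trl {f : Cf → Cf} {v : Cf → G} {l : List (Le × G)} {y : Le × G} (h : y ∈ trl f v l) :
    ∃ x ∈ l, y.1.1 = f x.1.1 := by
  induction l with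
  | nil => simp [trl] at h
  | cons x l ih =>
    rcases List.mem_cons.1 h with rfl | h
    · exact ⟨x, List.mem_cons_self, rfl⟩
    · obtain ⟨z, hz, e⟩ := ih h
      exact ⟨z, List.mem_cons_of_mem _ hz, e⟩

theorem mem_mp {p : G →* G'} {l : List (Le × G)} {y : Le × G'} :
    y ∈ mp p l ↔ ∃ x ∈ l, (x.1, p x.2) = y := List.mem_map

end Gen

variable {D : Type} [Group D]

/-- the base group -/
def bo : D →* B D := (BD D).of

/-- `t_ω` -/
def tt (ω : Cf) : B D := (BD D).t (ω, true)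

@[simp] theorem of_eq_bo (d : D) : (BD D).of d = bo d := rfl

theorem t_true (ω : Cf) : (BD D).t (ω, true) = tt ω := rfl

theorem t_false (ω : Cf) : (BD D).t (ω, false) = (tt ω)⁻¹ := (BD D).t_bar (ω, true)

theorem bo_injective : Injective (bo : D →* B D) := (BD D).of_injective

theorem B_ext {Q : Type} [Group Q] {F G : B D →* Q} (h1 : ∀ d, F (bo d) = G (bo d))
    (h2 : ∀ ω, F (tt ω) = G (tt ω)) : F = G :=
  (BD D).hom_ext h1 fun e => by
    obtain ⟨ω, _ | _⟩ := e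
    · rw [t_false, map_inv, map_inv, h2]
    · exact h2 ω

/-- the universal property -/
def blift {Q : Type} [Group Q] (f : D →* Q) (q : Cf → Q) : B D →* Q :=
  (BD D).lift f (fun e => if e.2 then q e.1 else (q e.1)⁻¹)
    (by rintro ⟨ω, _ | _⟩ <;> simp [BD, MHD.cent])
    (by
      intro e h hh
      have h1 : h = 1 := hh
      subst h1
      simp [BD, MHD.cent])

@[simp] theorem blift_bo {Q : Type} [Group Q] (f : D →* Q) (q : Cf → Q) (d : D) :
    blift f q (bo d) = f d := (BD D).lift_of _ _ _ _ d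

@[simp] theorem blift_tt {Q : Type} [Group Q] (f : D →* Q) (q : Cf → Q) (ω : Cf) :
    blift f q (tt ω) = q ω := (BD D).lift_t _ _ _ _ (ω, true)

/-- the endomorphism `t_ω ↦ t_{f ω} v ω` over `D` -/
def tr (f : Cf → Cf) (v : Cf → D) : B D →* B D := blift bo fun ω => tt (f ω) * bo (v ω)

@[simp] theorem tr_bo (f : Cf → Cf) (v : Cf → D) (d : D) : tr f v (bo d) = bo d := blift_bo _ _ _

@[simp] theorem tr_tt (f : Cf → Cf) (v : Cf → D) (ω : Cf) :
    tr f v (tt ω) = tt (f ω) * bo (v ω) := blift_tt _ _ _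

theorem tr_tr (f g : Cf → Cf) (v w : Cf → D) (x : B D) :
    tr g w (tr f v x) = tr (fun ω => g (f ω)) (fun ω => w (f ω) * v ω) x :=
  DFunLike.congr_fun (B_ext (F := (tr g w).comp (tr f v)) (by simp) (by simp [mul_assoc])) x

theorem tr_id (x : B D) : tr (fun ω => ω) (fun _ => 1) x = x :=
  DFunLike.congr_fun (B_ext (G := MonoidHom.id _) (by simp) (by simp)) x

/-- the subgroup generated by `J` and the `t_ω`, `ω ∈ X` -/
def sb (J : Subgroup D) (X : Set Cf) : Subgroup (B D) := (BD D).sub J {e | e.1 ∈ X}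

theorem bo_mem_sb {J : Subgroup D} {X : Set Cf} {d : D} (h : d ∈ J) : bo d ∈ sb J X :=
  Subgroup.subset_closure (Or.inl ⟨d, h, rfl⟩)

theorem t_mem_sb {J : Subgroup D} {X : Set Cf} {e : Le} (h : e.1 ∈ X) : (BD D).t e ∈ sb J X :=
  Subgroup.subset_closure (Or.inr ⟨e, h, rfl⟩)

theorem tt_mem_sb {J : Subgroup D} {X : Set Cf} {ω : Cf} (h : ω ∈ X) : (tt ω : B D) ∈ sb J X :=
  t_mem_sb (e := (ω, true)) h

theorem sb_le {J : Subgroup D} {X : Set Cf} {P : Subgroup (B D)} (h1 : ∀ d ∈ J, bo d ∈ P)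
    (h2 : ∀ ω ∈ X, tt ω ∈ P) : sb J X ≤ P := by
  refine (Subgroup.closure_le _).2 ?_
  rintro _ (⟨d, hd, rfl⟩ | ⟨⟨ω, _ | _⟩, he, rfl⟩)
  · exact h1 d hd
  · rw [t_false]; exact inv_mem (h2 ω he)
  · exact h2 ω he

theorem sb_ind {J : Subgroup D} {X : Set Cf} {P : B D → Prop} (h1 : ∀ d ∈ J, P (bo d))
    (h2 : ∀ ω ∈ X, P (tt ω)) (h3 : ∀ x ∈ sb J X, ∀ y ∈ sb J X, P x → P y → P (x * y))
    (h4 : ∀ x ∈ sb J X, P x → P x⁻¹) {x : B D} (hx : x ∈ sb J X) : P x := by
  let Q : Subgroup (B D) :=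
    { carrier := {x | x ∈ sb J X ∧ P x}
      one_mem' := ⟨one_mem _, by simpa using h1 1 (one_mem _)⟩
      mul_mem' := fun {a b} ha hb => ⟨mul_mem ha.1 hb.1, h3 a ha.1 b hb.1 ha.2 hb.2⟩
      inv_mem' := fun {a} ha => ⟨inv_mem ha.1, h4 a ha.1 ha.2⟩ }
  exact (sb_le (P := Q) (fun d hd => ⟨bo_mem_sb hd, h1 d hd⟩)
    (fun ω hω => ⟨tt_mem_sb hω, h2 ω hω⟩) hx).2

theorem eq_on_sb {J : Subgroup D} {X : Set Cf} {Q : Type} [Group Q] {F G : B D →* Q}
    (h1 : ∀ d ∈ J, F (bo d) = G (bo d)) (h2 : ∀ ω ∈ X, F (tt ω) = G (tt ω)) {x : B D}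
    (hx : x ∈ sb J X) : F x = G x :=
  sb_le (P := F.eqLocus G) h1 h2 hx

theorem tr_congr {J : Subgroup D} {X : Set Cf} {f g : Cf → Cf} {v w : Cf → D}
    (h : ∀ ω ∈ X, f ω = g ω ∧ v ω = w ω) {x : B D} (hx : x ∈ sb J X) : tr f v x = tr g w x :=
  eq_on_sb (by simp) (fun ω hω => by simp [(h ω hω).1, (h ω hω).2]) hx

theorem tr_mem {J : Subgroup D} {X X' : Set Cf} {f : Cf → Cf} {v : Cf → D}
    (h : ∀ ω ∈ X, f ω ∈ X' ∧ v ω ∈ J) {x : B D} (hx : x ∈ sb J X) : tr f v x ∈ sb J X' :=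
  sb_le (P := (sb J X').comap (tr f v)) (fun d hd => by simpa using bo_mem_sb hd)
    (fun ω hω => by simpa using mul_mem (tt_mem_sb (h ω hω).1) (bo_mem_sb (h ω hω).2)) hx

theorem sb_mono {J J' : Subgroup D} {X X' : Set Cf} (h : J ≤ J') (h' : X ⊆ X') :
    sb J X ≤ sb J' X' :=
  sb_le (fun _ hd => bo_mem_sb (h hd)) fun _ hω => tt_mem_sb (h' hω)

theorem mem_sb_top (x : B D) : x ∈ sb (⊤ : Subgroup D) Set.univ := by
  have : (⊤ : Subgroup (B D)) ≤ sb ⊤ Set.univ := by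
    rw [← (BD D).closure_eq_top, Subgroup.closure_le]
    rintro _ (⟨d, rfl⟩ | ⟨e, rfl⟩)
    · exact bo_mem_sb trivial
    · exact t_mem_sb trivial
  exact this trivial

/-! ### reduced words -/

theorem red_cons_cons {x y : Le × D} {l : List (Le × D)} :
    (BD D).Red (x :: y :: l) ↔ ¬(y.1 = (x.1.1, !x.1.2) ∧ x.2 = 1) ∧ (BD D).Red (y :: l) :=
  List.isChain_cons_cons

theorem red_single (x : Le × D) : (BD D).Red [x] := List.IsChain.singleton _

/-- reduced words are unique -/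
theorem red_unique {g g' : D} {l l' : List (Le × D)} (hl : (BD D).Red l) (hl' : (BD D).Red l')
    (h : (BD D).ev g l = (BD D).ev g' l') : g = g' ∧ l = l' :=
  MHD.eq_of_sl_bot (fun _ => rfl) (MHD.sl_of_ev_eq hl hl' h)

theorem mem_sb_iff {J : Subgroup D} {X : Set Cf} {x : B D} : x ∈ sb J X ↔
    ∃ g l, (BD D).Red l ∧ (BD D).ev g l = x ∧ g ∈ J ∧ ∀ y ∈ l, y.1.1 ∈ X ∧ y.2 ∈ J :=
  MHD.mem_sub_iff J {e : Le | e.1 ∈ X} (fun _ h => h) (fun _ _ _ _ h => h) x

theorem ev_mem_sb {J : Subgroup D} {X : Set Cf} {g : D} {l : List (Le × D)} (hl : (BD D).Red l) :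
    (BD D).ev g l ∈ sb J X ↔ g ∈ J ∧ ∀ y ∈ l, y.1.1 ∈ X ∧ y.2 ∈ J := by
  rw [mem_sb_iff]
  constructor
  · rintro ⟨g', l', h1, h2, h3⟩
    obtain ⟨rfl, rfl⟩ := red_unique h1 hl h2
    exact h3
  · exact fun h => ⟨g, l, hl, rfl, h⟩

theorem bo_mem_sb_iff {J : Subgroup D} {X : Set Cf} {d : D} : bo d ∈ sb J X ↔ d ∈ J := by
  have := ev_mem_sb (J := J) (X := X) (g := d) (l := []) MHD.red_nil
  simpa using this

theorem sb_inter {J J' : Subgroup D} {X X' : Set Cf} {x : B D} (h : x ∈ sb J X)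
    (h' : x ∈ sb J' X') : x ∈ sb J (X ∩ X') := by
  obtain ⟨g, l, hl, rfl⟩ := MHD.exists_red x
  rw [ev_mem_sb hl] at *
  exact ⟨h.1, fun y hy => ⟨⟨(h.2 y hy).1, (h'.2 y hy).1⟩, (h.2 y hy).2⟩⟩

theorem tr_t (f : Cf → Cf) (v : Cf → D) (e : Le) :
    tr f v ((BD D).t e) = bo (rv v e) * (BD D).t (f e.1, e.2) * bo (lv v e) := by
  obtain ⟨ω, _ | _⟩ := e
  · simp [t_false, rv, lv]
  · simp [rv, lv, t_true]

theorem ev_trl (f : Cf → Cf) (v : Cf → D) (g : D) (l : List (Le × D)) :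
    (BD D).ev (g * rvh v l) (trl f v l) = tr f v ((BD D).ev g l) := by
  induction l generalizing g with
  | nil => simp [rvh, trl]
  | cons x l ih =>
    obtain ⟨e, a⟩ := x
    rw [trl, MHD.ev_cons, MHD.ev_cons, map_mul (tr f v), map_mul (tr f v), tr_t, ← ih, mul_assoc (lv v e),
      ← MHD.of_mul_ev]
    simp [rvh, mul_assoc]

theorem red_trl {f : Cf → Cf} (v : Cf → D) {X : Set Cf} (hf : X.InjOn f) {l : List (Le × D)}
    (hX : ∀ x ∈ l, x.1.1 ∈ X) (hl : (BD D).Red l) : (BD D).Red (trl f v l) := by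
  induction l with
  | nil => exact MHD.red_nil
  | cons x l ih =>
    cases l with
    | nil => exact red_single _
    | cons y l =>
      obtain ⟨h1, h2⟩ := red_cons_cons.1 hl
      refine red_cons_cons.2 ⟨?_, ih (fun z hz => hX z (List.mem_cons_of_mem _ hz)) h2⟩
      rintro ⟨h3, h4⟩
      obtain ⟨⟨ω, b⟩, a⟩ := x
      obtain ⟨⟨ω', b'⟩, a'⟩ := y
      simp only [Prod.mk.injEq] at h3
      obtain ⟨h5, rfl⟩ := h3
      obtain rfl : ω' = ω := hf (hX _ (List.mem_cons_of_mem _ List.mem_cons_self))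
        (hX _ List.mem_cons_self) h5
      refine h1 ⟨rfl, ?_⟩
      cases b
      · simpa [lv, rvh, rv] using h4
      · simpa [lv, rvh, rv] using h4

end Crest.Agent.R185.KL
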