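import Crest.Agent.R185.KB

/-!
# Row 185, block K: the coset core of a good subgroup, and the cut predicate
-/

set_option autoImplicit false

namespace Crest.Agent.R185

open Function

namespace MHD

variable {M E : Type} [Group M] {D : MHD M E}

/-- the right coset `S g` -/
def rc (S : Subgroup M) (g : M) : Quotient (QuotientGroup.rightRel S) := Quotient.mk _ g

theorem rc_eq {S : Subgroup M} {g g' : M} : rc S g = rc S g' ↔ g' * g⁻¹ ∈ S := by
  rw [rc, rc, Quotient.eq]; exact QuotientGroup.rightRel_apply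

/-- the right cosets of a good subgroup, `S h ↦ S (φ e h)` -/
theorem exists_cosetCore (S : Subgroup M) (E' : Set E) (hbar : ∀ e ∈ E', D.bar e ∈ E')
    (good : ∀ e ∈ E', ∀ h ∈ D.H e, h ∈ S → D.φ e h ∈ S) :
    ∃ c : D.Core (Quotient (QuotientGroup.rightRel S)),
      (∀ g a, c.act (rc S g) a = rc S (g * a)) ∧
      (∀ e p q, c.st e p q ↔ e ∈ E' ∧ ∃ h ∈ D.H e, p = rc S h ∧ q = rc S (D.φ e h)) ∧
      D.sub S E' ≤ c.stab (rc S 1) := by
  let act : Quotient (QuotientGroup.rightRel S) → M → Quotient (QuotientGroup.rightRel S) :=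
    fun p a => Quotient.map (fun g => g * a) (fun g g' hg => by
      have h1 : g' * g⁻¹ ∈ S := QuotientGroup.rightRel_apply.1 hg
      refine QuotientGroup.rightRel_apply.2 ?_
      simpa [mul_assoc] using h1) p
  have hact : ∀ g a, act (rc S g) a = rc S (g * a) := fun _ _ => rfl
  let c : D.Core (Quotient (QuotientGroup.rightRel S)) :=
    { act := act
      act_one := by
        rintro ⟨g⟩
        exact (hact g 1).trans (congrArg _ (mul_one g))
      act_mul := by
        rintro ⟨g⟩ a b
        exact (hact g _).trans (congrArg (rc S) (mul_assoc g a b).symm)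
      st := fun e p q => e ∈ E' ∧ ∃ h ∈ D.H e, p = rc S h ∧ q = rc S (D.φ e h)
      st_bar := by
        rintro e _ _ ⟨he, h, hh, rfl, rfl⟩
        exact ⟨hbar e he, _, D.φ_mem e h hh, rfl, by rw [D.φ_φ e h hh]⟩
      st_fun := by
        rintro e _ _ _ ⟨he, h, hh, rfl, rfl⟩ ⟨-, h', hh', q, rfl⟩
        have := good e he _ (mul_mem hh' (inv_mem hh)) (rc_eq.1 q)
        rw [D.φ_mul e _ hh' _ (inv_mem hh), D.φ_inv e hh] at this
        exact rc_eq.2 this
      st_act := by
        rintro e _ _ a ha ⟨he, h, hh, rfl, rfl⟩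
        exact ⟨he, h * a, mul_mem hh ha, rfl, by rw [D.φ_mul e _ hh _ ha]; rfl⟩ }
  refine ⟨c, hact, fun _ _ _ => Iff.rfl, (Subgroup.closure_le _).2 ?_⟩
  rintro _ (⟨a, ha, rfl⟩ | ⟨e, he, rfl⟩)
  · exact Core.of_mem_stab.2 ((hact 1 a).trans (rc_eq.2 (by simpa using ha)))
  · exact Core.Conn.t (c := c) ⟨he, 1, one_mem _, rfl, by rw [D.φ_one]⟩

end MHD

namespace KL

variable {D : Type} [Group D]

/-- the word is a word of `sb J X` followed by a word of `sb ⊤ Y` -/
inductive Cut (J : Subgroup D) (X Y : Set Cf) : D → List (Le × D) → Prop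
  | all {g : D} {l : List (Le × D)} : (∀ y ∈ l, y.1.1 ∈ Y) → Cut J X Y g l
  | cons {g a : D} {e : Le} {l : List (Le × D)} : g ∈ J → e.1 ∈ X → Cut J X Y a l →
      Cut J X Y g ((e, a) :: l)

/-- `Subgroup.closure_induction_left` on `u`, for all reduced words with value `u * v`
(`red_unique`; the reduced word of `t e * ev g l` is `(1, (e, g) :: l)` or, if `g = 1` and
`l = (bar e, a) :: l'`, `(a, l')`) -/
theorem cut_of_mul {J : Subgroup D} {X Y : Set Cf} {u v : B D} (hu : u ∈ sb J X)
    (hv : v ∈ sb ⊤ Y) {g : D} {l : List (Le × D)} (hl : (BD D).Red l)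
    (h : (BD D).ev g l = u * v) : Cut J X Y g l := by
  have hL : ∀ a ∈ J, ∀ y : B D, (∀ g l, (BD D).Red l → (BD D).ev g l = y → Cut J X Y g l) →
      ∀ g l, (BD D).Red l → (BD D).ev g l = bo a * y → Cut J X Y g l := by
    intro a ha y hy g l hl h
    have := hy (a⁻¹ * g) l hl (by rw [← MHD.of_mul_ev, h]; simp)
    generalize hg : a⁻¹ * g = g' at this
    cases this with
    | all h1 => exact .all h1
    | cons h1 h2 h3 => exact .cons (by simpa [← hg] using mul_mem ha h1) h2 h3
  have hT : ∀ e : Le, e.1 ∈ X → ∀ y : B D,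
      (∀ g l, (BD D).Red l → (BD D).ev g l = y → Cut J X Y g l) →
      ∀ g l, (BD D).Red l → (BD D).ev g l = (BD D).t e * y → Cut J X Y g l := by
    intro e he y hy g l hl h
    obtain ⟨g', l', h1, rfl⟩ := MHD.exists_red y
    have h2 := hy g' l' h1 rfl
    obtain ⟨rfl, rfl⟩ := red_unique hl (MHD.brT_red e h1) (h.trans (MHD.brT_ev e g' l').symm)
    by_cases hp : (BD D).Pin e g' l'
    · obtain ⟨b, m, rfl, hb⟩ := hp.elim
      rw [MHD.brT_pin hb]
      obtain rfl : g' = 1 := hb
      rw [MHD.φ_one, one_mul]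
      cases h2 with
      | all h3 => exact .all fun y hy => h3 y (List.mem_cons_of_mem _ hy)
      | cons _ _ h3 => exact h3
    · rw [MHD.brT_not hp]
      exact .cons (one_mem _) he h2
  revert g l
  induction hu using Subgroup.closure_induction_left with
  | one =>
    intro g l hl h
    rw [one_mul] at h
    exact .all fun y hy => (((ev_mem_sb hl).1 (h ▸ hv)).2 y hy).1
  | mul_left x hx y _ ih =>
    intro g l hl h
    rw [mul_assoc] at h
    rcases hx with ⟨a, ha, rfl⟩ | ⟨e, he, rfl⟩
    · exact hL a ha _ (fun _ _ => ih) g l hl h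
    · exact hT e he _ (fun _ _ => ih) g l hl h
  | inv_mul_cancel x hx y _ ih =>
    intro g l hl h
    rw [mul_assoc] at h
    rcases hx with ⟨a, ha, rfl⟩ | ⟨e, he, rfl⟩
    · rw [← map_inv] at h
      exact hL _ (inv_mem ha) _ (fun _ _ => ih) g l hl h
    · rw [← (BD D).t_bar] at h
      exact hT ((BD D).bar e) he _ (fun _ _ => ih) g l hl h

end KL

end Crest.Agent.R185
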