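import Crest.Agent.R185.KGrp

/-!
# Row 185, block K: the gauge, the subgroup `A(J)`, the non-local properties
-/

set_option autoImplicit false
set_option linter.unusedSectionVars false

namespace Crest.Agent.R185.KL

open Function SemidirectProduct

variable {S : Type} [Fintype S] [DecidableEq S] {D : Type} [Group D] (π : FreeGroup S →* D)

/-- the gauge `t_ω ↦ s_ω = t_ω γ ω` -/
def Th (γ : Cf → FreeGroup S) : B D →* B D := tr (fun ω => ω) fun ω => π (γ ω)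

/-- the inverse gauge -/
def Ti (γ : Cf → FreeGroup S) : B D →* B D := tr (fun ω => ω) fun ω => (π (γ ω))⁻¹

theorem Th_Ti (γ : Cf → FreeGroup S) (b : B D) : Th π γ (Ti π γ b) = b := by
  simpa [Th, Ti, tr_tr] using tr_id b

theorem Ti_Th (γ : Cf → FreeGroup S) (b : B D) : Ti π γ (Th π γ b) = b := by
  simpa [Th, Ti, tr_tr] using tr_id b

/-- `⟨J, s_ω (ω ∈ C)⟩` in `B D` -/
def A00 (J : Subgroup D) (C : Set Cf) (γ : Cf → FreeGroup S) : Subgroup (B D) :=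
  (sb J C).comap (Ti π γ)

/-- `⟨J, s_ω (ω ∈ C)⟩` in `BB D` -/
def A0 (J : Subgroup D) (C : Set Cf) (γ : Cf → FreeGroup S) : Subgroup (BB D) :=
  (A00 π J C γ).map inl

/-- the rule letters -/
def ER : Set EK := {e | ∃ ty, e.1 = .inl ty}

theorem br_mem_ER : ∀ e ∈ ER, br e ∈ ER := fun _ h => h

variable {π}

theorem mem_A00 {J : Subgroup D} {C : Set Cf} {γ : Cf → FreeGroup S} {b : B D} :
    b ∈ A00 π J C γ ↔ Ti π γ b ∈ sb J C := Iff.rfl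

theorem bb_mem_A0 {J : Subgroup D} {C : Set Cf} {γ : Cf → FreeGroup S} {b : B D} {x : Cf} :
    bb b x ∈ A0 π J C γ ↔ b ∈ A00 π J C γ ∧ x = 0 := by
  constructor
  · rintro ⟨b', h1, h2⟩
    obtain ⟨rfl, rfl⟩ := bb_inj.1 ((bb_zero b').trans h2)
    exact ⟨h1, rfl⟩
  · rintro ⟨h1, rfl⟩
    exact ⟨b, h1, rfl⟩

theorem bo_mem_A00 {J : Subgroup D} {C : Set Cf} {γ : Cf → FreeGroup S} {d : D} :
    bo d ∈ A00 π J C γ ↔ d ∈ J := by
  rw [mem_A00, Ti, tr_bo, bo_mem_sb_iff]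

theorem s_mem_A00 {J : Subgroup D} {C : Set Cf} {γ : Cf → FreeGroup S} {ω : Cf} (h : ω ∈ C) :
    tt ω * bo (π (γ ω)) ∈ A00 π J C γ := by
  rw [mem_A00, Ti, map_mul, tr_tt, tr_bo, map_inv, inv_mul_cancel_right]
  exact tt_mem_sb h

theorem Ti_mem_top {X : Set Cf} {γ : Cf → FreeGroup S} {b : B D} (h : b ∈ sb ⊤ X) :
    Ti π γ b ∈ sb ⊤ X := tr_mem (fun _ hω => ⟨hω, Subgroup.mem_top _⟩) h

theorem Th_mem_top {X : Set Cf} {γ : Cf → FreeGroup S} {b : B D} (h : b ∈ sb ⊤ X) :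
    Th π γ b ∈ sb ⊤ X := tr_mem (fun _ hω => ⟨hω, Subgroup.mem_top _⟩) h

/-- the voltage of a letter in the gauge -/
noncomputable def ug (M : RM S) (π : FreeGroup S →* D) (γ : Cf → FreeGroup S) (e : EK) (ω : Cf) :
    D := π ((γ (nx M e ω))⁻¹ * vo M e ω * γ ω)

theorem Ti_Ph_Th (M : RM S) (γ : Cf → FreeGroup S) (e : EK) (b : B D) :
    Ti π γ (Ph M π e (Th π γ b)) = tr (nx M e) (ug M π γ e) b := by
  simp only [Ti, Ph, Th, tr_tr]
  congr 2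
  funext ω
  simp only [ug, map_mul, map_inv, mul_assoc]

theorem Ti_Ph (M : RM S) (γ : Cf → FreeGroup S) (e : EK) (b : B D) :
    Ti π γ (Ph M π e b) = tr (nx M e) (ug M π γ e) (Ti π γ b) := by
  rw [← Ti_Ph_Th, Th_Ti]

theorem Ph_Th (M : RM S) (γ : Cf → FreeGroup S) (e : EK) (b : B D) :
    Ph M π e (Th π γ b) = Th π γ (tr (nx M e) (ug M π γ e) b) := by
  rw [← Ti_Ph_Th, Th_Ti]

theorem exists_sb_lift (J : Subgroup D) (α : J →* D) (C : Set Cf) :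
    ∃ F : sb J C →* B D, (∀ (d : J) h, F ⟨bo d, h⟩ = bo (α d)) ∧
      ∀ ω ∈ C, ∀ h, F ⟨tt ω, h⟩ = tt ω := by
  obtain ⟨F, h1, h2⟩ := MHD.sub_lift (D := BD D) J {e : Le | e.1 ∈ C} (fun _ h => h)
    (fun _ _ _ _ h => h) (bo.comp α) (BD D).t (fun e _ => (BD D).t_bar e) (by
      rintro e - ⟨h, hJ⟩ hh
      have h1 : h = 1 := hh
      subst h1
      change bo (α 1) * _ = _ * bo (α 1)
      rw [map_one, map_one, one_mul, mul_one])
  exact ⟨F, h1, fun ω hω h => h2 (ω, true) hω h⟩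

theorem t_mem_genA (M : RM S) (root : Cf) {e : EK} (he : e ∈ ER) :
    (KD M π).t e ∈ Subgroup.closure (πK M π root '' genA) := by
  obtain ⟨i, b⟩ := e
  obtain ⟨ty, rfl⟩ : ∃ ty, i = .inl ty := he
  have h : (KD M π).t (.inl ty, true) ∈ Subgroup.closure (πK M π root '' genA) :=
    Subgroup.subset_closure ⟨_, Or.inl ⟨ty, rfl⟩, πK_xw M π root (.inl ty, true)⟩
  cases b
  · have e : (KD M π).t (.inl ty, false) = ((KD M π).t (.inl ty, true))⁻¹ :=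
      (KD M π).t_bar (.inl ty, true)
    rw [e]
    exact inv_mem h
  · exact h

variable {M : RM S} {V : Set (FreeGroup S)} {root : Cf} {C : Set Cf} {γ : Cf → FreeGroup S}
  {dep : Cf → ℕ} (hG : M.Good V root C γ dep)
include hG

theorem ug_mem {J : Subgroup D} (hJ : ∀ v ∈ V, π v ∈ J) {e : EK} (he : e ∈ ER) {ω : Cf}
    (hω : ω ∈ C ∩ dm M e) : nx M e ω ∈ C ∧ ug M π γ e ω ∈ J := by
  obtain ⟨i, b⟩ := e
  obtain ⟨ty, rfl⟩ : ∃ ty, i = .inl ty := he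
  obtain ⟨h1, h2 | h2 | h2⟩ := St.gauge hG (st_nx hω.2) hω.1
  · exact ⟨h1, by rw [ug, h2, map_one]; exact one_mem _⟩
  · exact ⟨h1, hJ _ h2⟩
  · refine ⟨h1, ?_⟩
    have := hJ _ h2
    rw [map_inv] at this
    exact inv_mem_iff.1 this

theorem root_mem_A00 {J : Subgroup D} : tt root ∈ A00 π J C γ := by
  simpa [hG.γ_root] using s_mem_A00 (π := π) (J := J) (γ := γ) hG.root_mem

/-- `Ti (Ph e (Th b₀)) = tr (nx e) u b₀`, `u ω = π ((γ (nx e ω))⁻¹ * vo e ω * γ ω) ∈ J`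
(`St.gauge`), and `b₀ ∈ sb J (C ∩ dm e)` (`sb_inter`) -/
theorem A0_good {J : Subgroup D} (hJ : ∀ v ∈ V, π v ∈ J) :
    ∀ e ∈ ER, ∀ g ∈ (KD M π).H e, g ∈ A0 π J C γ → (KD M π).φ e g ∈ A0 π J C γ := by
  intro e he g hg hA
  obtain ⟨b, x, rfl⟩ := exists_bb g
  obtain ⟨h1, rfl⟩ := bb_mem_A0.1 hA
  rw [KD_φ M π e b (Lt.zero _ _), bb_mem_A0, mem_A00, Ti_Ph]
  exact ⟨tr_mem (fun ω hω => ug_mem hG hJ he hω)
    (sb_inter h1 (Ti_mem_top ((bb_mem_HK M).1 hg).1)), rfl⟩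

/-- induction on `dep` (`pred`, `t_conj_tt`, `t_conj_jK`) -/
theorem s_mem {ω : Cf} (hω : ω ∈ C) : kb M π (tt ω) * jK M π (π (γ ω)) ∈
    Subgroup.closure (πK M π root '' genA) := by
  induction h : dep ω using Nat.strong_induction_on generalizing ω with
  | _ n ih =>
    rcases hG.pred ω hω with rfl | ⟨ρ, h1, ω₀, h2, h3, h4⟩
    · rw [hG.γ_root, map_one, map_one, mul_one]
      exact Subgroup.subset_closure ⟨_, Or.inr rfl, πK_rho M π _⟩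
    · have h5 := ih _ (h ▸ h4) ((hG.step_mem ρ h1 _ _ h2).2 hω) rfl
      have hs : St M (.inl ρ.ty, true) ω₀ ω ρ.volt := ⟨ρ, ⟨h1, rfl⟩, h2, rfl⟩
      have ht := t_mem_genA (π := π) M root (e := (.inl ρ.ty, true)) ⟨_, rfl⟩
      have h6 := mul_mem (mul_mem (inv_mem ht) h5) ht
      rw [h3, map_mul, map_mul, ← mul_assoc, ← t_conj_tt M π hs,
        ← t_conj_jK M π (.inl ρ.ty, true) (π (γ ω₀))]
      convert h6 using 1
      group

theorem subA_eq (J : Subgroup D) :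
    subA (πK M π root) (jK M π) J = (KD M π).sub (A0 π J C γ) ER := by
  have hA : Subgroup.closure (πK M π root '' genA) ≤ subA (πK M π root) (jK M π) J :=
    Subgroup.closure_mono Set.subset_union_left
  refine le_antisymm ((Subgroup.closure_le _).2 ?_) ((Subgroup.closure_le _).2 ?_)
  · rintro _ (⟨_, ⟨ty, rfl⟩ | rfl, rfl⟩ | ⟨d, hd, rfl⟩)
    · exact Subgroup.subset_closure
        (Or.inr ⟨(.inl ty, true), ⟨ty, rfl⟩, (πK_xw M π root (.inl ty, true)).symm⟩)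
    · exact Subgroup.subset_closure
        (Or.inl ⟨_, ⟨_, root_mem_A00 hG, rfl⟩, (πK_rho M π root).symm⟩)
    · exact Subgroup.subset_closure (Or.inl ⟨_, ⟨_, bo_mem_A00.2 hd, rfl⟩, rfl⟩)
  · rintro _ (⟨_, ⟨b, hb, rfl⟩, rfl⟩ | ⟨e, he, rfl⟩)
    · have h1 : sb J C ≤ (subA (πK M π root) (jK M π) J).comap ((kb M π).comp (Th π γ)) := by
        refine sb_le (fun d hd => ?_) fun ω hω => ?_
        · rw [Subgroup.mem_comap, MonoidHom.comp_apply, Th, tr_bo]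
          exact Subgroup.subset_closure (Or.inr ⟨d, hd, rfl⟩)
        · rw [Subgroup.mem_comap, MonoidHom.comp_apply, Th, tr_tt, map_mul]
          exact hA (s_mem hG hω)
      have h2 := h1 (mem_A00.1 hb)
      rw [Subgroup.mem_comap, MonoidHom.comp_apply, Th_Ti] at h2
      exact h2
    · exact hA (t_mem_genA M root he)

theorem K_link : ∀ v ∈ V, jK M π (π v) ∈ Subgroup.closure (πK M π root '' genA) := by
  intro v hv
  obtain ⟨ρ, h1, ω, ω', h2, h3, h4, h5, rfl⟩ := hG.link v hv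
  have hs : St M (.inl ρ.ty, true) ω ω' ρ.volt := ⟨ρ, ⟨h1, rfl⟩, h2, rfl⟩
  have ht := t_mem_genA (π := π) M root (e := (.inl ρ.ty, true)) ⟨_, rfl⟩
  have h6 := s_mem (π := π) hG h3
  rw [h5, map_one, map_one, mul_one] at h6
  have h7 := mul_mem (mul_mem (inv_mem ht) h6) ht
  rw [t_conj_tt M π hs, h4, map_one, map_one, mul_one] at h7
  exact (Subgroup.mul_mem_cancel_left _ h7).1 (s_mem hG ((hG.step_mem ρ h1 _ _ h2).1 h3))

theorem kb_mem_subA {J : Subgroup D} (hJ : ∀ v ∈ V, π v ∈ J) (b : B D) :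
    kb M π b ∈ subA (πK M π root) (jK M π) J ↔ b ∈ A00 π J C γ := by
  rw [subA_eq hG, kb_apply, MHD.of_mem_sub_iff _ _ br_mem_ER (A0_good hG hJ), bb_mem_A0]
  exact and_iff_left rfl

theorem K_inter {J : Subgroup D} (hJ : ∀ v ∈ V, π v ∈ J) (d : D) :
    jK M π d ∈ subA (πK M π root) (jK M π) J ↔ d ∈ J := by
  rw [jK_apply, kb_mem_subA hG hJ, bo_mem_A00]

/-- `g = t_ω`, `ω ∉ C`; `ev_mem_sb` for the reduced word `γ t_ω⁻¹ d t_ω γ⁻¹` -/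
theorem K_faith {J : Subgroup D} (hJ : ∀ v ∈ V, π v ∈ J) :
    ∃ g : KG M π, ∀ d, d ≠ 1 → g⁻¹ * jK M π d * g ∉ subA (πK M π root) (jK M π) J := by
  obtain ⟨ω, hω⟩ := hG.out
  refine ⟨kb M π (tt ω), fun d hd h => hω ?_⟩
  rw [jK_apply, ← map_inv, ← map_mul, ← map_mul, kb_mem_subA hG hJ, mem_A00] at h
  have e : Ti π γ ((tt ω)⁻¹ * bo d * tt ω) =
      (BD D).ev (π (γ ω)) [((ω, false), d), ((ω, true), (π (γ ω))⁻¹)] := by
    simp [Ti, t_false, t_true, mul_assoc]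
  rw [e, ev_mem_sb (red_cons_cons.2 ⟨fun h => hd h.2, red_single _⟩)] at h
  exact (h.2 _ List.mem_cons_self).1

/-- `sub_lift` gives `F₀ : sb J C →* B D`, `bo d ↦ bo (α d)`, `t_ω ↦ t_ω`; it commutes with
`tr (nx e) u` on `sb J (C ∩ dm e)` and maps this group to `sb ⊤ (dm e)` (`sb_ind`); `sub_lift` again
with `kb ∘ Th ∘ F₀ ∘ Ti ∘ left` on `A0` -/
theorem K_transport (J : Subgroup D) (α : J →* D) (hV : ∀ v ∈ V, π v ∈ J)
    (hα : ∀ v (hv : v ∈ V), α ⟨π v, hV v hv⟩ = π v) :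
    ∃ F : subA (πK M π root) (jK M π) J →* KG M π,
      (∀ w ∈ genA, ∀ h, F ⟨πK M π root w, h⟩ = πK M π root w) ∧
      ∀ (d : J) h, F ⟨jK M π d, h⟩ = jK M π (α d) := by
  obtain ⟨F₀, hF1, hF2⟩ := exists_sb_lift J α C
  have hfix : ∀ e ∈ ER, ∀ ω ∈ C ∩ dm M e, ∀ h, α ⟨ug M π γ e ω, h⟩ = ug M π γ e ω := by
    intro e he ω hω h
    have h1 := (ug_mem hG (J := (α.eqLocus J.subtype).map J.subtype)
      (fun v hv => ⟨⟨π v, hV v hv⟩, hα v hv, rfl⟩) he hω).2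
    obtain ⟨⟨d, hd⟩, h2, h3⟩ := h1
    obtain rfl : d = ug M π γ e ω := h3
    exact h2
  have hcomm : ∀ e ∈ ER, ∀ b ∈ sb J (C ∩ dm M e), ∀ h1 h2, F₀ ⟨b, h1⟩ ∈ sb ⊤ (dm M e) ∧
      F₀ ⟨tr (nx M e) (ug M π γ e) b, h2⟩ = tr (nx M e) (ug M π γ e) (F₀ ⟨b, h1⟩) := by
    intro e he b hb
    have m1 : ∀ x ∈ sb J (C ∩ dm M e), x ∈ sb J C := fun x hx =>
      sb_mono le_rfl Set.inter_subset_left hx
    have m2 : ∀ x ∈ sb J (C ∩ dm M e), tr (nx M e) (ug M π γ e) x ∈ sb J C := fun x hx =>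
      tr_mem (fun ω hω => ug_mem hG hV he hω) hx
    refine sb_ind (P := fun b => ∀ h1 h2, F₀ ⟨b, h1⟩ ∈ sb ⊤ (dm M e) ∧
      F₀ ⟨tr (nx M e) (ug M π γ e) b, h2⟩ = tr (nx M e) (ug M π γ e) (F₀ ⟨b, h1⟩))
      (fun d hd h1 h2 => ?_) (fun ω hω h1 h2 => ?_) (fun x hx y hy ih ih' h1 h2 => ?_)
      (fun x hx ih h1 h2 => ?_) hb
    · have e1 : (⟨_, h2⟩ : sb J C) = ⟨_, h1⟩ := Subtype.ext (tr_bo _ _ _)
      rw [e1, hF1 ⟨d, hd⟩ h1, tr_bo]
      exact ⟨bo_mem_sb trivial, rfl⟩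
    · obtain ⟨a1, a2⟩ := ug_mem hG hV he hω
      have e1 : (⟨_, h2⟩ : sb J C) = ⟨_, tt_mem_sb a1⟩ * ⟨_, bo_mem_sb a2⟩ :=
        Subtype.ext (tr_tt _ _ _)
      rw [e1, hF2 ω hω.1 h1, tr_tt, map_mul, hF2 _ a1, hF1 ⟨_, a2⟩, hfix e he ω hω]
      exact ⟨tt_mem_sb hω.2, rfl⟩
    · obtain ⟨a1, a2⟩ := ih (m1 x hx) (m2 x hx)
      obtain ⟨b1, b2⟩ := ih' (m1 y hy) (m2 y hy)
      have e1 : (⟨_, h1⟩ : sb J C) = ⟨_, m1 x hx⟩ * ⟨_, m1 y hy⟩ := rfl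
      have e2 : (⟨_, h2⟩ : sb J C) = ⟨_, m2 x hx⟩ * ⟨_, m2 y hy⟩ := Subtype.ext (map_mul _ _ _)
      rw [e1, e2, map_mul, map_mul, map_mul, a2, b2]
      exact ⟨mul_mem a1 b1, rfl⟩
    · obtain ⟨a1, a2⟩ := ih (m1 x hx) (m2 x hx)
      have e1 : (⟨_, h1⟩ : sb J C) = (⟨_, m1 x hx⟩ : sb J C)⁻¹ := rfl
      have e2 : (⟨_, h2⟩ : sb J C) = (⟨_, m2 x hx⟩ : sb J C)⁻¹ := Subtype.ext (map_inv _ _)
      rw [e1, e2, map_inv, map_inv, map_inv, a2]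
      exact ⟨inv_mem a1, rfl⟩
  let r : A0 π J C γ →* sb J C := MonoidHom.mk'
    (fun g => ⟨Ti π γ g.1.left, by obtain ⟨_, b, hb, rfl⟩ := g; exact hb⟩) (by
      rintro ⟨_, b, hb, rfl⟩ ⟨_, b', hb', rfl⟩
      refine Subtype.ext ?_
      change Ti π γ ((inl b : BB D) * inl b').left = Ti π γ b * Ti π γ b'
      rw [← map_mul, ← map_mul, left_inl])
  obtain ⟨F, h1, h2⟩ := MHD.sub_lift (D := KD M π) (A0 π J C γ) ER br_mem_ER (A0_good hG hV)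
    ((kb M π).comp ((Th π γ).comp (F₀.comp r))) (KD M π).t (fun e _ => (KD M π).t_bar e) (by
      rintro e he ⟨_, b, hb, rfl⟩ hh
      have hb' : Ti π γ b ∈ sb J (C ∩ dm M e) :=
        sb_inter hb (Ti_mem_top ((bb_mem_HK M (b := b) (x := 0)).1 hh).1)
      have hb2 : tr (nx M e) (ug M π γ e) (Ti π γ b) ∈ sb J C :=
        tr_mem (fun ω hω => ug_mem hG hV he hω) hb'
      obtain ⟨a1, a2⟩ := hcomm e he _ hb' hb hb2
      have e1 : r ⟨(KD M π).φ e (inl b), A0_good hG hV e he _ hh ⟨b, hb, rfl⟩⟩ = ⟨_, hb2⟩ :=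
        Subtype.ext (Ti_Ph M γ e b)
      simp only [MonoidHom.comp_apply]
      rw [e1, a2, ← Ph_Th, ← t_conj_kb M π e (Th_mem_top a1), mul_assoc, mul_inv_cancel_left]
      rfl)
  rw [subA_eq hG J]
  refine ⟨F, ?_, fun d h => ?_⟩
  · rintro _ (⟨ty, rfl⟩ | rfl) h
    · have e1 : πK M π root (.of (.inr (.inl ty))) = (KD M π).t (.inl ty, true) :=
        πK_xw M π root (.inl ty, true)
      exact ((congrArg F (Subtype.ext e1)).trans (h2 _ ⟨ty, rfl⟩ (e1 ▸ h))).trans e1.symm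
    · have e1 := πK_rho M π root
      refine ((congrArg F (Subtype.ext e1)).trans
        (h1 ⟨inl (tt root), _, root_mem_A00 hG, rfl⟩ (e1 ▸ h))).trans ?_
      have e2 : r ⟨inl (tt root), _, root_mem_A00 hG, rfl⟩ = ⟨_, tt_mem_sb hG.root_mem⟩ :=
        Subtype.ext (show Ti π γ (tt root) = tt root by simp [Ti, hG.γ_root])
      simp only [MonoidHom.comp_apply]
      rw [e2, hF2 _ hG.root_mem, e1]
      simp [Th, hG.γ_root]
  · refine (h1 ⟨inl (bo d), _, bo_mem_A00.2 d.2, rfl⟩ h).trans ?_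
    have e2 : r ⟨inl (bo d), _, bo_mem_A00.2 d.2, rfl⟩ = ⟨_, bo_mem_sb d.2⟩ :=
      Subtype.ext (tr_bo _ _ _)
    simp only [MonoidHom.comp_apply]
    rw [e2, hF1, Th, tr_bo, jK_apply]

end Crest.Agent.R185.KL
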