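import Crest.Agent.R185.KSt

/-!
# Row 185, block K: the machine group
-/

set_option autoImplicit false
set_option linter.unusedSectionVars false

namespace Crest.Agent.R185.KL

open Function SemidirectProduct

section BB

variable (D : Type) [Group D]

/-- translation of the index -/
def sh (x : Cf) : B D →* B D := tr (fun ω => x + ω) fun _ => 1

theorem sh_sh (x y : Cf) (b : B D) : sh D x (sh D y b) = sh D (x + y) b := by
  simp [sh, tr_tr, add_assoc]

theorem sh_zero (b : B D) : sh D 0 b = b := by simpa [sh] using tr_id b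

/-- the action of `ℤ⁸` -/
def shA : Multiplicative Cf →* MulAut (B D) where
  toFun x := MonoidHom.toMulEquiv (sh D x.toAdd) (sh D (-x.toAdd))
    (MonoidHom.ext fun b => by simp [sh_sh, sh_zero])
    (MonoidHom.ext fun b => by simp [sh_sh, sh_zero])
  map_one' := MulEquiv.ext fun b => sh_zero D b
  map_mul' x y := MulEquiv.ext fun b => (sh_sh D x.toAdd y.toAdd b).symm

/-- `(D * F(t_ω)) ⋊ ℤ⁸` -/
abbrev BB : Type := B D ⋊[shA D] Multiplicative Cf

variable {D}

@[simp] theorem shA_apply (x : Multiplicative Cf) (b : B D) : shA D x b = sh D x.toAdd b := rfl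

@[simp] theorem sh_bo (x : Cf) (d : D) : sh D x (bo d) = bo d := tr_bo _ _ _

@[simp] theorem sh_tt (x ω : Cf) : sh D x (tt ω) = tt (x + ω) := by simp [sh]

/-- the element `b a ^ x` -/
def bb (b : B D) (x : Cf) : BB D := ⟨b, Multiplicative.ofAdd x⟩

theorem bb_mul (b b' : B D) (x x' : Cf) : bb b x * bb b' x' = bb (b * sh D x b') (x + x') := rfl

theorem bb_eq (b : B D) (x : Cf) : bb b x = inl b * inr (Multiplicative.ofAdd x) :=
  (inl_left_mul_inr_right (bb b x)).symm

theorem bb_zero (b : B D) : bb b 0 = inl b := rfl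

theorem bb_inj {b b' : B D} {x x' : Cf} : bb b x = bb b' x' ↔ b = b' ∧ x = x' :=
  ⟨fun h => ⟨congrArg SemidirectProduct.left h, congrArg (fun g : BB D => g.right.toAdd) h⟩,
    fun h => by rw [h.1, h.2]⟩

theorem exists_bb (g : BB D) : ∃ b x, g = bb b x := ⟨g.left, g.right.toAdd, rfl⟩

theorem bb_inv (b : B D) (x : Cf) : (bb b x)⁻¹ = bb (sh D (-x) b⁻¹) (-x) := by
  rw [inv_eq_iff_mul_eq_one, bb_mul, sh_sh, add_neg_cancel, sh_zero, mul_inv_cancel]
  rfl

end BB

variable {S : Type} [Fintype S] [DecidableEq S] (M : RM S) {D : Type} [Group D]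
  (π : FreeGroup S →* D)

theorem sh_mem {M : RM S} {e : EK} {x y : Cf} (h : Lt M.m e x y) {b : B D}
    (hb : b ∈ sb ⊤ (dm M e)) : sh D x b ∈ sb ⊤ (dm M e) :=
  tr_mem (fun _ hω => ⟨((st_nx hω).add h).mem, Subgroup.mem_top _⟩) hb

/-- the associated subgroups -/
def HK (D : Type) [Group D] (e : EK) : Subgroup (BB D) where
  carrier := {g | g.left ∈ sb ⊤ (dm M e) ∧ ∃ y, Lt M.m e g.right.toAdd y}
  one_mem' := ⟨one_mem _, 0, Lt.zero _ _⟩
  mul_mem' := by
    rintro a b ⟨h1, y, h2⟩ ⟨h3, y', h4⟩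
    exact ⟨mul_mem h1 (sh_mem h2 h3), _, h2.add h4⟩
  inv_mem' := by
    rintro a ⟨h1, y, h2⟩
    exact ⟨sh_mem h2.neg (inv_mem h1), _, h2.neg⟩

theorem bb_mem_HK {e : EK} {b : B D} {x : Cf} :
    bb b x ∈ HK M D e ↔ b ∈ sb ⊤ (dm M e) ∧ ∃ y, Lt M.m e x y := Iff.rfl

/-- the action of a letter on `B D` (junk outside of the domain) -/
noncomputable def Ph (e : EK) : B D →* B D := tr (nx M e) fun ω => π (vo M e ω)

/-- the data of the machine group -/
noncomputable def KD : MHD (BB D) EK where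
  bar := br
  bar_bar := br_br
  H := HK M D
  φ e g := bb (Ph M π e g.left) (ps M e g.right.toAdd)
  φ_mem e := by
    rintro g ⟨h1, y, h2⟩
    rw [h2.ps_eq]
    exact ⟨tr_mem (fun _ hω => ⟨(st_nx hω).bar.mem, Subgroup.mem_top _⟩) h1, _, h2.bar⟩
  φ_mul e := by
    rintro a ⟨h1, y, h2⟩ b ⟨h3, y', h4⟩
    rw [bb_mul, h2.ps_eq, h4.ps_eq, mul_right, toAdd_mul, (h2.add h4).ps_eq, mul_left, map_mul,
      bb_inj]
    refine ⟨congrArg _ ?_, rfl⟩
    simp only [shA_apply, Ph, sh, tr_tr]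
    refine tr_congr (fun ω hω => ?_) h3
    have := (st_nx hω).add h2
    simp [this.nx_eq, this.vo_eq]
  φ_φ e := by
    rintro g ⟨h1, y, h2⟩
    obtain ⟨b, x, rfl⟩ := exists_bb g
    change bb (Ph M π (br e) (Ph M π e b)) (ps M (br e) (ps M e x)) = bb b x
    have h2' : Lt M.m e x y := h2
    rw [h2'.ps_eq, h2'.bar.ps_eq, bb_inj]
    refine ⟨?_, rfl⟩
    simp only [Ph, tr_tr]
    refine (tr_congr (fun ω hω => ?_) h1).trans (tr_id b)
    have := (st_nx hω).bar
    simp [this.nx_eq, this.vo_eq]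

theorem KD_φ (e : EK) (b : B D) {x y : Cf} (h : Lt M.m e x y) :
    (KD M π).φ e (bb b x) = bb (Ph M π e b) y := by
  rw [← h.ps_eq]; rfl

/-- the machine group -/
abbrev KG : Type := (KD M π).G

/-- `B D → K` -/
noncomputable def kb : B D →* KG M π := (KD M π).of.comp inl

/-- the translations -/
noncomputable def ka (x : Cf) : KG M π := (KD M π).of (inr (Multiplicative.ofAdd x))

/-- `D → K` -/
noncomputable def jK : D →* KG M π := (kb M π).comp bo

theorem kb_injective : Injective (kb M π) := (KD M π).of_injective.comp inl_injective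

theorem jK_injective : Injective (jK M π) := (kb_injective M π).comp bo_injective

theorem jK_apply (d : D) : jK M π d = kb M π (bo d) := rfl

theorem kb_apply (b : B D) : kb M π b = (KD M π).of (bb b 0) := rfl

theorem of_bb (b : B D) (x : Cf) : (KD M π).of (bb b x) = kb M π b * ka M π x := by
  rw [bb_eq, map_mul]; rfl

theorem ka_add (x y : Cf) : ka M π (x + y) = ka M π x * ka M π y := by
  simp [ka, ← map_mul]

theorem ka_zero : ka M π 0 = 1 := by simp [ka]

theorem ka_zsmul (n : ℤ) (x : Cf) : ka M π (n • x) = ka M π x ^ n := by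
  rw [ka, ka, ofAdd_zsmul, map_zpow, map_zpow]

theorem ka_conj (x : Cf) (b : B D) : ka M π x * kb M π b * (ka M π x)⁻¹ = kb M π (sh D x b) := by
  have := inl_aut (φ := shA D) (Multiplicative.ofAdd x) b
  simp only [shA_apply, toAdd_ofAdd] at this
  simp only [ka, kb, MonoidHom.comp_apply, this, map_mul, map_inv]

theorem t_conj_kb (e : EK) {b : B D} (hb : b ∈ sb ⊤ (dm M e)) :
    ((KD M π).t e)⁻¹ * kb M π b * (KD M π).t e = kb M π (Ph M π e b) := by
  rw [kb_apply, (KD M π).t_conj e ((bb_mem_HK M).2 ⟨hb, 0, Lt.zero _ _⟩), KD_φ M π e b (Lt.zero _ _)]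
  rfl

theorem t_conj_ka (e : EK) {x y : Cf} (h : Lt M.m e x y) :
    ((KD M π).t e)⁻¹ * ka M π x * (KD M π).t e = ka M π y := by
  have := (KD M π).t_conj e (h := bb 1 x) ((bb_mem_HK M).2 ⟨one_mem _, y, h⟩)
  rwa [KD_φ M π e 1 h, of_bb, of_bb, map_one, map_one, map_one, one_mul, one_mul] at this

theorem t_conj_jK (e : EK) (d : D) :
    ((KD M π).t e)⁻¹ * jK M π d * (KD M π).t e = jK M π d := by
  rw [jK_apply, t_conj_kb M π e (bo_mem_sb trivial), Ph, tr_bo]

theorem t_conj_tt {e : EK} {ω ω' : Cf} {v : FreeGroup S} (h : St M e ω ω' v) :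
    ((KD M π).t e)⁻¹ * kb M π (tt ω) * (KD M π).t e = kb M π (tt ω') * jK M π (π v) := by
  rw [t_conj_kb M π e (tt_mem_sb h.mem), Ph, tr_tt, h.nx_eq, h.vo_eq, map_mul, jK_apply]

/-! ### the marking -/

/-- the letter of `YK` for a stable letter -/
def xl : IK → YK
  | .inl ty => .inr (.inl ty)
  | .inr _ => .inr (.inr 1)

/-- the word for a stable letter or its inverse -/
def xw (e : EK) : FreeGroup YK := if e.2 then .of (xl e.1) else (FreeGroup.of (xl e.1))⁻¹

theorem xw_br (e : EK) : xw (br e) = (xw e)⁻¹ := by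
  obtain ⟨i, _ | _⟩ := e <;> simp [xw, br]

theorem norm_xw (e : EK) : (xw e).norm ≤ 1 := by
  obtain ⟨i, _ | _⟩ := e <;> simp [xw]

/-- the letter `aₖ` -/
def aw (k : Reg) : FreeGroup YK := .of (.inl k)

/-- the marking of the machine group -/
noncomputable def πK (root : Cf) : FreeGroup YK →* KG M π :=
  FreeGroup.lift (Sum.elim (fun k => ka M π (Pi.single k 1)) (Sum.elim
    (fun ty => (KD M π).t (.inl ty, true))
    ![kb M π (tt 0), (KD M π).t (.inr (), true), kb M π (tt root)]))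

/-- the words for the generators of `D` -/
noncomputable def io (S : Type) [Fintype S] : FreeGroup S →* FreeGroup YK :=
  FreeGroup.lift fun s => (tw (qs s))⁻¹ * ((xw (.inr (), true))⁻¹ * tw (qs s) * xw (.inr (), true))

/-- the relators -/
def RK : Set (FreeGroup YK) :=
  {w | (∃ k k', w = aw k * aw k' * (aw k' * aw k)⁻¹) ∨
    (∃ k s, w = aw k * io S (.of s) * (io S (.of s) * aw k)⁻¹) ∨
    (∃ i s, w = (xw (i, true))⁻¹ * io S (.of s) * xw (i, true) * (io S (.of s))⁻¹) ∨
    (∃ i k, w = (xw (i, true))⁻¹ * aw k ^ (ops i k).dom M.m * xw (i, true) *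
      (aw k ^ (ops i k).ran M.m)⁻¹) ∨
    ∃ i, ∃ ρ ∈ rl M i, w = (xw (i, true))⁻¹ * tw ρ.a * xw (i, true) * (tw ρ.a' * io S ρ.volt)⁻¹}

theorem RK_finite : (RK M).Finite := by
  have h5 : (⋃ i, (fun ρ : Rule S => (xw (i, true))⁻¹ * tw ρ.a * xw (i, true) *
      (tw ρ.a' * io S ρ.volt)⁻¹) '' rl M i).Finite :=
    Set.finite_iUnion fun i => (rl_finite i).image _
  refine (((((Set.finite_range fun p : Reg × Reg =>
    aw p.1 * aw p.2 * (aw p.2 * aw p.1)⁻¹).union (Set.finite_range fun p : Reg × S =>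
    aw p.1 * io S (.of p.2) * (io S (.of p.2) * aw p.1)⁻¹)).union (Set.finite_range
    fun p : IK × S => (xw (p.1, true))⁻¹ * io S (.of p.2) * xw (p.1, true) *
      (io S (.of p.2))⁻¹)).union (Set.finite_range fun p : IK × Reg =>
    (xw (p.1, true))⁻¹ * aw p.2 ^ (ops p.1 p.2).dom M.m * xw (p.1, true) *
      (aw p.2 ^ (ops p.1 p.2).ran M.m)⁻¹)).union h5).subset ?_
  rintro w (⟨k, k', rfl⟩ | ⟨k, s, rfl⟩ | ⟨i, s, rfl⟩ | ⟨i, k, rfl⟩ | ⟨i, ρ, h, rfl⟩)
  · exact .inl (.inl (.inl (.inl ⟨(k, k'), rfl⟩)))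
  · exact .inl (.inl (.inl (.inr ⟨(k, s), rfl⟩)))
  · exact .inl (.inl (.inr ⟨(i, s), rfl⟩))
  · exact .inl (.inr ⟨(i, k), rfl⟩)
  · exact .inr (Set.mem_iUnion.2 ⟨i, ρ, h, rfl⟩)

variable (root : Cf)

theorem πK_aw (k : Reg) : πK M π root (aw k) = ka M π (Pi.single k 1) := by simp [πK, aw]

theorem πK_xw (e : EK) : πK M π root (xw e) = (KD M π).t e := by
  have h : ∀ i, πK M π root (.of (xl i)) = (KD M π).t (i, true) := by
    rintro (ty | u) <;> simp [πK, xl]
  obtain ⟨i, _ | _⟩ := e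
  · have : (KD M π).t (i, false) = ((KD M π).t (i, true))⁻¹ := (KD M π).t_bar (i, true)
    simp [xw, h, this]
  · simp [xw, h]

theorem πK_rho : πK M π root (.of (.inr (.inr 2))) = kb M π (tt root) := by simp [πK]

theorem πK_latw (x : Cf) : πK M π root (latw x) = ka M π x := by
  have h : ∀ l : List Reg, πK M π root (l.map fun i : Reg =>
      (FreeGroup.of (Sum.inl i) : FreeGroup YK) ^ x i).prod =
      ka M π (l.map fun i => x i • (Pi.single i 1 : Cf)).sum := by
    intro l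
    induction l with
    | nil => simp [ka_zero]
    | cons i l ih =>
      rw [List.map_cons, List.prod_cons, map_mul, ih, List.map_cons, List.sum_cons, ka_add,
        ka_zsmul, map_zpow, ← πK_aw M π root]
      rfl
  rw [latw, h, ← Fin.sum_univ_def]
  congr 1
  ext k
  simp [Finset.sum_apply, Pi.single_apply]

theorem πK_tw (ω : Cf) : πK M π root (tw ω) = kb M π (tt ω) := by
  have : πK M π root (.of (.inr (.inr 0))) = kb M π (tt 0) := by simp [πK]
  rw [tw, map_mul, map_mul, map_inv, πK_latw, this, ka_conj, sh_tt, add_zero]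

theorem πK_io (w : FreeGroup S) : πK M π root (io S w) = jK M π (π w) := by
  refine DFunLike.congr_fun (show (πK M π root).comp (io S) = (jK M π).comp π from
    FreeGroup.ext_hom _ _ fun s => ?_) w
  have h := t_conj_tt M π (st_base (M := M) (i := .inr ()) ⟨s, rfl⟩)
  simp only [fr] at h
  simp [io, πK_tw, πK_xw, h]

theorem πK_rel : ∀ r ∈ RK M, πK M π root r = 1 := by
  rintro w (⟨k, k', rfl⟩ | ⟨k, s, rfl⟩ | ⟨i, s, rfl⟩ | ⟨i, k, rfl⟩ | ⟨i, ρ, h, rfl⟩)
  · simp only [map_mul, map_inv, πK_aw, ← ka_add, mul_inv_eq_one, add_comm]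
  · simp only [map_mul, map_inv, πK_aw, πK_io, mul_inv_eq_one]
    have := ka_conj M π (Pi.single k 1) (bo (π (.of s)))
    rw [sh_bo, ← jK_apply] at this
    exact mul_inv_eq_iff_eq_mul.1 this
  · simp only [map_mul, map_inv, πK_xw, πK_io, mul_inv_eq_one, t_conj_jK]
  · simp only [map_mul, map_inv, map_zpow, πK_xw, πK_aw, mul_inv_eq_one, ← ka_zsmul]
    refine t_conj_ka M π (i, true) ⟨Pi.single k 1, fun k' => ?_, fun k' => ?_⟩ <;>
      by_cases hk : k' = k <;> simp [hk]
  · simp only [map_mul, map_inv, πK_xw, πK_io, πK_tw, mul_inv_eq_one]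
    exact t_conj_tt M π (st_base h)

theorem πK_root : πK M π root (rootRel root) = 1 := by
  simp only [rootRel, map_mul, map_inv, πK_rho, πK_tw, mul_inv_cancel]

theorem πK_rho0 : πK M π root rho0 = 1 := πK_rel M π root _ (Or.inl ⟨0, 1, rfl⟩)

theorem πK_surjective (h : Surjective π) : Surjective (πK M π root) := by
  rw [← MonoidHom.range_eq_top, eq_top_iff, ← (KD M π).closure_eq_top, Subgroup.closure_le]
  rintro _ (⟨g, rfl⟩ | ⟨e, rfl⟩)
  · obtain ⟨b, x, rfl⟩ := exists_bb g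
    rw [of_bb]
    refine mul_mem ?_ ⟨_, πK_latw M π root x⟩
    refine sb_le (P := (πK M π root).range.comap (kb M π)) (fun d _ => ?_) (fun ω _ => ?_)
      (mem_sb_top b)
    · obtain ⟨w, rfl⟩ := h d
      exact ⟨_, πK_io M π root w⟩
    · exact ⟨_, πK_tw M π root ω⟩
  · exact ⟨_, πK_xw M π root e⟩

end Crest.Agent.R185.KL
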