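import Crest.Agent.R185.KRep
import Crest.Agent.R185.KGauge
import Crest.Agent.R185.KCore

/-!
# Row 185, block K: locality of the membership problem of `A(J)`
-/

set_option autoImplicit false
set_option linter.unusedSectionVars false

namespace Crest.Agent.R185.KL

open Function SemidirectProduct

theorem mem_trl' {G : Type} [Group G] {f : Cf → Cf} {v : Cf → G} {l : List (Le × G)} {x : Le × G}
    (h : x ∈ l) : ∃ y ∈ trl f v l, y.1.1 = f x.1.1 := by
  induction l with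
  | nil => simp at h
  | cons z l ih =>
    rcases List.mem_cons.1 h with rfl | h
    · exact ⟨_, List.mem_cons_self, rfl⟩
    · obtain ⟨y, hy, e⟩ := ih h
      exact ⟨y, List.mem_cons_of_mem _ hy, e⟩

variable {S : Type} [Fintype S] [DecidableEq S] {M : RM S} {D : Type} [Group D]
  {π : FreeGroup S →* D} {V : Set (FreeGroup S)} {root : Cf} {C : Set Cf} {γ : Cf → FreeGroup S}
  {dep : Cf → ℕ}

theorem dep_le_of_bd (hG : M.Good V root C γ dep) {n : ℕ} {ω : Cf} (hω : ω ∈ C)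
    (hb : Bd M.m root n ω) : dep ω ≤ 2 * n + 1 := by
  refine hG.dep_le ω hω _ ?_
  have h1 := hb 1
  have h2 : (2 : ℤ) ≤ M.m := by exact_mod_cast M.two_le
  have h3 : ((M.m : ℤ) + 1) ^ n ≤ ((M.m : ℤ) ^ 2) ^ n := pow_le_pow_left₀ (by omega) (by nlinarith) n
  rw [hG.root_hist] at h1
  rw [pow_mul]
  simp only [abs_zero, zero_add, mul_one] at h1
  omega

theorem πK_io_wd (δ : FreeGroup S) (r : Rp M π root) : πK M π root (io S δ * (RS M π root).wd r) =
    (KD M π).of (bb ((BD D).ev (π (δ * r.d)) (mp π r.l)) r.x) := by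
  change πK M π root (io S δ * (W r.d r.l * latw r.x)) = _
  rw [← mul_assoc, io_mul_W, map_mul, πK_W, πK_latw, of_bb]

namespace Ctx

variable {θ : LT YK} {L F N : ℕ} (h : Ctx M π root θ L F N) (hG : M.Good V root C γ dep)
  (hA : genA ⊆ θ.M)
include h hA

theorem xw_memM {e : EK} (he : e ∈ ER) : xw e ∈ θ.M := by
  obtain ⟨i, b⟩ := e
  obtain ⟨ty, rfl : i = _⟩ := he
  have h1 : xw (.inl ty, true) ∈ θ.M := hA (Or.inl ⟨ty, rfl⟩)
  cases b
  · exact h.invM (a := xw (.inl ty, true)) h1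
  · exact h1

include hG

theorem s_memM (d : ℕ) : ∀ (ω : Cf) (j : ℕ), ω ∈ C → dep ω ≤ d → Bd M.m root j ω →
    j + 2 * d ≤ N → tw ω * io S (γ ω) ∈ θ.M := by
  have hroot : tw root * io S (γ root) ∈ θ.M := by
    have e : θ.E (.of (.inr (.inr 2))) (tw root) := h.rho
    have s1 := Bx.sm_tw (j := 0) h.bx_root
    have s2 : Sm F 1 (.of (.inr (.inr 2))) := by
      have := h.add_two_le
      simp only [Sm, FreeGroup.norm_of]; omega
    rw [hG.γ_root, map_one, mul_one]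
    exact h.memM (h.symm e) (hA (Or.inr rfl))
  have hN := h.N_le
  induction d with
  | zero =>
    intro ω j hω hd _ _
    rcases hG.pred ω hω with rfl | ⟨ρ, h1, ω₀, h2, h3, h4⟩
    · exact hroot
    · omega
  | succ d ih =>
    intro ω j hω hd hb hj
    rcases hG.pred ω hω with rfl | ⟨ρ, h1, ω₀, h2, h3, h4⟩
    · exact hroot
    · have st : St M (.inl ρ.ty, true) ω₀ ω ρ.volt := ⟨ρ, ⟨h1, rfl⟩, h2, rfl⟩
      have b0 := hb.st st.bar
      have c0 := (hG.step_mem ρ h1 _ _ h2).2 hω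
      have m0 := ih ω₀ (j + 2) c0 (by omega) b0 (by omega)
      have n0 : (γ ω₀).norm ≤ F := (norm_γ_le hG c0).trans (by omega)
      have x0 := h.bx b0 (by omega)
      have x1 := h.bx hb (by omega)
      have e1 := h.x_tw x0 x1 st
      have e2 := h.x_io (.inl ρ.ty, true) (n0.trans (le_lev_self F 2))
      have s1 := Bx.sm_tw (j := 0) x0
      have s2 := Bx.sm_tw (j := 0) x1
      have s3 := h.sm_io (j := 0) n0
      have s4 := h.sm_io (j := 1) (st.norm_le.trans (by have := h.add_two_le; omega))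
      have m1 := h.xw_memM hA (e := (.inl ρ.ty, true)) ⟨_, rfl⟩
      rw [h3, map_mul, ← mul_assoc]
      refine h.memM (h.symm (h.mulE e1 e2)) ?_
      have := h.mulM (h.mulM (h.invM m1) m0) m1
      simpa only [mul_assoc, mul_inv_cancel_left] using this

variable {J : Subgroup D} (hM : (θ.comap (io S)).KM π J N)
include hM

theorem cut {n : ℕ} (hn : 5 * n + 2 ≤ N) {Y : Set Cf} (l : List (Le × FreeGroup S)) :
    ∀ d δ : FreeGroup S, δ.norm ≤ 2 * n + 1 → d.norm ≤ n → l.length ≤ n →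
      (∀ y ∈ l, Bd M.m root n y.1.1) → (∀ y ∈ l, y.2.norm ≤ n) →
      Cut J C Y (π (δ * d) * rvh (fun ω => (π (γ ω))⁻¹) (mp π l))
        (trl (fun ω => ω) (fun ω => (π (γ ω))⁻¹) (mp π l)) →
      ∃ (δ' d' : FreeGroup S) (l' : List (Le × FreeGroup S)), δ'.norm ≤ 2 * n + 1 ∧ d'.norm ≤ n ∧
        l' <:+ l ∧ (∀ y ∈ l', y.1.1 ∈ Y) ∧ W (δ * d) l * (W (δ' * d') l')⁻¹ ∈ θ.M ∧
        πK M π root (W (δ * d) l * (W (δ' * d') l')⁻¹) ∈ (A00 π J C γ).map (kb M π) := by
  have hN := h.N_le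
  induction l with
  | nil =>
    intro d δ h1 h2 _ _ _ _
    exact ⟨δ, d, [], h1, h2, List.suffix_rfl, by simp, by simpa using h.cl.oneM, by simp⟩
  | cons x l ih =>
    intro d δ h1 h2 h3 h4 h5 hc
    obtain ⟨e, a⟩ := x
    by_cases hall : ∀ y ∈ (e, a) :: l, y.1.1 ∈ Y
    · exact ⟨δ, d, _, h1, h2, List.suffix_rfl, hall, by simpa using h.cl.oneM, by simp⟩
    rw [mp_cons, trl] at hc
    cases hc with
    | all hc =>
      refine (hall fun y hy => ?_).elim
      obtain ⟨z, hz, q⟩ := mem_trl' (f := fun ω => ω) (v := fun ω => (π (γ ω))⁻¹)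
        (mem_mp.2 ⟨y, hy, rfl⟩ : (y.1, π y.2) ∈ mp π ((e, a) :: l))
      exact q ▸ hc z hz
    | cons c1 c2 c3 =>
      have hγ : (fun ω => (π (γ ω))⁻¹) = fun ω => π (γ ω)⁻¹ := by simp
      have b1 := h4 _ List.mem_cons_self
      have d1 := dep_le_of_bd hG c2 b1
      have n1 := (norm_γ_le hG c2).trans d1
      dsimp only at c1 c2 c3 b1 d1 n1
      have n2 : (lv (fun ω => (γ ω)⁻¹) e).norm ≤ 2 * n + 1 :=
        (norm_lv_le _ _).trans (by rwa [FreeGroup.norm_inv_eq])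
      have n3 : (rv (fun ω => (γ ω)⁻¹) e).norm ≤ 2 * n + 1 :=
        (norm_rv_le _ _).trans (by rwa [FreeGroup.norm_inv_eq])
      rw [List.length_cons] at h3
      have n4 : a.norm ≤ n := h5 _ List.mem_cons_self
      obtain ⟨δ', d', l', k1, k2, k3, k4, k5, k6⟩ := ih a (lv (fun ω => (γ ω)⁻¹) e) n2 n4 (by omega)
        (fun y hy => h4 y (List.mem_cons_of_mem _ hy)) (fun y hy => h5 y (List.mem_cons_of_mem _ hy))
        (by rwa [map_mul, map_lv, ← hγ])
      have j1 : π (δ * d * rv (fun ω => (γ ω)⁻¹) e) ∈ J := by rwa [map_mul, map_rv, ← hγ]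
      have n5 : (δ * d * rv (fun ω => (γ ω)⁻¹) e).norm ≤ N := by
        have := nmul (δ * d) (rv (fun ω => (γ ω)⁻¹) e)
        have := nmul δ d
        omega
      have m1 : io S (δ * d * rv (fun ω => (γ ω)⁻¹) e) ∈ θ.M := hM _ n5 j1
      have m2 := h.s_memM hG hA _ e.1 n c2 d1 b1 (by omega)
      have s1 := h.sm_io (j := 0) (n5.trans hN)
      have s2 := Bx.sm_tw (j := 0) (h.bx b1 (by omega))
      have s3 := h.sm_io (j := 0) (w := γ e.1) (n1.trans (by rw [lev_zero]; omega))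
      have s4 := h.sm_W (j := 0) (d := lv (fun ω => (γ ω)⁻¹) e * a) (l := l)
        ⟨(nmul _ _).trans (by rw [lev_zero]; omega), by rw [lev_zero]; omega,
          fun y hy => h.bx (h4 y (List.mem_cons_of_mem _ hy)) (by omega),
          fun y hy => (h5 y (List.mem_cons_of_mem _ hy)).trans (by rw [lev_zero]; omega)⟩
      have s5 := h.sm_W (j := 0) (d := δ' * d') (l := l')
        ⟨(nmul _ _).trans (by rw [lev_zero]; omega), k3.length_le.trans (by rw [lev_zero]; omega),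
          fun y hy => h.bx (h4 y (List.mem_cons_of_mem _ (k3.subset hy))) (by omega),
          fun y hy => (h5 y (List.mem_cons_of_mem _ (k3.subset hy))).trans
            (by rw [lev_zero]; omega)⟩
      have p1 : πK M π root (io S (δ * d * rv (fun ω => (γ ω)⁻¹) e)) ∈
          (A00 π J C γ).map (kb M π) := ⟨_, bo_mem_A00.2 j1, (πK_io M π root _).symm⟩
      have p2 : πK M π root (tw e.1 * io S (γ e.1)) ∈ (A00 π J C γ).map (kb M π) :=
        ⟨_, s_mem_A00 c2, by rw [map_mul, map_mul, πK_tw, πK_io, jK_apply]⟩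
      refine ⟨δ', d', l', k1, k2, k3.trans (List.suffix_cons _ _), k4, ?_⟩
      obtain ⟨ω, _ | _⟩ := e
      · have q : W (δ * d) (((ω, false), a) :: l) * (W (δ' * d') l')⁻¹ =
            io S (δ * d * rv (fun ω => (γ ω)⁻¹) (ω, false)) * (tw ω * io S (γ ω))⁻¹ *
              (W (lv (fun ω => (γ ω)⁻¹) (ω, false) * a) l * (W (δ' * d') l')⁻¹) := by
          simp [W_cons, te, rv, lv, mul_assoc]
        rw [q]
        refine ⟨h.mulM (h.mulM m1 (h.invM m2)) k5, ?_⟩
        rw [map_mul, map_mul, map_inv]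
        exact mul_mem (mul_mem p1 (inv_mem p2)) k6
      · have q : W (δ * d) (((ω, true), a) :: l) * (W (δ' * d') l')⁻¹ =
            io S (δ * d * rv (fun ω => (γ ω)⁻¹) (ω, true)) * (tw ω * io S (γ ω)) *
              (W (lv (fun ω => (γ ω)⁻¹) (ω, true) * a) l * (W (δ' * d') l')⁻¹) := by
          simp [W_cons, te, rv, lv, mul_assoc, ← io_mul_W]
        rw [q]
        refine ⟨h.mulM (h.mulM m1 m2) k5, ?_⟩
        rw [map_mul, map_mul]
        exact mul_mem (mul_mem p1 p2) k6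

theorem cut_rep {Y : Set Cf} (r : Rp M π root) (hn : 5 * r.n + 2 ≤ N) {δ : FreeGroup S}
    (hδ : δ.norm ≤ 2 * r.n + 1) {a b : B D} (ha : a ∈ A00 π J C γ) (hb : b ∈ sb ⊤ Y)
    (hab : (BD D).ev (π (δ * r.d)) (mp π r.l) = a * b) :
    ∃ (δ' : FreeGroup S) (r' : Rp M π root), r'.n = r.n ∧ r'.x = r.x ∧ δ'.norm ≤ 2 * r.n + 1 ∧
      (∀ y ∈ r'.l, y.1.1 ∈ Y) ∧
      io S δ * (RS M π root).wd r * (io S δ' * (RS M π root).wd r')⁻¹ ∈ θ.M ∧
      πK M π root (io S δ * (RS M π root).wd r * (io S δ' * (RS M π root).wd r')⁻¹) ∈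
        (A00 π J C γ).map (kb M π) := by
  have hc := cut_of_mul (J := J) (X := C) (Y := Y) (u := Ti π γ a) (v := Ti π γ b) ha
    (tr_mem (fun ω hω => ⟨hω, Subgroup.mem_top _⟩) hb)
    (red_trl (f := fun ω => ω) (fun ω => (π (γ ω))⁻¹) (X := Set.univ) (fun _ _ _ _ q => q)
      (fun _ _ => trivial) r.red)
    (by rw [ev_trl, hab, map_mul]; rfl)
  obtain ⟨δ', d', l', k1, k2, k3, k4, k5⟩ := h.cut hG hA hM hn r.l r.d δ hδ r.d_le r.len r.box
    r.syl hc
  refine ⟨δ', ⟨r.n, d', l', r.x, List.IsChain.suffix r.red (k3.map _), k2,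
    k3.length_le.trans r.len, fun y hy => r.box y (k3.subset hy),
    fun y hy => r.syl y (k3.subset hy), r.x_le⟩, rfl, rfl, k1, k4, ?_⟩
  convert k5 using 2 <;> simp [RS, ← io_mul_W, mul_assoc]

theorem KM (hJ : ∀ v ∈ V, π v ∈ J) {m : ℕ} (hm : 10 * m + 2 ≤ N) :
    θ.KM (πK M π root) (subA (πK M π root) (jK M π) J) m := by
  intro w hw hwA
  have hN := h.N_le
  obtain ⟨c, c1, c2, c3⟩ := MHD.exists_cosetCore (D := KD M π) (A0 π J C γ) ER br_mem_ER
    (A0_good hG hJ)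
  obtain ⟨r, l, h1, h2, e0⟩ := h.rep (m := m) (by omega) w hw
  rw [subA_eq hG, LT.E.eq h.snd e0, RepSys.π_wl] at hwA
  have hp := MHD.Core.Conn.path h1 (c3 hwA)
  let P : ℕ → Quotient (QuotientGroup.rightRel (A0 π J C γ)) → FreeGroup YK → Prop :=
    fun n p v => ∃ (δ : FreeGroup S) (r : Rp M π root) (g : BB D), r.n = n ∧
      δ.norm ≤ 2 * n + 1 ∧ v = io S δ * (RS M π root).wd r ∧ πK M π root v = (KD M π).of g ∧
      p = MHD.rc (A0 π J C γ) g
  have hP : ∀ n p v, n ≤ 2 * m → P n p v → Sm F 5 v := by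
    rintro _ _ _ hn ⟨δ, r, g, rfl, k1, rfl, -⟩
    have s1 := h.sm_io (j := 0) (w := δ) (k1.trans (by rw [lev_zero]; omega))
    have s2 := h.sm_wd r (by omega)
    sm
  obtain ⟨n, v, hn, hv, m0⟩ := (RS M π root).scan c h.cl (m := m) (F := lev F 4) (F' := lev F 5)
    (by
      have a1 := le_lev (a := m) (F := F) (j := 5) ((by omega : m ≤ F).trans (le_lev_self F 5))
        le_rfl (Nat.zero_le _)
      have a2 := h.lev_le (j := 5 + 1)
      have a3 := lev_mono F (show 4 ≤ 5 by decide)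
      nlinarith)
    (fun r hr => h.sm_wd r (le_trans hr (by omega))) P hP
    (by
      rintro _ _ _ r' ⟨δ, r, g, rfl, k1, rfl, k2, rfl⟩ hn hn'
      change r.n + r'.n ≤ _ at hn
      obtain ⟨r'', q1, q2⟩ := h.prod_rep r r' (by omega)
      have s1 := h.sm_io (j := 0) (w := δ) (k1.trans (by rw [lev_zero]; omega))
      have s2 := h.sm_wd r (by omega)
      have s3 := h.sm_wd r' (by omega)
      have s4 := h.sm_wd r'' (by omega)
      have e1 := h.congr (h.mul_left (io S δ) q2) (mul_assoc _ _ _).symm rfl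
      refine ⟨_, ⟨δ, r'', g * (RS M π root).val r', q1, k1.trans (by omega), rfl, ?_, c1 _ _⟩,
        h.cl.sub _ (h.le_L (by sm)) e1⟩
      rw [← LT.E.eq h.snd e1, map_mul, k2, (RS M π root).π_wd, map_mul])
    (by
      rintro _ _ _ e q ⟨δ, r, g, rfl, k1, rfl, k2, rfl⟩ hn hst
      obtain ⟨he, h₀, hH, q1, -⟩ := (c2 _ _ _).1 hst
      obtain ⟨b₀, x₀, rfl⟩ := exists_bb h₀
      obtain ⟨a₀, x₁, ha⟩ := exists_bb (g * (bb b₀ x₀)⁻¹)
      obtain ⟨a1, rfl⟩ := bb_mem_A0.1 (ha ▸ MHD.rc_eq.1 q1.symm)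
      obtain rfl := (KD M π).of_injective ((πK_io_wd δ r).symm.trans k2)
      rw [mul_inv_eq_iff_eq_mul, bb_mul, sh_zero, zero_add, bb_inj] at ha
      obtain ⟨b1, y, b2⟩ := (bb_mem_HK M).1 hH
      obtain ⟨δ', r', j1, j2, j3, j4, j5, a, j6, j7⟩ := h.cut_rep hG hA hM r (by omega) k1 a1 b1 ha.1
      have hH' : ∀ u : D, bb ((BD D).ev u (mp π r'.l)) r'.x ∈ (KD M π).H e := fun u =>
        (bb_mem_HK M).2 ⟨(ev_mem_sb r'.red).2 ⟨trivial, fun z hz => by
          obtain ⟨z', hz', rfl⟩ := mem_mp.1 hz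
          exact ⟨j4 z' hz', trivial⟩⟩, y, by rwa [j2, ha.2]⟩
      obtain ⟨r'', i1, i2⟩ := h.pinch_rep e r' (hH' _) (by omega)
      have n1 : δ'.norm ≤ F := by omega
      have s1 := h.sm_io (j := 0) (w := δ) (k1.trans (by rw [lev_zero]; omega))
      have s2 := h.sm_wd r (by omega)
      have s3 := h.sm_wd r' (by omega)
      have s4 := h.sm_wd r'' (by omega)
      have s5 := h.sm_io (j := 0) n1
      have e1 : θ.E ((xw e)⁻¹ * (io S δ' * (RS M π root).wd r') * xw e)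
          (io S δ' * (RS M π root).wd r'') :=
        h.congr (h.mulE (h.x_io e (n1.trans (le_lev_self F 2))) i2) (by group) rfl
      refine ⟨_, ⟨δ', r'', (KD M π).φ e (bb ((BD D).ev (π (δ' * r'.d)) (mp π r'.l)) r'.x),
        by omega, by omega, rfl, ?_, c.st_fun _ _ _ _ hst ((c2 _ _ _).2 ⟨he, _, hH' _, ?_, rfl⟩)⟩,
        ?_⟩
      · rw [← LT.E.eq h.snd e1, map_mul, map_mul, map_inv, πK_xw, πK_io_wd,
          (KD M π).t_conj e (hH' _)]
      · rw [map_mul, map_inv, πK_io_wd, πK_io_wd, ← map_inv, ← map_mul] at j7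
        refine (MHD.rc_eq.2 ?_).symm
        rw [← (KD M π).of_injective j7]
        exact ⟨a, j6, rfl⟩
      · have := h.mulM (h.mulM j5 (h.xw_memM hA he)) (h.cl.sub _ (h.le_L (by sm)) e1)
        convert this using 1
        change _ * xw e * _ = _
        group)
    (p₀ := MHD.rc _ 1) ⟨1, oneR M π root, 1, rfl, by simp, by simp [wd_oneR], by simp, rfl⟩
    r l (h2.trans hw) hp
  have s0 := hP _ _ _ hn hv
  obtain ⟨δ, r₁, g, rfl, k1, rfl, k2, k3⟩ := hv
  obtain rfl := (KD M π).of_injective ((πK_io_wd δ r₁).symm.trans k2)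
  have k4 := MHD.rc_eq.1 k3
  rw [inv_one, mul_one, bb_mem_A0] at k4
  obtain ⟨δ', r', j1, j2, j3, j4, j5, j6⟩ := h.cut_rep hG hA hM (Y := ∅) r₁ (by omega) k1 k4.1
    (one_mem _) (mul_one _).symm
  have j7 : r'.l = [] := List.eq_nil_iff_forall_not_mem.2 j4
  have j8 : io S δ' * (RS M π root).wd r' = io S (δ' * r'.d) := by
    simp [RS, j7, j2, k4.2, W_nil, latw_zero]
  have n1 : (δ' * r'.d).norm ≤ N := (nmul _ _).trans (by have := r'.d_le; omega)
  rw [j8] at j5 j6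
  have j9 : π (δ' * r'.d) ∈ J := by
    rw [map_mul, map_inv, k2, πK_io, k4.2] at j6
    obtain ⟨a, a1, a2⟩ := inv_mem ((mul_mem_cancel_left (Subgroup.mem_map_of_mem (kb M π) k4.1)).1 j6)
    rw [inv_inv] at a2
    rw [← bo_mem_A00 (π := π) (C := C) (γ := γ), ← kb_injective M π a2]
    exact a1
  have s1 := h.sm_io (j := 0) (n1.trans hN)
  have s2 := h.sm_wl (m := m) (by omega) r l (h2.trans hw)
  have s3 : Sm F 0 w := hw.trans (by rw [lev_zero]; omega)
  have m1 := h.mulM j5 (hM _ n1 j9)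
  rw [inv_mul_cancel_right] at m1
  have m2 := h.mulM m0 m1
  rw [inv_mul_cancel_right] at m2
  exact h.memM e0 m2

end Ctx

end Crest.Agent.R185.KL
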