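import Crest.Agent.R185.KGrp

/-!
# Row 185, block K: levels of smallness (book-keeping of norms)

`Sm F j w`: the norm of `w` is at most `lev F j`.  The tactic `sm` proves `Sm F j (word)` from
hypotheses `Sm F i atom` in the context.  The rules of the congruence `θ.E` are restated for words
of level `≤ 39` with the side conditions as auto-parameters.
-/

set_option autoImplicit false
set_option linter.unusedSectionVars false

namespace Crest.Agent.R185.KL

open Function

/-- the levels -/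
def lev (F : ℕ) : ℕ → ℕ
  | 0 => F
  | j + 1 => 64 * (lev F j + 1) ^ 3

theorem lev_zero (F : ℕ) : lev F 0 = F := rfl

theorem lev_succ (F j : ℕ) : lev F (j + 1) = 64 * (lev F j + 1) ^ 3 := rfl

/-- the basic inequality -/
theorem le_lev {F j a b c : ℕ} (ha : a ≤ lev F j) (hb : b ≤ lev F j) (hc : c ≤ lev F j) :
    64 * (a + 1) * (b + 1) * (c + 1) ≤ lev F (j + 1) := by
  rw [lev_succ, pow_succ, pow_two, ← mul_assoc, ← mul_assoc]
  gcongr

theorem lin_le_lev (F j : ℕ) : 64 * (lev F j + 1) ≤ lev F (j + 1) := by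
  simpa using le_lev (F := F) (j := j) le_rfl (Nat.zero_le _) (Nat.zero_le _)

theorem lev_mono (F : ℕ) {i j : ℕ} (h : i ≤ j) : lev F i ≤ lev F j :=
  monotone_nat_of_le_succ (f := lev F) (fun j => by have := lin_le_lev F j; omega) h

theorem le_lev_self (F j : ℕ) : F ≤ lev F j := lev_mono F (Nat.zero_le j)

theorem elem_lev {f : ℕ → ℕ} (hf : Elem f) (j : ℕ) : Elem fun m => lev (f m) j := by
  induction j with
  | zero => exact hf
  | succ j ih => exact (Elem.const 64).mul ((ih.add (Elem.const 1)).pow (Elem.const 3))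

/-- small words -/
def Sm (F j : ℕ) (w : FreeGroup YK) : Prop := w.norm ≤ lev F j

section Sm

variable {F i j : ℕ} {u v : FreeGroup YK}

theorem Sm.mono (h : Sm F i u) (hij : i ≤ j) : Sm F j u := le_trans h (lev_mono F hij)

theorem Sm.mul (hu : Sm F j u) (hv : Sm F j v) : Sm F (j + 1) (u * v) := by
  have := lin_le_lev F j
  have := nmul u v
  unfold Sm at *
  omega

theorem Sm.inv (hu : Sm F j u) : Sm F j u⁻¹ := by
  unfold Sm at *; rwa [FreeGroup.norm_inv_eq]

theorem Sm.one : Sm F j 1 := by simp [Sm]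

theorem Sm.xw (e : EK) : Sm F (j + 1) (xw e) := by
  have := lin_le_lev F j
  have := norm_xw e
  unfold Sm
  omega

end Sm

/-- prove `Sm F j (word)` -/
macro "sm" : tactic => `(tactic|
  repeat' first
    | exact Sm.one
    | exact Sm.xw _
    | (apply Sm.mono; assumption; decide)
    | apply Sm.inv
    | apply Sm.mul)

/-- the box of size `n` -/
def Bx (n : ℕ) (ω : Cf) : Prop := ∀ k, |ω k| ≤ n

theorem Bx.mono {n n' : ℕ} {ω : Cf} (h : Bx n ω) (hn : n ≤ n') : Bx n' ω :=
  fun k => (h k).trans (by exact_mod_cast hn)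

theorem Bx.neg {n : ℕ} {ω : Cf} (h : Bx n ω) : Bx n (-ω) := fun k => by simpa using h k

theorem Bx.add {n n' : ℕ} {x y : Cf} (h : Bx n x) (h' : Bx n' y) : Bx (n + n') (x + y) :=
  fun k => (abs_add_le _ _).trans (by push_cast; exact add_le_add (h k) (h' k))

theorem Bx.add_lev {F j : ℕ} {x y : Cf} (h : Bx (lev F j) x) (h' : Bx (lev F j) y) :
    Bx (lev F (j + 1)) (x + y) := (h.add h').mono (by have := lin_le_lev F j; omega)

theorem norm_latw_le {n : ℕ} {x : Cf} (h : Bx n x) : (latw x).norm ≤ 8 * n := by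
  refine (norm_prod_le (B := n) _ fun a ha => ?_).trans (by simp)
  obtain ⟨k, -, rfl⟩ := List.mem_map.1 ha
  have h1 := norm_zpow_le (FreeGroup.of (Sum.inl k : YK)) (x k)
  have h2 := h k
  rw [← Int.natCast_natAbs] at h2
  rw [FreeGroup.norm_of, mul_one] at h1
  omega

theorem Bx.sm_latw {F j : ℕ} {x : Cf} (h : Bx (lev F j) x) : Sm F (j + 1) (latw x) := by
  have := lin_le_lev F j
  have := norm_latw_le h
  unfold Sm
  omega

theorem Bx.sm_tw {F j : ℕ} {x : Cf} (h : Bx (lev F j) x) : Sm F (j + 1) (tw x) := by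
  have := lin_le_lev F j
  have := norm_latw_le h
  have h1 := nmul (latw x * .of (.inr (.inr 0))) (latw x)⁻¹
  have h2 := nmul (latw x) (.of (.inr (.inr 0)))
  rw [FreeGroup.norm_inv_eq] at h1
  rw [FreeGroup.norm_of] at h2
  unfold Sm tw
  omega

variable {S : Type} [Fintype S] [DecidableEq S]

/-- the standing assumptions of the local lemmas -/
structure Loc (M : RM S) (θ : LT YK) (L F : ℕ) : Prop where
  cl : θ.Closed L
  le : lev F 40 ≤ L
  rel : RK M ⊆ θ.T
  lip : Lip (io S) F
  cst : M.m + Fintype.card S ≤ F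

namespace Loc

variable {M : RM S} {θ : LT YK} {L F : ℕ} (h : Loc M θ L F) {a b c d g : FreeGroup YK}
include h

theorem sm_io {j : ℕ} {w : FreeGroup S} (hw : w.norm ≤ lev F j) : Sm F (j + 1) (io S w) := by
  have h1 := h.lip.norm_le w
  have h2 := le_lev (le_lev_self F j) hw (Nat.zero_le (lev F j))
  unfold Sm
  nlinarith

theorem lev_le {j : ℕ} (hj : j ≤ 40 := by decide) : lev F j ≤ L := (lev_mono F hj).trans h.le

theorem lin_le : 64 * (lev F 39 + 1) ≤ L := (lin_le_lev F 39).trans h.le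

theorem le_L (ha : Sm F 39 a) : a.norm ≤ L := le_trans ha h.lev_le

theorem refl (a : FreeGroup YK) : θ.E a a := h.cl.refl a

theorem of_eq (e : a = b) : θ.E a b := h.cl.of_eq e

theorem symm (e : θ.E a b) (ha : Sm F 39 a := by sm) (hb : Sm F 39 b := by sm) : θ.E b a :=
  h.cl.symm (by have := h.lin_le; omega) ha hb e

theorem trans (e : θ.E a b) (e' : θ.E b c) (ha : Sm F 39 a := by sm) (hb : Sm F 39 b := by sm)
    (hc : Sm F 39 c := by sm) : θ.E a c :=
  h.cl.trans (by have := h.lin_le; omega) ha hb hc e e'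

theorem mul_left (g : FreeGroup YK) (e : θ.E a b) (hg : Sm F 39 g := by sm)
    (ha : Sm F 39 a := by sm) (hb : Sm F 39 b := by sm) : θ.E (g * a) (g * b) :=
  h.cl.mul_left (by have := h.lin_le; omega) (h.le_L hg) ha hb e

theorem mid (g : FreeGroup YK) (e : θ.E a b) (c : FreeGroup YK) (hg : Sm F 39 g := by sm)
    (ha : Sm F 39 a := by sm) (hb : Sm F 39 b := by sm) : θ.E (g * a * c) (g * b * c) :=
  (h.mul_left g e hg ha hb).mul_right c

theorem mulE (e : θ.E a b) (e' : θ.E c d) (ha : Sm F 39 a := by sm) (hb : Sm F 39 b := by sm)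
    (hc : Sm F 39 c := by sm) (hd : Sm F 39 d := by sm) : θ.E (a * c) (b * d) :=
  h.cl.mulE (by have := h.lin_le; omega) ha hb hc hd e e'

theorem invE (e : θ.E a b) (ha : Sm F 39 a := by sm) (hb : Sm F 39 b := by sm) : θ.E a⁻¹ b⁻¹ :=
  h.cl.invE (by have := h.lin_le; omega) ha hb e

theorem memT (e : θ.E a b) (hT : b ∈ θ.T) (ha : Sm F 39 a := by sm) (hb : Sm F 39 b := by sm) :
    a ∈ θ.T := h.cl.memT (by have := h.lin_le; omega) ha hb e hT

theorem memM (e : θ.E a b) (hM : b ∈ θ.M) (ha : Sm F 39 a := by sm) (hb : Sm F 39 b := by sm) :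
    a ∈ θ.M := h.cl.memM (by have := h.lin_le; omega) ha hb e hM

theorem mulM (h1 : a ∈ θ.M) (h2 : b ∈ θ.M) (ha : Sm F 39 a := by sm) (hb : Sm F 39 b := by sm) :
    a * b ∈ θ.M := h.cl.mulM _ _ (h.le_L ha) (h.le_L hb) h1 h2

theorem invM (h1 : a ∈ θ.M) (ha : Sm F 39 a := by sm) : a⁻¹ ∈ θ.M := h.cl.invM _ (h.le_L ha) h1

/-- rewrite both sides by identities of the free group -/
theorem congr (e : θ.E a b) (e1 : a = c := by group) (e2 : b = d := by group) : θ.E c d :=
  e1 ▸ e2 ▸ e


end Loc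

end Crest.Agent.R185.KL
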