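import Crest.Agent.R185.KLev

/-!
# Row 185, block K: the atomic local facts
-/

set_option autoImplicit false
set_option linter.unusedSectionVars false

namespace Crest.Agent.R185.KL

open Function

/-- the action on `ℤ` used for the lower bound of norms -/
def actZ (k : Reg) : FreeGroup YK →* Equiv.Perm ℤ :=
  FreeGroup.lift (Sum.elim (fun k' => if k' = k then Equiv.addLeft 1 else 1)
    (Sum.elim (fun _ => 1) fun j => if j = 0 then Equiv.neg ℤ else 1))

theorem actZ_letter (k : Reg) (y : YK) (x : ℤ) :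
    |actZ k (.of y) x| ≤ |x| + 1 ∧ |(actZ k (.of y))⁻¹ x| ≤ |x| + 1 := by
  have h1 := abs_add_le (1 : ℤ) x
  have h2 := abs_add_le (-1 : ℤ) x
  rw [abs_one] at h1
  rw [abs_neg, abs_one] at h2
  rcases y with k' | ty | j
  · by_cases hk : k' = k
    · simp only [actZ, FreeGroup.lift_apply_of, Sum.elim_inl, if_pos hk, Equiv.Perm.inv_def,
        Equiv.addLeft_symm, Equiv.coe_addLeft]
      constructor <;> omega
    · simp [actZ, hk]
  · simp [actZ]
  · by_cases hj : j = 0
    · simp [actZ, hj, Equiv.Perm.inv_def]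
    · simp [actZ, hj]

theorem actZ_le (k : Reg) (w : FreeGroup YK) (x : ℤ) : |actZ k w x| ≤ |x| + w.norm := by
  have key : ∀ l : List (YK × Bool), |actZ k (.mk l) x| ≤ |x| + l.length := by
    intro l
    induction l with
    | nil => simp [← FreeGroup.one_eq_mk]
    | cons a l ih =>
      rw [show a :: l = [a] ++ l from rfl, ← FreeGroup.mul_mk, map_mul, Equiv.Perm.mul_apply]
      have h1 : |actZ k (.mk [a]) (actZ k (.mk l) x)| ≤ |actZ k (.mk l) x| + 1 := by
        obtain ⟨y, _ | _⟩ := a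
        · rw [mk_false, map_inv]; exact (actZ_letter k y _).2
        · exact (actZ_letter k y _).1
      simp only [List.length_append, List.length_singleton]
      push_cast
      omega
  have := key w.toWord
  rwa [FreeGroup.mk_toWord] at this

theorem actZ_latw (k : Reg) (ω : Cf) : actZ k (latw ω) = Equiv.addLeft (ω k) := by
  have h : ∀ l : List Reg, actZ k (l.map fun i : Reg =>
      (FreeGroup.of (Sum.inl i) : FreeGroup YK) ^ ω i).prod =
      Equiv.addLeft (l.map fun i => if i = k then ω i else 0).sum := by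
    intro l
    induction l with
    | nil => ext x; simp
    | cons i l ih =>
      rw [List.map_cons, List.prod_cons, map_mul, ih, List.map_cons, List.sum_cons, map_zpow,
        Equiv.addLeft_add]
      congr 1
      by_cases hk : i = k
      · simp only [actZ, FreeGroup.lift_apply_of, Sum.elim_inl, if_pos hk]
        rw [Equiv.zsmul_addLeft]
        simp
      · ext x
        simp [actZ, hk]
  rw [latw, h, ← Fin.sum_univ_def]
  simp

/-- the word `a ^ x` in the free group on the registers, along a list -/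
def lwl (l : List Reg) (x : Cf) : FreeGroup Reg := (l.map fun i => FreeGroup.of i ^ x i).prod

/-- the inclusion of the registers -/
def mI : FreeGroup Reg →* FreeGroup YK := FreeGroup.map Sum.inl

theorem mI_of (k : Reg) : mI (.of k) = aw k := rfl

theorem lip_mI {n : ℕ} (hn : 1 ≤ n) : Lip mI n := fun z => (lip_map _ z).trans hn

theorem hom_lwl (φ : FreeGroup Reg →* FreeGroup YK) (l : List Reg) (x : Cf) :
    φ (lwl l x) = (l.map fun i => φ (.of i) ^ x i).prod := by
  simp only [lwl, map_list_prod, List.map_map, Function.comp_def, map_zpow]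

theorem mI_lwl (x : Cf) : mI (lwl (List.finRange 8) x) = latw x := hom_lwl _ _ _

theorem lwl_cons (i : Reg) (l : List Reg) (x : Cf) :
    lwl (i :: l) x = FreeGroup.of i ^ x i * lwl l x := rfl

theorem norm_of_zpow_le {n : ℕ} {x : Cf} (h : Bx n x) (k : Reg) :
    (FreeGroup.of k ^ x k).norm ≤ n := by
  have h1 := norm_zpow_le (FreeGroup.of k) (x k)
  have h2 := h k
  rw [← Int.natCast_natAbs] at h2
  rw [FreeGroup.norm_of, mul_one] at h1
  omega

theorem norm_lwl_le {F j : ℕ} {x : Cf} (h : Bx (lev F j) x) {l : List Reg} (hl : l.length ≤ 8) :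
    (lwl l x).norm ≤ lev F (j + 1) := by
  have h1 : (lwl l x).norm ≤ (l.map fun i => FreeGroup.of i ^ x i).length * lev F j :=
    norm_prod_le _ fun a ha => by
      obtain ⟨k, -, rfl⟩ := List.mem_map.1 ha
      exact norm_of_zpow_le h k
  rw [List.length_map] at h1
  have h2 := lin_le_lev F j
  nlinarith

theorem sm_mI {F j : ℕ} {w : FreeGroup Reg} (h : w.norm ≤ lev F j) : Sm F j (mI w) :=
  (norm_map_le _ w).trans h

theorem one_le_lev (F j : ℕ) : 1 ≤ lev F (j + 1) := by
  have := lin_le_lev F j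
  omega

theorem xw_false (i : IK) : xw (i, false) = (xw (i, true))⁻¹ := xw_br (i, true)

/-- `aₖ ↦ aₖ ^ cₖ` -/
def pw (c : Reg → ℤ) : FreeGroup Reg →* FreeGroup YK := FreeGroup.lift fun k => aw k ^ c k

theorem pw_of (c : Reg → ℤ) (k : Reg) : pw c (.of k) = aw k ^ c k := FreeGroup.lift_apply_of

theorem pw_lwl {c x z : Cf} (h : ∀ k, x k = c k * z k) :
    pw c (lwl (List.finRange 8) z) = latw x := by
  rw [hom_lwl, latw]
  congr 2
  funext k
  rw [pw_of, ← zpow_mul, h, aw]

theorem lip_pw {c : Cf} {n : ℕ} (h : Bx n c) : Lip (pw c) n := fun k => by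
  rw [pw_of]
  have h1 := norm_zpow_le (aw k) (c k)
  have h2 := h k
  rw [← Int.natCast_natAbs] at h2
  rw [aw, FreeGroup.norm_of, mul_one] at h1
  rw [aw]
  omega

theorem abs_dom_le {m : ℕ} (hm : 1 ≤ m) (o : Op) : |o.dom m| ≤ m ∧ |o.ran m| ≤ m := by
  cases o <;> simp [Op.dom, Op.ran, hm]

/-- the homomorphism `F(YK) → Perm ℤ`, `aₖ ↦ (· + 1)`, `t ↦ (-·)`, other letters `↦ 1`: every
letter increases `|x|` by at most `1`, and `tw ω` maps `0` to `2 * ω k` -/
theorem abs_le_norm_tw (ω : Cf) (k : Reg) : |ω k| ≤ (tw ω).norm := by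
  have h1 := actZ_le k (tw ω) 0
  have h2 : actZ k (tw ω) 0 = 2 * ω k := by
    have h3 : actZ k (.of (.inr (.inr 0))) = Equiv.neg ℤ := by simp [actZ]
    rw [tw, map_mul, map_mul, map_inv, actZ_latw, h3]
    simp [Equiv.Perm.inv_def]
    ring
  rw [h2, abs_mul, abs_zero, zero_add, abs_two] at h1
  have := abs_nonneg (ω k)
  omega

variable {S : Type} [Fintype S] [DecidableEq S]

namespace Loc

variable {M : RM S} {θ : LT YK} {L F : ℕ} (h : Loc M θ L F)
include h

theorem two_le : 2 ≤ F := by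
  have := h.cst
  have := M.two_le
  omega

theorem flip {g a b : FreeGroup YK} (e : θ.E (g⁻¹ * a * g) b) (hg : Sm F 30 g := by sm)
    (ha : Sm F 30 a := by sm) (hb : Sm F 30 b := by sm) : θ.E (g * b * g⁻¹) a :=
  h.symm (h.congr (h.mid g e g⁻¹) (c := a) (d := g * b * g⁻¹))

theorem mI_comm {u v : FreeGroup Reg} (hu : u.norm ≤ lev F 3) (hv : v.norm ≤ lev F 3) :
    θ.E (mI u * mI v) (mI v * mI u) := by
  refine h.cl.comm (lip_mI le_rfl) (lip_mI le_rfl) (fun k k' => h.rel (.inl ⟨k, k', rfl⟩)) ?_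
    u hu v hv
  have h1 := le_lev (F := F) (j := 3) le_rfl le_rfl (Nat.zero_le _)
  have h2 : lev F (3 + 1) ≤ L := h.lev_le
  nlinarith

theorem lwl_add {x y : Cf} (hx : Bx (lev F 2) x) (hy : Bx (lev F 2) y) (l : List Reg)
    (hl : l.length ≤ 8) : θ.E (mI (lwl l x) * mI (lwl l y)) (mI (lwl l (x + y))) := by
  induction l with
  | nil => exact h.of_eq (by simp [lwl])
  | cons i l ih =>
    rw [List.length_cons] at hl
    have hl' : l.length ≤ 8 := by omega
    have ih' := ih hl'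
    have n1 := norm_lwl_le hx hl'
    have n2 := (norm_of_zpow_le hy i).trans (lev_mono F (show 2 ≤ 3 by decide))
    have e1 := h.mI_comm n1 n2
    have s1 := sm_mI n1
    have s2 := sm_mI n2
    have s3 := sm_mI (norm_lwl_le hy hl')
    have s4 := sm_mI (norm_of_zpow_le hx i)
    have s5 := sm_mI (norm_lwl_le (hx.add_lev hy) hl')
    simp only [lwl_cons, map_mul, Pi.add_apply, zpow_add]
    generalize mI (lwl l x) = A at *
    generalize mI (lwl l y) = B at *
    generalize mI (lwl l (x + y)) = C at *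
    generalize mI (FreeGroup.of i ^ x i) = P at *
    generalize mI (FreeGroup.of i ^ y i) = Q at *
    exact h.trans (h.congr (h.mid P e1 B) (c := P * A * (Q * B)) (d := P * Q * (A * B)))
      (h.mul_left (P * Q) ih')

/-- induction over a list of registers (length `≤ 8`), `Closed.comm` for
`a = b = FreeGroup.map Sum.inl` -/
theorem lat_add {x y : Cf} (hx : Bx (lev F 2) x) (hy : Bx (lev F 2) y) :
    θ.E (latw x * latw y) (latw (x + y)) := by
  simpa only [mI_lwl] using h.lwl_add hx hy (List.finRange 8) (by simp)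

/-- `Closed.comm` for `FreeGroup.map Sum.inl` and `io S` -/
theorem lat_io {x : Cf} (hx : Bx (lev F 2) x) {w : FreeGroup S} (hw : w.norm ≤ lev F 2) :
    θ.E (latw x * io S w * (latw x)⁻¹) (io S w) := by
  have e : θ.E (mI (lwl (List.finRange 8) x) * io S w) (io S w * mI (lwl (List.finRange 8) x)) := by
    refine h.cl.comm (n := lev F 3) (lip_mI (by have := h.two_le; omega)) h.lip
      (fun k s => h.rel (.inr (.inl ⟨k, s, rfl⟩))) ?_ _ (norm_lwl_le hx (by simp)) w
      (hw.trans (lev_mono F (by decide)))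
    have h1 := le_lev (F := F) (j := 3) le_rfl le_rfl (le_lev_self F 3)
    have h2 : lev F (3 + 1) ≤ L := h.lev_le
    nlinarith
  rw [mI_lwl] at e
  exact h.congr (e.mul_right (latw x)⁻¹)

theorem lat_tw {x ω : Cf} (hx : Bx (lev F 2) x) (hω : Bx (lev F 2) ω) :
    θ.E (latw x * tw ω * (latw x)⁻¹) (tw (x + ω)) := by
  have e := h.lat_add hx hω
  have s1 := hx.sm_latw
  have s2 := hω.sm_latw
  have s3 := (hx.add_lev hω).sm_latw
  have s4 : Sm F 1 (.of (.inr (.inr 0))) := by
    unfold Sm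
    rw [FreeGroup.norm_of]
    exact one_le_lev F 0
  unfold tw
  generalize (FreeGroup.of (.inr (.inr 0)) : FreeGroup YK) = t at *
  exact h.congr (h.mulE (e.mul_right t) (h.invE e))

/-- `Closed.transfer` -/
theorem x_io (e : EK) {w : FreeGroup S} (hw : w.norm ≤ lev F 2) :
    θ.E ((xw e)⁻¹ * io S w * xw e) (io S w) := by
  have key : ∀ i, θ.E ((xw (i, true))⁻¹ * io S w * xw (i, true)) (io S w) := fun i => by
    refine h.cl.transfer (n := lev F 2) h.lip h.lip
      ((norm_xw _).trans (by have := h.two_le; omega))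
      (fun s => h.rel (.inr (.inr (.inl ⟨i, s, rfl⟩)))) ?_ w hw
    have h1 := le_lev (F := F) (j := 2) le_rfl (le_lev_self F 2) (Nat.zero_le _)
    have h2 : lev F (2 + 1) ≤ L := h.lev_le
    nlinarith
  obtain ⟨i, _ | _⟩ := e
  · have s1 := h.sm_io hw
    rw [xw_false, inv_inv]
    exact h.flip (key i)
  · exact key i

theorem x_lat0 {i : IK} {x y : Cf} (hx : Bx (lev F 1) x) (hxy : Lt0 M.m i x y) :
    θ.E ((xw (i, true))⁻¹ * latw x * xw (i, true)) (latw y) := by
  have hm : 1 ≤ M.m := by have := M.two_le; omega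
  have hmF : M.m ≤ F := by have := h.cst; omega
  obtain ⟨z, hz, h1, h2⟩ := hxy.small hm
  have hz' : Bx (lev F 1) z := fun k => (hz k).trans (hx k)
  rw [← pw_lwl h1, ← pw_lwl h2]
  refine h.cl.transfer (n := lev F 2) (Λ := F)
    (lip_pw (Bx.mono (fun k => (abs_dom_le hm _).1) hmF))
    (lip_pw (Bx.mono (fun k => (abs_dom_le hm _).2) hmF)) ((norm_xw _).trans (by omega))
    (fun k => ?_) ?_ _ (norm_lwl_le hz' (by simp))
  · rw [pw_of, pw_of]
    exact h.rel (.inr (.inr (.inr (.inl ⟨i, k, rfl⟩))))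
  · have h1 := le_lev (F := F) (j := 2) le_rfl (le_lev_self F 2) (Nat.zero_le _)
    have h2 : lev F (2 + 1) ≤ L := h.lev_le
    nlinarith

/-- `Lt0.small`, then `Closed.transfer` for `aₖ ↦ aₖ ^ domₖ`, `aₖ ↦ aₖ ^ ranₖ` on `F(Reg)` -/
theorem x_lat {e : EK} {x y : Cf} (hx : Bx (lev F 1) x) (hy : Bx (lev F 1) y)
    (hxy : Lt M.m e x y) : θ.E ((xw e)⁻¹ * latw x * xw e) (latw y) := by
  obtain ⟨i, _ | _⟩ := e
  · have s1 := hx.sm_latw
    have s2 := hy.sm_latw
    rw [xw_false, inv_inv]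
    exact h.flip (h.x_lat0 hy hxy)
  · exact h.x_lat0 hx hxy

theorem x_tw0 {i : IK} {ρ : Rule S} (hρ : ρ ∈ rl M i) {ω ω' : Cf} (hω : Bx F ω) (hω' : Bx F ω')
    (hs : ρ.Step M.m ω ω') :
    θ.E ((xw (i, true))⁻¹ * tw ω * xw (i, true)) (tw ω' * io S ρ.volt) := by
  have hc : ((M.m : ℤ) + Fintype.card S) ≤ F := by exact_mod_cast h.cst
  have ha : Bx (lev F 0) ρ.a := fun k => (rl_a hρ k).1.trans hc
  have ha' : Bx (lev F 0) ρ.a' := fun k => (rl_a hρ k).2.trans hc
  have hω0 : Bx (lev F 0) ω := hω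
  have hω0' : Bx (lev F 0) ω' := hω'
  have hx : Bx (lev F 1) (ω - ρ.a) := by rw [sub_eq_add_neg]; exact hω0.add_lev ha.neg
  have hy : Bx (lev F 1) (ω' - ρ.a') := by rw [sub_eq_add_neg]; exact hω0'.add_lev ha'.neg
  have l12 : lev F 1 ≤ lev F 2 := lev_mono F (by decide)
  have l02 : lev F 0 ≤ lev F 2 := lev_mono F (by decide)
  have hv : ρ.volt.norm ≤ lev F 2 := (rl_volt hρ).trans (one_le_lev F 1)
  have e1 := h.lat_tw (hx.mono l12) (ha.mono l02)
  have e2 := h.lat_tw (hy.mono l12) (ha'.mono l02)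
  rw [sub_add_cancel] at e1 e2
  have e3 := h.x_lat0 hx (step_lt hρ hs)
  have e4 : θ.E ((xw (i, true))⁻¹ * tw ρ.a * xw (i, true)) (tw ρ.a' * io S ρ.volt) :=
    h.rel (.inr (.inr (.inr (.inr ⟨i, ρ, hρ, rfl⟩))))
  have e5 := h.lat_io (hy.mono l12) hv
  have s1 := hx.sm_latw
  have s2 := hy.sm_latw
  have s3 := ha.sm_tw
  have s4 := ha'.sm_tw
  have s5 := hω0.sm_tw
  have s6 := hω0'.sm_tw
  have s7 := h.sm_io hv
  have s8 : Sm F 1 (xw (i, true)) := Sm.xw _
  generalize latw (ω - ρ.a) = X at *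
  generalize latw (ω' - ρ.a') = Y at *
  generalize tw ρ.a = A at *
  generalize tw ρ.a' = A' at *
  generalize tw ω = W at *
  generalize tw ω' = W' at *
  generalize io S ρ.volt = V at *
  generalize xw (i, true) = g at *
  have f1 : θ.E (g⁻¹ * W * g) (g⁻¹ * (X * A * X⁻¹) * g) := h.mid g⁻¹ (h.symm e1) g
  have f2 : θ.E (g⁻¹ * (X * A * X⁻¹) * g) (Y * A' * Y⁻¹ * (Y * V * Y⁻¹)) :=
    h.congr (h.mulE (h.mulE e3 e4) (h.invE e3))
  exact h.trans (h.trans f1 f2) (h.mulE e2 e5)

/-- `step_lt`: `tw ω ≈ latw (ω - a) * tw a * (latw (ω - a))⁻¹` -/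
theorem x_tw {e : EK} {ω ω' : Cf} {v : FreeGroup S} (hω : Bx F ω) (hω' : Bx F ω')
    (hs : St M e ω ω' v) : θ.E ((xw e)⁻¹ * tw ω * xw e) (tw ω' * io S v) := by
  obtain ⟨i, _ | _⟩ := e
  · obtain ⟨ρ, hρ, hs, rfl⟩ := hs
    have hv : ρ.volt.norm ≤ lev F 2 := (rl_volt hρ).trans (one_le_lev F 1)
    have e1 := h.x_tw0 hρ hω' hω hs
    have e2 := h.x_io (i, false) (w := ρ.volt⁻¹) (by rwa [FreeGroup.norm_inv_eq])
    have s5 := Bx.sm_tw (F := F) (j := 0) hω
    have s6 := Bx.sm_tw (F := F) (j := 0) hω'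
    have s7 := h.sm_io hv
    have s8 : Sm F 1 (xw (i, true)) := Sm.xw _
    rw [xw_false, inv_inv, map_inv] at *
    generalize tw ω = W at *
    generalize tw ω' = W' at *
    generalize io S ρ.volt = V at *
    generalize xw (i, true) = g at *
    exact h.congr (h.mulE (h.flip e1) e2)
  · obtain ⟨ρ, hρ, hs, rfl⟩ := hs
    exact h.x_tw0 hρ hω hω' hs

end Loc

end Crest.Agent.R185.KL
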