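import Crest.Agent.R185.KLoc

/-!
# Row 185, block K: representatives of the base group, locality of the word problem
-/

set_option autoImplicit false
set_option linter.unusedSectionVars false

namespace Crest.Agent.R185.KL

open Function

variable {S : Type} [Fintype S] [DecidableEq S]

/-- the word of `t_ω ^ ±1` -/
def te (e : Le) : FreeGroup YK := if e.2 then tw e.1 else (tw e.1)⁻¹

theorem te_bar (e : Le) : te (e.1, !e.2) = (te e)⁻¹ := by
  obtain ⟨ω, _ | _⟩ := e <;> simp [te]

theorem Bx.sm_te {F j : ℕ} {e : Le} (h : Bx (lev F j) e.1) : Sm F (j + 1) (te e) := by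
  unfold te
  split_ifs
  · exact h.sm_tw
  · exact h.sm_tw.inv

/-- the word of a list -/
noncomputable def W (d : FreeGroup S) (l : List (Le × FreeGroup S)) : FreeGroup YK :=
  io S d * (l.map fun x => te x.1 * io S x.2).prod

theorem W_nil (d : FreeGroup S) : W d [] = io S d := by simp [W]

theorem W_cons (d : FreeGroup S) (x : Le × FreeGroup S) (l : List (Le × FreeGroup S)) :
    W d (x :: l) = io S d * te x.1 * W x.2 l := by simp [W, mul_assoc]

theorem io_mul_W (a d : FreeGroup S) (l : List (Le × FreeGroup S)) :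
    io S a * W d l = W (a * d) l := by simp [W, mul_assoc]

section Sem

variable (M : RM S) {D : Type} [Group D] (π : FreeGroup S →* D) (root : Cf)

theorem πK_te (e : Le) : πK M π root (te e) = kb M π ((BD D).t e) := by
  obtain ⟨ω, _ | _⟩ := e <;> simp [te, πK_tw, t_false, t_true]

theorem πK_W (d : FreeGroup S) (l : List (Le × FreeGroup S)) :
    πK M π root (W d l) = kb M π ((BD D).ev (π d) (mp π l)) := by
  induction l generalizing d with
  | nil => simp [W_nil, πK_io, jK_apply]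
  | cons x l ih => simp [W_cons, ih, πK_io, πK_te, jK_apply]

end Sem

/-- admissible lists -/
structure Ad (n : ℕ) (d : FreeGroup S) (l : List (Le × FreeGroup S)) : Prop where
  d_le : d.norm ≤ n
  len : l.length ≤ n
  box : ∀ x ∈ l, Bx n x.1.1
  syl : ∀ x ∈ l, x.2.norm ≤ n

theorem Ad.tail {n : ℕ} {d : FreeGroup S} {x : Le × FreeGroup S} {l : List (Le × FreeGroup S)}
    (h : Ad n d (x :: l)) : Ad n x.2 l :=
  ⟨h.syl x List.mem_cons_self, (Nat.le_succ _).trans h.len,
    fun y hy => h.box y (List.mem_cons_of_mem _ hy), fun y hy => h.syl y (List.mem_cons_of_mem _ hy)⟩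

theorem norm_lv_le (v : Cf → FreeGroup S) (e : Le) : (lv v e).norm ≤ (v e.1).norm := by
  unfold lv; split_ifs <;> simp

theorem norm_rv_le (v : Cf → FreeGroup S) (e : Le) : (rv v e).norm ≤ (v e.1).norm := by
  unfold rv; split_ifs <;> simp

theorem norm_rvh_le {v : Cf → FreeGroup S} {ε : ℕ} {l : List (Le × FreeGroup S)}
    (h : ∀ x ∈ l, (v x.1.1).norm ≤ ε) : (rvh v l).norm ≤ ε := by
  cases l with
  | nil => simp [rvh]
  | cons x l => exact (norm_rv_le v x.1).trans (h x List.mem_cons_self)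

theorem syl_trl {f : Cf → Cf} {v : Cf → FreeGroup S} {n ε : ℕ} {l : List (Le × FreeGroup S)}
    (h1 : ∀ x ∈ l, x.2.norm ≤ n) (h2 : ∀ x ∈ l, (v x.1.1).norm ≤ ε) :
    ∀ y ∈ trl f v l, y.2.norm ≤ n + 2 * ε := by
  induction l with
  | nil => simp [trl]
  | cons x l ih =>
    intro y hy
    rcases List.mem_cons.1 hy with rfl | hy
    · have a1 := h1 x List.mem_cons_self
      have a2 := (norm_lv_le v x.1).trans (h2 x List.mem_cons_self)
      have a3 := norm_rvh_le (v := v) fun y hy => h2 y (List.mem_cons_of_mem x hy)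
      have a4 := nmul (lv v x.1 * x.2) (rvh v l)
      have a5 := nmul (lv v x.1) x.2
      dsimp only
      omega
    · exact ih (fun y hy => h1 y (List.mem_cons_of_mem _ hy))
        (fun y hy => h2 y (List.mem_cons_of_mem _ hy)) y hy

namespace Loc

variable {M : RM S} {θ : LT YK} {L F : ℕ} (h : Loc M θ L F)
include h

theorem sm_W {j : ℕ} {d : FreeGroup S} {l : List (Le × FreeGroup S)} (ha : Ad (lev F j) d l) :
    Sm F (j + 3) (W d l) := by
  have h1 : (io S d).norm ≤ lev F (j + 2) := (h.sm_io ha.d_le).mono (Nat.le_succ _)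
  have h2 := norm_prod_le (B := lev F (j + 2)) (l.map fun x => te x.1 * io S x.2) fun a ha' => by
    obtain ⟨x, hx, rfl⟩ := List.mem_map.1 ha'
    exact (ha.box x hx).sm_te.mul (h.sm_io (ha.syl x hx))
  rw [List.length_map] at h2
  have h3 := le_lev (ha.len.trans (lev_mono F (Nat.le_add_right j 2))) (le_refl (lev F (j + 2)))
    (Nat.zero_le _)
  have h4 := nmul (io S d) (l.map fun x => te x.1 * io S x.2).prod
  unfold Sm W
  nlinarith

theorem add_two_le : F + 2 ≤ lev F 1 := by
  have := lin_le_lev F 0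
  rw [lev_zero, zero_add] at this
  omega

theorem ad_trl {f : Cf → Cf} {v : Cf → FreeGroup S} {d : FreeGroup S}
    {l : List (Le × FreeGroup S)} (ha : Ad F d l) (h1 : ∀ x ∈ l, Bx F (f x.1.1))
    (h2 : ∀ x ∈ l, (v x.1.1).norm ≤ 1) : Ad (lev F 1) (d * rvh v l) (trl f v l) := by
  have h0 := h.add_two_le
  refine ⟨?_, ?_, fun y hy => ?_, fun y hy => ?_⟩
  · have := nmul d (rvh v l)
    have := norm_rvh_le h2
    have := ha.d_le
    omega
  · have := ha.len
    rw [length_trl]; omega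
  · obtain ⟨x, hx, e⟩ := mem_trl hy
    rw [e]; exact (h1 x hx).mono (by omega)
  · have := syl_trl ha.syl h2 y hy
    omega

/-- conjugation of a list -/
theorem conj_W {g : FreeGroup YK} (hg : Sm F 3 g)
    (h1 : ∀ w : FreeGroup S, w.norm ≤ F → θ.E (g⁻¹ * io S w * g) (io S w)) {f : Cf → Cf}
    {v : Cf → FreeGroup S} {d : FreeGroup S} {l : List (Le × FreeGroup S)} (ha : Ad F d l)
    (h2 : ∀ x ∈ l, θ.E (g⁻¹ * tw x.1.1 * g) (tw (f x.1.1) * io S (v x.1.1)))
    (h3 : ∀ x ∈ l, Bx F (f x.1.1)) (h4 : ∀ x ∈ l, (v x.1.1).norm ≤ 1) :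
    θ.E (g⁻¹ * W d l * g) (W (d * rvh v l) (trl f v l)) := by
  induction l generalizing d with
  | nil => simpa [W_nil, rvh, trl] using h1 d ha.d_le
  | cons x l ih =>
    have h0 := h.add_two_le
    have e3 := ih ha.tail (fun y hy => h2 y (List.mem_cons_of_mem _ hy))
      (fun y hy => h3 y (List.mem_cons_of_mem _ hy)) fun y hy => h4 y (List.mem_cons_of_mem _ hy)
    have s1 := h.sm_W (j := 0) ha.tail
    have s2 := h.sm_W (h.ad_trl ha.tail (fun y hy => h3 y (List.mem_cons_of_mem _ hy))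
      fun y hy => h4 y (List.mem_cons_of_mem _ hy))
    have s3 := h.sm_io (j := 0) ha.d_le
    have s4 := Bx.sm_tw (j := 0) (ha.box x List.mem_cons_self)
    have s5 := Bx.sm_tw (j := 0) (h3 x List.mem_cons_self)
    have s6 := h.sm_io (j := 1) ((h4 x List.mem_cons_self).trans (by omega))
    have e1 := h1 d ha.d_le
    have e2 := h2 x List.mem_cons_self
    obtain ⟨⟨ω, _ | _⟩, a⟩ := x
    · refine h.congr (h.mulE (h.mulE e1 (h.invE e2)) e3) ?_ ?_
      · simp only [W_cons, te, mul_assoc, mul_inv_rev, inv_inv, mul_inv_cancel_left]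
        simp
      · simp [W_cons, te, trl, rvh, rv, lv, mul_assoc]
    · refine h.congr (h.mulE (h.mulE e1 e2) e3) ?_ ?_
      · simp [W_cons, te, mul_assoc]
      · simp [W_cons, te, trl, rvh, rv, lv, mul_assoc, io_mul_W]

/-- the product of two reduced lists -/
theorem junction {D : Type} [Group D] {π : FreeGroup S →* D} {N n n' : ℕ}
    (hT : (θ.comap (io S)).KT π N) (hN : N ≤ F) (hn : n + n' ≤ N) {d' : FreeGroup S}
    {l' : List (Le × FreeGroup S)} (r' : (BD D).Red (mp π l')) (hd' : d'.norm ≤ n')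
    (b' : ∀ x ∈ l', Bx F x.1.1) (s' : ∀ x ∈ l', x.2.norm ≤ n') (l : List (Le × FreeGroup S)) :
    ∀ d : FreeGroup S, (BD D).Red (mp π l) → d.norm ≤ n → (∀ x ∈ l, Bx F x.1.1) →
      (∀ x ∈ l, x.2.norm ≤ n) → l.length + l'.length ≤ F →
      ∃ d'' l'', (BD D).Red (mp π l'') ∧ d''.norm ≤ n + n' ∧
        (∀ x ∈ l'', x.2.norm ≤ n + n' ∧ ∃ y ∈ l ++ l', y.1 = x.1) ∧
        l''.length ≤ l.length + l'.length ∧ θ.E (W d l * W d' l') (W d'' l'') ∧
        ((∀ x ∈ l'', x.2.norm ≤ n') ∨
          (d'' = d ∧ l''.head?.map Prod.fst = l.head?.map Prod.fst)) := by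
  induction l with
  | nil =>
    intro d _ hd _ _ _
    refine ⟨d * d', l', r', (nmul _ _).trans (by omega), fun x hx =>
      ⟨(s' x hx).trans (by omega), x, by simpa using hx, rfl⟩, by simp,
      h.of_eq (by rw [W_nil, io_mul_W]), Or.inl s'⟩
  | cons x l ih =>
    intro d r hd b s hlen
    obtain ⟨e, a⟩ := x
    rw [List.length_cons] at hlen
    have ha := s _ List.mem_cons_self
    obtain ⟨d'', l'', h1, h2, h3, h4, h5, h6⟩ := ih a (MHD.red_tail r) ha
      (fun y hy => b y (List.mem_cons_of_mem _ hy)) (fun y hy => s y (List.mem_cons_of_mem _ hy))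
      (by omega)
    have a1 : Ad F a l := ⟨by dsimp only at ha; omega, by omega,
      fun y hy => b y (List.mem_cons_of_mem _ hy),
      fun y hy => (s y (List.mem_cons_of_mem _ hy)).trans (by omega)⟩
    have a2 : Ad F d' l' := ⟨by omega, by omega, b', fun y hy => (s' y hy).trans (by omega)⟩
    have a3 : Ad F d'' l'' := ⟨by omega, by omega, fun y hy => by
      obtain ⟨-, z, hz, e⟩ := h3 y hy
      rw [← e]
      rcases List.mem_append.1 hz with hz | hz
      · exact a1.box z hz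
      · exact b' z hz, fun y hy => (h3 y hy).1.trans (by omega)⟩
    have s1 := h.sm_W (j := 0) a1
    have s2 := h.sm_W (j := 0) a2
    have s3 := h.sm_W (j := 0) a3
    have s4 := h.sm_io (j := 0) (w := d) (hd.trans (by rw [lev_zero]; omega))
    have s5 := Bx.sm_te (j := 0) (b _ List.mem_cons_self)
    have e1 : θ.E (W d ((e, a) :: l) * W d' l') (io S d * te e * W d'' l'') :=
      h.congr (h.mul_left (io S d * te e) h5) (by rw [W_cons]; group) rfl
    have mem1 : ∀ y ∈ l ++ l', y ∈ (e, a) :: l ++ l' := fun y hy => List.mem_cons_of_mem _ hy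
    by_cases hp : ∃ a₁ l₁, l'' = ((e.1, !e.2), a₁) :: l₁ ∧ π d'' = 1
    · obtain ⟨a₁, l₁, rfl, hπ⟩ := hp
      rcases h6 with h6 | ⟨rfl, h6⟩
      · have b1 := h6 _ List.mem_cons_self
        have s6 := h.sm_W (j := 0) a3.tail
        have s7 := h.sm_io (j := 0) a3.d_le
        have e2 : θ.E (io S d'') 1 := LT.E_one.2 (hT d'' (by omega) hπ)
        have e3 := h.mid (io S d * te e) e2 ((te e)⁻¹ * W a₁ l₁)
        rw [List.length_cons] at h4
        refine ⟨d * a₁, l₁, MHD.red_tail h1, (nmul _ _).trans (by dsimp only at b1; omega),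
          fun y hy => ?_, by rw [List.length_cons]; omega, ?_,
          Or.inl fun y hy => h6 y (List.mem_cons_of_mem _ hy)⟩
        · obtain ⟨c1, z, hz, c2⟩ := h3 y (List.mem_cons_of_mem _ hy)
          exact ⟨c1, z, mem1 z hz, c2⟩
        · rw [← io_mul_W]
          dsimp only at s6
          rw [W_cons] at e1 ⊢
          rw [W_cons, te_bar] at e1
          exact h.trans e1 (h.congr e3)
      · exfalso
        cases l with
        | nil => simp at h6
        | cons y l =>
          simp only [List.head?_cons, Option.map_some, Option.some.injEq] at h6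
          exact (red_cons_cons.1 r).1 ⟨h6.symm, hπ⟩
    · refine ⟨d, (e, d'') :: l'', ?_, by omega, fun y hy => ?_,
        by simp only [List.length_cons]; omega, by rw [W_cons d (e, d'')]; exact e1,
        Or.inr ⟨rfl, rfl⟩⟩
      · cases l'' with
        | nil => exact red_single _
        | cons y l₁ =>
          obtain ⟨e₁, a₁⟩ := y
          exact red_cons_cons.2 ⟨fun hc => hp ⟨a₁, l₁, by rw [← hc.1], hc.2⟩, h1⟩
      · rcases List.mem_cons.1 hy with rfl | hy
        · exact ⟨h2, (e, a), List.mem_cons_self, rfl⟩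
        · obtain ⟨c1, z, hz, c2⟩ := h3 y hy
          exact ⟨c1, z, mem1 z hz, c2⟩

end Loc

/-! ### sizes -/

/-- the configurations of size `n` -/
def Bd (m : ℕ) (root : Cf) (n : ℕ) (ω : Cf) : Prop :=
  ∀ k, |ω k| ≤ (((m : ℤ) + 1) ^ n - 1) * (|root k| + 1)

section Bd

variable {m : ℕ} {root x y : Cf} {n n' : ℕ}

theorem one_le_pw (m n : ℕ) : (1 : ℤ) ≤ ((m : ℤ) + 1) ^ n := one_le_pow₀ (by omega)

theorem Bd.zero : Bd m root n 0 := fun k => by
  have := one_le_pw m n
  have := abs_nonneg (root k)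
  simp only [Pi.zero_apply, abs_zero]
  nlinarith

theorem Bd.add (h : Bd m root n x) (h' : Bd m root n' y) : Bd m root (n + n') (x + y) := fun k => by
  have a1 := one_le_pw m n
  have a2 := one_le_pw m n'
  have a3 := abs_nonneg (root k)
  have a4 := abs_add_le (x k) (y k)
  have a5 := h k
  have a6 := h' k
  have a7 := mul_nonneg (mul_nonneg (sub_nonneg.2 a1) (sub_nonneg.2 a2))
    (show 0 ≤ |root k| + 1 by omega)
  rw [Pi.add_apply, pow_add]
  nlinarith

theorem Bd.mono (h : Bd m root n x) (hn : n ≤ n') : Bd m root n' x := by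
  obtain ⟨j, rfl⟩ := Nat.exists_eq_add_of_le hn
  simpa using h.add (Bd.zero (n := j))

theorem Bd.grow (h : Bd m root n x) (hy : ∀ k, |y k| ≤ m * |x k| + m * m + m) :
    Bd m root (n + 2) y := fun k => by
  have a1 := one_le_pw m n
  have a3 := abs_nonneg (root k)
  have a5 := h k
  have a6 := hy k
  have a0 : (0 : ℤ) ≤ m := by omega
  rw [pow_add]
  generalize ((m : ℤ) + 1) ^ n = P at *
  generalize |root k| = R at *
  have a7 : (m : ℤ) * |x k| ≤ m * ((P - 1) * (R + 1)) := mul_le_mul_of_nonneg_left a5 a0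
  have a8 := mul_nonneg (sub_nonneg.2 a1) (show 0 ≤ R + 1 by omega)
  have a9 := mul_nonneg a0 a0
  nlinarith [mul_nonneg a9 a8, mul_nonneg a0 a8, mul_nonneg a9 a3, mul_nonneg a0 a3]

theorem Bd.lt {e : EK} (hm : 1 ≤ m) (h : Bd m root n x) (hy : Lt m e x y) : Bd m root (n + 2) y :=
  h.grow fun k => (hy.abs_le hm k).trans (by nlinarith [Int.natCast_nonneg m])

theorem Bd.st {M : RM S} {e : EK} {v : FreeGroup S} (h : Bd M.m root n x) (hy : St M e x y v) :
    Bd M.m root (n + 2) y := h.grow hy.abs_le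

theorem Bd.one (hm : 1 ≤ m) (h : ∀ k, |x k| ≤ |root k| + 1) : Bd m root 1 x := fun k => by
  have a0 : (1 : ℤ) ≤ m := by exact_mod_cast hm
  have := h k
  have := abs_nonneg (root k)
  nlinarith

end Bd

theorem latw_zero : latw 0 = 1 := by simp [latw]

theorem tw_zero : tw 0 = .of (.inr (.inr 0)) := by simp [tw, latw_zero]

theorem latw_single (k : Reg) (n : ℤ) : latw (Pi.single k n) = aw k ^ n := by
  fin_cases k <;> simp [latw, aw, List.finRange_succ, Pi.single_apply]

variable (M : RM S) {D : Type} [Group D] (π : FreeGroup S →* D) (root : Cf)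

/-- representatives of the elements of the base group -/
structure Rp where
  n : ℕ
  d : FreeGroup S
  l : List (Le × FreeGroup S)
  x : Cf
  red : (BD D).Red (mp π l)
  d_le : d.norm ≤ n
  len : l.length ≤ n
  box : ∀ y ∈ l, Bd M.m root n y.1.1
  syl : ∀ y ∈ l, y.2.norm ≤ n
  x_le : Bd M.m root n x

/-- the system of representatives -/
noncomputable def RS : RepSys (KD M π) (πK M π root) where
  Rp := Rp M π root
  val r := bb ((BD D).ev (π r.d) (mp π r.l)) r.x
  wd r := W r.d r.l * latw r.x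
  sz r := r.n
  tw := xw
  π_wd r := by rw [map_mul, πK_W, πK_latw, of_bb]
  π_tw := πK_xw M π root
  tw_le := norm_xw

/-- the standing assumptions -/
structure Ctx (θ : LT YK) (L F N : ℕ) : Prop extends Loc M θ L F where
  snd : ∀ w ∈ θ.T, πK M π root w = 1
  rho : rootRel root ∈ θ.T
  kt : (θ.comap (io S)).KT π N
  N_le : N ≤ F
  box : ∀ k, ((M.m : ℤ) + 1) ^ N * (|root k| + 1) ≤ F

namespace Ctx

variable {M π root} {θ : LT YK} {L F N : ℕ} (h : Ctx M π root θ L F N)
include h

theorem bx {n : ℕ} {ω : Cf} (hω : Bd M.m root n ω) (hn : n ≤ N) : Bx F ω := fun k => by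
  have := hω.mono hn k
  have := h.box k
  have := abs_nonneg (root k)
  nlinarith

theorem bx_root : Bx F root := fun k => by
  have := one_le_pw M.m N
  have := h.box k
  have := abs_nonneg (root k)
  nlinarith

theorem ad (r : Rp M π root) (hr : r.n ≤ N) : Ad F r.d r.l :=
  ⟨r.d_le.trans (hr.trans h.N_le), r.len.trans (hr.trans h.N_le), fun y hy => h.bx (r.box y hy) hr,
    fun y hy => (r.syl y hy).trans (hr.trans h.N_le)⟩

theorem sm_wd (r : Rp M π root) (hr : r.n ≤ N) : Sm F 4 ((RS M π root).wd r) :=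
  (h.sm_W (j := 0) (h.ad r hr)).mul ((Bx.sm_latw (j := 0) (h.bx r.x_le hr)).mono (by decide))

theorem val_eq {u : FreeGroup YK} {r : Rp M π root} {g : BB D} (e : θ.E u ((RS M π root).wd r))
    (hu : πK M π root u = (KD M π).of g) : (RS M π root).val r = g := by
  have := LT.E.eq h.snd e
  rw [hu, (RS M π root).π_wd] at this
  exact ((KD M π).of_injective this).symm

theorem prod_rep (r r' : Rp M π root) (hn : r.n + r'.n ≤ N) : ∃ r'' : Rp M π root,
    r''.n = r.n + r'.n ∧ θ.E ((RS M π root).wd r * (RS M π root).wd r') ((RS M π root).wd r'') := by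
  have hN := h.N_le
  have a1 := h.ad r (by omega)
  have a2 := h.ad r' (by omega)
  have x1 := h.bx r.x_le (by omega)
  have x2 := h.bx r'.x_le (by omega)
  have x3 := h.bx (r.x_le.add r'.x_le) hn
  have s1 := Bx.sm_latw (j := 0) x1
  have s2 := Bx.sm_latw (j := 0) x2
  have s3 := Bx.sm_latw (j := 0) x3
  have F2 := le_lev_self F 2
  have b1 : ∀ y ∈ r'.l, Bx F (r.x + y.1.1) := fun y hy => h.bx (r.x_le.add (r'.box y hy)) hn
  have v0 : ∀ y ∈ r'.l, ((fun _ => 1 : Cf → FreeGroup S) y.1.1).norm ≤ 0 := fun _ _ => by simp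
  have e1 := h.conj_W (g := (latw r.x)⁻¹) (by sm)
    (fun w hw => by rw [inv_inv]; exact h.lat_io (x1.mono F2) (hw.trans F2))
    (f := fun ω => r.x + ω) (v := fun _ => 1) a2
    (fun y hy => by
      rw [inv_inv, map_one, mul_one]; exact h.lat_tw (x1.mono F2) ((a2.box y hy).mono F2))
    b1 (fun y hy => (v0 y hy).trans zero_le_one)
  have red1 : (BD D).Red (mp π (trl (fun ω => r.x + ω) (fun _ => 1) r'.l)) := by
    rw [mp_trl]
    exact red_trl _ (X := Set.univ) (add_right_injective r.x).injOn (fun _ _ => trivial) r'.red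
  have n1 : (r'.d * rvh (fun _ => 1) r'.l).norm ≤ r'.n := by
    have := nmul r'.d (rvh (fun _ => 1) r'.l)
    have := norm_rvh_le (v := fun _ => 1) v0
    have := r'.d_le
    omega
  have b2 : ∀ y ∈ trl (fun ω => r.x + ω) (fun _ => (1 : FreeGroup S)) r'.l,
      Bd M.m root (r.n + r'.n) y.1.1 := fun y hy => by
    obtain ⟨z, hz, e⟩ := mem_trl hy
    rw [e]; exact r.x_le.add (r'.box z hz)
  have l1 := r.len
  have l2 := r'.len
  have y1 := syl_trl (f := fun ω => r.x + ω) (v := fun _ => 1) r'.syl v0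
  obtain ⟨d'', l'', c1, c2, c3, c4, c5, -⟩ := h.junction h.kt hN hn red1 n1
    (fun y hy => h.bx (b2 y hy) hn) y1 r.l r.d r.red r.d_le a1.box r.syl
    (by rw [length_trl]; omega)
  rw [length_trl] at c4
  let r'' : Rp M π root := ⟨r.n + r'.n, d'', l'', r.x + r'.x, c1, c2, by omega, fun y hy => by
      obtain ⟨-, z, hz, e⟩ := c3 y hy
      rw [← e]
      rcases List.mem_append.1 hz with hz | hz
      · exact (r.box z hz).mono (by omega)
      · exact b2 z hz, fun y hy => (c3 y hy).1, r.x_le.add r'.x_le⟩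
  refine ⟨r'', rfl, ?_⟩
  have s4 := h.sm_W (j := 0) a1
  have s5 := h.sm_W (j := 0) a2
  have s6 := h.sm_W (j := 0) (h.ad r'' hn)
  have s7 := h.sm_W (h.ad_trl (f := fun ω => r.x + ω) (v := fun _ => 1) a2 b1
    fun y hy => (v0 y hy).trans zero_le_one)
  have e2 := h.lat_add (x1.mono F2) (x2.mono F2)
  have e3 := h.mulE (h.trans (h.mul_left (W r.d r.l) e1) c5) e2
  exact h.congr e3 (by simp [RS, mul_assoc]) rfl

theorem pinch_rep (e : EK) (r : Rp M π root) (hH : (RS M π root).val r ∈ (KD M π).H e)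
    (hn : r.n + 2 ≤ N) : ∃ r' : Rp M π root, r'.n = r.n + 2 ∧
      θ.E ((xw e)⁻¹ * (RS M π root).wd r * xw e) ((RS M π root).wd r') := by
  have hN := h.N_le
  have hm := M.two_le
  obtain ⟨h1, y, h2⟩ := (bb_mem_HK M).1 hH
  have h3 : ∀ z ∈ mp π r.l, z.1.1 ∈ dm M e := fun z hz => (((ev_mem_sb r.red).1 h1).2 z hz).1
  have h4 : ∀ z ∈ r.l, St M e z.1.1 (nx M e z.1.1) (vo M e z.1.1) := fun z hz =>
    st_nx (h3 _ (mem_mp.2 ⟨z, hz, rfl⟩))
  have a1 := h.ad r (by omega)
  have b1 : ∀ z ∈ r.l, Bd M.m root (r.n + 2) (nx M e z.1.1) := fun z hz => (r.box z hz).st (h4 z hz)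
  have v1 : ∀ z ∈ r.l, (vo M e z.1.1).norm ≤ 1 := fun z hz => (h4 z hz).norm_le
  have e1 := h.conj_W (g := xw e) (by sm) (fun w hw => h.x_io e (hw.trans (le_lev_self F 2))) a1
    (fun z hz => h.x_tw (a1.box z hz) (h.bx (b1 z hz) hn) (h4 z hz))
    (fun z hz => h.bx (b1 z hz) hn) v1
  have y1 := r.x_le.lt (by omega) h2
  have l1 := r.len
  let r' : Rp M π root := ⟨r.n + 2, r.d * rvh (vo M e) r.l, trl (nx M e) (vo M e) r.l, y, by
      rw [mp_trl]; exact red_trl _ (nx_injOn e) h3 r.red, by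
      have := nmul r.d (rvh (vo M e) r.l)
      have := norm_rvh_le v1
      have := r.d_le
      omega, by rw [length_trl]; omega, fun z hz => by
      obtain ⟨z', hz', q⟩ := mem_trl hz
      rw [q]; exact b1 z' hz', syl_trl r.syl v1, y1⟩
  refine ⟨r', rfl, ?_⟩
  have x1 := h.bx r.x_le (by omega)
  have x2 := h.bx y1 hn
  have s1 := Bx.sm_latw (j := 0) x1
  have s2 := Bx.sm_latw (j := 0) x2
  have s4 := h.sm_W (j := 0) a1
  have s6 := h.sm_W (j := 0) (h.ad r' hn)
  have e2 := h.x_lat (x1.mono (le_lev_self F 1)) (x2.mono (le_lev_self F 1)) h2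
  exact h.congr (h.mulE e1 e2) (by simp [RS, mul_assoc]) rfl

omit h in
/-- the trivial representative -/
def oneR (M : RM S) (π : FreeGroup S →* D) (root : Cf) : Rp M π root :=
  ⟨0, 1, [], 0, MHD.red_nil, by simp, by simp, by simp, by simp, Bd.zero⟩

omit h in
theorem wd_oneR : (RS M π root).wd (oneR M π root) = 1 := by simp [RS, oneR, W_nil, latw_zero]

theorem letter (x : YK × Bool) :
    (∃ r, (RS M π root).sz r ≤ 1 ∧ θ.E (.mk [x]) ((RS M π root).wd r)) ∨
      ∃ e, FreeGroup.mk [x] = (RS M π root).tw e := by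
  have hm : 1 ≤ M.m := by have := M.two_le; omega
  have hx : ∀ (y : YK) (b : Bool), FreeGroup.mk [(y, b)] =
      if b then FreeGroup.of y else (FreeGroup.of y)⁻¹ := by
    rintro y (_ | _)
    · exact mk_false y
    · rfl
  have hT : ∀ (ω : Cf) (b : Bool), Bd M.m root 1 ω →
      ∃ r, (RS M π root).sz r ≤ 1 ∧ (RS M π root).wd r = te (ω, b) := fun ω b hω =>
    ⟨(⟨1, 1, [((ω, b), 1)], 0, red_single _, by simp, by simp, by simpa using hω, by simp,
      Bd.zero⟩ : Rp M π root), le_rfl, by simp [RS, W_cons, W_nil, latw_zero]⟩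
  obtain ⟨k | ty | j, b⟩ := x
  · refine Or.inl ⟨(⟨1, 1, [], Pi.single k (if b then 1 else -1), MHD.red_nil, by simp, by simp,
      by simp, by simp, Bd.one hm fun k' => ?_⟩ : Rp M π root), le_rfl, h.of_eq ?_⟩
    · have := abs_nonneg (root k')
      by_cases hk : k' = k
      · subst hk; cases b <;> simp
      · simp [hk]; omega
    · cases b <;> simp [RS, hx, W_nil, latw_single, aw]
  · exact Or.inr ⟨(.inl ty, b), hx _ _⟩
  · fin_cases j
    · obtain ⟨r, h1, h2⟩ := hT 0 b Bd.zero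
      exact Or.inl ⟨r, h1, h.of_eq (by rw [h2, hx, te, tw_zero]; rfl)⟩
    · exact Or.inr ⟨(.inr (), b), hx _ _⟩
    · obtain ⟨r, h1, h2⟩ := hT root b (Bd.one hm fun k => by omega)
      refine Or.inl ⟨r, h1, ?_⟩
      have e : θ.E (.of (.inr (.inr 2))) (tw root) := h.rho
      have s1 := Bx.sm_tw (j := 0) h.bx_root
      have s2 : Sm F 1 (.of (.inr (.inr 2))) := by
        have := h.add_two_le
        simp only [Sm, FreeGroup.norm_of]; omega
      rw [h2, hx, te]
      cases b
      · exact h.invE e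
      · exact e

theorem rep {m : ℕ} (hm : m ≤ N) (w : FreeGroup YK) (hw : w.norm ≤ m) :
    ∃ r l, (KD M π).Red ((RS M π root).vl l) ∧ (RS M π root).szl r l ≤ w.norm ∧
      θ.E w ((RS M π root).wl r l) := by
  have hN := h.N_le
  refine (RS M π root).rep h.cl (F := lev F 4) ?_ (fun r hr => h.sm_wd r (le_trans hr hm))
    ⟨oneR M π root, rfl, wd_oneR⟩ h.letter (fun r r' hr => ?_) (fun e r hH hr => ?_) w hw
  · have h1 := le_lev (a := m) ((hm.trans hN).trans (le_lev_self F 4)) le_rfl (Nat.zero_le _)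
    have h2 := h.lev_le (j := 4 + 1)
    nlinarith
  · obtain ⟨r'', h1, h2⟩ := h.prod_rep r r' (le_trans hr hm)
    exact ⟨r'', h1.le, h2⟩
  · obtain ⟨r', h1, h2⟩ := h.pinch_rep e r hH (le_trans hr hm)
    exact ⟨r', h1.le, by rw [← xw_br] at h2; exact h2⟩

theorem sm_wl {m : ℕ} (hm : m ≤ N) (r : (RS M π root).Rp) (l : List (EK × (RS M π root).Rp))
    (hs : (RS M π root).szl r l ≤ m) : Sm F 5 ((RS M π root).wl r l) := by
  have h0 := (RS M π root).norm_wl_le (F := lev F 4) (fun r hr => h.sm_wd r (le_trans hr hm)) r l hs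
  have h1 := le_lev (a := m) ((hm.trans h.N_le).trans (le_lev_self F 4)) le_rfl (Nat.zero_le _)
  unfold Sm
  nlinarith

theorem KT : θ.KT (πK M π root) N := by
  intro w hw h1
  obtain ⟨r, l, h2, h3, e⟩ := h.rep le_rfl w hw
  have e1 := LT.E.eq h.snd e
  rw [h1, RepSys.π_wl, ← map_one (KD M π).of] at e1
  obtain ⟨hl, hv⟩ := MHD.eq_nil_of_ev_eq h2 e1.symm
  obtain rfl : l = [] := List.map_eq_nil_iff.1 hl
  have s1 : Sm F 0 w := hw.trans h.N_le
  have s2 := h.sm_wl le_rfl r [] (h3.trans hw)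
  refine h.memT e ?_
  rw [RepSys.szl_nil] at h3
  rw [RepSys.wl_nil]
  obtain ⟨h4, h5⟩ := bb_inj.1 (hv.trans (show (1 : BB D) = bb (bo 1) 0 by rw [map_one]; rfl))
  obtain ⟨h6, h7⟩ := MHD.eq_nil_of_ev_eq r.red h4
  have h8 : r.l = [] := List.map_eq_nil_iff.1 h6
  have : (RS M π root).wd r = io S r.d := by simp [RS, h5, h8, W_nil, latw_zero]
  rw [this]
  exact h.kt r.d (r.d_le.trans (le_trans h3 hw)) h7

end Ctx

end Crest.Agent.R185.KL
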