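import Crest.Agent.R185.KB

/-!
# Row 185, block K: the partial maps attached to the stable letters
-/

set_option autoImplicit false
set_option linter.unusedSectionVars false

namespace Crest.Agent.R185.KL

open Function

/-- the stable letters: one per type, and `f` -/
abbrev IK : Type := Ty ⊕ Unit

/-- the stable letters and their inverses -/
abbrev EK : Type := IK × Bool

/-- the inverse letter -/
def br (e : EK) : EK := (e.1, !e.2)

@[simp] theorem br_br (e : EK) : br (br e) = e := by simp [br]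

/-- the operations of a stable letter -/
def ops : IK → Reg → Op
  | .inl ty => ty.1
  | .inr _ => fun _ => .zero

variable {S : Type} [Fintype S] [DecidableEq S]

/-- an injection of `S` into the configurations -/
noncomputable def qs (s : S) : Cf := fun _ => ((Fintype.equivFin S s : ℕ) : ℤ)

theorem qs_inj : Injective (qs : S → Cf) := fun s s' h => by
  have h1 : ((Fintype.equivFin S s : ℕ) : ℤ) = ((Fintype.equivFin S s' : ℕ) : ℤ) := congrFun h 0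
  exact (Fintype.equivFin S).injective (Fin.ext (by exact_mod_cast h1))

theorem abs_qs_le (s : S) (k : Reg) : |qs s k| ≤ Fintype.card S := by
  have := (Fintype.equivFin S s).2
  simp only [qs, Nat.abs_cast]
  exact_mod_cast this.le

/-- the rules of the letter `f` -/
noncomputable def fr (s : S) : Rule S := ⟨(fun _ => .zero, 0), qs s, qs s, .of s⟩

variable (M : RM S)

/-- the rules of a stable letter -/
def rl : IK → Set (Rule S)
  | .inl ty => {ρ | ρ ∈ M.rules ∧ ρ.ty = ty}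
  | .inr _ => Set.range fr

/-- the letter `e` maps `t_ω` to `t_ω' v` -/
def St : EK → Cf → Cf → FreeGroup S → Prop
  | (i, true), ω, ω', v => ∃ ρ ∈ rl M i, ρ.Step M.m ω ω' ∧ v = ρ.volt
  | (i, false), ω, ω', v => ∃ ρ ∈ rl M i, ρ.Step M.m ω' ω ∧ v = ρ.volt⁻¹

/-- `dom • z ↦ ran • z` -/
def Lt0 (m : ℕ) (i : IK) (x y : Cf) : Prop :=
  ∃ z : Cf, (∀ k, x k = (ops i k).dom m * z k) ∧ ∀ k, y k = (ops i k).ran m * z k

/-- the letter `e` maps `a ^ x` to `a ^ y` -/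
def Lt (m : ℕ) : EK → Cf → Cf → Prop
  | (i, true), x, y => Lt0 m i x y
  | (i, false), x, y => Lt0 m i y x

variable {M}

theorem rl_finite (i : IK) : (rl M i).Finite := by
  cases i with
  | inl ty => exact M.fin.subset fun _ h => h.1
  | inr _ => exact Set.finite_range _

theorem rl_ty {i : IK} {ρ : Rule S} (h : ρ ∈ rl M i) : ρ.ty.1 = ops i := by
  cases i with
  | inl ty => rw [h.2]; rfl
  | inr _ => obtain ⟨s, rfl⟩ := h; rfl

theorem rl_volt {i : IK} {ρ : Rule S} (h : ρ ∈ rl M i) : ρ.volt.norm ≤ 1 := by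
  cases i with
  | inl ty => exact M.volt_le ρ h.1
  | inr _ => obtain ⟨s, rfl⟩ := h; simp [fr]

theorem rl_a {i : IK} {ρ : Rule S} (h : ρ ∈ rl M i) (k : Reg) :
    |ρ.a k| ≤ M.m + Fintype.card S ∧ |ρ.a' k| ≤ M.m + Fintype.card S := by
  cases i with
  | inl ty => have := M.a_le ρ h.1 k; omega
  | inr _ =>
    obtain ⟨s, rfl⟩ := h
    have := abs_qs_le s k
    simp only [fr]
    omega

theorem step_fr {m : ℕ} {s : S} {ω ω' : Cf} : (fr s).Step m ω ω' ↔ ω = qs s ∧ ω' = qs s := by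
  constructor
  · rintro ⟨z, h1, h2⟩
    exact ⟨funext fun k => by simpa [fr, Op.dom] using h1 k,
      funext fun k => by simpa [fr, Op.ran] using h2 k⟩
  · rintro ⟨rfl, rfl⟩
    exact ⟨0, by simp [fr], by simp [fr]⟩

theorem rl_dom {i : IK} {ρ ρ' : Rule S} (h : ρ ∈ rl M i) (h' : ρ' ∈ rl M i) {ω ω₁ ω₂ : Cf}
    (s : ρ.Step M.m ω ω₁) (s' : ρ'.Step M.m ω ω₂) : ρ = ρ' := by
  cases i with
  | inl ty => exact M.dom_disj ρ h.1 ρ' h'.1 (h.2.trans h'.2.symm) _ _ _ s s'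
  | inr _ =>
    obtain ⟨a, rfl⟩ := h
    obtain ⟨b, rfl⟩ := h'
    rw [qs_inj ((step_fr.1 s).1.symm.trans (step_fr.1 s').1)]

theorem rl_ran {i : IK} {ρ ρ' : Rule S} (h : ρ ∈ rl M i) (h' : ρ' ∈ rl M i) {ω ω₁ ω₂ : Cf}
    (s : ρ.Step M.m ω₁ ω) (s' : ρ'.Step M.m ω₂ ω) : ρ = ρ' := by
  cases i with
  | inl ty => exact M.ran_disj ρ h.1 ρ' h'.1 (h.2.trans h'.2.symm) _ _ _ s s'
  | inr _ =>
    obtain ⟨a, rfl⟩ := h
    obtain ⟨b, rfl⟩ := h'
    rw [qs_inj ((step_fr.1 s).2.symm.trans (step_fr.1 s').2)]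

theorem op_det {m : ℕ} (hm : m ≠ 0) (o : Op) {z z' : ℤ} :
    o.dom m * z = o.dom m * z' ↔ o.ran m * z = o.ran m * z' := by
  cases o <;> simp [Op.dom, Op.ran, hm]

theorem m_ne (M : RM S) : M.m ≠ 0 := by have := M.two_le; omega

theorem St.bar {e : EK} {ω ω' : Cf} {v : FreeGroup S} (h : St M e ω ω' v) :
    St M (br e) ω' ω v⁻¹ := by
  obtain ⟨i, _ | _⟩ := e
  · obtain ⟨ρ, h1, h2, rfl⟩ := h
    exact ⟨ρ, h1, h2, inv_inv _⟩
  · obtain ⟨ρ, h1, h2, rfl⟩ := h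
    exact ⟨ρ, h1, h2, rfl⟩

theorem St.uniq {e : EK} {ω ω₁ ω₂ : Cf} {v₁ v₂ : FreeGroup S} (h : St M e ω ω₁ v₁)
    (h' : St M e ω ω₂ v₂) : ω₁ = ω₂ ∧ v₁ = v₂ := by
  obtain ⟨i, _ | _⟩ := e
  · obtain ⟨ρ, h1, h2, rfl⟩ := h
    obtain ⟨ρ', h3, h4, rfl⟩ := h'
    obtain rfl := rl_ran h1 h3 h2 h4
    refine ⟨funext fun k => ?_, rfl⟩
    obtain ⟨z, a1, a2⟩ := h2
    obtain ⟨z', b1, b2⟩ := h4
    rw [a1, b1, (op_det (m_ne M) _).2 (add_left_cancel ((a2 k).symm.trans (b2 k)))]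
  · obtain ⟨ρ, h1, h2, rfl⟩ := h
    obtain ⟨ρ', h3, h4, rfl⟩ := h'
    obtain rfl := rl_dom h1 h3 h2 h4
    refine ⟨funext fun k => ?_, rfl⟩
    obtain ⟨z, a1, a2⟩ := h2
    obtain ⟨z', b1, b2⟩ := h4
    rw [a2, b2, (op_det (m_ne M) _).1 (add_left_cancel ((a1 k).symm.trans (b1 k)))]

theorem St.norm_le {e : EK} {ω ω' : Cf} {v : FreeGroup S} (h : St M e ω ω' v) : v.norm ≤ 1 := by
  obtain ⟨i, _ | _⟩ := e
  · obtain ⟨ρ, h1, -, rfl⟩ := h
    rw [FreeGroup.norm_inv_eq]; exact rl_volt h1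
  · obtain ⟨ρ, h1, -, rfl⟩ := h
    exact rl_volt h1

theorem op_le {m : ℕ} (hm : 1 ≤ m) (o : Op) (z : ℤ) :
    |o.ran m * z| ≤ m * |o.dom m * z| ∧ |o.dom m * z| ≤ m * |o.ran m * z| := by
  have h1 : (1 : ℤ) ≤ m := by exact_mod_cast hm
  have h2 := abs_nonneg z
  have h3 : |(m : ℤ)| = m := abs_of_nonneg (by omega)
  cases o <;> simp only [Op.dom, Op.ran, one_mul, zero_mul, abs_zero, mul_zero, abs_mul, h3] <;>
    constructor <;> nlinarith [mul_nonneg (mul_nonneg (sub_nonneg.2 h1) (by omega : (0:ℤ) ≤ m)) h2,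
      mul_nonneg (sub_nonneg.2 h1) h2]

/-- growth of the coordinates -/
theorem St.abs_le {e : EK} {ω ω' : Cf} {v : FreeGroup S} (h : St M e ω ω' v) (k : Reg) :
    |ω' k| ≤ M.m * |ω k| + M.m * M.m + M.m := by
  have hm := M.two_le
  have h1 : (2 : ℤ) ≤ M.m := by exact_mod_cast hm
  have key : ∀ {i : IK} {ρ : Rule S} {x y : Cf}, ρ ∈ rl M i → ρ.Step M.m x y →
      |y k| ≤ M.m * |x k| + M.m * M.m + M.m ∧ |x k| ≤ M.m * |y k| + M.m * M.m + M.m := by
    intro i ρ x y hρ hs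
    cases i with
    | inl ty =>
      obtain ⟨z, a1, a2⟩ := hs
      obtain ⟨b1, b2⟩ := M.a_le ρ hρ.1 k
      obtain ⟨c1, c2⟩ := op_le (m := M.m) (by omega) (ρ.ty.1 k) (z k)
      have d1 := abs_add_le (ρ.a k) ((ρ.ty.1 k).dom M.m * z k)
      have d2 := abs_add_le (ρ.a' k) ((ρ.ty.1 k).ran M.m * z k)
      have d3 := abs_sub (x k) (ρ.a k)
      have d4 := abs_sub (y k) (ρ.a' k)
      rw [← a1 k] at d1
      rw [← a2 k] at d2
      rw [show x k - ρ.a k = (ρ.ty.1 k).dom M.m * z k by rw [a1 k]; ring] at d3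
      rw [show y k - ρ.a' k = (ρ.ty.1 k).ran M.m * z k by rw [a2 k]; ring] at d4
      constructor <;> nlinarith
    | inr _ =>
      obtain ⟨s, rfl⟩ := hρ
      obtain ⟨rfl, rfl⟩ := step_fr.1 hs
      have := abs_nonneg (qs s k)
      constructor <;> nlinarith
  obtain ⟨i, _ | _⟩ := e
  · obtain ⟨ρ, h1, h2, -⟩ := h
    exact (key h1 h2).2
  · obtain ⟨ρ, h1, h2, -⟩ := h
    exact (key h1 h2).1

section Lt

variable {m : ℕ} {e : EK} {x y x' y' : Cf}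

omit [Fintype S] [DecidableEq S]

theorem Lt.bar (h : Lt m e x y) : Lt m (br e) y x := by
  obtain ⟨i, _ | _⟩ := e <;> exact h

theorem Lt.uniq (hm : m ≠ 0) (h : Lt m e x y) (h' : Lt m e x y') : y = y' := by
  obtain ⟨i, _ | _⟩ := e
  · obtain ⟨z, a1, a2⟩ := h
    obtain ⟨z', b1, b2⟩ := h'
    exact funext fun k => by rw [a1, b1, (op_det hm _).2 ((a2 k).symm.trans (b2 k))]
  · obtain ⟨z, a1, a2⟩ := h
    obtain ⟨z', b1, b2⟩ := h'
    exact funext fun k => by rw [a2, b2, (op_det hm _).1 ((a1 k).symm.trans (b1 k))]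

theorem Lt.zero (m : ℕ) (e : EK) : Lt m e 0 0 := by
  obtain ⟨i, _ | _⟩ := e <;> exact ⟨0, by simp, by simp⟩

theorem Lt.add (h : Lt m e x y) (h' : Lt m e x' y') : Lt m e (x + x') (y + y') := by
  obtain ⟨i, _ | _⟩ := e
  all_goals
    obtain ⟨z, a1, a2⟩ := h
    obtain ⟨z', b1, b2⟩ := h'
    exact ⟨z + z', fun k => by simp [a1, b1, mul_add], fun k => by simp [a2, b2, mul_add]⟩

theorem Lt.neg (h : Lt m e x y) : Lt m e (-x) (-y) := by
  obtain ⟨i, _ | _⟩ := e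
  all_goals
    obtain ⟨z, a1, a2⟩ := h
    exact ⟨-z, fun k => by simp [a1], fun k => by simp [a2]⟩

theorem Lt.abs_le (hm : 1 ≤ m) (h : Lt m e x y) (k : Reg) : |y k| ≤ m * |x k| := by
  obtain ⟨i, _ | _⟩ := e
  · obtain ⟨z, a1, a2⟩ := h
    rw [a1, a2]; exact (op_le hm _ _).2
  · obtain ⟨z, a1, a2⟩ := h
    rw [a1, a2]; exact (op_le hm _ _).1

/-- a small witness -/
theorem Lt0.small {i : IK} (hm : 1 ≤ m) (h : Lt0 m i x y) : ∃ z : Cf, (∀ k, |z k| ≤ |x k|) ∧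
    (∀ k, x k = (ops i k).dom m * z k) ∧ ∀ k, y k = (ops i k).ran m * z k := by
  obtain ⟨z, a1, a2⟩ := h
  have h1 : (1 : ℤ) ≤ m := by exact_mod_cast hm
  refine ⟨fun k => if ops i k = .zero then 0 else z k, fun k => ?_, fun k => ?_, fun k => ?_⟩
  · rw [a1 k]
    beta_reduce
    have h2 := abs_nonneg (z k)
    have h3 : |(m : ℤ)| = m := abs_of_nonneg (by omega)
    cases ops i k <;> simp [Op.dom, abs_mul, h3] <;> nlinarith
  · rw [a1 k]; beta_reduce; cases ops i k <;> simp [Op.dom]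
  · rw [a2 k]; beta_reduce; cases ops i k <;> simp [Op.ran]

end Lt

theorem St.add {e : EK} {ω ω' x y : Cf} {v : FreeGroup S} (h : St M e ω ω' v)
    (h' : Lt M.m e x y) : St M e (x + ω) (y + ω') v := by
  obtain ⟨i, _ | _⟩ := e
  all_goals
    obtain ⟨ρ, h1, ⟨z, a1, a2⟩, rfl⟩ := h
    obtain ⟨z', b1, b2⟩ := h'
    refine ⟨ρ, h1, ⟨z' + z, fun k => ?_, fun k => ?_⟩, rfl⟩
    · simp only [Pi.add_apply, a1, b1, rl_ty h1]; ring
    · simp only [Pi.add_apply, a2, b2, rl_ty h1]; ring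

/-- a step is a translate of the basic step `a ↦ a'` of a rule -/
theorem step_lt {i : IK} {ρ : Rule S} (h : ρ ∈ rl M i) {ω ω' : Cf} (s : ρ.Step M.m ω ω') :
    Lt0 M.m i (ω - ρ.a) (ω' - ρ.a') := by
  obtain ⟨z, a1, a2⟩ := s
  exact ⟨z, fun k => by simp [a1, rl_ty h], fun k => by simp [a2, rl_ty h]⟩

theorem st_base {i : IK} {ρ : Rule S} (h : ρ ∈ rl M i) : St M (i, true) ρ.a ρ.a' ρ.volt :=
  ⟨ρ, h, ⟨0, by simp, by simp⟩, rfl⟩

variable (M)

/-- the domain of a letter -/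
def dm (e : EK) : Set Cf := {ω | ∃ ω' v, St M e ω ω' v}

/-- the next configuration -/
noncomputable def nx (e : EK) (ω : Cf) : Cf :=
  (Classical.epsilon fun p : Cf × FreeGroup S => St M e ω p.1 p.2).1

/-- the voltage -/
noncomputable def vo (e : EK) (ω : Cf) : FreeGroup S :=
  (Classical.epsilon fun p : Cf × FreeGroup S => St M e ω p.1 p.2).2

/-- the map on translations -/
noncomputable def ps (e : EK) (x : Cf) : Cf := Classical.epsilon (Lt M.m e x)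

variable {M}

theorem st_nx {e : EK} {ω : Cf} (h : ω ∈ dm M e) : St M e ω (nx M e ω) (vo M e ω) := by
  obtain ⟨ω', v, h⟩ := h
  exact Classical.epsilon_spec (p := fun p : Cf × FreeGroup S => St M e ω p.1 p.2) ⟨(ω', v), h⟩

theorem St.mem {e : EK} {ω ω' : Cf} {v : FreeGroup S} (h : St M e ω ω' v) : ω ∈ dm M e :=
  ⟨ω', v, h⟩

theorem St.nx_eq {e : EK} {ω ω' : Cf} {v : FreeGroup S} (h : St M e ω ω' v) : nx M e ω = ω' :=
  ((st_nx h.mem).uniq h).1

theorem St.vo_eq {e : EK} {ω ω' : Cf} {v : FreeGroup S} (h : St M e ω ω' v) : vo M e ω = v :=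
  ((st_nx h.mem).uniq h).2

theorem nx_injOn (e : EK) : (dm M e).InjOn (nx M e) := fun ω h ω' h' q => by
  have h1 := (st_nx h).bar
  rw [q] at h1
  exact (h1.uniq (st_nx h').bar).1

theorem Lt.ps_eq {e : EK} {x y : Cf} (h : Lt M.m e x y) : ps M e x = y :=
  Lt.uniq (m_ne M) (Classical.epsilon_spec (p := Lt M.m e x) ⟨y, h⟩) h

/-- what `Good` says about a step of a rule letter -/
theorem St.gauge {V : Set (FreeGroup S)} {root : Cf} {C : Set Cf} {γ : Cf → FreeGroup S}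
    {dep : Cf → ℕ} (hG : M.Good V root C γ dep) {ty : Ty} {b : Bool} {ω ω' : Cf}
    {v : FreeGroup S} (h : St M (.inl ty, b) ω ω' v) (hω : ω ∈ C) : ω' ∈ C ∧
      ((γ ω')⁻¹ * v * γ ω = 1 ∨ (γ ω')⁻¹ * v * γ ω ∈ V ∨ ((γ ω')⁻¹ * v * γ ω)⁻¹ ∈ V) := by
  cases b
  · obtain ⟨ρ, h1, h2, rfl⟩ := h
    have h3 := (hG.step_mem ρ h1.1 _ _ h2).2 hω
    refine ⟨h3, ?_⟩
    rcases hG.step_γ ρ h1.1 _ _ h2 h3 with h4 | ⟨h4, h5, h6⟩
    · left; rw [h4]; group
    · right; left; simpa [h4, h5] using h6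
  · obtain ⟨ρ, h1, h2, rfl⟩ := h
    refine ⟨(hG.step_mem ρ h1.1 _ _ h2).1 hω, ?_⟩
    rcases hG.step_γ ρ h1.1 _ _ h2 hω with h4 | ⟨h4, h5, h6⟩
    · left; rw [h4]; group
    · right; right; simpa [h4, h5] using h6

theorem norm_γ_le {V : Set (FreeGroup S)} {root : Cf} {C : Set Cf} {γ : Cf → FreeGroup S}
    {dep : Cf → ℕ} (hG : M.Good V root C γ dep) {ω : Cf} (hω : ω ∈ C) : (γ ω).norm ≤ dep ω := by
  induction h : dep ω using Nat.strong_induction_on generalizing ω with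
  | _ n ih =>
    rcases hG.pred ω hω with rfl | ⟨ρ, h1, ω₀, h2, h3, h4⟩
    · simp [hG.γ_root]
    · have h5 := ih _ (h ▸ h4) ((hG.step_mem ρ h1 _ _ h2).2 hω) rfl
      have h6 := M.volt_le ρ h1
      have h7 := nmul ρ.volt (γ ω₀)
      rw [h3]; omega

end Crest.Agent.R185.KL
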