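import Mathlib

/-!
# R185/MGroup: the group `Mg T A` of a system of triples (helper79)

`T : J → J → J → Prop`; `T a b c` means "`k b`, `k c` commute and `k a = k b * k c`".
`Mg T A` is the universal group with homomorphisms `k j : A →* Mg T A` satisfying these relations.
-/

set_option autoImplicit false

namespace Crest.Agent.R185

open Function

variable {J : Type*} (T : J → J → J → Prop)

/-- a family of homomorphisms satisfying the relations of `T` -/
structure MRep {A B : Type*} [Group A] [Group B] (k : J → A →* B) : Prop where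
  comm : ∀ a b c, T a b c → ∀ u v, Commute (k b u) (k c v)
  mul : ∀ a b c, T a b c → ∀ u, k a u = k b u * k c u

variable {T}

theorem MRep.comp_left {A B C : Type*} [Group A] [Group B] [Group C] {k : J → A →* B}
    (h : MRep T k) (f : B →* C) : MRep T fun j => f.comp (k j) :=
  ⟨fun a b c t u v => (h.comm a b c t u v).map f, fun a b c t u => by
    simp only [MonoidHom.comp_apply, h.mul a b c t u, map_mul]⟩

theorem MRep.comp_right {A B C : Type*} [Group A] [Group B] [Group C] {k : J → A →* B}
    (h : MRep T k) (f : C →* A) : MRep T fun j => (k j).comp f :=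
  ⟨fun a b c t _ _ => h.comm a b c t _ _, fun a b c t _ => h.mul a b c t _⟩

/-- the relations may be checked on generators -/
theorem mRep_of_gen {A B : Type*} [Group A] [Group B] {k : J → A →* B} {s : Set A}
    (hs : Subgroup.closure s = ⊤)
    (h1 : ∀ a b c, T a b c → ∀ u ∈ s, ∀ v ∈ s, Commute (k b u) (k c v))
    (h2 : ∀ a b c, T a b c → ∀ u ∈ s, k a u = k b u * k c u) : MRep T k := by
  have hc : ∀ a b c, T a b c → ∀ u v, Commute (k b u) (k c v) := by
    intro a b c t u v
    have hu : u ∈ Subgroup.closure s := hs ▸ Subgroup.mem_top u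
    have hv : v ∈ Subgroup.closure s := hs ▸ Subgroup.mem_top v
    induction hu using Subgroup.closure_induction with
    | mem u hu =>
      induction hv using Subgroup.closure_induction with
      | mem v hv => exact h1 a b c t u hu v hv
      | one => rw [map_one]; exact Commute.one_right _
      | mul v w _ _ i1 i2 => rw [map_mul]; exact i1.mul_right i2
      | inv v _ i1 => rw [map_inv]; exact i1.inv_right
    | one => rw [map_one]; exact Commute.one_left _
    | mul u w _ _ i1 i2 => rw [map_mul]; exact i1.mul_left i2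
    | inv u _ i1 => rw [map_inv]; exact i1.inv_left
  refine ⟨hc, fun a b c t u => ?_⟩
  have hu : u ∈ Subgroup.closure s := hs ▸ Subgroup.mem_top u
  induction hu using Subgroup.closure_induction with
  | mem u hu => exact h2 a b c t u hu
  | one => simp
  | mul u w _ _ i1 i2 =>
    rw [map_mul, map_mul, map_mul, i1, i2, mul_assoc, mul_assoc, ← mul_assoc (k c u),
      ← (hc a b c t w u).eq, mul_assoc]
  | inv u _ i1 =>
    rw [map_inv, map_inv, map_inv, i1, ← mul_inv_rev, (hc a b c t u u).eq]

variable (T)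

/-- relators of `Mg T A` -/
def mgRels (A : Type*) [Group A] : Set (FreeGroup (J × A)) :=
  {r | ∃ j u v, r = .of (j, u) * .of (j, v) * (.of (j, u * v))⁻¹} ∪
  ({r | ∃ a b c u v, T a b c ∧ r = .of (b, u) * .of (c, v) * (.of (c, v) * .of (b, u))⁻¹} ∪
   {r | ∃ a b c u, T a b c ∧ r = .of (a, u) * (.of (b, u) * .of (c, u))⁻¹})

/-- the universal group -/
def Mg (A : Type*) [Group A] : Type _ := PresentedGroup (mgRels T A)

instance (A : Type*) [Group A] : Group (Mg T A) := inferInstanceAs (Group (PresentedGroup _))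

namespace Mg

variable {A B C : Type*} [Group A] [Group B] [Group C]

/-- the copies of `A` -/
def k (j : J) : A →* Mg T A :=
  MonoidHom.mk' (fun u => (PresentedGroup.of (j, u) : PresentedGroup (mgRels T A))) fun u v =>
    (PresentedGroup.mk_eq_mk_of_mul_inv_mem (rels := mgRels T A)
      (x := .of (j, u) * .of (j, v)) (y := .of (j, u * v)) (Or.inl ⟨j, u, v, rfl⟩)).symm

theorem rep : MRep T (k T : J → A →* Mg T A) := by
  refine ⟨fun a b c t u v => ?_, fun a b c t u => ?_⟩
  · have := PresentedGroup.mk_eq_mk_of_mul_inv_mem (rels := mgRels T A)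
      (x := FreeGroup.of (b, u) * FreeGroup.of (c, v)) (y := FreeGroup.of (c, v) * FreeGroup.of (b, u))
      (Or.inr (Or.inl ⟨a, b, c, u, v, t, rfl⟩))
    exact this
  · have := PresentedGroup.mk_eq_mk_of_mul_inv_mem (rels := mgRels T A)
      (x := FreeGroup.of (a, u)) (y := FreeGroup.of (b, u) * FreeGroup.of (c, u))
      (Or.inr (Or.inr ⟨a, b, c, u, t, rfl⟩))
    exact this

variable {T}

/-- universal property -/
def lift {κ : J → A →* B} (h : MRep T κ) : Mg T A →* B :=
  PresentedGroup.toGroup (f := fun p : J × A => κ p.1 p.2) (rels := mgRels T A) (by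
    rintro r (⟨j, u, v, rfl⟩ | ⟨a, b, c, u, v, t, rfl⟩ | ⟨a, b, c, u, t, rfl⟩)
    · simp
    · simp only [map_mul, map_inv, FreeGroup.lift_apply_of]
      rw [(h.comm a b c t u v).eq, mul_inv_cancel]
    · simp only [map_mul, map_inv, FreeGroup.lift_apply_of]
      rw [h.mul a b c t u, mul_inv_cancel])

@[simp] theorem lift_k {κ : J → A →* B} (h : MRep T κ) (j : J) (u : A) :
    lift h (k T j u) = κ j u := PresentedGroup.toGroup.of _

theorem hom_ext {f g : Mg T A →* B} (h : ∀ j u, f (k T j u) = g (k T j u)) : f = g :=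
  PresentedGroup.ext (rels := mgRels T A) fun p => h p.1 p.2

theorem closure_k : Subgroup.closure (Set.range fun p : J × A => k T p.1 p.2) = ⊤ :=
  PresentedGroup.closure_range_of (mgRels T A)

/-- generators of `A` give generators of `Mg T A` -/
theorem closure_gen {s : Set A} (hs : Subgroup.closure s = ⊤) :
    Subgroup.closure {g : Mg T A | ∃ j, ∃ u ∈ s, k T j u = g} = ⊤ := by
  rw [eq_top_iff, ← closure_k, Subgroup.closure_le]
  rintro _ ⟨⟨j, u⟩, rfl⟩
  have hu : u ∈ Subgroup.closure s := hs ▸ Subgroup.mem_top u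
  have : Subgroup.closure s ≤ (Subgroup.closure {g : Mg T A | ∃ j, ∃ u ∈ s, k T j u = g}).comap (k T j) :=
    (Subgroup.closure_le _).2 fun v hv => Subgroup.subset_closure ⟨j, v, hv, rfl⟩
  exact this hu

variable (T)

/-- functoriality -/
def map (f : A →* B) : Mg T A →* Mg T B := lift ((rep T).comp_right f)

@[simp] theorem map_k (f : A →* B) (j : J) (u : A) : map T f (k T j u) = k T j (f u) := lift_k _ _ _

theorem map_comp (f : A →* B) (g : B →* C) : map T (g.comp f) = (map T g).comp (map T f) :=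
  hom_ext fun j u => by simp

theorem map_id : map T (MonoidHom.id A) = MonoidHom.id _ := hom_ext fun j u => by simp

/-- the image of `map T f` is generated by the `k j (f u)` -/
theorem range_map (f : A →* B) :
    (map T f).range = Subgroup.closure {g : Mg T B | ∃ j, ∃ u ∈ f.range, k T j u = g} := by
  rw [MonoidHom.range_eq_map, ← closure_k, MonoidHom.map_closure]
  congr 1
  ext g
  constructor
  · rintro ⟨_, ⟨⟨j, u⟩, rfl⟩, rfl⟩
    exact ⟨j, f u, ⟨u, rfl⟩, (map_k T f j u).symm⟩
  · rintro ⟨j, _, ⟨u, rfl⟩, rfl⟩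
    exact ⟨k T j u, ⟨(j, u), rfl⟩, map_k T f j u⟩

theorem map_surjective {f : A →* B} (hf : Surjective f) : Surjective (map T f) := by
  rw [← MonoidHom.range_eq_top, range_map, eq_top_iff, ← closure_k]
  refine Subgroup.closure_mono ?_
  rintro _ ⟨⟨j, u⟩, rfl⟩
  exact ⟨j, u, hf u, rfl⟩

instance fg [Finite J] [h : Group.FG A] : Group.FG (Mg T A) := by
  obtain ⟨s, hs, hsf⟩ := Group.fg_iff.1 h
  refine Group.fg_iff.2 ⟨_, closure_gen hs, ?_⟩
  refine ((Set.finite_univ (α := J)).prod hsf |>.image fun p => k T p.1 p.2).subset ?_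
  rintro _ ⟨j, u, hu, rfl⟩
  exact ⟨(j, u), ⟨trivial, hu⟩, rfl⟩

/-- the relators of the system on a generating set `X` (finite if `J`, `X` are finite) -/
def sysRels (X : Type*) : Set (FreeGroup (J × X)) :=
  {r | ∃ a b c u v, T a b c ∧ r = .of (b, u) * .of (c, v) * (.of (c, v) * .of (b, u))⁻¹} ∪
   {r | ∃ a b c u, T a b c ∧ r = .of (a, u) * (.of (b, u) * .of (c, u))⁻¹}

theorem sysRels_finite [Finite J] (X : Type*) [Finite X] : (sysRels T X).Finite := by
  refine Set.Finite.union ?_ ?_
  · refine (Set.finite_range fun p : J × J × X × X => (FreeGroup.of (p.1, p.2.2.1) * .of (p.2.1, p.2.2.2) *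
      (.of (p.2.1, p.2.2.2) * .of (p.1, p.2.2.1))⁻¹ : FreeGroup (J × X))).subset ?_
    rintro _ ⟨a, b, c, u, v, -, rfl⟩
    exact ⟨(b, c, u, v), rfl⟩
  · refine (Set.finite_range fun p : J × J × J × X => (FreeGroup.of (p.1, p.2.2.2) *
      (.of (p.2.1, p.2.2.2) * .of (p.2.2.1, p.2.2.2))⁻¹ : FreeGroup (J × X))).subset ?_
    rintro _ ⟨a, b, c, u, -, rfl⟩
    exact ⟨(a, b, c, u), rfl⟩

/-- the map `FreeGroup (J × X) → Mg T A` induced by `φ : FreeGroup X → A` -/
def pres {X : Type*} (φ : FreeGroup X →* A) : FreeGroup (J × X) →* Mg T A :=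
  FreeGroup.lift fun p => k T p.1 (φ (.of p.2))

theorem pres_map {X : Type*} (φ : FreeGroup X →* A) (j : J) (w : FreeGroup X) :
    pres T φ (FreeGroup.map (Prod.mk j) w) = k T j (φ w) := by
  have : (pres T φ).comp (FreeGroup.map (Prod.mk j)) = (k T j).comp φ := by
    ext x; simp [pres]
  exact DFunLike.congr_fun this w

theorem pres_surjective {X : Type*} {φ : FreeGroup X →* A} (hφ : Surjective φ) :
    Surjective (pres T φ) := by
  rw [← MonoidHom.range_eq_top, eq_top_iff, ← closure_k, Subgroup.closure_le]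
  rintro _ ⟨⟨j, u⟩, rfl⟩
  obtain ⟨w, rfl⟩ := hφ u
  exact ⟨_, pres_map T φ j w⟩

/-- presentation of `Mg T A` relative to a presentation of `A` -/
theorem ker_pres {X : Type*} {φ : FreeGroup X →* A} (hφ : Surjective φ) {R : Set (FreeGroup X)}
    (hR : Subgroup.normalClosure R = φ.ker) :
    (pres T φ).ker = Subgroup.normalClosure
      (sysRels T X ∪ {r | ∃ j, ∃ w ∈ R, r = FreeGroup.map (Prod.mk j) w}) := by
  set N := Subgroup.normalClosure (sysRels T X ∪ {r | ∃ j, ∃ w ∈ R, r = FreeGroup.map (Prod.mk j) w})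
    with hN
  refine le_antisymm ?_ (Subgroup.normalClosure_le_normal ?_)
  · let q : J → FreeGroup X →* FreeGroup (J × X) ⧸ N := fun j =>
      (QuotientGroup.mk' N).comp (FreeGroup.map (Prod.mk j))
    have hq : ∀ j, φ.ker ≤ (q j).ker := by
      intro j
      rw [← hR]
      refine Subgroup.normalClosure_le_normal fun w hw => ?_
      exact (QuotientGroup.eq_one_iff _).2 (Subgroup.subset_normalClosure (Or.inr ⟨j, w, hw, rfl⟩))
    let κ : J → A →* FreeGroup (J × X) ⧸ N := fun j =>
      φ.liftOfSurjective hφ ⟨q j, hq j⟩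
    have hκ : ∀ j w, κ j (φ w) = q j w := fun j w => MonoidHom.liftOfRightInverse_comp_apply _ _ _ _ _
    have hκ' : ∀ j x, κ j (φ (.of x)) = (FreeGroup.of (j, x) : FreeGroup (J × X)) := fun j x => by
      rw [hκ]; simp [q]
    have hgen : Subgroup.closure (Set.range fun x => φ (.of x)) = ⊤ := by
      have := Set.range_comp φ FreeGroup.of
      rw [show (fun x => φ (.of x)) = φ ∘ FreeGroup.of from rfl, this, ← MonoidHom.map_closure, FreeGroup.closure_range_of,
        ← MonoidHom.range_eq_map, MonoidHom.range_eq_top.2 hφ]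
    have hrep : MRep T κ := by
      refine mRep_of_gen hgen ?_ ?_
      · rintro a b c t _ ⟨u, rfl⟩ _ ⟨v, rfl⟩
        rw [hκ', hκ', Commute, SemiconjBy, ← QuotientGroup.mk_mul, ← QuotientGroup.mk_mul,
          QuotientGroup.eq_iff_div_mem, div_eq_mul_inv]
        exact Subgroup.subset_normalClosure (Or.inl (Or.inl ⟨a, b, c, u, v, t, rfl⟩))
      · rintro a b c t _ ⟨u, rfl⟩
        rw [hκ', hκ', hκ', ← QuotientGroup.mk_mul, QuotientGroup.eq_iff_div_mem, div_eq_mul_inv]
        exact Subgroup.subset_normalClosure (Or.inl (Or.inr ⟨a, b, c, u, t, rfl⟩))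
    have hcomp : (lift hrep).comp (pres T φ) = QuotientGroup.mk' N := by
      ext ⟨j, x⟩
      simp [pres, hκ']
    intro w hw
    have := DFunLike.congr_fun hcomp w
    rw [MonoidHom.comp_apply, MonoidHom.mem_ker.1 hw, map_one] at this
    exact (QuotientGroup.eq_one_iff _).1 this.symm
  · rintro r ((⟨a, b, c, u, v, t, rfl⟩ | ⟨a, b, c, u, t, rfl⟩) | ⟨j, w, hw, rfl⟩)
    · simp only [SetLike.mem_coe, MonoidHom.mem_ker, pres, map_mul, map_inv, FreeGroup.lift_apply_of]
      rw [((rep T).comm a b c t _ _).eq, mul_inv_cancel]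
    · simp only [SetLike.mem_coe, MonoidHom.mem_ker, pres, map_mul, map_inv, FreeGroup.lift_apply_of]
      rw [(rep T).mul a b c t, mul_inv_cancel]
    · have : w ∈ φ.ker := hR ▸ Subgroup.subset_normalClosure hw
      rw [SetLike.mem_coe, MonoidHom.mem_ker, pres_map, MonoidHom.mem_ker.1 this, map_one]

instance fp [Finite J] [h : Group.IsFinitelyPresented A] : Group.IsFinitelyPresented (Mg T A) := by
  obtain ⟨n, φ, hφ, R, hRf, hR⟩ := h.out
  refine Group.IsFinitelyPresented.of_surjective (pres T φ) (pres_surjective T hφ)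
    ⟨_, ?_, (ker_pres T hφ hR).symm⟩
  refine (sysRels_finite T _).union ?_
  refine ((Set.finite_univ (α := J)).prod hRf |>.image
    fun p => FreeGroup.map (Prod.mk p.1) p.2).subset ?_
  rintro _ ⟨j, w, hw, rfl⟩
  exact ⟨(j, w), ⟨trivial, hw⟩, rfl⟩

end Mg

end Crest.Agent.R185
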