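import Mathlib

/-!
# R185/MIdem: additive functions on idempotents in characteristic `p` (helper79)

If `x` is additive on orthogonal idempotents of (a suitable finite additive subgroup of) a ring `L` of
characteristic `p` that contains Leavitt elements `x₀, x₁, y₀, y₁` (`yᵢ xⱼ = δᵢⱼ`, `x₀ y₀ + x₁ y₁ = 1`),
then `p • x 1 = 0`.
-/

set_option autoImplicit false

namespace Crest.Agent.R185

section Idem

variable {L : Type*} [Ring L] {V : Type*} [AddCommGroup V]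

/-- `x` is additive on orthogonal idempotents lying in `S` -/
def AddOn (S : AddSubgroup L) (x : L → V) : Prop :=
  ∀ e ∈ S, ∀ f ∈ S, e * e = e → f * f = f → e * f = 0 → f * e = 0 → x (e + f) = x e + x f

variable {S X Y : AddSubgroup L} {x : L → V}

theorem AddOn.rel (hx : AddOn S x) (hS : ∀ a ∈ X, ∀ b ∈ Y, a * b ∈ S) {v w f g : L}
    (hv : v ∈ X) (hw : w ∈ X) (hf : f ∈ Y) (hg : g ∈ Y)
    (fv : f * v = 1) (gw : g * w = 1) (fw : f * w = 0) (gv : g * v = 0) :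
    x ((v + w) * f) - x (v * f) = x (w * g) - x (w * (g - f)) := by
  have h1 : x (v * f + w * g) = x (v * f) + x (w * g) := by
    refine hx _ (hS _ hv _ hf) _ (hS _ hw _ hg) ?_ ?_ ?_ ?_
    · rw [mul_assoc, ← mul_assoc f, fv, one_mul]
    · rw [mul_assoc, ← mul_assoc g, gw, one_mul]
    · rw [mul_assoc, ← mul_assoc f, fw, zero_mul, mul_zero]
    · rw [mul_assoc, ← mul_assoc g, gv, zero_mul, mul_zero]
  have a1 : f * (v + w) = 1 := by rw [mul_add, fv, fw, add_zero]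
  have a2 : (g - f) * w = 1 := by rw [sub_mul, gw, fw, sub_zero]
  have a3 : (g - f) * (v + w) = 0 := by rw [sub_mul, a1, mul_add, gv, gw, zero_add, sub_self]
  have h2 : x ((v + w) * f + w * (g - f)) = x ((v + w) * f) + x (w * (g - f)) := by
    refine hx _ (hS _ (X.add_mem hv hw) _ hf) _ (hS _ hw _ (Y.sub_mem hg hf)) ?_ ?_ ?_ ?_
    · rw [mul_assoc, ← mul_assoc f, a1, one_mul]
    · rw [mul_assoc, ← mul_assoc (g - f), a2, one_mul]
    · rw [mul_assoc, ← mul_assoc f, fw, zero_mul, mul_zero]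
    · rw [mul_assoc, ← mul_assoc (g - f), a3, zero_mul, mul_zero]
  have h3 : (v + w) * f + w * (g - f) = v * f + w * g := by noncomm_ring
  rw [h3, h1] at h2
  rw [sub_eq_sub_iff_add_eq_add, ← h2, add_comm]

/-- three columns with a dual triple of rows -/
structure Tri (v w u f g h : L) : Prop where
  fv : f * v = 1
  fw : f * w = 0
  fu : f * u = 0
  gv : g * v = 0
  gw : g * w = 1
  gu : g * u = 0
  hv : h * v = 0
  hw : h * w = 0
  hu : h * u = 1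

theorem AddOn.moveA {p : ℕ} (hp : (p : L) = 0) (hx : AddOn S x) (hS : ∀ a ∈ X, ∀ b ∈ Y, a * b ∈ S)
    {v w u f g h : L} (hv : v ∈ X) (hw : w ∈ X) (hu : u ∈ X) (hf : f ∈ Y) (hg : g ∈ Y) (hh : h ∈ Y)
    (T : Tri v w u f g h) : p • x ((v + w) * f) = p • x (v * f) := by
  obtain ⟨fv, fw, fu, gv, gw, gu, hv', hw', hu'⟩ := T
  set D := x ((v + u + w) * f) - x ((v + u) * f) with hD
  have key : ∀ k : ℕ, x ((v + k • w + w) * f) - x ((v + k • w) * f) = D := by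
    intro k
    have hg' : g - k • f + k • h ∈ Y := Y.add_mem (Y.sub_mem hg (Y.nsmul_mem hf k)) (Y.nsmul_mem hh k)
    have b1 : (g - k • f + k • h) * w = 1 := by
      rw [add_mul, sub_mul, smul_mul_assoc, smul_mul_assoc, gw, fw, hw']; simp
    have b2 : (g - k • f + k • h) * (v + k • w) = 0 := by
      rw [mul_add, mul_smul_comm, b1, add_mul, sub_mul, smul_mul_assoc, smul_mul_assoc, gv, fv, hv']; simp
    have b3 : (g - k • f + k • h) * (v + u) = 0 := by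
      simp only [mul_add, add_mul, sub_mul, smul_mul_assoc, gv, fv, hv', gu, fu, hu']; simp
    have c1 : f * (v + k • w) = 1 := by rw [mul_add, mul_smul_comm, fv, fw]; simp
    have c2 : f * (v + u) = 1 := by rw [mul_add, fv, fu, add_zero]
    rw [hx.rel hS (X.add_mem hv (X.nsmul_mem hw k)) hw hf hg' c1 b1 fw b2, hD,
      hx.rel hS (X.add_mem hv hu) hw hf hg' c2 b1 fw b3]
  have tel : ∀ k : ℕ, x ((v + k • w) * f) = x (v * f) + k • D := by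
    intro k
    induction k with
    | zero => simp
    | succ k ih =>
      have := key k
      rw [ih, sub_eq_iff_eq_add] at this
      rw [succ_nsmul, ← add_assoc, this, succ_nsmul]
      abel
  have h1 := tel p
  rw [nsmul_eq_mul, hp, zero_mul, add_zero] at h1
  have h2 : p • D = 0 := by simpa using h1.symm
  have h3 := tel 1
  rw [one_nsmul, one_nsmul] at h3
  rw [h3, nsmul_add, h2, add_zero]

theorem AddOn.moveB {p : ℕ} (hp : (p : L) = 0) (hx : AddOn S x) (hS : ∀ a ∈ X, ∀ b ∈ Y, a * b ∈ S)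
    {v w u f g h : L} (hv : v ∈ X) (hw : w ∈ X) (hu : u ∈ X) (hf : f ∈ Y) (hg : g ∈ Y) (hh : h ∈ Y)
    (T : Tri v w u f g h) : p • x (w * g) = p • x (w * (g - f)) := by
  have h1 := hx.moveA hp hS hv hw hu hf hg hh T
  have h2 := hx.rel hS hv hw hf hg T.fv T.gw T.fw T.gv
  rw [← sub_eq_zero, ← nsmul_sub] at h1 ⊢
  rw [← h2, h1]

theorem AddOn.swap {p : ℕ} (hp : (p : L) = 0) (hx : AddOn S x) (hS : ∀ a ∈ X, ∀ b ∈ Y, a * b ∈ S)
    {v w u f g h : L} (hv : v ∈ X) (hw : w ∈ X) (hu : u ∈ X) (hf : f ∈ Y) (hg : g ∈ Y) (hh : h ∈ Y)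
    (T : Tri v w u f g h) : p • x (v * f) = p • x (w * g) := by
  have h1 := hx.moveA hp hS hv hw hu hf hg hh T
  obtain ⟨fv, fw, fu, gv, gw, gu, hv', hw', hu'⟩ := T
  have h2 := hx.moveA hp hS hw hv hu hg hf hh ⟨gw, gv, gu, fw, fv, fu, hw', hv', hu'⟩
  have T3 : Tri (-v) (v + w) u (g - f) g h := by
    constructor <;> simp [mul_add, sub_mul, fv, fw, fu, gv, gw, gu, hv', hw', hu']
  have h3 := hx.moveB hp hS (X.neg_mem hv) (X.add_mem hv hw) hu (Y.sub_mem hg hf) hg hh T3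
  rw [sub_sub_cancel] at h3
  rw [← h1, ← h3, ← h2, add_comm]

/-- Leavitt elements -/
structure Leav (L : Type*) [Ring L] where
  x0 : L
  x1 : L
  y0 : L
  y1 : L
  h00 : y0 * x0 = 1
  h01 : y0 * x1 = 0
  h10 : y1 * x0 = 0
  h11 : y1 * x1 = 1
  hsum : x0 * y0 + x1 * y1 = 1

namespace Leav

variable (Λ : Leav L)

/-- the columns `x₀, x₀x₀, x₀x₁, x₁x₀, x₁x₁` -/
def cX : Fin 5 → L := ![Λ.x0, Λ.x0 * Λ.x0, Λ.x0 * Λ.x1, Λ.x1 * Λ.x0, Λ.x1 * Λ.x1]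

/-- the rows `y₀, y₀y₀, y₁y₀, y₀y₁, y₁y₁` -/
def cY : Fin 5 → L := ![Λ.y0, Λ.y0 * Λ.y0, Λ.y1 * Λ.y0, Λ.y0 * Λ.y1, Λ.y1 * Λ.y1]

/-- the additive subgroup spanned by the products column × row -/
def sp : AddSubgroup L := AddSubgroup.closure (Set.range fun ij : Fin 5 × Fin 5 => Λ.cX ij.1 * Λ.cY ij.2)

theorem mul_mem_S (a : L) (ha : a ∈ AddSubgroup.closure (Set.range Λ.cX)) (b : L)
    (hb : b ∈ AddSubgroup.closure (Set.range Λ.cY)) : a * b ∈ Λ.sp := by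
  induction ha using AddSubgroup.closure_induction with
  | mem a ha =>
    obtain ⟨i, rfl⟩ := ha
    induction hb using AddSubgroup.closure_induction with
    | mem b hb =>
      obtain ⟨j, rfl⟩ := hb
      exact AddSubgroup.subset_closure ⟨(i, j), rfl⟩
    | zero => rw [mul_zero]; exact Λ.sp.zero_mem
    | add b c _ _ h1 h2 => rw [mul_add]; exact Λ.sp.add_mem h1 h2
    | neg b _ h1 => rw [mul_neg]; exact Λ.sp.neg_mem h1
  | zero => rw [zero_mul]; exact Λ.sp.zero_mem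
  | add a c _ _ h1 h2 => rw [add_mul]; exact Λ.sp.add_mem h1 h2
  | neg a _ h1 => rw [neg_mul]; exact Λ.sp.neg_mem h1

theorem a00 (z : L) : Λ.y0 * (Λ.x0 * z) = z := by rw [← mul_assoc, Λ.h00, one_mul]
theorem a01 (z : L) : Λ.y0 * (Λ.x1 * z) = 0 := by rw [← mul_assoc, Λ.h01, zero_mul]
theorem a10 (z : L) : Λ.y1 * (Λ.x0 * z) = 0 := by rw [← mul_assoc, Λ.h10, zero_mul]
theorem a11 (z : L) : Λ.y1 * (Λ.x1 * z) = z := by rw [← mul_assoc, Λ.h11, one_mul]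

theorem split0 : Λ.cX 0 * Λ.cY 0 = Λ.cX 1 * Λ.cY 1 + Λ.cX 2 * Λ.cY 2 := by
  have : Λ.x0 * Λ.y0 = Λ.x0 * (Λ.x0 * Λ.y0 + Λ.x1 * Λ.y1) * Λ.y0 := by rw [Λ.hsum, mul_one]
  simp only [cX, cY, Matrix.cons_val_zero, Matrix.cons_val_one, Matrix.cons_val]
  rw [this]; noncomm_ring

theorem split1 : (1 : L) = Λ.cX 0 * Λ.cY 0 + (Λ.cX 3 * Λ.cY 3 + Λ.cX 4 * Λ.cY 4) := by
  have : Λ.x1 * Λ.y1 = Λ.x1 * (Λ.x0 * Λ.y0 + Λ.x1 * Λ.y1) * Λ.y1 := by rw [Λ.hsum, mul_one]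
  simp only [cX, cY, Matrix.cons_val_zero, Matrix.cons_val_one, Matrix.cons_val]
  rw [← Λ.hsum, this]; noncomm_ring

theorem gen_mem (i j : Fin 5) : Λ.cX i * Λ.cY j ∈ Λ.sp := AddSubgroup.subset_closure ⟨(i, j), rfl⟩

theorem one_mem_S : (1 : L) ∈ Λ.sp := by
  rw [Λ.split1]
  exact Λ.sp.add_mem (Λ.gen_mem _ _) (Λ.sp.add_mem (Λ.gen_mem _ _) (Λ.gen_mem _ _))

theorem finite_S {p : ℕ} (hp0 : p ≠ 0) (hp : (p : L) = 0) : Finite Λ.sp := by
  classical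
  have hfg : Λ.sp.FG := ⟨Finset.univ.image fun ij : Fin 5 × Fin 5 => Λ.cX ij.1 * Λ.cY ij.2, by
    simp [sp]⟩
  have : AddGroup.FG Λ.sp := (AddGroup.fg_iff_addSubgroup_fg _).2 hfg
  refine AddCommGroup.finite_of_fg_isAddTorsion Λ.sp fun a => ?_
  refine isOfFinAddOrder_iff_nsmul_eq_zero.2 ⟨p, Nat.pos_of_ne_zero hp0, Subtype.ext ?_⟩
  simp [nsmul_eq_mul, hp]

theorem kills {p : ℕ} (hp : (p : L) = 0) {x : L → V} (hx : AddOn Λ.sp x) : p • x 1 = 0 := by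
  have hX : ∀ i, Λ.cX i ∈ AddSubgroup.closure (Set.range Λ.cX) := fun i =>
    AddSubgroup.subset_closure ⟨i, rfl⟩
  have hY : ∀ i, Λ.cY i ∈ AddSubgroup.closure (Set.range Λ.cY) := fun i =>
    AddSubgroup.subset_closure ⟨i, rfl⟩
  have sw : ∀ i j k, Tri (Λ.cX i) (Λ.cX j) (Λ.cX k) (Λ.cY i) (Λ.cY j) (Λ.cY k) →
      p • x (Λ.cX i * Λ.cY i) = p • x (Λ.cX j * Λ.cY j) := fun i j k T =>
    hx.swap hp Λ.mul_mem_S (hX i) (hX j) (hX k) (hY i) (hY j) (hY k) T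
  have t03 := sw 0 3 4 (by
    constructor <;> simp [cX, cY, mul_assoc, a00, a01, a10, a11, Λ.h00, Λ.h01, Λ.h10, Λ.h11])
  have t13 := sw 1 3 4 (by
    constructor <;> simp [cX, cY, mul_assoc, a00, a01, a10, a11, Λ.h00, Λ.h01, Λ.h10, Λ.h11])
  have t23 := sw 2 3 4 (by
    constructor <;> simp [cX, cY, mul_assoc, a00, a01, a10, a11, Λ.h00, Λ.h01, Λ.h10, Λ.h11])
  have t43 := sw 4 3 1 (by
    constructor <;> simp [cX, cY, mul_assoc, a00, a01, a10, a11, Λ.h00, Λ.h01, Λ.h10, Λ.h11])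
  have e0 : x (Λ.cX 0 * Λ.cY 0) = x (Λ.cX 1 * Λ.cY 1) + x (Λ.cX 2 * Λ.cY 2) := by
    rw [Λ.split0]
    refine hx _ (Λ.gen_mem _ _) _ (Λ.gen_mem _ _) ?_ ?_ ?_ ?_ <;>
      simp [cX, cY, mul_assoc, a00, a01, a10, a11]
  have e1 : x (Λ.cX 3 * Λ.cY 3 + Λ.cX 4 * Λ.cY 4) = x (Λ.cX 3 * Λ.cY 3) + x (Λ.cX 4 * Λ.cY 4) := by
    refine hx _ (Λ.gen_mem _ _) _ (Λ.gen_mem _ _) ?_ ?_ ?_ ?_ <;>
      simp [cX, cY, mul_assoc, a00, a01, a10, a11]
  have e2 : x 1 = x (Λ.cX 0 * Λ.cY 0) + x (Λ.cX 3 * Λ.cY 3 + Λ.cX 4 * Λ.cY 4) := by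
    conv_lhs => rw [Λ.split1]
    refine hx _ (Λ.gen_mem _ _) _ (Λ.sp.add_mem (Λ.gen_mem _ _) (Λ.gen_mem _ _)) ?_ ?_ ?_ ?_ <;>
      simp [cX, cY, mul_assoc, mul_add, add_mul, a00, a01, a10, a11]
  have z : p • x (Λ.cX 3 * Λ.cY 3) = 0 := by
    have := congrArg (p • ·) e0
    simp only [nsmul_add, t03, t13, t23] at this
    simpa using this
  rw [e2, e1, nsmul_add, nsmul_add, t03, t43, z]; simp

end Leav

end Idem

end Crest.Agent.R185
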