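import Crest.Agent.R185.MIdem
import Crest.Agent.R185.MGroup

/-!
# R185/MModel: the finite system `MT` and its linear model (helper79)

* `MJ` (finite), `mj0 : MJ`, `MT : MJ → MJ → MJ → Prop`;
* `MT_kills`: every `x : MJ → V` additive on `MT` has `x mj0 = 0`;
* `MRep.conj`: `k mj0 s * k j h * (k mj0 s)⁻¹ = k j (s h s⁻¹)` in every representation;
* `gk : MJ → A →* GB A` the model, `GB A = (L₃[(L₂[A])ˣ])ˣ`, functorial in `A` (`GBmap`);
* `MA A = Mg MT A`, `delta : A →* MA A` injective, `delta a ∈ ⟨k j H⟩ → a ∈ H`.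
-/

set_option autoImplicit false

namespace Crest.Agent.R185

open Function MonoidAlgebra

noncomputable section

section Kap

variable {L : Type*} [Ring L] {A B : Type*} [Group A] [Group B]

/-- `a ↦ (1 - e) + e a` -/
def kapM (e : L) (he : e * e = e) : A →* MonoidAlgebra L A where
  toFun a := single 1 (1 - e) + single a e
  map_one' := by rw [← single_add, sub_add_cancel, one_def]
  map_mul' a b := by
    have h1 : (1 - e) * (1 - e) = 1 - e := by rw [mul_sub, sub_mul, sub_mul, he]; simp
    have h2 : (1 - e) * e = 0 := by rw [sub_mul, he]; simp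
    have h3 : e * (1 - e) = 0 := by rw [mul_sub, he]; simp
    simp only [add_mul, mul_add, single_mul_single, h1, h2, h3, he, single_zero, one_mul, add_zero,
      zero_add]

/-- `a ↦ (1 - e) + e a` as a unit -/
def kap (e : L) (he : e * e = e) : A →* (MonoidAlgebra L A)ˣ := (kapM e he).toHomUnits

theorem kap_val (e : L) (he : e * e = e) (a : A) :
    (kap e he a : MonoidAlgebra L A) = single 1 (1 - e) + single a e := rfl

theorem kap_one_val (a : A) : (kap (1 : L) (mul_one 1) a : MonoidAlgebra L A) = single a 1 := by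
  rw [kap_val]; simp

theorem kap_zero (a : A) : kap (0 : L) (mul_zero 0) a = 1 := by
  ext1; rw [kap_val]; simp [one_def]

theorem kap_mul {e f : L} (he : e * e = e) (hf : f * f = f) (h : e * f = 0) (a b : A) :
    (kap e he a * kap f hf b : MonoidAlgebra L A) = single 1 (1 - (e + f)) + single a e + single b f := by
  have h1 : (1 - e) * (1 - f) = 1 - (e + f) := by rw [mul_sub, sub_mul, sub_mul, h]; simp; abel
  have h2 : (1 - e) * f = f := by rw [sub_mul, h]; simp
  have h3 : e * (1 - f) = e := by rw [mul_sub, h]; simp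
  simp only [kap_val, add_mul, mul_add, single_mul_single, h1, h2, h3, h, single_zero, one_mul, mul_one,
    add_zero]

theorem kap_commute {e f : L} (he : e * e = e) (hf : f * f = f) (h : e * f = 0) (h' : f * e = 0)
    (a b : A) : Commute (kap e he a) (kap f hf b) := by
  ext1
  rw [Units.val_mul, Units.val_mul, kap_mul he hf h, kap_mul hf he h', add_comm f e]
  abel

theorem kap_add {e f g : L} (he : e * e = e) (hf : f * f = f) (hg : g * g = g) (h : e * f = 0)
    (hs : g = e + f) (a : A) : kap g hg a = kap e he a * kap f hf a := by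
  ext1
  rw [Units.val_mul, kap_mul he hf h, kap_val, hs, single_add, add_assoc]

/-- functoriality of the unit group of the group ring -/
def umap (L : Type*) [Ring L] (f : A →* B) : (MonoidAlgebra L A)ˣ →* (MonoidAlgebra L B)ˣ :=
  Units.map (mapDomainRingHom L f).toMonoidHom

theorem umap_kap (f : A →* B) (e : L) (he : e * e = e) (a : A) :
    umap L f (kap e he a) = kap e he (f a) := by
  ext1
  change mapDomain f (single 1 (1 - e) + single a e) = single 1 (1 - e) + single (f a) e
  rw [mapDomain_add, mapDomain_single, mapDomain_single, map_one]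

theorem umap_injective {f : A →* B} (hf : Injective f) : Injective (umap L f) :=
  Units.map_injective (mapDomain_injective hf)

theorem kap_one_injective [Nontrivial L] : Injective (kap (1 : L) (mul_one 1) : A → _) := by
  intro a b h
  have := congrArg Units.val h
  rw [kap_one_val, kap_one_val] at this
  exact single_left_injective one_ne_zero this

theorem mem_range_of_kap_one [Nontrivial L] {f : A →* B} {b : B}
    (h : kap (1 : L) (mul_one 1) b ∈ (umap L f).range) : b ∈ f.range := by
  obtain ⟨u, hu⟩ := h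
  have h1 := congrArg (fun u : (MonoidAlgebra L B)ˣ => (u : MonoidAlgebra L B).coeff b) hu
  by_contra hb
  simp only [kap_one_val, coeff_single, Finsupp.single_eq_same] at h1
  have h2 : (Finsupp.mapDomain f (u : MonoidAlgebra L A).coeff) b = 0 :=
    Finsupp.mapDomain_of_notMem_range _ _ hb
  exact one_ne_zero (h1.symm.trans h2)

end Kap

/-- the coefficient ring in characteristic `p` -/
abbrev LR (p : ℕ) : Type := Module.End (ZMod p) ((ℕ → Bool) → ZMod p)

/-- prepend a bit -/
def bcons (b : Bool) (ω : ℕ → Bool) : ℕ → Bool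
  | 0 => b
  | n + 1 => ω n

/-- `x b`: move a function into the cylinder of `b` -/
def lx (p : ℕ) (b : Bool) : LR p where
  toFun φ ω := if ω 0 = b then φ (fun n => ω (n + 1)) else 0
  map_add' φ ψ := by funext ω; by_cases h : ω 0 = b <;> simp [h]
  map_smul' c φ := by funext ω; by_cases h : ω 0 = b <;> simp [h]

/-- `y b`: restrict a function to the cylinder of `b` -/
def ly (p : ℕ) (b : Bool) : LR p where
  toFun φ ω := φ (bcons b ω)
  map_add' _ _ := rfl
  map_smul' _ _ := rfl

theorem lx_apply (p : ℕ) (b : Bool) (φ : (ℕ → Bool) → ZMod p) (ω : ℕ → Bool) :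
    lx p b φ ω = if ω 0 = b then φ (fun n => ω (n + 1)) else 0 := rfl

theorem ly_apply (p : ℕ) (b : Bool) (φ : (ℕ → Bool) → ZMod p) (ω : ℕ → Bool) :
    ly p b φ ω = φ (bcons b ω) := rfl

theorem bcons_eta (ω : ℕ → Bool) : bcons (ω 0) (fun n => ω (n + 1)) = ω := by
  funext n; cases n <;> rfl

/-- the Leavitt elements of `LR p` -/
def leav (p : ℕ) : Leav (LR p) where
  x0 := lx p false
  x1 := lx p true
  y0 := ly p false
  y1 := ly p true
  h00 := by ext φ ω; rfl
  h01 := by ext φ ω; rfl
  h10 := by ext φ ω; rfl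
  h11 := by ext φ ω; rfl
  hsum := by
    refine LinearMap.ext fun φ => funext fun ω => ?_
    simp only [LinearMap.add_apply, Module.End.mul_apply, Pi.add_apply, lx_apply, ly_apply,
      Module.End.one_apply]
    have := bcons_eta ω
    cases h : ω 0 <;> rw [h] at this <;> simp [this]

theorem LR_char (p : ℕ) : ((p : ℕ) : LR p) = 0 := by
  refine LinearMap.ext fun φ => funext fun ω => ?_
  simp

/-- idempotents of the finite additive group `(leav p).sp` -/
def JP (p : ℕ) : Type := {e : LR p // e ∈ (leav p).sp ∧ e * e = e}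

theorem JP_finite {p : ℕ} (hp : p ≠ 0) : Finite (JP p) := by
  have := (leav p).finite_S hp (LR_char p)
  exact Finite.of_injective (fun e : JP p => (⟨e.1, e.2.1⟩ : (leav p).sp)) fun a b h =>
    Subtype.ext (congrArg (fun z : (leav p).sp => (z : LR p)) h)

/-- the idempotent `1` -/
def JP.one (p : ℕ) : JP p := ⟨1, (leav p).one_mem_S, mul_one 1⟩

/-- the idempotent `0` -/
def JP.zero (p : ℕ) : JP p := ⟨0, (leav p).sp.zero_mem, mul_zero 0⟩

/-- the complementary idempotent -/
def JP.compl {p : ℕ} (e : JP p) : JP p :=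
  ⟨1 - e.1, (leav p).sp.sub_mem (leav p).one_mem_S e.2.1, by
    rw [mul_sub, sub_mul, sub_mul, e.2.2]; simp⟩

/-- orthogonal decompositions -/
def JT {p : ℕ} (a b c : JP p) : Prop := a.1 = b.1 + c.1 ∧ b.1 * c.1 = 0 ∧ c.1 * b.1 = 0

theorem JT_compl {p : ℕ} (e : JP p) : JT (JP.one p) e e.compl :=
  ⟨by simp [JP.one, JP.compl], by simp [JP.compl, mul_sub, e.2.2], by simp [JP.compl, sub_mul, e.2.2]⟩

theorem JT_zero (p : ℕ) : JT (JP.zero p) (JP.zero p) (JP.zero p) := by simp [JT, JP.zero]

theorem JT_kills {p : ℕ} {V : Type*} [AddCommGroup V] (x : JP p → V)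
    (hx : ∀ a b c, JT a b c → x a = x b + x c) : p • x (JP.one p) = 0 := by
  classical
  let y : LR p → V := fun e => if h : e ∈ (leav p).sp ∧ e * e = e then x ⟨e, h⟩ else 0
  have hy : AddOn (leav p).sp y := by
    intro e he f hf ee ff ef fe
    have h3 : e + f ∈ (leav p).sp ∧ (e + f) * (e + f) = e + f :=
      ⟨(leav p).sp.add_mem he hf, by rw [mul_add, add_mul, add_mul, ee, ff, ef, fe]; simp⟩
    simp only [y]
    rw [dif_pos h3, dif_pos ⟨he, ee⟩, dif_pos ⟨hf, ff⟩]
    exact hx _ _ _ ⟨rfl, ef, fe⟩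
  have := (leav p).kills (LR_char p) hy
  simp only [y] at this
  rw [dif_pos ⟨(leav p).one_mem_S, mul_one 1⟩] at this
  exact this

/-- the index set of the system -/
def MJ : Type := JP 2 ⊕ JP 3

instance : Finite MJ := by
  have := JP_finite (p := 2) (by norm_num)
  have := JP_finite (p := 3) (by norm_num)
  exact inferInstanceAs (Finite (JP 2 ⊕ JP 3))

/-- the base point -/
def mj0 : MJ := Sum.inl (JP.one 2)

/-- the triples of the system -/
inductive MT : MJ → MJ → MJ → Prop
  | two {a b c : JP 2} : JT a b c → MT (Sum.inl a) (Sum.inl b) (Sum.inl c)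
  | three {a b c : JP 3} : JT a b c → MT (Sum.inr a) (Sum.inr b) (Sum.inr c)
  | glue : MT (Sum.inl (JP.one 2)) (Sum.inr (JP.one 3)) (Sum.inl (JP.zero 2))

/-- (i): the base point dies in every additive system -/
theorem MT_kills {V : Type*} [AddCommGroup V] (x : MJ → V)
    (hx : ∀ a b c, MT a b c → x a = x b + x c) : x mj0 = 0 := by
  have h2 := JT_kills (fun e : JP 2 => x (Sum.inl e)) fun a b c h => hx _ _ _ (.two h)
  have h3 := JT_kills (fun e : JP 3 => x (Sum.inr e)) fun a b c h => hx _ _ _ (.three h)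
  have h0 : x (Sum.inl (JP.zero 2)) = 0 := by simpa using hx _ _ _ (.two (JT_zero 2))
  have hg := hx _ _ _ .glue
  rw [h0, add_zero] at hg
  rw [← hg] at h3
  have : x mj0 = 3 • x mj0 - 2 • x mj0 := by
    rw [show (3 : ℕ) = 2 + 1 from rfl, succ_nsmul]; abel
  rw [this]
  exact sub_eq_zero.2 (h3.trans h2.symm)

variable {A B : Type*} [Group A] [Group B]

theorem MRep.conj {k : MJ → A →* B} (h : MRep MT k) (j : MJ) (s a : A) :
    k mj0 s * k j a * (k mj0 s)⁻¹ = k j (s * a * s⁻¹) := by
  have key : ∀ j0 j', MT j0 j j' → k j0 s * k j a * (k j0 s)⁻¹ = k j (s * a * s⁻¹) := by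
    intro j0 j' t
    rw [h.mul _ _ _ t s, map_mul, map_mul, map_inv, mul_assoc (k j s), ← (h.comm _ _ _ t a s).eq]
    group
  rcases j with e | e
  · exact key _ _ (.two (JT_compl e))
  · have h0 : k (Sum.inl (JP.zero 2)) s = 1 := by simpa using h.mul _ _ _ (.two (JT_zero 2)) s
    have hg := h.mul _ _ _ .glue s
    rw [h0, mul_one] at hg
    have : k mj0 s = k (Sum.inr (JP.one 3)) s := hg
    rw [this]
    exact key _ _ (.three (JT_compl e))

/-- the target of the linear model -/
abbrev GB (A : Type*) [Group A] : Type _ := (MonoidAlgebra (LR 3) (MonoidAlgebra (LR 2) A)ˣ)ˣ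

/-- the linear model -/
def gk : MJ → A →* GB A
  | Sum.inl e => (kap (1 : LR 3) (mul_one 1)).comp (kap e.1 e.2.2)
  | Sum.inr e => (kap e.1 e.2.2).comp (kap (1 : LR 2) (mul_one 1))

theorem gk_rep : MRep MT (gk : MJ → A →* GB A) := by
  constructor
  · rintro _ _ _ (⟨h⟩ | ⟨h⟩ | _) u v
    · exact (kap_commute _ _ h.2.1 h.2.2 u v).map (kap (1 : LR 3) (mul_one 1))
    · exact kap_commute _ _ h.2.1 h.2.2 _ _
    · have : gk (Sum.inl (JP.zero 2)) v = 1 := by
        change kap (1 : LR 3) (mul_one 1) (kap (0 : LR 2) (mul_zero 0) v) = 1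
        rw [kap_zero, map_one]
      rw [this]; exact Commute.one_right _
  · rintro _ _ _ (⟨h⟩ | ⟨h⟩ | _) u
    · exact (congrArg (kap (1 : LR 3) (mul_one 1)) (kap_add _ _ _ h.2.1 h.1 u)).trans (map_mul _ _ _)
    · exact kap_add _ _ _ h.2.1 h.1 _
    · have : gk (Sum.inl (JP.zero 2)) u = 1 := by
        change kap (1 : LR 3) (mul_one 1) (kap (0 : LR 2) (mul_zero 0) u) = 1
        rw [kap_zero, map_one]
      rw [this, mul_one]; rfl

/-- functoriality of the model -/
def GBmap (f : A →* B) : GB A →* GB B := umap (LR 3) (umap (LR 2) f)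

theorem GBmap_gk (f : A →* B) (j : MJ) (a : A) : GBmap f (gk j a) = gk j (f a) := by
  rcases j with e | e
  · exact (umap_kap _ _ _ _).trans (congrArg (kap (1 : LR 3) (mul_one 1)) (umap_kap _ _ _ _))
  · exact (umap_kap _ _ _ _).trans (congrArg (kap e.1 e.2.2) (umap_kap _ _ _ _))

theorem GBmap_injective {f : A →* B} (hf : Injective f) : Injective (GBmap f) :=
  umap_injective (umap_injective hf)

instance : Fact (1 < 2) := ⟨by norm_num⟩
instance : Fact (1 < 3) := ⟨by norm_num⟩

theorem gk_mj0_injective : Injective (gk mj0 : A → GB A) :=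
  kap_one_injective.comp kap_one_injective

theorem mem_range_of_gk_mj0 {f : A →* B} {b : B} (h : gk mj0 b ∈ (GBmap f).range) : b ∈ f.range :=
  mem_range_of_kap_one (L := LR 2) (mem_range_of_kap_one (L := LR 3) h)

/-- `H`-condition in the model -/
theorem mem_of_gk_mj0 (H : Subgroup A) {a : A}
    (h : gk mj0 a ∈ Subgroup.closure {g : GB A | ∃ j, ∃ u ∈ H, gk j u = g}) : a ∈ H := by
  have : Subgroup.closure {g : GB A | ∃ j, ∃ u ∈ H, gk j u = g} ≤ (GBmap H.subtype).range := by
    rw [Subgroup.closure_le]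
    rintro _ ⟨j, u, hu, rfl⟩
    exact ⟨gk j ⟨u, hu⟩, GBmap_gk _ _ _⟩
  simpa using mem_range_of_gk_mj0 (this h)

/-- the abstract (finitely presented relative to `A`) group -/
abbrev MA (A : Type*) [Group A] : Type _ := Mg MT A

/-- the diagonal -/
def delta (A : Type*) [Group A] : A →* MA A := Mg.k MT mj0

theorem delta_injective : Injective (delta A) := by
  intro a b h
  have := congrArg (Mg.lift gk_rep) h
  simp only [delta, Mg.lift_k] at this
  exact gk_mj0_injective this

theorem mem_of_delta (H : Subgroup A) {a : A}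
    (h : delta A a ∈ Subgroup.closure {g : MA A | ∃ j, ∃ u ∈ H, Mg.k MT j u = g}) : a ∈ H := by
  refine mem_of_gk_mj0 H ?_
  have h1 := Subgroup.mem_map_of_mem (Mg.lift gk_rep) h
  rw [MonoidHom.map_closure] at h1
  simp only [delta, Mg.lift_k] at h1
  refine Subgroup.closure_mono ?_ h1
  rintro _ ⟨_, ⟨j, u, hu, rfl⟩, rfl⟩
  exact ⟨j, u, hu, (Mg.lift_k _ _ _).symm⟩

theorem mem_range_of_delta {f : A →* B} {b : B} (h : delta B b ∈ (Mg.map MT f).range) :
    b ∈ f.range := mem_of_delta _ (Mg.range_map MT f ▸ h)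

theorem map_delta (f : A →* B) (a : A) : Mg.map MT f (delta A a) = delta B (f a) := Mg.map_k _ _ _ _

theorem delta_conj (j : MJ) (s a : A) :
    delta A s * Mg.k MT j a * (delta A s)⁻¹ = Mg.k MT j (s * a * s⁻¹) := (Mg.rep MT).conj j s a

end

end Crest.Agent.R185
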