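import Mathlib

/-!
# Prefix-rewriting stack machines with output (row 185, machine block, helper82)

A `PfM A` is a finite nondeterministic machine: finitely many control states, stacks, stack symbols
and rules; a rule replaces a fixed prefix of every stack by another fixed prefix and may print a
letter of `A`.  `exists_pm_tm2`: every partial recursive domain is accepted by the silent part of
such a machine (simulation of Mathlib's `PartrecToTM2` statement by statement).
-/

set_option autoImplicit false

namespace Crest.Agent.R185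

open Turing Relation Function

/-- prefix-rewriting stack machine with output alphabet `A` -/
structure PfM (A : Type) where
  Q : Type
  K : Type
  G : Type
  J : Type
  [fQ : Finite Q]
  [fK : Finite K]
  [fG : Finite G]
  [fJ : Finite J]
  src : J → Q
  tgt : J → Q
  pre : J → K → List G
  post : J → K → List G
  out : J → Option A

attribute [instance] PfM.fQ PfM.fK PfM.fG PfM.fJ

namespace PfM

variable {A : Type} (M : PfM A)

/-- configurations -/
abbrev Cfg := M.Q × (M.K → List M.G)

/-- one application of rule `j` -/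
def Step (j : M.J) (c c' : M.Cfg) : Prop :=
  c.1 = M.src j ∧ c'.1 = M.tgt j ∧
    ∃ u : M.K → List M.G, (∀ k, c.2 k = M.pre j k ++ u k) ∧ ∀ k, c'.2 k = M.post j k ++ u k

/-- the rules of the list are applied from left to right -/
def Run : List M.J → M.Cfg → M.Cfg → Prop
  | [], c, c' => c = c'
  | j :: l, c, c' => ∃ c₁, M.Step j c c₁ ∧ Run l c₁ c'

/-- the printed word, in the order of printing -/
def outs (l : List M.J) : List A := l.filterMap M.out

variable {M}

theorem Step.det {j : M.J} {c c₁ c₂ : M.Cfg} (h₁ : M.Step j c c₁) (h₂ : M.Step j c c₂) :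
    c₁ = c₂ := by
  obtain ⟨_, t₁, u₁, p₁, q₁⟩ := h₁
  obtain ⟨_, t₂, u₂, p₂, q₂⟩ := h₂
  refine Prod.ext (t₁.trans t₂.symm) (funext fun k => ?_)
  rw [q₁, q₂, List.append_cancel_left ((p₁ k).symm.trans (p₂ k))]

theorem Step.codet {j : M.J} {c c₁ c₂ : M.Cfg} (h₁ : M.Step j c₁ c) (h₂ : M.Step j c₂ c) :
    c₁ = c₂ := by
  obtain ⟨t₁, _, u₁, p₁, q₁⟩ := h₁
  obtain ⟨t₂, _, u₂, p₂, q₂⟩ := h₂
  refine Prod.ext (t₁.trans t₂.symm) (funext fun k => ?_)
  rw [p₁, p₂, List.append_cancel_left ((q₁ k).symm.trans (q₂ k))]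

@[simp] theorem run_nil {c c' : M.Cfg} : M.Run [] c c' ↔ c = c' := Iff.rfl

@[simp] theorem run_cons {j : M.J} {l : List M.J} {c c' : M.Cfg} :
    M.Run (j :: l) c c' ↔ ∃ c₁, M.Step j c c₁ ∧ M.Run l c₁ c' := Iff.rfl

theorem run_append {l l' : List M.J} {c c' : M.Cfg} :
    M.Run (l ++ l') c c' ↔ ∃ c₁, M.Run l c c₁ ∧ M.Run l' c₁ c' := by
  induction l generalizing c with
  | nil => simp
  | cons j l ih =>
    simp only [List.cons_append, run_cons, ih]
    constructor
    · rintro ⟨c₁, h, c₂, h₂, h₃⟩; exact ⟨c₂, ⟨c₁, h, h₂⟩, h₃⟩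
    · rintro ⟨c₂, ⟨c₁, h, h₂⟩, h₃⟩; exact ⟨c₁, h, c₂, h₂, h₃⟩

theorem run_singleton {j : M.J} {c c' : M.Cfg} : M.Run [j] c c' ↔ M.Step j c c' := by simp

theorem run_concat {l : List M.J} {j : M.J} {c c' : M.Cfg} :
    M.Run (l ++ [j]) c c' ↔ ∃ c₁, M.Run l c c₁ ∧ M.Step j c₁ c' := by
  simp [run_append]

theorem Run.det {l : List M.J} {c c₁ c₂ : M.Cfg} (h₁ : M.Run l c c₁) (h₂ : M.Run l c c₂) :
    c₁ = c₂ := by
  induction l generalizing c with
  | nil => exact h₁.symm.trans h₂
  | cons j l ih =>
    obtain ⟨d₁, s₁, r₁⟩ := h₁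
    obtain ⟨d₂, s₂, r₂⟩ := h₂
    obtain rfl := s₁.det s₂
    exact ih r₁ r₂

theorem Run.codet {l : List M.J} {c c₁ c₂ : M.Cfg} (h₁ : M.Run l c₁ c) (h₂ : M.Run l c₂ c) :
    c₁ = c₂ := by
  induction l generalizing c₁ c₂ with
  | nil => exact h₁.trans h₂.symm
  | cons j l ih =>
    obtain ⟨d₁, s₁, r₁⟩ := h₁
    obtain ⟨d₂, s₂, r₂⟩ := h₂
    obtain rfl := ih r₁ r₂
    exact s₁.codet s₂

@[simp] theorem outs_nil : M.outs [] = [] := rfl

@[simp] theorem outs_append (l l' : List M.J) : M.outs (l ++ l') = M.outs l ++ M.outs l' := by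
  simp [outs]

theorem outs_cons_none {j : M.J} (h : M.out j = none) (l : List M.J) :
    M.outs (j :: l) = M.outs l := by simp [outs, h]

theorem outs_cons_some {j : M.J} {a : A} (h : M.out j = some a) (l : List M.J) :
    M.outs (j :: l) = a :: M.outs l := by simp [outs, h]

theorem length_outs_le (l : List M.J) : (M.outs l).length ≤ l.length :=
  List.length_filterMap_le _ _

end PfM

/-! ## The machine attached to a code -/

namespace TMs

open PartrecToTM2 TM2

/-- statements of the TM2 program -/
abbrev St := TM2.Stmt (fun _ : K' => Γ') Λ' (Option Γ')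

instance : Finite K' := by
  refine Finite.of_injective (fun k : K' => match k with
    | .main => (0 : Fin 4) | .rev => 1 | .aux => 2 | .stack => 3) ?_
  intro a b h; cases a <;> cases b <;> simp_all

variable (c : ToPartrec.Code)

/-- the finite set of labels -/
noncomputable abbrev SS : Finset Λ' := codeSupp c Cont'.halt

/-- the finite set of statements -/
def SQ := {q : St // some q ∈ TM2.stmts tr (SS c)}

instance : Finite (SQ c) := by
  refine Finite.of_injective
    (fun q : SQ c => (⟨some q.1, q.2⟩ : {x // x ∈ TM2.stmts tr (SS c)})) ?_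
  intro a b h
  exact Subtype.ext (Option.some.inj (congrArg Subtype.val h))

theorem supp : @TM2.Supports _ _ _ _ ⟨trNormal c Cont'.halt⟩ tr (SS c) := tr_supports c _

theorem tr_mem {l : Λ'} (h : l ∈ SS c) : some (tr l) ∈ TM2.stmts tr (SS c) := by
  have key : ∀ (M : Λ' → St) (S : Finset Λ'), l ∈ S → some (M l) ∈ TM2.stmts M S := by
    intro M S h
    simp only [TM2.stmts, Finset.mem_insertNone, Finset.mem_biUnion, Option.mem_def,
      Option.some.injEq, forall_eq']
    exact ⟨l, h, TM2.stmts₁_self⟩
  exact key tr _ h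

theorem sub_mem {q q' : St} (h : q' ∈ TM2.stmts₁ q) (hq : some q ∈ TM2.stmts tr (SS c)) :
    some q' ∈ TM2.stmts tr (SS c) := TM2.stmts_trans h hq

theorem goto_mem {f : Option Γ' → Λ'} (hq : some (Stmt.goto f : St) ∈ TM2.stmts tr (SS c))
    (v : Option Γ') : f v ∈ SS c :=
  (@TM2.stmts_supportsStmt _ _ _ _ ⟨trNormal c Cont'.halt⟩ tr (SS c) _ (supp c) hq) v

/-- the next statement and variable (`none`: halt), given the top symbol read -/
def nxt : St → Option Γ' → Option Γ' → Option (St × Option Γ')
  | .push _ _ q, v, _ => some (q, v)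
  | .peek _ f q, v, t => some (q, f v t)
  | .pop _ f q, v, t => some (q, f v t)
  | .load a q, v, _ => some (q, a v)
  | .branch f q₁ q₂, v, _ => some (cond (f v) q₁ q₂, v)
  | .goto f, v, _ => some (tr (f v), v)
  | .halt, _, _ => none

theorem nxt_mem {q q' : St} {v t v' : Option Γ'} (hq : some q ∈ TM2.stmts tr (SS c))
    (h : nxt q v t = some (q', v')) : some q' ∈ TM2.stmts tr (SS c) := by
  classical
  cases q with
  | halt => simp [nxt] at h
  | goto f =>
    simp only [nxt, Option.some.injEq, Prod.mk.injEq] at h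
    rw [← h.1]; exact tr_mem c (goto_mem c hq v)
  | branch f q₁ q₂ =>
    simp only [nxt, Option.some.injEq, Prod.mk.injEq] at h
    rw [← h.1]
    refine sub_mem c ?_ hq
    cases f v
    · exact Finset.mem_insert_of_mem (Finset.mem_union_right _ TM2.stmts₁_self)
    · exact Finset.mem_insert_of_mem (Finset.mem_union_left _ TM2.stmts₁_self)
  | push k f q | peek k f q | pop k f q | load f q =>
    simp only [nxt, Option.some.injEq, Prod.mk.injEq] at h
    rw [← h.1]
    exact sub_mem c (Finset.mem_insert_of_mem TM2.stmts₁_self) hq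

/-- prefix read -/
def mpre : St → Option Γ' → K' → List (Option Γ')
  | .peek k _ _, t, k' => if k' = k then [t] else []
  | .pop k _ _, t, k' => if k' = k then [t] else []
  | _, _, _ => []

/-- prefix written -/
def mpost : St → Option Γ' → Option Γ' → K' → List (Option Γ')
  | .push k f _, v, _, k' => if k' = k then [some (f v)] else []
  | .peek k _ _, _, t, k' => if k' = k then [t] else []
  | .pop k _ _, _, t, k' => if k' = k then (if t = none then [none] else []) else []
  | _, _, _, _ => []

/-- stacks with bottom markers -/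
def rep (S : K' → List Γ') : K' → List (Option Γ') := fun k => (S k).map some ++ [none]

/-- control states: `inl j` are the guessing states, `inr none` is the accepting state -/
abbrev CQ (N : ℕ) := Fin (N + 1) ⊕ Option (SQ c × Option Γ')

/-- the target state of a micro step -/
def mtgt (q : SQ c) (v t : Option Γ') : Option (SQ c × Option Γ') :=
  match h : nxt q.1 v t with
  | none => none
  | some (q', v') => some (⟨q', nxt_mem c q.2 h⟩, v')

theorem mtgt_none {q : SQ c} {v t : Option Γ'} (h : nxt q.1 v t = none) :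
    mtgt c q v t = none := by
  unfold mtgt; split
  · rfl
  · rename_i h'; rw [h] at h'; cases h'

theorem mtgt_some {q : SQ c} {v t v' : Option Γ'} {q' : St} (h : nxt q.1 v t = some (q', v')) :
    mtgt c q v t = some (⟨q', nxt_mem c q.2 h⟩, v') := by
  unfold mtgt; split
  · rename_i h'; rw [h] at h'; cases h'
  · rename_i h'; rw [h] at h'; cases h'; rfl

/-- the block pushed for the number `j` -/
def blk (j : ℕ) : List Γ' := Γ'.bit0 :: List.replicate j Γ'.bit1

/-- first statement -/
def q0 : SQ c := ⟨tr (trNormal c Cont'.halt), tr_mem c (supp c).1⟩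

/-- the statement reads a stack -/
def reads : St → Prop
  | .peek _ _ _ => True
  | .pop _ _ _ => True
  | _ => False

/-- the micro rules -/
def MJ' := {x : SQ c × Option Γ' × Option Γ' // reads x.1.1 ∨ x.2.2 = none}

instance : Finite (MJ' c) := by unfold MJ'; infer_instance

/-- the machine: guess and print letters, then run the TM2 program statement by statement -/
noncomputable def mach {A : Type} [Finite A] {N : ℕ} (idx : A → Fin (N + 1)) : PfM A where
  Q := CQ c N
  K := K'
  G := Option Γ'
  J := (A ⊕ Fin N) ⊕ Option (MJ' c)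
  src := fun j => match j with
    | .inl (.inl a) => .inl (idx a)
    | .inl (.inr i) => .inl i.castSucc
    | .inr none => .inl 0
    | .inr (some x) => .inr (some (x.1.1, x.1.2.1))
  tgt := fun j => match j with
    | .inl (.inl _) => .inl 0
    | .inl (.inr i) => .inl i.succ
    | .inr none => .inr (some (q0 c, none))
    | .inr (some x) => .inr (mtgt c x.1.1 x.1.2.1 x.1.2.2)
  pre := fun j => match j with
    | .inl _ => fun _ => []
    | .inr none => fun _ => []
    | .inr (some x) => mpre x.1.1.1 x.1.2.2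
  post := fun j => match j with
    | .inl (.inl _) => fun k => if k = K'.main then [some Γ'.bit0] else []
    | .inl (.inr _) => fun k => if k = K'.main then [some Γ'.bit1] else []
    | .inr none => fun _ => []
    | .inr (some x) => mpost x.1.1.1 x.1.2.1 x.1.2.2
  out := fun j => match j with
    | .inl (.inl a) => some a
    | .inl (.inr _) => none
    | .inr _ => none

/-- the TM2 run from the statement `q` halts -/
def Good (q : St) (v : Option Γ') (S : K' → List Γ') : Prop :=
  (StateTransition.eval (TM2.step tr) (TM2.stepAux q v S)).Dom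

/-- the stacks after a micro step -/
def mstk : St → Option Γ' → (K' → List Γ') → K' → List Γ'
  | .push k f _, v, S => update S k (f v :: S k)
  | .pop k _ _, _, S => update S k (S k).tail
  | _, _, S => S

/-- the symbol read by a micro step -/
def mtop : St → (K' → List Γ') → Option Γ'
  | .peek k _ _, S => (S k).head?
  | .pop k _ _, S => (S k).head?
  | _, _ => none

theorem rep_head (l : List Γ') :
    ∃ u, l.map some ++ [none] = l.head? :: u ∧
      l.tail.map some ++ [none] = (if l.head? = none then [none] else []) ++ u := by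
  cases l with
  | nil => exact ⟨[], rfl, rfl⟩
  | cons a l => exact ⟨l.map some ++ [none], rfl, by simp⟩

/-- the canonical micro step -/
theorem micro_ok (q : St) (v : Option Γ') (S : K' → List Γ') :
    ∃ u : K' → List (Option Γ'), (∀ k, rep S k = mpre q (mtop q S) k ++ u k) ∧
      ∀ k, rep (mstk q v S) k = mpost q v (mtop q S) k ++ u k := by
  cases q with
  | push k f q =>
    refine ⟨rep S, fun _ => rfl, fun k' => ?_⟩
    by_cases h : k' = k
    · subst h; simp [rep, mstk, mpost]
    · simp [rep, mstk, mpost, h]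
  | peek k f q =>
    obtain ⟨u, h₁, -⟩ := rep_head (S k)
    refine ⟨update (rep S) k u, fun k' => ?_, fun k' => ?_⟩ <;>
    · by_cases h : k' = k
      · subst h; simpa [rep, mstk, mpost, mpre, mtop] using h₁
      · simp [mstk, mpost, mpre, h]
  | pop k f q =>
    obtain ⟨u, h₁, h₂⟩ := rep_head (S k)
    refine ⟨update (rep S) k u, fun k' => ?_, fun k' => ?_⟩
    · by_cases h : k' = k
      · subst h; simpa [rep, mpre, mtop] using h₁
      · simp [mpre, h]
    · by_cases h : k' = k
      · subst h
        simp only [rep, mstk, update_self, mpost, mtop, if_true]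
        exact h₂
      · simp [rep, mstk, mpost, h]
  | load a q => exact ⟨rep S, fun _ => rfl, fun _ => rfl⟩
  | branch f q₁ q₂ => exact ⟨rep S, fun _ => rfl, fun _ => rfl⟩
  | goto f => exact ⟨rep S, fun _ => rfl, fun _ => rfl⟩
  | halt => exact ⟨rep S, fun _ => rfl, fun _ => rfl⟩

/-- a micro step that applies reads the right symbol -/
theorem micro_unique {q : St} {v t : Option Γ'} {S : K' → List Γ'} {u : K' → List (Option Γ')}
    (h : ∀ k, rep S k = mpre q t k ++ u k) :
    nxt q v t = nxt q v (mtop q S) ∧ mpre q t = mpre q (mtop q S) ∧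
      mpost q v t = mpost q v (mtop q S) := by
  cases q with
  | peek k f q =>
    obtain ⟨u', h₁, -⟩ := rep_head (S k)
    have := h k
    simp only [rep, mpre, if_true, h₁, List.singleton_append, List.cons.injEq] at this
    rw [← this.1]; exact ⟨rfl, rfl, rfl⟩
  | pop k f q =>
    obtain ⟨u', h₁, -⟩ := rep_head (S k)
    have := h k
    simp only [rep, mpre, if_true, h₁, List.singleton_append, List.cons.injEq] at this
    rw [← this.1]; exact ⟨rfl, rfl, rfl⟩
  | push k f q => exact ⟨rfl, rfl, rfl⟩
  | load a q => exact ⟨rfl, rfl, rfl⟩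
  | branch f q₁ q₂ => exact ⟨rfl, rfl, rfl⟩
  | goto f => exact ⟨rfl, rfl, rfl⟩
  | halt => exact ⟨rfl, rfl, rfl⟩

theorem good_halt (v : Option Γ') (S : K' → List Γ') : Good .halt v S :=
  (StateTransition.mem_eval.2 ⟨ReflTransGen.refl, rfl⟩ :
    TM2.stepAux (.halt : St) v S ∈ _).1

theorem good_nxt {q q' : St} {v v' : Option Γ'} {S : K' → List Γ'}
    (h : nxt q v (mtop q S) = some (q', v')) : Good q v S ↔ Good q' v' (mstk q v S) := by
  cases q with
  | halt => simp [nxt] at h
  | goto f =>
    simp only [nxt, Option.some.injEq, Prod.mk.injEq] at h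
    obtain ⟨rfl, rfl⟩ := h
    unfold Good
    rw [StateTransition.reaches_eval (f := TM2.step tr) (a := TM2.stepAux (.goto f : St) v S)
      (b := TM2.stepAux (tr (f v)) v S) (ReflTransGen.single rfl)]
    rfl
  | branch f q₁ q₂ =>
    simp only [nxt, Option.some.injEq, Prod.mk.injEq] at h
    obtain ⟨rfl, rfl⟩ := h
    unfold Good
    cases hf : f v <;> simp [hf, mstk]
  | push k f q | peek k f q | pop k f q | load f q =>
    simp only [nxt, Option.some.injEq, Prod.mk.injEq] at h
    obtain ⟨rfl, rfl⟩ := h
    exact Iff.rfl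

theorem nxt_none {q : St} {v t : Option Γ'} (h : nxt q v t = none) : q = .halt := by
  cases q <;> simp_all [nxt]

theorem mtop_ok (q : St) (S : K' → List Γ') : reads q ∨ mtop q S = none := by
  cases q <;> simp [reads, mtop]

theorem mpre_le (q : St) (t : Option Γ') (k : K') : (mpre q t k).length ≤ 1 := by
  cases q <;> simp only [mpre] <;> first | (split_ifs <;> simp) | simp

theorem mpost_le (q : St) (v t : Option Γ') (k : K') : (mpost q v t k).length ≤ 1 := by
  cases q <;> simp only [mpost] <;> first | (split_ifs <;> simp) | simp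

theorem mpre_inj {q : St} {t t' : Option Γ'} (h : reads q) (e : mpre q t = mpre q t') :
    t = t' := by
  cases q with
  | peek k f q => simpa [mpre] using congrFun e k
  | pop k f q => simpa [mpre] using congrFun e k
  | _ => cases h

variable {A : Type} [Finite A] {N : ℕ} (idx : A → Fin (N + 1))

/-- the micro rule that applies -/
def mrule (q : SQ c) (v : Option Γ') (S : K' → List Γ') : (mach c idx).J :=
  .inr (some ⟨(q, v, mtop q.1 S), mtop_ok _ _⟩)

theorem step_micro (q : SQ c) (v : Option Γ') (S : K' → List Γ') :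
    (mach c idx).Step (mrule c idx q v S) (.inr (some (q, v)), rep S)
      (.inr (mtgt c q v (mtop q.1 S)), rep (mstk q.1 v S)) :=
  ⟨rfl, rfl, micro_ok q.1 v S⟩

/-- soundness of the silent part -/
theorem sound_micro {l : List (mach c idx).J} {q : SQ c} {v : Option Γ'} {S : K' → List Γ'}
    {T : K' → List (Option Γ')}
    (h : (mach c idx).Run l (.inr (some (q, v)), rep S) (.inr none, T)) :
    Good q.1 v S ∧ (mach c idx).outs l = [] := by
  induction l generalizing q v S with
  | nil => cases congrArg Prod.fst h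
  | cons j l ih =>
    obtain ⟨c₁, hs, hr⟩ := h
    rcases j with (a | i) | _ | ⟨⟨q', v', t⟩, ht⟩
    · cases hs.1
    · cases hs.1
    · cases hs.1
    obtain ⟨h₁, h₂, u, h₃, h₄⟩ := hs
    obtain ⟨hq', hv'⟩ := Prod.mk.inj (Option.some.inj (Sum.inr.inj h₁))
    change q = q' at hq'
    change v = v' at hv'
    subst q' v'
    obtain ⟨e₁, e₂, e₃⟩ := micro_unique (v := v) h₃
    have hs' : (mach c idx).Step (mrule c idx q v S) (.inr (some (q, v)), rep S)
        (.inr (mtgt c q v (mtop q.1 S)), c₁.2) := by
      refine ⟨rfl, rfl, u, fun k => ?_, fun k => ?_⟩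
      · exact (h₃ k).trans (congrArg (fun f => f k ++ u k) e₂)
      · exact (h₄ k).trans (congrArg (fun f => f k ++ u k) e₃)
    have e₄ : c₁.2 = rep (mstk q.1 v S) := congrArg Prod.snd (hs'.det (step_micro c idx q v S))
    have ho : (mach c idx).outs (Sum.inr (some ⟨(q, v, t), ht⟩) :: l) = (mach c idx).outs l :=
      PfM.outs_cons_none rfl l
    rw [ho]
    rcases hn : nxt q.1 v t with _ | ⟨q₁, v₁⟩
    · have hq := nxt_none hn
      have hc : c₁.1 = .inr none := h₂.trans (congrArg Sum.inr (mtgt_none c hn))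
      refine ⟨hq ▸ good_halt v S, ?_⟩
      cases l with
      | nil => rfl
      | cons j' l' =>
        obtain ⟨c₂, hs₂, -⟩ := hr
        have := hc.symm.trans hs₂.1
        rcases j' with (a | i) | _ | x <;> cases this
    · have hc : c₁ = (.inr (some (⟨q₁, nxt_mem c q.2 hn⟩, v₁)), rep (mstk q.1 v S)) :=
        Prod.ext (h₂.trans (congrArg Sum.inr (mtgt_some c hn))) e₄
      rw [hc] at hr
      obtain ⟨g, o⟩ := ih hr
      exact ⟨(good_nxt (e₁ ▸ hn)).2 g, o⟩

/-- one TM2 step is a silent run -/
theorem run_stmt (q : St) (hq : some q ∈ TM2.stmts tr (SS c)) (v : Option Γ')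
    (S : K' → List Γ') :
    ∃ l : List (mach c idx).J, (mach c idx).outs l = [] ∧
      match (TM2.stepAux q v S).l with
      | none => ∃ T, (mach c idx).Run l (.inr (some (⟨q, hq⟩, v)), rep S) (.inr none, T)
      | some l' => ∃ h : l' ∈ SS c, (mach c idx).Run l (.inr (some (⟨q, hq⟩, v)), rep S)
          (.inr (some (⟨tr l', tr_mem c h⟩, (TM2.stepAux q v S).var)),
            rep (TM2.stepAux q v S).stk) := by
  have key : ∀ (q : St) (hq : some q ∈ TM2.stmts tr (SS c)) (v : Option Γ') (S : K' → List Γ')
      (q' : St) (v' : Option Γ') (h : nxt q v (mtop q S) = some (q', v'))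
      (he : TM2.stepAux q v S = TM2.stepAux q' v' (mstk q v S)),
      (∃ l : List (mach c idx).J, (mach c idx).outs l = [] ∧
        match (TM2.stepAux q' v' (mstk q v S)).l with
        | none => ∃ T, (mach c idx).Run l
            (.inr (some (⟨q', nxt_mem c hq h⟩, v')), rep (mstk q v S)) (.inr none, T)
        | some l' => ∃ h' : l' ∈ SS c, (mach c idx).Run l
            (.inr (some (⟨q', nxt_mem c hq h⟩, v')), rep (mstk q v S))
            (.inr (some (⟨tr l', tr_mem c h'⟩, (TM2.stepAux q' v' (mstk q v S)).var)),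
              rep (TM2.stepAux q' v' (mstk q v S)).stk)) →
      ∃ l : List (mach c idx).J, (mach c idx).outs l = [] ∧
        match (TM2.stepAux q v S).l with
        | none => ∃ T, (mach c idx).Run l (.inr (some (⟨q, hq⟩, v)), rep S) (.inr none, T)
        | some l' => ∃ h : l' ∈ SS c, (mach c idx).Run l (.inr (some (⟨q, hq⟩, v)), rep S)
            (.inr (some (⟨tr l', tr_mem c h⟩, (TM2.stepAux q v S).var)),
              rep (TM2.stepAux q v S).stk) := by
    intro q hq v S q' v' h he ⟨l, ho, hl⟩
    have hs := step_micro c idx ⟨q, hq⟩ v S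
    rw [mtgt_some c (q := ⟨q, hq⟩) h] at hs
    refine ⟨mrule c idx ⟨q, hq⟩ v S :: l, (PfM.outs_cons_none rfl l).trans ho, ?_⟩
    rw [he]
    split
    · rename_i e; rw [e] at hl; obtain ⟨T, hT⟩ := hl; exact ⟨T, _, hs, hT⟩
    · rename_i l' e; rw [e] at hl; obtain ⟨h', hT⟩ := hl; exact ⟨h', _, hs, hT⟩
  induction q generalizing v S with
  | push k f q ih => exact key _ hq v S q v rfl rfl (ih _ _ _)
  | peek k f q ih => exact key _ hq v S q _ rfl rfl (ih _ _ _)
  | pop k f q ih => exact key _ hq v S q _ rfl rfl (ih _ _ _)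
  | load a q ih => exact key _ hq v S q _ rfl rfl (ih _ _ _)
  | branch f q₁ q₂ ih₁ ih₂ =>
    refine key _ hq v S (cond (f v) q₁ q₂) v rfl (by cases hf : f v <;> simp [hf, mstk]) ?_
    generalize_proofs hp
    revert hp
    cases f v
    · exact fun hp => ih₂ hp _ _
    · exact fun hp => ih₁ hp _ _
  | goto f =>
    refine ⟨[mrule c idx ⟨_, hq⟩ v S], rfl, goto_mem c hq v, ?_⟩
    have hs := step_micro c idx ⟨_, hq⟩ v S
    rw [mtgt_some c (q := ⟨_, hq⟩) (q' := tr (f v)) (v' := v) rfl] at hs
    exact ⟨_, hs, rfl⟩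
  | halt =>
    refine ⟨[mrule c idx ⟨_, hq⟩ v S], rfl, rep S, ?_⟩
    have hs := step_micro c idx ⟨_, hq⟩ v S
    rw [mtgt_none c (q := ⟨_, hq⟩) rfl] at hs
    exact ⟨_, hs, rfl⟩

/-- completeness of the silent part -/
theorem complete_micro {a b : TM2.Cfg (fun _ : K' => Γ') Λ' (Option Γ')}
    (h : StateTransition.Reaches (TM2.step tr) a b) (hb : TM2.step tr b = none)
    {l₀ : Λ'} (hl : a.l = some l₀) (hm : l₀ ∈ SS c) :
    ∃ l : List (mach c idx).J, (mach c idx).outs l = [] ∧
      ∃ T, (mach c idx).Run l (.inr (some (⟨tr l₀, tr_mem c hm⟩, a.var)), rep a.stk)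
        (.inr none, T) := by
  induction h using ReflTransGen.head_induction_on generalizing l₀ with
  | refl =>
    obtain ⟨_ | l, v, S⟩ := b
    · cases hl
    · cases hb
  | head hs _ ih =>
    rename_i a a' _
    obtain ⟨_ | l, v, S⟩ := a
    · cases hl
    cases hl
    obtain rfl : TM2.stepAux (tr l₀) v S = a' := Option.some.inj hs
    obtain ⟨l, ho, hr⟩ := run_stmt c idx (tr l₀) (tr_mem c hm) v S
    rcases e : (TM2.stepAux (tr l₀) v S).l with _ | l'
    · rw [e] at hr; exact ⟨l, ho, hr⟩
    · rw [e] at hr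
      obtain ⟨h', hr⟩ := hr
      obtain ⟨l₂, ho₂, T, hT⟩ := ih e h'
      exact ⟨l ++ l₂, by simp [ho, ho₂], T, PfM.run_append.2 ⟨_, hr, hT⟩⟩

/-- the TM2 stacks holding the one-element list `[n]` -/
def inp (n : PosNum) : K' → List Γ' := K'.elim (trPosNum n ++ [Γ'.cons]) [] [] []

theorem trNat_pos (n : PosNum) : trNat (n : ℕ) = trPosNum n := by
  have : ((n : ℕ) : Num) = Num.pos n := PosNum.of_to_nat n
  rw [trNat, this]; rfl

theorem good_iff (n : PosNum) :
    Good (q0 c).1 none (inp n) ↔ (c.eval [(n : ℕ)]).Dom := by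
  have h := tr_eval c [(n : ℕ)]
  have e : TM2.step tr (PartrecToTM2.init c [(n : ℕ)]) =
      some (TM2.stepAux (q0 c).1 none (inp n)) := by
    simp [PartrecToTM2.init, q0, inp, trNat_pos]
  have h' := (StateTransition.reaches_eval (f := TM2.step tr) (ReflTransGen.single e)).symm.trans h
  unfold Good
  exact (congrArg Part.Dom h').to_iff

/-- the silent part accepts exactly the domain -/
theorem silent_iff (n : PosNum) :
    (∃ l T, (mach c idx).Run l (.inr (some (q0 c, none)), rep (inp n)) (.inr none, T)) ↔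
      (c.eval [(n : ℕ)]).Dom := by
  constructor
  · rintro ⟨l, T, h⟩
    exact (good_iff c n).1 (sound_micro c idx h).1
  · intro h
    have g := (good_iff c n).2 h
    obtain ⟨b, hb⟩ := Part.dom_iff_mem.1 g
    obtain ⟨h₁, h₂⟩ := StateTransition.mem_eval.1 hb
    have e : TM2.step tr ⟨some (trNormal c Cont'.halt), none, inp n⟩ =
        some (TM2.stepAux (q0 c).1 none (inp n)) := rfl
    obtain ⟨l, -, T, hT⟩ := complete_micro c idx (ReflTransGen.head e h₁) h₂ rfl (supp c).1
    exact ⟨l, T, hT⟩

/-- append the block of `j` -/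
def pushU (j : ℕ) (p : PosNum) : PosNum := PosNum.bit0 (PosNum.bit1^[j] p)

theorem trPosNum_pushU (j : ℕ) (p : PosNum) : trPosNum (pushU j p) = blk j ++ trPosNum p := by
  simp only [pushU, trPosNum, blk, List.cons_append, List.cons.injEq, true_and]
  induction j with
  | zero => rfl
  | succ j ih => rw [Function.iterate_succ_apply', List.replicate_succ, trPosNum, ih]; rfl

/-- the number on the main stack after printing `w` -/
def encP {A : Type} (idx : A → ℕ) (p : PosNum) (w : List A) : PosNum :=
  w.foldl (fun p a => pushU (idx a) p) p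

theorem step_acc (a : A) (p : PosNum) :
    (mach c idx).Step (.inl (.inl a)) (.inl (idx a), rep (inp p))
      (.inl 0, rep (inp (PosNum.bit0 p))) := by
  refine ⟨rfl, rfl, rep (inp p), fun _ => rfl, fun k => ?_⟩
  cases k <;> rfl

theorem step_adv (i : Fin N) (p : PosNum) :
    (mach c idx).Step (.inl (.inr i)) (.inl i.castSucc, rep (inp p))
      (.inl i.succ, rep (inp (PosNum.bit1 p))) := by
  refine ⟨rfl, rfl, rep (inp p), fun _ => rfl, fun k => ?_⟩
  cases k <;> rfl

theorem step_go (S : K' → List (Option Γ')) :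
    (mach c idx).Step (.inr none) (.inl 0, S) (.inr (some (q0 c, none)), S) :=
  ⟨rfl, rfl, S, fun _ => rfl, fun _ => rfl⟩

theorem run_adv (p : PosNum) (j : ℕ) (hj : j < N + 1) :
    ∃ l, (mach c idx).outs l = [] ∧ (mach c idx).Run l (.inl 0, rep (inp p))
      (.inl ⟨j, hj⟩, rep (inp (PosNum.bit1^[j] p))) := by
  induction j with
  | zero => exact ⟨[], rfl, rfl⟩
  | succ j ih =>
    obtain ⟨l, ho, hr⟩ := ih (by omega)
    refine ⟨l ++ [.inl (.inr ⟨j, by omega⟩)], by rw [PfM.outs_append, ho]; rfl,
      PfM.run_concat.2 ⟨_, hr, ?_⟩⟩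
    rw [Function.iterate_succ_apply']
    exact step_adv c idx ⟨j, by omega⟩ _

/-- the machine accepts `w` iff the code halts on the number coding `w` -/
theorem accept_iff (p : PosNum) (w : List A) :
    (∃ l T, (mach c idx).Run l (.inl 0, rep (inp p)) (.inr none, T) ∧ (mach c idx).outs l = w) ↔
      (c.eval [(encP (fun a => (idx a : ℕ)) p w : ℕ)]).Dom := by
  constructor
  · rintro ⟨l, T, h, rfl⟩
    suffices H : ∀ (j : Fin (N + 1)) (p : PosNum),
        (mach c idx).Run l (.inl j, rep (inp (PosNum.bit1^[j] p))) (.inr none, T) →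
        (c.eval [(encP (fun a => (idx a : ℕ)) p ((mach c idx).outs l) : ℕ)]).Dom from H 0 p h
    clear h
    induction l with
    | nil => exact fun j p h => by cases congrArg Prod.fst h
    | cons r l ih =>
      rintro j p ⟨c₁, hs, hr⟩
      rcases r with (a | i) | _ | x
      · obtain rfl : j = idx a := Sum.inl.inj hs.1
        obtain rfl := hs.det (step_acc c idx a _)
        rw [PfM.outs_cons_some rfl]
        exact ih 0 (pushU (idx a) p) hr
      · obtain rfl : j = i.castSucc := Sum.inl.inj hs.1
        obtain rfl := hs.det (step_adv c idx i _)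
        rw [PfM.outs_cons_none rfl]
        refine ih i.succ p ?_
        rw [Fin.val_succ, Function.iterate_succ_apply']
        exact hr
      · obtain rfl : j = 0 := Sum.inl.inj hs.1
        obtain rfl := hs.det (step_go c idx _)
        rw [PfM.outs_cons_none rfl, (sound_micro c idx hr).2]
        exact (silent_iff c idx p).1 ⟨l, T, hr⟩
      · cases hs.1
  · intro h
    induction w generalizing p with
    | nil =>
      obtain ⟨l, T, hr⟩ := (silent_iff c idx p).2 h
      exact ⟨.inr none :: l, T, ⟨_, step_go c idx _, hr⟩,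
        (PfM.outs_cons_none rfl l).trans (sound_micro c idx hr).2⟩
    | cons a w ih =>
      obtain ⟨l, T, hr, ho⟩ := ih (pushU (idx a) p) h
      obtain ⟨l₀, ho₀, hr₀⟩ := run_adv c idx p (idx a) (idx a).2
      refine ⟨l₀ ++ .inl (.inl a) :: l, T, PfM.run_append.2 ⟨_, hr₀, _, step_acc c idx a _, hr⟩, ?_⟩
      rw [PfM.outs_append, ho₀, PfM.outs_cons_some rfl, ho]; rfl

/-- colours of the rules -/
def col : (mach c idx).J → Fin 4
  | .inl (.inl _) => 0
  | .inl (.inr _) => 1
  | .inr _ => 2

theorem pre_le (j : (mach c idx).J) (k : K') : ((mach c idx).pre j k).length ≤ 1 := by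
  rcases j with (a | i) | _ | x
  · exact Nat.zero_le _
  · exact Nat.zero_le _
  · exact Nat.zero_le _
  · exact mpre_le _ _ _

theorem post_le (j : (mach c idx).J) (k : K') : ((mach c idx).post j k).length ≤ 1 := by
  rcases j with (a | i) | _ | x
  · cases k <;> first | exact le_rfl | exact Nat.zero_le _
  · cases k <;> first | exact le_rfl | exact Nat.zero_le _
  · exact Nat.zero_le _
  · exact mpost_le _ _ _ _

theorem col_inj (hi : Injective idx) (j j' : (mach c idx).J) (hc : col c idx j = col c idx j')
    (hs : (mach c idx).src j = (mach c idx).src j')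
    (hp : (mach c idx).pre j = (mach c idx).pre j') : j = j' := by
  rcases j with (a | i) | _ | ⟨⟨q, v, t⟩, h⟩ <;> rcases j' with (a' | i') | _ | ⟨⟨q', v', t'⟩, h'⟩
  · rw [hi (Sum.inl.inj hs)]
  · cases hc
  · cases hc
  · cases hc
  · cases hc
  · rw [Fin.castSucc_injective _ (Sum.inl.inj hs)]
  · cases hc
  · cases hc
  · cases hc
  · cases hc
  · rfl
  · cases hs
  · cases hc
  · cases hc
  · cases hs
  · obtain ⟨rfl, rfl⟩ := Prod.mk.inj (Option.some.inj (Sum.inr.inj hs))
    have : t = t' := by
      by_cases hr : reads q.1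
      · exact mpre_inj hr hp
      · exact (h.resolve_left hr).trans (h'.resolve_left hr).symm
    subst this; rfl

end TMs

end Crest.Agent.R185
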