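import Crest.Agent.R185.SwDefs

/-!
# Row 185, the swindle: acyclic carriers
-/

set_option autoImplicit false

namespace Crest.Agent.R185.Sw

/-- Acyclic carriers.  Induction on `n`; `H = 0` for `n = 0`; in the step put
`H' = lin fun l => if l.length = n + 1 then cons (v l) (F (bs l) - H (d (bs l))) else H (bs l)`
with `v l ∈ Φ {a | a ∈ l}` for `l ≠ []`.  `H' (d (bs l)) = H (d (bs l))` if `l.length ≤ n + 1`
(`eq_on`, `d_bs_mem`), `d (H (d l)) = F (d l)` (`eq_on`, `d_d`), `d_cons_of_cycle`. -/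
theorem carrier {A B : Type} (F : C A →ₗ[ℤ] C B) (hF : ∀ σ, d (F σ) = F (d σ))
    (h0 : F (bs []) = 0) (Φ : Set A → Set B) (hm : Monotone Φ) (hne : ∀ a, (Φ {a}).Nonempty)
    (hc : ∀ l, F (bs l) ∈ S (En (Φ {a | a ∈ l}))) (n : ℕ) :
    ∃ H : C A →ₗ[ℤ] C B, ∀ l : List A, l.length ≤ n →
      H (bs l) ∈ S (En (Φ {a | a ∈ l})) ∧ d (H (bs l)) + H (d (bs l)) = F (bs l) := by
  induction n with
  | zero =>
    refine ⟨0, fun l hl => ⟨Submodule.zero_mem _, ?_⟩⟩
    rw [List.eq_nil_of_length_eq_zero (Nat.le_zero.1 hl), h0]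
    simp
  | succ n ih =>
    obtain ⟨H, hH⟩ := ih
    have hv : ∀ l : List A, l.length = n + 1 → ∃ b, b ∈ Φ {a | a ∈ l} := by
      intro l hl
      cases l with
      | nil => simp at hl
      | cons a l =>
        obtain ⟨b, hb⟩ := hne a
        exact ⟨b, hm (Set.singleton_subset_iff.2 List.mem_cons_self) hb⟩
    choose v hv using hv
    let H' : C A →ₗ[ℤ] C B := lin fun l =>
      if h : l.length = n + 1 then cons (v l h) (F (bs l) - H (d (bs l))) else H (bs l)
    have h1 : ∀ l : List A, l.length ≤ n → H' (bs l) = H (bs l) := fun l hl => by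
      simp only [H', lin_bs]
      rw [dif_neg (by omega)]
    refine ⟨H', fun l hl => ?_⟩
    have h2 : H' (d (bs l)) = H (d (bs l)) :=
      eq_on H' H (fun m hm => h1 m (by have := hm.2; omega)) (d_bs_mem l)
    rw [h2]
    by_cases hl' : l.length = n + 1
    · have h3 : H' (bs l) = cons (v l hl') (F (bs l) - H (d (bs l))) := by
        simp only [H', lin_bs]
        rw [dif_pos hl']
      have h4 : H (d (bs l)) ∈ S (En (Φ {a | a ∈ l})) :=
        map_mem H _ (fun m hm' => en_mono (hm fun a ha => hm'.1.subset ha)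
          (hH m (by have := hm'.2; omega)).1) (d_bs_mem l)
      have h5 : d (H (d (bs l))) + H (d (d (bs l))) = F (d (bs l)) :=
        eq_on (d ∘ₗ H + H ∘ₗ d) F (fun m hm' => (hH m (by have := hm'.2; omega)).2) (d_bs_mem l)
      rw [d_d, map_zero, add_zero] at h5
      rw [h3]
      refine ⟨cons_mem_en (hv l hl') (Submodule.sub_mem _ (hc l) h4), ?_⟩
      rw [d_cons_of_cycle _ (by rw [map_sub, hF, h5, sub_self]), sub_add_cancel]
    · rw [h1 l (by omega)]
      exact hH l (by omega)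

variable {A B : Type} [Group A] [Group B]

/-- `carrier` with `n + 1`; `w = H z` (`map_mem`, `eq_on`, `mem_S_and`, `ty_of_en`) -/
theorem mem_U_of_carrier (F : C A →ₗ[ℤ] C B) (hF : ∀ σ, d (F σ) = F (d σ))
    (h0 : F (bs []) = 0) (Φ : Set A → Set B) (hm : Monotone Φ) (hne : ∀ a, (Φ {a}).Nonempty)
    (hc : ∀ l, F (bs l) ∈ S (En (Φ {a | a ∈ l})))
    (hb : ∀ T : Set A, T.Finite → ∃ T' : Set B, T'.Finite ∧ ∀ X : Set A,
      (∀ a ∈ X, ∀ b ∈ X, a⁻¹ * b ∈ T) → ∀ a ∈ Φ X, ∀ b ∈ Φ X, a⁻¹ * b ∈ T') (n : ℕ) :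
    F ∈ U A B n := by
  obtain ⟨H, hH⟩ := carrier F hF h0 Φ hm hne hc (n + 1)
  refine mem_U.2 fun T hT => ?_
  obtain ⟨T', hT', hb⟩ := hb T hT
  refine ⟨T', hT', fun z hz hl hd => ⟨H z, ?_, ?_⟩⟩
  · exact map_mem H _ (fun l hl => ty_of_en (hb _ hl.1) (hH l (le_of_eq hl.2)).1)
      (mem_S_and.2 ⟨hz, hl⟩)
  · have h1 : d (H z) + H (d z) = F z :=
      eq_on (d ∘ₗ H + H ∘ₗ d) F (fun l hl => (hH l (le_of_eq hl)).2) hl
    rw [← h1, hd, map_zero, add_zero]

/-- `w = cons 1 (push 1 z)`, entries in `{1}` -/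
theorem push_one_mem_U (n : ℕ) : push (fun _ : A => (1 : B)) ∈ U A B n := by
  refine mem_U.2 fun T _ => ⟨{1}, Set.finite_singleton _, fun z _ _ hd =>
    ⟨cons 1 (push (fun _ => 1) z), ?_, ?_⟩⟩
  · refine ty_of_en (X := {1}) (fun a ha b hb => ?_) (cons_mem_en (Set.mem_singleton _)
      (push_mem_en (X := Set.univ) (fun _ _ => Set.mem_singleton _)
        (S_mono (fun _ _ _ _ => trivial) (mem_S_true z))))
    rw [Set.mem_singleton_iff.1 ha, Set.mem_singleton_iff.1 hb]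
    simp
  · rw [d_cons_of_cycle _ (by rw [d_push, hd, map_zero])]

theorem comp_mem_U {n : ℕ} {F : C A →ₗ[ℤ] C B} (hF : F ∈ U A B n) (g : B) :
    push (g * ·) ∘ₗ F ∈ U A B n := by
  refine mem_U.2 fun T hT => ?_
  obtain ⟨T', hT', h⟩ := mem_U.1 hF T hT
  refine ⟨T', hT', fun z hz hl hd => ?_⟩
  obtain ⟨w, hw, e⟩ := h z hz hl hd
  exact ⟨push (g * ·) w, push_mul_mem_ty g hw, by rw [LinearMap.comp_apply, e, d_push]⟩

/-- `K = closure X`, `X` finite, `T' = X ∪ X⁻¹ ∪ {1}`.  For `k ∈ K` there is `p k ∈ S (Ty T')` with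
`d (p k) = bs [k] - bs [1]` (`Subgroup.closure_induction_right`, add `bs [k, k * s]`, `d_two`).
`h = lin fun l => match l with | [g] => p (f g) | _ => 0` has
`d (h z) = push f z - e (d z) • bs [1]` on `S (Len 1)`. -/
theorem push_mem_U_zero (f : A →* B) (K : Subgroup B) (hK : K.FG) (hf : f.range ≤ K) :
    push f ∈ U A B 0 := by
  obtain ⟨X, rfl⟩ := hK
  let T' : Set B := (X : Set B) ∪ (X : Set B)⁻¹ ∪ {1}
  have hT' : T'.Finite :=
    (X.finite_toSet.union X.finite_toSet.inv).union (Set.finite_singleton _)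
  have step : ∀ k s : B, s ∈ T' → s⁻¹ ∈ T' → (∃ p ∈ S (Ty T'), d p = bs [k] - bs [1]) →
      ∃ p ∈ S (Ty T'), d p = bs [k * s] - bs [1] := by
    rintro k s hs hs' ⟨p, hp, e⟩
    refine ⟨p + bs [k, k * s], Submodule.add_mem _ hp (bs_mem ?_), ?_⟩
    · intro a ha b hb
      have h1 : (1 : B) ∈ T' := Or.inr rfl
      simp only [List.mem_cons, List.not_mem_nil, or_false] at ha hb
      rcases ha with rfl | rfl <;> rcases hb with rfl | rfl <;> simpa [mul_assoc]
    · rw [map_add, e, d_two]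
      abel
  have hp : ∀ k ∈ Subgroup.closure (X : Set B), ∃ p ∈ S (Ty T'), d p = bs [k] - bs [1] := by
    intro k hk
    induction hk using Subgroup.closure_induction_right with
    | one => exact ⟨0, Submodule.zero_mem _, by simp⟩
    | mul_right x _ y hy ih =>
      exact step x y (Or.inl (Or.inl hy)) (Or.inl (Or.inr (by simpa using hy))) ih
    | mul_inv_cancel x _ y hy ih =>
      exact step x y⁻¹ (Or.inl (Or.inr (by simpa using hy)))
        (Or.inl (Or.inl (by simpa using hy))) ih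
  choose p hp1 hp2 using fun a : A => hp (f a) (hf ⟨a, rfl⟩)
  let h : C A →ₗ[ℤ] C B := lin fun l => match l with
    | [g] => p g
    | _ => 0
  refine mem_U.2 fun T _ => ⟨T', hT', fun z _ hl hd => ⟨h z, ?_, ?_⟩⟩
  · refine map_mem h _ (fun l hl => ?_) hl
    obtain ⟨g, rfl⟩ := List.length_eq_one_iff.1 hl
    simp only [h, lin_bs]
    exact hp1 g
  · have h1 : d (h z) = push f z - e (d z) • bs [1] := by
      refine eq_on (d ∘ₗ h) (push f - (e ∘ₗ d).smulRight (bs [1])) (fun l hl => ?_) hl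
      obtain ⟨g, rfl⟩ := List.length_eq_one_iff.1 hl
      simp [h, hp2]
    rw [h1, hd, map_zero, zero_smul, sub_zero]

end Crest.Agent.R185.Sw
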