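import Crest.Agent.R185.SwDefs

/-!
# Row 185, the swindle: Alexander–Whitney (`cup`) and the shuffle product (`sh`)
-/

set_option autoImplicit false

namespace Crest.Agent.R185.Sw

variable {A B D E : Type}

/-- `cupL l β = ∑ k < l.length, β (l.take (k + 1)) (l.drop k)` -/
noncomputable def cupL : List A → (C A →ₗ[ℤ] C A →ₗ[ℤ] C D) → C D
  | [], _ => 0
  | g :: l, β => β (bs [g]) (bs (g :: l)) + cupL l (β ∘ₗ cons g)

/-- a bilinear map composed with the Alexander–Whitney diagonal -/
noncomputable def cup (β : C A →ₗ[ℤ] C A →ₗ[ℤ] C D) : C A →ₗ[ℤ] C D := lin fun l => cupL l β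

@[simp] theorem cup_nil (β : C A →ₗ[ℤ] C A →ₗ[ℤ] C D) : cup β (bs []) = 0 := by
  simp [cup, cupL]

theorem cup_cons (β : C A →ₗ[ℤ] C A →ₗ[ℤ] C D) (g : A) (σ : C A) :
    cup β (cons g σ) = β (bs [g]) (cons g σ) + cup (β ∘ₗ cons g) σ :=
  lin_ext' (F := cup β ∘ₗ cons g) (G := β (bs [g]) ∘ₗ cons g + cup (β ∘ₗ cons g))
    (fun l => by simp [cup, cupL]) σ

/-- all lemmas on `cup`: reduce to `σ = bs l` by `lin_ext'`, induction on `l` generalising `β`,
`← cons_bs`, `cup_cons` -/
theorem cup_add (β γ : C A →ₗ[ℤ] C A →ₗ[ℤ] C D) (σ : C A) :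
    cup (β + γ) σ = cup β σ + cup γ σ := by
  refine lin_ext' (F := cup (β + γ)) (G := cup β + cup γ) (fun l => ?_) σ
  rw [LinearMap.add_apply]
  induction l generalizing β γ with
  | nil => simp
  | cons g l ih =>
    rw [← cons_bs, cup_cons, cup_cons, cup_cons, LinearMap.add_comp, ih]
    simp only [LinearMap.add_apply]
    abel

theorem cup_neg (β : C A →ₗ[ℤ] C A →ₗ[ℤ] C D) (σ : C A) : cup (-β) σ = -cup β σ := by
  refine lin_ext' (F := cup (-β)) (G := -cup β) (fun l => ?_) σ
  rw [LinearMap.neg_apply]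
  induction l generalizing β with
  | nil => simp
  | cons g l ih =>
    rw [← cons_bs, cup_cons, cup_cons, LinearMap.neg_comp, ih]
    simp only [LinearMap.neg_apply]
    abel

theorem cup_sub (β γ : C A →ₗ[ℤ] C A →ₗ[ℤ] C D) (σ : C A) :
    cup (β - γ) σ = cup β σ - cup γ σ := by
  rw [sub_eq_add_neg, cup_add, cup_neg, ← sub_eq_add_neg]

theorem cup_comp (β : C A →ₗ[ℤ] C A →ₗ[ℤ] C D) (L : C D →ₗ[ℤ] C E) (σ : C A) :
    L (cup β σ) = cup (β.compr₂ L) σ := by
  refine lin_ext' (F := L ∘ₗ cup β) (G := cup (β.compr₂ L)) (fun l => ?_) σ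
  rw [LinearMap.comp_apply]
  induction l generalizing β with
  | nil => simp
  | cons g l ih =>
    rw [← cons_bs, cup_cons, cup_cons, map_add, ih]
    rfl

theorem cup_mem (β : C A →ₗ[ℤ] C A →ₗ[ℤ] C D) (M : Submodule ℤ (C D)) (l : List A)
    (h : ∀ k < l.length, β (bs (l.take (k + 1))) (bs (l.drop k)) ∈ M) : cup β (bs l) ∈ M := by
  induction l generalizing β with
  | nil => simp
  | cons g l ih =>
    rw [← cons_bs, cup_cons]
    refine M.add_mem (by simpa using h 0 (by simp)) (ih _ fun k hk => ?_)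
    simpa using h (k + 1) (by simpa using hk)

/-- The Alexander–Whitney map is a chain map.  For `g :: l` put `β' = β ∘ₗ cons g`; then
`β.compl₁₂ d id ∘ₗ cons g = β - β'.compl₁₂ d id` (`d_cons`) and
`β.compl₁₂ eps d ∘ₗ cons g = -β'.compl₁₂ eps d` (`eps_cons`). -/
theorem cup_d (β : C A →ₗ[ℤ] C A →ₗ[ℤ] C D) (h : ∀ p, β p (bs []) = 0) (σ : C A) :
    cup β (d σ) = cup (β.compl₁₂ d LinearMap.id) σ + cup (β.compl₁₂ eps d) σ - β (bs []) σ := by
  refine lin_ext' (F := cup β ∘ₗ d)
    (G := cup (β.compl₁₂ d LinearMap.id) + cup (β.compl₁₂ eps d) - β (bs [])) (fun l => ?_) σ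
  rw [LinearMap.comp_apply, LinearMap.sub_apply, LinearMap.add_apply]
  induction l generalizing β with
  | nil => simp [h]
  | cons g l ih =>
    have h1 : β.compl₁₂ d LinearMap.id ∘ₗ cons g = β - (β ∘ₗ cons g).compl₁₂ d LinearMap.id :=
      LinearMap.ext₂ fun p q => by simp [d_cons]
    have h2 : β.compl₁₂ eps d ∘ₗ cons g = -(β ∘ₗ cons g).compl₁₂ eps d :=
      LinearMap.ext₂ fun p q => by simp [eps_cons]
    rw [← cons_bs, d_cons, map_sub, cup_cons, cup_cons, cup_cons, h1, h2, cup_sub, cup_neg,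
      ih (β ∘ₗ cons g) fun p => h _]
    simp only [LinearMap.compl₁₂_apply, d_one, eps_one, d_cons, map_sub, LinearMap.id_apply,
      LinearMap.comp_apply, cons_bs g []]
    abel

/-- `cup β (g :: l) = β [g] (g :: l) + cup (β ∘ₗ cons g) l`, and the last term vanishes by
`cup_mem _ ⊥` because `e (d (cons g p)) = e p = 0` for a nonempty front `p`. -/
theorem cup_aug (β : C A →ₗ[ℤ] C A →ₗ[ℤ] C D) (v : C D)
    (h : ∀ p q, β p q = (e (d p) * e (d q)) • v) (σ : C A) : cup β σ = e (d σ) • v := by
  refine lin_ext' (F := cup β) (G := LinearMap.toSpanSingleton ℤ _ v ∘ₗ e ∘ₗ d) (fun l => ?_) σ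
  cases l with
  | nil => simp
  | cons g l =>
    have h0 : cup (β ∘ₗ cons g) (bs l) ∈ (⊥ : Submodule ℤ (C D)) := cup_mem _ _ _ fun k hk => by
      cases l with
      | nil => simp at hk
      | cons a l => simp [-cons_bs, h, d_cons]
    rw [← cons_bs, cup_cons, (Submodule.mem_bot ℤ).1 h0, h]
    simp

open Classical in
/-- the shuffle product of two lists -/
noncomputable def shL (op : A → B → D) : List A → List B → C D
  | [], _ => 0
  | _ :: _, [] => 0
  | a :: l, c :: m => cons (op a c) (shL op l (c :: m) + (-1 : ℤ) ^ l.length • shL op (a :: l) m +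
      if l = [] ∧ m = [] then bs [] else 0)
termination_by l m => l.length + m.length

/-- the shuffle product (Eilenberg–Zilber map) followed by `op` on the vertices -/
noncomputable def sh (op : A → B → D) : C A →ₗ[ℤ] C B →ₗ[ℤ] C D :=
  lin fun l => lin fun m => shL op l m

theorem sh_bs (op : A → B → D) (l : List A) (m : List B) : sh op (bs l) (bs m) = shL op l m := by
  simp [sh]

@[simp] theorem sh_nil_left (op : A → B → D) (q : C B) : sh op (bs []) q = 0 := by
  exact lin_ext' (G := 0) (fun m => by simp [sh_bs, shL]) q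

@[simp] theorem sh_nil_right (op : A → B → D) (p : C A) : sh op p (bs []) = 0 := by
  exact lin_ext' (F := (sh op).flip (bs [])) (G := 0) (fun l => by cases l <;> simp [sh_bs, shL]) p

/-- both sides are bilinear in `p`, `q` (`lin_ext'` twice); `eps (bs l) = -(-1)^l.length • bs l` -/
theorem sh_cons (op : A → B → D) (a : A) (c : B) (p : C A) (q : C B) :
    sh op (cons a p) (cons c q) =
      cons (op a c) (sh op p (cons c q) - sh op (cons a (eps p)) q + (e p * e q) • bs []) := by
  refine LinearMap.congr_fun₂ (f := (sh op).compl₁₂ (cons a) (cons c))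
    (g := ((sh op).compl₁₂ LinearMap.id (cons c) - (sh op).compl₁₂ (cons a ∘ₗ eps) LinearMap.id +
      ((LinearMap.mul ℤ ℤ).compl₁₂ e e).compr₂ (LinearMap.toSpanSingleton ℤ _ (bs []))).compr₂
      (cons (op a c))) (lin_ext fun l => lin_ext fun m => ?_) p q
  have he : (e (bs l) * e (bs m)) • (bs [] : C D) = if l = [] ∧ m = [] then bs [] else 0 := by
    cases l <;> cases m <;> simp
  simp [sh_bs, shL, eps_bs, he, pow_succ]

/-- The shuffle product is a chain map.  For basis elements, strong induction on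
`l.length + m.length` (or induction on `l`, inside it on `m`); cases `[]` are `0 = 0`; for
`a :: l`, `c :: m` use `sh_cons` three times (for `(l, m)`, `(d l, m)`, `(l, d m)`), `d_cons`,
`eps_cons`, `d_eps`, `eps_eps`, `e_eps`, and the hypothesis for `(l, c :: m)`, `(a :: l, m)`
(`eps (bs l)` is a multiple of `bs l`). -/
theorem d_sh (op : A → B → D) (p : C A) (q : C B) :
    d (sh op p q) = sh op (d p) q + sh op (eps p) (d q) + (e (d p) * e (d q)) • bs [] := by
  let T : C A →ₗ[ℤ] C B →ₗ[ℤ] C D := (sh op).compr₂ d - ((sh op).compl₁₂ d LinearMap.id +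
    (sh op).compl₁₂ eps d + ((LinearMap.mul ℤ ℤ).compl₁₂ (e ∘ₗ d) (e ∘ₗ d)).compr₂
      (LinearMap.toSpanSingleton ℤ _ (bs [])))
  have hT : ∀ p q, T p q = 0 ↔
      d (sh op p q) = sh op (d p) q + sh op (eps p) (d q) + (e (d p) * e (d q)) • bs [] :=
    fun p q => sub_eq_zero
  have key : ∀ l m, T (bs l) (bs m) = 0 := fun l => by
    induction l with
    | nil => exact fun m => (hT _ _).2 (by simp)
    | cons a l ihl =>
      intro m
      induction m with
      | nil => exact (hT _ _).2 (by simp)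
      | cons c m ihm =>
        have h1 := (hT _ _).1 (ihl (c :: m))
        have h2 := (hT (cons a (eps (bs l))) (bs m)).1 (by
          rw [eps_bs, map_smul, map_smul, cons_bs, LinearMap.smul_apply, ihm, smul_zero])
        rw [hT, ← cons_bs, ← cons_bs c]
        rw [← cons_bs] at h1
        generalize bs l = p at h1 h2 ⊢
        generalize bs m = q at h1 h2 ⊢
        rw [sh_cons, d_cons, map_add d, map_sub d, h1, h2]
        simp only [d_cons, eps_cons, d_eps, eps_eps, e_eps, e_cons, map_sub, map_add, map_neg,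
          map_smul, d_nil, LinearMap.sub_apply, LinearMap.neg_apply, sh_cons, smul_zero, sub_zero,
          map_zero]
        module
  exact (hT p q).1 (LinearMap.congr_fun₂ (g := 0) (lin_ext fun l => lin_ext fun m => key l m) p q)

theorem sh_mem_en (op : A → B → D) {X : Set A} {Y : Set B} {p : C A} {q : C B}
    (hp : p ∈ S (En X)) (hq : q ∈ S (En Y)) : sh op p q ∈ S (En (Set.image2 op X Y)) := by
  refine map_mem ((sh op).flip q) _ (fun l hl => map_mem (sh op (bs l)) _ (fun m hm => ?_) hq) hp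
  rw [sh_bs]
  induction l generalizing m with
  | nil => simp [shL]
  | cons a l ihl =>
    induction m with
    | nil => simp [shL]
    | cons c m ihm =>
      rw [shL]
      refine cons_mem_en (Set.mem_image2_of_mem (hl a List.mem_cons_self) (hm c List.mem_cons_self))
        (add_mem (add_mem (ihl (fun x hx => hl x (List.mem_cons_of_mem _ hx)) _ hm)
          (Submodule.smul_mem _ _ (ihm fun x hx => hm x (List.mem_cons_of_mem _ hx)))) ?_)
      split_ifs
      · exact bs_mem fun _ h => absurd h List.not_mem_nil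
      · exact zero_mem _

end Crest.Agent.R185.Sw
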