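import Crest.Agent.R185.SwCup
import Crest.Agent.R185.SwCar

/-!
# Row 185, the swindle: additivity on commuting homomorphisms
-/

set_option autoImplicit false

namespace Crest.Agent.R185.Sw

section Cp

variable {A B D : Type} (op : B → B → D)

/-- shuffle product after `p ⊗ q` after Alexander–Whitney -/
noncomputable def cp (p q : C A →ₗ[ℤ] C B) : C A →ₗ[ℤ] C D := cup ((sh op).compl₁₂ p q)

theorem cp_add_left (p p' q : C A →ₗ[ℤ] C B) (σ : C A) :
    cp op (p + p') q σ = cp op p q σ + cp op p' q σ := by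
  rw [cp, cp, cp, ← cup_add]
  congr 2
  exact LinearMap.ext fun x => LinearMap.ext fun y => by simp

theorem cp_add_right (p q q' : C A →ₗ[ℤ] C B) (σ : C A) :
    cp op p (q + q') σ = cp op p q σ + cp op p q' σ := by
  rw [cp, cp, cp, ← cup_add]
  congr 2
  exact LinearMap.ext fun x => LinearMap.ext fun y => by simp

theorem cp_sub_left (p p' q : C A →ₗ[ℤ] C B) (σ : C A) :
    cp op (p - p') q σ = cp op p q σ - cp op p' q σ := by
  rw [eq_sub_iff_add_eq, ← cp_add_left, sub_add_cancel]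

theorem cp_sub_right (p q q' : C A →ₗ[ℤ] C B) (σ : C A) :
    cp op p (q - q') σ = cp op p q σ - cp op p q' σ := by
  rw [eq_sub_iff_add_eq, ← cp_add_right, sub_add_cancel]

theorem cp_neg_left (p q : C A →ₗ[ℤ] C B) (σ : C A) : cp op (-p) q σ = -cp op p q σ := by
  rw [cp, cp, ← cup_neg]
  congr 2
  exact LinearMap.ext fun x => LinearMap.ext fun y => by simp

theorem d_cp (p q : C A →ₗ[ℤ] C B) (v : C D)
    (h : ∀ x y, (e (d (p x)) * e (d (q y))) • bs [] = (e (d x) * e (d y)) • v) (σ : C A) :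
    d (cp op p q σ) = cp op (d ∘ₗ p) q σ + cp op (eps ∘ₗ p) (d ∘ₗ q) σ + e (d σ) • v := by
  rw [cp, cup_comp, ← cup_aug (((sh op).compl₁₂ p q).compr₂ d - (sh op).compl₁₂ (d ∘ₗ p) q -
    (sh op).compl₁₂ (eps ∘ₗ p) (d ∘ₗ q)) v (fun x y => by
      simp only [LinearMap.sub_apply, LinearMap.compr₂_apply, LinearMap.compl₁₂_apply,
        LinearMap.comp_apply]
      rw [d_sh, h]
      abel) σ, cup_sub, cup_sub, cp, cp]
  abel

theorem cp_d (p q : C A →ₗ[ℤ] C B) (hp : ∀ y, sh op (p (bs [])) y = 0)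
    (hq : ∀ x, sh op x (q (bs [])) = 0) (σ : C A) :
    cp op p q (d σ) = cp op (p ∘ₗ d) q σ + cp op (p ∘ₗ eps) (q ∘ₗ d) σ := by
  rw [cp, cup_d _ (fun x => hq _), LinearMap.compl₁₂_apply, hp, sub_zero]
  rfl

theorem cp_mem (p q : C A →ₗ[ℤ] C B) (M : Submodule ℤ (C D)) (l : List A)
    (h : ∀ k < l.length, sh op (p (bs (l.take (k + 1)))) (q (bs (l.drop k))) ∈ M) :
    cp op p q (bs l) ∈ M := cup_mem _ M l h

end Cp

variable {A B D : Type} [Group A] [Group B] [Group D]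

theorem op_diff {b c : B →* D} (hc : ∀ u v, Commute (b u) (c v)) (x y x' y' : B) :
    (b x * c y)⁻¹ * (b x' * c y') = b (x⁻¹ * x') * c (y⁻¹ * y') := by
  have h1 : (c y)⁻¹ * b (x⁻¹ * x') = b (x⁻¹ * x') * (c y)⁻¹ := by
    rw [← map_inv]
    exact (hc _ _).eq.symm
  calc (b x * c y)⁻¹ * (b x' * c y') = (c y)⁻¹ * b (x⁻¹ * x') * c y' := by
        simp [mul_assoc]
    _ = b (x⁻¹ * x') * c (y⁻¹ * y') := by rw [h1]; simp [mul_assoc]

theorem sh_mem_ty {b c : B →* D} (hc : ∀ u v, Commute (b u) (c v)) {T : Set B} {p q : C B}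
    (hp : p ∈ S (Ty T)) (hq : q ∈ S (Ty T)) :
    sh (fun u v => b u * c v) p q ∈ S (Ty (Set.image2 (fun u v => b u * c v) T T)) := by
  refine map_mem ((sh fun u v => b u * c v).flip q) _ (fun l hl => ?_) hp
  refine map_mem (sh (fun u v => b u * c v) (bs l)) _ (fun m hm => ?_) hq
  refine ty_of_en ?_ (sh_mem_en _ (bs_mem_en l) (bs_mem_en m))
  rintro _ ⟨x, hx, y, hy, rfl⟩ _ ⟨x', hx', y', hy', rfl⟩
  exact ⟨_, hl x hx x' hx', _, hm y hy y' hy', (op_diff hc x y x' y').symm⟩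

theorem e_mem_U (n : ℕ) (v : C D) : (e : C A →ₗ[ℤ] ℤ).smulRight v ∈ U A D n :=
  mem_U.2 fun _ _ => ⟨∅, Set.finite_empty, fun z _ hz _ =>
    ⟨0, Submodule.zero_mem _, by simp [e_of_len hz]⟩⟩

/-- Eilenberg–Zilber: `sh ∘ (f₁ ⊗ f₂) ∘ AW` is homotopic to the diagonal -/
theorem push_sub_cp_mem_U (n : ℕ) {b c : B →* D} (hc : ∀ u v, Commute (b u) (c v))
    (f₁ f₂ : A →* B) (g : A → D) (hg : ∀ a, g a = b (f₁ a) * c (f₂ a)) :
    push g - cp (fun u v => b u * c v) (push f₁) (push f₂) ∈ U A D n := by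
  set op : B → B → D := fun u v => b u * c v with hop
  have h1 : push g - cp op (push f₁) (push f₂) - (e : C A →ₗ[ℤ] ℤ).smulRight (bs []) ∈
      U A D n := by
    refine mem_U_of_carrier _ (fun σ => ?_) (by simp [cp])
      (fun X => Set.image2 op (f₁ '' X) (f₂ '' X))
      (fun X Y h => Set.image2_subset (Set.image_mono h) (Set.image_mono h))
      (fun a => ⟨_, _, ⟨a, rfl, rfl⟩, _, ⟨a, rfl, rfl⟩, rfl⟩) (fun l => ?_) (fun T hT => ?_) n
    · have e1 : d ∘ₗ push f₁ = push f₁ ∘ₗ d := LinearMap.ext (d_push f₁)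
      have e2 : d ∘ₗ push f₂ = push f₂ ∘ₗ d := LinearMap.ext (d_push f₂)
      have e3 : eps ∘ₗ push f₁ = push f₁ ∘ₗ eps := LinearMap.ext (eps_push f₁)
      simp only [LinearMap.sub_apply, map_sub, LinearMap.smulRight_apply, map_smul, d_nil,
        smul_zero, sub_zero]
      rw [d_cp op _ _ (bs []) (fun x y => by rw [d_push, d_push, e_push, e_push]),
        cp_d op _ _ (fun y => by simp) (fun x => by simp), e1, e2, e3, d_push]
      abel
    · simp only [LinearMap.sub_apply, LinearMap.smulRight_apply]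
      refine Submodule.sub_mem _ (Submodule.sub_mem _ ?_ ?_)
        (Submodule.smul_mem _ _ (bs_mem fun a ha => absurd ha List.not_mem_nil))
      · refine push_mem_en (fun a ha => ?_) (bs_mem_en l)
        exact ⟨_, ⟨a, ha, rfl⟩, _, ⟨a, ha, rfl⟩, (hg a).symm⟩
      · refine cp_mem _ _ _ _ _ fun k _ => sh_mem_en op ?_ ?_
        · refine push_mem_en (fun a ha => ?_) (bs_mem_en _)
          exact ⟨a, List.mem_of_mem_take ha, rfl⟩
        · refine push_mem_en (fun a ha => ?_) (bs_mem_en _)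
          exact ⟨a, List.mem_of_mem_drop ha, rfl⟩
    · refine ⟨Set.image2 op (f₁ '' T) (f₂ '' T), (hT.image _).image2 _ (hT.image _), ?_⟩
      rintro X hX _ ⟨_, ⟨x, hx, rfl⟩, _, ⟨y, hy, rfl⟩, rfl⟩ _ ⟨_, ⟨x', hx', rfl⟩, _, ⟨y', hy', rfl⟩, rfl⟩
      refine ⟨_, ⟨_, hX x hx x' hx', rfl⟩, _, ⟨_, hX y hy y' hy', rfl⟩, ?_⟩
      simp only [hop]
      rw [op_diff hc]
      simp
  simpa using Submodule.add_mem _ h1 (e_mem_U n (bs []))

/-- the reduced part `u ⊗ u` of the diagonal is null-homologous -/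
theorem cp_mem_U {n : ℕ} (hn : 1 ≤ n) {f : A →* B} (hf : Null n f) {b c : B →* D}
    (hc : ∀ u v, Commute (b u) (c v)) :
    cp (fun u v => b u * c v) (push f - push fun _ => 1) (push f - push fun _ => 1) ∈
      U A D n := by
  set op : B → B → D := fun u v => b u * c v with hop
  set u : C A →ₗ[ℤ] C B := push f - push fun _ => 1 with hu
  refine mem_U.2 fun T hT => ?_
  obtain ⟨T', hT', h, h0, hl, ht, hh⟩ := hf T hT
  set r : C A →ₗ[ℤ] C B := u - (d ∘ₗ h + h ∘ₗ d) with hr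
  set T1 : Set B := T' ∪ (f '' T ∪ {1}) with hT1
  have hT1f : T1.Finite := hT'.union ((hT.image _).union (Set.finite_singleton _))
  refine ⟨Set.image2 op T1 T1, hT1f.image2 _ hT1f, fun z hz hzl hd => ?_⟩
  -- types
  have th : ∀ σ ∈ S (Ty T), h σ ∈ S (Ty T1) := fun σ hσ =>
    map_mem h _ (fun l hl => ty_mono Set.subset_union_left (ht l hl)) hσ
  have tu : ∀ σ ∈ S (Ty T), u σ ∈ S (Ty T1) := fun σ hσ =>
    Submodule.sub_mem _
      (ty_mono (Set.subset_union_left.trans Set.subset_union_right) (push_mem_ty f hσ))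
      (ty_mono (Set.subset_union_right.trans Set.subset_union_right) (push_one_mem_ty σ))
  have tr : ∀ σ ∈ S (Ty T), r σ ∈ S (Ty T1) := fun σ hσ =>
    Submodule.sub_mem _ (tu σ hσ) (Submodule.add_mem _ (d_mem_ty (th σ hσ)) (th _ (d_mem_ty hσ)))
  have tcp : ∀ p q : C A →ₗ[ℤ] C B, (∀ σ ∈ S (Ty T), p σ ∈ S (Ty T1)) →
      (∀ σ ∈ S (Ty T), q σ ∈ S (Ty T1)) → cp op p q z ∈ S (Ty (Set.image2 op T1 T1)) :=
    fun p q hp hq => map_mem _ _ (fun l hl => cp_mem _ _ _ _ _ fun k _ =>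
      sh_mem_ty hc (hp _ (bs_mem (hl.sublist (List.take_sublist _ _))))
        (hq _ (bs_mem (hl.sublist (List.drop_sublist _ _))))) hz
  refine ⟨cp op h u z + cp op (eps ∘ₗ r) h z, Submodule.add_mem _ (tcp _ _ th tu)
    (tcp _ _ (fun σ hσ => eps_mem (tr σ hσ)) th), ?_⟩
  -- identities
  have eh : ∀ σ, eps (h σ) = -h (eps σ) :=
    lin_ext' (F := eps ∘ₗ h) (G := -(h ∘ₗ eps)) fun l => by
      simp only [LinearMap.comp_apply, LinearMap.neg_apply]
      rw [eps_of_len (hl l), eps_bs, map_smul, pow_succ, mul_neg_one, neg_smul]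
  have du : ∀ σ, d (u σ) = u (d σ) := fun σ => by simp [hu, d_push]
  have eu : ∀ σ, eps (u σ) = u (eps σ) := fun σ => by simp [hu, eps_push]
  have u0 : u (bs []) = 0 := by simp [hu]
  have dr : ∀ σ, d (r σ) = r (d σ) := fun σ => by simp [hr, du]
  have er : ∀ σ, eps (r σ) = r (eps σ) := fun σ => by
    have e1 : eps (d (h σ)) = d (h (eps σ)) := by
      rw [← neg_inj, ← d_eps, eh, map_neg]
    have e2 : eps (h (d σ)) = h (d (eps σ)) := by
      rw [eh, d_eps, map_neg]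
    simp [hr, eu, e1, e2]
  have r0 : r (bs []) = 0 := by simp [hr, u0, h0]
  have edu : ∀ σ, e (d (u σ)) = 0 := fun σ => by rw [du]; simp [hu]
  have edh : ∀ σ, e (d (h σ)) = 0 :=
    lin_ext' (F := e ∘ₗ d ∘ₗ h) (G := 0) fun l => by
      cases l with
      | nil => simp [h0]
      | cons g l => exact e_of_len (d_mem_len (hl (g :: l)))
  have rz : ∀ l, Ty T l → l.length ≤ n → r (bs l) = 0 := fun l h1 h2 => by
    simp only [hr, hu, LinearMap.sub_apply, LinearMap.add_apply, LinearMap.comp_apply]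
    rw [hh l h1 h2, sub_self]
  have k0 : cp op r r z = 0 := by
    refine eq_on (P := fun l => Ty T l ∧ Len (n + 1) l) _ 0 (fun l hl => ?_) (mem_S_and.2 ⟨hz, hzl⟩)
    refine (Submodule.mem_bot ℤ).1 (cp_mem _ _ _ _ _ fun k hk => ?_)
    have hlen : l.length = n + 1 := hl.2
    rw [Submodule.mem_bot]
    by_cases hk' : k + 1 ≤ n
    · rw [rz _ (hl.1.sublist (List.take_sublist _ _)) (by rw [List.length_take]; omega)]
      simp
    · rw [rz (l.drop k) (hl.1.sublist (List.drop_sublist _ _)) (by rw [List.length_drop]; omega)]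
      simp
  have k1 := d_cp op h u 0 (fun x y => by rw [edu]; simp) z
  have k2 := cp_d op h u (fun y => by simp [h0]) (fun x => by simp [u0]) z
  have k3 := d_cp op (eps ∘ₗ r) h 0 (fun x y => by rw [edh]; simp) z
  have k4 := cp_d op (eps ∘ₗ r) h (fun y => by simp [r0]) (fun x => by simp [h0]) z
  have a1 : eps ∘ₗ h = -(h ∘ₗ eps) := LinearMap.ext eh
  have a2 : d ∘ₗ u = u ∘ₗ d := LinearMap.ext du
  have a3 : d ∘ₗ eps ∘ₗ r = -((eps ∘ₗ r) ∘ₗ d) := LinearMap.ext fun σ => by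
    simp [d_eps, dr]
  have a4 : eps ∘ₗ eps ∘ₗ r = r := LinearMap.ext fun σ => by simp
  have a5 : (eps ∘ₗ r) ∘ₗ eps = r := LinearMap.ext fun σ => by simp [er]
  have a6 : u = r + (d ∘ₗ h + h ∘ₗ d) := by rw [hr, sub_add_cancel]
  rw [hd, map_zero] at k2 k4
  rw [a1, a2, cp_neg_left, smul_zero, add_zero] at k1
  rw [a3, a4, cp_neg_left, smul_zero, add_zero] at k3
  rw [a5] at k4
  have k5 : cp op u u z = cp op r u z + (cp op (d ∘ₗ h) u z + cp op (h ∘ₗ d) u z) := by
    rw [← cp_add_left, ← cp_add_left, ← a6]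
  have k6 : cp op r u z = cp op r r z + (cp op r (d ∘ₗ h) z + cp op r (h ∘ₗ d) z) := by
    rw [← cp_add_right, ← cp_add_right, ← a6]
  rw [map_add, k1, k3, k5, k6, k0, eq_neg_of_add_eq_zero_left k2.symm,
    eq_neg_of_add_eq_zero_right k4.symm]
  abel

theorem key {n : ℕ} (hn : 1 ≤ n) {f : A →* B} (hf : Null n f) (a b c : B →* D)
    (hc : ∀ u v, Commute (b u) (c v)) (ha : ∀ u, a u = b u * c u) :
    push (a.comp f) - push (b.comp f) - push (c.comp f) ∈ U A D n := by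
  have h1 := push_sub_cp_mem_U n hc f f (a.comp f) fun x => ha _
  have h2 := push_sub_cp_mem_U n hc f 1 (b.comp f) fun x => by simp
  have h3 := push_sub_cp_mem_U n hc 1 f (c.comp f) fun x => by simp
  have h4 := push_sub_cp_mem_U n hc (1 : A →* B) 1 (fun _ => 1) fun x => by simp
  have h5 := cp_mem_U hn hf hc
  have h6 := push_one_mem_U (A := A) (B := D) n
  have := Submodule.sub_mem _ (Submodule.add_mem _ (Submodule.add_mem _
    (Submodule.sub_mem _ (Submodule.sub_mem _ h1 h2) h3) h4) h5) h6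
  convert this using 1
  refine LinearMap.ext fun σ => ?_
  have e1 : ((1 : A →* B) : A → B) = fun _ => 1 := rfl
  simp only [LinearMap.sub_apply, LinearMap.add_apply, cp_sub_left, cp_sub_right, e1]
  abel

theorem conj_mem_U (n : ℕ) (t : D) (a b : A →* D) (h : ∀ u, b u = t * a u * t⁻¹) :
    push b - push (t * ·) ∘ₗ push a ∈ U A D n := by
  refine mem_U_of_carrier _ (fun σ => by simp [d_push]) (by simp)
    (fun X => Set.image2 (fun x s => t * a x * s) X {1, t⁻¹})
    (fun X Y h => Set.image2_subset_right h)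
    (fun x => ⟨_, x, rfl, 1, Or.inl rfl, rfl⟩) (fun l => ?_) (fun T hT => ?_) n
  · simp only [LinearMap.sub_apply, LinearMap.comp_apply, push_push]
    refine Submodule.sub_mem _ ?_ ?_
    · refine push_mem_en (fun x hx => ?_) (bs_mem_en l)
      exact ⟨x, hx, t⁻¹, Or.inr rfl, (h x).symm⟩
    · refine push_mem_en (fun x hx => ?_) (bs_mem_en l)
      exact ⟨x, hx, 1, Or.inl rfl, mul_one _⟩
  · refine ⟨Set.image2 (fun (p : D × D) x => p.1⁻¹ * a x * p.2) (({1, t⁻¹} : Set D) ×ˢ {1, t⁻¹}) T,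
      ((Set.toFinite _).prod (Set.toFinite _)).image2 _ hT, ?_⟩
    rintro X hX _ ⟨x, hx, s, hs, rfl⟩ _ ⟨y, hy, s', hs', rfl⟩
    exact ⟨(s, s'), ⟨hs, hs'⟩, _, hX x hx y hy, by simp [mul_assoc]⟩

theorem mem_U_of_killed {n : ℕ} (hn : 1 ≤ n) {f : A →* B} (hf : Null n f) {Δ : B →* D}
    (hk : Killed Δ) : push (Δ.comp f) ∈ U A D n := by
  let ρ : Representation ℤ D (C A →ₗ[ℤ] C D) :=
    (Representation.trivial ℤ D (C A)).linHom (lrep D)
  have hρ : ∀ g F, ρ g F = push (g * ·) ∘ₗ F := fun g F => LinearMap.ext fun σ => rfl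
  have hU : ∀ g, U A D n ≤ (U A D n).comap (ρ g) := fun g F hF => by
    rw [Submodule.mem_comap, hρ]
    exact comp_mem_U hF g
  have := hk _ (ρ.quotient _ hU) (fun a => (U A D n).mkQ (push (a.comp f)))
    (fun a b c h1 h2 => by
      rw [← map_add, ← sub_eq_zero, ← map_sub, Submodule.mkQ_apply, Submodule.Quotient.mk_eq_zero,
        ← sub_sub]
      exact key hn hf a b c h1 h2)
    (fun t a b h => by
      change _ = (U A D n).mkQ (ρ t (push (a.comp f)))
      rw [← sub_eq_zero, ← map_sub, Submodule.mkQ_apply, Submodule.Quotient.mk_eq_zero, hρ]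
      exact conj_mem_U n t _ _ fun u => h _)
  rwa [Submodule.mkQ_apply, Submodule.Quotient.mk_eq_zero] at this

end Crest.Agent.R185.Sw
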