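import Crest.Agent.R185.SwDefs

/-!
# Row 185, the swindle: the inductive steps for `Null` and `Tame`
-/

set_option autoImplicit false

namespace Crest.Agent.R185.Sw

variable {A B D : Type} [Group A] [Group B] [Group D]

theorem null_zero (f : A →* B) : Null 0 f := by
  intro T _
  refine ⟨∅, Set.finite_empty, 0, rfl, fun _ => Submodule.zero_mem _,
    fun _ _ => Submodule.zero_mem _, fun l _ hl => ?_⟩
  obtain rfl : l = [] := List.length_eq_zero_iff.1 (Nat.le_zero.1 hl)
  simp

theorem push_comp' (f : A →* B) (g : B →* D) (σ : C A) :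
    push (g.comp f) σ = push g (push f σ) := by
  rw [push_push]; rfl

omit [Group A] in
theorem push_hom_one (g : B →* D) (σ : C A) :
    push g (push (fun _ => (1 : B)) σ) = push (fun _ => (1 : D)) σ := by
  rw [push_push]; simp only [map_one]

theorem push_hom_mul (g : B →* D) (b : B) (σ : C B) :
    push g (push (b * ·) σ) = push (g b * ·) (push g σ) := by
  rw [push_push, push_push]; simp only [map_mul]

theorem U_len {n : ℕ} {g : B →* D} (hg : push g ∈ U B D n) (T : Set B) (hT : T.Finite) :
    ∃ T' : Set D, T'.Finite ∧ ∀ z ∈ S (Ty T), z ∈ S (Len (n + 1)) → d z = 0 →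
      ∃ w ∈ S (Ty T'), w ∈ S (Len (n + 2)) ∧ push g z = d w := by
  obtain ⟨T', hT', h⟩ := mem_U.1 hg T hT
  refine ⟨T', hT', fun z hz hl hd => ?_⟩
  obtain ⟨w, hw, he⟩ := h z hz hl hd
  refine ⟨proj (n + 2) w, proj_mem _ hw, proj_mem_len _ _, ?_⟩
  rw [d_proj, ← he, proj_of_len (push_mem_len _ hl)]

/-- For `T` take `T'`, `h` from `hf`, apply `hg` to `T' ∪ f '' T ∪ {1}`.  For `l` of type `T` and
length `n + 1`, `z = push f l - push 1 l - h (d l)` is a cycle of length `n + 1`, `push g z = d w`,
replace `w` by `proj (n + 2) w` (`d_proj`).  New homotopy: `w l` on these lists, `push g (h l)` on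
all other lists. -/
theorem Null.step {n : ℕ} {f : A →* B} (hf : Null n f) {g : B →* D} (hg : push g ∈ U B D n) :
    Null (n + 1) (g.comp f) := by
  classical
  intro T hT
  obtain ⟨T', hT', h, h0, hlen, hty, heq⟩ := hf T hT
  obtain ⟨T3, hT3, hw⟩ := U_len hg (T' ∪ f '' T ∪ {1})
    ((hT'.union (hT.image _)).union (Set.finite_singleton _))
  have heq' : ∀ σ ∈ S (fun l : List A => Ty T l ∧ l.length ≤ n),
      d (h σ) + h (d σ) = push f σ - push (fun _ => (1 : B)) σ := fun σ hσ =>
    eq_on (d ∘ₗ h + h ∘ₗ d) (push f - push (fun _ => (1 : B)))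
      (fun l hl => heq l hl.1 hl.2) hσ
  have key : ∀ l : List A, Ty T l ∧ l.length = n + 1 → ∃ w ∈ S (Ty T3), w ∈ S (Len (n + 2)) ∧
      push g (push f (bs l) - push (fun _ => (1 : B)) (bs l) - h (d (bs l))) = d w := by
    rintro l ⟨hl, hl'⟩
    have hdT : d (bs l) ∈ S (Ty T) := d_mem_ty (bs_mem hl)
    have hdL : d (bs l) ∈ S (Len n) := d_mem_len (bs_mem hl')
    have hbL : bs l ∈ S (Len (n + 1)) := bs_mem hl'
    refine hw _ ?_ ?_ ?_
    · refine Submodule.sub_mem _ (Submodule.sub_mem _ ?_ ?_) ?_
      · exact ty_mono (fun x hx => Or.inl (Or.inr hx)) (push_mem_ty f (bs_mem hl))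
      · exact ty_mono (fun x hx => Or.inr hx) (push_one_mem_ty _)
      · exact ty_mono (fun x hx => Or.inl (Or.inl hx)) (map_mem h _ hty hdT)
    · refine Submodule.sub_mem _ (Submodule.sub_mem _ (push_mem_len _ hbL) (push_mem_len _ hbL)) ?_
      exact map_mem h _ (fun m hm => by
        have := hlen m
        rwa [show m.length = n from hm] at this) hdL
    · have h1 := heq' (d (bs l)) (mem_S_and.2 ⟨hdT, S_mono (fun m hm => le_of_eq hm) hdL⟩)
      rw [d_d, map_zero, add_zero] at h1
      rw [map_sub, map_sub, d_push, d_push, h1, sub_self]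
  choose! w hw1 hw2 hw3 using key
  let h' : C A →ₗ[ℤ] C D :=
    lin fun l => if Ty T l ∧ l.length = n + 1 then w l else push g (h (bs l))
  have h'bs : ∀ l, h' (bs l) = if Ty T l ∧ l.length = n + 1 then w l else push g (h (bs l)) :=
    fun l => lin_bs _ _
  have h'd : ∀ l : List A, l.length ≤ n + 1 → h' (d (bs l)) = push g (h (d (bs l))) := by
    intro l hl
    refine eq_on h' (push g ∘ₗ h) (fun m hm => ?_) (d_bs_mem l)
    rw [h'bs, if_neg (fun hh => by have := hm.2; have := hh.2; omega)]
    rfl
  refine ⟨T3 ∪ g '' T', hT3.union (hT'.image _), h', ?_, fun l => ?_, fun l hl => ?_,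
    fun l hl hl' => ?_⟩
  · rw [h'bs, if_neg (fun hh => by simp at hh), h0, map_zero]
  · rw [h'bs]
    split_ifs with hh
    · rw [hh.2]; exact hw2 l hh
    · exact push_mem_len _ (hlen l)
  · rw [h'bs]
    split_ifs with hh
    · exact ty_mono Set.subset_union_left (hw1 l hh)
    · exact ty_mono Set.subset_union_right (push_mem_ty g (hty l hl))
  · rw [h'd l hl', h'bs, push_comp', ← push_hom_one g]
    split_ifs with hh
    · rw [← hw3 l hh, ← map_add, ← map_sub, sub_add_cancel]
    · have hn : l.length ≤ n := by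
        by_contra hc
        exact hh ⟨hl, by omega⟩
      rw [d_push, ← map_add, heq l hl hn, map_sub]

/-- `θ l = if l.length ≤ 1 then push f l else 0`, `T = {1}` -/
theorem tame_zero (f : A →* B) : Tame 0 f := by
  let θ : C A →ₗ[ℤ] C B := lin fun l => if l.length ≤ 1 then push f (bs l) else 0
  have hθ : ∀ l, θ (bs l) = if l.length ≤ 1 then push f (bs l) else 0 := fun l => lin_bs _ _
  have h0 : θ (bs []) = bs [] := by rw [hθ]; simp
  have h1 : ∀ a, θ (bs [a]) = bs [f a] := fun a => by rw [hθ]; simp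
  refine ⟨{1}, Set.finite_singleton _, θ, h0, h1, fun a σ => ?_, fun l => ?_, fun l => ?_,
    fun l hl => ?_⟩
  · refine lin_ext' (F := θ ∘ₗ push (a * ·)) (G := push (f a * ·) ∘ₗ θ) (fun l => ?_) σ
    simp only [LinearMap.comp_apply]
    rw [push_bs, hθ, hθ, List.length_map]
    split_ifs
    · rw [← push_bs, push_hom_mul]
    · rw [map_zero]
  · rw [hθ]
    split_ifs
    · exact push_mem_len _ (bs_mem rfl)
    · exact Submodule.zero_mem _
  · match l with
    | [] => rw [h0]; exact bs_mem (fun a ha => by simp at ha)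
    | [a] =>
      rw [h1]
      exact bs_mem (fun x hx y hy => by
        rw [List.mem_singleton] at hx hy
        subst hx hy
        simp)
    | a :: b :: m =>
      rw [hθ, if_neg (by simp)]
      exact Submodule.zero_mem _
  · match l, hl with
    | [], _ => rw [h0, d_nil, d_nil, map_zero]
    | [a], _ => rw [h1, d_one, d_one, h0]
    | a :: b :: m, hl => simp at hl

/-- For `l` of length `n + 2`, `θ (d l)` is a cycle of length `n + 1` and type `T`, so
`push g (θ (d l)) = d (w l)`, `w l ∈ S (Len (n + 2))` (`proj`).  New map: for `l = a :: m` of length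
`n + 2` take `push (g (f a) * ·) (w (l.map (a⁻¹ * ·)))`, on all other lists `push g (θ l)`;
type `T' ∪ g '' T`.  Equivariance on the basis (`lin_ext'`), `push_push`, `d_push`. -/
theorem Tame.step {n : ℕ} {f : A →* B} (hf : Tame n f) {g : B →* D} (hg : push g ∈ U B D n) :
    Tame (n + 1) (g.comp f) := by
  obtain ⟨T, hT, θ, h0, h1, hequi, hlen, hty, hd⟩ := hf
  obtain ⟨T', hT', hw⟩ := U_len hg T hT
  have key : ∀ l : List A, l.length = n + 2 → ∃ w ∈ S (Ty T'), w ∈ S (Len (n + 2)) ∧
      push g (θ (d (bs l))) = d w := by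
    intro l hl
    have hdL : d (bs l) ∈ S (Len (n + 1)) := d_mem_len (bs_mem hl)
    refine hw _ (map_mem θ _ (fun m _ => hty m) (mem_S_true _)) ?_ ?_
    · exact map_mem θ _ (fun m hm => by
        have := hlen m
        rwa [show m.length = n + 1 from hm] at this) hdL
    · have := eq_on (d ∘ₗ θ) (θ ∘ₗ d) (fun m hm => hd m (le_of_eq hm)) hdL
      simpa using this
  choose! w hw1 hw2 hw3 using key
  let θ' : C A →ₗ[ℤ] C D := lin fun l => if l.length = n + 2 then
    push (g (f (l.headD 1)) * ·) (w (l.map ((l.headD 1)⁻¹ * ·))) else push g (θ (bs l))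
  have hθ' : ∀ l, θ' (bs l) = if l.length = n + 2 then
      push (g (f (l.headD 1)) * ·) (w (l.map ((l.headD 1)⁻¹ * ·))) else push g (θ (bs l)) :=
    fun l => lin_bs _ _
  have hθ'd : ∀ l : List A, l.length ≤ n + 2 → θ' (d (bs l)) = push g (θ (d (bs l))) := by
    intro l hl
    refine eq_on θ' (push g ∘ₗ θ) (fun m hm => ?_) (d_bs_mem l)
    rw [hθ', if_neg (fun hh => by have := hm.2; omega)]
    rfl
  refine ⟨T' ∪ g '' T, hT'.union (hT.image _), θ', ?_, fun a => ?_, fun a σ => ?_, fun l => ?_,
    fun l => ?_, fun l hl => ?_⟩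
  · rw [hθ', if_neg (by simp), h0, push_bs]; rfl
  · rw [hθ', if_neg (by simp), h1, push_bs]; rfl
  · refine lin_ext' (F := θ' ∘ₗ push (a * ·)) (G := push ((g.comp f) a * ·) ∘ₗ θ') (fun l => ?_) σ
    simp only [LinearMap.comp_apply, MonoidHom.comp_apply]
    rw [push_bs, hθ', hθ', List.length_map]
    split_ifs with hh
    · match l, hh with
      | [], hh => simp at hh
      | b :: m, _ =>
        rw [push_push, List.map_map]
        simp only [List.map_cons, List.headD_cons, map_mul, mul_assoc, Function.comp_def,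
          mul_inv_rev, inv_mul_cancel_left]
    · rw [← push_bs, hequi, push_hom_mul]
  · rw [hθ']
    split_ifs with hh
    · rw [hh]
      exact push_mem_len _ (hw2 _ (by rw [List.length_map, hh]))
    · exact push_mem_len _ (hlen l)
  · rw [hθ']
    split_ifs with hh
    · exact ty_mono Set.subset_union_left
        (push_mul_mem_ty _ (hw1 _ (by rw [List.length_map, hh])))
    · exact ty_mono Set.subset_union_right (push_mem_ty g (hty l))
  · rw [hθ'd l hl, hθ']
    split_ifs with hh
    · rw [d_push, ← hw3 _ (by rw [List.length_map, hh]), ← push_bs, d_push, hequi, push_hom_mul,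
        push_push]
      simp only [map_inv, mul_inv_cancel_left, push_id]
    · rw [d_push, hd l (by omega)]

end Crest.Agent.R185.Sw
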