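import Crest.Agent.R185.SwDefs
import Crest.Agent.R185.FPBasic

/-!
# Row 185, the swindle: Rips chains, transport to the ascending HNN extension
-/

set_option autoImplicit false

namespace Crest.Agent.R185.Sw

open Function

/-- A map that lowers a height has no fixed vector.  If `x ≠ 0` take a point `m` of the support of
maximal height; `F x` lies in `supported {y | ht y < ht m}` (`Finsupp.supported_eq_span_single`). -/
theorem eq_zero_of_height {X : Type} (F : (X →₀ ℤ) →ₗ[ℤ] (X →₀ ℤ)) (ht : X → ℤ) (P : X → Prop)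
    (h : ∀ x, P x → ∀ y, F (Finsupp.single x 1) y ≠ 0 → ht y < ht x) (c : X →₀ ℤ)
    (hc : ∀ x, c x ≠ 0 → P x) (hF : F c = c) : c = 0 := by
  by_contra h0
  obtain ⟨m, hm, hmax⟩ := c.support.exists_max_image ht (Finsupp.support_nonempty_iff.2 h0)
  have e : F c = ∑ x ∈ c.support, c x • F (Finsupp.single x 1) := by
    conv_lhs => rw [← c.sum_single]
    rw [Finsupp.sum, map_sum]
    refine Finset.sum_congr rfl fun x _ => ?_
    rw [← map_smul, Finsupp.smul_single_one]
  have : F c m = 0 := by
    rw [e, Finsupp.finsetSum_apply]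
    refine Finset.sum_eq_zero fun x hx => ?_
    by_cases h1 : F (Finsupp.single x 1) m = 0
    · simp [h1]
    · exact absurd (h x (hc x (Finsupp.mem_support_iff.1 hx)) m h1) (not_lt.2 (hmax x hx))
  rw [hF] at this
  exact Finsupp.mem_support_iff.1 hm this

variable {A G : Type} [Group A] [Group G]

/-- the chains of type `T` and degree `j` -/
def Rips (T : Set G) (j : ℕ) : Submodule ℤ (C G) := S fun l => Ty T l ∧ Len (j + 1) l

theorem mem_rips {T : Set G} {j : ℕ} {σ : C G} :
    σ ∈ Rips T j ↔ σ ∈ S (Ty T) ∧ σ ∈ S (Len (j + 1)) := mem_S_and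

theorem rips_le (T : Set G) (j : ℕ) (g : G) : Rips T j ≤ (Rips T j).comap (lrep G g) :=
  fun _ h => mem_rips.2 ⟨push_mul_mem_ty g (mem_rips.1 h).1, push_mem_len _ (mem_rips.1 h).2⟩

/-- the Rips chains as a representation -/
noncomputable def ripsRep (T : Set G) (j : ℕ) : Representation ℤ G (Rips T j) :=
  (lrep G).subrepresentation _ (rips_le T j)

/-- Free of finite rank.  `Z = {m : List G // Ty T (1 :: m) ∧ m.length = j}` is finite (entries in
`T`, `List.finite_length_eq` / `Set.Finite` of lists over a finite set), `v m = bs (1 :: m)`;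
`orb` is `mapDomain` of the injection `⟨g, m⟩ ↦ g :: m.map (g * ·)` whose range is the set of all
lists of type `T` and length `j + 1`; `FP.of_bij (eqv_orb _ v) _ (fp_free Z n)`. -/
theorem fpinf_rips {T : Set G} (hT : T.Finite) (j : ℕ) : FPinf G (ripsRep T j) := by
  intro n
  let Z : Type := {m : List G // Ty T (1 :: m) ∧ m.length = j}
  have : Finite T := hT
  have : Finite Z := by
    refine Set.Finite.to_subtype (s := {m : List G | Ty T (1 :: m) ∧ m.length = j})
      (((List.finite_length_eq T j).image (List.map Subtype.val)).subset ?_)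
    rintro m ⟨h1, h2⟩
    refine ⟨m.attachWith (· ∈ T) fun b hb => ?_, ?_, ?_⟩
    · simpa using h1 1 (by simp) b (by simp [hb])
    · simpa using h2
    · exact List.attachWith_map_subtype_val _
  let v : Z → Rips T j := fun m => ⟨bs (1 :: m.1), bs_mem ⟨m.2.1, by simp [Len, m.2.2]⟩⟩
  let φ : Cell G Z → List G := fun c => c.g :: c.s.1.map (c.g * ·)
  have hφ : Injective φ := by
    rintro ⟨g, m⟩ ⟨g', m'⟩ h
    obtain ⟨h1, h2⟩ := List.cons.inj h
    obtain rfl : g = g' := h1
    exact Cell.ext rfl (Subtype.ext (List.map_injective_iff.2 (mul_right_injective g) h2))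
  have e : (Rips T j).subtype ∘ₗ orb (ripsRep T j) v = Finsupp.lmapDomain ℤ ℤ φ := by
    refine Finsupp.lhom_ext' fun c => LinearMap.ext_ring ?_
    have : ((ripsRep T j c.g (v c.s) : Rips T j) : C G) = bs (φ c) := by
      show push (c.g * ·) (bs (1 :: c.s.1)) = _
      simp [φ]
    simp [this, bs]
  have e' : ∀ x, ((orb (ripsRep T j) v x : Rips T j) : C G) = Finsupp.mapDomain φ x := fun x =>
    LinearMap.congr_fun e x
  refine FP.of_bij (eqv_orb _ v) ⟨fun x y hxy => ?_, fun σ => ?_⟩ (fp_free Z n)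
  · refine Finsupp.mapDomain_injective hφ ?_
    rw [← e', ← e', hxy]
  · have : σ.1 ∈ LinearMap.range (Finsupp.lmapDomain ℤ ℤ φ) := by
      refine map_mem LinearMap.id _ ?_ σ.2
      rintro (_ | ⟨g, l⟩) ⟨h1, h2⟩
      · exact absurd h2 (by simp [Len])
      · have h3 : Ty T (1 :: l.map (g⁻¹ * ·)) := by
          have := of_bs_mem (by
            simpa only [push_bs] using push_mul_mem_ty g⁻¹ (bs_mem (P := Ty T) h1))
          simpa using this
        refine ⟨Finsupp.single ⟨g, l.map (g⁻¹ * ·), h3, by simpa [Len] using h2⟩ 1, ?_⟩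
        simp [φ, bs, Function.comp_def]
    obtain ⟨x, hx⟩ := this
    exact ⟨x, Subtype.ext ((e' x).trans hx)⟩

/-- Transport of an equivariant map to `G`: `Θ [] = []`,
`Θ (g :: l) = push (g * s⁻¹ * ι ·) (θ ((g :: l).map fun x => invFun ι (g⁻¹ * x)))`.
For the first property and `σ = bs (a :: l)` use `leftInverse_invFun`, the equivariance of `θ`
for `a⁻¹` and `g * ι a * s⁻¹ * ι (ψ a⁻¹) = g * s⁻¹`. -/
theorem exists_transport (ψ : A →* A) (ι : A →* G) (hι : Injective ι) (s : G)
    (hs : ∀ a, s * ι a * s⁻¹ = ι (ψ a)) (θ : C A →ₗ[ℤ] C A) (h0 : θ (bs []) = bs [])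
    (he : ∀ a σ, θ (push (a * ·) σ) = push (ψ a * ·) (θ σ)) :
    ∃ Θ : C G →ₗ[ℤ] C G,
      (∀ g σ, Θ (push (fun a => g * ι a) σ) = push (fun a => g * s⁻¹ * ι a) (θ σ)) ∧
      ∀ g σ, Θ (push (g * ·) σ) = push (g * ·) (Θ σ) := by
  let f : List G → C G := fun l => match l with
    | [] => bs []
    | g :: l => push (fun a => g * s⁻¹ * ι a)
        (θ (bs ((g :: l).map fun x => invFun ι (g⁻¹ * x))))
  refine ⟨lin f, fun g => lin_ext' (F := lin f ∘ₗ push fun a => g * ι a)
    (G := (push fun a => g * s⁻¹ * ι a) ∘ₗ θ) ?_,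
    fun g => lin_ext' (F := lin f ∘ₗ push (g * ·)) (G := push (g * ·) ∘ₗ lin f) ?_⟩
  · rintro (_ | ⟨a, l⟩)
    · simp [f, h0]
    · have e1 : ((a :: l).map fun x => g * ι x).map (fun x => invFun ι ((g * ι a)⁻¹ * x)) =
          (a :: l).map (a⁻¹ * ·) := by
        rw [List.map_map]
        refine List.map_congr_left fun x _ => ?_
        have : (g * ι a)⁻¹ * (g * ι x) = ι (a⁻¹ * x) := by simp [mul_assoc]
        simp only [Function.comp_apply, this]
        exact leftInverse_invFun hι _
      rw [LinearMap.comp_apply, LinearMap.comp_apply, push_bs, lin_bs]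
      show push (fun b => g * ι a * s⁻¹ * ι b) (θ (bs (((a :: l).map fun x => g * ι x).map
        fun x => invFun ι ((g * ι a)⁻¹ * x)))) = _
      rw [e1, ← push_bs, he, push_push]
      congr 2
      funext b
      rw [map_mul, ← hs, map_inv]
      group
  · rintro (_ | ⟨a, l⟩)
    · simp [f]
    · rw [LinearMap.comp_apply, LinearMap.comp_apply, push_bs, lin_bs, lin_bs]
      show push (fun b => g * a * s⁻¹ * ι b) (θ (bs (((a :: l).map (g * ·)).map
        fun x => invFun ι ((g * a)⁻¹ * x)))) = push (g * ·) (push (fun b => a * s⁻¹ * ι b)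
        (θ (bs ((a :: l).map fun x => invFun ι (a⁻¹ * x)))))
      rw [push_push, List.map_map]
      simp only [Function.comp_def, mul_inv_rev, mul_assoc, inv_mul_cancel_left]

/-- a list all of whose differences lie in the range of `ι` is a translate of a list in `A` -/
theorem exists_eq_map (ι : A →* G) {g : G} {l : List G} (h : Ty (Set.range ι) (g :: l)) :
    ∃ m : List A, g :: l = (1 :: m).map fun a => g * ι a := by
  refine ⟨l.map fun x => invFun ι (g⁻¹ * x), ?_⟩
  rw [List.map_cons, map_one, mul_one, List.map_map]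
  congr 1
  refine (List.map_id l).symm.trans (List.map_congr_left fun x hx => ?_)
  simp only [Function.comp_apply, id]
  rw [invFun_eq (h g (by simp) x (by simp [hx])), mul_inv_cancel_left]

/-- Contraction along the cosets: `k (g :: l) = cons ((g : G ⧸ ι.range).out) (g :: l)`, `k [] = 0`.
For length `≥ 2` all faces have the same coset (write `d (bs l) ∈ S _` with `d_bs_mem`; a nonempty
sublist of a list of type `range ι` has its head in the same coset), so `k (d l) = cons r (d l)`
and `d_cons` applies. -/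
theorem exists_contraction (ι : A →* G) :
    ∃ k : C G →ₗ[ℤ] C G,
      (∀ l, Ty (Set.range ι) l → k (bs l) ∈ S (Ty (Set.range ι))) ∧
      (∀ l, k (bs l) ∈ S (Len (l.length + 1))) ∧
      (∀ l, Ty (Set.range ι) l → 2 ≤ l.length → d (k (bs l)) + k (d (bs l)) = bs l) ∧
      ∀ g : G, d (k (bs [g])) = bs [g] - bs [(g : G ⧸ ι.range).out] := by
  let f : List G → C G := fun l => match l with
    | [] => 0
    | g :: l => bs ((g : G ⧸ ι.range).out :: g :: l)
  have hT : ∀ l : List G, Ty (Set.range ι) l ↔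
      ∀ a ∈ l, ∀ b ∈ l, (a : G ⧸ ι.range) = (b : G ⧸ ι.range) := fun l => by
    simp only [Ty, QuotientGroup.eq, MonoidHom.mem_range, Set.mem_range]
  refine ⟨lin f, ?_, ?_, ?_, fun g => ?_⟩
  · rintro (_ | ⟨g, l⟩) h
    · rw [lin_bs]; exact Submodule.zero_mem _
    · rw [lin_bs]
      refine bs_mem ((hT _).2 ?_)
      have : ∀ a ∈ (g : G ⧸ ι.range).out :: g :: l, (a : G ⧸ ι.range) = g := fun a ha => by
        rcases List.mem_cons.1 ha with rfl | ha
        · exact QuotientGroup.out_eq' _
        · exact (hT _).1 h a ha g (by simp)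
      exact fun a ha b hb => (this a ha).trans (this b hb).symm
  · rintro (_ | ⟨g, l⟩)
    · rw [lin_bs]; exact Submodule.zero_mem _
    · rw [lin_bs]; exact bs_mem rfl
  · rintro (_ | ⟨g, l⟩) h h2
    · simp at h2
    · have e1 : lin f (d (bs (g :: l))) = cons (g : G ⧸ ι.range).out (d (bs (g :: l))) := by
        refine eq_on _ _ ?_ (d_bs_mem (g :: l))
        rintro (_ | ⟨a, m⟩) ⟨h3, h4⟩
        · simp only [List.length_nil] at h4; omega
        · rw [lin_bs, cons_bs, ← (hT _).1 h a (h3.subset (by simp)) g (by simp)]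
      rw [e1, lin_bs]
      show d (bs ((g : G ⧸ ι.range).out :: g :: l)) + _ = _
      rw [d_bs_cons, sub_add_cancel]
  · rw [lin_bs]
    exact d_two _ _

/-- The cokernel of `1 - FA` on `ℤ[G ⧸ ι A]` is `ℤ`: the range of `1 - FA` contains
`[g] - [g * s⁻¹ ^ p]`, and `g = s⁻¹ ^ p * ι a * s ^ q` gives `[g * s⁻¹ ^ q] = [1 * s⁻¹ ^ p]`. -/
theorem aug_eq_zero_iff (ι : A →* G) (s : G)
    (hgen : ∀ g, ∃ (p q : ℕ) (a : A), g = s⁻¹ ^ p * ι a * s ^ q)
    (r : G ⧸ ι.range → G ⧸ ι.range) (hr : ∀ g : G, r g = (g * s⁻¹ : G)) (x : (G ⧸ ι.range) →₀ ℤ) :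
    aug _ x = 0 ↔ ∃ y, y - Finsupp.lmapDomain ℤ ℤ r y = x := by
  constructor
  · intro hx
    set M := LinearMap.range (LinearMap.id - Finsupp.lmapDomain ℤ ℤ r) with hM
    have h1 : ∀ (g : G) (p : ℕ), Finsupp.single (g : G ⧸ ι.range) (1 : ℤ) -
        Finsupp.single ((g * s⁻¹ ^ p : G) : G ⧸ ι.range) 1 ∈ M := fun g p => by
      induction p with
      | zero => simp
      | succ p ih =>
        have : Finsupp.single ((g * s⁻¹ ^ p : G) : G ⧸ ι.range) (1 : ℤ) -
            Finsupp.single ((g * s⁻¹ ^ (p + 1) : G) : G ⧸ ι.range) 1 ∈ M :=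
          ⟨Finsupp.single ((g * s⁻¹ ^ p : G) : G ⧸ ι.range) 1, by
            rw [LinearMap.sub_apply, LinearMap.id_apply, Finsupp.lmapDomain_apply,
              Finsupp.mapDomain_single, hr, pow_succ, mul_assoc]⟩
        simpa only [sub_add_sub_cancel] using M.add_mem ih this
    have h2 : ∀ g : G, Finsupp.single (g : G ⧸ ι.range) (1 : ℤ) -
        Finsupp.single ((1 : G) : G ⧸ ι.range) 1 ∈ M := fun g => by
      obtain ⟨p, q, a, hg⟩ := hgen g
      have e : ((g * s⁻¹ ^ q : G) : G ⧸ ι.range) = ((1 * s⁻¹ ^ p : G) : G ⧸ ι.range) := by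
        refine (QuotientGroup.eq.2 (MonoidHom.mem_range.2 ⟨a, ?_⟩)).symm
        rw [hg]
        group
      have := M.sub_mem (h1 g q) (h1 1 p)
      rwa [e, sub_sub_sub_cancel_right] at this
    have h3 : ∀ y : (G ⧸ ι.range) →₀ ℤ,
        y - aug _ y • Finsupp.single ((1 : G) : G ⧸ ι.range) (1 : ℤ) ∈ M := fun y => by
      induction y using Finsupp.induction_linear with
      | zero => simp
      | add y z hy hz =>
        have := M.add_mem hy hz
        rw [map_add, add_smul]
        convert this using 1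
        abel
      | single c n =>
        obtain ⟨g, rfl⟩ := QuotientGroup.mk_surjective c
        have := M.smul_mem n (h2 g)
        rw [smul_sub, Finsupp.smul_single_one] at this
        rwa [aug_single]
    have := h3 x
    rw [hx, zero_smul, sub_zero] at this
    exact this
  · rintro ⟨y, rfl⟩
    have : aug _ ∘ₗ Finsupp.lmapDomain ℤ ℤ r = aug (G ⧸ ι.range) :=
      Finsupp.lhom_ext' fun c => LinearMap.ext_ring (by simp)
    rw [map_sub, ← LinearMap.comp_apply, this, sub_self]

end Crest.Agent.R185.Sw
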