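import Crest.Agent.R185.SwRips
import Crest.Agent.R185.FPGroup

/-!
# Row 185, the swindle: a tame endomorphism has an ascending HNN extension of type `FP_n`
-/

set_option autoImplicit false

namespace Crest.Agent.R185.Sw

open Function

variable {A G : Type} [Group A] [Group G]

theorem tel_rep (ι : A →* G) {l : List G} (h : Ty (Set.range ι) l) :
    ∃ m : List A, bs l = push (fun a => l.headD 1 * ι a) (bs m) ∧ m.length = l.length := by
  cases l with
  | nil => exact ⟨[], by simp, rfl⟩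
  | cons g l =>
    obtain ⟨m, hm⟩ := exists_eq_map ι h
    refine ⟨1 :: m, ?_, ?_⟩
    · rw [push_bs, List.headD_cons, ← hm]
    · rw [hm, List.length_map]

theorem tel_len_one {B : Type} {l : List B} (h : Len (0 + 1) l) : ∃ g, l = [g] :=
  List.length_eq_one_iff.1 h

theorem tel_d_mem {T : Set G} {j : ℕ} {σ : C G} (h : σ ∈ Rips T (j + 1)) : d σ ∈ Rips T j :=
  mem_rips.2 ⟨d_mem_ty (mem_rips.1 h).1, d_mem_len (mem_rips.1 h).2⟩

theorem tel_rips_mono {T T' : Set G} (hT : T ⊆ T') {j : ℕ} {σ : C G} (h : σ ∈ Rips T j) :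
    σ ∈ Rips T' j :=
  mem_rips.2 ⟨ty_mono hT (mem_rips.1 h).1, (mem_rips.1 h).2⟩

/-- `fp_of_telescope` with `D j = Rips (ι '' T) j`, `d`, `F j = Θ` restricted
(`LinearMap.restrict`), `A = permRep G (G ⧸ ι.range)`, `ε = lin (fun l => single ↑(l.headD 1) 1)`
restricted to `D 0`, `FA = lmapDomain r` with `r (g : G) = g * s⁻¹`, `π = aug`.
Every list of type `range ι` is `(1 :: m).map (g * ι ·)` (`exists_eq_map`), so `Θ` maps
`S (Ty (range ι))` into `S (Ty (ι '' T))`, keeps the length, commutes with `d` on lengths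
`≤ n + 1`, `Θ [g] = [g * s⁻¹]`, and lowers the height `(χ (l.headD 1)).toAdd` (all entries of
`Θ l` lie in `g * s⁻¹ * range ι`; the lists in the support are nonempty).  `1 ∈ T` by `of_bs_mem`.
A cycle `x` has `x = d (k x)` (in degree `0`: `d (k x) = x - L (ε x)` with
`L = linearCombination fun q => bs [q.out]`), so `Θ x = d (Θ (k x))`. -/
theorem isFP_of_tame (n : ℕ) (ψ : A →* A) (hψ : Tame n ψ) (ι : A →* G) (hι : Injective ι) (s : G)
    (hs : ∀ a, s * ι a * s⁻¹ = ι (ψ a)) (χ : G →* Multiplicative ℤ) (hχι : ∀ a, χ (ι a) = 1)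
    (hχs : 0 < (χ s).toAdd) (hgen : ∀ g, ∃ (p q : ℕ) (a : A), g = s⁻¹ ^ p * ι a * s ^ q) :
    IsFP G n := by
  obtain ⟨T, hT, θ, h0, h1, he, hl, hty, hd⟩ := hψ
  obtain ⟨Θ, hΘ1, hΘ2⟩ := exists_transport ψ ι hι s hs θ h0 he
  obtain ⟨k, hk1, hk2, hk3, hk4⟩ := exists_contraction ι
  have hTR : ι '' T ⊆ Set.range ι := Set.image_subset_range _ _
  have h1T : (1 : G) ∈ ι '' T := by
    have h := hty [1]
    rw [h1] at h
    refine ⟨_, of_bs_mem h (ψ 1) (by simp) (ψ 1) (by simp), by simp⟩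
  have hΘR : ∀ j, ∀ σ ∈ Rips (Set.range ι) j, Θ σ ∈ Rips (ι '' T) j := by
    intro j σ hσ
    refine map_mem Θ _ (fun l hl' => ?_) hσ
    obtain ⟨m, hm, hml⟩ := tel_rep ι hl'.1
    rw [hm, hΘ1]
    refine mem_rips.2 ⟨push_mem_ty' (T := T) (T' := ι '' T) (fun a b h => ⟨a⁻¹ * b, h, ?_⟩)
      (hty m), push_mem_len _ ?_⟩
    · simp [mul_assoc]
    · have := hl m
      rwa [hml, show l.length = j + 1 from hl'.2] at this
  have hΘd : ∀ j ≤ n, ∀ σ ∈ Rips (Set.range ι) j, d (Θ σ) = Θ (d σ) := by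
    intro j hj σ hσ
    refine eq_on (d ∘ₗ Θ) (Θ ∘ₗ d) (fun l hl' => ?_) hσ
    obtain ⟨m, hm, hml⟩ := tel_rep ι hl'.1
    have h2 : m.length ≤ n + 1 := by
      rw [hml, show l.length = j + 1 from hl'.2]; omega
    rw [LinearMap.comp_apply, LinearMap.comp_apply, hm, hΘ1, d_push, d_push, hΘ1, hd m h2]
  have hΘ0 : ∀ g : G, Θ (bs [g]) = bs [g * s⁻¹] := by
    intro g
    have := hΘ1 g (bs [1])
    rw [h1] at this
    simpa using this
  have hkR : ∀ j, ∀ σ ∈ Rips (Set.range ι) j, k σ ∈ Rips (Set.range ι) (j + 1) := by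
    intro j σ hσ
    refine map_mem k _ (fun l hl' => mem_rips.2 ⟨hk1 l hl'.1, ?_⟩) hσ
    have := hk2 l
    rwa [show l.length = j + 1 from hl'.2] at this
  -- the augmentation to the cosets
  let E : C G →ₗ[ℤ] (G ⧸ ι.range →₀ ℤ) :=
    lin fun l => Finsupp.single ((l.headD 1 : G) : G ⧸ ι.range) 1
  have hE : ∀ (g : G) l, E (bs (g :: l)) = Finsupp.single (g : G ⧸ ι.range) 1 := fun g l =>
    lin_bs _ _
  let L : (G ⧸ ι.range →₀ ℤ) →ₗ[ℤ] C G := Finsupp.linearCombination ℤ fun q => bs [q.out]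
  have hL : ∀ q, L (Finsupp.single q 1) = bs [q.out] := fun q => by simp [L]
  have hEL : ∀ c, E (L c) = c := by
    intro c
    have : E ∘ₗ L = LinearMap.id := by
      refine Finsupp.lhom_ext' fun q => LinearMap.ext_ring ?_
      simp [hL, hE]
    exact LinearMap.congr_fun this c
  have hLm : ∀ c, L c ∈ Rips (ι '' T) 0 := by
    intro c
    induction c using Finsupp.induction_linear with
    | zero => simp
    | add a b ha hb => rw [map_add]; exact Submodule.add_mem _ ha hb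
    | single q m =>
      rw [← mul_one m, ← smul_eq_mul, ← Finsupp.smul_single, map_smul, hL]
      refine Submodule.smul_mem _ _ (bs_mem ⟨fun a ha b hb => ?_, rfl⟩)
      rw [List.mem_singleton.1 ha, List.mem_singleton.1 hb, inv_mul_cancel]
      exact h1T
  let r : G ⧸ ι.range → G ⧸ ι.range := Quotient.map' (fun g => g * s⁻¹) (by
    intro a b h
    rw [QuotientGroup.leftRel_apply] at h ⊢
    obtain ⟨c, hc⟩ := h
    exact ⟨ψ c, by rw [← hs, hc]; group⟩)
  have hr : ∀ g : G, r g = (g * s⁻¹ : G) := fun _ => rfl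
  let hq : G ⧸ ι.range → ℤ := Quotient.lift (fun g => (χ g).toAdd) (by
    intro a b h
    obtain ⟨c, hc⟩ := QuotientGroup.leftRel_apply.1 h
    have := hχι c
    rw [hc, map_mul, map_inv, inv_mul_eq_one] at this
    simp only [this])
  have hhq : ∀ g : G, hq g = (χ g).toAdd := fun _ => rfl
  refine fp_of_telescope n (fun j => Rips (ι '' T) j) (fun j => ripsRep (ι '' T) j)
    (fun j _ => fpinf_rips (hT.image _) j)
    (fun j => d.restrict fun _ h => tel_d_mem h) (fun j g x => Subtype.ext (d_push _ _))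
    (α := permRep G (G ⧸ ι.range)) (E ∘ₗ Submodule.subtype _) (fun g x => ?_)
    (fun c => ⟨⟨L c, hLm c⟩, hEL c⟩) (fun x => ?_) (fun j x => Subtype.ext (d_d _))
    (fun j => Θ.restrict fun _ h => hΘR j _ (tel_rips_mono hTR h))
    (fun j g x => Subtype.ext (hΘ2 _ _)) (Finsupp.lmapDomain ℤ ℤ r)
    (eqv_of_single fun g q => ?_) (fun x => ?_)
    (fun j hj x => Subtype.ext (hΘd (j + 1) hj _ (tel_rips_mono hTR x.2)))
    (fun j _ x hx => Subtype.ext ?_) (fun x hx => ?_) (fun hn x hx => ?_) (fun j hj x hx => ?_)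
    (aug _) (eqv_aug _) (fun m => ⟨Finsupp.single ((1 : G) : G ⧸ ι.range) m, aug_single _ _⟩)
    (aug_eq_zero_iff ι s hgen r hr)
  · refine eq_on (E ∘ₗ push (g * ·)) (permRep G (G ⧸ ι.range) g ∘ₗ E) (fun l hl' => ?_)
      (mem_rips.1 x.2).2
    obtain ⟨a, rfl⟩ := tel_len_one hl'
    simp only [LinearMap.comp_apply, push_bs, List.map_cons, hE, permRep_single]
    rfl
  · refine eq_on (E ∘ₗ d) 0 (fun l hl' => ?_) x.2
    obtain ⟨a, b, rfl⟩ := List.length_eq_two.1 (show l.length = 2 from hl'.2)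
    have h : (a : G ⧸ ι.range) = b :=
      QuotientGroup.eq.2 (hTR (hl'.1 a (by simp) b (by simp)))
    rw [LinearMap.comp_apply, d_two, map_sub, hE, hE, h, sub_self, LinearMap.zero_apply]
  · induction q using QuotientGroup.induction_on with
    | H a =>
      simp only [Finsupp.lmapDomain_apply, Finsupp.mapDomain_single, permRep_single]
      change Finsupp.single ((g * a * s⁻¹ : G) : G ⧸ ι.range) (1 : ℤ) =
        Finsupp.single ((g * (a * s⁻¹) : G) : G ⧸ ι.range) (1 : ℤ)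
      rw [mul_assoc]
  · refine eq_on (E ∘ₗ Θ) (Finsupp.lmapDomain ℤ ℤ r ∘ₗ E) (fun l hl' => ?_) (mem_rips.1 x.2).2
    obtain ⟨a, rfl⟩ := tel_len_one hl'
    simp only [LinearMap.comp_apply, hΘ0, hE, Finsupp.lmapDomain_apply, Finsupp.mapDomain_single,
      hr]
  · refine eq_zero_of_height Θ (fun l => (χ (l.headD 1)).toAdd)
      (fun l => Ty (Set.range ι) l ∧ Len (j + 1) l) (fun l hl' y hy => ?_) x.1
      (mem_S.1 (tel_rips_mono hTR x.2)) (congrArg Subtype.val hx)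
    have h2 : Len (j + 1) y := (mem_S.1 (hΘR j _ (bs_mem hl')) y hy).2
    have h3 : Θ (bs l) ∈ S (En {x | χ x = χ (l.headD 1 * s⁻¹)}) := by
      obtain ⟨m, hm, -⟩ := tel_rep ι hl'.1
      rw [hm, hΘ1]
      refine push_mem_en (X := Set.univ) (fun a _ => ?_) (S_mono (fun _ _ _ _ => trivial)
        (mem_S_true _))
      change χ _ = χ _
      rw [map_mul χ _ (ι a), hχι, mul_one]
    cases y with
    | nil => exact absurd h2 (by simp [Len])
    | cons a y =>
      have h4 : χ a = χ (l.headD 1 * s⁻¹) := mem_S.1 h3 _ hy a (by simp)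
      simp only [List.headD_cons, h4, map_mul, map_inv, toAdd_mul, toAdd_inv]
      omega
  · refine eq_zero_of_height _ hq (fun _ => True) (fun q _ y hy => ?_) x (fun _ _ => trivial) hx
    induction q using QuotientGroup.induction_on with
    | H a =>
      rw [Finsupp.lmapDomain_apply, Finsupp.mapDomain_single, hr] at hy
      obtain rfl : y = (a * s⁻¹ : G) := by
        by_contra h
        exact hy (Finsupp.single_eq_of_ne h)
      simp only [hhq, map_mul, map_inv, toAdd_mul, toAdd_inv]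
      omega
  · have hx' : E x.1 = 0 := hx
    have h2 := hkR 0 _ (tel_rips_mono hTR x.2)
    refine ⟨⟨Θ (k x.1), hΘR 1 _ h2⟩, Subtype.ext ?_⟩
    change d (Θ (k x.1)) = Θ x.1
    have h3 : d (k x.1) = x.1 - L (E x.1) := by
      refine eq_on (d ∘ₗ k) (LinearMap.id - L ∘ₗ E) (fun l hl' => ?_) (mem_rips.1 x.2).2
      obtain ⟨a, rfl⟩ := tel_len_one hl'
      simp only [LinearMap.comp_apply, hk4, LinearMap.sub_apply, LinearMap.id_apply, hE, hL]
    rw [hΘd 1 hn _ h2, h3, hx', map_zero, sub_zero]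
  · have hx' : d x.1 = 0 := congrArg Subtype.val hx
    have h2 := hkR (j + 1) _ (tel_rips_mono hTR x.2)
    refine ⟨⟨Θ (k x.1), hΘR (j + 2) _ h2⟩, Subtype.ext ?_⟩
    change d (Θ (k x.1)) = Θ x.1
    have h3 : d (k x.1) + k (d x.1) = x.1 := by
      refine eq_on (d ∘ₗ k + k ∘ₗ d) LinearMap.id (fun l hl' => hk3 l hl'.1 ?_)
        (tel_rips_mono hTR x.2)
      rw [show l.length = j + 1 + 1 from hl'.2]
      omega
    rw [hx', map_zero, add_zero] at h3
    rw [hΘd (j + 2) hj _ h2, h3]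

/-- Passage to a power.  `K = (zpowers (ofAdd J)).comap χ` has finite index, contains `ι A` and
`s = t ^ J`; `t⁻¹ ^ p * ι a * t ^ q = t⁻¹ ^ (p + i) * ι (φ^[i] a) * t ^ (q + i)`, choose `i` with
`J ∣ p + i`, then `J ∣ q + i` for elements of `K`.  `isFP_of_tame` for `K`, then
`isFP_iff_of_hom K.subtype` (`isFPinf_of_subsingleton`). -/
theorem isFP_of_tame_pow (n J : ℕ) (hJ : 0 < J) (φ ψ : A →* A) (hφ : ⇑ψ = φ^[J]) (hψ : Tame n ψ)
    (ι : A →* G) (hι : Injective ι) (t : G) (ht : ∀ a, t * ι a * t⁻¹ = ι (φ a))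
    (χ : G →* Multiplicative ℤ) (hχt : χ t = Multiplicative.ofAdd 1) (hχι : ∀ a, χ (ι a) = 1)
    (hgen : ∀ g, ∃ (p q : ℕ) (a : A), g = t⁻¹ ^ p * ι a * t ^ q) : IsFP G n := by
  have : NeZero J := ⟨hJ.ne'⟩
  let K : Subgroup G :=
    ((AddMonoidHom.toMultiplicative (Int.castAddHom (ZMod J))).comp χ).ker
  have hK : ∀ g, g ∈ K ↔ (J : ℤ) ∣ (χ g).toAdd := fun g =>
    (show g ∈ K ↔ (((χ g).toAdd : ℤ) : ZMod J) = 0 from Iff.rfl).trans
      (ZMod.intCast_zmod_eq_zero_iff_dvd _ _)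
  have hit : ∀ (i : ℕ) a, t ^ i * ι a * (t ^ i)⁻¹ = ι (φ^[i] a) := by
    intro i a
    induction i with
    | zero => simp
    | succ i ih => rw [iterate_succ_apply', ← ht, ← ih, pow_succ']; group
  have hιK : ∀ a, ι a ∈ K := fun a => (hK _).2 (by simp [hχι])
  have hsK : t ^ J ∈ K := (hK _).2 (by simp [hχt])
  have h1 : IsFP K n := by
    refine isFP_of_tame n ψ hψ (ι.codRestrict K hιK) (fun a b h => hι (congrArg Subtype.val h))
      ⟨t ^ J, hsK⟩ (fun a => Subtype.ext ?_) (χ.comp K.subtype) hχι ?_ ?_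
    · change t ^ J * ι a * (t ^ J)⁻¹ = ι (ψ a)
      rw [hit, hφ]
    · simpa [hχt] using hJ
    · rintro ⟨g, hg⟩
      obtain ⟨p, q, a, rfl⟩ := hgen g
      rw [hK] at hg
      simp only [map_mul, map_pow, map_inv, hχt, hχι, mul_one, toAdd_mul, toAdd_pow, toAdd_inv,
        toAdd_ofAdd, smul_neg, nsmul_eq_mul] at hg
      obtain ⟨J, rfl⟩ : ∃ J', J = J' + 1 := ⟨J - 1, by omega⟩
      have h2 : ((J + 1 : ℕ) : ℤ) ∣ ((q + J * p : ℕ) : ℤ) := by
        have : ((q + J * p : ℕ) : ℤ) = (-(p : ℤ) + q) + ((J + 1 : ℕ) : ℤ) * p := by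
          push_cast; ring
        rw [this]
        exact dvd_add hg (dvd_mul_right _ _)
      obtain ⟨q', hq'⟩ := Int.natCast_dvd_natCast.1 h2
      refine ⟨p, q', φ^[J * p] a, Subtype.ext ?_⟩
      change t⁻¹ ^ p * ι a * t ^ q = (t ^ (J + 1))⁻¹ ^ p * ι (φ^[J * p] a) * (t ^ (J + 1)) ^ q'
      rw [← hit, ← pow_mul t (J + 1) q', ← hq', inv_pow, inv_pow, ← pow_mul, add_mul, one_mul,
        add_comm (J * p) p, add_comm q, pow_add, pow_add]
      group
  have : K.subtype.range.FiniteIndex := by rw [Subgroup.range_subtype]; infer_instance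
  refine (isFP_iff_of_hom K.subtype ?_ n).1 h1
  rw [Subgroup.ker_subtype]
  exact isFPinf_of_subsingleton

end Crest.Agent.R185.Sw
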