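import Crest.Agent.R185.SwKey
import Crest.Agent.R185.SwNull
import Crest.Agent.R185.SwTel

/-!
# Row 185: the swindle

An ascending HNN extension along a `Killed` endomorphism whose image lies in a finitely generated
subgroup is of type `FP_∞`.
-/

set_option autoImplicit false

namespace Crest.Agent.R185

open Function Sw

variable {A G : Type} [Group A] [Group G]

theorem Sw.exists_null {φ : A →* A} (hk : Killed φ) (K : Subgroup A) (hK : K.FG)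
    (hφ : φ.range ≤ K) (n : ℕ) :
    (∃ (J : ℕ) (ψ : A →* A), ⇑ψ = φ^[J] ∧ Null n ψ) ∧
      ∃ (J : ℕ) (ψ : A →* A), ⇑ψ = φ^[J] ∧ push ψ ∈ U A A n := by
  induction n with
  | zero => exact ⟨⟨1, φ, rfl, null_zero φ⟩, 1, φ, rfl, push_mem_U_zero φ K hK hφ⟩
  | succ n ih =>
    obtain ⟨⟨J, ψ, h1, h2⟩, J', ψ', h1', h2'⟩ := ih
    have h3 : ⇑(ψ'.comp ψ) = φ^[J' + J] := by rw [MonoidHom.coe_comp, h1, h1', iterate_add]
    refine ⟨⟨_, _, h3, h2.step h2'⟩, J' + J + 1, φ.comp (ψ'.comp ψ), ?_,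
      mem_U_of_killed (Nat.succ_pos n) (h2.step h2') hk⟩
    rw [MonoidHom.coe_comp, h3, iterate_succ']

theorem Sw.exists_tame {φ : A →* A} (hk : Killed φ) (K : Subgroup A) (hK : K.FG)
    (hφ : φ.range ≤ K) (n : ℕ) : ∃ J, 0 < J ∧ ∃ ψ : A →* A, ⇑ψ = φ^[J] ∧ Tame n ψ := by
  induction n with
  | zero => exact ⟨1, one_pos, φ, rfl, tame_zero φ⟩
  | succ n ih =>
    obtain ⟨J, hJ, ψ, h1, h2⟩ := ih
    obtain ⟨J', ψ', h1', h2'⟩ := (exists_null hk K hK hφ n).2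
    exact ⟨J' + J, by omega, ψ'.comp ψ, by rw [MonoidHom.coe_comp, h1, h1', iterate_add],
      h2.step h2'⟩

/-- **The swindle.** -/
theorem swindle (φ : A →* A) (hk : Killed φ) (hfg : ∃ K : Subgroup A, K.FG ∧ φ.range ≤ K)
    (ι : A →* G) (hι : Injective ι) (t : G) (ht : ∀ a, t * ι a * t⁻¹ = ι (φ a))
    (χ : G →* Multiplicative ℤ) (hχt : χ t = Multiplicative.ofAdd 1) (hχι : ∀ a, χ (ι a) = 1)
    (hgen : ∀ g, ∃ (p q : ℕ) (a : A), g = t⁻¹ ^ p * ι a * t ^ q) : IsFPinf G := fun n => by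
  obtain ⟨K, hK, hφ⟩ := hfg
  obtain ⟨J, hJ, ψ, h1, h2⟩ := exists_tame hk K hK hφ n
  exact isFP_of_tame_pow n J hJ φ ψ h1 h2 ι hι t ht χ hχt hχι hgen

end Crest.Agent.R185
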