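import Crest.Agent.R185.TDefs

/-! # Row 185, twisted Brin–Thompson groups: elementary facts on charts and on `Ex` -/

set_option autoImplicit false

open scoped Classical

namespace Crest.Agent.R185.TB

variable {Ω Γ : Type} [Group Γ] [MulAction Γ Ω]

theorem hs_comm {s t : Ω} (h : s ≠ t) (a b : Bool) : hs s a * hs t b = hs t b * hs s a := by
  ext κ : 2
  funext u
  simp only [Chart.mul_apply, hs]
  by_cases h1 : u = s
  · subst h1; simp [h]
  · by_cases h2 : u = t
    · subst h2; simp [h1]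
    · simp [h1, h2]

theorem tw_hs (γ : Γ) (s : Ω) (b : Bool) :
    pc (tw Γ γ) * hs s b = hs (γ • s) b * pc (tw Γ γ) := by
  ext κ : 2
  funext u
  simp only [Chart.mul_apply, pc_apply, hs, tw_apply]
  by_cases h1 : u = γ • s
  · subst h1; simp
  · have h2 : γ⁻¹ • u ≠ s := fun h => h1 (by rw [← h]; simp)
    simp [h1, h2, tw_apply]

theorem tw_hL (γ : Γ) (L : List (Ω × Bool)) :
    pc (tw Γ γ) * hL L = hL (L.map fun e => (γ • e.1, e.2)) * pc (tw Γ γ) := by
  induction L with
  | nil => simp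
  | cons e L ih => rw [hL_cons, List.map_cons, hL_cons, ← mul_assoc, tw_hs, mul_assoc, ih, mul_assoc]

theorem hL_comm {s : Ω} {L : List (Ω × Bool)} (h : ∀ e ∈ L, e.1 ≠ s) (b : Bool) :
    hL L * hs s b = hs s b * hL L := by
  induction L with
  | nil => simp
  | cons e L ih =>
    rw [hL_cons, mul_assoc, ih fun e he => h e (List.mem_cons_of_mem _ he), ← mul_assoc,
      hs_comm (h e List.mem_cons_self), mul_assoc]

theorem mem_rg_hs {s : Ω} {b : Bool} {κ : Cs Ω} : κ ∈ (hs s b).rg ↔ (κ s).head = b := by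
  constructor
  · rintro ⟨κ', rfl⟩
    simp [hs]
  · intro h
    refine ⟨Function.update κ s (κ s).tail, ?_⟩
    simp only [hs, Function.update_self, Function.update_idem]
    rw [← h, Stream'.eta]
    simp

theorem rg_mul (φ ψ : Chart Ω) : (φ * ψ).rg = φ '' ψ.rg := by
  rw [Chart.rg, Chart.rg, ← Set.range_comp]
  rfl

theorem rg_mul_subset (φ ψ : Chart Ω) : (φ * ψ).rg ⊆ φ.rg := by
  rw [rg_mul]
  exact Set.image_subset_range _ _

theorem rg_mul_subset_iff (φ ψ ψ' : Chart Ω) : (φ * ψ).rg ⊆ (φ * ψ').rg ↔ ψ.rg ⊆ ψ'.rg := by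
  rw [rg_mul, rg_mul]
  exact Set.image_subset_image_iff φ.inj

theorem disjoint_halves (φ : Chart Ω) (s : Ω) :
    Disjoint (φ * hs s false).rg (φ * hs s true).rg := by
  rw [rg_mul, rg_mul, Set.disjoint_image_iff φ.inj, Set.disjoint_left]
  intro κ h1 h2
  rw [mem_rg_hs] at h1 h2
  rw [h1] at h2
  exact Bool.false_ne_true h2

theorem union_halves (φ : Chart Ω) (s : Ω) :
    (φ * hs s false).rg ∪ (φ * hs s true).rg = φ.rg := by
  rw [rg_mul, rg_mul, ← Set.image_union]
  have : (hs s false).rg ∪ (hs s true).rg = Set.univ := by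
    ext κ
    simp only [Set.mem_union, mem_rg_hs, Set.mem_univ, iff_true]
    cases (κ s).head <;> simp
  rw [this, Set.image_univ]
  rfl

/-- a colour that occurs in `L` decides a half (induction on `L`) -/
theorem rg_hL_subset {L : List (Ω × Bool)} {e : Ω × Bool} (he : e ∈ L) :
    ∃ b, (hL L).rg ⊆ (hs e.1 b).rg := by
  induction L with
  | nil => simp at he
  | cons e' L ih =>
    by_cases h1 : e'.1 = e.1
    · refine ⟨e'.2, ?_⟩
      rw [hL_cons, h1]
      exact rg_mul_subset _ _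
    · rcases List.mem_cons.1 he with h2 | h2
      · exact absurd (by rw [h2]) h1
      · obtain ⟨b, hb⟩ := ih h2
        refine ⟨b, ?_⟩
        rw [hL_cons]
        refine ((rg_mul_subset_iff _ _ _).2 hb).trans ?_
        rw [hs_comm h1]
        exact rg_mul_subset _ _

/-- conversely (otherwise `hL L * hs s (!b) = hs s (!b) * hL L` has points in the other half) -/
theorem mem_of_rg_hL_subset {L : List (Ω × Bool)} {s : Ω} {b : Bool}
    (h : (hL L).rg ⊆ (hs s b).rg) : ∃ e ∈ L, e.1 = s := by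
  by_contra hne
  push Not at hne
  have h1 := hL_comm hne (!b)
  have h2 : (hL L * hs s (!b)) (fun _ => Stream'.const false) ∈ (hs s b).rg := h ⟨_, rfl⟩
  have h3 : (hL L * hs s (!b)) (fun _ => Stream'.const false) ∈ (hs s (!b)).rg := by
    rw [h1]; exact ⟨_, rfl⟩
  rw [mem_rg_hs] at h2 h3
  rw [h2] at h3
  cases b <;> simp at h3

theorem eq_of_rg_hs_subset {s t : Ω} {a b : Bool} (h : (hs s a).rg ⊆ (hs t b).rg) : s = t := by
  have h1 : (hL [(s, a)]).rg ⊆ (hs t b).rg := by simpa using h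
  obtain ⟨e, he, h2⟩ := mem_of_rg_hL_subset h1
  rw [List.mem_singleton] at he
  rw [← h2, he]

theorem tw_injective [FaithfulSMul Γ Ω] : Function.Injective (tw (Ω := Ω) Γ) := by
  rw [injective_iff_map_eq_one]
  intro γ h
  have h1 : ∀ s : Ω, γ⁻¹ • s = s := by
    intro s
    by_contra hne
    have := congrFun (Equiv.congr_fun h fun t => Stream'.const (decide (t = s))) s
    rw [tw_apply] at this
    have h2 := congrArg Stream'.head this
    simp [hne, Stream'.head] at h2
  have h2 : γ⁻¹ = 1 := eq_of_smul_eq_smul (α := Ω) fun s => by rw [h1, one_smul]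
  simpa using h2

theorem Chart.mul_left_cancel {e φ ψ : Chart Ω} (h : e * φ = e * ψ) : φ = ψ := by
  ext κ : 2
  exact e.inj (congrFun (congrArg Chart.toFun h) κ)

theorem rng_nonempty (p : Piece Ω Γ) : (rng p).Nonempty := by
  obtain ⟨φ, rfl⟩ := exists_pm p
  exact ⟨_, ⟨fun _ => Stream'.const false, rfl⟩⟩

theorem rng_smul (e : Chart Ω) (p : Piece Ω Γ) : rng (e • p) = e '' rng p := by
  obtain ⟨φ, rfl⟩ := exists_pm p
  rw [smul_pm, rng_pm, rng_pm, rg_mul]

theorem smul_piece_injective (e : Chart Ω) : Function.Injective fun p : Piece Ω Γ => e • p := by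
  intro p q h
  obtain ⟨φ, rfl⟩ := exists_pm p
  obtain ⟨ψ, rfl⟩ := exists_pm q
  simp only [smul_pm] at h
  obtain ⟨γ, hγ⟩ := pm_eq_iff.1 h
  rw [mul_assoc] at hγ
  exact pm_eq_iff.2 ⟨γ, Chart.mul_left_cancel hγ⟩

theorem Ex.subset {p : Piece Ω Γ} {T : Finset (Piece Ω Γ)} (h : Ex p T) :
    ∀ q ∈ T, rng q ⊆ rng p := by
  induction h with
  | refl p => intro q hq; rw [Finset.mem_singleton.1 hq]
  | split φ s _ _ ih0 ih1 =>
    intro q hq
    rcases Finset.mem_union.1 hq with h | h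
    · exact (ih0 q h).trans (rg_mul_subset _ _)
    · exact (ih1 q h).trans (rg_mul_subset _ _)

theorem Ex.supp_eq {p : Piece Ω Γ} {T : Finset (Piece Ω Γ)} (h : Ex p T) : supp T = rng p := by
  induction h with
  | refl p => ext κ; simp [supp]
  | split φ s _ _ ih0 ih1 =>
    rw [rng_pm] at ih0 ih1 ⊢
    rw [← union_halves φ s, ← ih0, ← ih1]
    ext κ
    simp only [supp, Finset.mem_union, Set.mem_ofPred_eq, Set.mem_union, or_and_right, exists_or]

theorem Ex.disj {p : Piece Ω Γ} {T : Finset (Piece Ω Γ)} (h : Ex p T) : Disj T := by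
  induction h with
  | refl p =>
    intro a ha b hb hab
    rw [Finset.mem_singleton] at ha hb
    exact absurd (ha.trans hb.symm) hab
  | split φ s h0 h1 ih0 ih1 =>
    intro a ha b hb hab
    rcases Finset.mem_union.1 ha with ha | ha <;> rcases Finset.mem_union.1 hb with hb | hb
    · exact ih0 a ha b hb hab
    · exact (disjoint_halves φ s).mono (h0.subset a ha) (h1.subset b hb)
    · exact (disjoint_halves φ s).symm.mono (h1.subset a ha) (h0.subset b hb)
    · exact ih1 a ha b hb hab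

theorem Ex.nonempty {p : Piece Ω Γ} {T : Finset (Piece Ω Γ)} (h : Ex p T) : T.Nonempty := by
  induction h with
  | refl p => exact Finset.singleton_nonempty p
  | split φ s _ _ ih0 _ => exact ih0.mono Finset.subset_union_left

theorem Ex.eq_of_mem {p : Piece Ω Γ} {T : Finset (Piece Ω Γ)} (h : Ex p T) (hp : p ∈ T) :
    T = {p} := by
  cases h with
  | refl p => rfl
  | split φ s h0 h1 =>
    exfalso
    have hd := disjoint_halves φ s
    rcases Finset.mem_union.1 hp with hp | hp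
    · obtain ⟨κ, hκ⟩ := rng_nonempty (pm Γ (φ * hs s true))
      exact Set.disjoint_left.1 hd (h0.subset _ hp (rg_mul_subset _ _ hκ)) hκ
    · obtain ⟨κ, hκ⟩ := rng_nonempty (pm Γ (φ * hs s false))
      exact Set.disjoint_left.1 hd hκ (h1.subset _ hp (rg_mul_subset _ _ hκ))
theorem Ex.disjoint_split {φ : Chart Ω} {s : Ω} {T₀ T₁ : Finset (Piece Ω Γ)}
    (h0 : Ex (pm Γ (φ * hs s false)) T₀) (h1 : Ex (pm Γ (φ * hs s true)) T₁) : Disjoint T₀ T₁ := by
  rw [Finset.disjoint_left]
  intro q hq0 hq1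
  obtain ⟨κ, hκ⟩ := rng_nonempty q
  exact Set.disjoint_left.1 (disjoint_halves φ s) (h0.subset q hq0 hκ) (h1.subset q hq1 hκ)


theorem Ex.eq_of_card {p : Piece Ω Γ} {T : Finset (Piece Ω Γ)} (h : Ex p T) (hc : T.card ≤ 1) :
    T = {p} := by
  cases h with
  | refl p => rfl
  | split φ s h0 h1 =>
    exfalso
    rw [Finset.card_union_of_disjoint (h0.disjoint_split h1)] at hc
    have := h0.nonempty.card_pos
    have := h1.nonempty.card_pos
    omega

/-- grafting -/
theorem Ex.graft {p : Piece Ω Γ} {T : Finset (Piece Ω Γ)} (h : Ex p T)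
    {T' : Piece Ω Γ → Finset (Piece Ω Γ)} (h' : ∀ q ∈ T, Ex q (T' q)) : Ex p (T.biUnion T') := by
  induction h with
  | refl p =>
    rw [Finset.singleton_biUnion]
    exact h' p (Finset.mem_singleton_self p)
  | split φ s _ _ ih0 ih1 =>
    rw [Finset.union_biUnion]
    exact Ex.split φ s (ih0 fun q hq => h' q (Finset.mem_union_left _ hq))
      (ih1 fun q hq => h' q (Finset.mem_union_right _ hq))

theorem Ex.smul {p : Piece Ω Γ} {T : Finset (Piece Ω Γ)} (h : Ex p T) (e : Chart Ω) :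
    Ex (e • p) (T.image fun q => e • q) := by
  induction h with
  | refl p => rw [Finset.image_singleton]; exact Ex.refl _
  | split φ s _ _ ih0 ih1 =>
    rw [Finset.image_union]
    exact Ex.split (e * φ) s ih0 ih1

/-- pull-back along a chart (generalise `e • p`; in the `split` case `φ = e * φ₀ * tw γ`) -/
theorem Ex.pull {p : Piece Ω Γ} {e : Chart Ω} {T : Finset (Piece Ω Γ)} (h : Ex (e • p) T) :
    ∃ T₀, Ex p T₀ ∧ T = T₀.image fun q => e • q := by
  generalize hp' : e • p = p' at h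
  induction h generalizing p with
  | refl p' => exact ⟨{p}, Ex.refl p, by rw [Finset.image_singleton, hp']⟩
  | split φ s _ _ ih0 ih1 =>
    obtain ⟨φ₀, rfl⟩ := exists_pm p
    obtain ⟨γ, rfl⟩ := pm_eq_iff.1 (show pm Γ (e * φ₀) = pm Γ φ from hp')
    obtain ⟨T₀, a0, rfl⟩ := ih0 (p := pm Γ (φ₀ * pc (tw Γ γ) * hs s false)) rfl
    obtain ⟨T₁, a1, rfl⟩ := ih1 (p := pm Γ (φ₀ * pc (tw Γ γ) * hs s true)) rfl
    refine ⟨T₀ ∪ T₁, ?_, by rw [Finset.image_union]⟩
    rw [← pm_tw φ₀ γ]
    exact Ex.split _ s a0 a1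

/-- addresses (state it for all `φ` with `pm φ = p`; use `tw_hs`, `tw_hL`; the two halves have
disjoint nonempty expansions, so the cardinalities add) -/
theorem Ex.addr {φ : Chart Ω} {T : Finset (Piece Ω Γ)} (h : Ex (pm Γ φ) T) :
    ∀ q ∈ T, ∃ L : List (Ω × Bool), q = pm Γ (φ * hL L) ∧ L.length < T.card := by
  generalize hp : pm Γ φ = p at h
  induction h generalizing φ with
  | refl p =>
    intro q hq
    exact ⟨[], by rw [Finset.mem_singleton.1 hq, ← hp]; simp, by simp⟩
  | split ψ s h0 h1 ih0 ih1 =>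
    obtain ⟨γ, rfl⟩ := pm_eq_iff.1 hp
    have e : ∀ b, pm Γ (φ * hs (γ • s) b) = pm Γ (φ * pc (tw Γ γ) * hs s b) := by
      intro b
      rw [mul_assoc, tw_hs, ← mul_assoc, pm_tw]
    intro q hq
    rw [Finset.card_union_of_disjoint (h0.disjoint_split h1)]
    have := h0.nonempty.card_pos
    have := h1.nonempty.card_pos
    rcases Finset.mem_union.1 hq with hq | hq
    · obtain ⟨L, hL1, hL2⟩ := ih0 (e false) q hq
      exact ⟨(γ • s, false) :: L, by rw [hL1, hL_cons, mul_assoc], by simp only [List.length_cons]; omega⟩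
    · obtain ⟨L, hL1, hL2⟩ := ih1 (e true) q hq
      exact ⟨(γ • s, true) :: L, by rw [hL1, hL_cons, mul_assoc], by simp only [List.length_cons]; omega⟩

/-- how a piece is cut by two halves -/
def Cut (H : Bool → Set (Cs Ω)) (q : Piece Ω Γ) (A : Finset (Piece Ω Γ)) : Prop :=
  (A = {q} ∧ ∃ b, rng q ⊆ H b) ∨ ∃ ψ t, q = pm Γ ψ ∧
    A = {pm Γ (ψ * hs t false), pm Γ (ψ * hs t true)} ∧ ∀ b, (ψ * hs t b).rg ⊆ H b

theorem mem_union_b {T : Bool → Finset (Piece Ω Γ)} {q : Piece Ω Γ} :
    q ∈ T false ∪ T true ↔ ∃ b, q ∈ T b := by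
  rw [Finset.mem_union, Bool.exists_bool]

/-- induction on `Ex` with the two halves indexed by `Bool` -/
theorem Ex.ind_b {motive : ∀ (p : Piece Ω Γ) (T : Finset (Piece Ω Γ)), Ex p T → Prop}
    (refl : ∀ p, motive p {p} (Ex.refl p))
    (split : ∀ (φ : Chart Ω) (s : Ω) (T : Bool → Finset (Piece Ω Γ))
      (hT : ∀ b, Ex (pm Γ (φ * hs s b)) (T b)), (∀ b, motive _ _ (hT b)) →
        motive _ _ (Ex.split φ s (hT false) (hT true)))
    {p : Piece Ω Γ} {T : Finset (Piece Ω Γ)} (h : Ex p T) : motive p T h := by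
  induction h with
  | refl p => exact refl p
  | @split φ s T₀ T₁ h₀ h₁ i₀ i₁ =>
    exact split φ s (fun b => cond b T₁ T₀) (fun b => by cases b; exacts [h₀, h₁])
      fun b => by cases b; exacts [i₀, i₁]

theorem half_eq {φ : Chart Ω} {s : Ω} {a b : Bool} {q : Piece Ω Γ} (ha : rng q ⊆ (φ * hs s a).rg)
    (hb : rng q ⊆ (φ * hs s b).rg) : a = b := by
  obtain ⟨κ, hκ⟩ := rng_nonempty q
  have h := Set.disjoint_left.1 (disjoint_halves φ s)
  cases a <;> cases b
  exacts [rfl, (h (ha hκ) (hb hκ)).elim, (h (hb hκ) (ha hκ)).elim, rfl]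

theorem exists_pm_hs {φ ψ : Chart Ω} (h : pm Γ φ = pm Γ ψ) (t : Ω) :
    ∃ t', ∀ a, pm Γ (φ * hs t' a) = pm Γ (ψ * hs t a) := by
  obtain ⟨γ, rfl⟩ := pm_eq_iff.1 h
  exact ⟨γ • t, fun a => by rw [mul_assoc, tw_hs, ← mul_assoc, pm_tw]⟩

/-- The key lemma: an expansion can be intersected with the two halves in any direction.
Induction on `Ex`, for all `φ` with `pm φ = p` and all `s`.  In the `split` case move the twist so
that the split is `(φ, t)`.  If `t = s` nothing is cut.  Otherwise apply the hypothesis to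
`(φ * hs t a, s)` and use `hs_comm`; merge the two functions `A` on the disjoint sets `T₀`, `T₁`. -/
theorem Ex.cut {φ : Chart Ω} {T : Finset (Piece Ω Γ)} (h : Ex (pm Γ φ) T) (s : Ω) :
    ∃ (J : Bool → Finset (Piece Ω Γ)) (A : Piece Ω Γ → Finset (Piece Ω Γ)),
      (∀ b, Ex (pm Γ (φ * hs s b)) (J b)) ∧ (∀ q ∈ T, Cut (fun b => (φ * hs s b).rg) q (A q)) ∧
      J false ∪ J true = T.biUnion A := by
  generalize hp : pm Γ φ = p at h
  induction h using Ex.ind_b generalizing φ with
  | refl p =>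
    exact ⟨fun b => {pm Γ (φ * hs s b)}, fun _ => {pm Γ (φ * hs s false), pm Γ (φ * hs s true)},
      fun b => Ex.refl _, fun q hq => Or.inr ⟨φ, s, (Finset.mem_singleton.1 hq).trans hp.symm, rfl,
        fun b => subset_rfl⟩, by rw [Finset.singleton_biUnion, Finset.insert_eq]⟩
  | split ψ t₀ T hT ih =>
    obtain ⟨t, ht⟩ := exists_pm_hs hp t₀
    simp only [← ht] at hT
    by_cases e : t = s
    · subst e
      refine ⟨T, fun q => {q}, hT, fun q hq => Or.inl ⟨rfl, ?_⟩, Finset.biUnion_singleton_eq_self.symm⟩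
      obtain ⟨b, hb⟩ := mem_union_b.1 hq
      exact ⟨b, (hT b).subset q hb⟩
    choose J A hJ hA hU using fun a => ih a (ht a)
    have hc : ∀ a b, φ * hs t a * hs s b = φ * hs s b * hs t a := fun a b => by
      rw [mul_assoc, mul_assoc, hs_comm e]
    have hA' : ∀ a, ∀ q ∈ T a, (if q ∈ T false then A false q else A true q) = A a q :=
      fun a q hq => by
        cases a
        · exact if_pos hq
        · exact if_neg fun h => Bool.noConfusion (half_eq ((hT _).subset q h) ((hT _).subset q hq))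
    refine ⟨fun b => J false b ∪ J true b, fun q => if q ∈ T false then A false q else A true q,
      fun b => Ex.split _ t (hc false b ▸ hJ false b) (hc true b ▸ hJ true b), fun q hq => ?_, ?_⟩
    · obtain ⟨a, ha⟩ := mem_union_b.1 hq
      have hs : ∀ b, (φ * hs t a * hs s b).rg ⊆ (φ * hs s b).rg := fun b =>
        hc a b ▸ rg_mul_subset _ _
      simp only [hA' a q ha]
      rcases hA a q ha with ⟨h1, b, h2⟩ | ⟨χ, u, h1, h2, h3⟩
      · exact Or.inl ⟨h1, b, h2.trans (hs b)⟩
      · exact Or.inr ⟨χ, u, h1, h2, fun b => (h3 b).trans (hs b)⟩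
    · rw [Finset.union_biUnion, Finset.biUnion_congr rfl (hA' false),
        Finset.biUnion_congr rfl (hA' true), ← hU, ← hU, Finset.union_union_union_comm]

/-- Refinement implies expansion.  Induction on `Ex p X` for all `Y`; in the `split` case `Ex.cut`
cuts nothing because every piece of `Y` lies in one half, so `J b = res Y (half b)`. -/
theorem Ex.res_of_refines {p : Piece Ω Γ} {X Y : Finset (Piece Ω Γ)} (hX : Ex p X) (hY : Ex p Y)
    (h : Refines X Y) : ∀ q ∈ X, Ex q (res Y (rng q)) := by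
  induction hX using Ex.ind_b generalizing Y with
  | refl p =>
    intro q hq
    rwa [Finset.mem_singleton.1 hq, res, Finset.filter_true_of_mem hY.subset]
  | split φ s T hT ih =>
    obtain ⟨J, A, hJ, hA, hU⟩ := hY.cut s
    have h1 : ∀ q ∈ Y, ∃ a, ∃ r ∈ T a, rng q ⊆ rng r := fun q hq => by
      obtain ⟨r, hr, h2⟩ := h q hq
      obtain ⟨a, ha⟩ := mem_union_b.1 hr
      exact ⟨a, r, ha, h2⟩
    have h2 : ∀ q ∈ Y, A q = {q} := fun q hq => by
      obtain ⟨a, r, hr, h3⟩ := h1 q hq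
      rcases hA q hq with h4 | ⟨χ, u, rfl, -, h4⟩
      · exact h4.1
      · exact absurd (half_eq (q := pm Γ (χ * hs u (!a))) (h4 _)
          ((rg_mul_subset _ _).trans (h3.trans ((hT a).subset r hr)))) (Bool.not_ne_self a)
    rw [Finset.biUnion_congr rfl h2, Finset.biUnion_singleton_eq_self] at hU
    subst hU
    intro r hr
    obtain ⟨a, ha⟩ := mem_union_b.1 hr
    have h3 := ih a (hJ a) (fun q hq => by
      obtain ⟨b, r, hr, h3⟩ := h1 q (mem_union_b.2 ⟨a, hq⟩)
      exact ⟨r, half_eq (h3.trans ((hT b).subset r hr)) ((hJ a).subset q hq) ▸ hr, h3⟩) r ha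
    convert h3 using 1
    ext q
    simp only [res, Finset.mem_filter, mem_union_b, and_congr_left_iff]
    exact fun h4 => ⟨fun ⟨b, hb⟩ =>
      half_eq ((hJ b).subset q hb) (h4.trans ((hT a).subset r ha)) ▸ hb, fun hq => ⟨a, hq⟩⟩

/-- common expansion (induction on `Ex p X` for all `Y`, `Ex.cut`, `Ex.graft`) -/
theorem Ex.exists_common {p : Piece Ω Γ} {X Y : Finset (Piece Ω Γ)} (hX : Ex p X) (hY : Ex p Y) :
    ∃ Z, Ex p Z ∧ Refines X Z ∧ Refines Y Z := by
  induction hX using Ex.ind_b generalizing Y with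
  | refl p =>
    exact ⟨Y, hY, fun q hq => ⟨p, Finset.mem_singleton_self p, hY.subset q hq⟩,
      fun q hq => ⟨q, hq, subset_rfl⟩⟩
  | split φ s T hT ih =>
    obtain ⟨J, A, hJ, hA, hU⟩ := hY.cut s
    choose Z h1 h2 h3 using fun a => ih a (hJ a)
    refine ⟨_, Ex.split φ s (h1 false) (h1 true), fun q hq => ?_, fun q hq => ?_⟩
    · obtain ⟨a, ha⟩ := mem_union_b.1 hq
      obtain ⟨r, hr, h⟩ := h2 a q ha
      exact ⟨r, mem_union_b.2 ⟨a, hr⟩, h⟩
    · obtain ⟨a, ha⟩ := mem_union_b.1 hq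
      obtain ⟨r, hr, h⟩ := h3 a q ha
      obtain ⟨y, hy, hr⟩ := Finset.mem_biUnion.1 (hU ▸ mem_union_b.2 ⟨a, hr⟩)
      refine ⟨y, hy, h.trans ?_⟩
      rcases hA y hy with ⟨h4, -⟩ | ⟨χ, u, rfl, h4, -⟩
      · rw [h4, Finset.mem_singleton] at hr
        exact hr ▸ subset_rfl
      · rw [h4, Finset.mem_insert, Finset.mem_singleton] at hr
        rcases hr with rfl | rfl <;> exact rg_mul_subset _ _

/-- merging two charts with disjoint ranges:
`φ κ = (if (κ s).head then φ₁ else φ₀) (update κ s (κ s).tail)` -/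
theorem exists_merge (s : Ω) (φ₀ φ₁ : Chart Ω) (h : Disjoint φ₀.rg φ₁.rg) :
    ∃ φ : Chart Ω, φ * hs s false = φ₀ ∧ φ * hs s true = φ₁ := by
  refine ⟨⟨fun κ => (if (κ s).head then φ₁ else φ₀) (Function.update κ s (κ s).tail),
    fun κ κ' e => ?_⟩, Chart.ext (funext fun κ => ?_), Chart.ext (funext fun κ => ?_)⟩
  · by_cases hh : (κ s).head = (κ' s).head
    · simp only [hh] at e
      have h1 := congrFun (Chart.inj _ e)
      funext t
      by_cases ht : t = s
      · subst ht
        rw [← Stream'.eta (κ t), ← Stream'.eta (κ' t), hh,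
          show (κ t).tail = (κ' t).tail by simpa using h1 t]
      · simpa [ht] using h1 t
    · cases h1 : (κ s).head <;> cases h2 : (κ' s).head <;>
        simp only [h1, h2, not_true, Bool.false_eq_true, if_true, if_false] at hh e
      · exact (Set.disjoint_left.1 h ⟨_, e⟩ ⟨_, rfl⟩).elim
      · exact (Set.disjoint_left.1 h ⟨_, rfl⟩ ⟨_, e⟩).elim
  · simp [hs]
  · simp [hs]

end Crest.Agent.R185.TB
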