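import Mathlib

/-!
# Row 185, twisted Brin–Thompson groups: cubes, charts, pieces, expansions (definitions)

`Cs Ω` is the Cantor cube.  A *chart* is an injective self-map of the cube; charts form a monoid.
`hs s b` prepends the letter `b` in the coordinate `s`, `tw γ` permutes the coordinates.  A *piece*
is a chart up to precomposition with the `tw γ`.  `Ex p T`: the finite set of pieces `T` is obtained
from `p` by iterated halving.
-/

set_option autoImplicit false

open scoped Classical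

namespace Crest.Agent.R185.TB

/-- the Cantor cube -/
abbrev Cs (Ω : Type) : Type := Ω → Stream' Bool

/-- injective self-maps of the cube -/
@[ext] structure Chart (Ω : Type) where
  toFun : Cs Ω → Cs Ω
  inj : Function.Injective toFun

variable {Ω : Type}

instance : CoeFun (Chart Ω) fun _ => Cs Ω → Cs Ω := ⟨Chart.toFun⟩

instance : Monoid (Chart Ω) where
  mul φ ψ := ⟨fun κ => φ (ψ κ), φ.inj.comp ψ.inj⟩
  one := ⟨fun κ => κ, fun _ _ h => h⟩
  mul_assoc _ _ _ := rfl
  one_mul _ := rfl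
  mul_one _ := rfl

@[simp] theorem Chart.mul_apply (φ ψ : Chart Ω) (κ : Cs Ω) : (φ * ψ) κ = φ (ψ κ) := rfl

@[simp] theorem Chart.one_apply (κ : Cs Ω) : (1 : Chart Ω) κ = κ := rfl

/-- as an embedding -/
def Chart.emb (φ : Chart Ω) : Cs Ω ↪ Cs Ω := ⟨φ, φ.inj⟩

/-- the range -/
def Chart.rg (φ : Chart Ω) : Set (Cs Ω) := Set.range φ

/-- a permutation as a chart -/
def pc : Equiv.Perm (Cs Ω) →* Chart Ω where
  toFun g := ⟨g, g.injective⟩
  map_one' := rfl
  map_mul' _ _ := rfl

@[simp] theorem pc_apply (g : Equiv.Perm (Cs Ω)) (κ : Cs Ω) : pc g κ = g κ := rfl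

/-- prepend the letter `b` in the coordinate `s` -/
noncomputable def hs (s : Ω) (b : Bool) : Chart Ω where
  toFun κ := Function.update κ s (Stream'.cons b (κ s))
  inj κ κ' h := by
    funext t
    have h1 := congrFun h t
    by_cases e : t = s
    · subst e
      simpa using congrArg Stream'.tail h1
    · simpa [e] using h1

/-- a word in the `hs` -/
noncomputable def hL (L : List (Ω × Bool)) : Chart Ω := (L.map fun e => hs e.1 e.2).prod

@[simp] theorem hL_nil : hL ([] : List (Ω × Bool)) = 1 := rfl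

@[simp] theorem hL_cons (e : Ω × Bool) (L : List (Ω × Bool)) :
    hL (e :: L) = hs e.1 e.2 * hL L := by simp [hL]

variable (Γ : Type) [Group Γ] [MulAction Γ Ω]

/-- permutation of the coordinates -/
def tw : Γ →* Equiv.Perm (Cs Ω) where
  toFun γ :=
    { toFun := fun κ s => κ (γ⁻¹ • s)
      invFun := fun κ s => κ (γ • s)
      left_inv := fun κ => by simp
      right_inv := fun κ => by simp }
  map_one' := by ext κ : 1; funext s; simp
  map_mul' a b := by ext κ : 1; funext s; simp [mul_smul]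

theorem tw_apply (γ : Γ) (κ : Cs Ω) (s : Ω) : tw Γ γ κ s = κ (γ⁻¹ • s) := rfl

variable (Ω) in
/-- charts that differ by a twist -/
def twSetoid : Setoid (Chart Ω) where
  r φ φ' := ∃ γ : Γ, φ' = φ * pc (tw Γ γ)
  iseqv :=
    { refl := fun φ => ⟨1, by simp⟩
      symm := by
        rintro φ _ ⟨γ, rfl⟩
        exact ⟨γ⁻¹, by rw [mul_assoc, ← map_mul, ← map_mul]; simp⟩
      trans := by
        rintro φ _ _ ⟨γ, rfl⟩ ⟨δ, rfl⟩
        exact ⟨γ * δ, by rw [mul_assoc, map_mul, map_mul]⟩ }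

variable (Ω) in
/-- charts up to twists -/
def Piece : Type := Quotient (twSetoid Ω Γ)

/-- the piece of a chart -/
def pm (φ : Chart Ω) : Piece Ω Γ := Quotient.mk _ φ

variable {Γ}

theorem pm_eq_iff {φ φ' : Chart Ω} : pm Γ φ = pm Γ φ' ↔ ∃ γ : Γ, φ' = φ * pc (tw Γ γ) :=
  Quotient.eq

theorem exists_pm (p : Piece Ω Γ) : ∃ φ, pm Γ φ = p := Quotient.exists_rep p

theorem pm_tw (φ : Chart Ω) (γ : Γ) : pm Γ (φ * pc (tw Γ γ)) = pm Γ φ :=
  (pm_eq_iff.2 ⟨γ, rfl⟩).symm

/-- the range of a piece -/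
def rng (p : Piece Ω Γ) : Set (Cs Ω) :=
  Quotient.lift (s := twSetoid Ω Γ) Chart.rg (by
    rintro φ _ ⟨γ, rfl⟩
    exact ((tw Γ γ).surjective.range_comp φ).symm) p

@[simp] theorem rng_pm (φ : Chart Ω) : rng (pm Γ φ) = φ.rg := rfl

instance : MulAction (Chart Ω) (Piece Ω Γ) where
  smul e := Quotient.map (fun φ => e * φ) (by
    rintro φ _ ⟨γ, rfl⟩
    exact ⟨γ, rfl⟩)
  one_smul := by rintro ⟨φ⟩; rfl
  mul_smul _ _ := by rintro ⟨φ⟩; rfl

@[simp] theorem smul_pm (e φ : Chart Ω) : e • pm Γ φ = pm Γ (e * φ) := rfl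

instance : MulAction (Equiv.Perm (Cs Ω)) (Piece Ω Γ) := MulAction.compHom _ pc

theorem perm_smul_piece (g : Equiv.Perm (Cs Ω)) (p : Piece Ω Γ) : g • p = pc g • p := rfl

/-- iterated halving of a piece -/
inductive Ex : Piece Ω Γ → Finset (Piece Ω Γ) → Prop
  | refl (p : Piece Ω Γ) : Ex p {p}
  | split (φ : Chart Ω) (s : Ω) {T₀ T₁ : Finset (Piece Ω Γ)} :
      Ex (pm Γ (φ * hs s false)) T₀ → Ex (pm Γ (φ * hs s true)) T₁ → Ex (pm Γ φ) (T₀ ∪ T₁)

/-- pairwise disjoint ranges -/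
def Disj (u : Finset (Piece Ω Γ)) : Prop := ∀ p ∈ u, ∀ q ∈ u, p ≠ q → Disjoint (rng p) (rng q)

/-- expansion of all pieces -/
def Exp (u w : Finset (Piece Ω Γ)) : Prop :=
  ∃ T : Piece Ω Γ → Finset (Piece Ω Γ), (∀ p ∈ u, Ex p (T p)) ∧ w = u.biUnion T

/-- the union of the ranges -/
def supp (u : Finset (Piece Ω Γ)) : Set (Cs Ω) := {κ | ∃ p ∈ u, κ ∈ rng p}

/-- the pieces inside `Z` -/
noncomputable def res (u : Finset (Piece Ω Γ)) (Z : Set (Cs Ω)) : Finset (Piece Ω Γ) :=
  u.filter fun p => rng p ⊆ Z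

/-- every piece of `y` lies in a piece of `x` -/
def Refines (x y : Finset (Piece Ω Γ)) : Prop := ∀ q ∈ y, ∃ r ∈ x, rng q ⊆ rng r

/-- halving one piece -/
noncomputable def spl (u : Finset (Piece Ω Γ)) (φ : Chart Ω) (s : Ω) : Finset (Piece Ω Γ) :=
  u.erase (pm Γ φ) ∪ {pm Γ (φ * hs s false), pm Γ (φ * hs s true)}

variable (Ω Γ) in
/-- finite sets of pieces, to be ordered by expansion -/
@[ext] structure Vx where
  s : Finset (Piece Ω Γ)

noncomputable instance : MulAction (Equiv.Perm (Cs Ω)) (Vx Ω Γ) where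
  smul g u := ⟨u.s.image fun p => g • p⟩
  one_smul u := Vx.ext (by
    change u.s.image (fun p => (1 : Equiv.Perm (Cs Ω)) • p) = u.s
    simp)
  mul_smul a b u := Vx.ext (by
    change u.s.image (fun p => (a * b) • p) = (u.s.image fun p => b • p).image fun p => a • p
    rw [Finset.image_image]
    simp [mul_smul, Function.comp_def])

theorem Vx.smul_s (g : Equiv.Perm (Cs Ω)) (u : Vx Ω Γ) :
    (g • u).s = u.s.image fun p => g • p := rfl

end Crest.Agent.R185.TB
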