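import Crest.Agent.R185.TPosA

/-!
# Row 185, twisted Brin–Thompson groups: joins, retractions, a product lemma, crosscuts

Throughout `rk` is a strictly monotone function to `ℕ`.  Everything follows from `acyc_up`,
`acyc_of_cone`, `acyc_zero_iff`.
-/

set_option autoImplicit false

namespace Crest.Agent.R185.TB

variable {α : Type} [PartialOrder α] {rk : α → ℕ}

/-- building `X` from `Y`: acyclicity up to length `k` -/
theorem acycLE_build {X Y : Set α} {h : α → ℕ} (hL : Lev X Y h) {k : ℕ}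
    (hl : ∀ x ∈ X, x ∉ Y → ∀ j < k, Acyc (plink X Y h x) j) (hY : AcycLE Y k) : AcycLE X k := by
  intro j hj
  rcases j with _ | j
  · exact acyc_zero_iff.2 ((acyc_zero_iff.1 (hY 0 hj)).mono hL.1)
  · refine acyc_up hL (fun x hx hxY => hl x hx hxY j (by omega)) (fun z hz hb => ?_)
    obtain ⟨w, hw, hbw⟩ := hY (j + 1) hj z hz hb
    exact ⟨w, Ch.mono hL.1 _ hw, hbw⟩

/-- building `X` from `Y`: acyclicity in all lengths -/
theorem acyc_build {X Y : Set α} {h : α → ℕ} (hL : Lev X Y h)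
    (hl : ∀ x ∈ X, x ∉ Y → ∀ j, Acyc (plink X Y h x) j) (hY : ∀ j, Acyc Y j) (j : ℕ) :
    Acyc X j :=
  acycLE_build hL (k := j) (fun x hx hxY i _ => hl x hx hxY i) (fun i _ => hY i) j le_rfl

theorem lev_rk (hrk : StrictMono rk) {X Y : Set α} (hYX : Y ⊆ X) : Lev X Y rk :=
  ⟨hYX, fun _ _ _ _ _ _ h hlt => (hrk hlt).ne h⟩

theorem plink_rk (hrk : StrictMono rk) {X Y : Set α} (hYX : Y ⊆ X) (x : α) :
    plink X Y rk x = {y | y ∈ X ∧ y < x} ∪ {y | y ∈ Y ∧ x < y} := by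
  ext y
  simp only [plink, link, Set.mem_union, Set.mem_ofPred_eq]
  constructor
  · rintro ⟨hy | ⟨hy, hr⟩, hlt | hlt⟩
    · exact Or.inl ⟨hYX hy, hlt⟩
    · exact Or.inr ⟨hy, hlt⟩
    · exact Or.inl ⟨hy, hlt⟩
    · exact absurd (hrk hlt) (by omega)
  · rintro (⟨hy, hlt⟩ | ⟨hy, hlt⟩)
    · exact ⟨Or.inr ⟨hy, hrk hlt⟩, Or.inl hlt⟩
    · exact ⟨Or.inl hy, Or.inr hlt⟩

theorem lev_cork (hrk : StrictMono rk) {X Y : Set α} {N : ℕ} (hN : ∀ x ∈ X, rk x ≤ N)
    (hYX : Y ⊆ X) : Lev X Y (fun x => N - rk x) := by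
  refine ⟨hYX, fun x hx _ y hy _ h hlt => ?_⟩
  have h1 := hrk hlt
  have h2 := hN y hy
  simp only at h
  omega

theorem plink_cork (hrk : StrictMono rk) {X Y : Set α} {N : ℕ} (hN : ∀ x ∈ X, rk x ≤ N)
    (hYX : Y ⊆ X) (x : α) :
    plink X Y (fun x => N - rk x) x = {y | y ∈ Y ∧ y < x} ∪ {y | y ∈ X ∧ x < y} := by
  ext y
  simp only [plink, link, Set.mem_union, Set.mem_ofPred_eq]
  constructor
  · rintro ⟨hy | ⟨hy, hr⟩, hlt | hlt⟩
    · exact Or.inl ⟨hy, hlt⟩
    · exact Or.inr ⟨hYX hy, hlt⟩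
    · exact absurd (hrk hlt) (by omega)
    · exact Or.inr ⟨hy, hlt⟩
  · rintro (⟨hy, hlt⟩ | ⟨hy, hlt⟩)
    · exact ⟨Or.inl hy, Or.inl hlt⟩
    · refine ⟨Or.inr ⟨hy, ?_⟩, Or.inr hlt⟩
      have h1 := hrk hlt
      have h2 := hN y hy
      omega

/-- Joins.  Induction on `j` for all `B`: build `A ∪ B` from `A` with `h = rk`; the link of `b` is
`A ∪ B'` with `B' ⊆ B`. -/
theorem acycLE_join_left (hrk : StrictMono rk) {A B : Set α} (hAB : ∀ a ∈ A, ∀ b ∈ B, a < b)
    {k : ℕ} (hA : AcycLE A k) : AcycLE (A ∪ B) k := by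
  induction k generalizing B with
  | zero =>
    intro j hj
    obtain rfl : j = 0 := by omega
    exact acyc_zero_iff.2 ((acyc_zero_iff.1 (hA 0 le_rfl)).mono Set.subset_union_left)
  | succ k ih =>
    refine acycLE_build (lev_rk hrk Set.subset_union_left) (fun x hx hxA j hj => ?_) hA
    have hxB : x ∈ B := hx.resolve_left hxA
    have he : plink (A ∪ B) A rk x = A ∪ {y | y ∈ B ∧ y < x} := by
      rw [plink_rk hrk Set.subset_union_left]
      ext y
      simp only [Set.mem_union, Set.mem_ofPred_eq]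
      constructor
      · rintro (⟨hy | hy, hlt⟩ | ⟨hy, _⟩)
        · exact Or.inl hy
        · exact Or.inr ⟨hy, hlt⟩
        · exact Or.inl hy
      · rintro (hy | ⟨hy, hlt⟩)
        · exact Or.inl ⟨Or.inl hy, hAB y hy x hxB⟩
        · exact Or.inl ⟨Or.inr hy, hlt⟩
    rw [he]
    exact ih (fun a ha b hb => hAB a ha b hb.1) (fun i hi => hA i (by omega)) j (by omega)

theorem acycLE_join_right (hrk : StrictMono rk) {A B : Set α} (hAB : ∀ a ∈ A, ∀ b ∈ B, a < b)
    {k : ℕ} (hB : AcycLE B k) : AcycLE (A ∪ B) k := by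
  induction k generalizing A with
  | zero =>
    intro j hj
    obtain rfl : j = 0 := by omega
    exact acyc_zero_iff.2 ((acyc_zero_iff.1 (hB 0 le_rfl)).mono Set.subset_union_right)
  | succ k ih =>
    refine acycLE_build (lev_rk hrk Set.subset_union_right) (fun x hx hxB j hj => ?_) hB
    have hxA : x ∈ A := hx.resolve_right hxB
    have he : plink (A ∪ B) B rk x = {y | y ∈ A ∧ y < x} ∪ B := by
      rw [plink_rk hrk Set.subset_union_right]
      ext y
      simp only [Set.mem_union, Set.mem_ofPred_eq]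
      constructor
      · rintro (⟨hy | hy, hlt⟩ | ⟨hy, _⟩)
        · exact Or.inl ⟨hy, hlt⟩
        · exact Or.inr hy
        · exact Or.inr hy
      · rintro (⟨hy, hlt⟩ | hy)
        · exact Or.inl ⟨Or.inl hy, hlt⟩
        · exact Or.inr ⟨hy, hAB x hxA y hy⟩
    rw [he]
    exact ih (fun a ha b hb => hAB a ha.1 b hb) (fun i hi => hB i (by omega)) j (by omega)

/-- one step of the deflation argument -/
theorem acyc_deflation_step (hrk : StrictMono rk) {X : Set α} (f : α → α) {m : α} (hm : m ∈ X)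
    (hfm : f m = m) (hc : ∀ x ∈ X, f x ≤ m ∨ m ≤ f x)
    (hlow : ∀ x ∈ X, f x ≠ x → ∀ j, Acyc {y | y ∈ X ∧ y < x} j) (j : ℕ) : Acyc X j := by
  have hYX : {x | x ∈ X ∧ f x = x} ⊆ X := fun x hx => hx.1
  refine acyc_build (lev_rk hrk hYX) (fun x hx hxY i => ?_) (fun i => ?_) j
  · rw [plink_rk hrk hYX]
    exact acycLE_join_left hrk (fun a ha b hb => ha.2.trans hb.2) (k := i)
      (fun i' _ => hlow x hx (fun h => hxY ⟨hx, h⟩) i') i le_rfl
  · refine acyc_of_cone (X := {x | x ∈ X ∧ f x = x}) (m := m) ⟨hm, hfm⟩ (fun x hx => ?_) i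
    have := hc x hx.1
    rwa [hx.2] at this

/-- one step of the inflation argument -/
theorem acyc_inflation_step (hrk : StrictMono rk) {X : Set α} {N : ℕ} (hN : ∀ x ∈ X, rk x ≤ N)
    (f : α → α) {m : α} (hm : m ∈ X) (hfm : f m = m) (hc : ∀ x ∈ X, f x ≤ m ∨ m ≤ f x)
    (hup : ∀ x ∈ X, f x ≠ x → ∀ j, Acyc {y | y ∈ X ∧ x < y} j) (j : ℕ) : Acyc X j := by
  have hYX : {x | x ∈ X ∧ f x = x} ⊆ X := fun x hx => hx.1
  refine acyc_build (lev_cork hrk hN hYX) (fun x hx hxY i => ?_) (fun i => ?_) j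
  · rw [plink_cork hrk hN hYX]
    exact acycLE_join_right hrk (fun a ha b hb => ha.2.trans hb.2) (k := i)
      (fun i' _ => hup x hx (fun h => hxY ⟨hx, h⟩) i') i le_rfl
  · refine acyc_of_cone (X := {x | x ∈ X ∧ f x = x}) (m := m) ⟨hm, hfm⟩ (fun x hx => ?_) i
    have := hc x hx.1
    rwa [hx.2] at this

/-- Deflationary retraction onto a set with an element `m` comparable with all fixed points.
First for `X ⊆ {rk < N}` by induction on `N`: build `X` from `Y = {x ∈ X | f x = x}` (a cone) with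
`h = rk`; the link of `x ∉ Y` is the join of `{y ∈ X | y < x}` (induction hypothesis with
`m := f x`) with `{y ∈ Y | x < y}`. -/
theorem acyc_of_deflation (hrk : StrictMono rk) {X : Set α} (f : α → α) (hX : ∀ x ∈ X, f x ∈ X)
    (hle : ∀ x ∈ X, f x ≤ x) (hmono : ∀ x ∈ X, ∀ y ∈ X, x ≤ y → f x ≤ f y)
    (hid : ∀ x ∈ X, f (f x) = f x) {m : α} (hm : m ∈ X) (hfm : f m = m)
    (hc : ∀ x ∈ X, f x ≤ m ∨ m ≤ f x) (j : ℕ) : Acyc X j := by
  have key : ∀ n : ℕ, ∀ x ∈ X, rk x = n → f x ≠ x → ∀ j, Acyc {y | y ∈ X ∧ y < x} j := by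
    intro n
    induction n using Nat.strong_induction_on with
    | _ n ih =>
      intro x hx hn hne i
      refine acyc_deflation_step hrk (X := {y | y ∈ X ∧ y < x}) f (m := f x)
        ⟨hX x hx, lt_of_le_of_ne (hle x hx) hne⟩
        (hid x hx) (fun y hy => Or.inl (hmono y hy.1 x hx hy.2.le)) (fun y hy hne' i' => ?_) i
      have he : {z | z ∈ {y | y ∈ X ∧ y < x} ∧ z < y} = {z | z ∈ X ∧ z < y} := by
        ext z
        exact ⟨fun h => ⟨h.1.1, h.2⟩, fun h => ⟨⟨h.1, h.2.trans hy.2⟩, h.2⟩⟩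
      rw [he]
      exact ih (rk y) (hn ▸ hrk hy.2) y hy.1 rfl hne' i'
  exact acyc_deflation_step hrk f hm hfm hc (fun x hx => key _ x hx rfl) j

/-- the inflationary version, for bounded rank (`h = N - rk`, induction on the bound for
`N - rk`) -/
theorem acyc_of_inflation (hrk : StrictMono rk) {X : Set α} {N : ℕ} (hN : ∀ x ∈ X, rk x ≤ N)
    (f : α → α) (hX : ∀ x ∈ X, f x ∈ X) (hle : ∀ x ∈ X, x ≤ f x)
    (hmono : ∀ x ∈ X, ∀ y ∈ X, x ≤ y → f x ≤ f y) (hid : ∀ x ∈ X, f (f x) = f x) {m : α}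
    (hm : m ∈ X) (hfm : f m = m) (hc : ∀ x ∈ X, f x ≤ m ∨ m ≤ f x) (j : ℕ) : Acyc X j := by
  have key : ∀ n : ℕ, ∀ x ∈ X, N - rk x = n → f x ≠ x → ∀ j, Acyc {y | y ∈ X ∧ x < y} j := by
    intro n
    induction n using Nat.strong_induction_on with
    | _ n ih =>
      intro x hx hn hne i
      refine acyc_inflation_step hrk (X := {y | y ∈ X ∧ x < y}) (N := N)
        (fun y hy => hN y hy.1) f (m := f x)
        ⟨hX x hx, lt_of_le_of_ne (hle x hx) (Ne.symm hne)⟩
        (hid x hx) (fun y hy => Or.inr (hmono x hx y hy.1 hy.2.le)) (fun y hy hne' i' => ?_) i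
      have he : {z | z ∈ {y | y ∈ X ∧ x < y} ∧ y < z} = {z | z ∈ X ∧ y < z} := by
        ext z
        exact ⟨fun h => ⟨h.1.1, h.2⟩, fun h => ⟨⟨h.1, hy.2.trans h.2⟩, h.2⟩⟩
      rw [he]
      refine ih (N - rk y) ?_ y hy.1 rfl hne' i'
      have h1 := hrk hy.2
      have h2 := hN y hy.1
      omega
  exact acyc_inflation_step hrk hN f hm hfm hc (fun x hx => key _ x hx rfl) j

/-- An open interval of a product with the corner `(a₀, b₁)` removed.  Strong induction on `rk a₁`: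
`Y = {p ∈ L | p.2 < b₁}` is acyclic by the inflation `p ↦ (a₁, p.2)` with `m = (a₁, b₀)`; add the
points `(a', b₁)` by increasing `rk a'`: the link is the same set for `a'` in place of `a₁`.
(`p ↦ rk p.1 + rk' p.2` is strictly monotone.) -/
theorem acyc_prod {β : Type} [PartialOrder β] {rk' : β → ℕ} (hrk : StrictMono rk)
    (hrk' : StrictMono rk') {a₀ a₁ : α} {b₀ b₁ : β} (ha : a₀ < a₁) (hb : b₀ < b₁) (j : ℕ) :
    Acyc {p : α × β | (a₀, b₀) < p ∧ p < (a₁, b₁) ∧ p ≠ (a₀, b₁)} j := by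
  have hR : StrictMono (fun p : α × β => rk p.1 + rk' p.2) := by
    intro p q hpq
    rcases Prod.lt_iff.1 hpq with ⟨h1, h2⟩ | ⟨h1, h2⟩
    · exact add_lt_add_of_lt_of_le (hrk h1) (hrk'.monotone h2)
    · exact add_lt_add_of_le_of_lt (hrk.monotone h1) (hrk' h2)
  have key : ∀ n : ℕ, ∀ a₁ : α, rk a₁ = n → a₀ < a₁ → ∀ j,
      Acyc {p : α × β | (a₀, b₀) < p ∧ p < (a₁, b₁) ∧ p ≠ (a₀, b₁)} j := by
    intro n
    induction n using Nat.strong_induction_on with
    | _ n ih =>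
      intro a₁ hn ha j
      set L := {p : α × β | (a₀, b₀) < p ∧ p < (a₁, b₁) ∧ p ≠ (a₀, b₁)} with hL
      have hYX : {p | p ∈ L ∧ p.2 < b₁} ⊆ L := fun p hp => hp.1
      have hmem : ∀ b : β, b₀ ≤ b → b < b₁ → (a₁, b) ∈ {p | p ∈ L ∧ p.2 < b₁} := by
        intro b h0 h1
        refine ⟨⟨Prod.lt_iff.2 (Or.inl ⟨ha, h0⟩), Prod.lt_iff.2 (Or.inr ⟨le_rfl, h1⟩), ?_⟩, h1⟩
        intro h
        exact h1.ne (congrArg Prod.snd h)
      refine acyc_build (lev_rk hR hYX) (fun p hp hpY i => ?_) (fun i => ?_) j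
      · obtain ⟨a, b⟩ := p
        obtain ⟨h1, h2, h3⟩ := hp
        have hb1 : b = b₁ := by
          by_contra hne
          exact hpY ⟨⟨h1, h2, h3⟩, lt_of_le_of_ne h2.le.2 hne⟩
        subst hb1
        have ha1 : a < a₁ := by
          rcases Prod.lt_iff.1 h2 with h | h
          · exact h.1
          · exact absurd h.2 (lt_irrefl _)
        have ha0 : a₀ < a := lt_of_le_of_ne h1.le.1 (fun h => h3 (by rw [h]))
        have he : plink L {p | p ∈ L ∧ p.2 < b} (fun p : α × β => rk p.1 + rk' p.2) (a, b) =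
            {p : α × β | (a₀, b₀) < p ∧ p < (a, b) ∧ p ≠ (a₀, b)} := by
          rw [plink_rk hR hYX]
          ext q
          simp only [Set.mem_union, Set.mem_ofPred_eq]
          constructor
          · rintro (⟨hq, hlt⟩ | ⟨hq, hlt⟩)
            · exact ⟨hq.1, hlt, hq.2.2⟩
            · exact absurd (lt_of_le_of_lt hlt.le.2 hq.2) (lt_irrefl _)
          · rintro ⟨hq1, hq2, hq3⟩
            exact Or.inl ⟨⟨hq1, hq2.trans h2, hq3⟩, hq2⟩
        rw [he]
        exact ih (rk a) (hn ▸ hrk ha1) a rfl ha0 i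
      · refine acyc_of_inflation hR (N := rk a₁ + rk' b₁) (fun p hp => (hR hp.1.2.1).le)
          (fun p => (a₁, p.2)) (fun p hp => hmem p.2 hp.1.1.le.2 hp.2)
          (fun p hp => ⟨hp.1.2.1.le.1, le_rfl⟩) (fun p _ q _ hpq => ⟨le_rfl, hpq.2⟩)
          (fun p _ => rfl) (m := (a₁, b₀)) (hmem b₀ le_rfl hb) rfl
          (fun p hp => Or.inr ⟨le_rfl, hp.1.1.le.2⟩) i
  exact key _ a₁ rfl ha j

/-- `w` is the join of `u` with at most `k` elements of `At` -/
inductive Gen (u : α) (At : Set α) : ℕ → α → Prop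
  | base (k : ℕ) : Gen u At k u
  | step {k : ℕ} {w a v : α} : Gen u At k w → a ∈ At → IsLUB {w, a} v → Gen u At (k + 1) v

theorem Gen.succ {u : α} {At : Set α} {k : ℕ} {w : α} (h : Gen u At k w) :
    Gen u At (k + 1) w := by
  induction h with
  | base k => exact Gen.base _
  | step _ ha hv ih => exact Gen.step ih ha hv

theorem Gen.atom {u : α} {At : Set α} {a : α} (ha : a ∈ At) (hua : u ≤ a) (k : ℕ) :
    Gen u At (k + 1) a := by
  refine Gen.step (Gen.base k) ha ⟨?_, fun b hb => hb (by simp)⟩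
  rintro x (rfl | rfl)
  · exact hua
  · exact le_rfl

/-- Crosscut lemma.  Induction on `k` for all `v`.  Pick `a ∈ At`, `u < a ≤ v`; `a ≠ v` since `a` is
`Gen 1` (and `Gen` is monotone in `k`).  `Y = {w ∈ (u, v) | w ⊔ a < v}` is acyclic by the inflation
`w ↦ w ⊔ a` with `m = a`; add the other `w` by increasing rank: the link is `(u, w)` and
`¬ Gen k w`. -/
theorem acycLE_interval (hrk : StrictMono rk) (u : α) (At : Set α) (hAt : ∀ a ∈ At, u < a)
    (hex : ∀ w, u < w → ∃ a ∈ At, a ≤ w) (hlub : ∀ w, u ≤ w → ∀ a ∈ At, ∃ v, IsLUB {w, a} v)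
    (k : ℕ) (v : α) (hv : u < v) (hg : ¬ Gen u At (k + 1) v) : AcycLE (Set.Ioo u v) k := by
  classical
  induction k generalizing v with
  | zero =>
    obtain ⟨a, ha, hav⟩ := hex v hv
    have hlt : a < v := lt_of_le_of_ne hav (fun h => hg (h ▸ Gen.atom ha (hAt a ha).le 0))
    intro j hj
    obtain rfl : j = 0 := by omega
    exact acyc_zero_iff.2 ⟨a, hAt a ha, hlt⟩
  | succ k ih =>
    obtain ⟨a, ha, hav⟩ := hex v hv
    have hlt : a < v := lt_of_le_of_ne hav (fun h => hg (h ▸ Gen.atom ha (hAt a ha).le _))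
    obtain ⟨J, hJ⟩ : ∃ J : α → α, ∀ w, u ≤ w → IsLUB {w, a} (J w) := by
      refine ⟨fun w => if h : u ≤ w then (hlub w h a ha).choose else w, fun w hw => ?_⟩
      simp only [hw, dif_pos]
      exact (hlub w hw a ha).choose_spec
    have hwJ : ∀ w, u ≤ w → w ≤ J w := fun w hw => (hJ w hw).1 (by simp)
    have haJ : ∀ w, u ≤ w → a ≤ J w := fun w hw => (hJ w hw).1 (by simp)
    have hJle : ∀ w, u ≤ w → ∀ b, w ≤ b → a ≤ b → J w ≤ b := by
      intro w hw b h1 h2
      refine (hJ w hw).2 ?_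
      rintro x (rfl | rfl)
      · exact h1
      · exact h2
    have hfix : ∀ w, u ≤ w → a ≤ w → J w = w := fun w hw h =>
      le_antisymm (hJle w hw w le_rfl h) (hwJ w hw)
    have hmono : ∀ w, u ≤ w → ∀ w', w ≤ w' → J w ≤ J w' := fun w hw w' h =>
      hJle w hw _ (h.trans (hwJ w' (hw.trans h))) (haJ w' (hw.trans h))
    have hid : ∀ w, u ≤ w → J (J w) = J w := fun w hw =>
      hfix _ (hw.trans (hwJ w hw)) (haJ w hw)
    have hYX : {w | w ∈ Set.Ioo u v ∧ J w < v} ⊆ Set.Ioo u v := fun w hw => hw.1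
    refine acycLE_build (lev_rk hrk hYX) (fun w hw hwY j hj => ?_) (fun j _ => ?_)
    · have hJw : J w = v := by
        by_contra hne
        exact hwY ⟨hw, lt_of_le_of_ne (hJle w hw.1.le v hw.2.le hav) hne⟩
      have he : plink (Set.Ioo u v) {w | w ∈ Set.Ioo u v ∧ J w < v} rk w = Set.Ioo u w := by
        rw [plink_rk hrk hYX]
        ext y
        simp only [Set.mem_union, Set.mem_ofPred_eq]
        constructor
        · rintro (⟨hy, hlt'⟩ | ⟨hy, hlt'⟩)
          · exact ⟨hy.1, hlt'⟩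
          · exact absurd (lt_of_le_of_lt (hJw ▸ hmono w hw.1.le y hlt'.le) hy.2) (lt_irrefl _)
        · intro hy
          exact Or.inl ⟨⟨hy.1, hy.2.trans hw.2⟩, hy.2⟩
      rw [he]
      refine ih w hw.1 (fun hG => hg (Gen.step hG ha ?_)) j (by omega)
      exact hJw ▸ hJ w hw.1.le
    · have hua := hAt a ha
      refine acyc_of_inflation hrk (X := {w | w ∈ Set.Ioo u v ∧ J w < v}) (N := rk v)
        (fun w hw => (hrk hw.1.2).le) J
        (fun w hw => ⟨⟨lt_of_lt_of_le hw.1.1 (hwJ w hw.1.1.le), hw.2⟩, ?_⟩)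
        (fun w hw => hwJ w hw.1.1.le) (fun w hw w' _ h => hmono w hw.1.1.le w' h)
        (fun w hw => hid w hw.1.1.le) (m := a) ⟨⟨hua, hlt⟩, ?_⟩ (hfix a hua.le le_rfl)
        (fun w hw => Or.inr (haJ w hw.1.1.le)) j
      · rw [hid w hw.1.1.le]
        exact hw.2
      · rw [hfix a hua.le le_rfl]
        exact hlt

end Crest.Agent.R185.TB
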