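import Crest.Agent.R185.TOrd
import Crest.Agent.R185.TPosB
import Crest.Agent.R185.TPosC

/-!
# Row 185, twisted Brin–Thompson groups: the descending links `Iio v` are highly connected

Fix `v` and two pieces `p₁ ≠ p₂` of `v`.  For `u ≤ v`, `blk u` are the pieces of `u` containing
`p₁` or `p₂` and `top u` keeps them and expands everything else up to `v`.
-/

set_option autoImplicit false

open scoped Classical

namespace Crest.Agent.R185.TB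

variable {Ω Γ : Type} [Group Γ] [MulAction Γ Ω]

/-- `acycLE_interval` with `At` the halvings of `u`; `Gen j w` implies
`(w \ u).card + 2 ≤ 2 ^ (j + 1)` (`exists_lub_spl`, uniqueness of least upper bounds) and
`rk v - rk u ≤ (v \ u).card`. -/
theorem acycLE_Ioo {u v : Vx Ω Γ} (h : u < v) {k : ℕ} (hk : rk u + 2 ^ (k + 2) ≤ rk v) :
    AcycLE (Set.Ioo u v) k := by
  have hu : Disj u.s := (h.le.resolve_left h.ne).1
  have key : ∀ j w, Gen u {a | ∃ φ s, pm Γ φ ∈ u.s ∧ a = ⟨spl u.s φ s⟩} j w →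
      u ≤ w ∧ (w.s \ u.s).card + 2 ≤ 2 ^ (j + 1) := by
    intro j w hg
    induction hg with
    | base k =>
      refine ⟨le_rfl, ?_⟩
      rw [Finset.sdiff_self, Finset.card_empty, pow_succ]
      have := Nat.one_le_two_pow (n := k)
      omega
    | step _ ha hl ih =>
      obtain ⟨φ, s, hφ, rfl⟩ := ha
      obtain ⟨v', hv', hc⟩ := exists_lub_spl hu ih.1 hφ s
      obtain rfl := hl.unique hv'
      refine ⟨ih.1.trans (hl.1 (Set.mem_insert _ _)), ?_⟩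
      have := ih.2
      rw [pow_succ]
      omega
  refine acycLE_interval rk_strictMono u {a | ∃ φ s, pm Γ φ ∈ u.s ∧ a = ⟨spl u.s φ s⟩} ?_ ?_ ?_ k v
    h fun hg => ?_
  · rintro _ ⟨φ, s, hφ, rfl⟩
    exact (lt_spl hu hφ s).1
  · intro w hw
    obtain ⟨φ, s, hφ, hle⟩ := exists_spl_le hw
    exact ⟨_, ⟨φ, s, hφ, rfl⟩, hle⟩
  · rintro w hw _ ⟨φ, s, hφ, rfl⟩
    obtain ⟨v', hv', -⟩ := exists_lub_spl hu hw hφ s
    exact ⟨v', hv'⟩
  · have h1 : (v.s \ u.s).card + 2 ≤ 2 ^ (k + 2) := (key _ _ hg).2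
    have h2 := Finset.card_le_card_sdiff_add_card (s := v.s) (t := u.s)
    simp only [rk] at hk
    generalize 2 ^ (k + 2) = N at hk h1
    omega

/-- the pieces of `u` that contain `p₁` or `p₂` -/
noncomputable def blk (p₁ p₂ : Piece Ω Γ) (u : Vx Ω Γ) : Finset (Piece Ω Γ) :=
  u.s.filter fun r => rng p₁ ⊆ rng r ∨ rng p₂ ⊆ rng r

/-- keep the blocks, expand the rest -/
noncomputable def top (p₁ p₂ : Piece Ω Γ) (v u : Vx Ω Γ) : Vx Ω Γ :=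
  ⟨blk p₁ p₂ u ∪ res v.s (supp (blk p₁ p₂ u))ᶜ⟩

variable {v u w : Vx Ω Γ} {p₁ p₂ : Piece Ω Γ}

theorem tdesc_eq {a : Finset (Piece Ω Γ)} (ha : Disj a) {r r' p : Piece Ω Γ} (hr : r ∈ a)
    (hr' : r' ∈ a) (h : rng p ⊆ rng r) (h' : rng p ⊆ rng r') : r = r' := by
  by_contra hne
  obtain ⟨κ, hκ⟩ := rng_nonempty p
  exact Set.disjoint_left.1 (ha r hr r' hr' hne) (h hκ) (h' hκ)

theorem tdesc_rng_subset {a : Finset (Piece Ω Γ)} {r : Piece Ω Γ} (hr : r ∈ a) :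
    rng r ⊆ supp a := fun _ hκ => ⟨r, hr, hκ⟩

theorem tdesc_absurd {Z : Set (Cs Ω)} {r : Piece Ω Γ} (h : rng r ⊆ Z) (h' : rng r ⊆ Zᶜ) : False := by
  obtain ⟨κ, hκ⟩ := rng_nonempty r
  exact h' hκ (h hκ)

theorem tdesc_supp_res (a : Finset (Piece Ω Γ)) (Z : Set (Cs Ω)) : supp (res a Z) ⊆ Z := by
  rintro κ ⟨r, hr, hκ⟩
  exact (Finset.mem_filter.1 hr).2 hκ

theorem tdesc_res_subset (a : Finset (Piece Ω Γ)) (Z : Set (Cs Ω)) : res a Z ⊆ a :=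
  Finset.filter_subset _ _

theorem tdesc_res_union {Z : Set (Cs Ω)} {a b : Finset (Piece Ω Γ)} (ha : supp a ⊆ Z)
    (hb : supp b ⊆ Zᶜ) : res (a ∪ b) Z = a ∧ res (a ∪ b) Zᶜ = b := by
  constructor
  · ext r
    rw [res, Finset.mem_filter, Finset.mem_union]
    exact ⟨fun h => h.1.elim id fun h' =>
      (tdesc_absurd h.2 ((tdesc_rng_subset h').trans hb)).elim,
      fun h => ⟨Or.inl h, (tdesc_rng_subset h).trans ha⟩⟩
  · ext r
    rw [res, Finset.mem_filter, Finset.mem_union]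
    exact ⟨fun h => h.1.elim (fun h' =>
      (tdesc_absurd ((tdesc_rng_subset h').trans ha) h.2).elim) id,
      fun h => ⟨Or.inr h, (tdesc_rng_subset h).trans hb⟩⟩

theorem tdesc_union_le_iff {Z : Set (Cs Ω)} {a b a' b' : Vx Ω Γ} (ha : Disj a.s) (hb : Disj b.s)
    (sa : supp a.s = Z) (sa' : supp a'.s = Z) (sb : supp b.s ⊆ Zᶜ) (sb' : supp b'.s ⊆ Zᶜ) :
    (⟨a.s ∪ b.s⟩ : Vx Ω Γ) ≤ ⟨a'.s ∪ b'.s⟩ ↔ a ≤ a' ∧ b ≤ b' := by
  obtain ⟨hd, hab⟩ := disj_union ha hb (Set.disjoint_left.2 fun κ h1 h2 => sb h2 (sa ▸ h1))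
  refine ⟨fun h => ?_, fun h => union_le_union hd h.1 h.2 hab⟩
  have h1 := le_res (u := ⟨a.s ∪ b.s⟩) hd h Finset.subset_union_left
  have h2 := (le_res_compl (u := ⟨a.s ∪ b.s⟩) hd h Finset.subset_union_left).1
  simp only [sa, (tdesc_res_union sa'.le sb').1, (tdesc_res_union sa'.le sb').2,
    Finset.union_sdiff_cancel_left hab] at h1 h2
  exact ⟨h1, h2⟩

theorem tdesc_blk_subset : blk p₁ p₂ u ⊆ u.s := Finset.filter_subset _ _

theorem card_blk (hu : Disj u.s) : (blk p₁ p₂ u).card ≤ 2 := by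
  have key : ∀ p : Piece Ω Γ, (u.s.filter fun r => rng p ⊆ rng r).card ≤ 1 := fun p =>
    Finset.card_le_one.2 fun a ha b hb => by
      rw [Finset.mem_filter] at ha hb
      exact tdesc_eq hu ha.1 hb.1 ha.2 hb.2
  rw [blk, Finset.filter_or]
  exact (Finset.card_union_le _ _).trans (add_le_add (key p₁) (key p₂))

theorem le_top (hv : Disj v.s) (h : u ≤ v) : u ≤ top p₁ p₂ v u ∧ top p₁ p₂ v u ≤ v := by
  have hu : Disj u.s := disj_of_le' h hv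
  have hB : blk p₁ p₂ u ⊆ u.s := tdesc_blk_subset
  have e : blk p₁ p₂ u ∪ (u.s \ blk p₁ p₂ u) = u.s := Finset.union_sdiff_of_subset hB
  have h1 : u ≤ top p₁ p₂ v u := by
    have := union_le_union (a := blk p₁ p₂ u) (b := u.s \ blk p₁ p₂ u) (by rw [e]; exact hu) le_rfl
      (le_res_compl hu h hB).1 Finset.disjoint_sdiff
    rwa [e] at this
  refine ⟨h1, ?_⟩
  have := union_le_union (a := blk p₁ p₂ u) (b := res v.s (supp (blk p₁ p₂ u))ᶜ)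
    (disj_of_le h1 hu) (le_res hu h hB) le_rfl (Finset.disjoint_left.2 fun r hr hr' =>
      tdesc_absurd (tdesc_rng_subset hr) (Finset.mem_filter.1 hr').2)
  rwa [← (le_res_compl hu h hB).2] at this

/-- `le_of_refines` with lower bound `w` -/
theorem top_mono (hv : Disj v.s) (h : u ≤ v) (hw : w ≤ u) : top p₁ p₂ v w ≤ top p₁ p₂ v u := by
  have hwv := hw.trans h
  refine le_of_refines (disj_of_le' hwv hv) (le_top hv hwv).1 (hw.trans (le_top hv h).1) ?_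
  intro q hq
  rcases Finset.mem_union.1 hq with hq | hq
  · rw [blk, Finset.mem_filter] at hq
    obtain ⟨r, hr, hqr⟩ := refines_of_le hw q hq.1
    exact ⟨r, Finset.mem_union_left _ (Finset.mem_filter.2
      ⟨hr, hq.2.imp (fun h => h.trans hqr) fun h => h.trans hqr⟩), hqr⟩
  · exact refines_of_le (le_top hv hwv).2 q (tdesc_res_subset _ _ hq)

theorem tdesc_blk_union (h₁ : p₁ ∈ v.s) (h₂ : p₂ ∈ v.s) (h : u ≤ v) {g : Finset (Piece Ω Γ)}
    (hg : supp g ⊆ (supp (blk p₁ p₂ u))ᶜ) :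
    blk p₁ p₂ ⟨blk p₁ p₂ u ∪ g⟩ = blk p₁ p₂ u := by
  ext r
  constructor
  · intro hr
    obtain ⟨hr, hp⟩ := Finset.mem_filter.1 hr
    refine (Finset.mem_union.1 hr).elim id fun hr => ?_
    exfalso
    rcases hp with hp | hp
    · obtain ⟨r', hr', h'⟩ := refines_of_le h p₁ h₁
      exact tdesc_absurd (h'.trans (tdesc_rng_subset (a := blk p₁ p₂ u)
        (Finset.mem_filter.2 ⟨hr', Or.inl h'⟩))) (hp.trans ((tdesc_rng_subset hr).trans hg))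
    · obtain ⟨r', hr', h'⟩ := refines_of_le h p₂ h₂
      exact tdesc_absurd (h'.trans (tdesc_rng_subset (a := blk p₁ p₂ u)
        (Finset.mem_filter.2 ⟨hr', Or.inr h'⟩))) (hp.trans ((tdesc_rng_subset hr).trans hg))
  · intro hr
    exact Finset.mem_filter.2 ⟨Finset.mem_union_left _ hr, (Finset.mem_filter.1 hr).2⟩

theorem blk_top (hv : Disj v.s) (h₁ : p₁ ∈ v.s) (h₂ : p₂ ∈ v.s) (h : u ≤ v) :
    blk p₁ p₂ (top p₁ p₂ v u) = blk p₁ p₂ u := by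
  have _ := hv
  exact tdesc_blk_union h₁ h₂ h (tdesc_supp_res _ _)

theorem top_eq_iff (hv : Disj v.s) (h₁ : p₁ ∈ v.s) (h₂ : p₂ ∈ v.s) (h : u ≤ v) :
    top p₁ p₂ v u = v ↔ p₁ ∈ u.s ∧ p₂ ∈ u.s := by
  constructor
  · intro e
    have hB : blk p₁ p₂ u ⊆ v.s := by
      rw [← e]; exact Finset.subset_union_left
    obtain ⟨r₁, hr₁, h₁'⟩ := refines_of_le h p₁ h₁
    obtain ⟨r₂, hr₂, h₂'⟩ := refines_of_le h p₂ h₂
    rw [tdesc_eq hv h₁ (hB (Finset.mem_filter.2 ⟨hr₁, Or.inl h₁'⟩)) subset_rfl h₁',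
      tdesc_eq hv h₂ (hB (Finset.mem_filter.2 ⟨hr₂, Or.inr h₂'⟩)) subset_rfl h₂']
    exact ⟨hr₁, hr₂⟩
  · rintro ⟨g₁, g₂⟩
    have hu : Disj u.s := disj_of_le' h hv
    have ht := (le_top (p₁ := p₁) (p₂ := p₂) hv h).2
    refine le_antisymm ht (le_of_refines (disj_of_le' ht hv) ht le_rfl fun q hq =>
      ⟨q, ?_, subset_rfl⟩)
    rcases Finset.mem_union.1 hq with hq | hq
    · obtain ⟨hq, hp | hp⟩ := Finset.mem_filter.1 hq
      · rw [tdesc_eq hu hq g₁ hp subset_rfl]; exact h₁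
      · rw [tdesc_eq hu hq g₂ hp subset_rfl]; exact h₂
    · exact tdesc_res_subset _ _ hq

/-- The fibre of `top` below `t = top u`: the image of `Iio v'`, `v' = res v (supp B)ᶜ`,
`B = blk u`, under `g ↦ B ∪ g` (`Acyc.image`; `le_res_compl`, `union_le_union`).  `v'` has at least
`rk v - (rk v - rk t) - 2` pieces. -/
theorem acyc_fibre (hv : Disj v.s) (h₁ : p₁ ∈ v.s) (h₂ : p₂ ∈ v.s) (h : u ≤ v) {n j : ℕ}
    (ih : ∀ v' : Vx Ω Γ, Disj v'.s → n ≤ rk v' → Acyc (Set.Iio v') j)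
    (hn : n + 2 ≤ rk (top p₁ p₂ v u)) :
    Acyc {x | x < top p₁ p₂ v u ∧ top p₁ p₂ v x = top p₁ p₂ v u} j := by
  have hu : Disj u.s := disj_of_le' h hv
  have hB : Disj (blk p₁ p₂ u) := hu.mono tdesc_blk_subset
  set v' : Vx Ω Γ := ⟨res v.s (supp (blk p₁ p₂ u))ᶜ⟩ with hv'
  have hd : Disj v'.s := hv.mono (tdesc_res_subset _ _)
  have hrk : n ≤ rk v' := by
    have h1 := card_blk (p₁ := p₁) (p₂ := p₂) hu
    have h2 := Finset.card_union_le (blk p₁ p₂ u) v'.s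
    change n + 2 ≤ (blk p₁ p₂ u ∪ v'.s).card at hn
    simp only [rk]
    omega
  have hs : ∀ g ≤ v', supp g.s ⊆ (supp (blk p₁ p₂ u))ᶜ := fun g hg => by
    rw [supp_eq_of_le hg]; exact tdesc_supp_res _ _
  have emb : ∀ g ≤ v', ∀ g' ≤ v',
      (⟨blk p₁ p₂ u ∪ g.s⟩ : Vx Ω Γ) ≤ ⟨blk p₁ p₂ u ∪ g'.s⟩ ↔ g ≤ g' := fun g hg g' hg' => by
    rw [tdesc_union_le_iff (a := ⟨blk p₁ p₂ u⟩) (a' := ⟨blk p₁ p₂ u⟩) hB (disj_of_le' hg hd) rfl rfl
      (hs g hg) (hs g' hg')]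
    exact and_iff_right le_rfl
  have key := Acyc.image (fun g : Vx Ω Γ => (⟨blk p₁ p₂ u ∪ g.s⟩ : Vx Ω Γ))
    (fun g hg g' hg' => emb g (le_of_lt hg) g' (le_of_lt hg')) (ih v' hd hrk)
  convert key using 1
  ext x
  constructor
  · rintro ⟨hx, hx'⟩
    have hxv : x ≤ v := hx.le.trans (le_top hv h).2
    have e : blk p₁ p₂ x = blk p₁ p₂ u := by
      rw [← blk_top hv h₁ h₂ hxv, hx', blk_top hv h₁ h₂ h]
    have hsub : blk p₁ p₂ u ⊆ x.s := e ▸ tdesc_blk_subset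
    have e2 : (⟨blk p₁ p₂ u ∪ (x.s \ blk p₁ p₂ u)⟩ : Vx Ω Γ) = x :=
      Vx.ext (Finset.union_sdiff_of_subset hsub)
    refine ⟨⟨x.s \ blk p₁ p₂ u⟩,
      lt_of_le_of_ne (le_res_compl (disj_of_le' hxv hv) hxv hsub).1 fun e3 => hx.ne ?_, e2⟩
    rw [← e2, Vx.mk.inj e3]
    rfl
  · rintro ⟨g, hg, rfl⟩
    refine ⟨lt_of_le_not_ge ((emb g (le_of_lt hg) v' le_rfl).2 (le_of_lt hg)) fun h' =>
      not_le_of_gt hg ((emb v' le_rfl g (le_of_lt hg)).1 h'), ?_⟩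
    simp only [top, tdesc_blk_union h₁ h₂ h (hs g (le_of_lt hg))]

/-- The interval `(u, v)` without `top u`: the image of the set of `acyc_prod` under
`(a, b) ↦ a ∪ b` with `a₀ = B`, `a₁ = res v (supp B)`, `b₀ = u \ B`, `b₁ = res v (supp B)ᶜ`. -/
theorem acyc_Ioo_diff (hv : Disj v.s) (h : u ≤ v) (h1 : u ≠ top p₁ p₂ v u)
    (h2 : top p₁ p₂ v u ≠ v) (j : ℕ) : Acyc (Set.Ioo u v \ {top p₁ p₂ v u}) j := by
  have hu : Disj u.s := disj_of_le' h hv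
  have hB : blk p₁ p₂ u ⊆ u.s := tdesc_blk_subset
  set a₀ : Vx Ω Γ := ⟨blk p₁ p₂ u⟩ with ha₀
  set a₁ : Vx Ω Γ := ⟨res v.s (supp (blk p₁ p₂ u))⟩ with ha₁
  set b₀ : Vx Ω Γ := ⟨u.s \ blk p₁ p₂ u⟩ with hb₀
  set b₁ : Vx Ω Γ := ⟨res v.s (supp (blk p₁ p₂ u))ᶜ⟩ with hb₁
  set f : Vx Ω Γ × Vx Ω Γ → Vx Ω Γ := fun p => ⟨p.1.s ∪ p.2.s⟩ with hf
  have e0 : f (a₀, b₀) = u := Vx.ext (Finset.union_sdiff_of_subset hB)
  have e1 : f (a₁, b₁) = v := Vx.ext (le_res_compl hu h hB).2.symm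
  have e2 : f (a₀, b₁) = top p₁ p₂ v u := rfl
  have ha : a₀ ≤ a₁ := le_res hu h hB
  have hb : b₀ ≤ b₁ := (le_res_compl hu h hB).1
  have ha' : a₀ < a₁ := lt_of_le_of_ne ha fun e => h2 (by rw [← e2, e, e1])
  have hb' : b₀ < b₁ := lt_of_le_of_ne hb fun e => h1 (by rw [← e2, ← e, e0])
  have emb : ∀ p, (a₀, b₀) ≤ p → p ≤ (a₁, b₁) → ∀ q, (a₀, b₀) ≤ q → q ≤ (a₁, b₁) →
      (f p ≤ f q ↔ p ≤ q) := fun p hp hp' q hq hq' =>
    tdesc_union_le_iff (Z := supp (blk p₁ p₂ u)) (disj_of_le hp.1 (hu.mono hB))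
      (disj_of_le hp.2 (hu.mono Finset.sdiff_subset)) (supp_eq_of_le hp.1).symm
      (supp_eq_of_le hq.1).symm ((supp_eq_of_le hp'.2).le.trans (tdesc_supp_res _ _))
      ((supp_eq_of_le hq'.2).le.trans (tdesc_supp_res _ _))
  have h01 : (a₀, b₀) ≤ (a₁, b₁) := ⟨ha, hb⟩
  have key := Acyc.image f (fun p hp q hq => emb p hp.1.le hp.2.1.le q hq.1.le hq.2.1.le)
    (acyc_prod rk_strictMono rk_strictMono ha' hb' j)
  convert key using 1
  ext x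
  constructor
  · rintro ⟨⟨hx, hx'⟩, hxt⟩
    have hdx : Disj x.s := disj_of_le hx.le hu
    have c1 := le_res hu hx.le hB
    obtain ⟨c2, c3⟩ := le_res_compl hu hx.le hB
    have c4 := le_res hdx hx'.le (tdesc_res_subset x.s (supp (blk p₁ p₂ u)))
    have c6 := (le_res_compl hdx hx'.le (tdesc_res_subset x.s (supp (blk p₁ p₂ u)))).1
    have s1 : supp (res x.s (supp (blk p₁ p₂ u))) = supp (blk p₁ p₂ u) := (supp_eq_of_le c1).symm
    have s2 : x.s \ res x.s (supp (blk p₁ p₂ u)) = res x.s (supp (blk p₁ p₂ u))ᶜ := by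
      conv_lhs => rw [c3]
      rw [(tdesc_res_union (tdesc_supp_res _ _) (tdesc_supp_res _ _)).1]
      exact Finset.union_sdiff_cancel_left (Finset.disjoint_left.2 fun r hr hr' =>
        tdesc_absurd (Finset.mem_filter.1 hr).2 (Finset.mem_filter.1 hr').2)
    rw [s1] at c4
    rw [s1, s2] at c6
    have e3 : f (⟨res x.s (supp (blk p₁ p₂ u))⟩, ⟨res x.s (supp (blk p₁ p₂ u))ᶜ⟩) = x :=
      Vx.ext c3.symm
    refine ⟨_, ⟨lt_of_le_of_ne (⟨c1, c2⟩ : (a₀, b₀) ≤ _) fun e => hx.ne ?_,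
      lt_of_le_of_ne (⟨c4, c6⟩ : _ ≤ (a₁, b₁)) fun e => hx'.ne ?_, fun e => hxt ?_⟩, e3⟩
    · rw [← e0, e, e3]
    · rw [← e1, ← e, e3]
    · rw [Set.mem_singleton_iff, ← e2, ← e, e3]
  · rintro ⟨p, ⟨hp, hp', hne⟩, rfl⟩
    have h0 : (a₀, b₀) ≤ (a₀, b₁) := ⟨le_rfl, hb⟩
    have h0' : (a₀, b₁) ≤ (a₁, b₁) := ⟨ha, le_rfl⟩
    refine ⟨⟨?_, ?_⟩, fun e => hne ?_⟩
    · rw [← e0]
      exact lt_of_le_not_ge ((emb _ le_rfl h01 p hp.le hp'.le).2 hp.le) fun h' =>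
        not_le_of_gt hp ((emb p hp.le hp'.le _ le_rfl h01).1 h')
    · rw [← e1]
      exact lt_of_le_not_ge ((emb p hp.le hp'.le _ h01 le_rfl).2 hp'.le) fun h' =>
        not_le_of_gt hp' ((emb _ h01 le_rfl p hp.le hp'.le).1 h')
    · rw [Set.mem_singleton_iff, ← e2] at e
      exact le_antisymm ((emb p hp.le hp'.le _ h0 h0').1 e.le) ((emb _ h0 h0' p hp.le hp'.le).1 e.ge)

theorem top_top (hv : Disj v.s) (h₁ : p₁ ∈ v.s) (h₂ : p₂ ∈ v.s) (h : u ≤ v) :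
    top p₁ p₂ v (top p₁ p₂ v u) = top p₁ p₂ v u := by
  conv_lhs => rw [top, blk_top hv h₁ h₂ h]
  rfl

theorem lex_lt {M a c a' c' : ℕ} (h : c < M) (h' : c' < M) :
    a * M + c < a' * M + c' ↔ a < a' ∨ (a = a' ∧ c < c') := by
  rcases lt_trichotomy a a' with e | rfl | e
  · have := Nat.mul_le_mul_right M (Nat.succ_le_of_lt e)
    rw [Nat.succ_mul] at this
    exact ⟨fun _ => Or.inl e, fun _ => by omega⟩
  · simp
  · have := Nat.mul_le_mul_right M (Nat.succ_le_of_lt e)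
    rw [Nat.succ_mul] at this
    exact ⟨fun _ => by omega, fun _ => by omega⟩

theorem lex_eq {M a c a' c' : ℕ} (h : c < M) (h' : c' < M) (e : a * M + c = a' * M + c') :
    a = a' ∧ c = c' := by
  have h1 := (lex_lt (a := a) (a' := a') h h').not.1 e.not_lt
  have h2 := (lex_lt (a := a') (a' := a) h' h).not.1 e.not_gt
  omega

/-- The filtration.  `h u = (rk v - rk (top u)) * (rk v + 2) +
(if u = top u then rk v + 1 else rk v - rk u)`.  The link of `u ≠ top u` is `Ioo u v \ {top u}`; the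
link of `t = top t` is the join of the fibre (`acyc_fibre`) with `Ioo t v` (`acycLE_Ioo`), one of
which is `k`-acyclic. -/
theorem desc_filt (hv : Disj v.s) (h₁ : p₁ ∈ v.s) (h₂ : p₂ ∈ v.s) {n k : ℕ}
    (ih : ∀ v' : Vx Ω Γ, Disj v'.s → n ≤ rk v' → AcycLE (Set.Iio v') k)
    (hn : n + 2 + 2 ^ (k + 2) ≤ rk v) :
    ∃ h : Vx Ω Γ → ℕ, Lev (Set.Iio v) {u | u < v ∧ p₁ ∈ u.s ∧ p₂ ∈ u.s} h ∧
      ∀ x ∈ Set.Iio v, x ∉ {u | u < v ∧ p₁ ∈ u.s ∧ p₂ ∈ u.s} →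
        AcycLE (plink (Set.Iio v) {u | u < v ∧ p₁ ∈ u.s ∧ p₂ ∈ u.s} h x) k := by
  set M := rk v + 2 with hM
  let a : Vx Ω Γ → ℕ := fun u => rk v - rk (top p₁ p₂ v u)
  let c : Vx Ω Γ → ℕ := fun u => if u = top p₁ p₂ v u then rk v + 1 else rk v - rk u
  have hc : ∀ u, c u < M := fun u => by
    simp only [c]
    split_ifs <;> omega
  have hc1 : ∀ u, u = top p₁ p₂ v u → c u = rk v + 1 := fun u hu => if_pos hu
  have hc2 : ∀ u, u ≠ top p₁ p₂ v u → c u = rk v - rk u := fun u hu => if_neg hu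
  have hrk : StrictMono (rk : Vx Ω Γ → ℕ) := rk_strictMono
  have hT : ∀ u ≤ v, top p₁ p₂ v (top p₁ p₂ v u) = top p₁ p₂ v u := fun u hu =>
    top_top hv h₁ h₂ hu
  -- comparison of the first index
  have ha : ∀ x y, x ≤ y → y ≤ v → a y ≤ a x ∧ (a y = a x ↔ top p₁ p₂ v x = top p₁ p₂ v y) := by
    intro x y hxy hy
    have h1 := top_mono (p₁ := p₁) (p₂ := p₂) hv hy hxy
    have h2 := hrk.monotone h1
    have h3 := hrk.monotone (le_top (p₁ := p₁) (p₂ := p₂) hv hy).2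
    refine ⟨by simp only [a]; omega, fun h => ?_, fun h => by simp only [a, h]⟩
    refine h1.eq_or_lt.resolve_right fun hlt => ?_
    have := hrk hlt
    simp only [a] at h
    omega
  refine ⟨fun u => a u * M + c u, ⟨fun u hu => hu.1, fun x hx _ y hy _ hxy hlt => ?_⟩,
    fun x hx hxY => ?_⟩
  · obtain ⟨e1, e2⟩ := lex_eq (hc x) (hc y) hxy
    have e3 := (ha x y hlt.le hy.le).2.1 e1.symm
    have hy1 := (le_top (p₁ := p₁) (p₂ := p₂) hv hy.le).1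
    have hx1 : x ≠ top p₁ p₂ v x := fun h => (hlt.trans_le (hy1.trans_eq (e3.symm.trans h.symm))).false
    rw [hc2 x hx1] at e2
    have h1 := hrk hlt
    have h2 := hrk (show y < v from hy)
    by_cases hy2 : y = top p₁ p₂ v y
    · rw [hc1 y hy2] at e2
      omega
    · rw [hc2 y hy2] at e2
      omega
  have hxv : x < v := hx
  have hxT : top p₁ p₂ v x ≠ v := fun h => hxY ⟨hxv, (top_eq_iff hv h₁ h₂ hxv.le).1 h⟩
  obtain ⟨hx1, hx2⟩ := le_top (p₁ := p₁) (p₂ := p₂) hv hxv.le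
  have hax : 0 < a x := by
    have := hrk (lt_of_le_of_ne hx2 hxT)
    simp only [a]
    omega
  have hmem : ∀ y, y ∈ plink (Set.Iio v) {u | u < v ∧ p₁ ∈ u.s ∧ p₂ ∈ u.s}
      (fun u => a u * M + c u) x ↔
      y < v ∧ (a y < a x ∨ (a y = a x ∧ c y < c x)) ∧ (y < x ∨ x < y) := by
    intro y
    simp only [plink, link, Set.mem_ofPred_eq, Set.mem_union, Set.mem_Iio,
      lex_lt (hc y) (hc x)]
    constructor
    · rintro ⟨h | h, h'⟩
      · refine ⟨h.1, Or.inl ?_, h'⟩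
        have : a y = 0 := by simp only [a, (top_eq_iff hv h₁ h₂ h.1.le).2 h.2, Nat.sub_self]
        omega
      · exact ⟨h.1, h.2, h'⟩
    · rintro ⟨h1, h2, h3⟩
      exact ⟨Or.inr ⟨h1, h2⟩, h3⟩
  by_cases hxx : x = top p₁ p₂ v x
  · have e : plink (Set.Iio v) {u | u < v ∧ p₁ ∈ u.s ∧ p₂ ∈ u.s} (fun u => a u * M + c u) x =
        {y | y < top p₁ p₂ v x ∧ top p₁ p₂ v y = top p₁ p₂ v x} ∪ Set.Ioo x v := by
      ext y
      rw [hmem, Set.mem_union, Set.mem_ofPred_eq, Set.mem_Ioo]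
      constructor
      · rintro ⟨h1, h2, h3 | h3⟩
        · obtain ⟨h4, h5⟩ := ha y x h3.le hxv.le
          exact Or.inl ⟨h3.trans_le hx1, h5.1 (by omega)⟩
        · exact Or.inr ⟨h3, h1⟩
      · rintro (⟨h1, h2⟩ | ⟨h1, h2⟩)
        · have h3 : y < x := h1.trans_eq hxx.symm
          refine ⟨h3.trans hxv, Or.inr ⟨((ha y x h3.le hxv.le).2.2 h2).symm, ?_⟩, Or.inl h3⟩
          rw [hc1 x hxx, hc2 y (h2 ▸ h1.ne)]
          omega
        · refine ⟨h2, Or.inl ?_, Or.inr h1⟩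
          obtain ⟨h4, h5⟩ := ha x y h1.le h2.le
          refine lt_of_le_of_ne h4 fun h => ?_
          have hy1 := (le_top (p₁ := p₁) (p₂ := p₂) hv h2.le).1
          exact (h1.trans_le (hy1.trans_eq ((h5.1 h).symm.trans hxx.symm))).false
    rw [e]
    have hAB : ∀ y ∈ {y | y < top p₁ p₂ v x ∧ top p₁ p₂ v y = top p₁ p₂ v x},
        ∀ z ∈ Set.Ioo x v, y < z := fun y hy z hz => (hy.1.trans_eq hxx.symm).trans hz.1
    rcases le_or_gt (n + 2) (rk (top p₁ p₂ v x)) with h | h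
    · exact acycLE_join_left hrk hAB fun j hj =>
        acyc_fibre hv h₁ h₂ hxv.le (fun v' h1 h2 => ih v' h1 h2 j hj) h
    · rw [← hxx] at h
      exact acycLE_join_right hrk hAB (acycLE_Ioo hxv (by omega))
  · have e : plink (Set.Iio v) {u | u < v ∧ p₁ ∈ u.s ∧ p₂ ∈ u.s} (fun u => a u * M + c u) x =
        Set.Ioo x v \ {top p₁ p₂ v x} := by
      ext y
      rw [hmem, Set.mem_sdiff, Set.mem_singleton_iff, Set.mem_Ioo]
      have hcx := hc2 x hxx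
      have hrx := hrk hxv
      constructor
      · rintro ⟨h1, h2, h3 | h3⟩
        · exfalso
          obtain ⟨h4, h5⟩ := ha y x h3.le hxv.le
          have h6 := h5.1 (by omega)
          have h7 := hc2 y (h6 ▸ (h3.trans_le hx1).ne)
          have := hrk h3
          omega
        · refine ⟨⟨h3, h1⟩, fun h => ?_⟩
          have h4 : top p₁ p₂ v x = top p₁ p₂ v y := by rw [h, hT x hxv.le]
          have h5 := (ha x y h3.le h1.le).2.2 h4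
          have h6 := hc1 y (h.trans h4)
          omega
      · rintro ⟨⟨h1, h2⟩, h3⟩
        refine ⟨h2, ?_, Or.inr h1⟩
        obtain ⟨h4, h5⟩ := ha x y h1.le h2.le
        rcases h4.eq_or_lt with h | h
        · have h6 := hc2 y (h5.1 h ▸ h3)
          have := hrk h1
          have := hrk h2
          exact Or.inr ⟨h, by omega⟩
        · exact Or.inl h
    rw [e]
    exact fun j _ => acyc_Ioo_diff hv hxv.le hxx hxT j

/-- merging `p₁` and `p₂`: `f u = insert r (u \ {p₁, p₂})` with `Ex r {p₁, p₂}` -/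
theorem exists_merge_map [Nonempty Ω] (hv : Disj v.s) (h₁ : p₁ ∈ v.s) (h₂ : p₂ ∈ v.s)
    (hne : p₁ ≠ p₂) : ∃ f : Vx Ω Γ → Vx Ω Γ,
      (∀ u ≤ v, p₁ ∈ u.s → p₂ ∈ u.s → f u < u) ∧
      (∀ u u', u' ≤ v → u < u' → p₁ ∈ u.s → p₂ ∈ u.s → f u < f u') ∧
      (∀ a u', a ≤ v → u' ≤ v → p₁ ∈ a.s → p₂ ∈ a.s → p₁ ∈ u'.s → p₂ ∈ u'.s → f a ≤ u' →
        f a ≤ f u') ∧
      (∀ u ≤ f v, p₁ ∉ u.s) ∧
      ∀ u u', u' ≤ v → u ≤ u' → p₁ ∈ u.s → p₂ ∈ u.s → p₁ ∈ u'.s ∧ p₂ ∈ u'.s := by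
  have hd := hv p₁ h₁ p₂ h₂ hne
  obtain ⟨r, hr⟩ := exists_ex_pair hd
  have hrr : rng r = rng p₁ ∪ rng p₂ := by
    rw [← hr.supp_eq]
    ext κ
    simp [supp]
  have hsr : supp {r} = supp {p₁, p₂} := by
    rw [hr.supp_eq]
    ext κ
    simp [supp]
  have h5 : ∀ u u' : Vx Ω Γ, u' ≤ v → u ≤ u' → p₁ ∈ u.s → p₂ ∈ u.s → p₁ ∈ u'.s ∧ p₂ ∈ u'.s := by
    intro u u' h h' e₁ e₂
    rw [← top_eq_iff hv h₁ h₂ h]
    refine le_antisymm (le_top hv h).2 ?_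
    rw [← (top_eq_iff hv h₁ h₂ (h'.trans h)).2 ⟨e₁, e₂⟩]
    exact (top_mono hv h h').trans_eq
      (by rw [(top_eq_iff hv h₁ h₂ (h'.trans h)).2 ⟨e₁, e₂⟩])
  have hdis : ∀ u : Vx Ω Γ, u ≤ v → p₁ ∈ u.s → p₂ ∈ u.s →
      Disj ({r} ∪ u.s \ {p₁, p₂}) ∧ Disjoint {r} (u.s \ {p₁, p₂}) := by
    intro u hu e₁ e₂
    have hD := disj_of_le' hu hv
    refine disj_union (fun p hp q hq hpq => ?_) (hD.mono Finset.sdiff_subset) ?_
    · rw [Finset.mem_singleton] at hp hq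
      exact (hpq (hp.trans hq.symm)).elim
    · rw [Set.disjoint_left]
      rintro κ ⟨p, hp, hκ⟩ ⟨q, hq, hκ'⟩
      rw [Finset.mem_singleton] at hp
      simp only [Finset.mem_sdiff, Finset.mem_insert, Finset.mem_singleton, not_or] at hq
      rw [hp, hrr] at hκ
      rcases hκ with hκ | hκ
      · exact Set.disjoint_left.1 (hD q hq.1 p₁ e₁ hq.2.1) hκ' hκ
      · exact Set.disjoint_left.1 (hD q hq.1 p₂ e₂ hq.2.2) hκ' hκ
  have hres : ∀ u : Vx Ω Γ, u ≤ v → p₁ ∈ u.s → p₂ ∈ u.s →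
      res u.s (supp {p₁, p₂})ᶜ = u.s \ {p₁, p₂} := by
    intro u hu e₁ e₂
    have hD := disj_of_le' hu hv
    ext q
    simp only [res, Finset.mem_filter, Finset.mem_sdiff]
    refine and_congr_right fun hq => ⟨fun h hq' => ?_, fun h κ hκ => ?_⟩
    · obtain ⟨κ, hκ⟩ := rng_nonempty q
      exact h hκ ⟨q, hq', hκ⟩
    · rintro ⟨p, hp, hκ'⟩
      have hpu : p ∈ u.s := by
        simp only [Finset.mem_insert, Finset.mem_singleton] at hp
        rcases hp with rfl | rfl <;> assumption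
      exact Set.disjoint_left.1 (hD q hq p hpu fun e => h (e ▸ hp)) hκ hκ'
  have h4 : ∀ u ≤ (⟨{r} ∪ v.s \ {p₁, p₂}⟩ : Vx Ω Γ), p₁ ∉ u.s := by
    intro u hu e₁
    obtain ⟨q, hq, hq'⟩ := exists_under hu e₁
    simp only [Finset.mem_union, Finset.mem_sdiff, Finset.mem_insert, Finset.mem_singleton,
      not_or] at hq
    rcases hq with rfl | hq
    · obtain ⟨κ, hκ⟩ := rng_nonempty p₂
      exact Set.disjoint_left.1 hd (hq' (hrr ▸ Or.inr hκ)) hκ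
    · obtain ⟨κ, hκ⟩ := rng_nonempty q
      exact Set.disjoint_left.1 (hv q hq.1 p₁ h₁ hq.2.1) hκ (hq' hκ)
  have hmono : ∀ u u' : Vx Ω Γ, u' ≤ v → u ≤ u' → p₁ ∈ u.s → p₂ ∈ u.s →
      (⟨{r} ∪ u.s \ {p₁, p₂}⟩ : Vx Ω Γ) ≤ ⟨{r} ∪ u'.s \ {p₁, p₂}⟩ := by
    intro u u' h h' e₁ e₂
    obtain ⟨e₁', e₂'⟩ := h5 u u' h h' e₁ e₂
    obtain ⟨d1, d2⟩ := hdis u (h'.trans h) e₁ e₂
    refine union_le_union d1 le_rfl ?_ d2
    rw [← hres u' h e₁' e₂']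
    exact (le_res_compl (disj_of_le' (h'.trans h) hv) h' (by
      simp only [Finset.insert_subset_iff, Finset.singleton_subset_iff]
      exact ⟨e₁, e₂⟩)).1
  have hun : ∀ u : Vx Ω Γ, p₁ ∈ u.s → p₂ ∈ u.s → {p₁, p₂} ∪ u.s \ {p₁, p₂} = u.s := by
    intro u e₁ e₂
    refine Finset.union_sdiff_of_subset ?_
    simp only [Finset.insert_subset_iff, Finset.singleton_subset_iff]
    exact ⟨e₁, e₂⟩
  have hcan : ∀ u : Vx Ω Γ, u ≤ v → p₁ ∈ u.s → p₂ ∈ u.s →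
      ({r} ∪ u.s \ {p₁, p₂}) \ {r} = u.s \ {p₁, p₂} := fun u hu e₁ e₂ =>
    Finset.union_sdiff_cancel_left (hdis u hu e₁ e₂).2
  refine ⟨fun u => ⟨{r} ∪ u.s \ {p₁, p₂}⟩, fun u hu e₁ e₂ => ?_, fun u u' h h' e₁ e₂ => ?_,
    fun a u' ha hu' a₁ a₂ e₁ e₂ h => ?_, h4, h5⟩
  · obtain ⟨d1, d2⟩ := hdis u hu e₁ e₂
    have h1 : (⟨{r}⟩ : Vx Ω Γ) ≤ ⟨{p₁, p₂}⟩ :=
      Or.inr ⟨d1.mono Finset.subset_union_left, fun _ => {p₁, p₂},
        fun p hp => by rw [Finset.mem_singleton.1 hp]; exact hr, by simp⟩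
    have h2 := union_le_union d1 h1 le_rfl d2
    rw [hun u e₁ e₂] at h2
    refine lt_of_le_of_ne h2 fun e => ?_
    exact h4 u (e.symm.le.trans (hmono u v le_rfl hu e₁ e₂)) e₁
  · refine lt_of_le_of_ne (hmono u u' h h'.le e₁ e₂) fun e => h'.ne (Vx.ext ?_)
    obtain ⟨e₁', e₂'⟩ := h5 u u' h h'.le e₁ e₂
    have e' : {r} ∪ u.s \ {p₁, p₂} = {r} ∪ u'.s \ {p₁, p₂} := congrArg Vx.s e
    rw [← hun u e₁ e₂, ← hun u' e₁' e₂', ← hcan u (h'.le.trans h) e₁ e₂, e', hcan u' h e₁' e₂']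
  · obtain ⟨d1, d2⟩ := hdis a ha a₁ a₂
    refine union_le_union d1 le_rfl ?_ d2
    have := (le_res_compl (u := ⟨{r} ∪ a.s \ {p₁, p₂}⟩) d1 h Finset.subset_union_left).1
    rwa [hcan a ha a₁ a₂, hsr, hres u' hu' e₁ e₂] at this

/-- Induction on `k` (`n₀ = 2`).  Step: `acyc_up` with `desc_filt`; cycles of
`D₀ = {u < v | p₁, p₂ ∈ u}` bound in `D₀ ∪ f '' {a ≤ v | p₁, p₂ ∈ a}`, which is acyclic by
`acyc_of_deflation` with `u ↦ if u ∈ D₀ then f u else u` and `m = f v`. -/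
theorem desc_acyc [Nonempty Ω] (k : ℕ) :
    ∃ n, ∀ v : Vx Ω Γ, Disj v.s → n ≤ rk v → AcycLE (Set.Iio v) k := by
  induction k with
  | zero =>
    refine ⟨2, fun v hv hn j hj => ?_⟩
    obtain ⟨p₁, h₁, p₂, h₂, hne⟩ := Finset.one_lt_card.1 (show 1 < v.s.card from hn)
    obtain ⟨f, f1, -⟩ := exists_merge_map hv h₁ h₂ hne
    rw [Nat.le_zero.1 hj, acyc_zero_iff]
    exact ⟨f v, f1 v le_rfl h₁ h₂⟩
  | succ k ih =>
    obtain ⟨n, ih⟩ := ih
    refine ⟨n + 2 + 2 ^ (k + 2), fun v hv hn j hj => ?_⟩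
    have hn' : n + 2 ≤ rk v := le_of_add_le_left hn
    rcases hj.eq_or_lt with rfl | hj
    swap
    · exact ih v hv (by omega) j (by omega)
    obtain ⟨p₁, h₁, p₂, h₂, hne⟩ :=
      Finset.one_lt_card.1 (show 1 < v.s.card from lt_of_lt_of_le (by omega) hn')
    obtain ⟨f, f1, f2, f3, f4, f5⟩ := exists_merge_map hv h₁ h₂ hne
    obtain ⟨h, hL, hl⟩ := desc_filt hv h₁ h₂ ih hn
    refine acyc_up hL (fun x hx hx' => hl x hx hx' k le_rfl) fun z hz hb => ?_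
    set D : Set (Vx Ω Γ) := {u | u < v ∧ p₁ ∈ u.s ∧ p₂ ∈ u.s} with hD
    have f2' : ∀ u u', u' ≤ v → u ≤ u' → p₁ ∈ u.s → p₂ ∈ u.s → f u ≤ f u' := by
      intro u u' e e' e₁ e₂
      rcases e'.eq_or_lt with rfl | e'
      · exact le_rfl
      · exact (f2 u u' e e' e₁ e₂).le
    have hnot : ∀ a ≤ v, p₁ ∈ a.s → p₂ ∈ a.s → f a ∉ D := fun a ha e₁ e₂ h =>
      f4 _ (f2' a v le_rfl ha e₁ e₂) h.2.1
    have hZ : Acyc (D ∪ f '' {a | a ≤ v ∧ p₁ ∈ a.s ∧ p₂ ∈ a.s}) (k + 1) := by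
      refine acyc_of_deflation rk_strictMono (fun u => if u ∈ D then f u else u) ?_ ?_ ?_ ?_
        (m := f v) (Or.inr ⟨v, ⟨le_rfl, h₁, h₂⟩, rfl⟩) (if_neg (hnot v le_rfl h₁ h₂)) ?_ _
      · intro x hx
        by_cases e : x ∈ D
        · simp only [if_pos e]
          exact Or.inr ⟨x, ⟨e.1.le, e.2⟩, rfl⟩
        · simp only [if_neg e]
          exact hx
      · intro x hx
        by_cases e : x ∈ D
        · simp only [if_pos e]
          exact (f1 x e.1.le e.2.1 e.2.2).le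
        · simp only [if_neg e]
          exact le_rfl
      · intro x hx y hy hxy
        by_cases e : x ∈ D <;> by_cases e' : y ∈ D
        · simp only [if_pos e, if_pos e']
          exact f2' x y e'.1.le hxy e.2.1 e.2.2
        · obtain ⟨a, ⟨ha, a₁, a₂⟩, rfl⟩ := hy.resolve_left e'
          exact (f4 x (hxy.trans (f2' a v le_rfl ha a₁ a₂)) e.2.1).elim
        · obtain ⟨a, ⟨ha, a₁, a₂⟩, rfl⟩ := hx.resolve_left e
          simp only [if_neg e, if_pos e']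
          exact f3 a y ha e'.1.le a₁ a₂ e'.2.1 e'.2.2 hxy
        · simp only [if_neg e, if_neg e']
          exact hxy
      · intro x hx
        by_cases e : x ∈ D
        · simp only [if_pos e, if_neg (hnot x e.1.le e.2.1 e.2.2)]
        · simp only [if_neg e]
      · intro x hx
        left
        by_cases e : x ∈ D
        · simp only [if_pos e]
          exact f2' x v le_rfl e.1.le e.2.1 e.2.2
        · obtain ⟨a, ⟨ha, a₁, a₂⟩, rfl⟩ := hx.resolve_left e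
          simp only [if_neg e]
          exact f2' a v le_rfl ha a₁ a₂
    obtain ⟨w, hw, e⟩ := hZ z (Ch.mono Set.subset_union_left _ hz) hb
    refine ⟨w, Ch.mono ?_ _ hw, e⟩
    rintro x (hx | ⟨a, ⟨ha, a₁, a₂⟩, rfl⟩)
    · exact hx.1
    · exact (f1 a ha a₁ a₂).trans_le ha

/-- `cob_up` with `desc_filt` (`k = 1`) and `b u = (c (f u) (f v))⁻¹ * c (f u) u` on `D₀` -/
theorem desc_scon [Nonempty Ω] :
    ∃ n, ∀ v : Vx Ω Γ, Disj v.s → n ≤ rk v → SCon (Set.Iio v) := by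
  obtain ⟨n, ih⟩ := desc_acyc (Ω := Ω) (Γ := Γ) 1
  refine ⟨n + 2 + 2 ^ (1 + 2), fun v hv hn K _ c hc => ?_⟩
  obtain ⟨p₁, h₁, p₂, h₂, hne⟩ :=
    Finset.one_lt_card.1 (show 1 < v.s.card from lt_of_lt_of_le (by omega) hn)
  obtain ⟨f, f1, f2, -⟩ := exists_merge_map hv h₁ h₂ hne
  obtain ⟨h, hL, hl⟩ := desc_filt hv h₁ h₂ ih hn
  refine cob_up hL hl hc (b := fun u => (c (f u) (f v))⁻¹ * c (f u) u) ?_
  rintro x ⟨hx, x₁, x₂⟩ y ⟨hy, y₁, y₂⟩ hxy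
  have a1 := f1 x hx.le x₁ x₂
  have a2 := f1 y hy.le y₁ y₂
  have a3 := f1 v le_rfl h₁ h₂
  have a4 := f2 x y hy.le hxy x₁ x₂
  have a5 := f2 y v le_rfl hy y₁ y₂
  have e1 := hc (f x) (a1.trans hx) x hx y hy a1 hxy
  have e2 := hc (f x) (a1.trans hx) (f y) (a2.trans hy) y hy a4 a2
  have e3 := hc (f x) (a1.trans hx) (f y) (a2.trans hy) (f v) a3 a4 a5
  simp only [e3]
  rw [eq_inv_mul_of_mul_eq e1.symm, e2]
  group

end Crest.Agent.R185.TB
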