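import Crest.Agent.R185.TOrd

/-!
# Row 185: the twisted Brin–Thompson group `SV` and the poset `PP` on which it acts
-/

set_option autoImplicit false

open scoped Classical

namespace Crest.Agent.R185.TB

variable {Ω Γ : Type} [Group Γ] [MulAction Γ Ω]

variable (Ω Γ) in
/-- the base vertex -/
def v0 : Vx Ω Γ := ⟨{pm Γ 1}⟩

variable (Ω Γ) in
/-- the vertices that have a common expansion with the base vertex -/
def PP : Set (Vx Ω Γ) := {u | ∃ w, v0 Ω Γ ≤ w ∧ u ≤ w}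

theorem v0_mem : v0 Ω Γ ∈ PP Ω Γ := ⟨_, le_rfl, le_rfl⟩

theorem tg_lower {u w : Vx Ω Γ} (hw : w ∈ PP Ω Γ) (h : u ≤ w) : u ∈ PP Ω Γ := by
  obtain ⟨z, h1, h2⟩ := hw
  exact ⟨z, h1, h.trans h2⟩

theorem tg_upper {u w : Vx Ω Γ} (hu : u ∈ PP Ω Γ) (h : u ≤ w) : w ∈ PP Ω Γ := by
  obtain ⟨z, h1, h2⟩ := hu
  obtain ⟨z', h3, h4⟩ := exists_upper h2 h
  exact ⟨z', h1.trans h3, h4⟩

theorem tg_common {u x : Vx Ω Γ} (hu : u ∈ PP Ω Γ) (hx : x ∈ PP Ω Γ) : ∃ z, u ≤ z ∧ x ≤ z := by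
  obtain ⟨z, h1, h2⟩ := hu
  obtain ⟨z', h3, h4⟩ := hx
  obtain ⟨y, h5, h6⟩ := exists_upper h1 h3
  exact ⟨y, h2.trans h5, h4.trans h6⟩

theorem tg_disj_single (p : Piece Ω Γ) : Disj ({p} : Finset (Piece Ω Γ)) := by
  intro a ha b hb hab
  rw [Finset.mem_singleton] at ha hb
  exact absurd (ha.trans hb.symm) hab

theorem tg_single_le_iff {p : Piece Ω Γ} {x : Vx Ω Γ} : (⟨{p}⟩ : Vx Ω Γ) ≤ x ↔ Ex p x.s := by
  rw [le_iff_exp (tg_disj_single p)]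
  constructor
  · rintro ⟨T, h1, h2⟩
    rw [h2, Finset.singleton_biUnion]
    exact h1 p (Finset.mem_singleton_self p)
  · intro h
    exact ⟨fun _ => x.s, fun q hq => by rw [Finset.mem_singleton.1 hq]; exact h,
      Finset.singleton_biUnion.symm⟩

theorem smul_mem_PP' {g : Equiv.Perm (Cs Ω)} {u x : Vx Ω Γ} (hu : u ∈ PP Ω Γ)
    (hg : g • u ∈ PP Ω Γ) (hx : x ∈ PP Ω Γ) : g • x ∈ PP Ω Γ := by
  obtain ⟨z, h1, h2⟩ := tg_common hu hx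
  exact tg_lower (tg_upper hg (smul_le_smul g h1)) (smul_le_smul g h2)

theorem inv_smul_mem_PP {g : Equiv.Perm (Cs Ω)} (hg : g • v0 Ω Γ ∈ PP Ω Γ) :
    g⁻¹ • v0 Ω Γ ∈ PP Ω Γ := by
  exact smul_mem_PP' hg (by rw [inv_smul_smul]; exact v0_mem) v0_mem

variable (Ω Γ) in
/-- the twisted Brin–Thompson group -/
def SV : Subgroup (Equiv.Perm (Cs Ω)) where
  carrier := {g | g • v0 Ω Γ ∈ PP Ω Γ}
  one_mem' := by simpa using v0_mem
  mul_mem' ha hb := by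
    simp only [Set.mem_ofPred_eq, mul_smul]
    exact smul_mem_PP' v0_mem ha hb
  inv_mem' := inv_smul_mem_PP

theorem mem_SV {g : Equiv.Perm (Cs Ω)} : g ∈ SV Ω Γ ↔ g • v0 Ω Γ ∈ PP Ω Γ := Iff.rfl

theorem smul_mem_PP {g : Equiv.Perm (Cs Ω)} (hg : g ∈ SV Ω Γ) {x : Vx Ω Γ} (hx : x ∈ PP Ω Γ) :
    g • x ∈ PP Ω Γ := smul_mem_PP' v0_mem hg hx

theorem mem_SV_of {g : Equiv.Perm (Cs Ω)} {u : Vx Ω Γ} (hu : u ∈ PP Ω Γ) (hg : g • u ∈ PP Ω Γ) :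
    g ∈ SV Ω Γ := smul_mem_PP' hu hg v0_mem

variable {u w : Vx Ω Γ}

theorem disj_of_PP (hu : u ∈ PP Ω Γ) : Disj u.s := by
  obtain ⟨z, h1, h2⟩ := hu
  exact disj_of_le' h2 (disj_of_le h1 (tg_disj_single _))

theorem supp_of_PP (hu : u ∈ PP Ω Γ) : supp u.s = Set.univ := by
  obtain ⟨z, h1, h2⟩ := hu
  rw [supp_eq_of_le h2, ← supp_eq_of_le h1]
  exact Set.eq_univ_of_forall fun κ => ⟨_, Finset.mem_singleton_self _, κ, rfl⟩

theorem PP_lower (hw : w ∈ PP Ω Γ) (h : u ≤ w) : u ∈ PP Ω Γ := by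
  exact tg_lower hw h

theorem PP_upper (hu : u ∈ PP Ω Γ) (h : u ≤ w) : w ∈ PP Ω Γ := by
  exact tg_upper hu h

theorem PP_directed : DirectedOn (· ≤ ·) (PP Ω Γ) := by
  intro u hu x hx
  obtain ⟨z, h1, h2⟩ := tg_common hu hx
  exact ⟨z, tg_upper hu h1, h1, h2⟩

theorem tw_mem (γ : Γ) : tw Γ γ ∈ SV Ω Γ := by
  have : tw (Ω := Ω) Γ γ • v0 Ω Γ = v0 Ω Γ := by
    refine Vx.ext ?_
    rw [Vx.smul_s, v0, Finset.image_singleton, perm_smul_piece, smul_pm, mul_one,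
      ← one_mul (pc (tw Γ γ)), pm_tw]
  rw [mem_SV, this]
  exact v0_mem

/-- `φ` enumerates the pieces of `u` -/
def Frame {ι : Type} (φ : ι → Chart Ω) (u : Finset (Piece Ω Γ)) : Prop :=
  (Function.Injective fun i => pm Γ (φ i)) ∧ ∀ p, p ∈ u ↔ ∃ i, pm Γ (φ i) = p

theorem exists_frame (u : Finset (Piece Ω Γ)) : ∃ φ : Fin u.card → Chart Ω, Frame φ u := by
  choose φ hφ using fun i : Fin u.card => exists_pm (u.equivFin.symm i).1
  refine ⟨φ, fun i j hij => ?_, fun p => ⟨fun hp => ⟨u.equivFin ⟨p, hp⟩, ?_⟩, ?_⟩⟩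
  · dsimp only at hij
    rw [hφ, hφ] at hij
    exact u.equivFin.symm.injective (Subtype.ext hij)
  · rw [hφ, Equiv.symm_apply_apply]
  · rintro ⟨i, rfl⟩
    rw [hφ]
    exact (u.equivFin.symm i).2

theorem tg_frame_bij {ι : Type} {φ : ι → Chart Ω} (hu : u ∈ PP Ω Γ) (h : Frame φ u.s) :
    Function.Bijective fun p : ι × Cs Ω => φ p.1 p.2 := by
  constructor
  · rintro ⟨i, κ⟩ ⟨j, κ'⟩ hij
    dsimp only at hij
    have e : i = j := by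
      by_contra hne
      have := disj_of_PP hu _ ((h.2 _).2 ⟨i, rfl⟩) _ ((h.2 _).2 ⟨j, rfl⟩) fun e => hne (h.1 e)
      exact Set.disjoint_left.1 this ⟨κ, rfl⟩ ⟨κ', hij.symm⟩
    subst e
    rw [(φ i).inj hij]
  · intro κ
    have : κ ∈ supp u.s := by rw [supp_of_PP hu]; trivial
    obtain ⟨p, hp, hκ⟩ := this
    obtain ⟨i, rfl⟩ := (h.2 p).1 hp
    obtain ⟨κ', rfl⟩ := hκ
    exact ⟨(i, κ'), rfl⟩

/-- Transitivity: `(i, κ) ↦ φ i κ` and `(i, κ) ↦ φ' i κ` are bijections `ι × Cs Ω → Cs Ω`. -/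
theorem exists_SV_of_frame {ι : Type} {φ φ' : ι → Chart Ω} {u u' : Vx Ω Γ} (hu : u ∈ PP Ω Γ)
    (hu' : u' ∈ PP Ω Γ) (h : Frame φ u.s) (h' : Frame φ' u'.s) :
    ∃ g ∈ SV Ω Γ, (∀ i, pc g * φ i = φ' i) ∧ g • u = u' := by
  let e := Equiv.ofBijective _ (tg_frame_bij hu h)
  let e' := Equiv.ofBijective _ (tg_frame_bij hu' h')
  have h1 : ∀ i, pc (e.symm.trans e') * φ i = φ' i := fun i => Chart.ext (funext fun κ => by
    change e' (e.symm (e (i, κ))) = _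
    rw [e.symm_apply_apply]
    rfl)
  have h2 : (e.symm.trans e' : Equiv.Perm (Cs Ω)) • u = u' := by
    refine Vx.ext (Finset.ext fun p => ?_)
    rw [Vx.smul_s, Finset.mem_image, h'.2]
    constructor
    · rintro ⟨q, hq, rfl⟩
      obtain ⟨i, rfl⟩ := (h.2 q).1 hq
      exact ⟨i, by rw [perm_smul_piece, smul_pm, h1]⟩
    · rintro ⟨i, rfl⟩
      exact ⟨_, (h.2 _).2 ⟨i, rfl⟩, by rw [perm_smul_piece, smul_pm, h1]⟩
  exact ⟨e.symm.trans e', mem_SV_of hu (by rw [h2]; exact hu'), h1, h2⟩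

variable (Γ) in
/-- the charts give distinct pieces of a vertex that has at least one more piece -/
def Adm {ι : Type} (φ : ι → Chart Ω) : Prop :=
  (Function.Injective fun i => pm Γ (φ i)) ∧
    ∃ w ∈ PP Ω Γ, (∀ i, pm Γ (φ i) ∈ w.s) ∧ ∃ q ∈ w.s, ∀ i, pm Γ (φ i) ≠ q

theorem tg_spl_mem (hw : w ∈ PP Ω Γ) {φ : Chart Ω} (hφ : pm Γ φ ∈ w.s) (s : Ω) :
    (⟨spl w.s φ s⟩ : Vx Ω Γ) ∈ PP Ω Γ := PP_upper hw (lt_spl (disj_of_PP hw) hφ s).1.le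

theorem tg_half_mem (a : Finset (Piece Ω Γ)) (φ : Chart Ω) (s : Ω) (b : Bool) :
    pm Γ (φ * hs s b) ∈ spl a φ s := by
  cases b <;> simp [spl]

theorem tg_grow [Nonempty Ω] {ι : Type} {φ : ι → Chart Ω} (hw : w ∈ PP Ω Γ)
    (h1 : ∀ i, pm Γ (φ i) ∈ w.s) (h2 : ∃ q ∈ w.s, ∀ i, pm Γ (φ i) ≠ q) (k : ℕ) :
    ∃ w' ∈ PP Ω Γ, (∀ i, pm Γ (φ i) ∈ w'.s) ∧ (∃ q ∈ w'.s, ∀ i, pm Γ (φ i) ≠ q) ∧
      rk w' = rk w + k := by
  induction k with
  | zero => exact ⟨w, hw, h1, h2, rfl⟩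
  | succ k ih =>
    obtain ⟨w', hw', h3, ⟨q, hq, h4⟩, h5⟩ := ih
    obtain ⟨ψ, rfl⟩ := exists_pm q
    obtain ⟨s⟩ := ‹Nonempty Ω›
    refine ⟨⟨spl w'.s ψ s⟩, tg_spl_mem hw' hq s, fun i => ?_,
      ⟨_, tg_half_mem _ ψ s false, fun i e => ?_⟩, ?_⟩
    · exact Finset.mem_union_left _ (Finset.mem_erase.2 ⟨h4 i, h3 i⟩)
    · have h6 := disj_of_PP hw' _ (h3 i) _ hq (h4 i)
      rw [e] at h6
      obtain ⟨κ, hκ⟩ := rng_nonempty (pm Γ (ψ * hs s false))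
      exact Set.disjoint_left.1 h6 hκ (rg_mul_subset _ _ hκ)
    · rw [(lt_spl (disj_of_PP hw') hq s).2, h5, add_assoc]

theorem tg_complete {ι : Type} [Fintype ι] {φ : ι → Chart Ω} {a : Finset (Piece Ω Γ)}
    (h0 : Function.Injective fun i => pm Γ (φ i)) (h1 : ∀ i, pm Γ (φ i) ∈ a) {N : ℕ}
    (hN : a.card = N) :
    ∃ ψ : Fin (N - Fintype.card ι) → Chart Ω, Frame (Sum.elim φ ψ) a := by
  have hsub : (Finset.univ.image fun i => pm Γ (φ i)) ⊆ a := by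
    intro p hp
    obtain ⟨i, -, rfl⟩ := Finset.mem_image.1 hp
    exact h1 i
  have hc : (a \ Finset.univ.image fun i => pm Γ (φ i)).card = N - Fintype.card ι := by
    rw [Finset.card_sdiff_of_subset hsub, Finset.card_image_of_injective _ h0, hN,
      Finset.card_univ]
  rw [← hc]
  obtain ⟨ψ, h2, h3⟩ := exists_frame (a \ Finset.univ.image fun i => pm Γ (φ i))
  have h4 : ∀ i j, pm Γ (φ i) ≠ pm Γ (ψ j) := fun i j e =>
    (Finset.mem_sdiff.1 ((h3 _).2 ⟨j, rfl⟩)).2 (Finset.mem_image.2 ⟨i, Finset.mem_univ _, e⟩)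
  refine ⟨ψ, ?_, fun p => ⟨fun hp => ?_, ?_⟩⟩
  · rintro (i | i) (j | j) hij
    · exact congrArg _ (h0 hij)
    · exact absurd hij (h4 i j)
    · exact absurd hij.symm (h4 j i)
    · exact congrArg _ (h2 hij)
  · by_cases hp' : p ∈ Finset.univ.image fun i => pm Γ (φ i)
    · obtain ⟨i, -, rfl⟩ := Finset.mem_image.1 hp'
      exact ⟨Sum.inl i, rfl⟩
    · obtain ⟨j, hj⟩ := (h3 p).1 (Finset.mem_sdiff.2 ⟨hp, hp'⟩)
      exact ⟨Sum.inr j, hj⟩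
  · rintro ⟨i | j, rfl⟩
    · exact h1 i
    · exact (Finset.mem_sdiff.1 ((h3 _).2 ⟨j, rfl⟩)).1

/-- Extension.  Halve an extra piece repeatedly (`lt_spl`) until both vertices have the same rank,
complete `φ`, `φ'` to frames indexed by `ι ⊕ Fin k`, apply `exists_SV_of_frame`. -/
theorem exists_SV_of_adm [Nonempty Ω] {ι : Type} [Finite ι] {φ φ' : ι → Chart Ω} (h : Adm Γ φ)
    (h' : Adm Γ φ') : ∃ g ∈ SV Ω Γ, ∀ i, pc g * φ i = φ' i := by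
  have := Fintype.ofFinite ι
  obtain ⟨h0, w, hw, h1, h2⟩ := h
  obtain ⟨h0', w', hw', h1', h2'⟩ := h'
  obtain ⟨x, hx, h3, -, h4⟩ := tg_grow hw h1 h2 (rk w')
  obtain ⟨x', hx', h3', -, h4'⟩ := tg_grow hw' h1' h2' (rk w)
  obtain ⟨ψ, hψ⟩ := tg_complete h0 h3 h4
  obtain ⟨ψ', hψ'⟩ := tg_complete h0' h3' (h4'.trans (add_comm _ _))
  obtain ⟨g, hg, h5, -⟩ := exists_SV_of_frame hx hx' hψ hψ'
  exact ⟨g, hg, fun i => h5 (Sum.inl i)⟩

/-- two points are separated by a vertex: they differ at `(s, n)`; halve the piece containing both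
along `s` (induction on `n`, for charts `φ` with `pm φ ∈ w ∈ PP` and points `φ κ`, `φ κ'`) -/
theorem exists_sep {κ κ' : Cs Ω} (h : κ ≠ κ') :
    ∃ w ∈ PP Ω Γ, ∃ r ∈ w.s, κ ∈ rng r ∧ κ' ∉ rng r := by
  have head : ∀ (s : Ω) (φ : Chart Ω) (w : Vx Ω Γ), w ∈ PP Ω Γ → pm Γ φ ∈ w.s →
      ∀ κ κ' : Cs Ω, (κ s).head ≠ (κ' s).head →
        ∃ w ∈ PP Ω Γ, ∃ r ∈ w.s, φ κ ∈ rng r ∧ φ κ' ∉ rng r := by
    intro s φ w hw hφ κ κ' hne
    refine ⟨_, tg_spl_mem hw hφ s, _, tg_half_mem _ φ s (κ s).head, ?_, ?_⟩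
    · rw [rng_pm, rg_mul]
      exact ⟨κ, mem_rg_hs.2 rfl, rfl⟩
    · rw [rng_pm, rg_mul]
      rintro ⟨κ'', h1, h2⟩
      rw [φ.inj h2] at h1
      exact hne (mem_rg_hs.1 h1).symm
  have key : ∀ (s : Ω) (n : ℕ) (φ : Chart Ω) (w : Vx Ω Γ), w ∈ PP Ω Γ → pm Γ φ ∈ w.s →
      ∀ κ κ' : Cs Ω, (κ s).get n ≠ (κ' s).get n →
        ∃ w ∈ PP Ω Γ, ∃ r ∈ w.s, φ κ ∈ rng r ∧ φ κ' ∉ rng r := by
    intro s n
    induction n with
    | zero => exact head s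
    | succ n ih =>
      intro φ w hw hφ κ κ' hne
      by_cases hh : (κ s).head = (κ' s).head
      · obtain ⟨b, hb⟩ : ∃ b, (κ s).head = b := ⟨_, rfl⟩
        obtain ⟨κ₀, rfl⟩ := mem_rg_hs.2 hb
        obtain ⟨κ₀', rfl⟩ := mem_rg_hs.2 (hh.symm.trans hb)
        refine ih (φ * hs s b) _ (tg_spl_mem hw hφ s) (tg_half_mem _ φ s b) κ₀ κ₀' ?_
        simpa [hs] using hne
      · exact head s φ w hw hφ κ κ' hh
  obtain ⟨s, hs'⟩ := Function.ne_iff.1 h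
  obtain ⟨n, hn⟩ : ∃ n, (κ s).get n ≠ (κ' s).get n := by
    by_contra hcon
    push Not at hcon
    exact hs' (Stream'.ext hcon)
  exact key s n 1 _ v0_mem (Finset.mem_singleton_self _) κ κ' hn

/-- the copy of a permutation on the range of a chart -/
noncomputable def loc (φ : Chart Ω) : Equiv.Perm (Cs Ω) →* Equiv.Perm (Cs Ω) :=
  Equiv.Perm.viaEmbeddingHom φ.emb

theorem loc_apply (φ : Chart Ω) (g : Equiv.Perm (Cs Ω)) (κ : Cs Ω) : loc φ g (φ κ) = φ (g κ) :=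
  Equiv.Perm.viaEmbedding_apply g φ.emb κ

theorem loc_mul (φ : Chart Ω) (g : Equiv.Perm (Cs Ω)) : pc (loc φ g) * φ = φ * pc g := by
  exact Chart.ext (funext fun κ => loc_apply φ g κ)

theorem loc_of_notMem (φ : Chart Ω) (g : Equiv.Perm (Cs Ω)) {κ : Cs Ω} (h : κ ∉ φ.rg) :
    loc φ g κ = κ := by
  exact Equiv.Perm.viaEmbedding_apply_of_notMem g φ.emb κ h

theorem loc_eq_of {φ : Chart Ω} {g k : Equiv.Perm (Cs Ω)} (h1 : ∀ κ, k (φ κ) = φ (g κ))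
    (h2 : ∀ κ, κ ∉ φ.rg → k κ = κ) : loc φ g = k := by
  refine Equiv.ext fun κ => ?_
  by_cases hκ : κ ∈ φ.rg
  · obtain ⟨κ', rfl⟩ := hκ
    rw [loc_apply, h1]
  · rw [loc_of_notMem φ g hκ, h2 κ hκ]

theorem loc_mem_rg (φ : Chart Ω) (g : Equiv.Perm (Cs Ω)) (κ : Cs Ω) :
    loc φ g κ ∈ φ.rg ↔ κ ∈ φ.rg := by
  by_cases hκ : κ ∈ φ.rg
  · obtain ⟨κ', rfl⟩ := hκ
    rw [loc_apply]
    exact iff_of_true ⟨_, rfl⟩ ⟨_, rfl⟩
  · rw [loc_of_notMem φ g hκ]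

theorem loc_smul_smul (φ : Chart Ω) (g : Equiv.Perm (Cs Ω)) (q : Piece Ω Γ) :
    loc φ g • φ • q = φ • g • q := by
  rw [perm_smul_piece, perm_smul_piece, ← mul_smul, loc_mul, mul_smul]

theorem loc_mul_of_disjoint (φ ψ : Chart Ω) (g : Equiv.Perm (Cs Ω)) (h : Disjoint φ.rg ψ.rg) :
    pc (loc φ g) * ψ = ψ := by
  exact Chart.ext (funext fun κ => loc_of_notMem φ g (Set.disjoint_right.1 h ⟨κ, rfl⟩))

theorem loc_loc (φ ψ : Chart Ω) (g : Equiv.Perm (Cs Ω)) : loc φ (loc ψ g) = loc (φ * ψ) g := by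
  refine (loc_eq_of (fun κ => ?_) fun κ hκ => ?_).symm
  · rw [Chart.mul_apply, loc_apply, loc_apply, Chart.mul_apply]
  · by_cases h : κ ∈ φ.rg
    · obtain ⟨κ', rfl⟩ := h
      rw [loc_apply, loc_of_notMem ψ g]
      rintro ⟨κ'', rfl⟩
      exact hκ ⟨κ'', rfl⟩
    · exact loc_of_notMem φ _ h

theorem conj_loc (k : Equiv.Perm (Cs Ω)) (φ : Chart Ω) (g : Equiv.Perm (Cs Ω)) :
    k * loc φ g * k⁻¹ = loc (pc k * φ) g := by
  refine (loc_eq_of (fun κ => ?_) fun κ hκ => ?_).symm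
  · simp [loc_apply]
  · rw [Equiv.Perm.mul_apply, Equiv.Perm.mul_apply, loc_of_notMem φ g]
    · simp
    · rintro ⟨κ', h⟩
      exact hκ ⟨κ', by simp [h]⟩

theorem commute_loc {φ ψ : Chart Ω} (h : Disjoint φ.rg ψ.rg) (g g' : Equiv.Perm (Cs Ω)) :
    Commute (loc φ g) (loc ψ g') := by
  refine Equiv.Perm.Disjoint.commute fun κ => ?_
  by_cases hκ : κ ∈ φ.rg
  · exact Or.inr (loc_of_notMem ψ g' (Set.disjoint_left.1 h hκ))
  · exact Or.inl (loc_of_notMem φ g hκ)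

theorem tg_normal {g : Equiv.Perm (Cs Ω)} (hg : g ∈ SV Ω Γ) (hw : w ∈ PP Ω Γ) :
    ∃ x, w ≤ x ∧ w ≤ g • x := by
  obtain ⟨y, h1, h2⟩ := tg_common hw (smul_mem_PP hg hw)
  refine ⟨g⁻¹ • y, ?_, by rwa [smul_inv_smul]⟩
  have := smul_le_smul g⁻¹ h2
  rwa [inv_smul_smul] at this

theorem tg_rep_le {φ : Chart Ω} (hw : w ∈ PP Ω Γ) (hφ : pm Γ φ ∈ w.s) {x : Vx Ω Γ}
    (hx : v0 Ω Γ ≤ x) : w ≤ ⟨w.s.erase (pm Γ φ) ∪ x.s.image fun q => φ • q⟩ := by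
  have e : w.s.erase (pm Γ φ) ∪ {pm Γ φ} = w.s := by
    rw [Finset.union_comm, ← Finset.insert_eq, Finset.insert_erase hφ]
  have h1 := (tg_single_le_iff.1 hx).smul φ
  rw [smul_pm, mul_one] at h1
  have := union_le_union (a := w.s.erase (pm Γ φ)) (b := {pm Γ φ}) (by rw [e]; exact disj_of_PP hw)
    le_rfl (tg_single_le_iff (x := ⟨x.s.image fun q => φ • q⟩).2 h1)
    (Finset.disjoint_singleton_right.2 (Finset.notMem_erase _ _))
  rwa [e] at this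

/-- `v0 ≤ x`, `v0 ≤ g • x`; replace `pm φ` in `w` by `φ • x` (`Ex.smul`, `union_le_union`) -/
theorem loc_mem {φ : Chart Ω} (hw : w ∈ PP Ω Γ) (hφ : pm Γ φ ∈ w.s) {g : Equiv.Perm (Cs Ω)}
    (hg : g ∈ SV Ω Γ) : loc φ g ∈ SV Ω Γ := by
  obtain ⟨x, h1, h2⟩ := tg_normal hg v0_mem
  refine mem_SV_of (PP_upper hw (tg_rep_le hw hφ h1)) ?_
  have e : loc φ g • (⟨w.s.erase (pm Γ φ) ∪ x.s.image fun q => φ • q⟩ : Vx Ω Γ) =
      ⟨w.s.erase (pm Γ φ) ∪ (g • x).s.image fun q => φ • q⟩ := by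
    refine Vx.ext ?_
    rw [Vx.smul_s, Vx.smul_s, Finset.image_union, Finset.image_image, Finset.image_image]
    congr 1
    · refine (Finset.image_congr fun p hp => ?_).trans Finset.image_id
      obtain ⟨ψ, rfl⟩ := exists_pm p
      have hp' := Finset.mem_erase.1 (Finset.mem_coe.1 hp)
      have := disj_of_PP hw _ hφ _ hp'.2 hp'.1.symm
      rw [perm_smul_piece, smul_pm, loc_mul_of_disjoint φ ψ g this]
      rfl
    · exact Finset.image_congr fun q _ => loc_smul_smul φ g q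
  rw [e]
  exact PP_upper hw (tg_rep_le hw hφ h2)

/-- conversely: choose `x ≥ w` with `loc φ g • x ≥ w`, restrict both to `rg φ` and pull back
(`ex_res_of_le`, `Ex.pull`) -/
theorem mem_of_loc_mem {φ : Chart Ω} (hw : w ∈ PP Ω Γ) (hφ : pm Γ φ ∈ w.s)
    {g : Equiv.Perm (Cs Ω)} (hg : loc φ g ∈ SV Ω Γ) : g ∈ SV Ω Γ := by
  obtain ⟨x, h1, h2⟩ := tg_normal hg hw
  have e1 : pm Γ φ = φ • pm Γ (1 : Chart Ω) := by rw [smul_pm, mul_one]
  have h3 := ex_res_of_le h1 (disj_of_PP hw) hφ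
  have h4 := ex_res_of_le h2 (disj_of_PP hw) hφ
  rw [rng_pm] at h3 h4
  rw [e1] at h3 h4
  obtain ⟨T₀, h5, h6⟩ := h3.pull
  obtain ⟨T₁, h7, h8⟩ := h4.pull
  have e2 : g • (⟨T₀⟩ : Vx Ω Γ) = ⟨T₁⟩ := by
    refine Vx.ext (Finset.image_injective (smul_piece_injective φ) ?_)
    have e3 : (T₀.image fun q => g • q).image (fun q => φ • q) =
        (T₀.image fun q => φ • q).image fun q => loc φ g • q := by
      rw [Finset.image_image, Finset.image_image]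
      exact Finset.image_congr fun q _ => (loc_smul_smul φ g q).symm
    change (T₀.image fun q => g • q).image (fun q => φ • q) = T₁.image fun q => φ • q
    rw [e3, ← h6, ← h8, res, res, Vx.smul_s, Finset.filter_image]
    congr 1
    refine Finset.filter_congr fun p _ => ?_
    rw [perm_smul_piece, rng_smul, Set.image_subset_iff]
    exact ⟨fun h κ hκ => (loc_mem_rg φ g κ).2 (h hκ), fun h κ hκ => (loc_mem_rg φ g κ).1 (h hκ)⟩
  refine mem_SV_of (u := ⟨T₀⟩) (PP_upper v0_mem (tg_single_le_iff.2 h5)) ?_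
  rw [e2]
  exact PP_upper v0_mem (tg_single_le_iff.2 h7)

/-- a permutation fixing the complement of the range is a copy -/
theorem exists_loc {φ : Chart Ω} {k : Equiv.Perm (Cs Ω)} (h : ∀ κ, κ ∉ φ.rg → k κ = κ) :
    ∃ g, loc φ g = k := by
  have key : ∀ k : Equiv.Perm (Cs Ω), (∀ κ, κ ∉ φ.rg → k κ = κ) → ∀ κ, ∃ κ', φ κ' = k (φ κ) := by
    intro k hk κ
    by_contra hcon
    have h1 := k.injective (hk _ hcon)
    exact hcon ⟨κ, h1.symm⟩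
  choose f hf using key k h
  choose f' hf' using key k⁻¹ fun κ hκ => Equiv.Perm.inv_eq_iff_eq.2 (h κ hκ).symm
  refine ⟨⟨f, f', fun κ => φ.inj ?_, fun κ => φ.inj ?_⟩, loc_eq_of (fun κ => (hf κ).symm) h⟩
  · rw [hf', hf]
    simp
  · rw [hf, hf']
    simp

/-- normal form: `g` maps an expansion of `v0` to an expansion of `v0` (`Ex.addr`) -/
theorem exists_normal_form {g : Equiv.Perm (Cs Ω)} (hg : g ∈ SV Ω Γ) :
    ∃ (n : ℕ) (L L' : Fin n → List (Ω × Bool)) (γ : Fin n → Γ) (x : Vx Ω Γ), x ∈ PP Ω Γ ∧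
      Frame (fun i => hL (L i)) x.s ∧ ∀ i, pc g * hL (L i) = hL (L' i) * pc (tw Γ (γ i)) := by
  obtain ⟨x, h1, h2⟩ := tg_normal hg v0_mem
  obtain ⟨ψ, h3, h4⟩ := exists_frame x.s
  choose L hL' _ using fun i => (tg_single_le_iff.1 h1).addr _ ((h4 _).2 ⟨i, rfl⟩)
  simp only [one_mul] at hL'
  have h5 : ∀ i, g • pm Γ (ψ i) ∈ (g • x).s := fun i =>
    Finset.mem_image_of_mem _ ((h4 _).2 ⟨i, rfl⟩)
  choose L' hL'' _ using fun i => (tg_single_le_iff.1 h2).addr _ (h5 i)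
  simp only [one_mul, hL', perm_smul_piece, smul_pm] at hL''
  choose γ hγ using fun i => pm_eq_iff.1 (hL'' i).symm
  refine ⟨_, L, L', γ, x, PP_upper v0_mem h1, ⟨?_, fun p => ?_⟩, hγ⟩
  · simpa only [hL'] using h3
  · simpa only [hL'] using h4 p

end Crest.Agent.R185.TB
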