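import Crest.Agent.R185.TCube

/-!
# Row 185, twisted Brin–Thompson groups: the poset of vertices

For `Disj u` and `Exp u w` via `T`, one has `T p = res w (rng p)`, `w` is `Disj` and
`w.card = ∑ p ∈ u, (T p).card`.  The main tool is `le_of_refines`: above a common lower bound the
order is refinement.
-/

set_option autoImplicit false

open scoped Classical

namespace Crest.Agent.R185.TB

variable {Ω Γ : Type} [Group Γ] [MulAction Γ Ω]

theorem mem_res {u : Finset (Piece Ω Γ)} {Z : Set (Cs Ω)} {p : Piece Ω Γ} :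
    p ∈ res u Z ↔ p ∈ u ∧ rng p ⊆ Z := Finset.mem_filter

theorem Disj.eq_of_mem {u : Finset (Piece Ω Γ)} (hu : Disj u) {p p' : Piece Ω Γ} (hp : p ∈ u)
    (hp' : p' ∈ u) {κ : Cs Ω} (h : κ ∈ rng p) (h' : κ ∈ rng p') : p = p' := by
  by_contra hne
  exact Set.disjoint_left.1 (hu p hp p' hp' hne) h h'

theorem Disj.eq_of_subset {u : Finset (Piece Ω Γ)} (hu : Disj u) {p p' q : Piece Ω Γ} (hp : p ∈ u)
    (hp' : p' ∈ u) (h : rng q ⊆ rng p) (h' : rng q ⊆ rng p') : p = p' := by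
  obtain ⟨κ, hκ⟩ := rng_nonempty q
  exact hu.eq_of_mem hp hp' (h hκ) (h' hκ)

theorem rng_subset_supp {u : Finset (Piece Ω Γ)} {p : Piece Ω Γ} (hp : p ∈ u) : rng p ⊆ supp u :=
  fun _ hκ => ⟨p, hp, hκ⟩

theorem res_res {u : Finset (Piece Ω Γ)} {Z Z' : Set (Cs Ω)} (h : Z ⊆ Z') :
    res (res u Z') Z = res u Z := by
  ext q
  simp only [mem_res]
  exact ⟨fun hq => ⟨hq.1.1, hq.2⟩, fun hq => ⟨⟨hq.1, hq.2.trans h⟩, hq.2⟩⟩

theorem Exp.refines {u w : Finset (Piece Ω Γ)} (h : Exp u w) : Refines u w := by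
  obtain ⟨T, hT, rfl⟩ := h
  intro q hq
  obtain ⟨p, hp, hq⟩ := Finset.mem_biUnion.1 hq
  exact ⟨p, hp, (hT p hp).subset q hq⟩

theorem Exp.ex_res {u w : Finset (Piece Ω Γ)} (h : Exp u w) (hu : Disj u) {p : Piece Ω Γ}
    (hp : p ∈ u) : Ex p (res w (rng p)) := by
  obtain ⟨T, hT, rfl⟩ := h
  have : res (u.biUnion T) (rng p) = T p := by
    ext q
    rw [mem_res, Finset.mem_biUnion]
    constructor
    · rintro ⟨⟨p', hp', hq⟩, hqp⟩
      rwa [hu.eq_of_subset hp hp' hqp ((hT p' hp').subset q hq)]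
    · exact fun hq => ⟨⟨p, hp, hq⟩, (hT p hp).subset q hq⟩
  rw [this]
  exact hT p hp

theorem exp_of_res {u w : Finset (Piece Ω Γ)} (h : ∀ p ∈ u, Ex p (res w (rng p)))
    (hr : Refines u w) : Exp u w := by
  refine ⟨fun p => res w (rng p), h, ?_⟩
  ext q
  rw [Finset.mem_biUnion]
  constructor
  · intro hq
    obtain ⟨p, hp, hqp⟩ := hr q hq
    exact ⟨p, hp, mem_res.2 ⟨hq, hqp⟩⟩
  · rintro ⟨p, -, hq⟩
    exact (mem_res.1 hq).1

theorem card_biUnion_ex {u : Finset (Piece Ω Γ)} (hu : Disj u)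
    {T : Piece Ω Γ → Finset (Piece Ω Γ)} (hT : ∀ p ∈ u, Ex p (T p)) :
    (u.biUnion T).card = ∑ p ∈ u, (T p).card := by
  refine Finset.card_biUnion fun p hp p' hp' hne => Finset.disjoint_left.2 fun q hq hq' => hne ?_
  exact hu.eq_of_subset hp hp' ((hT p hp).subset q hq) ((hT p' hp').subset q hq')

theorem Ex.cases {p : Piece Ω Γ} {T : Finset (Piece Ω Γ)} (h : Ex p T) :
    T = {p} ∨ ∃ φ s T₀ T₁, p = pm Γ φ ∧ Ex (pm Γ (φ * hs s false)) T₀ ∧
      Ex (pm Γ (φ * hs s true)) T₁ ∧ T = T₀ ∪ T₁ := by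
  cases h with
  | refl => exact Or.inl rfl
  | split φ s h₀ h₁ => exact Or.inr ⟨φ, s, _, _, rfl, h₀, h₁, rfl⟩

theorem ex_halves (φ : Chart Ω) (s : Ω) :
    Ex (pm Γ φ) {pm Γ (φ * hs s false), pm Γ (φ * hs s true)} := by
  rw [Finset.insert_eq]
  exact Ex.split φ s (Ex.refl _) (Ex.refl _)

theorem halves_ne (φ : Chart Ω) (s : Ω) : pm Γ (φ * hs s false) ≠ pm Γ (φ * hs s true) := by
  intro h
  obtain ⟨κ, hκ⟩ := rng_nonempty (pm Γ (φ * hs s false))
  exact Set.disjoint_left.1 (disjoint_halves φ s) hκ (by rwa [h] at hκ)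

theorem Exp.refl (u : Finset (Piece Ω Γ)) : Exp u u := by
  exact ⟨fun p => {p}, fun p _ => Ex.refl p, Finset.biUnion_singleton_eq_self.symm⟩

theorem Exp.trans {u v w : Finset (Piece Ω Γ)} (h : Exp u v) (h' : Exp v w) : Exp u w := by
  obtain ⟨T, hT, rfl⟩ := h
  obtain ⟨T', hT', rfl⟩ := h'
  exact ⟨fun p => (T p).biUnion T', fun p hp => (hT p hp).graft fun q hq =>
    hT' q (Finset.mem_biUnion.2 ⟨p, hp, hq⟩), Finset.biUnion_biUnion _ _ _⟩

theorem Exp.disj {u w : Finset (Piece Ω Γ)} (h : Exp u w) (hu : Disj u) : Disj w := by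
  obtain ⟨T, hT, rfl⟩ := h
  intro q hq q' hq' hne
  obtain ⟨p, hp, hq⟩ := Finset.mem_biUnion.1 hq
  obtain ⟨p', hp', hq'⟩ := Finset.mem_biUnion.1 hq'
  by_cases e : p = p'
  · subst e
    exact (hT p hp).disj q hq q' hq' hne
  · exact (hu p hp p' hp' e).mono ((hT p hp).subset q hq) ((hT p' hp').subset q' hq')

theorem Exp.card_le {u w : Finset (Piece Ω Γ)} (h : Exp u w) (hu : Disj u) : u.card ≤ w.card := by
  obtain ⟨T, hT, rfl⟩ := h
  rw [card_biUnion_ex hu hT, Finset.card_eq_sum_ones]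
  exact Finset.sum_le_sum fun p hp => (hT p hp).nonempty.card_pos

theorem Exp.eq_of_card {u w : Finset (Piece Ω Γ)} (h : Exp u w) (hu : Disj u)
    (hc : w.card ≤ u.card) : u = w := by
  obtain ⟨T, hT, rfl⟩ := h
  rw [card_biUnion_ex hu hT, Finset.card_eq_sum_ones u] at hc
  have h1 : ∀ p ∈ u, 1 ≤ (T p).card := fun p hp => (hT p hp).nonempty.card_pos
  have h2 := (Finset.sum_eq_sum_iff_of_le h1).1 (le_antisymm (Finset.sum_le_sum h1) hc)
  rw [Finset.biUnion_congr rfl fun p hp => (hT p hp).eq_of_card (h2 p hp).ge,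
    Finset.biUnion_singleton_eq_self]

instance : PartialOrder (Vx Ω Γ) where
  le u w := u = w ∨ (Disj u.s ∧ Exp u.s w.s)
  le_refl _ := Or.inl rfl
  le_trans u v w h h' := by
    rcases h with rfl | h
    · exact h'
    · rcases h' with rfl | h'
      · exact Or.inr h
      · exact Or.inr ⟨h.1, h.2.trans h'.2⟩
  le_antisymm u w h h' := by
    rcases h with rfl | h
    · rfl
    · rcases h' with rfl | h'
      · rfl
      · exact Vx.ext (h.2.eq_of_card h.1 (h'.2.card_le h'.1))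

theorem Vx.le_def {u w : Vx Ω Γ} : u ≤ w ↔ u = w ∨ (Disj u.s ∧ Exp u.s w.s) := Iff.rfl

/-- the rank -/
def rk (u : Vx Ω Γ) : ℕ := u.s.card

variable {u v w x y : Vx Ω Γ}

theorem rk_strictMono : StrictMono (rk : Vx Ω Γ → ℕ) := by
  intro u w h
  rcases h.le with e | ⟨hu, he⟩
  · exact absurd e h.ne
  · exact lt_of_not_ge fun hc => h.ne (Vx.ext (he.eq_of_card hu hc))

theorem le_iff_exp (hu : Disj u.s) : u ≤ w ↔ Exp u.s w.s := by
  refine ⟨?_, fun h => Or.inr ⟨hu, h⟩⟩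
  rintro (rfl | h)
  · exact Exp.refl _
  · exact h.2

theorem disj_of_le (h : u ≤ w) (hu : Disj u.s) : Disj w.s := by
  exact ((le_iff_exp hu).1 h).disj hu

theorem disj_of_le' (h : u ≤ w) (hw : Disj w.s) : Disj u.s := by
  rcases h with rfl | h
  · exact hw
  · exact h.1

theorem ex_res_of_le (h : u ≤ w) (hu : Disj u.s) {p : Piece Ω Γ} (hp : p ∈ u.s) :
    Ex p (res w.s (rng p)) := by
  exact ((le_iff_exp hu).1 h).ex_res hu hp

theorem supp_eq_of_le (h : u ≤ w) : supp u.s = supp w.s := by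
  rcases h with rfl | ⟨-, T, hT, hw⟩
  · rfl
  · ext κ
    rw [hw]
    constructor
    · rintro ⟨p, hp, hκ⟩
      rw [← (hT p hp).supp_eq] at hκ
      obtain ⟨q, hq, hκ⟩ := hκ
      exact ⟨q, Finset.mem_biUnion.2 ⟨p, hp, hq⟩, hκ⟩
    · rintro ⟨q, hq, hκ⟩
      obtain ⟨p, hp, hq⟩ := Finset.mem_biUnion.1 hq
      exact ⟨p, hp, (hT p hp).subset q hq hκ⟩

theorem refines_of_le (h : u ≤ w) : Refines u.s w.s := by
  rcases h with rfl | h
  · exact (Exp.refl _).refines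
  · exact h.2.refines

theorem exists_under (h : u ≤ w) {p : Piece Ω Γ} (hp : p ∈ u.s) :
    ∃ q ∈ w.s, rng q ⊆ rng p := by
  rcases h with rfl | h
  · exact ⟨p, hp, subset_rfl⟩
  · obtain ⟨q, hq⟩ := (h.2.ex_res h.1 hp).nonempty
    exact ⟨q, mem_res.1 hq⟩

/-- above a common lower bound the order is refinement (`Ex.res_of_refines` piece by piece) -/
theorem le_of_refines (hu : Disj u.s) (hx : u ≤ x) (hy : u ≤ y) (h : Refines x.s y.s) : x ≤ y := by
  refine (le_iff_exp (disj_of_le hx hu)).2 (exp_of_res (fun q hq => ?_) h)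
  obtain ⟨p, hp, hqp⟩ := refines_of_le hx q hq
  have h1 : Refines (res x.s (rng p)) (res y.s (rng p)) := by
    intro r hr
    obtain ⟨hr, hrp⟩ := mem_res.1 hr
    obtain ⟨r', hr', hrr⟩ := h r hr
    obtain ⟨p', hp', hrp'⟩ := refines_of_le hx r' hr'
    obtain rfl := hu.eq_of_subset hp hp' hrp (hrr.trans hrp')
    exact ⟨r', mem_res.2 ⟨hr', hrp'⟩, hrr⟩
  have h2 := (ex_res_of_le hx hu hp).res_of_refines (ex_res_of_le hy hu hp) h1 q
    (mem_res.2 ⟨hq, hqp⟩)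
  rwa [res_res hqp] at h2

theorem exists_upper (hx : u ≤ x) (hy : u ≤ y) : ∃ z, x ≤ z ∧ y ≤ z := by
  by_cases hu : Disj u.s
  · have key : ∀ p, ∃ Z, p ∈ u.s →
        Ex p Z ∧ Refines (res x.s (rng p)) Z ∧ Refines (res y.s (rng p)) Z := by
      intro p
      by_cases hp : p ∈ u.s
      · obtain ⟨Z, hZ⟩ := (ex_res_of_le hx hu hp).exists_common (ex_res_of_le hy hu hp)
        exact ⟨Z, fun _ => hZ⟩
      · exact ⟨∅, fun h => absurd h hp⟩
    choose Z hZ using key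
    have hz : u ≤ ⟨u.s.biUnion Z⟩ := (le_iff_exp hu).2 ⟨Z, fun p hp => (hZ p hp).1, rfl⟩
    refine ⟨_, le_of_refines hu hx hz fun r hr => ?_, le_of_refines hu hy hz fun r hr => ?_⟩
    · obtain ⟨p, hp, hr⟩ := Finset.mem_biUnion.1 hr
      obtain ⟨r', hr', h⟩ := (hZ p hp).2.1 r hr
      exact ⟨r', (mem_res.1 hr').1, h⟩
    · obtain ⟨p, hp, hr⟩ := Finset.mem_biUnion.1 hr
      obtain ⟨r', hr', h⟩ := (hZ p hp).2.2 r hr
      exact ⟨r', (mem_res.1 hr').1, h⟩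
  · rcases hx with rfl | hx
    · exact ⟨y, hy, le_rfl⟩
    · exact absurd hx.1 hu

theorem smul_le_smul (g : Equiv.Perm (Cs Ω)) (h : u ≤ w) : g • u ≤ g • w := by
  rcases h with rfl | ⟨hu, T, hT, hw⟩
  · exact le_rfl
  refine Or.inr ⟨fun p hp q hq hne => ?_, fun q => (T (g⁻¹ • q)).image fun r => g • r,
    fun q hq => ?_, ?_⟩
  · obtain ⟨p', hp', rfl⟩ := Finset.mem_image.1 hp
    obtain ⟨q', hq', rfl⟩ := Finset.mem_image.1 hq
    rw [perm_smul_piece, perm_smul_piece, rng_smul, rng_smul]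
    exact (Set.disjoint_image_iff (pc g).inj).2 (hu p' hp' q' hq' fun e => hne (by rw [e]))
  · obtain ⟨q', hq', rfl⟩ := Finset.mem_image.1 hq
    simp only [inv_smul_smul]
    exact (hT q' hq').smul (pc g)
  · rw [Vx.smul_s, Vx.smul_s, hw, Finset.biUnion_image, Finset.image_biUnion]
    simp only [inv_smul_smul]

theorem smul_lt_smul (g : Equiv.Perm (Cs Ω)) (h : u < w) : g • u < g • w := by
  exact lt_of_le_of_ne (smul_le_smul g h.le) fun e => h.ne (MulAction.injective g e)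

theorem rk_smul (g : Equiv.Perm (Cs Ω)) (u : Vx Ω Γ) : rk (g • u) = rk u := by
  exact Finset.card_image_of_injective _ (MulAction.injective g)

theorem Disj.mono {a b : Finset (Piece Ω Γ)} (hb : Disj b) (h : a ⊆ b) : Disj a := by
  exact fun p hp q hq => hb p (h hp) q (h hq)

/-- restriction to a subfamily -/
theorem le_res (hu : Disj u.s) (h : u ≤ w) {a : Finset (Piece Ω Γ)} (ha : a ⊆ u.s) :
    (⟨a⟩ : Vx Ω Γ) ≤ ⟨res w.s (supp a)⟩ := by
  refine (le_iff_exp (hu.mono ha)).2 (exp_of_res (fun p hp => ?_) fun q hq => ?_)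
  · rw [res_res (rng_subset_supp hp)]
    exact ex_res_of_le h hu (ha hp)
  · obtain ⟨hq, hqa⟩ := mem_res.1 hq
    obtain ⟨p, hp, hqp⟩ := refines_of_le h q hq
    obtain ⟨κ, hκ⟩ := rng_nonempty q
    obtain ⟨p', hp', hκ'⟩ := hqa hκ
    obtain rfl := hu.eq_of_mem hp (ha hp') (hqp hκ) hκ'
    exact ⟨p, hp', hqp⟩

/-- the complementary restriction -/
theorem le_res_compl (hu : Disj u.s) (h : u ≤ w) {a : Finset (Piece Ω Γ)} (ha : a ⊆ u.s) :
    (⟨u.s \ a⟩ : Vx Ω Γ) ≤ ⟨res w.s (supp a)ᶜ⟩ ∧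
      w.s = res w.s (supp a) ∪ res w.s (supp a)ᶜ := by
  have h1 : supp (u.s \ a) ⊆ (supp a)ᶜ := by
    rintro κ ⟨p, hp, hκ⟩ ⟨p', hp', hκ'⟩
    obtain ⟨hp, hpa⟩ := Finset.mem_sdiff.1 hp
    exact hpa (hu.eq_of_mem hp (ha hp') hκ hκ' ▸ hp')
  have h2 : res w.s (supp a)ᶜ = res w.s (supp (u.s \ a)) := by
    ext q
    simp only [mem_res]
    refine and_congr_right fun hq => ⟨fun hqa => ?_, fun hqa => hqa.trans h1⟩
    obtain ⟨p, hp, hqp⟩ := refines_of_le h q hq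
    obtain ⟨κ, hκ⟩ := rng_nonempty q
    exact hqp.trans (rng_subset_supp (Finset.mem_sdiff.2 ⟨hp, fun hpa => hqa hκ ⟨p, hpa, hqp hκ⟩⟩))
  refine ⟨h2 ▸ le_res hu h Finset.sdiff_subset, ?_⟩
  ext q
  simp only [Finset.mem_union, mem_res]
  refine ⟨fun hq => ?_, fun hq => hq.elim And.left And.left⟩
  obtain ⟨p, hp, hqp⟩ := refines_of_le h q hq
  by_cases hpa : p ∈ a
  · exact Or.inl ⟨hq, hqp.trans (rng_subset_supp hpa)⟩
  · exact Or.inr ⟨hq, (hqp.trans (rng_subset_supp (Finset.mem_sdiff.2 ⟨hp, hpa⟩))).trans h1⟩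

/-- unions -/
theorem union_le_union {a b a' b' : Finset (Piece Ω Γ)} (hd : Disj (a ∪ b))
    (ha : (⟨a⟩ : Vx Ω Γ) ≤ ⟨a'⟩) (hb : (⟨b⟩ : Vx Ω Γ) ≤ ⟨b'⟩) (hab : Disjoint a b) :
    (⟨a ∪ b⟩ : Vx Ω Γ) ≤ ⟨a' ∪ b'⟩ := by
  obtain ⟨T, hT, e⟩ := (le_iff_exp (u := ⟨a⟩) (hd.mono Finset.subset_union_left)).1 ha
  obtain ⟨T', hT', e'⟩ := (le_iff_exp (u := ⟨b⟩) (hd.mono Finset.subset_union_right)).1 hb
  simp only at hT hT' e e'
  refine Or.inr ⟨hd, fun p => if p ∈ a then T p else T' p, fun p hp => ?_, ?_⟩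
  · simp only
    split_ifs with hpa
    · exact hT p hpa
    · exact hT' p ((Finset.mem_union.1 hp).resolve_left hpa)
  · simp only
    rw [e, e', Finset.union_biUnion]
    congr 1
    · exact Finset.biUnion_congr rfl fun p hp => by rw [if_pos hp]
    · exact Finset.biUnion_congr rfl fun p hp => by rw [if_neg (Finset.disjoint_right.1 hab hp)]

theorem disj_union {a b : Finset (Piece Ω Γ)} (ha : Disj a) (hb : Disj b)
    (h : Disjoint (supp a) (supp b)) : Disj (a ∪ b) ∧ Disjoint a b := by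
  refine ⟨fun p hp q hq hne => ?_, Finset.disjoint_left.2 fun p hp hp' => ?_⟩
  · rcases Finset.mem_union.1 hp with hp | hp <;> rcases Finset.mem_union.1 hq with hq | hq
    · exact ha p hp q hq hne
    · exact h.mono (rng_subset_supp hp) (rng_subset_supp hq)
    · exact h.symm.mono (rng_subset_supp hp) (rng_subset_supp hq)
    · exact hb p hp q hq hne
  · obtain ⟨κ, hκ⟩ := rng_nonempty p
    exact Set.disjoint_left.1 h ⟨p, hp, hκ⟩ ⟨p, hp', hκ⟩

theorem disjoint_erase_halves (hu : Disj u.s) {φ : Chart Ω} (hφ : pm Γ φ ∈ u.s) (s : Ω) :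
    Disjoint (u.s.erase (pm Γ φ)) {pm Γ (φ * hs s false), pm Γ (φ * hs s true)} := by
  refine Finset.disjoint_left.2 fun p hp hp' => ?_
  obtain ⟨hne, hp⟩ := Finset.mem_erase.1 hp
  exact hne (hu.eq_of_subset hp hφ subset_rfl ((ex_halves φ s).subset p hp'))

theorem lt_spl (hu : Disj u.s) {φ : Chart Ω} (hφ : pm Γ φ ∈ u.s) (s : Ω) :
    u < ⟨spl u.s φ s⟩ ∧ rk (⟨spl u.s φ s⟩ : Vx Ω Γ) = rk u + 1 := by
  have hc : rk (⟨spl u.s φ s⟩ : Vx Ω Γ) = rk u + 1 := by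
    have := Finset.card_pos.2 ⟨_, hφ⟩
    simp only [rk, spl]
    rw [Finset.card_union_of_disjoint (disjoint_erase_halves hu hφ s), Finset.card_erase_of_mem hφ,
      Finset.card_pair (halves_ne φ s)]
    omega
  refine ⟨lt_of_le_of_ne ((le_iff_exp hu).2 ⟨fun p => if p = pm Γ φ then
    {pm Γ (φ * hs s false), pm Γ (φ * hs s true)} else {p}, fun p _ => ?_, ?_⟩) fun e => ?_, hc⟩
  · simp only
    split_ifs with e
    · exact e ▸ ex_halves φ s
    · exact Ex.refl p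
  · ext q
    simp only [spl, Finset.mem_union, Finset.mem_erase, Finset.mem_biUnion]
    constructor
    · rintro (⟨hne, hq⟩ | hq)
      · exact ⟨q, hq, by rw [if_neg hne]; exact Finset.mem_singleton_self q⟩
      · exact ⟨_, hφ, by rw [if_pos rfl]; exact hq⟩
    · rintro ⟨p, hp, hq⟩
      split_ifs at hq with e
      · exact Or.inr hq
      · rw [Finset.mem_singleton.1 hq]
        exact Or.inl ⟨e, hp⟩
  · rw [← e] at hc
    omega

/-- every proper expansion starts with a halving -/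
theorem exists_spl_le (h : u < w) :
    ∃ φ s, pm Γ φ ∈ u.s ∧ (⟨spl u.s φ s⟩ : Vx Ω Γ) ≤ w := by
  rcases h.le with e | ⟨hu, T, hT, hw⟩
  · exact absurd e h.ne
  obtain ⟨p, hp, hne⟩ : ∃ p ∈ u.s, T p ≠ {p} := by
    by_contra hc
    push Not at hc
    apply h.ne
    ext1
    rw [hw, Finset.biUnion_congr rfl hc, Finset.biUnion_singleton_eq_self]
  obtain ⟨φ, s, T₀, T₁, rfl, h₀, h₁, e⟩ := (hT p hp).cases.resolve_left hne
  refine ⟨φ, s, hp, le_of_refines hu (lt_spl hu hp s).1.le h.le fun q hq => ?_⟩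
  rw [hw] at hq
  obtain ⟨p', hp', hq⟩ := Finset.mem_biUnion.1 hq
  by_cases e' : p' = pm Γ φ
  · rw [e', e] at hq
    rcases Finset.mem_union.1 hq with hq | hq
    · exact ⟨_, by simp [spl], h₀.subset q hq⟩
    · exact ⟨_, by simp [spl], h₁.subset q hq⟩
  · exact ⟨p', Finset.mem_union_left _ (Finset.mem_erase.2 ⟨e', hp'⟩), (hT p' hp').subset q hq⟩

/-- The join with a halving: `v = res w (rg φ)ᶜ ∪ J false ∪ J true` from `Ex.cut` applied to
`res w (rg φ)`; the order relations follow from `le_of_refines`.  Count: if `pm φ ∈ w` two pieces are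
new, otherwise all pieces of `w` inside `rg φ` are in `w \ u` and each is cut into at most two. -/
theorem exists_lub_spl (hu : Disj u.s) (h : u ≤ w) {φ : Chart Ω} (hφ : pm Γ φ ∈ u.s) (s : Ω) :
    ∃ v, IsLUB {w, (⟨spl u.s φ s⟩ : Vx Ω Γ)} v ∧
      (v.s \ u.s).card ≤ 2 * (w.s \ u.s).card + 2 := by
  have hT := ex_res_of_le h hu hφ
  obtain ⟨J, A, hJ, hA, hJA⟩ := hT.cut s
  have hsupp : supp ({pm Γ φ} : Finset (Piece Ω Γ)) = rng (pm Γ φ) := (Ex.refl _).supp_eq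
  obtain ⟨h1, h2⟩ := le_res_compl hu h (a := {pm Γ φ}) (Finset.singleton_subset_iff.2 hφ)
  rw [hsupp] at h1 h2
  rw [Finset.sdiff_singleton_eq_erase] at h1
  have hus := (lt_spl hu hφ s).1.le
  have hds : Disj (spl u.s φ s) := disj_of_le hus hu
  have h3 : (⟨{pm Γ (φ * hs s false), pm Γ (φ * hs s true)}⟩ : Vx Ω Γ) ≤ ⟨J false ∪ J true⟩ := by
    have k : ∀ b, (⟨{pm Γ (φ * hs s b)}⟩ : Vx Ω Γ) ≤ ⟨J b⟩ := fun b =>
      Or.inr ⟨(Ex.refl _).disj, fun _ => J b, fun p hp => by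
        rw [Finset.mem_singleton.1 hp]; exact hJ b, by simp⟩
    rw [Finset.insert_eq]
    refine union_le_union ?_ (k false) (k true) (Finset.disjoint_singleton.2 (halves_ne φ s))
    rw [← Finset.insert_eq]
    exact (ex_halves φ s).disj
  have h4 : (⟨spl u.s φ s⟩ : Vx Ω Γ) ≤ ⟨res w.s (rng (pm Γ φ))ᶜ ∪ (J false ∪ J true)⟩ :=
    union_le_union hds h1 h3 (disjoint_erase_halves hu hφ s)
  have h5 := hus.trans h4
  refine ⟨⟨res w.s (rng (pm Γ φ))ᶜ ∪ (J false ∪ J true)⟩, ⟨?_, fun z hz => ?_⟩, ?_⟩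
  · rintro _ (rfl | rfl)
    · refine le_of_refines hu h h5 fun q hq => ?_
      rcases Finset.mem_union.1 hq with hq | hq
      · exact ⟨q, (mem_res.1 hq).1, subset_rfl⟩
      · rw [hJA] at hq
        obtain ⟨r, hr, hq⟩ := Finset.mem_biUnion.1 hq
        refine ⟨r, (mem_res.1 hr).1, ?_⟩
        rcases hA r hr with ⟨e, -⟩ | ⟨ψ, t, rfl, e, -⟩
        · rw [e] at hq
          rw [Finset.mem_singleton.1 hq]
        · rw [e] at hq
          exact (ex_halves ψ t).subset q hq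
    · exact h4
  · have hz1 : w ≤ z := hz (Set.mem_insert _ _)
    have hz2 : (⟨spl u.s φ s⟩ : Vx Ω Γ) ≤ z := hz (Set.mem_insert_of_mem _ rfl)
    refine le_of_refines hu h5 (h.trans hz1) fun r hr => ?_
    obtain ⟨q, hq, hrq⟩ := refines_of_le hz1 r hr
    obtain ⟨q', hq', hrq'⟩ := refines_of_le hz2 r hr
    rw [h2] at hq
    rcases Finset.mem_union.1 hq with hq | hq
    swap
    · exact ⟨q, Finset.mem_union_left _ hq, hrq⟩
    have hmem : ∀ a ∈ A q, a ∈ res w.s (rng (pm Γ φ))ᶜ ∪ (J false ∪ J true) := fun a ha =>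
      Finset.mem_union_right _ (hJA ▸ Finset.mem_biUnion.2 ⟨q, hq, ha⟩)
    rcases hA q hq with ⟨e, -⟩ | ⟨ψ, t, rfl, e, hH⟩
    · exact ⟨q, hmem q (e ▸ Finset.mem_singleton_self q), hrq⟩
    rw [rng_pm, ← union_halves ψ t] at hrq
    rcases Finset.mem_union.1 hq' with hq' | hq'
    · obtain ⟨hne, hq'⟩ := Finset.mem_erase.1 hq'
      refine absurd (hu.eq_of_subset hq' hφ hrq' ?_) hne
      rw [union_halves] at hrq
      exact hrq.trans (mem_res.1 hq).2
    · rcases Finset.mem_insert.1 hq' with rfl | hq'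
      · refine ⟨_, hmem (pm Γ (ψ * hs t false)) (by simp [e]), fun κ hκ => ?_⟩
        exact (hrq hκ).resolve_right fun h' =>
          Set.disjoint_left.1 (disjoint_halves φ s) (hrq' hκ) (hH true h')
      · rw [Finset.mem_singleton.1 hq'] at hrq'
        refine ⟨_, hmem (pm Γ (ψ * hs t true)) (by simp [e]), fun κ hκ => ?_⟩
        exact (hrq hκ).resolve_left fun h' =>
          Set.disjoint_left.1 (disjoint_halves φ s) (hH false h') (hrq' hκ)
  · have hsub : (res w.s (rng (pm Γ φ))ᶜ ∪ (J false ∪ J true)) \ u.s ⊆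
        (insert (pm Γ φ) (w.s \ u.s)).biUnion
          fun q => if q ∈ res w.s (rng (pm Γ φ)) then A q else {q} := by
      intro a ha
      obtain ⟨ha, hau⟩ := Finset.mem_sdiff.1 ha
      rcases Finset.mem_union.1 ha with ha | ha
      · obtain ⟨haw, hac⟩ := mem_res.1 ha
        refine Finset.mem_biUnion.2 ⟨a, Finset.mem_insert_of_mem (Finset.mem_sdiff.2 ⟨haw, hau⟩), ?_⟩
        obtain ⟨κ, hκ⟩ := rng_nonempty a
        rw [if_neg fun h' => hac hκ ((mem_res.1 h').2 hκ)]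
        exact Finset.mem_singleton_self a
      · rw [hJA] at ha
        obtain ⟨q, hq, ha⟩ := Finset.mem_biUnion.1 ha
        refine Finset.mem_biUnion.2 ⟨q, ?_, by rw [if_pos hq]; exact ha⟩
        by_cases hqu : q ∈ u.s
        · rw [hu.eq_of_subset hqu hφ subset_rfl (mem_res.1 hq).2]
          exact Finset.mem_insert_self _ _
        · exact Finset.mem_insert_of_mem (Finset.mem_sdiff.2 ⟨(mem_res.1 hq).1, hqu⟩)
    refine (Finset.card_le_card hsub).trans ((Finset.card_biUnion_le_card_mul _ _ 2 fun q _ => ?_).trans ?_)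
    · split_ifs with hq
      · rcases hA q hq with ⟨e, -⟩ | ⟨ψ, t, -, e, -⟩
        · simp [e]
        · rw [e]
          exact Finset.card_le_two
      · simp
    · have := Finset.card_insert_le (pm Γ φ) (w.s \ u.s)
      omega

/-- merging two pieces -/
theorem exists_ex_pair [Nonempty Ω] {p₁ p₂ : Piece Ω Γ} (h : Disjoint (rng p₁) (rng p₂)) :
    ∃ r, Ex r {p₁, p₂} := by
  obtain ⟨φ₀, rfl⟩ := exists_pm p₁
  obtain ⟨φ₁, rfl⟩ := exists_pm p₂
  obtain ⟨s⟩ := ‹Nonempty Ω›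
  obtain ⟨φ, rfl, rfl⟩ := exists_merge s φ₀ φ₁ h
  exact ⟨_, ex_halves φ s⟩

end Crest.Agent.R185.TB
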