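import Mathlib

/-!
# Row 185, twisted Brin–Thompson groups: chains of a poset, cones, the push-off lemma

Chains are strictly increasing lists; the index `j` is the *length* (dimension `+ 1`), the empty
list is the augmentation.  So `Acyc X 0` says that `X` is nonempty and `Acyc X 1` that it is
connected.

Tools to build (add them as helper lemmas): for `x : α` the insertion operator
`ins x [] = single [x] 1`, `ins x (y :: l) = if y < x then - consL y (ins x l) else single (x :: y :: l) 1`
(extended linearly).  For a strictly increasing list `l`: `bd (ins x l) + ins x (bd l) = single l 1`;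
if all entries of `l` are comparable with and different from `x`, `ins x l = ± single l' 1` with `l'`
strictly increasing, `l'.erase x = l`.  Every chain `z` is `ins x c + r` with `c` supported on
chains in the link of `x` and `r` on chains avoiding `x` (`Finsupp.filter`), and `ins x c` is
supported on lists containing `x` and is injective in such `c` (e.g. through a left inverse `rem x`).
-/

set_option autoImplicit false

namespace Crest.Agent.R185.TB

variable {α : Type}

/-- prepend a vertex -/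
noncomputable def consL (x : α) : (List α →₀ ℤ) →ₗ[ℤ] (List α →₀ ℤ) :=
  Finsupp.lmapDomain ℤ ℤ (List.cons x)

/-- the boundary of a list -/
noncomputable def bdL : List α → (List α →₀ ℤ)
  | [] => 0
  | x :: l => Finsupp.single l 1 - consL x (bdL l)

/-- the boundary operator -/
noncomputable def bd : (List α →₀ ℤ) →ₗ[ℤ] (List α →₀ ℤ) := Finsupp.linearCombination ℤ bdL

@[simp] theorem consL_single (x : α) (l : List α) (n : ℤ) :
    consL x (Finsupp.single l n) = Finsupp.single (x :: l) n := by simp [consL]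

@[simp] theorem bd_single (l : List α) (n : ℤ) : bd (Finsupp.single l n) = n • bdL l := by
  simp [bd]

theorem bd_consL (x : α) (z : List α →₀ ℤ) : bd (consL x z) = z - consL x (bd z) := by
  induction z using Finsupp.induction_linear with
  | zero => simp
  | add a b ha hb => simp only [map_add, ha, hb]; abel
  | single l n => simp [bdL, smul_sub]

theorem PosA_bd_bdL (l : List α) : bd (bdL l) = 0 := by
  induction l with
  | nil => simp [bdL]
  | cons x l ih => simp [bdL, bd_consL, ih]

theorem bd_bd (z : List α →₀ ℤ) : bd (bd z) = 0 := by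
  induction z using Finsupp.induction_linear with
  | zero => simp
  | add a b ha hb => simp only [map_add, ha, hb, add_zero]
  | single l n => simp [PosA_bd_bdL]

theorem PosA_consL_map {β : Type} (f : α → β) (x : α) (z : List α →₀ ℤ) :
    Finsupp.mapDomain (List.map f) (consL x z) = consL (f x) (Finsupp.mapDomain (List.map f) z) := by
  induction z using Finsupp.induction_linear with
  | zero => simp
  | add a b ha hb => simp only [Finsupp.mapDomain_add, map_add, ha, hb]
  | single l n => simp

theorem PosA_bdL_map {β : Type} (f : α → β) (l : List α) :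
    bdL (l.map f) = Finsupp.mapDomain (List.map f) (bdL l) := by
  induction l with
  | nil => simp [bdL]
  | cons x l ih =>
    have e := map_sub (Finsupp.lmapDomain ℤ ℤ (List.map f)) (Finsupp.single l 1)
      (consL x (bdL l))
    simp only [Finsupp.lmapDomain_apply] at e
    simp only [List.map_cons, bdL, ih, e, PosA_consL_map, Finsupp.mapDomain_single]

/-- naturality -/
theorem bd_map {β : Type} (f : α → β) (z : List α →₀ ℤ) :
    bd (Finsupp.mapDomain (List.map f) z) = Finsupp.mapDomain (List.map f) (bd z) := by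
  induction z using Finsupp.induction_linear with
  | zero => simp
  | add a b ha hb => simp only [Finsupp.mapDomain_add, map_add, ha, hb]
  | single l n => simp [Finsupp.mapDomain_smul, PosA_bdL_map]

variable [PartialOrder α]

/-- strictly increasing lists of length `j` in `X` -/
def Chn (X : Set α) (j : ℕ) : Set (List α) :=
  {l | l.Pairwise (· < ·) ∧ (∀ x ∈ l, x ∈ X) ∧ l.length = j}

/-- the chain groups -/
def Ch (X : Set α) (j : ℕ) : Submodule ℤ (List α →₀ ℤ) := Finsupp.supported ℤ ℤ (Chn X j)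

/-- exactness at the chains of length `j` -/
def Acyc (X : Set α) (j : ℕ) : Prop := ∀ z ∈ Ch X j, bd z = 0 → ∃ w ∈ Ch X (j + 1), bd w = z

/-- exactness at all lengths `≤ k` -/
def AcycLE (X : Set α) (k : ℕ) : Prop := ∀ j ≤ k, Acyc X j

/-- the elements of `S` strictly comparable with `x` -/
def link (x : α) (S : Set α) : Set α := {y | y ∈ S ∧ (y < x ∨ x < y)}

/-- the link of `x` at the moment it is added, when `X` is built from `Y` in the order given by `h` -/
def plink (X Y : Set α) (h : α → ℕ) (x : α) : Set α := link x (Y ∪ {y | y ∈ X ∧ h y < h x})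

/-- elements of `X \ Y` on the same level are incomparable -/
def Lev (X Y : Set α) (h : α → ℕ) : Prop :=
  Y ⊆ X ∧ ∀ x ∈ X, x ∉ Y → ∀ y ∈ X, y ∉ Y → h x = h y → ¬ x < y

theorem Ch.mono {X Y : Set α} (h : X ⊆ Y) (j : ℕ) : Ch X j ≤ Ch Y j := by
  refine Finsupp.supported_mono fun l hl => ⟨hl.1, fun x hx => h (hl.2.1 x hx), hl.2.2⟩

theorem PosA_ind {X : Set α} {j : ℕ} {P : (List α →₀ ℤ) → Prop} (h0 : P 0)
    (hadd : ∀ a b, P a → P b → P (a + b))
    (hs : ∀ l ∈ Chn X j, ∀ n : ℤ, P (Finsupp.single l n)) {z : List α →₀ ℤ} (hz : z ∈ Ch X j) :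
    P z := by
  rw [← Finsupp.sum_single z]
  exact Finset.sum_induction _ P hadd h0 fun l hl => hs l (hz hl) _

theorem PosA_single {X : Set α} {j : ℕ} {l : List α} (hl : l ∈ Chn X j) (n : ℤ) :
    Finsupp.single l n ∈ Ch X j := Finsupp.single_mem_supported ℤ n hl

theorem PosA_lin {X : Set α} {j : ℕ} {M : Type} [AddCommGroup M] (L : (List α →₀ ℤ) →ₗ[ℤ] M)
    {S : Submodule ℤ M} (h : ∀ l ∈ Chn X j, L (Finsupp.single l 1) ∈ S) {z : List α →₀ ℤ}
    (hz : z ∈ Ch X j) : L z ∈ S := by
  refine PosA_ind (P := fun z => L z ∈ S) (by simp) (fun a b ha hb => ?_) (fun l hl n => ?_) hz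
  · rw [map_add]; exact S.add_mem ha hb
  · have : Finsupp.single l n = n • Finsupp.single l (1 : ℤ) := by simp
    rw [this, map_smul]
    exact S.smul_mem n (h l hl)

theorem PosA_cons_chn {S T : Set α} {y : α} (hy : y ∈ T) (hS : ∀ s ∈ S, s ∈ T ∧ y < s) {j : ℕ}
    {l : List α} (hl : l ∈ Chn S j) : y :: l ∈ Chn T (j + 1) := by
  refine ⟨List.pairwise_cons.2 ⟨fun a ha => (hS a (hl.2.1 a ha)).2, hl.1⟩, fun a ha => ?_, ?_⟩
  · rcases List.mem_cons.1 ha with rfl | ha
    · exact hy
    · exact (hS a (hl.2.1 a ha)).1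
  · simp [hl.2.2]

theorem PosA_tail_chn {X : Set α} {y : α} {j : ℕ} {l : List α} (hl : y :: l ∈ Chn X (j + 1)) :
    y ∈ X ∧ l ∈ Chn {v | v ∈ X ∧ y < v} j := by
  obtain ⟨h1, h2, h3⟩ := hl
  rw [List.pairwise_cons] at h1
  refine ⟨h2 y (by simp), h1.2, fun a ha => ⟨h2 a (by simp [ha]), h1.1 a ha⟩, by simpa using h3⟩

theorem PosA_cons_mem {S T : Set α} {y : α} (hy : y ∈ T) (hS : ∀ s ∈ S, s ∈ T ∧ y < s) {j : ℕ}
    {z : List α →₀ ℤ} (hz : z ∈ Ch S j) : consL y z ∈ Ch T (j + 1) := by
  refine PosA_lin (consL y) (fun l hl => ?_) hz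
  rw [consL_single]
  exact PosA_single (PosA_cons_chn hy hS hl) _

theorem PosA_bdL_mem (l : List α) : ∀ (X : Set α) (j : ℕ), l ∈ Chn X (j + 1) → bdL l ∈ Ch X j := by
  induction l with
  | nil => intro X j _; simp [bdL]
  | cons y l ih =>
    intro X j hl
    obtain ⟨hy, ht⟩ := PosA_tail_chn hl
    refine Submodule.sub_mem _ (Ch.mono (fun v hv => hv.1) j (PosA_single ht 1)) ?_
    cases j with
    | zero =>
      have : l = [] := List.length_eq_zero_iff.1 ht.2.2
      subst this
      simp [bdL]
    | succ j => exact PosA_cons_mem hy (fun s hs => hs) (ih _ j ht)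

theorem bd_mem {X : Set α} {j : ℕ} {z : List α →₀ ℤ} (hz : z ∈ Ch X (j + 1)) :
    bd z ∈ Ch X j := by
  refine PosA_lin bd (fun l hl => ?_) hz
  rw [bd_single, one_smul]
  exact PosA_bdL_mem l X j hl

theorem acyc_zero_iff {X : Set α} : Acyc X 0 ↔ X.Nonempty := by
  constructor
  · intro h
    have h0 : ([] : List α) ∈ Chn X 0 := ⟨List.Pairwise.nil, by simp, rfl⟩
    obtain ⟨w, hw, hb⟩ := h _ (PosA_single h0 1) (by simp [bdL])
    by_contra hne
    have : w = 0 := by
      refine PosA_ind (P := fun z => z = 0) rfl (fun a b ha hb => by simp [ha, hb])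
        (fun l hl n => ?_) hw
      obtain ⟨_, h2, h3⟩ := hl
      cases l with
      | nil => simp at h3
      | cons y l => exact absurd ⟨y, h2 y (by simp)⟩ hne
    rw [this, map_zero] at hb
    exact one_ne_zero (Finsupp.single_eq_zero.1 hb.symm)
  · rintro ⟨m, hm⟩ z hz -
    refine PosA_ind (P := fun z => ∃ w ∈ Ch X (0 + 1), bd w = z) ⟨0, Submodule.zero_mem _, by simp⟩
      ?_ ?_ hz
    · rintro a b ⟨u, hu, rfl⟩ ⟨v, hv, rfl⟩
      exact ⟨u + v, Submodule.add_mem _ hu hv, map_add _ _ _⟩
    · intro l hl n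
      have : l = [] := List.length_eq_zero_iff.1 hl.2.2
      subst this
      refine ⟨Finsupp.single [m] n, PosA_single ⟨by simp, by simpa using hm, rfl⟩ n, ?_⟩
      simp [bdL]

open Classical in
/-- insertion of a vertex into a list -/
noncomputable def PosA_insL (x : α) : List α → (List α →₀ ℤ)
  | [] => Finsupp.single [x] 1
  | y :: l => if y < x then - consL y (PosA_insL x l) else Finsupp.single (x :: y :: l) 1

/-- the insertion operator -/
noncomputable def PosA_ins (x : α) : (List α →₀ ℤ) →ₗ[ℤ] (List α →₀ ℤ) :=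
  Finsupp.linearCombination ℤ (PosA_insL x)

open Classical in
/-- removal of a vertex from a list -/
noncomputable def PosA_remL (x : α) : List α → (List α →₀ ℤ)
  | [] => 0
  | y :: l => if y = x then Finsupp.single l 1 else - consL y (PosA_remL x l)

/-- the removal operator -/
noncomputable def PosA_rem (x : α) : (List α →₀ ℤ) →ₗ[ℤ] (List α →₀ ℤ) :=
  Finsupp.linearCombination ℤ (PosA_remL x)

@[simp] theorem PosA_ins_single (x : α) (l : List α) (n : ℤ) :
    PosA_ins x (Finsupp.single l n) = n • PosA_insL x l := by simp [PosA_ins]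

omit [PartialOrder α] in
@[simp] theorem PosA_rem_single (x : α) (l : List α) (n : ℤ) :
    PosA_rem x (Finsupp.single l n) = n • PosA_remL x l := by simp [PosA_rem]

theorem PosA_ins_cons_lt {x y : α} (h : y < x) (z : List α →₀ ℤ) :
    PosA_ins x (consL y z) = - consL y (PosA_ins x z) := by
  induction z using Finsupp.induction_linear with
  | zero => simp
  | add a b ha hb => simp only [map_add, ha, hb]; abel
  | single l n => simp [PosA_insL, h]

theorem PosA_ins_cons_nlt {x y : α} (h : ¬ y < x) (z : List α →₀ ℤ) :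
    PosA_ins x (consL y z) = consL x (consL y z) := by
  induction z using Finsupp.induction_linear with
  | zero => simp
  | add a b ha hb => simp only [map_add, ha, hb]
  | single l n => simp [PosA_insL, h]

theorem PosA_rem_cons_ne {x y : α} (h : y ≠ x) (z : List α →₀ ℤ) :
    PosA_rem x (consL y z) = - consL y (PosA_rem x z) := by
  induction z using Finsupp.induction_linear with
  | zero => simp
  | add a b ha hb => simp only [map_add, ha, hb]; abel
  | single l n => simp [PosA_remL, h]

theorem PosA_insL_nlt {x : α} {l : List α} (h : ∀ y ∈ l, ¬ y < x) :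
    PosA_insL x l = Finsupp.single (x :: l) 1 := by
  cases l with
  | nil => rfl
  | cons y l => simp [PosA_insL, h y (by simp)]

theorem PosA_rem_insL (x : α) (l : List α) :
    PosA_rem x (PosA_insL x l) = Finsupp.single l 1 := by
  induction l with
  | nil => simp [PosA_insL, PosA_remL]
  | cons y l ih =>
    by_cases h : y < x
    · simp [PosA_insL, h, PosA_rem_cons_ne h.ne, ih]
    · simp [PosA_insL, h, PosA_remL]

theorem PosA_rem_ins (x : α) (z : List α →₀ ℤ) : PosA_rem x (PosA_ins x z) = z := by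
  induction z using Finsupp.induction_linear with
  | zero => simp
  | add a b ha hb => simp only [map_add, ha, hb]
  | single l n => simp [PosA_rem_insL]

omit [PartialOrder α] in
theorem PosA_remL_zero {x : α} {l : List α} (h : x ∉ l) : PosA_remL x l = 0 := by
  induction l with
  | nil => rfl
  | cons y l ih =>
    rw [List.mem_cons, not_or] at h
    simp [PosA_remL, Ne.symm h.1, ih h.2]

theorem PosA_rem_zero {x : α} {Z : Set α} (hx : x ∉ Z) {j : ℕ} {z : List α →₀ ℤ}
    (hz : z ∈ Ch Z j) : PosA_rem x z = 0 := by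
  refine (Submodule.mem_bot ℤ).1 (PosA_lin (PosA_rem x) (fun l hl => ?_) hz)
  rw [PosA_rem_single, PosA_remL_zero fun h => hx (hl.2.1 x h)]
  simp

theorem PosA_homotL (x : α) (l : List α) (hl : l.Pairwise (· < ·)) :
    bd (PosA_insL x l) + PosA_ins x (bdL l) = Finsupp.single l 1 := by
  induction l with
  | nil => simp [PosA_insL, bdL]
  | cons y l ih =>
    rw [List.pairwise_cons] at hl
    by_cases h : y < x
    · have e := congrArg (consL y) (ih hl.2)
      rw [map_add, consL_single] at e
      simp only [PosA_insL, h, if_true, map_neg, bd_consL, bdL, map_sub, PosA_ins_single, one_smul,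
        PosA_ins_cons_lt h, ← e]
      abel
    · have e : PosA_insL x l = Finsupp.single (x :: l) 1 :=
        PosA_insL_nlt fun v hv hvx => h ((hl.1 v hv).trans hvx)
      simp only [PosA_insL, h, if_false, bd_single, one_smul, bdL, map_sub, PosA_ins_single,
        PosA_ins_cons_nlt h, e, consL_single]
      abel

theorem PosA_homot (x : α) {S : Set α} {j : ℕ} {c : List α →₀ ℤ} (hc : c ∈ Ch S j) :
    bd (PosA_ins x c) + PosA_ins x (bd c) = c := by
  refine PosA_ind (P := fun c => bd (PosA_ins x c) + PosA_ins x (bd c) = c) (by simp)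
    (fun a b ha hb => ?_) (fun l hl n => ?_) hc
  · simp only [map_add]
    rw [add_add_add_comm, ha, hb]
  · simp only [PosA_ins_single, bd_single, map_smul]
    rw [← smul_add, PosA_homotL x l hl.1]
    simp

theorem PosA_insL_mem (x : α) (l : List α) : ∀ (X : Set α) (j : ℕ), x ∈ X →
    l ∈ Chn (link x X) j → PosA_insL x l ∈ Ch X (j + 1) := by
  induction l with
  | nil =>
    intro X j hx hl
    have : j = 0 := hl.2.2.symm
    subst this
    exact PosA_single ⟨by simp, by simpa using hx, rfl⟩ 1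
  | cons y l ih =>
    intro X j hx hl
    cases j with
    | zero => exact absurd hl.2.2 (by simp)
    | succ j =>
      obtain ⟨hy, ht⟩ := PosA_tail_chn hl
      by_cases h : y < x
      · simp only [PosA_insL, h, if_true]
        refine Submodule.neg_mem _ (PosA_cons_mem (S := {v | v ∈ X ∧ y < v}) hy.1
          (fun s hs => hs) (ih _ j ⟨hx, h⟩ ?_))
        exact ⟨ht.1, fun a ha => ⟨⟨(ht.2.1 a ha).1.1, (ht.2.1 a ha).2⟩, (ht.2.1 a ha).1.2⟩, ht.2.2⟩
      · simp only [PosA_insL, h, if_false]
        have hxy : x < y := hy.2.resolve_left h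
        refine PosA_single (PosA_cons_chn (S := {v | v ∈ X ∧ x < v}) hx (fun s hs => hs)
          ⟨hl.1, fun a ha => ?_, hl.2.2⟩) 1
        rcases List.mem_cons.1 ha with rfl | ha
        · exact ⟨hy.1, hxy⟩
        · exact ⟨(ht.2.1 a ha).1.1, hxy.trans (ht.2.1 a ha).2⟩

theorem PosA_ins_mem {x : α} {X : Set α} (hx : x ∈ X) {j : ℕ} {c : List α →₀ ℤ}
    (hc : c ∈ Ch (link x X) j) : PosA_ins x c ∈ Ch X (j + 1) := by
  refine PosA_lin (PosA_ins x) (fun l hl => ?_) hc
  rw [PosA_ins_single, one_smul]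
  exact PosA_insL_mem x l X j hx hl

theorem PosA_decompL (x : α) (l : List α) : ∀ (X : Set α) (j : ℕ), l ∈ Chn X (j + 1) → x ∈ l →
    ∃ c ∈ Ch (link x X) j, PosA_ins x c = Finsupp.single l 1 := by
  induction l with
  | nil => intro X j _ h; simp at h
  | cons y l ih =>
    intro X j hl hx
    obtain ⟨hy, ht⟩ := PosA_tail_chn hl
    by_cases hxy : x = y
    · subst hxy
      refine ⟨Finsupp.single l 1, PosA_single (X := link x X) ⟨ht.1, fun a ha =>
        ⟨(ht.2.1 a ha).1, Or.inr (ht.2.1 a ha).2⟩, ht.2.2⟩ 1, ?_⟩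
      rw [PosA_ins_single, one_smul, PosA_insL_nlt fun v hv => (ht.2.1 v hv).2.asymm]
    · have hxl : x ∈ l := (List.mem_cons.1 hx).resolve_left hxy
      have hyx : y < x := (ht.2.1 x hxl).2
      cases j with
      | zero =>
        have : l = [] := List.length_eq_zero_iff.1 ht.2.2
        simp [this] at hxl
      | succ j =>
        obtain ⟨c, hc, e⟩ := ih _ j ht hxl
        refine ⟨-consL y c, Submodule.neg_mem _ (PosA_cons_mem (T := link x X) ⟨hy, Or.inl hyx⟩
          (fun s hs => ⟨⟨hs.1.1, hs.2⟩, hs.1.2⟩) hc), ?_⟩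
        rw [map_neg, PosA_ins_cons_lt hyx, neg_neg, e, consL_single]

theorem PosA_decomp (x : α) {X : Set α} {j : ℕ} {z : List α →₀ ℤ} (hz : z ∈ Ch X (j + 1)) :
    ∃ c ∈ Ch (link x X) j, ∃ r ∈ Ch (X \ {x}) (j + 1), z = PosA_ins x c + r := by
  refine PosA_ind (P := fun z => ∃ c ∈ Ch (link x X) j, ∃ r ∈ Ch (X \ {x}) (j + 1),
    z = PosA_ins x c + r) ⟨0, Submodule.zero_mem _, 0, Submodule.zero_mem _, by simp⟩ ?_ ?_ hz
  · rintro a b ⟨c, hc, r, hr, rfl⟩ ⟨c', hc', r', hr', rfl⟩
    refine ⟨c + c', Submodule.add_mem _ hc hc', r + r', Submodule.add_mem _ hr hr', ?_⟩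
    rw [map_add]; abel
  · intro l hl n
    by_cases hx : x ∈ l
    · obtain ⟨c, hc, e⟩ := PosA_decompL x l X j hl hx
      refine ⟨n • c, Submodule.smul_mem _ n hc, 0, Submodule.zero_mem _, ?_⟩
      rw [map_smul, e]; simp
    · refine ⟨0, Submodule.zero_mem _, Finsupp.single l n, PosA_single (X := X \ {x})
        ⟨hl.1, fun a ha => ⟨hl.2.1 a ha, ?_⟩, hl.2.2⟩ n, by simp⟩
      rintro rfl
      exact hx ha

theorem PosA_bd_c {x : α} {X Y : Set α} {j : ℕ} {c r : List α →₀ ℤ} (hc : c ∈ Ch (link x X) j)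
    (hr : r ∈ Ch (X \ {x}) (j + 1)) (hx : x ∉ Y) (hb : bd (PosA_ins x c + r) ∈ Ch Y j) :
    bd c = 0 := by
  have h1 := PosA_rem_zero hx hb
  have h2 := PosA_rem_zero (x := x) (by simp) (bd_mem hr)
  have h3 := PosA_rem_zero (x := x) (fun h => by simpa using h.2) hc
  have h4 := congrArg (PosA_rem x) (PosA_homot x hc)
  rw [map_add, map_add, h2, add_zero] at h1
  rw [map_add, h1, zero_add, PosA_rem_ins, h3] at h4
  exact h4

theorem PosA_fin {X : Set α} {j : ℕ} {z : List α →₀ ℤ} (hz : z ∈ Ch X j) :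
    ∃ T : Finset α, z ∈ Ch (X ∩ T) j := by
  classical
  refine ⟨z.support.biUnion List.toFinset, fun l hl => ?_⟩
  have h := hz hl
  refine ⟨h.1, fun a ha => ⟨h.2.1 a ha, ?_⟩, h.2.2⟩
  simp only [Finset.coe_biUnion, Set.mem_iUnion, Finset.mem_coe, List.mem_toFinset]
  exact ⟨l, hl, ha⟩

/-- cones: `z = ins m c + r`, `bd z = 0` gives `c = - bd r`, so `z = bd (ins m r)` -/
theorem acyc_of_cone {X : Set α} {m : α} (hm : m ∈ X) (h : ∀ x ∈ X, x ≤ m ∨ m ≤ x) (j : ℕ) :
    Acyc X j := by
  cases j with
  | zero => exact acyc_zero_iff.2 ⟨m, hm⟩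
  | succ j =>
    intro z hz hb
    obtain ⟨c, hc, r, hr, rfl⟩ := PosA_decomp m hz
    have hbc := PosA_bd_c hc hr (Y := ∅) (by simp) (by rw [hb]; exact Submodule.zero_mem _)
    have e := PosA_homot m hc
    rw [hbc, map_zero, add_zero] at e
    rw [map_add, e] at hb
    have hr' : r ∈ Ch (link m X) (j + 1) := by
      refine Ch.mono (Y := link m X) (fun v hv => ⟨hv.1, ?_⟩) _ hr
      have hne : v ≠ m := hv.2
      rcases h v hv.1 with h' | h'
      · exact Or.inl (lt_of_le_of_ne h' hne)
      · exact Or.inr (lt_of_le_of_ne h' hne.symm)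
    refine ⟨PosA_ins m r, PosA_ins_mem hm hr', ?_⟩
    have e2 := PosA_homot m hr
    have e3 : bd r = -c := (neg_eq_of_add_eq_zero_right hb).symm
    rw [e3, map_neg] at e2
    rw [← sub_eq_iff_eq_add.1 (show bd (PosA_ins m r) - r = PosA_ins m c by
      rw [← sub_eq_zero, ← sub_eq_zero.2 e2]; abel)]

/-- The push-off lemma.  One vertex: if `x ∉ Y` has maximal level among the vertices outside `Y` in
the support of `z`, write `z = ins x c + r`; `bd z` avoids `x`, so `bd c = 0`; `c` lives in
`plink X Y h x`, `c = bd d`, and `z = d + r - bd (ins x d)`.  Induct on the maximal level `N` (state: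
all vertices of the support are in `Y` or have level `< N`) and, inside, on a finite set containing
the vertices outside `Y` of level `N - 1`. -/
theorem push {X Y : Set α} {h : α → ℕ} (hL : Lev X Y h) {j : ℕ}
    (hl : ∀ x ∈ X, x ∉ Y → Acyc (plink X Y h x) j) {z : List α →₀ ℤ} (hz : z ∈ Ch X (j + 1))
    (hb : bd z ∈ Ch Y j) : ∃ z' ∈ Ch Y (j + 1), ∃ w ∈ Ch X (j + 2), z = z' + bd w := by
  classical
  have outer : ∀ N : ℕ, ∀ z ∈ Ch (Y ∪ {y | y ∈ X ∧ h y < N}) (j + 1), bd z ∈ Ch Y j →
      ∃ z' ∈ Ch Y (j + 1), ∃ w ∈ Ch X (j + 2), z = z' + bd w := by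
    intro N
    induction N with
    | zero =>
      intro z hz _
      exact ⟨z, Ch.mono (by simp) _ hz, 0, Submodule.zero_mem _, by simp⟩
    | succ N ihN =>
      have inner : ∀ T : Finset α, ∀ z ∈ Ch ((Y ∪ {y | y ∈ X ∧ h y < N}) ∪
          {y | y ∈ T ∧ y ∈ X ∧ h y = N}) (j + 1), bd z ∈ Ch Y j →
          ∃ z' ∈ Ch Y (j + 1), ∃ w ∈ Ch X (j + 2), z = z' + bd w := by
        intro T
        induction T using Finset.induction_on with
        | empty => intro z hz hb; exact ihN z (Ch.mono (by simp) _ hz) hb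
        | insert x T hxT ihT =>
          intro z hz hb
          by_cases hx : x ∈ X ∧ x ∉ Y ∧ h x = N
          · obtain ⟨hxX, hxY, hxN⟩ := hx
            obtain ⟨c, hc, r, hr, rfl⟩ := PosA_decomp x hz
            have hbc := PosA_bd_c hc hr hxY hb
            have hc' : c ∈ Ch (plink X Y h x) j := by
              refine Ch.mono (Y := plink X Y h x) (fun v hv => ⟨?_, hv.2⟩) _ hc
              by_cases hvY : v ∈ Y
              · exact Or.inl hvY
              rcases hv.1 with (h1 | h1) | h1
              · exact Or.inl h1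
              · exact Or.inr ⟨h1.1, hxN ▸ h1.2⟩
              · exfalso
                rcases hv.2 with h2 | h2
                · exact hL.2 v h1.2.1 hvY x hxX hxY (h1.2.2.trans hxN.symm) h2
                · exact hL.2 x hxX hxY v h1.2.1 hvY (hxN.trans h1.2.2.symm) h2
            obtain ⟨d, hd, rfl⟩ := hl x hxX hxY c hc' hbc
            have e := PosA_homot x hd
            have hdX : PosA_ins x d ∈ Ch X (j + 2) := by
              refine PosA_ins_mem hxX (Ch.mono (Y := link x X) (fun v hv => ⟨?_, hv.2⟩) _ hd)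
              rcases hv.1 with h1 | h1
              · exact hL.1 h1
              · exact h1.1
            have e2 : PosA_ins x (bd d) + r = d + r + bd (-PosA_ins x d) := by
              rw [map_neg, ← sub_eq_iff_eq_add'.2 e.symm]; abel
            rw [e2] at hb ⊢
            rw [map_add, bd_bd, add_zero] at hb
            obtain ⟨z', hz', w, hw, e3⟩ := ihT (d + r) (Submodule.add_mem _
              (Ch.mono (fun v hv => Or.inl (by
                rcases hv.1 with h1 | h1
                · exact Or.inl h1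
                · exact Or.inr ⟨h1.1, hxN ▸ h1.2⟩)) _ hd)
              (Ch.mono (fun v hv => by
                rcases hv.1 with h1 | h1
                · exact Or.inl h1
                · exact Or.inr ⟨(Finset.mem_insert.1 h1.1).resolve_left hv.2, h1.2⟩) _ hr)) hb
            refine ⟨z', hz', w + -PosA_ins x d, Submodule.add_mem _ hw (Submodule.neg_mem _ hdX), ?_⟩
            rw [e3, map_add, add_assoc]
          · refine ihT z (Ch.mono (fun v hv => ?_) _ hz) hb
            rcases hv with h1 | h1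
            · exact Or.inl h1
            · rcases Finset.mem_insert.1 h1.1 with rfl | h2
              · by_cases hvY : v ∈ Y
                · exact Or.inl (Or.inl hvY)
                · exact absurd ⟨h1.2.1, hvY, h1.2.2⟩ hx
              · exact Or.inr ⟨h2, h1.2⟩
      intro z hz hb
      obtain ⟨T, hT⟩ := PosA_fin hz
      refine inner T z (Ch.mono (fun v hv => ?_) _ hT) hb
      rcases hv.1 with h1 | h1
      · exact Or.inl (Or.inl h1)
      · rcases (Nat.lt_succ_iff.1 h1.2).lt_or_eq with h2 | h2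
        · exact Or.inl (Or.inr ⟨h1.1, h2⟩)
        · exact Or.inr ⟨hv.2, h1.1, h2⟩
  obtain ⟨T, hT⟩ := PosA_fin hz
  refine outer (T.sup h + 1) z (Ch.mono (fun v hv => Or.inr ⟨hv.1, ?_⟩) _ hT) hb
  exact Nat.lt_succ_of_le (Finset.le_sup (f := h) hv.2)

/-- going up: cycles of `Y` bound in `X` -/
theorem acyc_up {X Y : Set α} {h : α → ℕ} (hL : Lev X Y h) {j : ℕ}
    (hl : ∀ x ∈ X, x ∉ Y → Acyc (plink X Y h x) j)
    (hY : ∀ z ∈ Ch Y (j + 1), bd z = 0 → ∃ w ∈ Ch X (j + 2), bd w = z) : Acyc X (j + 1) := by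
  intro z hz hb
  obtain ⟨z', hz', w, hw, rfl⟩ := push hL hl hz (by rw [hb]; exact Submodule.zero_mem _)
  rw [map_add, bd_bd, add_zero] at hb
  obtain ⟨w', hw', rfl⟩ := hY z' hz' hb
  exact ⟨w' + w, Submodule.add_mem _ hw' hw, map_add _ _ _⟩

/-- going down -/
theorem acyc_down {X Y : Set α} {h : α → ℕ} (hL : Lev X Y h) {j : ℕ}
    (hl : ∀ x ∈ X, x ∉ Y → Acyc (plink X Y h x) j) (hX : Acyc X j) : Acyc Y j := by
  intro z hz hb
  obtain ⟨w, hw, rfl⟩ := hX z (Ch.mono hL.1 j hz) hb
  obtain ⟨z', hz', w', hw', rfl⟩ := push hL hl hw hz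
  exact ⟨z', hz', by rw [map_add, bd_bd, add_zero]⟩

/-- a directed set is acyclic: a cycle lives in `{x ∈ X | x ≤ m}` for an upper bound `m` of the
finitely many vertices of its support -/
theorem acyc_of_directed {X : Set α} (hne : X.Nonempty) (hd : DirectedOn (· ≤ ·) X) (j : ℕ) :
    Acyc X j := by
  classical
  intro z hz hb
  obtain ⟨T, hT⟩ := PosA_fin hz
  have hm : ∃ m ∈ X, ∀ v ∈ T, v ∈ X → v ≤ m := by
    clear hT
    induction T using Finset.induction_on with
    | empty => obtain ⟨m, hm⟩ := hne; exact ⟨m, hm, by simp⟩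
    | insert x T hxT ih =>
      obtain ⟨m, hm, hT⟩ := ih
      by_cases hx : x ∈ X
      · obtain ⟨m', hm', h1, h2⟩ := hd x hx m hm
        refine ⟨m', hm', fun v hv hvX => ?_⟩
        rcases Finset.mem_insert.1 hv with rfl | hv
        · exact h1
        · exact (hT v hv hvX).trans h2
      · refine ⟨m, hm, fun v hv hvX => ?_⟩
        rcases Finset.mem_insert.1 hv with rfl | hv
        · exact absurd hvX hx
        · exact hT v hv hvX
  obtain ⟨m, hm, hle⟩ := hm
  obtain ⟨w, hw, e⟩ := acyc_of_cone (X := {v | v ∈ X ∧ v ≤ m}) ⟨hm, le_rfl⟩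
    (fun v hv => Or.inl hv.2) j z
    (Ch.mono (Y := {v | v ∈ X ∧ v ≤ m}) (fun v hv => ⟨hv.1, hle v hv.2 hv.1⟩) j hT) hb
  exact ⟨w, Ch.mono (fun v hv => hv.1) _ hw, e⟩

theorem PosA_map_mem {β : Type} [PartialOrder β] {X : Set α} {Y : Set β} (f : α → β)
    (h1 : ∀ a ∈ X, f a ∈ Y) (h2 : ∀ a ∈ X, ∀ b ∈ X, a < b → f a < f b) {j : ℕ}
    {z : List α →₀ ℤ} (hz : z ∈ Ch X j) : Finsupp.mapDomain (List.map f) z ∈ Ch Y j := by
  refine PosA_lin (Finsupp.lmapDomain ℤ ℤ (List.map f)) (fun l hl => ?_) hz
  rw [Finsupp.lmapDomain_apply, Finsupp.mapDomain_single]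
  refine PosA_single ⟨?_, fun b hb => ?_, by simp [hl.2.2]⟩ 1
  · rw [List.pairwise_map]
    exact hl.1.imp_of_mem fun ha hb hab => h2 _ (hl.2.1 _ ha) _ (hl.2.1 _ hb) hab
  · obtain ⟨a, ha, rfl⟩ := List.mem_map.1 hb
    exact h1 a (hl.2.1 a ha)

/-- transport along an order embedding (use a left inverse `Function.invFunOn f X` and `bd_map`) -/
theorem Acyc.image {β : Type} [PartialOrder β] {X : Set α} (f : α → β)
    (hf : ∀ x ∈ X, ∀ y ∈ X, f x ≤ f y ↔ x ≤ y) {j : ℕ} (h : Acyc X j) : Acyc (f '' X) j := by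
  by_cases hne : X.Nonempty
  swap
  · cases j with
    | zero => exact absurd (acyc_zero_iff.1 h) hne
    | succ j =>
      intro z hz _
      have : z = 0 := by
        refine PosA_ind (P := fun z => z = 0) rfl (fun a b ha hb => by simp [ha, hb])
          (fun l hl n => ?_) hz
        obtain ⟨_, h2, h3⟩ := hl
        cases l with
        | nil => simp at h3
        | cons y l =>
          obtain ⟨v, hv, -⟩ := h2 y (by simp)
          exact absurd ⟨v, hv⟩ hne
      exact ⟨0, Submodule.zero_mem _, by simp [this]⟩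
  have : Nonempty α := ⟨hne.some⟩
  have hlt : ∀ x ∈ X, ∀ y ∈ X, f x < f y ↔ x < y := fun x hx y hy => by
    rw [lt_iff_le_not_ge, lt_iff_le_not_ge, hf x hx y hy, hf y hy x hx]
  set g := Function.invFunOn f X with hg
  have g1 : ∀ b ∈ f '' X, g b ∈ X := fun b hb => Function.invFunOn_mem hb
  have g2 : ∀ b ∈ f '' X, f (g b) = b := fun b hb => Function.invFunOn_eq hb
  intro z hz hb
  have hz' : Finsupp.mapDomain (List.map g) z ∈ Ch X j := by
    refine PosA_map_mem g g1 (fun a ha b hb hab => ?_) hz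
    rw [← hlt _ (g1 a ha) _ (g1 b hb), g2 a ha, g2 b hb]
    exact hab
  obtain ⟨w, hw, e⟩ := h _ hz' (by rw [bd_map, hb, Finsupp.mapDomain_zero])
  refine ⟨Finsupp.mapDomain (List.map f) w, PosA_map_mem f (fun a ha => Set.mem_image_of_mem f ha)
    (fun a ha b hb hab => (hlt a ha b hb).2 hab) hw, ?_⟩
  rw [bd_map, e, ← Finsupp.mapDomain_comp]
  conv_rhs => rw [← Finsupp.mapDomain_id (v := z)]
  refine Finsupp.mapDomain_congr fun l hl => ?_
  simp only [Function.comp, List.map_map, id]
  conv_rhs => rw [← List.map_id l]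
  exact List.map_congr_left fun b hb => g2 b ((hz hl).2.1 b hb)

end Crest.Agent.R185.TB
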